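import Crest.Agent.R087.Sh1_283

/-! Row 87, SHELL S9 (helper52): the abstract diagonalisation theorem. -/

set_option autoImplicit false

noncomputable section

open MeasureTheory Crest.Agent.R087.Sh0x283 Crest.Agent.R087.Sh1x283
open scoped RealInnerProductSpace

namespace Crest.Agent.R087.ABSx52

/-! ### Schur test with the kernel `2^{-|k-l|}` -/

lemma sum_geom (s : Finset ℕ) : ∑ j ∈ s, (1 / 2 : ℝ) ^ j ≤ 2 := by
  have := Summable.sum_le_tsum s (fun i _ => by positivity) summable_geometric_two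
  rwa [tsum_geometric_two] at this

lemma row_sum (F : Finset ℤ) (m : ℤ) : ∑ k ∈ F, (2 : ℝ) ^ (-|m - k|) ≤ 3 := by
  rw [← Finset.sum_filter_add_sum_filter_not F (fun k => m ≤ k)]
  have h1 : ∑ k ∈ F.filter (fun k => m ≤ k), (2 : ℝ) ^ (-|m - k|) ≤ 2 := by
    have e : ∑ k ∈ F.filter (fun k => m ≤ k), (2 : ℝ) ^ (-|m - k|) =
        ∑ j ∈ (F.filter (fun k => m ≤ k)).image (fun k => (k - m).toNat), (1 / 2 : ℝ) ^ j := by
      rw [Finset.sum_image]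
      · refine Finset.sum_congr rfl fun k hk => ?_
        have hk' : m ≤ k := (Finset.mem_filter.1 hk).2
        have : |m - k| = (((k - m).toNat : ℕ) : ℤ) := by
          rw [Int.toNat_of_nonneg (by omega), abs_sub_comm, abs_of_nonneg (by omega)]
        rw [this, zpow_neg, zpow_natCast, one_div, inv_pow]
      · intro a ha b hb hab
        have ha' := (Finset.mem_filter.1 ha).2
        have hb' := (Finset.mem_filter.1 hb).2
        simp only at hab ha' hb'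
        omega
    rw [e]
    exact sum_geom _
  have h2 : ∑ k ∈ F.filter (fun k => ¬ m ≤ k), (2 : ℝ) ^ (-|m - k|) ≤ 1 := by
    have e : ∑ k ∈ F.filter (fun k => ¬ m ≤ k), (2 : ℝ) ^ (-|m - k|) =
        ∑ j ∈ (F.filter (fun k => ¬ m ≤ k)).image (fun k => (m - k - 1).toNat),
          (1 / 2) * (1 / 2 : ℝ) ^ j := by
      rw [Finset.sum_image]
      · refine Finset.sum_congr rfl fun k hk => ?_
        have hk' : ¬ m ≤ k := (Finset.mem_filter.1 hk).2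
        have : |m - k| = (((m - k - 1).toNat + 1 : ℕ) : ℤ) := by
          rw [Nat.cast_add, Int.toNat_of_nonneg (by omega), abs_of_nonneg (by omega)]
          simp
        rw [this, zpow_neg, zpow_natCast, one_div, inv_pow, pow_succ, mul_inv, mul_comm]
      · intro a ha b hb hab
        have ha' := (Finset.mem_filter.1 ha).2
        have hb' := (Finset.mem_filter.1 hb).2
        simp only at hab ha' hb'
        omega
    rw [e, ← Finset.mul_sum]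
    have := sum_geom ((F.filter (fun k => ¬ m ≤ k)).image (fun k => (m - k - 1).toNat))
    linarith
  linarith

lemma schur1 (F : Finset ℤ) (a : ℤ → ℝ) :
    ∑ k ∈ F, ∑ l ∈ F, (2 : ℝ) ^ (-|l - k|) * (a k * a l) ≤ 3 * ∑ k ∈ F, a k ^ 2 := by
  have h1 : ∀ k ∈ F, ∀ l ∈ F, (2 : ℝ) ^ (-|l - k|) * (a k * a l) ≤
      (2 : ℝ) ^ (-|l - k|) * (a k ^ 2 / 2) + (2 : ℝ) ^ (-|l - k|) * (a l ^ 2 / 2) := by
    intro k _ l _
    rw [← mul_add]
    refine mul_le_mul_of_nonneg_left ?_ (by positivity)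
    nlinarith [sq_nonneg (a k - a l)]
  calc ∑ k ∈ F, ∑ l ∈ F, (2 : ℝ) ^ (-|l - k|) * (a k * a l)
      ≤ ∑ k ∈ F, ∑ l ∈ F, ((2 : ℝ) ^ (-|l - k|) * (a k ^ 2 / 2) +
          (2 : ℝ) ^ (-|l - k|) * (a l ^ 2 / 2)) :=
        Finset.sum_le_sum fun k hk => Finset.sum_le_sum fun l hl => h1 k hk l hl
    _ = ∑ k ∈ F, (∑ l ∈ F, (2 : ℝ) ^ (-|l - k|)) * (a k ^ 2 / 2) +
          ∑ l ∈ F, (∑ k ∈ F, (2 : ℝ) ^ (-|l - k|)) * (a l ^ 2 / 2) := by
        simp only [Finset.sum_add_distrib]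
        congr 1
        · exact Finset.sum_congr rfl fun k _ => by rw [Finset.sum_mul]
        · rw [Finset.sum_comm]
          exact Finset.sum_congr rfl fun k _ => by rw [Finset.sum_mul]
    _ ≤ ∑ k ∈ F, 3 * (a k ^ 2 / 2) + ∑ l ∈ F, 3 * (a l ^ 2 / 2) := by
        refine add_le_add (Finset.sum_le_sum fun k _ => ?_) (Finset.sum_le_sum fun l _ => ?_)
        · refine mul_le_mul_of_nonneg_right ?_ (by positivity)
          have := row_sum F k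
          simpa only [abs_sub_comm] using this
        · exact mul_le_mul_of_nonneg_right (row_sum F l) (by positivity)
    _ = 3 * ∑ k ∈ F, a k ^ 2 := by
        rw [← Finset.sum_add_distrib, Finset.mul_sum]
        exact Finset.sum_congr rfl fun k _ => by ring

lemma schur2 (G F : Finset ℤ) (a : ℤ → ℝ) :
    ∑ m ∈ G, (∑ k ∈ F, (2 : ℝ) ^ (-|m - k|) * a k) ^ 2 ≤ 9 * ∑ k ∈ F, a k ^ 2 := by
  have h1 : ∀ m ∈ G, (∑ k ∈ F, (2 : ℝ) ^ (-|m - k|) * a k) ^ 2 ≤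
      3 * ∑ k ∈ F, (2 : ℝ) ^ (-|m - k|) * a k ^ 2 := by
    intro m _
    have h := Finset.sum_sq_le_sum_mul_sum_of_sq_le_mul F
      (r := fun k => (2 : ℝ) ^ (-|m - k|) * a k) (f := fun k => (2 : ℝ) ^ (-|m - k|))
      (g := fun k => (2 : ℝ) ^ (-|m - k|) * a k ^ 2) (fun _ _ => by positivity)
      (fun _ _ => by positivity) (fun _ _ => le_of_eq (by ring))
    refine h.trans (mul_le_mul_of_nonneg_right (row_sum F m) ?_)
    exact Finset.sum_nonneg fun _ _ => by positivity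
  calc ∑ m ∈ G, (∑ k ∈ F, (2 : ℝ) ^ (-|m - k|) * a k) ^ 2
      ≤ ∑ m ∈ G, 3 * ∑ k ∈ F, (2 : ℝ) ^ (-|m - k|) * a k ^ 2 := Finset.sum_le_sum h1
    _ = 3 * ∑ k ∈ F, (∑ m ∈ G, (2 : ℝ) ^ (-|m - k|)) * a k ^ 2 := by
        rw [← Finset.mul_sum, Finset.sum_comm]
        congr 1
        exact Finset.sum_congr rfl fun k _ => by rw [Finset.sum_mul]
    _ ≤ 3 * ∑ k ∈ F, 3 * a k ^ 2 := by
        refine mul_le_mul_of_nonneg_left (Finset.sum_le_sum fun k _ => ?_) (by norm_num)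
        refine mul_le_mul_of_nonneg_right ?_ (by positivity)
        have := row_sum G k
        simpa only [abs_sub_comm] using this
    _ = 9 * ∑ k ∈ F, a k ^ 2 := by
        rw [← Finset.mul_sum]
        ring

/-! ### almost orthogonality -/

section

variable {V : Type*} [SeminormedAddCommGroup V] [InnerProductSpace ℝ V]

/-- Cotlar-Stein for squares. -/
lemma cotlar (D : ℤ → V →ₗ[ℝ] V) (C₀ : ℝ) (hC : 0 ≤ C₀) (sym : ∀ m f g, ⟪D m f, g⟫ = ⟪f, D m g⟫)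
    (ao : ∀ k l f, ‖D k (D l f)‖ ≤ C₀ * (2 : ℝ) ^ (-|k - l|) * ‖f‖) (F : Finset ℤ) (f : V) :
    ∑ k ∈ F, ‖D k f‖ ^ 2 ≤ 3 * C₀ * ‖f‖ ^ 2 := by
  obtain ⟨S, hS⟩ : ∃ S : ℝ, S = ∑ k ∈ F, ‖D k f‖ ^ 2 := ⟨_, rfl⟩
  obtain ⟨g, hg⟩ : ∃ g : V, g = ∑ k ∈ F, D k (D k f) := ⟨_, rfl⟩
  have hS0 : 0 ≤ S := by rw [hS]; exact Finset.sum_nonneg fun _ _ => by positivity
  have e1 : S = ⟪f, g⟫ := by
    rw [hS, hg, inner_sum]
    refine Finset.sum_congr rfl fun k _ => ?_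
    rw [← sym, real_inner_self_eq_norm_sq]
  have e2 : ‖g‖ ^ 2 ≤ 3 * C₀ * S := by
    rw [← real_inner_self_eq_norm_sq, hg, sum_inner]
    calc ∑ k ∈ F, ⟪D k (D k f), ∑ l ∈ F, D l (D l f)⟫
        = ∑ k ∈ F, ∑ l ∈ F, ⟪D l (D k (D k f)), D l f⟫ := by
          refine Finset.sum_congr rfl fun k _ => ?_
          rw [inner_sum]
          exact Finset.sum_congr rfl fun l _ => (sym l (D k (D k f)) (D l f)).symm
      _ ≤ ∑ k ∈ F, ∑ l ∈ F, C₀ * ((2 : ℝ) ^ (-|l - k|) * (‖D k f‖ * ‖D l f‖)) := by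
          refine Finset.sum_le_sum fun k _ => Finset.sum_le_sum fun l _ => ?_
          refine (real_inner_le_norm _ _).trans ?_
          calc ‖D l (D k (D k f))‖ * ‖D l f‖
              ≤ (C₀ * (2 : ℝ) ^ (-|l - k|) * ‖D k f‖) * ‖D l f‖ :=
                mul_le_mul_of_nonneg_right (ao l k _) (norm_nonneg _)
            _ = _ := by ring
      _ = C₀ * ∑ k ∈ F, ∑ l ∈ F, (2 : ℝ) ^ (-|l - k|) * (‖D k f‖ * ‖D l f‖) := by
          rw [Finset.mul_sum]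
          exact Finset.sum_congr rfl fun k _ => by rw [Finset.mul_sum]
      _ ≤ C₀ * (3 * S) := by
          rw [hS]
          exact mul_le_mul_of_nonneg_left (schur1 F fun k => ‖D k f‖) hC
      _ = _ := by ring
  have e3 : S ^ 2 ≤ ‖f‖ ^ 2 * (3 * C₀ * S) := by
    have h1 : S ≤ ‖f‖ * ‖g‖ := by rw [e1]; exact real_inner_le_norm _ _
    calc S ^ 2 ≤ (‖f‖ * ‖g‖) ^ 2 := pow_le_pow_left₀ hS0 h1 2
      _ = ‖f‖ ^ 2 * ‖g‖ ^ 2 := by ring
      _ ≤ ‖f‖ ^ 2 * (3 * C₀ * S) := mul_le_mul_of_nonneg_left e2 (by positivity)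
  rw [← hS]
  rcases hS0.eq_or_lt with h0 | h0
  · rw [← h0]; positivity
  · have : S * S ≤ (3 * C₀ * ‖f‖ ^ 2) * S := by nlinarith
    exact le_of_mul_le_mul_right this h0

/-- the polynomial `q(X) = 3 X^2 - 2 X^3` -/
def qq (X : ℤ → V →ₗ[ℝ] V) (m : ℤ) (f : V) : V :=
  (3 : ℝ) • X m (X m f) - (2 : ℝ) • X m (X m (X m f))

lemma AA_DD (X : ℤ → V →ₗ[ℝ] V) (comm : ∀ m n f, X m (X n f) = X n (X m f)) (m : ℤ) (f : V) :
    AA X m (DD X m f) = qq X m f - qq X (m + 1) f := by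
  simp only [AA, DD, qq, LinearMap.sub_apply, LinearMap.smul_apply, LinearMap.add_apply,
    LinearMap.comp_apply, map_sub, map_add, comm m (m + 1)]
  module

lemma symD (X : ℤ → V →ₗ[ℝ] V) (sym : ∀ m f g, ⟪X m f, g⟫ = ⟪f, X m g⟫) (m : ℤ) (f g : V) :
    ⟪DD X m f, g⟫ = ⟪f, DD X m g⟫ := by
  simp only [DD, LinearMap.sub_apply, inner_sub_left, inner_sub_right, sym]

lemma symA (X : ℤ → V →ₗ[ℝ] V) (sym : ∀ m f g, ⟪X m f, g⟫ = ⟪f, X m g⟫)
    (comm : ∀ m n f, X m (X n f) = X n (X m f)) (m : ℤ) (f g : V) :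
    ⟪AA X m f, g⟫ = ⟪f, AA X m g⟫ := by
  simp only [AA, LinearMap.sub_apply, LinearMap.smul_apply, LinearMap.add_apply,
    LinearMap.comp_apply, inner_sub_left, inner_sub_right, inner_add_left, inner_add_right,
    real_inner_smul_left, real_inner_smul_right, sym, comm (m + 1) m]

/-- the window `{-N, …, N-1}` -/
def win (N : ℕ) : Finset ℤ :=
  (Finset.range (2 * N)).map ⟨fun i : ℕ => (i : ℤ) - N, fun a b h => by
    simp only at h; omega⟩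

lemma sum_win (N : ℕ) {M : Type*} [AddCommMonoid M] (g : ℤ → M) :
    ∑ m ∈ win N, g m = ∑ i ∈ Finset.range (2 * N), g ((i : ℤ) - N) := by
  rw [win, Finset.sum_map]
  rfl

/-- `f_N` -/
def fN (X : ℤ → V →ₗ[ℝ] V) (N : ℕ) (f : V) : V := ∑ m ∈ win N, AA X m (DD X m f)

lemma fN_eq (X : ℤ → V →ₗ[ℝ] V) (comm : ∀ m n f, X m (X n f) = X n (X m f)) (N : ℕ) (f : V) :
    fN X N f = qq X (-(N : ℤ)) f - qq X N f := by
  rw [fN, sum_win]
  have : ∀ i ∈ Finset.range (2 * N), AA X ((i : ℤ) - N) (DD X ((i : ℤ) - N) f) =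
      qq X ((i : ℤ) - N) f - qq X (((i + 1 : ℕ) : ℤ) - N) f := by
    intro i _
    rw [AA_DD X comm]
    congr 2
    push_cast
    ring
  rw [Finset.sum_congr rfl this,
    Finset.sum_range_sub' (fun i : ℕ => qq X ((i : ℤ) - N) f) (2 * N)]
  congr 2
  · simp
  · push_cast
    ring

lemma norm_qq_le (X : ℤ → V →ₗ[ℝ] V) (con : ∀ m f, ‖X m f‖ ≤ ‖f‖) (m : ℤ) (f : V) :
    ‖qq X m f‖ ≤ 5 * ‖X m f‖ := by
  unfold qq
  refine (norm_sub_le _ _).trans ?_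
  rw [norm_smul, norm_smul, Real.norm_eq_abs, Real.norm_eq_abs, abs_of_pos (by norm_num : (0:ℝ) < 3),
    abs_of_pos (by norm_num : (0:ℝ) < 2)]
  have h1 := con m (X m f)
  have h2 := con m (X m (X m f))
  linarith

lemma norm_qq_sub_le (X : ℤ → V →ₗ[ℝ] V) (con : ∀ m f, ‖X m f‖ ≤ ‖f‖) (m : ℤ) (f : V) :
    ‖qq X m f - f‖ ≤ 12 * ‖X m f - f‖ := by
  have e : qq X m f - f = (3 : ℝ) • (X m (X m f - f) + (X m f - f)) -
      (2 : ℝ) • (X m (X m (X m f - f)) + X m (X m f - f) + (X m f - f)) := by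
    unfold qq
    simp only [map_sub]
    module
  rw [e]
  refine (norm_sub_le _ _).trans ?_
  rw [norm_smul, norm_smul, Real.norm_eq_abs, Real.norm_eq_abs, abs_of_pos (by norm_num : (0:ℝ) < 3),
    abs_of_pos (by norm_num : (0:ℝ) < 2)]
  have h1 := con m (X m f - f)
  have h2 := con m (X m (X m f - f))
  have h3 := norm_add_le (X m (X m f - f)) (X m f - f)
  have h4 := norm_add₃_le (a := X m (X m (X m f - f))) (b := X m (X m f - f)) (c := X m f - f)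
  linarith

lemma fN_tendsto (X : ℤ → V →ₗ[ℝ] V) (con : ∀ m f, ‖X m f‖ ≤ ‖f‖)
    (comm : ∀ m n f, X m (X n f) = X n (X m f)) (f : V)
    (l1 : Filter.Tendsto (fun N : ℕ => ‖X (-(N : ℤ)) f - f‖) Filter.atTop (nhds 0))
    (l2 : Filter.Tendsto (fun N : ℕ => ‖X (N : ℤ) f‖) Filter.atTop (nhds 0)) :
    Filter.Tendsto (fun N : ℕ => ‖fN X N f - f‖) Filter.atTop (nhds 0) := by
  have hb : ∀ N : ℕ, ‖fN X N f - f‖ ≤ 12 * ‖X (-(N : ℤ)) f - f‖ + 5 * ‖X (N : ℤ) f‖ := by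
    intro N
    rw [fN_eq X comm, show qq X (-(N : ℤ)) f - qq X N f - f =
      (qq X (-(N : ℤ)) f - f) - qq X N f by abel]
    refine (norm_sub_le _ _).trans ?_
    exact add_le_add (norm_qq_sub_le X con _ _) (norm_qq_le X con _ _)
  have ht : Filter.Tendsto (fun N : ℕ => 12 * ‖X (-(N : ℤ)) f - f‖ + 5 * ‖X (N : ℤ) f‖)
      Filter.atTop (nhds 0) := by
    have := (l1.const_mul 12).add (l2.const_mul 5)
    simpa using this
  exact squeeze_zero (fun _ => norm_nonneg _) hb ht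

lemma norm_fN_le (X : ℤ → V →ₗ[ℝ] V) (con : ∀ m f, ‖X m f‖ ≤ ‖f‖)
    (comm : ∀ m n f, X m (X n f) = X n (X m f)) (N : ℕ) (f : V) : ‖fN X N f‖ ≤ 10 * ‖f‖ := by
  rw [fN_eq X comm]
  refine (norm_sub_le _ _).trans ?_
  have h1 := norm_qq_le X con (-(N : ℤ)) f
  have h2 := norm_qq_le X con N f
  have h3 := con (-(N : ℤ)) f
  have h4 := con N f
  linarith

/-- step (4): recover `‖F‖` from the pieces -/
lemma recover (X : ℤ → V →ₗ[ℝ] V) (sym : ∀ m f g, ⟪X m f, g⟫ = ⟪f, X m g⟫)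
    (con : ∀ m f, ‖X m f‖ ≤ ‖f‖)
    (comm : ∀ m n f, X m (X n f) = X n (X m f)) (g : V)
    (l1 : Filter.Tendsto (fun N : ℕ => ‖X (-(N : ℤ)) g - g‖) Filter.atTop (nhds 0))
    (l2 : Filter.Tendsto (fun N : ℕ => ‖X (N : ℤ) g‖) Filter.atTop (nhds 0)) (R : ℝ)
    (hD : ∀ F : Finset ℤ, ∑ k ∈ F, ‖DD X k g‖ ^ 2 ≤ R)
    (hA : ∀ F : Finset ℤ, ∑ k ∈ F, ‖AA X k g‖ ^ 2 ≤ R) : ‖g‖ ^ 2 ≤ R := by
  have hb : ∀ N : ℕ, ‖g‖ ^ 2 ≤ R + ‖g‖ * ‖fN X N g - g‖ := by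
    intro N
    have e : ‖g‖ ^ 2 = ⟪g, fN X N g⟫ + ⟪g, g - fN X N g⟫ := by
      rw [← inner_add_right, add_sub_cancel, real_inner_self_eq_norm_sq]
    have h1 : ⟪g, fN X N g⟫ ≤ R := by
      rw [fN, inner_sum]
      calc ∑ m ∈ win N, ⟪g, AA X m (DD X m g)⟫
          ≤ ∑ m ∈ win N, (‖DD X m g‖ ^ 2 / 2 + ‖AA X m g‖ ^ 2 / 2) := by
            refine Finset.sum_le_sum fun m _ => ?_
            rw [← symA X sym comm]
            refine (real_inner_le_norm _ _).trans ?_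
            nlinarith [sq_nonneg (‖AA X m g‖ - ‖DD X m g‖)]
        _ = (∑ m ∈ win N, ‖DD X m g‖ ^ 2) / 2 + (∑ m ∈ win N, ‖AA X m g‖ ^ 2) / 2 := by
            rw [Finset.sum_add_distrib, Finset.sum_div, Finset.sum_div]
        _ ≤ R := by
            have := hD (win N)
            have := hA (win N)
            linarith
    have h2 : ⟪g, g - fN X N g⟫ ≤ ‖g‖ * ‖fN X N g - g‖ := by
      refine (real_inner_le_norm _ _).trans ?_
      rw [norm_sub_rev]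
    linarith
  have ht : Filter.Tendsto (fun N : ℕ => R + ‖g‖ * ‖fN X N g - g‖) Filter.atTop (nhds R) := by
    have := ((fN_tendsto X con comm g l1 l2).const_mul ‖g‖).const_add R
    simpa using this
  exact ge_of_tendsto' ht hb

/-- step (3), abstract form -/
lemma piece (X : ℤ → V →ₗ[ℝ] V) (T : V →ₗ[ℝ] V) (P : ℤ → V →ₗ[ℝ] V) (B L C₀ : ℝ) (hB : 0 ≤ B)
    (con : ∀ m f, ‖X m f‖ ≤ ‖f‖) (comm : ∀ m n f, X m (X n f) = X n (X m f))
    (hTP : ∀ k m f, ‖T (P k (AA X m f))‖ ≤ B * (2 : ℝ) ^ (-|k - m|) * ‖f‖)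
    (hcom : ∀ (F : Finset ℤ) f, ∑ k ∈ F, ‖P k (T f) - T (P k f)‖ ^ 2 ≤ L ^ 2 * ‖f‖ ^ 2)
    (hLP : ∀ (F : Finset ℤ) f, ∑ k ∈ F, ‖DD X k f‖ ^ 2 ≤ 3 * C₀ * ‖f‖ ^ 2) (N : ℕ) (f : V)
    (G : Finset ℤ) :
    ∑ m ∈ G, ‖P m (T (fN X N f))‖ ^ 2 ≤ (54 * C₀ * B ^ 2 + 200 * L ^ 2) * ‖f‖ ^ 2 := by
  have h1 : ∀ m, ‖T (P m (fN X N f))‖ ≤ B * ∑ k ∈ win N, (2 : ℝ) ^ (-|m - k|) * ‖DD X k f‖ := by
    intro m
    rw [fN, map_sum, map_sum, Finset.mul_sum]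
    refine (norm_sum_le _ _).trans (Finset.sum_le_sum fun k _ => ?_)
    have := hTP m k (DD X k f)
    linarith
  have h2 : ∑ m ∈ G, ‖T (P m (fN X N f))‖ ^ 2 ≤ 27 * C₀ * B ^ 2 * ‖f‖ ^ 2 := by
    calc ∑ m ∈ G, ‖T (P m (fN X N f))‖ ^ 2
        ≤ ∑ m ∈ G, B ^ 2 * (∑ k ∈ win N, (2 : ℝ) ^ (-|m - k|) * ‖DD X k f‖) ^ 2 := by
          refine Finset.sum_le_sum fun m _ => ?_
          rw [← mul_pow]
          exact pow_le_pow_left₀ (norm_nonneg _) (h1 m) 2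
      _ = B ^ 2 * ∑ m ∈ G, (∑ k ∈ win N, (2 : ℝ) ^ (-|m - k|) * ‖DD X k f‖) ^ 2 := by
          rw [Finset.mul_sum]
      _ ≤ B ^ 2 * (9 * ∑ k ∈ win N, ‖DD X k f‖ ^ 2) :=
          mul_le_mul_of_nonneg_left (schur2 G (win N) _) (by positivity)
      _ ≤ B ^ 2 * (9 * (3 * C₀ * ‖f‖ ^ 2)) := by
          refine mul_le_mul_of_nonneg_left ?_ (by positivity)
          exact mul_le_mul_of_nonneg_left (hLP _ _) (by norm_num)
      _ = _ := by ring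
  have h3 : ∑ m ∈ G, ‖P m (T (fN X N f)) - T (P m (fN X N f))‖ ^ 2 ≤ 100 * L ^ 2 * ‖f‖ ^ 2 := by
    refine (hcom G _).trans ?_
    have := norm_fN_le X con comm N f
    have h4 : ‖fN X N f‖ ^ 2 ≤ (10 * ‖f‖) ^ 2 := pow_le_pow_left₀ (norm_nonneg _) this 2
    calc L ^ 2 * ‖fN X N f‖ ^ 2 ≤ L ^ 2 * (10 * ‖f‖) ^ 2 :=
          mul_le_mul_of_nonneg_left h4 (by positivity)
      _ = _ := by ring
  have h5 : ∀ m ∈ G, ‖P m (T (fN X N f))‖ ^ 2 ≤ 2 * ‖T (P m (fN X N f))‖ ^ 2 +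
      2 * ‖P m (T (fN X N f)) - T (P m (fN X N f))‖ ^ 2 := by
    intro m _
    have h6 : ‖P m (T (fN X N f))‖ ≤ ‖T (P m (fN X N f))‖ +
        ‖P m (T (fN X N f)) - T (P m (fN X N f))‖ := by
      have := norm_add_le (T (P m (fN X N f))) (P m (T (fN X N f)) - T (P m (fN X N f)))
      rwa [add_sub_cancel] at this
    have h7 := pow_le_pow_left₀ (norm_nonneg _) h6 2
    nlinarith [sq_nonneg (‖T (P m (fN X N f))‖ - ‖P m (T (fN X N f)) - T (P m (fN X N f))‖)]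
  calc ∑ m ∈ G, ‖P m (T (fN X N f))‖ ^ 2
      ≤ ∑ m ∈ G, (2 * ‖T (P m (fN X N f))‖ ^ 2 +
          2 * ‖P m (T (fN X N f)) - T (P m (fN X N f))‖ ^ 2) := Finset.sum_le_sum h5
    _ = 2 * ∑ m ∈ G, ‖T (P m (fN X N f))‖ ^ 2 +
          2 * ∑ m ∈ G, ‖P m (T (fN X N f)) - T (P m (fN X N f))‖ ^ 2 := by
        rw [Finset.sum_add_distrib, Finset.mul_sum, Finset.mul_sum]
    _ ≤ _ := by nlinarith

end

theorem abs9 : ABS := by
  refine ⟨fun C₀ => 15 * (1 + C₀), ?_⟩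
  intro V _ _ X T C₀ B L M hC hB hL hM sym con comm l1 l2 aoD aoA hTD hTA hcD hcA hT f
  have hLP : ∀ (F : Finset ℤ) f, ∑ k ∈ F, ‖DD X k f‖ ^ 2 ≤ 3 * C₀ * ‖f‖ ^ 2 := fun F f =>
    cotlar (DD X) C₀ hC (symD X sym) aoD F f
  have key : ∀ N : ℕ, ‖T (fN X N f)‖ ≤ 15 * (1 + C₀) * (B + L) * ‖f‖ := by
    intro N
    have h := recover X sym con comm (T (fN X N f)) (l1 _) (l2 _)
      ((54 * C₀ * B ^ 2 + 200 * L ^ 2) * ‖f‖ ^ 2)
      (fun G => piece X T (DD X) B L C₀ hB con comm hTD hcD hLP N f G)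
      (fun G => piece X T (AA X) B L C₀ hB con comm hTA hcA hLP N f G)
    have h2 : (54 * C₀ * B ^ 2 + 200 * L ^ 2) ≤ (15 * (1 + C₀) * (B + L)) ^ 2 := by
      have e : (15 * (1 + C₀) * (B + L)) ^ 2 = 225 * (1 + C₀) ^ 2 * (B + L) ^ 2 := by ring
      rw [e]
      have h3 : B ^ 2 + L ^ 2 ≤ (B + L) ^ 2 := by nlinarith [mul_nonneg hB hL]
      have h4 : 1 + 2 * C₀ ≤ (1 + C₀) ^ 2 := by nlinarith
      have h5 : 225 * (1 + 2 * C₀) * (B ^ 2 + L ^ 2) ≤ 225 * (1 + C₀) ^ 2 * (B + L) ^ 2 := by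
        have : 0 ≤ B ^ 2 + L ^ 2 := by positivity
        nlinarith [mul_le_mul h4 h3 this (by positivity)]
      have h6 : 0 ≤ C₀ * L ^ 2 := by positivity
      have h7 : 0 ≤ C₀ * B ^ 2 := by positivity
      nlinarith [sq_nonneg B, sq_nonneg L]
    have h3 : ‖T (fN X N f)‖ ^ 2 ≤ (15 * (1 + C₀) * (B + L) * ‖f‖) ^ 2 := by
      rw [mul_pow]
      exact h.trans (mul_le_mul_of_nonneg_right h2 (by positivity))
    exact le_of_sq_le_sq h3 (by positivity)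
  have hb : ∀ N : ℕ, ‖T f‖ ≤ 15 * (1 + C₀) * (B + L) * ‖f‖ + M * ‖fN X N f - f‖ := by
    intro N
    have h1 : ‖T f‖ ≤ ‖T (fN X N f)‖ + ‖T (fN X N f - f)‖ := by
      have := norm_sub_le (T (fN X N f)) (T (fN X N f - f))
      rwa [← map_sub, sub_sub_cancel] at this
    have h2 := hT (fN X N f - f)
    have h3 := key N
    linarith
  have ht : Filter.Tendsto (fun N : ℕ => 15 * (1 + C₀) * (B + L) * ‖f‖ + M * ‖fN X N f - f‖)
      Filter.atTop (nhds (15 * (1 + C₀) * (B + L) * ‖f‖)) := by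
    have := ((fN_tendsto X con comm f (l1 f) (l2 f)).const_mul M).const_add
      (15 * (1 + C₀) * (B + L) * ‖f‖)
    simpa using this
  exact ge_of_tendsto' ht hb

end Crest.Agent.R087.ABSx52
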