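import Crest.Agent.R087.Sh1_283

/-!
Row 87, SHELL leaf S7, item 5 (helper545): integration by parts for `cv`.
-/

set_option autoImplicit false

noncomputable section

open MeasureTheory Crest.Agent.R087.Sh0x283 Crest.Agent.R087.Sh1x283

namespace Crest.Agent.R087.ALG5x545

/-- 2D integrability of `a(r) * b((v - p r)/q) * h(v)` for continuous compactly supported `a, b`,
`h` measurable bounded. -/
theorem integrable2 (a b : ℝ → ℝ) (ha : Continuous a) (hac : HasCompactSupport a)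
    (hb : Continuous b) (hbc : HasCompactSupport b) (h : ℝ → ℝ) (hh : Measurable h) (M : ℝ)
    (hM : ∀ v, |h v| ≤ M) (p q : ℝ) (hq : q ≠ 0) :
    Integrable (fun w : ℝ × ℝ => a w.1 * b (q⁻¹ * (w.2 - p * w.1)) * h w.2)
      (volume.prod volume) := by
  have h1 : Integrable (fun w : ℝ × ℝ => a w.1 * b (q⁻¹ * (w.2 - p * w.1)))
      (volume.prod volume) := by
    apply Continuous.integrable_of_hasCompactSupport
    · fun_prop
    · obtain ⟨R, hR⟩ := hac.exists_pos_le_norm (E := ℝ)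
      obtain ⟨S, hS⟩ := hbc.exists_pos_le_norm (E := ℝ)
      refine HasCompactSupport.intro
        (K := Set.Icc (-R) R ×ˢ Set.Icc (-(|q| * S + |p| * R)) (|q| * S + |p| * R))
        (isCompact_Icc.prod isCompact_Icc) ?_
      rintro ⟨r, v⟩ hrv
      simp only
      by_cases hr : R ≤ ‖r‖
      · rw [hR.2 r hr, zero_mul]
      · by_cases hs : S ≤ ‖q⁻¹ * (v - p * r)‖
        · rw [hS.2 _ hs, mul_zero]
        · exfalso
          apply hrv
          push Not at hr hs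
          rw [Real.norm_eq_abs] at hr hs
          have hr' := abs_lt.1 hr
          refine ⟨⟨hr'.1.le, hr'.2.le⟩, ?_⟩
          have hv : |v| ≤ |q| * S + |p| * R := by
            have e : v = q * (q⁻¹ * (v - p * r)) + p * r := by
              field_simp
              ring
            rw [e]
            calc |q * (q⁻¹ * (v - p * r)) + p * r|
                ≤ |q * (q⁻¹ * (v - p * r))| + |p * r| := abs_add_le _ _
              _ = |q| * |q⁻¹ * (v - p * r)| + |p| * |r| := by rw [abs_mul, abs_mul p r]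
              _ ≤ |q| * S + |p| * R := by
                  gcongr
          have := abs_le.1 hv
          exact ⟨this.1, this.2⟩
  refine (h1.bdd_mul (c := M) (f := fun w : ℝ × ℝ => h w.2) ?_ ?_).congr ?_
  · exact (hh.comp measurable_snd).aestronglyMeasurable
  · exact Filter.Eventually.of_forall fun w => by simpa [Real.norm_eq_abs] using hM w.2
  · exact Filter.Eventually.of_forall fun w => by simp only; ring

theorem cv_nested (a b : ℝ → ℝ) (k l : ℤ) (f : ℝ × ℝ → ℝ) (z : ℝ × ℝ) :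
    cv a k (cv b l f) z = ∫ r, (∫ v, a r * b (((2 : ℝ) ^ l)⁻¹ * (v - 2 ^ k * r)) *
        (((2 : ℝ) ^ l)⁻¹ * f (z.1, z.2 - v))) := by
  unfold cv
  congr 1
  ext r
  simp only
  rw [← integral_const_mul]
  have hl : (0 : ℝ) < 2 ^ l := by positivity
  -- substitution s = 2^{-l} (v - 2^k r)
  obtain ⟨G, hG⟩ : ∃ G : ℝ → ℝ, G = fun s => a r * (b s * f (z.1, z.2 - 2 ^ k * r - 2 ^ l * s)) :=
    ⟨_, rfl⟩
  have e1 : ∀ v : ℝ, a r * b (((2 : ℝ) ^ l)⁻¹ * (v - 2 ^ k * r)) *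
        (((2 : ℝ) ^ l)⁻¹ * f (z.1, z.2 - v)) =
      ((2 : ℝ) ^ l)⁻¹ * G (((2 : ℝ) ^ l)⁻¹ * (v - 2 ^ k * r)) := by
    intro v
    have : z.2 - 2 ^ k * r - 2 ^ l * (((2 : ℝ) ^ l)⁻¹ * (v - 2 ^ k * r)) = z.2 - v := by
      field_simp
      ring
    rw [hG]
    simp only [this]
    ring
  have e0 : (∫ s, a r * (b s * f (z.1, z.2 - 2 ^ k * r - 2 ^ l * s))) = ∫ s, G s := by rw [hG]
  simp_rw [e1]
  rw [e0, integral_const_mul,
    integral_sub_right_eq_self (fun v => G (((2 : ℝ) ^ l)⁻¹ * v)) (2 ^ k * r),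
    Measure.integral_comp_mul_left G (((2 : ℝ) ^ l)⁻¹),
    inv_inv, abs_of_pos hl, smul_eq_mul, ← mul_assoc, inv_mul_cancel₀ hl.ne', one_mul]

theorem alg5 (ω ψ : ℝ → ℝ) (hω : ContDiff ℝ 1 ω) (hωc : HasCompactSupport ω)
    (hψ : ContDiff ℝ 1 ψ) (hψc : HasCompactSupport ψ) (k l : ℤ) (f : ℝ × ℝ → ℝ) (hf : Nice f)
    (z : ℝ × ℝ) :
    cv (deriv ω) k (cv ψ l f) z = (2 : ℝ) ^ (k - l) * cv ω k (cv (deriv ψ) l f) z := by
  obtain ⟨hfm, ⟨M, hM⟩, -⟩ := hf
  have hl : (0 : ℝ) < 2 ^ l := by positivity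
  have hω' : Continuous (deriv ω) := hω.continuous_deriv le_rfl
  have hψ' : Continuous (deriv ψ) := hψ.continuous_deriv le_rfl
  have hωc' : HasCompactSupport (deriv ω) := hωc.deriv
  have hψc' : HasCompactSupport (deriv ψ) := hψc.deriv
  have hh : Measurable (fun v : ℝ => ((2 : ℝ) ^ l)⁻¹ * f (z.1, z.2 - v)) := by
    apply Measurable.const_mul
    exact hfm.comp (measurable_const.prodMk (measurable_const.sub measurable_id))
  have hhM : ∀ v : ℝ, |((2 : ℝ) ^ l)⁻¹ * f (z.1, z.2 - v)| ≤ ((2 : ℝ) ^ l)⁻¹ * M := by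
    intro v
    rw [abs_mul, abs_of_pos (inv_pos.2 hl)]
    have := hM (z.1, z.2 - v)
    gcongr
  rw [cv_nested, cv_nested]
  have sw1 := integral_integral_swap
    (f := fun r v => deriv ω r * ψ (((2 : ℝ) ^ l)⁻¹ * (v - 2 ^ k * r)) *
        (((2 : ℝ) ^ l)⁻¹ * f (z.1, z.2 - v)))
    (integrable2 (deriv ω) ψ hω' hωc' hψ.continuous hψc _ hh _ hhM (2 ^ k) (2 ^ l) hl.ne')
  have sw2 := integral_integral_swap
    (f := fun r v => ω r * deriv ψ (((2 : ℝ) ^ l)⁻¹ * (v - 2 ^ k * r)) *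
        (((2 : ℝ) ^ l)⁻¹ * f (z.1, z.2 - v)))
    (integrable2 ω (deriv ψ) hω.continuous hωc hψ' hψc' _ hh _ hhM (2 ^ k) (2 ^ l) hl.ne')
  rw [sw1, sw2]
  rw [← integral_const_mul]
  congr 1
  ext v
  rw [integral_mul_const, integral_mul_const]
  -- integration by parts
  have hd : ∀ r : ℝ, HasDerivAt (fun r => ψ (((2 : ℝ) ^ l)⁻¹ * (v - 2 ^ k * r)))
      (-((2 : ℝ) ^ (k - l)) * deriv ψ (((2 : ℝ) ^ l)⁻¹ * (v - 2 ^ k * r))) r := by
    intro r
    have h1 : HasDerivAt (fun r : ℝ => ((2 : ℝ) ^ l)⁻¹ * (v - 2 ^ k * r))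
        (((2 : ℝ) ^ l)⁻¹ * (-(2 ^ k * 1))) r :=
      (((hasDerivAt_id r).const_mul ((2 : ℝ) ^ k)).const_sub v).const_mul _
    have h2 : HasDerivAt ψ (deriv ψ (((2 : ℝ) ^ l)⁻¹ * (v - 2 ^ k * r)))
        (((2 : ℝ) ^ l)⁻¹ * (v - 2 ^ k * r)) :=
      (hψ.differentiable one_ne_zero).differentiableAt.hasDerivAt
    have h3 := h2.comp r h1
    have e3 : deriv ψ (((2 : ℝ) ^ l)⁻¹ * (v - 2 ^ k * r)) * (((2 : ℝ) ^ l)⁻¹ * -(2 ^ k * 1)) =
        -((2 : ℝ) ^ (k - l)) * deriv ψ (((2 : ℝ) ^ l)⁻¹ * (v - 2 ^ k * r)) := by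
      rw [zpow_sub₀ (two_ne_zero : (2 : ℝ) ≠ 0)]
      field_simp
    rw [e3] at h3
    exact h3
  have hcomp : ∀ g : ℝ → ℝ, Continuous g → HasCompactSupport g →
      Integrable (fun r : ℝ => g r) := fun g hg hgc => hg.integrable_of_hasCompactSupport hgc
  have key := integral_mul_deriv_eq_deriv_mul_of_integrable
    (u := ω) (v := fun r => ψ (((2 : ℝ) ^ l)⁻¹ * (v - 2 ^ k * r))) (u' := deriv ω)
    (v' := fun r => -((2 : ℝ) ^ (k - l)) * deriv ψ (((2 : ℝ) ^ l)⁻¹ * (v - 2 ^ k * r)))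
    (fun r _ => (hω.differentiable one_ne_zero).differentiableAt.hasDerivAt) (fun r _ => hd r)
    (by
      apply Continuous.integrable_of_hasCompactSupport
      · have := hω.continuous
        fun_prop
      · exact hωc.mul_right)
    (by
      apply Continuous.integrable_of_hasCompactSupport
      · have := hψ.continuous
        fun_prop
      · exact hωc'.mul_right)
    (by
      apply Continuous.integrable_of_hasCompactSupport
      · have := hψ.continuous
        have := hω.continuous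
        fun_prop
      · exact hωc.mul_right)
  have e2 : ∫ r, ω r * (-((2 : ℝ) ^ (k - l)) * deriv ψ (((2 : ℝ) ^ l)⁻¹ * (v - 2 ^ k * r))) =
      -((2 : ℝ) ^ (k - l) * ∫ r, ω r * deriv ψ (((2 : ℝ) ^ l)⁻¹ * (v - 2 ^ k * r))) := by
    rw [← integral_const_mul, ← integral_neg]
    congr 1
    ext r
    ring
  rw [e2] at key
  have key' := neg_injective key
  rw [← key']
  ring

end Crest.Agent.R087.ALG5x545
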