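import Crest.Agent.R087.Sh1_283

/-! Row 87, OUTER SHELL, leaf S7 (`ALG`): calculus of `cv`.  helper390. -/

set_option autoImplicit false

noncomputable section

open MeasureTheory Crest.Agent.R087.Sh0x283 Crest.Agent.R087.Sh1x283

namespace Crest.Agent.R087.ALGx390

/-! ### integrability -/

/-- a continuous function with compact support vanishes outside an interval -/
theorem cpt_bd {φ : ℝ → ℝ} (hc : HasCompactSupport φ) : ∃ R : ℝ, 0 ≤ R ∧ ∀ r, R < |r| → φ r = 0 := by
  obtain ⟨R, hR⟩ := hc.isCompact.isBounded.subset_closedBall (0 : ℝ)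
  refine ⟨max R 0, le_max_right _ _, fun r hr => ?_⟩
  by_contra h
  have h1 : r ∈ tsupport φ := subset_tsupport _ h
  have h2 := hR h1
  rw [Metric.mem_closedBall, Real.dist_eq, sub_zero] at h2
  exact absurd (h2.trans (le_max_left _ _)) (not_le.mpr hr)

theorem cpt_int {φ : ℝ → ℝ} (h : Continuous φ) (hc : HasCompactSupport φ) : Integrable φ :=
  h.integrable_of_hasCompactSupport hc

/-- profile times bounded measurable -/
theorem int_mul {φ : ℝ → ℝ} (h : Continuous φ) (hc : HasCompactSupport φ) {F : ℝ → ℝ}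
    (hF : Measurable F) {M : ℝ} (hM : ∀ r, |F r| ≤ M) : Integrable fun r => φ r * F r :=
  (cpt_int h hc).mul_bdd hF.aestronglyMeasurable (Filter.Eventually.of_forall fun r => by
    rw [Real.norm_eq_abs]; exact hM r)

theorem int_cv {φ : ℝ → ℝ} (h : Continuous φ) (hc : HasCompactSupport φ) {f : ℝ × ℝ → ℝ}
    (hf : Nice f) (x y c : ℝ) : Integrable fun r => φ r * f (x, y - c * r) := by
  obtain ⟨hm, ⟨M, hM⟩, _⟩ := hf
  refine int_mul h hc (hm.comp (by fun_prop)) (M := M) fun r => hM _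

/-- joint integrability in `(z, r)` -/
theorem int_joint {φ : ℝ → ℝ} (h : Continuous φ) (hc : HasCompactSupport φ) {H : ℝ × ℝ → ℝ → ℝ}
    (hH : Measurable (Function.uncurry H)) {M R : ℝ} (hM : ∀ z r, |H z r| ≤ M)
    (hB : ∀ z r, φ r ≠ 0 → R < ‖z‖ → H z r = 0) :
    Integrable (Function.uncurry fun z r => φ r * H z r) (volume.prod volume) := by
  have h1 : Integrable ((Metric.closedBall (0 : ℝ × ℝ) R).indicator (fun _ => M)) :=
    (integrable_indicator_iff Metric.isClosed_closedBall.measurableSet).2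
      (integrableOn_const (measure_closedBall_lt_top).ne)
  have h2 : Integrable (fun p : (ℝ × ℝ) × ℝ =>
      (Metric.closedBall (0 : ℝ × ℝ) R).indicator (fun _ => M) p.1 * |φ p.2|)
      (volume.prod volume) := h1.mul_prod (cpt_int h hc).abs
  refine h2.mono' ?_ (Filter.Eventually.of_forall fun p => ?_)
  · have : Measurable fun p : (ℝ × ℝ) × ℝ => φ p.2 * H p.1 p.2 :=
      (h.measurable.comp measurable_snd).mul hH
    exact this.aestronglyMeasurable
  · simp only [Function.uncurry]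
    rw [Real.norm_eq_abs, abs_mul, mul_comm]
    by_cases hz : ‖p.1‖ ≤ R
    · rw [Set.indicator_of_mem (by simpa using hz)]
      exact mul_le_mul_of_nonneg_right (hM _ _) (abs_nonneg _)
    · rw [Set.indicator_of_notMem (by simpa using hz)]
      by_cases hφ : φ p.2 = 0
      · simp [hφ]
      · rw [hB p.1 p.2 hφ (not_le.mp hz)]
        simp

theorem meas_sh (c : ℝ) : Measurable fun p : (ℝ × ℝ) × ℝ => (p.1.1, p.1.2 - c * p.2) := by
  fun_prop

theorem norm_sh {z : ℝ × ℝ} {c r R Rφ : ℝ} (hr : |r| ≤ Rφ) (h : R + |c| * Rφ < ‖z‖) :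
    R < ‖((z.1, z.2 - c * r) : ℝ × ℝ)‖ := by
  have h0 : |c * r| ≤ |c| * Rφ := by
    rw [abs_mul]; exact mul_le_mul_of_nonneg_left hr (abs_nonneg c)
  rw [Prod.norm_def] at h ⊢
  simp only [Real.norm_eq_abs] at h ⊢
  rcases lt_max_iff.mp h with h | h
  · refine lt_max_iff.mpr (Or.inl ?_)
    have : 0 ≤ |c| * Rφ := (abs_nonneg _).trans h0
    linarith
  · refine lt_max_iff.mpr (Or.inr ?_)
    have := abs_sub_abs_le_abs_sub z.2 (c * r)
    linarith

/-- Cauchy-Schwarz with a profile -/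
theorem cs {φ F : ℝ → ℝ} (h0 : Integrable fun r => |φ r|) (h1 : Integrable fun r => φ r * F r)
    (h2 : Integrable fun r => |φ r| * F r ^ 2) :
    (∫ r, φ r * F r) ^ 2 ≤ (∫ r, |φ r|) * ∫ r, |φ r| * F r ^ 2 := by
  have h1' : Integrable fun r => |φ r| * |F r| := by
    refine h1.abs.congr (Filter.Eventually.of_forall fun r => ?_)
    simp only [abs_mul]
  have key : ∀ a : ℝ, 0 ≤ (∫ r, |φ r|) * (a * a) + (-2 * ∫ r, |φ r| * |F r|) * a +
      ∫ r, |φ r| * F r ^ 2 := by
    intro a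
    have e : ∫ r, |φ r| * (|F r| - a) ^ 2 = (∫ r, |φ r|) * (a * a) +
        (-2 * ∫ r, |φ r| * |F r|) * a + ∫ r, |φ r| * F r ^ 2 := by
      have e1 : (fun r => |φ r| * (|F r| - a) ^ 2) = fun r => |φ r| * F r ^ 2 +
          ((-2 * a) * (|φ r| * |F r|) + (a * a) * |φ r|) := by
        funext r
        have : |F r| ^ 2 = F r ^ 2 := sq_abs _
        rw [← this]; ring
      have h3 : Integrable fun r => (-2 * a) * (|φ r| * |F r|) := h1'.const_mul _
      have h4 : Integrable fun r => (a * a) * |φ r| := h0.const_mul _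
      have h5 : Integrable fun r => (-2 * a) * (|φ r| * |F r|) + (a * a) * |φ r| := h3.add h4
      rw [e1, integral_add h2 h5, integral_add h3 h4, integral_const_mul, integral_const_mul]
      ring
    rw [← e]
    exact integral_nonneg fun r => mul_nonneg (abs_nonneg _) (sq_nonneg _)
  have hd := discrim_le_zero key
  unfold discrim at hd
  have h3 : |∫ r, φ r * F r| ≤ ∫ r, |φ r| * |F r| := by
    refine (abs_integral_le_integral_abs).trans (le_of_eq ?_)
    simp only [abs_mul]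
  have h4 : (∫ r, φ r * F r) ^ 2 ≤ (∫ r, |φ r| * |F r|) ^ 2 := by
    rw [← sq_abs]
    exact pow_le_pow_left₀ (abs_nonneg _) h3 2
  nlinarith

theorem nice_int {f : ℝ × ℝ → ℝ} (hf : Nice f) : Integrable f := by
  obtain ⟨hm, ⟨M, hM⟩, ⟨R, hR⟩⟩ := hf
  have h1 : Integrable ((Metric.closedBall (0 : ℝ × ℝ) R).indicator (fun _ => M)) :=
    (integrable_indicator_iff Metric.isClosed_closedBall.measurableSet).2
      (integrableOn_const (measure_closedBall_lt_top).ne)
  refine h1.mono' hm.aestronglyMeasurable (Filter.Eventually.of_forall fun z => ?_)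
  by_cases hz : ‖z‖ ≤ R
  · rw [Set.indicator_of_mem (by simpa using hz), Real.norm_eq_abs]
    exact hM z
  · rw [Set.indicator_of_notMem (by simpa using hz), hR z (not_le.mp hz)]
    simp

theorem nice_mul {f g : ℝ × ℝ → ℝ} (hf : Nice f) (hg : Nice g) : Nice fun z => f z * g z := by
  obtain ⟨hm, ⟨M, hM⟩, ⟨R, hR⟩⟩ := hf
  obtain ⟨hm', ⟨M', hM'⟩, _⟩ := hg
  refine ⟨hm.mul hm', ⟨M * M', fun z => ?_⟩, ⟨R, fun z hz => by simp only [hR z hz, zero_mul]⟩⟩
  rw [abs_mul]
  exact mul_le_mul (hM z) (hM' z) (abs_nonneg _) ((abs_nonneg _).trans (hM z))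

theorem nice_sq {f : ℝ × ℝ → ℝ} (hf : Nice f) : Nice fun z => f z ^ 2 := by
  simpa only [sq] using nice_mul hf hf

/-! ### items 1, 2 -/

theorem alg1 : ∀ φ : ℝ → ℝ, Continuous φ → HasCompactSupport φ → ∀ k f, Nice f → Nice (cv φ k f) := by
  intro φ h hc k f hf
  obtain ⟨hm, ⟨M, hM⟩, ⟨R, hR⟩⟩ := hf
  obtain ⟨Rφ, hRφ, hφ⟩ := cpt_bd hc
  have hM0 : 0 ≤ M := (abs_nonneg _).trans (hM 0)
  refine ⟨?_, ⟨M * ∫ r, |φ r|, fun z => ?_⟩, ⟨R + |(2 : ℝ) ^ k| * Rφ, fun z hz => ?_⟩⟩
  · have h1 : Measurable (Function.uncurry fun (z : ℝ × ℝ) r => φ r * f (z.1, z.2 - (2 : ℝ) ^ k * r)) :=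
      (h.measurable.comp measurable_snd).mul (hm.comp (meas_sh _))
    exact (h1.stronglyMeasurable.integral_prod_right).measurable
  · unfold cv
    refine (abs_integral_le_integral_abs).trans ?_
    rw [← integral_const_mul]
    refine integral_mono (int_cv h hc ⟨hm, ⟨M, hM⟩, ⟨R, hR⟩⟩ _ _ _).abs
      ((cpt_int h hc).abs.const_mul _) fun r => ?_
    simp only [abs_mul]
    rw [mul_comm]
    exact mul_le_mul_of_nonneg_right (hM _) (abs_nonneg _)
  · unfold cv
    refine integral_eq_zero_of_ae (Filter.Eventually.of_forall fun r => ?_)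
    by_cases hr : |r| ≤ Rφ
    · simp [hR _ (norm_sh hr hz)]
    · simp [hφ r (not_le.mp hr)]

/-- translation invariance in `y` -/
theorem int_shift (F : ℝ × ℝ → ℝ) (c : ℝ) : ∫ z : ℝ × ℝ, F (z.1, z.2 - c) = ∫ z, F z := by
  have e : (fun z : ℝ × ℝ => F (z.1, z.2 - c)) = fun z => F (z - (0, c)) := by
    funext z
    congr 1
    ext <;> simp
  rw [e]
  exact integral_sub_right_eq_self F ((0, c) : ℝ × ℝ)

theorem alg2 : ∀ φ : ℝ → ℝ, Continuous φ → HasCompactSupport φ → ∀ k f, Nice f →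
    ∫ z, (cv φ k f z) ^ 2 ≤ (∫ r, |φ r|) ^ 2 * ∫ z, (f z) ^ 2 := by
  intro φ h hc k f hf
  obtain ⟨Rφ, hRφ, hφ⟩ := cpt_bd hc
  have hcv := nice_sq (alg1 φ h hc k f hf)
  have hf2 := nice_sq hf
  have habs : Continuous fun r => |φ r| := h.abs
  have habc : HasCompactSupport fun r => |φ r| := hc.comp_left abs_zero
  obtain ⟨hm2, ⟨M2, hM2⟩, ⟨R2, hR2⟩⟩ := id hf2
  have hJ : Integrable (Function.uncurry fun (z : ℝ × ℝ) r =>
      |φ r| * f (z.1, z.2 - (2 : ℝ) ^ k * r) ^ 2) (volume.prod volume) := by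
    refine int_joint habs habc (H := fun z r => f (z.1, z.2 - (2 : ℝ) ^ k * r) ^ 2)
      (M := M2) (R := R2 + |(2 : ℝ) ^ k| * Rφ) ?_ (fun z r => hM2 _) fun z r hr hz => ?_
    · exact hm2.comp (meas_sh _)
    · have hr' : |r| ≤ Rφ := by
        by_contra hh
        exact hr (by rw [hφ r (not_le.mp hh), abs_zero])
      exact hR2 _ (norm_sh hr' hz)
  have h1 : ∫ z, (cv φ k f z) ^ 2 ≤ ∫ z : ℝ × ℝ, (∫ r, |φ r|) *
      ∫ r, |φ r| * f (z.1, z.2 - (2 : ℝ) ^ k * r) ^ 2 := by
    refine integral_mono (nice_int hcv) ?_ fun z => ?_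
    · exact (hJ.integral_prod_left).const_mul _
    · have hs : Nice fun z => f z ^ 2 := hf2
      exact cs (cpt_int h hc).abs (int_cv h hc hf _ _ _) (int_cv habs habc hs _ _ _)
  refine h1.trans (le_of_eq ?_)
  rw [integral_const_mul, integral_integral_swap hJ]
  have e : ∀ r, ∫ z : ℝ × ℝ, |φ r| * f (z.1, z.2 - (2 : ℝ) ^ k * r) ^ 2 =
      |φ r| * ∫ z, f z ^ 2 := by
    intro r
    rw [integral_const_mul, int_shift (fun z => f z ^ 2)]
  simp only [e]
  rw [integral_mul_const]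
  ring

/-! ### composition -/

theorem int_two {φ ψ : ℝ → ℝ} (h : Continuous φ) (hc : HasCompactSupport φ) (h' : Continuous ψ)
    (hc' : HasCompactSupport ψ) {F : ℝ × ℝ → ℝ} (hF : Measurable F) {M : ℝ} (hM : ∀ p, |F p| ≤ M) :
    Integrable (fun p : ℝ × ℝ => φ p.1 * ψ p.2 * F p) (volume.prod volume) :=
  ((cpt_int h hc).mul_prod (cpt_int h' hc')).mul_bdd hF.aestronglyMeasurable
    (Filter.Eventually.of_forall fun p => by rw [Real.norm_eq_abs]; exact hM p)

/-- profile in the first variable, bounded with bounded support in the second one -/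
theorem int_half {φ : ℝ → ℝ} (h : Continuous φ) (hc : HasCompactSupport φ) {H : ℝ → ℝ → ℝ}
    (hH : Measurable (Function.uncurry H)) {M R : ℝ} (hM : ∀ r s, |H r s| ≤ M)
    (hB : ∀ r s, φ r ≠ 0 → R < |s| → H r s = 0) :
    Integrable (Function.uncurry fun r s => φ r * H r s) (volume.prod volume) := by
  have h1 : Integrable ((Metric.closedBall (0 : ℝ) R).indicator (fun _ => M)) :=
    (integrable_indicator_iff Metric.isClosed_closedBall.measurableSet).2
      (integrableOn_const (measure_closedBall_lt_top).ne)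
  have h2 : Integrable (fun p : ℝ × ℝ =>
      |φ p.1| * (Metric.closedBall (0 : ℝ) R).indicator (fun _ => M) p.2)
      (volume.prod volume) := (cpt_int h hc).abs.mul_prod h1
  refine h2.mono' ?_ (Filter.Eventually.of_forall fun p => ?_)
  · have : Measurable fun p : ℝ × ℝ => φ p.1 * H p.1 p.2 :=
      (h.measurable.comp measurable_fst).mul hH
    exact this.aestronglyMeasurable
  · simp only [Function.uncurry]
    rw [Real.norm_eq_abs, abs_mul]
    by_cases hz : |p.2| ≤ R
    · rw [Set.indicator_of_mem (by simpa using hz)]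
      exact mul_le_mul_of_nonneg_left (hM _ _) (abs_nonneg _)
    · rw [Set.indicator_of_notMem (by simpa using hz)]
      by_cases hφ : φ p.1 = 0
      · simp [hφ]
      · rw [hB p.1 p.2 hφ (not_le.mp hz)]
        simp

/-- substitution `s ↦ s - c r` in the inner integral + Fubini -/
theorem cv_cv {φ ψ : ℝ → ℝ} (h : Continuous φ) (hc : HasCompactSupport φ) (h' : Continuous ψ)
    (hc' : HasCompactSupport ψ) (k l : ℤ) {f : ℝ × ℝ → ℝ} (hf : Nice f) (z : ℝ × ℝ) :
    cv φ k (cv ψ l f) z = cv (fun s => ∫ r, φ r * ψ (s - (2 : ℝ) ^ (k - l) * r)) l f z := by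
  obtain ⟨hm, ⟨M, hM⟩, _⟩ := id hf
  obtain ⟨Rφ, hRφ, hφ⟩ := cpt_bd hc
  obtain ⟨Rψ, hRψ, hψ⟩ := cpt_bd hc'
  obtain ⟨Mψ, hMψ⟩ := hc'.exists_bound_of_continuous h'
  have hkl : (2 : ℝ) ^ l * (2 : ℝ) ^ (k - l) = (2 : ℝ) ^ k := by
    rw [← zpow_add₀ two_ne_zero]; congr 1; ring
  unfold cv
  simp only
  have e1 : ∀ r, φ r * (∫ s, ψ s * f (z.1, z.2 - (2 : ℝ) ^ k * r - (2 : ℝ) ^ l * s)) =
      ∫ s, φ r * (ψ (s - (2 : ℝ) ^ (k - l) * r) * f (z.1, z.2 - (2 : ℝ) ^ l * s)) := by
    intro r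
    rw [← integral_sub_right_eq_self _ ((2 : ℝ) ^ (k - l) * r), ← integral_const_mul]
    refine integral_congr_ae (Filter.Eventually.of_forall fun s => ?_)
    simp only
    have e : z.2 - (2 : ℝ) ^ k * r - (2 : ℝ) ^ l * (s - (2 : ℝ) ^ (k - l) * r) =
        z.2 - (2 : ℝ) ^ l * s := by
      rw [← hkl]; ring
    rw [e]
  simp only [e1]
  have hI : Integrable (Function.uncurry fun r s => φ r * (ψ (s - (2 : ℝ) ^ (k - l) * r) *
      f (z.1, z.2 - (2 : ℝ) ^ l * s))) (volume.prod volume) := by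
    refine int_half h hc (H := fun r s => ψ (s - (2 : ℝ) ^ (k - l) * r) *
      f (z.1, z.2 - (2 : ℝ) ^ l * s)) (M := Mψ * M) (R := Rψ + |(2 : ℝ) ^ (k - l)| * Rφ) ?_ ?_ ?_
    · have m1 : Measurable fun p : ℝ × ℝ => ψ (p.2 - (2 : ℝ) ^ (k - l) * p.1) :=
        h'.measurable.comp (by fun_prop)
      have m2 : Measurable fun p : ℝ × ℝ => f (z.1, z.2 - (2 : ℝ) ^ l * p.2) :=
        hm.comp (by fun_prop)
      exact m1.mul m2
    · intro r s
      rw [abs_mul]
      exact mul_le_mul (hMψ _) (hM _) (abs_nonneg _) ((norm_nonneg _).trans (hMψ 0))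
    · intro r s hr hs
      have hr' : |r| ≤ Rφ := by
        by_contra hh
        exact hr (hφ r (not_le.mp hh))
      have h0 : |(2 : ℝ) ^ (k - l) * r| ≤ |(2 : ℝ) ^ (k - l)| * Rφ := by
        rw [abs_mul]; exact mul_le_mul_of_nonneg_left hr' (abs_nonneg _)
      have h1 := abs_sub_abs_le_abs_sub s ((2 : ℝ) ^ (k - l) * r)
      rw [hψ _ (by linarith), zero_mul]
  rw [integral_integral_swap hI]
  refine integral_congr_ae (Filter.Eventually.of_forall fun s => ?_)
  simp only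
  rw [← integral_mul_const]
  refine integral_congr_ae (Filter.Eventually.of_forall fun r => ?_)
  simp only
  ring

theorem alg3 : ∀ φ ψ : ℝ → ℝ, Continuous φ → HasCompactSupport φ → Continuous ψ →
    HasCompactSupport ψ → ∀ k l f, Nice f → cv φ k (cv ψ l f) = cv ψ l (cv φ k f) := by
  intro φ ψ h hc h' hc' k l f hf
  obtain ⟨hm, ⟨M, hM⟩, _⟩ := id hf
  funext z
  unfold cv
  simp only
  have hI : Integrable (Function.uncurry fun r s => φ r * (ψ s *
      f (z.1, z.2 - (2 : ℝ) ^ k * r - (2 : ℝ) ^ l * s))) (volume.prod volume) := by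
    have h1 := int_two h hc h' hc' (F := fun p => f (z.1, z.2 - (2 : ℝ) ^ k * p.1 -
      (2 : ℝ) ^ l * p.2)) (hm.comp (by fun_prop)) (M := M) (fun p => hM _)
    refine h1.congr (Filter.Eventually.of_forall fun p => ?_)
    simp only [Function.uncurry]
    ring
  have e1 : ∀ r, φ r * (∫ s, ψ s * f (z.1, z.2 - (2 : ℝ) ^ k * r - (2 : ℝ) ^ l * s)) =
      ∫ s, φ r * (ψ s * f (z.1, z.2 - (2 : ℝ) ^ k * r - (2 : ℝ) ^ l * s)) := fun r =>
    (integral_const_mul _ _).symm
  have e2 : ∀ s, ψ s * (∫ r, φ r * f (z.1, z.2 - (2 : ℝ) ^ l * s - (2 : ℝ) ^ k * r)) =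
      ∫ r, φ r * (ψ s * f (z.1, z.2 - (2 : ℝ) ^ k * r - (2 : ℝ) ^ l * s)) := by
    intro s
    rw [← integral_const_mul]
    refine integral_congr_ae (Filter.Eventually.of_forall fun r => ?_)
    simp only
    rw [sub_right_comm]
    ring
  simp only [e1, e2]
  exact integral_integral_swap hI

theorem alg4 : ∀ φ : ℝ → ℝ, Continuous φ → HasCompactSupport φ → ∀ k f g, Nice f → Nice g →
    ∫ z, cv φ k f z * g z = ∫ z, f z * cv (fun r => φ (-r)) k g z := by
  intro φ h hc k f g hf hg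
  obtain ⟨hm, ⟨M, hM⟩, ⟨R, hR⟩⟩ := id hf
  obtain ⟨hm', ⟨M', hM'⟩, ⟨R', hR'⟩⟩ := id hg
  have hM0 : 0 ≤ M := (abs_nonneg _).trans (hM 0)
  unfold cv
  have e1 : ∀ z : ℝ × ℝ, (∫ r, φ r * f (z.1, z.2 - (2 : ℝ) ^ k * r)) * g z =
      ∫ r, φ r * (f (z.1, z.2 - (2 : ℝ) ^ k * r) * g z) := by
    intro z
    rw [← integral_mul_const]
    refine integral_congr_ae (Filter.Eventually.of_forall fun r => ?_)
    simp only
    ring
  have e2 : ∀ z : ℝ × ℝ, f z * (∫ r, φ (-r) * g (z.1, z.2 - (2 : ℝ) ^ k * r)) =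
      ∫ r, φ r * (f z * g (z.1, z.2 + (2 : ℝ) ^ k * r)) := by
    intro z
    rw [← integral_neg_eq_self (fun r => φ (-r) * g (z.1, z.2 - (2 : ℝ) ^ k * r)),
      ← integral_const_mul]
    refine integral_congr_ae (Filter.Eventually.of_forall fun r => ?_)
    simp only [neg_neg, mul_neg, sub_neg_eq_add]
    ring
  simp only [e1, e2]
  have hI1 : Integrable (Function.uncurry fun (z : ℝ × ℝ) r =>
      φ r * (f (z.1, z.2 - (2 : ℝ) ^ k * r) * g z)) (volume.prod volume) := by
    refine int_joint h hc (H := fun z r => f (z.1, z.2 - (2 : ℝ) ^ k * r) * g z)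
      (M := M * M') (R := R') ?_ (fun z r => ?_) fun z r hr hz => ?_
    · exact (hm.comp (meas_sh _)).mul (hm'.comp measurable_fst)
    · rw [abs_mul]
      exact mul_le_mul (hM _) (hM' _) (abs_nonneg _) hM0
    · rw [hR' z hz, mul_zero]
  have hI2 : Integrable (Function.uncurry fun (z : ℝ × ℝ) r =>
      φ r * (f z * g (z.1, z.2 + (2 : ℝ) ^ k * r))) (volume.prod volume) := by
    refine int_joint h hc (H := fun z r => f z * g (z.1, z.2 + (2 : ℝ) ^ k * r))
      (M := M * M') (R := R) ?_ (fun z r => ?_) fun z r hr hz => ?_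
    · have m1 : Measurable fun p : (ℝ × ℝ) × ℝ => (p.1.1, p.1.2 + (2 : ℝ) ^ k * p.2) := by fun_prop
      exact (hm.comp measurable_fst).mul (hm'.comp m1)
    · rw [abs_mul]
      exact mul_le_mul (hM _) (hM' _) (abs_nonneg _) hM0
    · rw [hR z hz, zero_mul]
  rw [integral_integral_swap hI1, integral_integral_swap hI2]
  refine integral_congr_ae (Filter.Eventually.of_forall fun r => ?_)
  simp only
  rw [integral_const_mul, integral_const_mul]
  congr 1
  rw [← int_shift (fun z => f z * g (z.1, z.2 + (2 : ℝ) ^ k * r)) ((2 : ℝ) ^ k * r)]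
  refine integral_congr_ae (Filter.Eventually.of_forall fun z => ?_)
  simp only [sub_add_cancel]

/-- homogeneity in the profile -/
theorem cv_smul_prof (a : ℝ) (φ : ℝ → ℝ) (k : ℤ) (f : ℝ × ℝ → ℝ) (z : ℝ × ℝ) :
    cv (fun r => a * φ r) k f z = a * cv φ k f z := by
  unfold cv
  rw [← integral_const_mul]
  refine integral_congr_ae (Filter.Eventually.of_forall fun r => ?_)
  simp only
  ring

theorem alg5 : ∀ ω ψ : ℝ → ℝ, ContDiff ℝ 1 ω → HasCompactSupport ω → ContDiff ℝ 1 ψ →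
    HasCompactSupport ψ → ∀ k l f, Nice f → ∀ z, cv (deriv ω) k (cv ψ l f) z =
      (2 : ℝ) ^ (k - l) * cv ω k (cv (deriv ψ) l f) z := by
  intro ω ψ hω hcω hψ hcψ k l f hf z
  have d1 : Continuous (deriv ω) := hω.continuous_deriv le_rfl
  have d2 : Continuous (deriv ψ) := hψ.continuous_deriv le_rfl
  rw [cv_cv d1 hcω.deriv hψ.continuous hcψ k l hf, cv_cv hω.continuous hcω d2 hcψ.deriv k l hf,
    ← cv_smul_prof]
  congr 1
  funext s
  set c : ℝ := (2 : ℝ) ^ (k - l) with hcdef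
  have hu : ∀ r, HasDerivAt ω (deriv ω r) r := fun r =>
    ((hω.differentiable one_ne_zero) r).hasDerivAt
  have hv : ∀ r, HasDerivAt (fun r => ψ (s - c * r)) (deriv ψ (s - c * r) * (-c)) r := by
    intro r
    have h1 : HasDerivAt (fun r : ℝ => s - c * r) (-c) r := by
      simpa using ((hasDerivAt_id r).const_mul c).const_sub s
    exact (((hψ.differentiable one_ne_zero) (s - c * r)).hasDerivAt).comp r h1
  have c1 : Continuous fun r => ψ (s - c * r) := hψ.continuous.comp (by fun_prop)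
  have c2 : Continuous fun r => deriv ψ (s - c * r) * (-c) :=
    (d2.comp (by fun_prop : Continuous fun r : ℝ => s - c * r)).mul continuous_const
  have i1 : Integrable (ω * fun r => deriv ψ (s - c * r) * (-c)) :=
    (hω.continuous.mul c2).integrable_of_hasCompactSupport hcω.mul_right
  have i2 : Integrable (deriv ω * fun r => ψ (s - c * r)) :=
    (d1.mul c1).integrable_of_hasCompactSupport hcω.deriv.mul_right
  have i3 : Integrable (ω * fun r => ψ (s - c * r)) :=
    (hω.continuous.mul c1).integrable_of_hasCompactSupport hcω.mul_right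
  have key := integral_mul_deriv_eq_deriv_mul_of_integrable (fun r _ => hu r) (fun r _ => hv r)
    i1 i2 i3
  have e : ∫ r, ω r * (deriv ψ (s - c * r) * (-c)) = -(c * ∫ r, ω r * deriv ψ (s - c * r)) := by
    rw [← integral_const_mul, ← integral_neg]
    refine integral_congr_ae (Filter.Eventually.of_forall fun r => ?_)
    simp only
    ring
  rw [e] at key
  exact (neg_inj.mp key).symm

theorem alg6 : ∀ φ ψ : ℝ → ℝ, Continuous φ → HasCompactSupport φ → Continuous ψ →
    HasCompactSupport ψ → ∀ k f, Nice f →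
    cv φ k (cv ψ k f) = cv (fun r => ∫ s, φ s * ψ (r - s)) k f := by
  intro φ ψ h hc h' hc' k f hf
  funext z
  rw [cv_cv h hc h' hc' k k hf]
  simp only [sub_self, zpow_zero, one_mul]

theorem alg7 : ∀ φ : ℝ → ℝ, ∀ k f, cv φ (k + 1) f = cv (fun r => φ (r / 2) / 2) k f := by
  intro φ k f
  funext z
  unfold cv
  have e := Measure.integral_comp_div (fun r => φ r / 2 * f (z.1, z.2 - (2 : ℝ) ^ k * (2 * r))) 2
  have e1 : (fun r : ℝ => φ (r / 2) / 2 * f (z.1, z.2 - (2 : ℝ) ^ k * (2 * (r / 2)))) =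
      fun r => φ (r / 2) / 2 * f (z.1, z.2 - (2 : ℝ) ^ k * r) := by
    funext r
    rw [mul_div_cancel₀ r (two_ne_zero' ℝ)]
  rw [e1] at e
  rw [e, abs_of_pos two_pos, smul_eq_mul, ← integral_const_mul]
  refine integral_congr_ae (Filter.Eventually.of_forall fun r => ?_)
  simp only
  rw [zpow_add_one₀ two_ne_zero, mul_assoc ((2 : ℝ) ^ k) 2 r]
  ring

theorem alg8 : ∀ φ : ℝ → ℝ, Continuous φ → HasCompactSupport φ → ∀ k f g, Nice f → Nice g →
    cv φ k (fun z => f z + g z) = fun z => cv φ k f z + cv φ k g z := by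
  intro φ h hc k f g hf hg
  funext z
  unfold cv
  rw [← integral_add (int_cv h hc hf _ _ _) (int_cv h hc hg _ _ _)]
  refine integral_congr_ae (Filter.Eventually.of_forall fun r => ?_)
  simp only
  ring

theorem alg9 : ∀ φ : ℝ → ℝ, ∀ k f (a : ℝ), cv φ k (fun z => a * f z) = fun z => a * cv φ k f z := by
  intro φ k f a
  funext z
  unfold cv
  rw [← integral_const_mul]
  refine integral_congr_ae (Filter.Eventually.of_forall fun r => ?_)
  simp only
  ring

theorem alg10 : ∀ φ ψ : ℝ → ℝ, Continuous φ → HasCompactSupport φ → Continuous ψ →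
    HasCompactSupport ψ → ∀ k f (a b : ℝ), Nice f →
      cv (fun r => a * φ r + b * ψ r) k f = fun z => a * cv φ k f z + b * cv ψ k f z := by
  intro φ ψ h hc h' hc' k f a b hf
  funext z
  unfold cv
  rw [← integral_const_mul, ← integral_const_mul,
    ← integral_add ((int_cv h hc hf _ _ _).const_mul _) ((int_cv h' hc' hf _ _ _).const_mul _)]
  refine integral_congr_ae (Filter.Eventually.of_forall fun r => ?_)
  simp only
  ring

/-- **leaf S7** -/
theorem alg : ALG :=
  ⟨alg1, alg2, alg3, alg4, alg5, alg6, alg7, alg8, alg9, alg10⟩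

end Crest.Agent.R087.ALGx390
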