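import Crest.Agent.R087.ASM2a_556

/-! Row 87, leaf ASM2: `STOP → SQ → E2`. -/

set_option autoImplicit false

noncomputable section

open MeasureTheory

namespace Crest.Agent.R087.ASM2x556

open Crest.Agent.R087.Sh0x283 Crest.Agent.R087.E2x542

/-- weight of the tube `i` in the column `t` -/
def ac {n : ℕ} (R : Fin n → Tube) (a : Fin n → ℝ) (t : ℝ) (i : Fin n) : ℝ :=
  (R i).I.indicator (fun _ => a i) t

/-- overlap density of the tube `q` with the tubes of length `≥ 2^-k`, in the column `s` -/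
def Sf {n : ℕ} (R : Fin n → Tube) (a : Fin n → ℝ) (q : Fin n) (k : ℕ) (s : ℝ) : ℝ :=
  ∑ i with (R i).k ≤ k, ac R a s i * tent ((R q).line s - (R i).line s)

def Gf {n : ℕ} (R : Fin n → Tube) (a : Fin n → ℝ) (q : Fin n) (k : ℕ) (j : ℤ) : ℝ :=
  2 ^ k * ∫ s in dyI k j, Sf R a q k s

def Df {n : ℕ} (R : Fin n → Tube) (a : Fin n → ℝ) (q : Fin n) (k : ℕ) (j : ℤ) : ℝ :=
  2 ^ k * ((∫ s in dyI (k + 1) (2 * j), Sf R a q k s) -
    ∫ s in dyI (k + 1) (2 * j + 1), Sf R a q k s)

section basic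

variable {n : ℕ} (R : Fin n → Tube) (a : Fin n → ℝ)

theorem ac_nonneg (ha : ∀ i, 0 ≤ a i) (t : ℝ) (i : Fin n) : 0 ≤ ac R a t i :=
  Set.indicator_nonneg (fun _ _ => ha i) _

theorem ac_le (ha : ∀ i, 0 ≤ a i) (t : ℝ) (i : Fin n) : ac R a t i ≤ a i := by
  unfold ac
  by_cases h : t ∈ (R i).I
  · rw [Set.indicator_of_mem h]
  · rw [Set.indicator_of_notMem h]; exact ha i

theorem ac_of_mem {t : ℝ} {i : Fin n} (h : t ∈ (R i).I) : ac R a t i = a i :=
  Set.indicator_of_mem h _

theorem ac_of_notMem {t : ℝ} {i : Fin n} (h : t ∉ (R i).I) : ac R a t i = 0 :=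
  Set.indicator_of_notMem h _

theorem measurable_ac (i : Fin n) : Measurable (fun t => ac R a t i) :=
  measurable_const.indicator (R i).measurableSet_I

theorem measurable_tl (q i : Fin n) :
    Measurable (fun s => tent ((R q).line s - (R i).line s)) :=
  continuous_tent.measurable.comp ((R q).measurable_line.sub (R i).measurable_line)

theorem measurable_Sf (q : Fin n) (k : ℕ) : Measurable (Sf R a q k) := by
  unfold Sf
  exact Finset.measurable_sum _ fun i _ => (measurable_ac R a i).mul (measurable_tl R q i)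

theorem Sf_nonneg (ha : ∀ i, 0 ≤ a i) (q : Fin n) (k : ℕ) (s : ℝ) : 0 ≤ Sf R a q k s :=
  Finset.sum_nonneg fun i _ => mul_nonneg (ac_nonneg R a ha s i) (tent_nonneg _)

theorem Sf_le (ha : ∀ i, 0 ≤ a i) (q : Fin n) (k : ℕ) (s : ℝ) : Sf R a q k s ≤ ∑ i, a i := by
  unfold Sf
  refine (Finset.sum_le_sum (g := fun i => a i) fun i _ => ?_).trans
    (Finset.sum_le_sum_of_subset_of_nonneg (Finset.filter_subset _ _) fun i _ _ => ha i)
  calc ac R a s i * tent ((R q).line s - (R i).line s)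
      ≤ ac R a s i * 1 := mul_le_mul_of_nonneg_left (tent_le_one _) (ac_nonneg R a ha s i)
    _ ≤ a i := by rw [mul_one]; exact ac_le R a ha s i

theorem Sf_mono (ha : ∀ i, 0 ≤ a i) (q : Fin n) (k : ℕ) (s : ℝ) :
    Sf R a q k s ≤ Sf R a q (k + 1) s := by
  unfold Sf
  refine Finset.sum_le_sum_of_subset_of_nonneg ?_ fun i _ _ =>
    mul_nonneg (ac_nonneg R a ha s i) (tent_nonneg _)
  intro i
  simp only [Finset.mem_filter, Finset.mem_univ, true_and]
  intro h; omega

theorem integrableOn_Sf (ha : ∀ i, 0 ≤ a i) (q : Fin n) (k : ℕ) (l : ℕ) (j : ℤ) :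
    IntegrableOn (Sf R a q k) (dyI l j) := by
  refine Measure.integrableOn_of_bounded (M := ∑ i, a i) (volume_dyI_ne_top l j)
    (measurable_Sf R a q k).aestronglyMeasurable ?_
  refine Filter.Eventually.of_forall fun s => ?_
  rw [Real.norm_of_nonneg (Sf_nonneg R a ha q k s)]
  exact Sf_le R a ha q k s

theorem setIntegral_Sf_nonneg (ha : ∀ i, 0 ≤ a i) (q : Fin n) (k : ℕ) (l : ℕ) (j : ℤ) :
    0 ≤ ∫ s in dyI l j, Sf R a q k s :=
  setIntegral_nonneg (measurableSet_dyI l j) fun s _ => Sf_nonneg R a ha q k s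

theorem setIntegral_Sf_le (ha : ∀ i, 0 ≤ a i) (q : Fin n) (k : ℕ) (l : ℕ) (j : ℤ) :
    ∫ s in dyI l j, Sf R a q k s ≤ (1 / 2) ^ l * ∑ i, a i := by
  calc ∫ s in dyI l j, Sf R a q k s ≤ ∫ s in dyI l j, (∑ i, a i) :=
        setIntegral_mono_on (integrableOn_Sf R a ha q k l j)
          (integrableOn_const (volume_dyI_ne_top l j)) (measurableSet_dyI l j)
          fun s _ => Sf_le R a ha q k s
    _ = (1 / 2) ^ l * ∑ i, a i := by
        rw [setIntegral_const, smul_eq_mul, measureReal_def, volume_dyI_toReal]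

theorem two_pow_mul_half (k : ℕ) : (2 : ℝ) ^ k * (1 / 2) ^ k = 1 := by
  rw [← mul_pow]; norm_num

theorem Gf_nonneg (ha : ∀ i, 0 ≤ a i) (q : Fin n) (k : ℕ) (j : ℤ) : 0 ≤ Gf R a q k j :=
  mul_nonneg (by positivity) (setIntegral_Sf_nonneg R a ha q k k j)

theorem Gf_le (ha : ∀ i, 0 ≤ a i) (q : Fin n) (k : ℕ) (j : ℤ) : Gf R a q k j ≤ ∑ i, a i := by
  unfold Gf
  calc (2 : ℝ) ^ k * ∫ s in dyI k j, Sf R a q k s
      ≤ 2 ^ k * ((1 / 2) ^ k * ∑ i, a i) :=
        mul_le_mul_of_nonneg_left (setIntegral_Sf_le R a ha q k k j) (by positivity)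
    _ = ∑ i, a i := by rw [← mul_assoc, two_pow_mul_half, one_mul]

theorem Df_abs_le (ha : ∀ i, 0 ≤ a i) (q : Fin n) (k : ℕ) (j : ℤ) :
    |Df R a q k j| ≤ ∑ i, a i := by
  unfold Df
  rw [abs_mul, abs_of_pos (by positivity : (0 : ℝ) < 2 ^ k)]
  have h1 := setIntegral_Sf_nonneg R a ha q k (k + 1) (2 * j)
  have h2 := setIntegral_Sf_nonneg R a ha q k (k + 1) (2 * j + 1)
  have h3 := setIntegral_Sf_le R a ha q k (k + 1) (2 * j)
  have h4 := setIntegral_Sf_le R a ha q k (k + 1) (2 * j + 1)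
  have hA : (0 : ℝ) ≤ ∑ i, a i := Finset.sum_nonneg fun i _ => ha i
  have h5 : ((1 : ℝ) / 2) ^ (k + 1) * ∑ i, a i ≤ (1 / 2) ^ k * ∑ i, a i :=
    mul_le_mul_of_nonneg_right (pow_le_pow_of_le_one (by norm_num) (by norm_num) (by omega)) hA
  calc (2 : ℝ) ^ k * |(∫ s in dyI (k + 1) (2 * j), Sf R a q k s) -
        ∫ s in dyI (k + 1) (2 * j + 1), Sf R a q k s|
      ≤ 2 ^ k * ((1 / 2) ^ k * ∑ i, a i) := by
        refine mul_le_mul_of_nonneg_left ?_ (by positivity)
        rw [abs_le]; constructor <;> linarith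
    _ = ∑ i, a i := by rw [← mul_assoc, two_pow_mul_half, one_mul]

theorem setIntegral_split (ha : ∀ i, 0 ≤ a i) (q : Fin n) (k : ℕ) (j : ℤ) :
    ∫ s in dyI k j, Sf R a q k s =
      (∫ s in dyI (k + 1) (2 * j), Sf R a q k s) + ∫ s in dyI (k + 1) (2 * j + 1), Sf R a q k s := by
  rw [dyI_split, setIntegral_union (dyI_disj k j) (measurableSet_dyI _ _)
    (integrableOn_Sf R a ha q k _ _) (integrableOn_Sf R a ha q k _ _)]

theorem incr (ha : ∀ i, 0 ≤ a i) (q : Fin n) (k : ℕ) (t : ℝ) :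
    Gf R a q k (dyx k t) + sg k t * Df R a q k (dyx k t) ≤ Gf R a q (k + 1) (dyx (k + 1) t) := by
  have hm : ∀ j, ∫ s in dyI (k + 1) j, Sf R a q k s ≤ ∫ s in dyI (k + 1) j, Sf R a q (k + 1) s :=
    fun j => setIntegral_mono_on (integrableOn_Sf R a ha q k _ _)
      (integrableOn_Sf R a ha q (k + 1) _ _) (measurableSet_dyI _ _)
      fun s _ => Sf_mono R a ha q k s
  unfold Gf Df sg
  rw [setIntegral_split R a ha q k]
  rcases dyx_succ_eq k t with h | h
  · rw [if_pos h, h]
    have := hm (2 * dyx k t)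
    have h2 := mul_le_mul_of_nonneg_left this (by positivity : (0 : ℝ) ≤ 2 ^ (k + 1))
    refine le_trans (le_of_eq ?_) h2
    rw [pow_succ]; ring
  · rw [if_neg (by omega), h]
    have := hm (2 * dyx k t + 1)
    have h2 := mul_le_mul_of_nonneg_left this (by positivity : (0 : ℝ) ≤ 2 ^ (k + 1))
    refine le_trans (le_of_eq ?_) h2
    rw [pow_succ]; ring

theorem ac_eq_of_dyx {k : ℕ} {s t : ℝ} {i : Fin n} (hi : (R i).k ≤ k) (h : dyx k s = dyx k t) :
    ac R a s i = ac R a t i := by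
  have h2 := dyx_eq_of_le hi h
  by_cases ht : t ∈ (R i).I
  · have hs : s ∈ (R i).I := by rw [mem_I_iff] at ht ⊢; rw [h2, ht]
    rw [ac_of_mem R a ht, ac_of_mem R a hs]
  · have hs : s ∉ (R i).I := by rw [mem_I_iff] at ht ⊢; rw [h2]; exact ht
    rw [ac_of_notMem R a ht, ac_of_notMem R a hs]

theorem Df_eq_Dk (q : Fin n) (k : ℕ) (t : ℝ) :
    Df R a q k (dyx k t) = Dk t k (fun i => (R i).line t) (fun i => (R i).m) (ac R a t)
      (fun i => (R i).k) ((R q).line t) (R q).m := by
  have key : ∀ j, (j = 2 * dyx k t ∨ j = 2 * dyx k t + 1) →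
      ∫ s in dyI (k + 1) j, Sf R a q k s = ∫ s in dyI (k + 1) j,
        ∑ i with (R i).k ≤ k, ac R a t i *
          tent ((R q).line t - (R i).line t + (s - t) * ((R q).m - (R i).m)) := by
    intro j hj
    refine setIntegral_congr_fun (measurableSet_dyI _ _) fun s hs => ?_
    have hs1 : dyx (k + 1) s = j := (mem_dyI_iff _ _ _).1 hs
    have hs2 : dyx k s = dyx k t := by
      rw [dyx_of_succ k s, hs1]; omega
    unfold Sf
    refine Finset.sum_congr rfl fun i hi => ?_
    rw [Finset.mem_filter] at hi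
    rw [ac_eq_of_dyx R a hi.2 hs2]
    congr 2
    unfold Tube.line
    ring
  unfold Df Dk
  rw [key _ (Or.inl rfl), key _ (Or.inr rfl)]

theorem top_le (ha : ∀ i, 0 ≤ a i) (q : Fin n) (K : ℕ) (hK : ∀ i, (R i).k ≤ K)
    (hm : ∀ i, |(R q).m - (R i).m| ≤ 2 ^ K) (t : ℝ) :
    Gf R a q K (dyx K t) ≤
      ∑ i, ac R a t i * (if |(R q).line t - (R i).line t| ≤ 2 then 1 else 0) := by
  set B := ∑ i, ac R a t i * (if |(R q).line t - (R i).line t| ≤ 2 then (1 : ℝ) else 0) with hB
  have hle : ∀ s ∈ dyI K (dyx K t), Sf R a q K s ≤ B := by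
    intro s hs
    have hs1 : dyx K s = dyx K t := (mem_dyI_iff _ _ _).1 hs
    unfold Sf
    rw [Finset.filter_true_of_mem (fun i _ => hK i)]
    rw [hB]
    refine Finset.sum_le_sum fun i _ => ?_
    rw [ac_eq_of_dyx R a (hK i) hs1]
    refine mul_le_mul_of_nonneg_left ?_ (ac_nonneg R a ha t i)
    split_ifs with h
    · exact tent_le_one _
    · refine le_of_eq (tent_eq_zero ?_)
      have ht : t ∈ dyI K (dyx K t) := (mem_dyI_iff _ _ _).2 rfl
      have hst : |t - s| ≤ (1 / 2) ^ K := by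
        unfold dyI at hs ht
        rw [Set.mem_Ico] at hs ht
        rw [abs_le]
        constructor <;> nlinarith [hs.1, hs.2, ht.1, ht.2]
      have h3 : |(t - s) * ((R q).m - (R i).m)| ≤ 1 := by
        rw [abs_mul]
        calc |t - s| * |(R q).m - (R i).m| ≤ (1 / 2) ^ K * 2 ^ K :=
              mul_le_mul hst (hm i) (abs_nonneg _) (by positivity)
          _ = 1 := by rw [mul_comm, two_pow_mul_half]
      have h4 : (R q).line t - (R i).line t =
          ((R q).line s - (R i).line s) + (t - s) * ((R q).m - (R i).m) := by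
        unfold Tube.line; ring
      have h5 := abs_add_le ((R q).line s - (R i).line s) ((t - s) * ((R q).m - (R i).m))
      rw [← h4] at h5
      push Not at h
      linarith
  unfold Gf
  calc (2 : ℝ) ^ K * ∫ s in dyI K (dyx K t), Sf R a q K s
      ≤ 2 ^ K * ∫ s in dyI K (dyx K t), B := by
        refine mul_le_mul_of_nonneg_left ?_ (by positivity)
        exact setIntegral_mono_on (integrableOn_Sf R a ha q K _ _)
          (integrableOn_const (volume_dyI_ne_top _ _)) (measurableSet_dyI _ _) hle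
    _ = B := by
        rw [setIntegral_const, smul_eq_mul, measureReal_def, volume_dyI_toReal, ← mul_assoc,
          two_pow_mul_half, one_mul]

theorem Gf_start (q : Fin n) :
    (1 / 2) ^ (R q).k * Gf R a q (R q).k (R q).j = ∫ s in (R q).I, Sf R a q (R q).k s := by
  unfold Gf
  rw [← mul_assoc, mul_comm ((1 / 2 : ℝ) ^ (R q).k), two_pow_mul_half, one_mul, I_eq]

/-! ### the square of the counting function -/

theorem body_indicator (i : Fin n) (t y : ℝ) :
    a i * (R i).body.indicator (1 : ℝ × ℝ → ℝ) (t, y) = ac R a t i * win (y - (R i).line t) := by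
  by_cases ht : t ∈ (R i).I
  · rw [ac_of_mem R a ht]
    congr 1
    unfold win
    by_cases h : |y - (R i).line t| ≤ 1 / 2
    · rw [if_pos h, Set.indicator_of_mem]
      · rfl
      · exact ⟨ht, h⟩
    · rw [if_neg h, Set.indicator_of_notMem]
      intro h2; exact h h2.2
  · rw [ac_of_notMem R a ht, zero_mul, Set.indicator_of_notMem, mul_zero]
    intro h2; exact ht h2.1

theorem sum_body (t y : ℝ) :
    ∑ i, a i * (R i).body.indicator (1 : ℝ × ℝ → ℝ) (t, y) =
      Nf (ac R a t) (fun i => (R i).line t) y := by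
  unfold Nf
  exact Finset.sum_congr rfl fun i _ => body_indicator R a i t y

theorem measurable_H :
    Measurable (fun z : ℝ × ℝ => ∑ i, a i * (R i).body.indicator (1 : ℝ × ℝ → ℝ) z) :=
  Finset.measurable_sum _ fun i _ =>
    (measurable_const.indicator (R i).measurableSet_body).const_mul _

theorem integrable_H_sq :
    Integrable (fun z : ℝ × ℝ => (∑ i, a i * (R i).body.indicator (1 : ℝ × ℝ → ℝ) z) ^ 2) := by
  have : (fun z : ℝ × ℝ => (∑ i, a i * (R i).body.indicator (1 : ℝ × ℝ → ℝ) z) ^ 2) =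
      fun z => ∑ i, ∑ q, a i * a q * ((R i).body ∩ (R q).body).indicator (1 : ℝ × ℝ → ℝ) z := by
    funext z
    rw [sq, Finset.sum_mul_sum]
    refine Finset.sum_congr rfl fun i _ => Finset.sum_congr rfl fun q _ => ?_
    have : ((R i).body ∩ (R q).body).indicator (1 : ℝ × ℝ → ℝ) z =
        (R i).body.indicator 1 z * (R q).body.indicator 1 z := by
      rw [← Set.inter_indicator_mul]
      simp only [Pi.one_apply, mul_one]
      rfl
    rw [this]; ring
  rw [this]
  refine integrable_finsetSum _ fun i _ => integrable_finsetSum _ fun q _ => ?_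
  refine Integrable.const_mul ?_ _
  rw [integrable_indicator_iff ((R i).measurableSet_body.inter (R q).measurableSet_body)]
  refine integrableOn_const (ne_top_of_le_ne_top ?_ (measure_mono Set.inter_subset_left))
  rw [(R i).volume_body]; exact ENNReal.ofReal_ne_top

/-- the square of the counting function integrated over the column `t` -/
def hcol (t : ℝ) : ℝ := ∫ y, (Nf (ac R a t) (fun i => (R i).line t) y) ^ 2

theorem integral_H_sq :
    ∫ z : ℝ × ℝ, (∑ i, a i * (R i).body.indicator (1 : ℝ × ℝ → ℝ) z) ^ 2 = ∫ t, hcol R a t := by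
  rw [Measure.volume_eq_prod, integral_prod _ (by
    rw [← Measure.volume_eq_prod]; exact integrable_H_sq R a)]
  simp only [sum_body]
  rfl

theorem integrable_hcol : Integrable (hcol R a) := by
  have h := (integrable_H_sq R a)
  rw [Measure.volume_eq_prod] at h
  have h2 := h.integral_prod_left
  simp only [sum_body] at h2
  exact h2

theorem hcol_eq (t : ℝ) : hcol R a t =
    ∑ i, ∑ q, ac R a t i * ac R a t q * tent ((R q).line t - (R i).line t) := by
  unfold hcol
  rw [integral_Nf_sq]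

theorem hcol_nonneg (t : ℝ) : 0 ≤ hcol R a t := integral_nonneg fun _ => sq_nonneg _

theorem hcol_le (ha : ∀ i, 0 ≤ a i) (t : ℝ) :
    hcol R a t ≤ 2 * ∑ q, ac R a t q * Sf R a q (R q).k t := by
  have hX0 : ∀ i q, 0 ≤ ac R a t i * ac R a t q * tent ((R q).line t - (R i).line t) :=
    fun i q => mul_nonneg (mul_nonneg (ac_nonneg R a ha t i) (ac_nonneg R a ha t q))
      (tent_nonneg _)
  have hXs : ∀ i q, ac R a t i * ac R a t q * tent ((R q).line t - (R i).line t) =
      ac R a t q * ac R a t i * tent ((R i).line t - (R q).line t) := by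
    intro i q
    rw [← tent_neg ((R q).line t - (R i).line t), neg_sub]; ring
  have e1 : ∑ q, ac R a t q * Sf R a q (R q).k t = ∑ q, ∑ i,
      (if (R i).k ≤ (R q).k then
        ac R a t i * ac R a t q * tent ((R q).line t - (R i).line t) else 0) := by
    refine Finset.sum_congr rfl fun q _ => ?_
    unfold Sf
    rw [Finset.mul_sum, Finset.sum_filter]
    refine Finset.sum_congr rfl fun i _ => ?_
    split_ifs
    · ring
    · rfl
  have e2 : ∑ q, ∑ i, (if (R i).k ≤ (R q).k then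
        ac R a t i * ac R a t q * tent ((R q).line t - (R i).line t) else 0) =
      ∑ i, ∑ q, (if (R i).k ≤ (R q).k then
        ac R a t i * ac R a t q * tent ((R q).line t - (R i).line t) else 0) := Finset.sum_comm
  have e3 : ∑ q, ∑ i, (if (R i).k ≤ (R q).k then
        ac R a t i * ac R a t q * tent ((R q).line t - (R i).line t) else 0) =
      ∑ i, ∑ q, (if (R q).k ≤ (R i).k then
        ac R a t q * ac R a t i * tent ((R i).line t - (R q).line t) else 0) := rfl
  rw [hcol_eq, two_mul, e1, congrArg₂ (· + ·) e2 e3, ← Finset.sum_add_distrib]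
  refine Finset.sum_le_sum fun i _ => ?_
  rw [← Finset.sum_add_distrib]
  refine Finset.sum_le_sum fun q _ => ?_
  rcases le_total (R i).k (R q).k with h | h
  · rw [if_pos h]
    have : 0 ≤ (if (R q).k ≤ (R i).k then
        ac R a t q * ac R a t i * tent ((R i).line t - (R q).line t) else 0) := by
      split_ifs
      · exact hX0 q i
      · exact le_rfl
    linarith
  · have : 0 ≤ (if (R i).k ≤ (R q).k then
        ac R a t i * ac R a t q * tent ((R q).line t - (R i).line t) else 0) := by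
      split_ifs
      · exact hX0 i q
      · exact le_rfl
    have e := hXs i q
    rw [if_pos h]
    linarith

theorem ac_mul_eq (q : Fin n) :
    (fun t => ac R a t q * Sf R a q (R q).k t) =
      (R q).I.indicator (fun t => a q * Sf R a q (R q).k t) := by
  funext t
  by_cases h : t ∈ (R q).I
  · rw [ac_of_mem R a h, Set.indicator_of_mem h]
  · rw [ac_of_notMem R a h, Set.indicator_of_notMem h, zero_mul]

theorem integrable_ac_mul (ha : ∀ i, 0 ≤ a i) (q : Fin n) :
    Integrable (fun t => ac R a t q * Sf R a q (R q).k t) := by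
  rw [ac_mul_eq, integrable_indicator_iff (R q).measurableSet_I]
  exact (integrableOn_Sf R a ha q (R q).k (R q).k (R q).j).const_mul _

theorem integral_ac_mul (q : Fin n) :
    ∫ t, ac R a t q * Sf R a q (R q).k t =
      a q * ((1 / 2) ^ (R q).k * Gf R a q (R q).k (R q).j) := by
  rw [ac_mul_eq, integral_indicator (R q).measurableSet_I, integral_const_mul, Gf_start]

theorem integral_hcol_le (ha : ∀ i, 0 ≤ a i) :
    ∫ t, hcol R a t ≤ 2 * ∑ q, a q * ((1 / 2) ^ (R q).k * Gf R a q (R q).k (R q).j) := by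
  calc ∫ t, hcol R a t ≤ ∫ t, 2 * ∑ q, ac R a t q * Sf R a q (R q).k t :=
        integral_mono (integrable_hcol R a)
          ((integrable_finsetSum _ fun q _ => integrable_ac_mul R a ha q).const_mul 2)
          (hcol_le R a ha)
    _ = _ := by
        rw [integral_const_mul, integral_finsetSum _ fun q _ => integrable_ac_mul R a ha q]
        simp only [integral_ac_mul]

end basic

/-! ### sections of the sets `E q` -/

section sections

variable {n : ℕ} (R : Fin n → Tube) (U : ℝ × ℝ → ℝ) (E : Fin n → Set (ℝ × ℝ))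

/-- length of the section of `E q` in the column `t` -/
def wf (q : Fin n) (t : ℝ) : ℝ := (volume (Prod.mk t ⁻¹' E q)).toReal

theorem measurable_wf (hE : ∀ i, MeasurableSet (E i)) (q : Fin n) : Measurable (wf E q) :=
  (measurable_measure_prodMk_left (hE q)).ennreal_toReal

theorem wf_nonneg (q : Fin n) (t : ℝ) : 0 ≤ wf E q t := ENNReal.toReal_nonneg

theorem section_subset (hEV : ∀ i, E i ⊆ Tube.V U (R i)) (q : Fin n) (t : ℝ) :
    Prod.mk t ⁻¹' E q ⊆ Set.Icc ((R q).line t - 1 / 2) ((R q).line t + 1 / 2) := by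
  intro y hy
  have h := (hEV q hy).1.2
  simp only at h
  rw [abs_le] at h
  constructor <;> linarith

theorem volume_section_le (hEV : ∀ i, E i ⊆ Tube.V U (R i)) (q : Fin n) (t : ℝ) :
    volume (Prod.mk t ⁻¹' E q) ≤ 1 := by
  refine (measure_mono (section_subset R U E hEV q t)).trans ?_
  rw [Real.volume_Icc]
  refine le_of_eq ?_
  rw [show (R q).line t + 1 / 2 - ((R q).line t - 1 / 2) = 1 by ring, ENNReal.ofReal_one]

theorem wf_le_one (hEV : ∀ i, E i ⊆ Tube.V U (R i)) (q : Fin n) (t : ℝ) : wf E q t ≤ 1 := by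
  unfold wf
  exact ENNReal.toReal_le_of_le_ofReal zero_le_one
    (by rw [ENNReal.ofReal_one]; exact volume_section_le R U E hEV q t)

theorem wf_eq_zero (hEV : ∀ i, E i ⊆ Tube.V U (R i)) (q : Fin n) {t : ℝ} (ht : t ∉ (R q).I) :
    wf E q t = 0 := by
  unfold wf
  have : Prod.mk t ⁻¹' E q = ∅ := by
    ext y
    simp only [Set.mem_preimage, Set.mem_empty_iff_false, iff_false]
    intro hy
    exact ht (hEV q hy).1.1
  rw [this, measure_empty, ENNReal.toReal_zero]

theorem integral_wf (hE : ∀ i, MeasurableSet (E i)) (hEV : ∀ i, E i ⊆ Tube.V U (R i))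
    (q : Fin n) : ∫ t in (R q).I, wf E q t = (volume (E q)).toReal := by
  rw [setIntegral_eq_integral_of_forall_compl_eq_zero
    (fun t ht => wf_eq_zero R U E hEV q ht)]
  unfold wf
  rw [integral_toReal (measurable_measure_prodMk_left (hE q)).aemeasurable
    (Filter.Eventually.of_forall fun t =>
      (volume_section_le R U E hEV q t).trans_lt ENNReal.one_lt_top),
    Measure.volume_eq_prod, Measure.prod_apply (hE q)]

end sections

theorem asm2 : ASM2 := by
  intro hS hQ
  obtain ⟨c, hc, C, hC⟩ := hQ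
  refine ⟨c, hc, 64 * (25 + |C|), 2, ?_⟩
  intro U hU n R E a δ hδ hδ1 hE hEV hdis hvol ha
  obtain ⟨hUm, -, hUl⟩ := hU
  -- finest level
  obtain ⟨K, hK1, hK2⟩ : ∃ K : ℕ, (∀ i, (R i).k ≤ K) ∧
      ∀ q i, |(R q).m - (R i).m| ≤ 2 ^ K := by
    obtain ⟨K1, hK1⟩ : ∃ K1 : ℕ, ∀ i, (R i).k ≤ K1 :=
      ⟨∑ i, (R i).k, fun i => Finset.single_le_sum (f := fun i => (R i).k)
        (fun _ _ => Nat.zero_le _) (Finset.mem_univ i)⟩
    obtain ⟨K2, hK2⟩ : ∃ K2 : ℕ, ∑ q, ∑ i, |(R q).m - (R i).m| < 2 ^ K2 :=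
      pow_unbounded_of_one_lt _ (by norm_num)
    refine ⟨max K1 K2, fun i => (hK1 i).trans (le_max_left _ _), fun q i => ?_⟩
    calc |(R q).m - (R i).m| ≤ ∑ i, |(R q).m - (R i).m| :=
          Finset.single_le_sum (f := fun i => |(R q).m - (R i).m|)
            (fun _ _ => abs_nonneg _) (Finset.mem_univ i)
      _ ≤ ∑ q, ∑ i, |(R q).m - (R i).m| :=
          Finset.single_le_sum (f := fun q => ∑ i, |(R q).m - (R i).m|)
            (fun _ _ => Finset.sum_nonneg fun _ _ => abs_nonneg _) (Finset.mem_univ q)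
      _ ≤ 2 ^ K2 := hK2.le
      _ ≤ 2 ^ max K1 K2 := pow_le_pow_right₀ (by norm_num) (le_max_right _ _)
  set A : ℝ := ∑ i, a i with hA
  have hA0 : 0 ≤ A := Finset.sum_nonneg fun i _ => ha i
  -- the quantity inside the stopping lemma
  set Q : Fin n → ℝ → ℝ := fun q t => (Gf R a q K (dyx K t)) ^ 2 +
    ∑ k ∈ Finset.Ico (R q).k K, (Df R a q k (dyx k t)) ^ 2 with hQdef
  have hQ0 : ∀ q t, 0 ≤ Q q t := fun q t =>
    add_nonneg (sq_nonneg _) (Finset.sum_nonneg fun _ _ => sq_nonneg _)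
  have hQm : ∀ q, Measurable (Q q) := by
    intro q
    refine (((measurable_of_countable (Gf R a q K)).comp (measurable_dyx K)).pow_const 2).add ?_
    refine Finset.measurable_sum _ fun k _ => ?_
    exact ((measurable_of_countable (Df R a q k)).comp (measurable_dyx k)).pow_const 2
  have hQle : ∀ q t, Q q t ≤ A ^ 2 + K * A ^ 2 := by
    intro q t
    refine add_le_add (pow_le_pow_left₀ (Gf_nonneg R a ha q K _) (Gf_le R a ha q K _) 2) ?_
    calc ∑ k ∈ Finset.Ico (R q).k K, (Df R a q k (dyx k t)) ^ 2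
        ≤ ∑ k ∈ Finset.Ico (R q).k K, A ^ 2 := by
          refine Finset.sum_le_sum fun k _ => ?_
          rw [← sq_abs]
          exact pow_le_pow_left₀ (abs_nonneg _) (Df_abs_le R a ha q k _) 2
      _ = ((K - (R q).k : ℕ) : ℝ) * A ^ 2 := by
          rw [Finset.sum_const, Nat.card_Ico, nsmul_eq_mul]
      _ ≤ K * A ^ 2 := by
          refine mul_le_mul_of_nonneg_right ?_ (sq_nonneg _)
          exact_mod_cast Nat.sub_le _ _
  have hwQi : ∀ q, Integrable (fun t => wf E q t * Q q t) := by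
    intro q
    have h1 : IntegrableOn (fun t => wf E q t * Q q t) (R q).I := by
      refine Measure.integrableOn_of_bounded (M := A ^ 2 + K * A ^ 2)
        (by rw [I_eq]; exact volume_dyI_ne_top _ _)
        ((measurable_wf E hE q).mul (hQm q)).aestronglyMeasurable ?_
      refine Filter.Eventually.of_forall fun t => ?_
      rw [Real.norm_of_nonneg (mul_nonneg (wf_nonneg E q t) (hQ0 q t))]
      calc wf E q t * Q q t ≤ 1 * Q q t :=
            mul_le_mul_of_nonneg_right (wf_le_one R U E hEV q t) (hQ0 q t)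
        _ ≤ _ := by rw [one_mul]; exact hQle q t
    refine (integrableOn_iff_integrable_of_support_subset ?_).1 h1
    intro t ht
    by_contra h2
    apply ht
    simp only
    rw [wf_eq_zero R U E hEV q h2, zero_mul]
  -- stopping lemma
  have hstop : ∀ q, (Gf R a q (R q).k (R q).j) ^ 2 * (1 / 2 : ℝ) ^ (R q).k ≤
      16 / δ ^ 2 * ∫ t, wf E q t * Q q t := by
    intro q
    have h := hS (R q).k K (R q).j (Gf R a q) (Df R a q) (wf E q) δ (hK1 q)
      (Gf_nonneg R a ha q) (fun k _ _ t _ => incr R a ha q k t) (measurable_wf E hE q)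
      (wf_nonneg E q) (wf_le_one R U E hEV q) hδ hδ1 (by
        have := integral_wf R U E hE hEV q
        rw [I_eq] at this
        rw [this]
        exact hvol q)
    rw [setIntegral_eq_integral_of_forall_compl_eq_zero (fun t ht => by
      rw [← I_eq] at ht
      rw [wf_eq_zero R U E hEV q ht, zero_mul])] at h
    exact h
  -- column estimate
  have hcolm : ∀ t, ∑ q, wf E q t * Q q t ≤ (25 + |C|) * hcol R a t := by
    intro t
    have hYm : ∀ q, MeasurableSet (Prod.mk t ⁻¹' E q) := fun q =>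
      measurable_prodMk_left (hE q)
    have hYd : Pairwise (Function.onFun Disjoint fun q => Prod.mk t ⁻¹' E q) := by
      intro q q' hqq
      exact (hdis hqq).preimage _
    have hY1 : ∀ q, ∀ y ∈ Prod.mk t ⁻¹' E q, |y - (R q).line t| ≤ 1 / 2 := fun q y hy =>
      (hEV q hy).1.2
    have hY2 : ∀ q, ∀ y ∈ Prod.mk t ⁻¹' E q, |U (t, y) - (R q).m| ≤ 2 ^ (R q).k := by
      intro q y hy
      have h := (hEV q hy).2
      unfold Tube.len at h
      have h2 : (0 : ℝ) < 2 ^ (R q).k := by positivity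
      calc |U (t, y) - (R q).m| = (|U (t, y) - (R q).m| * (1 / 2) ^ (R q).k) * 2 ^ (R q).k := by
            rw [mul_assoc, mul_comm ((1 / 2 : ℝ) ^ (R q).k), two_pow_mul_half, mul_one]
        _ ≤ 1 * 2 ^ (R q).k := mul_le_mul_of_nonneg_right h h2.le
        _ = 2 ^ (R q).k := one_mul _
    have h1 := top_col (ac R a t) (fun i => (R i).line t) (ac_nonneg R a ha t)
      (fun q => (R q).line t) (fun q => Gf R a q K (dyx K t)) (fun q => Prod.mk t ⁻¹' E q)
      hYm hYd hY1 (fun q => Gf_nonneg R a ha q K _)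
      (fun q => top_le R a ha q K hK1 (hK2 q) t)
    have h2 := hC (fun y => U (t, y)) (fun y y' => hUl t y y') t K n n
      (fun i => (R i).line t) (fun i => (R i).m) (ac R a t) (fun i => (R i).k)
      (fun q => (R q).line t) (fun q => (R q).m) (fun q => (R q).k)
      (fun q => Prod.mk t ⁻¹' E q) (ac_nonneg R a ha t) hYm hYd
      (fun q y hy => ⟨hY1 q y hy, hY2 q y hy⟩)
    have h3 : C * ∫ y, (∑ i, ac R a t i * win (y - (R i).line t)) ^ 2 ≤ |C| * hcol R a t :=
      mul_le_mul_of_nonneg_right (le_abs_self C) (hcol_nonneg R a t)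
    have h4 : ∑ q, wf E q t * Q q t =
        (∑ q, (volume (Prod.mk t ⁻¹' E q)).toReal * (Gf R a q K (dyx K t)) ^ 2) +
        ∑ q, (volume (Prod.mk t ⁻¹' E q)).toReal * ∑ k ∈ Finset.Ico (R q).k K,
          (Dk t k (fun i => (R i).line t) (fun i => (R i).m) (ac R a t)
            (fun i => (R i).k) ((R q).line t) (R q).m) ^ 2 := by
      rw [← Finset.sum_add_distrib]
      refine Finset.sum_congr rfl fun q _ => ?_
      simp only [hQdef, wf, Df_eq_Dk]
      ring
    have h5 : (25 : ℝ) * ∫ y, (Nf (ac R a t) (fun i => (R i).line t) y) ^ 2 =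
      25 * hcol R a t := rfl
    rw [h4, add_mul]
    linarith
  -- integration in `t`
  have hint : ∑ q, ∫ t, wf E q t * Q q t ≤ (25 + |C|) * ∫ t, hcol R a t := by
    rw [← integral_finsetSum _ fun q _ => hwQi q, ← integral_const_mul]
    exact integral_mono (integrable_finsetSum _ fun q _ => hwQi q)
      ((integrable_hcol R a).const_mul _) hcolm
  -- Cauchy-Schwarz
  rw [integral_H_sq]
  set X := ∫ t, hcol R a t with hX
  have hX0 : 0 ≤ X := integral_nonneg fun t => hcol_nonneg R a t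
  set S2 := ∑ i, a i ^ 2 * (R i).len with hS2
  have hS20 : 0 ≤ S2 := Finset.sum_nonneg fun i _ => mul_nonneg (sq_nonneg _) (R i).len_pos.le
  have h1 : X ≤ 2 * ∑ q, a q * ((1 / 2) ^ (R q).k * Gf R a q (R q).k (R q).j) :=
    integral_hcol_le R a ha
  have h2 : (∑ q, a q * ((1 / 2) ^ (R q).k * Gf R a q (R q).k (R q).j)) ^ 2 ≤
      S2 * ∑ q, (Gf R a q (R q).k (R q).j) ^ 2 * (1 / 2 : ℝ) ^ (R q).k := by
    have := Finset.sum_sq_le_sum_mul_sum_of_sq_le_mul Finset.univ
      (r := fun q => a q * ((1 / 2) ^ (R q).k * Gf R a q (R q).k (R q).j))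
      (f := fun q => a q ^ 2 * (R q).len)
      (g := fun q => (Gf R a q (R q).k (R q).j) ^ 2 * (1 / 2 : ℝ) ^ (R q).k)
      (fun q _ => mul_nonneg (sq_nonneg _) (R q).len_pos.le)
      (fun q _ => mul_nonneg (sq_nonneg _) (by positivity))
      (fun q _ => le_of_eq (by unfold Tube.len; ring))
    exact this
  have h3 : ∑ q, (Gf R a q (R q).k (R q).j) ^ 2 * (1 / 2 : ℝ) ^ (R q).k ≤
      16 / δ ^ 2 * ((25 + |C|) * X) := by
    calc ∑ q, (Gf R a q (R q).k (R q).j) ^ 2 * (1 / 2 : ℝ) ^ (R q).k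
        ≤ ∑ q, 16 / δ ^ 2 * ∫ t, wf E q t * Q q t := Finset.sum_le_sum fun q _ => hstop q
      _ = 16 / δ ^ 2 * ∑ q, ∫ t, wf E q t * Q q t := by rw [Finset.mul_sum]
      _ ≤ _ := mul_le_mul_of_nonneg_left hint (by positivity)
  have h4 : X ^ 2 ≤ 4 * (S2 * (16 / δ ^ 2 * ((25 + |C|) * X))) := by
    have hs0 : 0 ≤ ∑ q, a q * ((1 / 2) ^ (R q).k * Gf R a q (R q).k (R q).j) :=
      Finset.sum_nonneg fun q _ => mul_nonneg (ha q)
        (mul_nonneg (by positivity) (Gf_nonneg R a ha q _ _))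
    calc X ^ 2 ≤ (2 * ∑ q, a q * ((1 / 2) ^ (R q).k * Gf R a q (R q).k (R q).j)) ^ 2 :=
          pow_le_pow_left₀ hX0 h1 2
      _ = 4 * (∑ q, a q * ((1 / 2) ^ (R q).k * Gf R a q (R q).k (R q).j)) ^ 2 := by ring
      _ ≤ 4 * (S2 * ∑ q, (Gf R a q (R q).k (R q).j) ^ 2 * (1 / 2 : ℝ) ^ (R q).k) :=
          mul_le_mul_of_nonneg_left h2 (by norm_num)
      _ ≤ _ := mul_le_mul_of_nonneg_left (mul_le_mul_of_nonneg_left h3 hS20) (by norm_num)
  have h5 : 4 * (S2 * (16 / δ ^ 2 * ((25 + |C|) * X))) =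
      (64 * (25 + |C|) * (1 / δ) ^ 2 * S2) * X := by
    field_simp
    ring
  rw [h5] at h4
  rcases hX0.eq_or_lt with h | h
  · rw [← h]; positivity
  · rw [sq] at h4
    exact le_of_mul_le_mul_right h4 h

end Crest.Agent.R087.ASM2x556
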