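import Crest.Agent.R087.E2leaf_542

/-! Row 87, leaf ASM2 (`STOP → SQ → E2`), part A: dyadic bookkeeping, the column lemma for the
finest level, the overlap of two unit windows. -/

set_option autoImplicit false

noncomputable section

open MeasureTheory

namespace Crest.Agent.R087.ASM2x556

open Crest.Agent.R087.Sh0x283 Crest.Agent.R087.E2x542

/-! ### dyadic intervals -/

theorem mem_dyI_iff (k : ℕ) (j : ℤ) (t : ℝ) : t ∈ dyI k j ↔ dyx k t = j := by
  unfold dyI dyx
  rw [Int.floor_eq_iff, Set.mem_Ico]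
  have h2 : (0 : ℝ) < 2 ^ k := by positivity
  have h3 : ((1 : ℝ) / 2) ^ k = 1 / 2 ^ k := by rw [one_div_pow]
  rw [h3, mul_one_div, mul_one_div, div_le_iff₀ h2, lt_div_iff₀ h2]

theorem dyx_succ_eq (k : ℕ) (t : ℝ) :
    dyx (k + 1) t = 2 * dyx k t ∨ dyx (k + 1) t = 2 * dyx k t + 1 := by
  have h1 := Int.floor_le (t * 2 ^ k)
  have h2 := Int.lt_floor_add_one (t * 2 ^ k)
  have h3 := Int.floor_le (t * 2 ^ (k + 1))
  have h4 := Int.lt_floor_add_one (t * 2 ^ (k + 1))
  have e : t * 2 ^ (k + 1) = 2 * (t * 2 ^ k) := by ring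
  unfold dyx
  rw [e] at h3 h4 ⊢
  set x := t * 2 ^ k
  have a1 : (⌊2 * x⌋ : ℤ) < 2 * ⌊x⌋ + 2 := by
    have : (⌊2 * x⌋ : ℝ) < 2 * ⌊x⌋ + 2 := by linarith
    exact_mod_cast this
  have a2 : 2 * ⌊x⌋ < ⌊2 * x⌋ + 1 := by
    have : 2 * (⌊x⌋ : ℝ) < ⌊2 * x⌋ + 1 := by linarith
    exact_mod_cast this
  omega

theorem dyx_of_succ (k : ℕ) (t : ℝ) : dyx k t = dyx (k + 1) t / 2 := by
  rcases dyx_succ_eq k t with h | h <;> omega

theorem dyx_eq_of_le {k k' : ℕ} (hk : k ≤ k') {s t : ℝ} (h : dyx k' s = dyx k' t) :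
    dyx k s = dyx k t := by
  induction k', hk using Nat.le_induction with
  | base => exact h
  | succ m hm ih =>
    apply ih
    rw [dyx_of_succ m s, dyx_of_succ m t, h]

theorem measurable_dyx (k : ℕ) : Measurable (dyx k) := by
  unfold dyx
  exact Int.measurable_floor.comp (measurable_id.mul_const _)

theorem measurableSet_dyI (k : ℕ) (j : ℤ) : MeasurableSet (dyI k j) := measurableSet_Ico

theorem volume_dyI (k : ℕ) (j : ℤ) : volume (dyI k j) = ENNReal.ofReal ((1 / 2) ^ k) := by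
  unfold dyI
  rw [Real.volume_Ico]
  congr 1
  ring

theorem volume_dyI_ne_top (k : ℕ) (j : ℤ) : volume (dyI k j) ≠ ⊤ := by
  rw [volume_dyI]; exact ENNReal.ofReal_ne_top

theorem volume_dyI_toReal (k : ℕ) (j : ℤ) : (volume (dyI k j)).toReal = (1 / 2) ^ k := by
  rw [volume_dyI, ENNReal.toReal_ofReal (by positivity)]

theorem I_eq (R : Tube) : R.I = dyI R.k R.j := rfl

theorem mem_I_iff (R : Tube) (t : ℝ) : t ∈ R.I ↔ dyx R.k t = R.j := by
  rw [I_eq, mem_dyI_iff]

theorem dyI_split (k : ℕ) (j : ℤ) : dyI k j = dyI (k + 1) (2 * j) ∪ dyI (k + 1) (2 * j + 1) := by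
  ext t
  rw [Set.mem_union, mem_dyI_iff, mem_dyI_iff, mem_dyI_iff]
  have := dyx_succ_eq k t
  omega

theorem dyI_disj (k : ℕ) (j : ℤ) : Disjoint (dyI (k + 1) (2 * j)) (dyI (k + 1) (2 * j + 1)) := by
  rw [Set.disjoint_left]
  intro t
  rw [mem_dyI_iff, mem_dyI_iff]
  omega

/-! ### windows and tents -/

theorem tent_nonneg (u : ℝ) : 0 ≤ tent u := le_max_right _ _

theorem tent_le_one (u : ℝ) : tent u ≤ 1 := by
  unfold tent
  exact max_le (by linarith [abs_nonneg u]) zero_le_one

theorem tent_eq_zero {u : ℝ} (h : 1 ≤ |u|) : tent u = 0 := by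
  unfold tent
  exact max_eq_right (by linarith)

theorem tent_neg (u : ℝ) : tent (-u) = tent u := by unfold tent; rw [abs_neg]

theorem continuous_tent : Continuous tent := by
  unfold tent
  fun_prop

theorem win_nonneg (u : ℝ) : 0 ≤ win u := by unfold win; split_ifs <;> norm_num

theorem win_le_one (u : ℝ) : win u ≤ 1 := by unfold win; split_ifs <;> norm_num

theorem measurable_win : Measurable win := by
  unfold win
  exact Measurable.ite (measurableSet_le measurable_id.abs measurable_const)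
    measurable_const measurable_const

theorem win_sub_eq (b : ℝ) :
    (fun y : ℝ => win (y - b)) = (Set.Icc (b - 1 / 2) (b + 1 / 2)).indicator 1 := by
  funext y
  unfold win
  by_cases h : |y - b| ≤ 1 / 2
  · rw [if_pos h, Set.indicator_of_mem]
    · rfl
    · rw [abs_le] at h; constructor <;> linarith
  · rw [if_neg h, Set.indicator_of_notMem]
    intro h2
    apply h
    rw [Set.mem_Icc] at h2
    rw [abs_le]; constructor <;> linarith

theorem win_mul_eq (b b' : ℝ) :
    (fun y : ℝ => win (y - b) * win (y - b')) =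
      (Set.Icc (max (b - 1 / 2) (b' - 1 / 2)) (min (b + 1 / 2) (b' + 1 / 2))).indicator 1 := by
  funext y
  rw [show win (y - b) = (Set.Icc (b - 1 / 2) (b + 1 / 2)).indicator (1 : ℝ → ℝ) y from
      congrFun (win_sub_eq b) y,
    show win (y - b') = (Set.Icc (b' - 1 / 2) (b' + 1 / 2)).indicator (1 : ℝ → ℝ) y from
      congrFun (win_sub_eq b') y, ← Set.inter_indicator_mul, Set.Icc_inter_Icc]
  simp only [Pi.one_apply, mul_one]
  rfl

theorem integrable_win (b : ℝ) : Integrable (fun y : ℝ => win (y - b)) := by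
  rw [win_sub_eq, integrable_indicator_iff measurableSet_Icc]
  exact integrableOn_const (by rw [Real.volume_Icc]; exact ENNReal.ofReal_ne_top)

theorem integrable_win_mul (b b' : ℝ) : Integrable (fun y : ℝ => win (y - b) * win (y - b')) := by
  rw [win_mul_eq, integrable_indicator_iff measurableSet_Icc]
  exact integrableOn_const (by rw [Real.volume_Icc]; exact ENNReal.ofReal_ne_top)

theorem integral_win_mul (b b' : ℝ) :
    ∫ y : ℝ, win (y - b) * win (y - b') = tent (b' - b) := by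
  rw [win_mul_eq, integral_indicator_one measurableSet_Icc, measureReal_def, Real.volume_Icc]
  unfold tent
  rcases le_total b b' with h | h
  · rw [max_eq_right (by linarith : b - 1 / 2 ≤ b' - 1 / 2),
      min_eq_left (by linarith : b + 1 / 2 ≤ b' + 1 / 2), abs_of_nonneg (by linarith : 0 ≤ b' - b)]
    rw [show b + 1 / 2 - (b' - 1 / 2) = 1 - (b' - b) by ring, ENNReal.toReal_ofReal']
  · rw [max_eq_left (by linarith : b' - 1 / 2 ≤ b - 1 / 2),
      min_eq_right (by linarith : b' + 1 / 2 ≤ b + 1 / 2), abs_of_nonpos (by linarith : b' - b ≤ 0)]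
    rw [show b' + 1 / 2 - (b - 1 / 2) = 1 - -(b' - b) by ring, ENNReal.toReal_ofReal']

/-- the counting function of a weighted family of unit windows -/
def Nf {n : ℕ} (a b : Fin n → ℝ) (y : ℝ) : ℝ := ∑ i, a i * win (y - b i)

theorem Nf_nonneg {n : ℕ} {a b : Fin n → ℝ} (ha : ∀ i, 0 ≤ a i) (y : ℝ) : 0 ≤ Nf a b y :=
  Finset.sum_nonneg fun i _ => mul_nonneg (ha i) (win_nonneg _)

theorem Nf_sq {n : ℕ} (a b : Fin n → ℝ) (y : ℝ) :
    (Nf a b y) ^ 2 = ∑ i, ∑ q, a i * a q * (win (y - b i) * win (y - b q)) := by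
  unfold Nf
  rw [sq, Finset.sum_mul_sum]
  refine Finset.sum_congr rfl fun i _ => Finset.sum_congr rfl fun q _ => ?_
  ring

theorem integrable_Nf_sq {n : ℕ} (a b : Fin n → ℝ) : Integrable (fun y => (Nf a b y) ^ 2) := by
  simp only [Nf_sq]
  exact integrable_finsetSum _ fun i _ => integrable_finsetSum _ fun q _ =>
    (integrable_win_mul _ _).const_mul _

theorem integral_Nf_sq {n : ℕ} (a b : Fin n → ℝ) :
    ∫ y, (Nf a b y) ^ 2 = ∑ i, ∑ q, a i * a q * tent (b q - b i) := by
  simp only [Nf_sq]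
  rw [integral_finsetSum _ fun i _ => integrable_finsetSum _ fun q _ =>
    (integrable_win_mul _ _).const_mul _]
  refine Finset.sum_congr rfl fun i _ => ?_
  rw [integral_finsetSum _ fun q _ => (integrable_win_mul _ _).const_mul _]
  refine Finset.sum_congr rfl fun q _ => ?_
  rw [integral_const_mul, integral_win_mul]

theorem exists_shift {x : ℝ} (h : |x| ≤ 5 / 2) :
    ∃ e ∈ Finset.Icc (-2 : ℤ) 2, |x + e| ≤ 1 / 2 := by
  rw [abs_le] at h
  by_cases h1 : x ≤ -3 / 2
  · exact ⟨2, by simp, by rw [abs_le]; push_cast; constructor <;> linarith⟩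
  by_cases h2 : x ≤ -1 / 2
  · exact ⟨1, by simp, by rw [abs_le]; push_cast; constructor <;> linarith⟩
  by_cases h3 : x ≤ 1 / 2
  · exact ⟨0, by simp, by rw [abs_le]; push_cast; constructor <;> linarith⟩
  by_cases h4 : x ≤ 3 / 2
  · exact ⟨-1, by simp, by rw [abs_le]; push_cast; constructor <;> linarith⟩
  · exact ⟨-2, by simp, by rw [abs_le]; push_cast; constructor <;> linarith⟩

theorem integral_shift_Nf_sq {n : ℕ} (a b : Fin n → ℝ) (e : ℝ) :
    ∫ y, (Nf a b (y + e)) ^ 2 = ∫ y, (Nf a b y) ^ 2 :=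
  integral_add_right_eq_self (fun y => (Nf a b y) ^ 2) e

theorem integrable_shift_Nf_sq {n : ℕ} (a b : Fin n → ℝ) (e : ℝ) :
    Integrable (fun y => (Nf a b (y + e)) ^ 2) :=
  (integrable_Nf_sq a b).comp_add_right e

/-- finest level in one column -/
theorem top_col {n p : ℕ} (a b : Fin n → ℝ) (ha : ∀ i, 0 ≤ a i) (b' g : Fin p → ℝ)
    (Y : Fin p → Set ℝ) (hYm : ∀ q, MeasurableSet (Y q))
    (hYd : Pairwise (Function.onFun Disjoint Y)) (hY : ∀ q, ∀ y ∈ Y q, |y - b' q| ≤ 1 / 2)
    (hg0 : ∀ q, 0 ≤ g q)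
    (hg : ∀ q, g q ≤ ∑ i, a i * (if |b' q - b i| ≤ 2 then 1 else 0)) :
    ∑ q, (volume (Y q)).toReal * (g q) ^ 2 ≤ 25 * ∫ y, (Nf a b y) ^ 2 := by
  set F : ℝ → ℝ := fun y => ∑ e ∈ Finset.Icc (-2 : ℤ) 2, Nf a b (y + e) with hF
  have hF0 : ∀ y, 0 ≤ F y := fun y => Finset.sum_nonneg fun e _ => Nf_nonneg ha _
  have hFsq : ∀ y, (F y) ^ 2 ≤ 5 * ∑ e ∈ Finset.Icc (-2 : ℤ) 2, (Nf a b (y + e)) ^ 2 := by
    intro y
    have := sq_sum_le_card_mul_sum_sq (s := Finset.Icc (-2 : ℤ) 2)
      (f := fun e : ℤ => Nf a b (y + e))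
    have hc : (Finset.Icc (-2 : ℤ) 2).card = 5 := by rw [Int.card_Icc]; rfl
    rw [hc] at this
    exact_mod_cast this
  have hgF : ∀ q, ∀ y ∈ Y q, g q ≤ F y := by
    intro q y hy
    refine (hg q).trans ?_
    simp only [hF, Nf]
    rw [Finset.sum_comm]
    refine Finset.sum_le_sum fun i _ => ?_
    rw [← Finset.mul_sum]
    refine mul_le_mul_of_nonneg_left ?_ (ha i)
    split_ifs with h
    · have h1 := hY q y hy
      have h2 : |y - b i| ≤ 5 / 2 := by
        have : y - b i = (y - b' q) + (b' q - b i) := by ring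
        rw [this]
        exact (abs_add_le _ _).trans (by linarith)
      obtain ⟨e, he, hee⟩ := exists_shift h2
      have h3 : win (y + (e : ℝ) - b i) = 1 := by
        unfold win
        rw [if_pos]
        rw [show y + (e : ℝ) - b i = y - b i + e by ring]
        exact hee
      rw [← h3]
      exact Finset.single_le_sum (f := fun e : ℤ => win (y + (e : ℝ) - b i))
        (fun e _ => win_nonneg _) he
    · exact Finset.sum_nonneg fun e _ => win_nonneg _
  have hmeasN : Measurable (Nf a b) := by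
    unfold Nf
    exact Finset.measurable_sum _ fun i _ =>
      (measurable_win.comp (measurable_id.sub_const _)).const_mul _
  have hFm : Measurable F := by
    simp only [hF]
    exact Finset.measurable_sum _ fun e _ => hmeasN.comp (measurable_id.add_const _)
  have hS : Integrable (fun y => ∑ e ∈ Finset.Icc (-2 : ℤ) 2, (Nf a b (y + (e : ℝ))) ^ 2) :=
    integrable_finsetSum (Finset.Icc (-2 : ℤ) 2) fun e _ => integrable_shift_Nf_sq a b (e : ℝ)
  have hS5 : Integrable (fun y => 5 * ∑ e ∈ Finset.Icc (-2 : ℤ) 2, (Nf a b (y + (e : ℝ))) ^ 2) :=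
    hS.const_mul 5
  have hFi : Integrable (fun y => (F y) ^ 2) := by
    refine Integrable.mono' hS5 (hFm.pow_const 2).aestronglyMeasurable ?_
    refine Filter.Eventually.of_forall fun y => ?_
    rw [Real.norm_of_nonneg (sq_nonneg _)]
    exact hFsq y
  have hfin : ∀ q, volume (Y q) ≠ ⊤ := by
    intro q
    refine ne_top_of_le_ne_top ?_ (measure_mono (t := Set.Icc (b' q - 1 / 2) (b' q + 1 / 2)) ?_)
    · rw [Real.volume_Icc]; exact ENNReal.ofReal_ne_top
    · intro y hy
      have := hY q y hy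
      rw [abs_le] at this
      constructor <;> linarith
  calc ∑ q, (volume (Y q)).toReal * (g q) ^ 2
      = ∑ q, ∫ y in Y q, (g q) ^ 2 := by
        refine Finset.sum_congr rfl fun q _ => ?_
        rw [setIntegral_const, smul_eq_mul, measureReal_def]
    _ ≤ ∑ q, ∫ y in Y q, (F y) ^ 2 := by
        refine Finset.sum_le_sum fun q _ => ?_
        refine setIntegral_mono_on (integrableOn_const (hfin q)) hFi.integrableOn (hYm q) ?_
        intro y hy
        exact pow_le_pow_left₀ (hg0 q) (hgF q y hy) 2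
    _ = ∫ y in ⋃ q, Y q, (F y) ^ 2 := by
        rw [integral_iUnion_fintype hYm hYd (fun q => hFi.integrableOn)]
    _ ≤ ∫ y, (F y) ^ 2 := by
        exact setIntegral_le_integral hFi (Filter.Eventually.of_forall fun y => sq_nonneg _)
    _ ≤ ∫ y, 5 * ∑ e ∈ Finset.Icc (-2 : ℤ) 2, (Nf a b (y + (e : ℝ))) ^ 2 :=
        integral_mono hFi hS5 hFsq
    _ = 25 * ∫ y, (Nf a b y) ^ 2 := by
        rw [integral_const_mul, integral_finsetSum (Finset.Icc (-2 : ℤ) 2)
          fun e _ => integrable_shift_Nf_sq a b (e : ℝ)]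
        simp only [integral_shift_Nf_sq]
        rw [Finset.sum_const]
        have hc : (Finset.Icc (-2 : ℤ) 2).card = 5 := by rw [Int.card_Icc]; rfl
        rw [hc, nsmul_eq_mul]
        push_cast
        ring

end Crest.Agent.R087.ASM2x556
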