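import Crest.Agent.R087.E2leaf_542

/-!
# Row 87: the nearly lossless form of the heart

`E2s` : `‖∑ a_i 1_{R_i}‖² ≤ C ∑ a_i² |R_i| (|R_i|/|E_i|) (1 + log (|R_i|/|E_i|))`, `E_i ⊂ V(R_i)` disjoint.
`STOPs` : entropy form of the stopping lemma; `ASM2s : STOPs → SQ → E2s`.
-/

set_option autoImplicit false

noncomputable section

open MeasureTheory

namespace Crest.Agent.R087.E2x542

open Crest.Agent.R087.Sh0x283

/-- entropy version of `STOP` (note 984 steps 2-3): with `δ` the mean of `w` over the interval,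
`A² |I| ≤ (1 + 2 log (1/δ)) / δ · ∫ w (G_K² + ∑ D_k²)` -/
def STOPs : Prop :=
  ∀ (k0 K : ℕ) (j0 : ℤ) (G D : ℕ → ℤ → ℝ) (w : ℝ → ℝ) (δ : ℝ), k0 ≤ K →
    (∀ k j, 0 ≤ G k j) →
    (∀ k, k0 ≤ k → k < K → ∀ t ∈ dyI k0 j0,
      G k (dyx k t) + sg k t * D k (dyx k t) ≤ G (k + 1) (dyx (k + 1) t)) →
    Measurable w → (∀ t, 0 ≤ w t) → (∀ t, w t ≤ 1) → 0 < δ →
    ∫ t in dyI k0 j0, w t = δ * (1 / 2 : ℝ) ^ k0 →
    (G k0 j0) ^ 2 * (1 / 2 : ℝ) ^ k0 ≤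
      (1 + 2 * Real.log (1 / δ)) / δ * ∫ t in dyI k0 j0,
        w t * ((G K (dyx K t)) ^ 2 + ∑ k ∈ Finset.Ico k0 K, (D k (dyx k t)) ^ 2)

/-- **(E2s)**: nearly lossless strong (2,2) Lipschitz-Kakeya estimate -/
def E2s : Prop :=
  ∃ c : ℝ, 0 < c ∧ ∃ C : ℝ, 0 ≤ C ∧ ∀ U : ℝ × ℝ → ℝ, Fld c U →
    ∀ (n : ℕ) (R : Fin n → Tube) (E : Fin n → Set (ℝ × ℝ)) (a δ : Fin n → ℝ),
      (∀ i, MeasurableSet (E i)) → (∀ i, E i ⊆ Tube.V U (R i)) →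
      Pairwise (Function.onFun Disjoint E) →
      (∀ i, 0 < δ i) → (∀ i, (volume (E i)).toReal = δ i * (R i).len) → (∀ i, 0 ≤ a i) →
      ∫ z, (∑ i, a i * (R i).body.indicator 1 z) ^ 2 ≤
        C * ∑ i, a i ^ 2 * (R i).len * ((1 + Real.log (1 / δ i)) / δ i)

/-- assembly of the lossless heart -/
def ASM2s : Prop := STOPs → SQ → E2s

end Crest.Agent.R087.E2x542
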