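import Crest.Agent.R087.ASM2_556
import Crest.Agent.R087.E2s_542

/-! Row 87, leaf ASM2s: `STOPs → SQ → E2s` (nearly lossless form). -/

set_option autoImplicit false

noncomputable section

open MeasureTheory

namespace Crest.Agent.R087.ASM2x556

open Crest.Agent.R087.Sh0x283 Crest.Agent.R087.E2x542

/-- assembly with an arbitrary stopping factor `Λ q` for each tube -/
theorem asm_core {c C : ℝ}
    (hC : ∀ u : ℝ → ℝ, (∀ y y', |u y - u y'| ≤ c * |y - y'|) →
      ∀ (t : ℝ) (K n p : ℕ) (b m a : Fin n → ℝ) (kk : Fin n → ℕ)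
      (b' m' : Fin p → ℝ) (k' : Fin p → ℕ) (Y : Fin p → Set ℝ),
      (∀ i, 0 ≤ a i) → (∀ q, MeasurableSet (Y q)) → Pairwise (Function.onFun Disjoint Y) →
      (∀ q, ∀ y ∈ Y q, |y - b' q| ≤ 1 / 2 ∧ |u y - m' q| ≤ 2 ^ (k' q)) →
      ∑ q, (volume (Y q)).toReal * ∑ k ∈ Finset.Ico (k' q) K,
        (Dk t k b m a kk (b' q) (m' q)) ^ 2 ≤
        C * ∫ y, (∑ i, a i * win (y - b i)) ^ 2)
    (U : ℝ × ℝ → ℝ) (hU : Fld c U) (n : ℕ) (R : Fin n → Tube) (E : Fin n → Set (ℝ × ℝ))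
    (a Λ : Fin n → ℝ) (hE : ∀ i, MeasurableSet (E i)) (hEV : ∀ i, E i ⊆ Tube.V U (R i))
    (hdis : Pairwise (Function.onFun Disjoint E)) (ha : ∀ i, 0 ≤ a i) (hΛ : ∀ i, 0 < Λ i)
    (hst : ∀ K : ℕ, (∀ i, (R i).k ≤ K) → ∀ q,
      (Gf R a q (R q).k (R q).j) ^ 2 * (1 / 2 : ℝ) ^ (R q).k ≤
        Λ q * ∫ t in dyI (R q).k (R q).j, wf E q t * ((Gf R a q K (dyx K t)) ^ 2 +
          ∑ k ∈ Finset.Ico (R q).k K, (Df R a q k (dyx k t)) ^ 2)) :
    ∫ z, (∑ i, a i * (R i).body.indicator 1 z) ^ 2 ≤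
      4 * (25 + |C|) * ∑ i, a i ^ 2 * (R i).len * Λ i := by
  obtain ⟨hUm, -, hUl⟩ := hU
  -- finest level
  obtain ⟨K, hK1, hK2⟩ : ∃ K : ℕ, (∀ i, (R i).k ≤ K) ∧
      ∀ q i, |(R q).m - (R i).m| ≤ 2 ^ K := by
    obtain ⟨K1, hK1⟩ : ∃ K1 : ℕ, ∀ i, (R i).k ≤ K1 :=
      ⟨∑ i, (R i).k, fun i => Finset.single_le_sum (f := fun i => (R i).k)
        (fun _ _ => Nat.zero_le _) (Finset.mem_univ i)⟩
    obtain ⟨K2, hK2⟩ : ∃ K2 : ℕ, ∑ q, ∑ i, |(R q).m - (R i).m| < 2 ^ K2 :=
      pow_unbounded_of_one_lt _ (by norm_num)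
    refine ⟨max K1 K2, fun i => (hK1 i).trans (le_max_left _ _), fun q i => ?_⟩
    calc |(R q).m - (R i).m| ≤ ∑ i, |(R q).m - (R i).m| :=
          Finset.single_le_sum (f := fun i => |(R q).m - (R i).m|)
            (fun _ _ => abs_nonneg _) (Finset.mem_univ i)
      _ ≤ ∑ q, ∑ i, |(R q).m - (R i).m| :=
          Finset.single_le_sum (f := fun q => ∑ i, |(R q).m - (R i).m|)
            (fun _ _ => Finset.sum_nonneg fun _ _ => abs_nonneg _) (Finset.mem_univ q)
      _ ≤ 2 ^ K2 := hK2.le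
      _ ≤ 2 ^ max K1 K2 := pow_le_pow_right₀ (by norm_num) (le_max_right _ _)
  set A : ℝ := ∑ i, a i with hA
  have hA0 : 0 ≤ A := Finset.sum_nonneg fun i _ => ha i
  -- the quantity inside the stopping lemma
  set Q : Fin n → ℝ → ℝ := fun q t => (Gf R a q K (dyx K t)) ^ 2 +
    ∑ k ∈ Finset.Ico (R q).k K, (Df R a q k (dyx k t)) ^ 2 with hQdef
  have hQ0 : ∀ q t, 0 ≤ Q q t := fun q t =>
    add_nonneg (sq_nonneg _) (Finset.sum_nonneg fun _ _ => sq_nonneg _)
  have hQm : ∀ q, Measurable (Q q) := by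
    intro q
    refine (((measurable_of_countable (Gf R a q K)).comp (measurable_dyx K)).pow_const 2).add ?_
    refine Finset.measurable_sum _ fun k _ => ?_
    exact ((measurable_of_countable (Df R a q k)).comp (measurable_dyx k)).pow_const 2
  have hQle : ∀ q t, Q q t ≤ A ^ 2 + K * A ^ 2 := by
    intro q t
    refine add_le_add (pow_le_pow_left₀ (Gf_nonneg R a ha q K _) (Gf_le R a ha q K _) 2) ?_
    calc ∑ k ∈ Finset.Ico (R q).k K, (Df R a q k (dyx k t)) ^ 2
        ≤ ∑ k ∈ Finset.Ico (R q).k K, A ^ 2 := by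
          refine Finset.sum_le_sum fun k _ => ?_
          rw [← sq_abs]
          exact pow_le_pow_left₀ (abs_nonneg _) (Df_abs_le R a ha q k _) 2
      _ = ((K - (R q).k : ℕ) : ℝ) * A ^ 2 := by
          rw [Finset.sum_const, Nat.card_Ico, nsmul_eq_mul]
      _ ≤ K * A ^ 2 := by
          refine mul_le_mul_of_nonneg_right ?_ (sq_nonneg _)
          exact_mod_cast Nat.sub_le _ _
  have hwQi : ∀ q, Integrable (fun t => wf E q t * Q q t) := by
    intro q
    have h1 : IntegrableOn (fun t => wf E q t * Q q t) (R q).I := by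
      refine Measure.integrableOn_of_bounded (M := A ^ 2 + K * A ^ 2)
        (by rw [I_eq]; exact volume_dyI_ne_top _ _)
        ((measurable_wf E hE q).mul (hQm q)).aestronglyMeasurable ?_
      refine Filter.Eventually.of_forall fun t => ?_
      rw [Real.norm_of_nonneg (mul_nonneg (wf_nonneg E q t) (hQ0 q t))]
      calc wf E q t * Q q t ≤ 1 * Q q t :=
            mul_le_mul_of_nonneg_right (wf_le_one R U E hEV q t) (hQ0 q t)
        _ ≤ _ := by rw [one_mul]; exact hQle q t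
    refine (integrableOn_iff_integrable_of_support_subset ?_).1 h1
    intro t ht
    by_contra h2
    apply ht
    simp only
    rw [wf_eq_zero R U E hEV q h2, zero_mul]
  -- stopping lemma
  have hstop : ∀ q, (Gf R a q (R q).k (R q).j) ^ 2 * (1 / 2 : ℝ) ^ (R q).k ≤
      Λ q * ∫ t, wf E q t * Q q t := by
    intro q
    have h := hst K hK1 q
    rw [setIntegral_eq_integral_of_forall_compl_eq_zero (fun t ht => by
      rw [← I_eq] at ht
      rw [wf_eq_zero R U E hEV q ht, zero_mul])] at h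
    exact h
  -- column estimate
  have hcolm : ∀ t, ∑ q, wf E q t * Q q t ≤ (25 + |C|) * hcol R a t := by
    intro t
    have hYm : ∀ q, MeasurableSet (Prod.mk t ⁻¹' E q) := fun q =>
      measurable_prodMk_left (hE q)
    have hYd : Pairwise (Function.onFun Disjoint fun q => Prod.mk t ⁻¹' E q) := by
      intro q q' hqq
      exact (hdis hqq).preimage _
    have hY1 : ∀ q, ∀ y ∈ Prod.mk t ⁻¹' E q, |y - (R q).line t| ≤ 1 / 2 := fun q y hy =>
      (hEV q hy).1.2
    have hY2 : ∀ q, ∀ y ∈ Prod.mk t ⁻¹' E q, |U (t, y) - (R q).m| ≤ 2 ^ (R q).k := by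
      intro q y hy
      have h := (hEV q hy).2
      unfold Tube.len at h
      have h2 : (0 : ℝ) < 2 ^ (R q).k := by positivity
      calc |U (t, y) - (R q).m| = (|U (t, y) - (R q).m| * (1 / 2) ^ (R q).k) * 2 ^ (R q).k := by
            rw [mul_assoc, mul_comm ((1 / 2 : ℝ) ^ (R q).k), two_pow_mul_half, mul_one]
        _ ≤ 1 * 2 ^ (R q).k := mul_le_mul_of_nonneg_right h h2.le
        _ = 2 ^ (R q).k := one_mul _
    have h1 := top_col (ac R a t) (fun i => (R i).line t) (ac_nonneg R a ha t)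
      (fun q => (R q).line t) (fun q => Gf R a q K (dyx K t)) (fun q => Prod.mk t ⁻¹' E q)
      hYm hYd hY1 (fun q => Gf_nonneg R a ha q K _)
      (fun q => top_le R a ha q K hK1 (hK2 q) t)
    have h2 := hC (fun y => U (t, y)) (fun y y' => hUl t y y') t K n n
      (fun i => (R i).line t) (fun i => (R i).m) (ac R a t) (fun i => (R i).k)
      (fun q => (R q).line t) (fun q => (R q).m) (fun q => (R q).k)
      (fun q => Prod.mk t ⁻¹' E q) (ac_nonneg R a ha t) hYm hYd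
      (fun q y hy => ⟨hY1 q y hy, hY2 q y hy⟩)
    have h3 : C * ∫ y, (∑ i, ac R a t i * win (y - (R i).line t)) ^ 2 ≤ |C| * hcol R a t :=
      mul_le_mul_of_nonneg_right (le_abs_self C) (hcol_nonneg R a t)
    have h4 : ∑ q, wf E q t * Q q t =
        (∑ q, (volume (Prod.mk t ⁻¹' E q)).toReal * (Gf R a q K (dyx K t)) ^ 2) +
        ∑ q, (volume (Prod.mk t ⁻¹' E q)).toReal * ∑ k ∈ Finset.Ico (R q).k K,
          (Dk t k (fun i => (R i).line t) (fun i => (R i).m) (ac R a t)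
            (fun i => (R i).k) ((R q).line t) (R q).m) ^ 2 := by
      rw [← Finset.sum_add_distrib]
      refine Finset.sum_congr rfl fun q _ => ?_
      simp only [hQdef, wf, Df_eq_Dk]
      ring
    have h5 : (25 : ℝ) * ∫ y, (Nf (ac R a t) (fun i => (R i).line t) y) ^ 2 =
      25 * hcol R a t := rfl
    rw [h4, add_mul]
    linarith
  -- integration in `t`
  have hint : ∑ q, ∫ t, wf E q t * Q q t ≤ (25 + |C|) * ∫ t, hcol R a t := by
    rw [← integral_finsetSum _ fun q _ => hwQi q, ← integral_const_mul]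
    exact integral_mono (integrable_finsetSum _ fun q _ => hwQi q)
      ((integrable_hcol R a).const_mul _) hcolm
  -- Cauchy-Schwarz
  rw [integral_H_sq]
  set X := ∫ t, hcol R a t with hX
  have hX0 : 0 ≤ X := integral_nonneg fun t => hcol_nonneg R a t
  set S2 := ∑ i, a i ^ 2 * (R i).len * Λ i with hS2
  have hS20 : 0 ≤ S2 := Finset.sum_nonneg fun i _ =>
    mul_nonneg (mul_nonneg (sq_nonneg _) (R i).len_pos.le) (hΛ i).le
  have h1 : X ≤ 2 * ∑ q, a q * ((1 / 2) ^ (R q).k * Gf R a q (R q).k (R q).j) :=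
    integral_hcol_le R a ha
  have h2 : (∑ q, a q * ((1 / 2) ^ (R q).k * Gf R a q (R q).k (R q).j)) ^ 2 ≤
      S2 * ∑ q, (Gf R a q (R q).k (R q).j) ^ 2 * (1 / 2 : ℝ) ^ (R q).k * (Λ q)⁻¹ := by
    have := Finset.sum_sq_le_sum_mul_sum_of_sq_le_mul Finset.univ
      (r := fun q => a q * ((1 / 2) ^ (R q).k * Gf R a q (R q).k (R q).j))
      (f := fun q => a q ^ 2 * (R q).len * Λ q)
      (g := fun q => (Gf R a q (R q).k (R q).j) ^ 2 * (1 / 2 : ℝ) ^ (R q).k * (Λ q)⁻¹)
      (fun q _ => mul_nonneg (mul_nonneg (sq_nonneg _) (R q).len_pos.le) (hΛ q).le)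
      (fun q _ => mul_nonneg (mul_nonneg (sq_nonneg _) (by positivity)) (inv_nonneg.2 (hΛ q).le))
      (fun q _ => le_of_eq (by
        have := (hΛ q).ne'
        unfold Tube.len
        field_simp))
    exact this
  have h3 : ∑ q, (Gf R a q (R q).k (R q).j) ^ 2 * (1 / 2 : ℝ) ^ (R q).k * (Λ q)⁻¹ ≤
      (25 + |C|) * X := by
    refine le_trans (Finset.sum_le_sum fun q _ => ?_) hint
    rw [← div_eq_mul_inv, div_le_iff₀ (hΛ q), mul_comm (∫ t, wf E q t * Q q t)]
    exact hstop q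
  have h4 : X ^ 2 ≤ 4 * (S2 * ((25 + |C|) * X)) := by
    have hs0 : 0 ≤ ∑ q, a q * ((1 / 2) ^ (R q).k * Gf R a q (R q).k (R q).j) :=
      Finset.sum_nonneg fun q _ => mul_nonneg (ha q)
        (mul_nonneg (by positivity) (Gf_nonneg R a ha q _ _))
    calc X ^ 2 ≤ (2 * ∑ q, a q * ((1 / 2) ^ (R q).k * Gf R a q (R q).k (R q).j)) ^ 2 :=
          pow_le_pow_left₀ hX0 h1 2
      _ = 4 * (∑ q, a q * ((1 / 2) ^ (R q).k * Gf R a q (R q).k (R q).j)) ^ 2 := by ring
      _ ≤ 4 * (S2 * ∑ q, (Gf R a q (R q).k (R q).j) ^ 2 * (1 / 2 : ℝ) ^ (R q).k * (Λ q)⁻¹) :=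
          mul_le_mul_of_nonneg_left h2 (by norm_num)
      _ ≤ _ := mul_le_mul_of_nonneg_left (mul_le_mul_of_nonneg_left h3 hS20) (by norm_num)
  have h5 : 4 * (S2 * ((25 + |C|) * X)) = (4 * (25 + |C|) * S2) * X := by ring
  rw [h5] at h4
  rcases hX0.eq_or_lt with h | h
  · rw [← h]; positivity
  · rw [sq] at h4
    exact le_of_mul_le_mul_right h4 h

theorem asm2s : ASM2s := by
  intro hS hQ
  obtain ⟨c, hc, C, hC⟩ := hQ
  refine ⟨c, hc, 8 * (25 + |C|), by positivity, ?_⟩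
  intro U hU n R E a δ hE hEV hdis hδ hvol ha
  have hδ1 : ∀ i, δ i ≤ 1 := by
    intro i
    have h1 : volume (E i) ≤ ENNReal.ofReal (R i).len := by
      rw [← (R i).volume_body]
      exact measure_mono fun z hz => (hEV i hz).1
    have h2 : (volume (E i)).toReal ≤ (R i).len :=
      ENNReal.toReal_le_of_le_ofReal (R i).len_pos.le h1
    rw [hvol i] at h2
    have h3 := (R i).len_pos
    by_contra h
    push Not at h
    nlinarith
  have hlog : ∀ i, 0 ≤ Real.log (1 / δ i) := fun i =>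
    Real.log_nonneg (by rw [le_div_iff₀ (hδ i), one_mul]; exact hδ1 i)
  have hΛ : ∀ i, 0 < (1 + 2 * Real.log (1 / δ i)) / δ i := fun i =>
    div_pos (by linarith [hlog i]) (hδ i)
  have h := asm_core hC U hU n R E a (fun i => (1 + 2 * Real.log (1 / δ i)) / δ i) hE hEV hdis ha
    hΛ (fun K hK1 q => hS (R q).k K (R q).j (Gf R a q) (Df R a q) (wf E q) (δ q) (hK1 q)
      (Gf_nonneg R a ha q) (fun k _ _ t _ => incr R a ha q k t) (measurable_wf E hE q)
      (wf_nonneg E q) (wf_le_one R U E hEV q) (hδ q) (by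
        have := integral_wf R U E hE hEV q
        rw [I_eq] at this
        rw [this]
        exact hvol q))
  refine h.trans ?_
  have h2 : ∑ i, a i ^ 2 * (R i).len * ((1 + 2 * Real.log (1 / δ i)) / δ i) ≤
      2 * ∑ i, a i ^ 2 * (R i).len * ((1 + Real.log (1 / δ i)) / δ i) := by
    rw [Finset.mul_sum]
    refine Finset.sum_le_sum fun i _ => ?_
    have h3 : (1 + 2 * Real.log (1 / δ i)) / δ i ≤ 2 * ((1 + Real.log (1 / δ i)) / δ i) := by
      rw [← mul_div_assoc]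
      exact div_le_div_of_nonneg_right (by linarith) (hδ i).le
    have h4 : 0 ≤ a i ^ 2 * (R i).len := mul_nonneg (sq_nonneg _) (R i).len_pos.le
    calc a i ^ 2 * (R i).len * ((1 + 2 * Real.log (1 / δ i)) / δ i)
        ≤ a i ^ 2 * (R i).len * (2 * ((1 + Real.log (1 / δ i)) / δ i)) :=
          mul_le_mul_of_nonneg_left h3 h4
      _ = _ := by ring
  calc 4 * (25 + |C|) * ∑ i, a i ^ 2 * (R i).len * ((1 + 2 * Real.log (1 / δ i)) / δ i)
      ≤ 4 * (25 + |C|) * (2 * ∑ i, a i ^ 2 * (R i).len * ((1 + Real.log (1 / δ i)) / δ i)) :=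
        mul_le_mul_of_nonneg_left h2 (by positivity)
    _ = _ := by ring

end Crest.Agent.R087.ASM2x556
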