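import Crest.Agent.R087.Sh1_283

/-!
Row 87 (S0115), outer shell leaf S8 (helper738): approximate identity `APX`.
-/

set_option autoImplicit false

noncomputable section

open MeasureTheory Filter Topology Crest.Agent.R087.Sh0x283 Crest.Agent.R087.Sh1x283

namespace Crest.Agent.R087.Apxx738

/-- change of variable in a one dimensional convolution -/
theorem cvar (χ G : ℝ → ℝ) (y lam : ℝ) (hl : 0 < lam) :
    ∫ r, χ r * G (y - lam * r) = lam⁻¹ * ∫ s, χ ((y - s) / lam) * G s := by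
  have h1 := Measure.integral_comp_mul_left (fun u => χ ((y - (y - u)) / lam) * G (y - u)) lam
  have h2 := integral_sub_left_eq_self (fun s => χ ((y - s) / lam) * G s) volume y
  rw [h2, abs_of_pos (inv_pos.2 hl), smul_eq_mul] at h1
  rw [← h1]
  congr 1
  funext r
  have : (y - (y - lam * r)) / lam = r := by field_simp; ring
  rw [this]

/-- averaging against a bounded profile supported in `[-1,1]` -/
theorem cvx (χ G : ℝ → ℝ) (hχ0 : ∀ r, 0 ≤ χ r) (hχs : ∀ r, 1 < |r| → χ r = 0) (B : ℝ)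
    (hB : ∀ r, χ r ≤ B) (y lam : ℝ) (hl : 0 < lam) (hG : ∀ s, 0 ≤ G s)
    (hGi : IntegrableOn G (Metric.closedBall y lam)) :
    ∫ r, χ r * G (y - lam * r) ≤ lam⁻¹ * (B * ∫ s in Metric.closedBall y lam, G s) := by
  rw [cvar χ G y lam hl]
  apply mul_le_mul_of_nonneg_left _ (inv_nonneg.2 hl.le)
  rw [← setIntegral_eq_integral_of_forall_compl_eq_zero (s := Metric.closedBall y lam), ← integral_const_mul]
  · apply integral_mono_of_nonneg
    · exact Eventually.of_forall fun s => mul_nonneg (hχ0 _) (hG s)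
    · exact hGi.const_mul B
    · exact Eventually.of_forall fun s => mul_le_mul_of_nonneg_right (hB _) (hG s)
  · intro s hs
    rw [Metric.mem_closedBall, Real.dist_eq, not_le, abs_sub_comm] at hs
    rw [hχs, zero_mul]
    rw [abs_div, abs_of_pos hl, lt_div_iff₀ hl]
    linarith

theorem cv_sm (χ : ℝ → ℝ) (hχ : Continuous χ) (k : ℤ) (f : ℝ × ℝ → ℝ) (hf : Measurable f) :
    StronglyMeasurable (cv χ k f) := by
  unfold cv
  have h : StronglyMeasurable (fun q : (ℝ × ℝ) × ℝ => χ q.2 * f (q.1.1, q.1.2 - (2 : ℝ) ^ k * q.2)) := by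
    apply Measurable.stronglyMeasurable
    apply Measurable.mul
    · exact hχ.measurable.comp measurable_snd
    · apply hf.comp
      fun_prop
  exact h.integral_prod_right'

/-- bounded profile -/
theorem chi_bd (χ : ℝ → ℝ) (h : ChiC χ) : ∃ B : ℝ, 0 ≤ B ∧ ∀ r, χ r ≤ B := by
  have hc : Continuous χ := h.1.continuous
  have hs : HasCompactSupport χ := by
    apply HasCompactSupport.of_support_subset_isCompact (isCompact_Icc (a := (-1 / 8 : ℝ)) (b := 1 / 8))
    intro r hr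
    by_contra hn
    apply hr
    apply h.2.2.2.1
    rw [Set.mem_Icc, not_and_or, not_le, not_le] at hn
    rcases hn with hn | hn
    · rw [lt_abs]; right; linarith
    · rw [lt_abs]; left; linarith
  obtain ⟨B, hB⟩ := hs.exists_bound_of_continuous hc
  refine ⟨B, (norm_nonneg _).trans (hB 0), fun r => (le_abs_self _).trans (hB r)⟩

theorem chi_int (χ : ℝ → ℝ) (h : ChiC χ) : Integrable χ := by
  by_contra hn
  have := h.2.2.2.2
  rw [integral_undef hn] at this
  norm_num at this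

/-- `|cv χ k f z| ≤ M` -/
theorem cv_bd (χ : ℝ → ℝ) (h : ChiC χ) (k : ℤ) (f : ℝ × ℝ → ℝ) (M : ℝ) (hM : ∀ z, |f z| ≤ M)
    (z : ℝ × ℝ) : |cv χ k f z| ≤ M := by
  have h1 : |cv χ k f z| ≤ ∫ r, χ r * M := by
    unfold cv
    rw [← Real.norm_eq_abs]
    refine (norm_integral_le_of_norm_le (g := fun r => χ r * M) ((chi_int χ h).mul_const M) ?_)
    refine Eventually.of_forall fun r => ?_
    rw [Real.norm_eq_abs, abs_mul, abs_of_nonneg (h.2.2.1 r)]
    exact mul_le_mul_of_nonneg_left (hM _) (h.2.2.1 r)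
  rwa [integral_mul_const, h.2.2.2.2, one_mul] at h1

theorem cv_zero (χ : ℝ → ℝ) (h : ChiC χ) (k : ℤ) (f : ℝ × ℝ → ℝ) (R : ℝ)
    (hR : ∀ z, R < ‖z‖ → f z = 0) (z : ℝ × ℝ) (hz : R + (2 : ℝ) ^ k < ‖z‖) : cv χ k f z = 0 := by
  unfold cv
  rw [show (0 : ℝ) = ∫ _ : ℝ, (0 : ℝ) by simp]
  congr 1
  funext r
  by_cases hr : 1 / 8 < |r|
  · rw [h.2.2.2.1 r hr, zero_mul]
  · rw [hR, mul_zero]
    rw [not_lt] at hr
    have h2 : (0 : ℝ) < (2 : ℝ) ^ k := by positivity
    have h3 : ‖z‖ ≤ ‖((z.1, z.2 - (2 : ℝ) ^ k * r) : ℝ × ℝ)‖ + ‖(((0 : ℝ), (2 : ℝ) ^ k * r) : ℝ × ℝ)‖ := by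
      have : z = ((z.1, z.2 - (2 : ℝ) ^ k * r) : ℝ × ℝ) + (((0 : ℝ), (2 : ℝ) ^ k * r) : ℝ × ℝ) := by
        ext <;> simp
      conv_lhs => rw [this]
      exact norm_add_le _ _
    have h4 : ‖(((0 : ℝ), (2 : ℝ) ^ k * r) : ℝ × ℝ)‖ ≤ (2 : ℝ) ^ k := by
      rw [Prod.norm_def]
      simp only [norm_zero, norm_mul, Real.norm_eq_abs]
      rw [abs_of_pos h2]
      apply max_le h2.le
      nlinarith
    linarith

/-- pointwise a.e. convergence -/
theorem cv_tendsto (χ : ℝ → ℝ) (h : ChiC χ) (f : ℝ × ℝ → ℝ) (hf : Nice f) :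
    ∀ᵐ z, Tendsto (fun N : ℕ => cv χ (-(N : ℤ)) f z) atTop (𝓝 (f z)) := by
  obtain ⟨hfm, ⟨M, hM⟩, _⟩ := hf
  have hm : MeasurableSet {z | Tendsto (fun N : ℕ => cv χ (-(N : ℤ)) f z) atTop (𝓝 (f z))} :=
    measurableSet_tendsto_fun (fun N => (cv_sm χ h.1.continuous _ f hfm).measurable) hfm
  rw [Measure.volume_eq_prod, Measure.ae_prod_iff_ae_ae hm]
  refine Eventually.of_forall fun x => ?_
  obtain ⟨B, hB0, hB⟩ := chi_bd χ h
  have hχs : ∀ r, 1 < |r| → χ r = 0 := fun r hr => h.2.2.2.1 r (by linarith)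
  have hgm : Measurable (fun y => f (x, y)) := hfm.comp measurable_prodMk_left
  have hgi : LocallyIntegrable (fun y => f (x, y)) volume := by
    intro y
    refine ⟨Metric.ball y 1, Metric.ball_mem_nhds y one_pos, ?_⟩
    exact IntegrableOn.of_bound measure_ball_lt_top hgm.aestronglyMeasurable M
      (Eventually.of_forall fun s => hM _)
  filter_upwards [IsUnifLocDoublingMeasure.ae_tendsto_average_norm_sub volume hgi 1] with y hy
  have hlim : Tendsto (fun N : ℕ => (2 : ℝ) ^ (-(N : ℤ))) atTop (𝓝[>] 0) := by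
    rw [tendsto_nhdsWithin_iff]
    constructor
    · have := tendsto_pow_atTop_nhds_zero_of_lt_one (r := (1 / 2 : ℝ)) (by norm_num) (by norm_num)
      refine this.congr fun N => ?_
      rw [zpow_neg, zpow_natCast, one_div, inv_pow]
    · exact Eventually.of_forall fun N => Set.mem_Ioi.2 (by positivity)
  have h2 := hy (fun _ : ℕ => y) (fun N : ℕ => (2 : ℝ) ^ (-(N : ℤ))) hlim
    (Eventually.of_forall fun N => by
      rw [Metric.mem_closedBall, dist_self]; positivity)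
  rw [tendsto_iff_norm_sub_tendsto_zero]
  have h3 : Tendsto (fun N : ℕ => 2 * B * ⨍ s in Metric.closedBall y ((2 : ℝ) ^ (-(N : ℤ))),
      ‖f (x, s) - f (x, y)‖) atTop (𝓝 0) := by
    have := h2.const_mul (2 * B)
    rwa [mul_zero] at this
  refine squeeze_zero (fun _ => norm_nonneg _) (fun N => ?_) h3
  set lam : ℝ := (2 : ℝ) ^ (-(N : ℤ)) with hlam
  have hl : 0 < lam := by positivity
  have hGi : IntegrableOn (fun s => ‖f (x, s) - f (x, y)‖) (Metric.closedBall y lam) := by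
    refine IntegrableOn.of_bound measure_closedBall_lt_top ?_ (M + M) ?_
    · exact ((hgm.sub_const _).norm).aestronglyMeasurable
    · refine Eventually.of_forall fun s => ?_
      rw [norm_norm]
      exact (norm_sub_le _ _).trans (add_le_add (hM _) (hM _))
  have h5 := cvx χ (fun s => ‖f (x, s) - f (x, y)‖) h.2.2.1 hχs B hB y lam hl
    (fun s => norm_nonneg _) hGi
  have h6 : ⨍ s in Metric.closedBall y lam, ‖f (x, s) - f (x, y)‖ =
      (2 * lam)⁻¹ * ∫ s in Metric.closedBall y lam, ‖f (x, s) - f (x, y)‖ := by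
    rw [setAverage_eq, Real.volume_real_closedBall hl.le, smul_eq_mul]
  rw [h6]
  have h7 : ‖cv χ (-(N : ℤ)) f (x, y) - f (x, y)‖ ≤ ∫ r, χ r * ‖f (x, y - lam * r) - f (x, y)‖ := by
    have e1 : cv χ (-(N : ℤ)) f (x, y) - f (x, y) = ∫ r, χ r * (f (x, y - lam * r) - f (x, y)) := by
      have e2 : ∫ r, χ r * f (x, y) = f (x, y) := by
        rw [integral_mul_const, h.2.2.2.2, one_mul]
      conv_lhs => rw [← e2]
      unfold cv
      rw [← integral_sub]
      · congr 1; funext r; simp only []; ring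
      · apply (chi_int χ h).mul_bdd (c := M)
        · apply Measurable.aestronglyMeasurable
          apply hfm.comp
          fun_prop
        · exact Eventually.of_forall fun r => hM _
      · exact (chi_int χ h).mul_const _
    rw [e1]
    refine (norm_integral_le_integral_norm _).trans (le_of_eq ?_)
    congr 1
    funext r
    rw [norm_mul, Real.norm_eq_abs, abs_of_nonneg (h.2.2.1 r)]
  refine h7.trans (h5.trans (le_of_eq ?_))
  field_simp

theorem apx1 (χ : ℝ → ℝ) (h : ChiC χ) (f : ℝ × ℝ → ℝ) (hf : Nice f) :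
    Tendsto (fun N : ℕ => ∫ z, (cv χ (-(N : ℤ)) f z - f z) ^ 2) atTop (𝓝 0) := by
  have hae := cv_tendsto χ h f hf
  obtain ⟨hfm, ⟨M, hM⟩, ⟨R, hR⟩⟩ := hf
  have hlim := tendsto_integral_of_dominated_convergence (μ := (volume : Measure (ℝ × ℝ)))
    (F := fun (N : ℕ) z => (cv χ (-(N : ℤ)) f z - f z) ^ 2) (f := fun _ => (0 : ℝ))
    (fun z => (Metric.closedBall (0 : ℝ × ℝ) (R + 1)).indicator (fun _ => (2 * M) ^ 2) z) ?_ ?_ ?_ ?_
  · simpa using hlim
  · intro N
    exact (((cv_sm χ h.1.continuous _ f hfm).measurable.sub hfm).pow_const 2).aestronglyMeasurable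
  · refine (integrable_indicator_iff measurableSet_closedBall).2 ?_
    exact integrableOn_const measure_closedBall_lt_top.ne
  · intro N
    refine Eventually.of_forall fun z => ?_
    by_cases hz : z ∈ Metric.closedBall (0 : ℝ × ℝ) (R + 1)
    · rw [Set.indicator_of_mem hz, Real.norm_eq_abs, abs_pow]
      apply pow_le_pow_left₀ (abs_nonneg _)
      have h1 := cv_bd χ h (-(N : ℤ)) f M hM z
      have h2 := hM z
      calc |cv χ (-(N : ℤ)) f z - f z| ≤ |cv χ (-(N : ℤ)) f z| + |f z| := abs_sub _ _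
        _ ≤ 2 * M := by linarith
    · rw [Set.indicator_of_notMem hz]
      rw [mem_closedBall_zero_iff, not_le] at hz
      have h2 : (2 : ℝ) ^ (-(N : ℤ)) ≤ 1 := by
        rw [zpow_neg, zpow_natCast]
        exact inv_le_one_of_one_le₀ (one_le_pow₀ (by norm_num))
      rw [cv_zero χ h _ f R hR z (by linarith), hR z (by linarith)]
      simp
  · filter_upwards [hae] with z hz
    have := (hz.sub_const (f z)).pow 2
    simpa using this

theorem apx2 (χ : ℝ → ℝ) (h : ChiC χ) (f : ℝ × ℝ → ℝ) (hf : Nice f) :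
    Tendsto (fun N : ℕ => ∫ z, (cv χ (N : ℤ) f z) ^ 2) atTop (𝓝 0) := by
  obtain ⟨hfm, ⟨M, hM⟩, ⟨R0, hR0⟩⟩ := hf
  obtain ⟨B, hB0, hB⟩ := chi_bd χ h
  have hM0 : 0 ≤ M := (abs_nonneg _).trans (hM 0)
  set R : ℝ := max R0 0 with hRdef
  have hRn : 0 ≤ R := le_max_right _ _
  have hR : ∀ z, R < ‖z‖ → f z = 0 := fun z hz => hR0 z ((le_max_left _ _).trans_lt hz)
  set K : ℝ := B * M * (2 * R) with hK
  have hK0 : 0 ≤ K := by positivity
  have hpt : ∀ (N : ℕ) (z : ℝ × ℝ), |cv χ (N : ℤ) f z| ≤ ((2 : ℝ) ^ N)⁻¹ * K := by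
    intro N z
    have hl : (0 : ℝ) < (2 : ℝ) ^ N := by positivity
    have e1 : cv χ (N : ℤ) f z = ((2 : ℝ) ^ N)⁻¹ * ∫ s, χ ((z.2 - s) / (2 : ℝ) ^ N) * f (z.1, s) := by
      rw [← cvar χ (fun s => f (z.1, s)) z.2 ((2 : ℝ) ^ N) hl]
      unfold cv
      rw [zpow_natCast]
    rw [e1, abs_mul, abs_of_pos (inv_pos.2 hl)]
    apply mul_le_mul_of_nonneg_left _ (inv_nonneg.2 hl.le)
    rw [← setIntegral_eq_integral_of_forall_compl_eq_zero (s := Metric.closedBall (0 : ℝ) R)]
    · rw [← Real.norm_eq_abs]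
      refine (norm_setIntegral_le_of_norm_le_const (C := B * M) measure_closedBall_lt_top ?_).trans ?_
      · intro s _
        rw [norm_mul, Real.norm_eq_abs, Real.norm_eq_abs, abs_of_nonneg (h.2.2.1 _)]
        exact mul_le_mul (hB _) (hM _) (abs_nonneg _) hB0
      · rw [Real.volume_real_closedBall hRn]
    · intro s hs
      rw [mem_closedBall_zero_iff, not_le] at hs
      rw [hR, mul_zero]
      exact hs.trans_le (by simp [Prod.norm_def])
  have hsup : ∀ (N : ℕ) (z : ℝ × ℝ), z ∉ Metric.closedBall (0 : ℝ) R ×ˢ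
      Metric.closedBall (0 : ℝ) (R + (2 : ℝ) ^ N) → cv χ (N : ℤ) f z = 0 := by
    intro N z hz
    rw [Set.mem_prod, not_and_or, mem_closedBall_zero_iff, mem_closedBall_zero_iff, not_le, not_le] at hz
    rcases hz with hz | hz
    · unfold cv
      rw [show (0 : ℝ) = ∫ _ : ℝ, (0 : ℝ) by simp]
      congr 1
      funext r
      rw [hR, mul_zero]
      exact hz.trans_le (by simp [Prod.norm_def])
    · apply cv_zero χ h _ f R hR
      rw [zpow_natCast]
      exact hz.trans_le (by simp [Prod.norm_def])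
  have hub : ∀ N : ℕ, ∫ z, (cv χ (N : ℤ) f z) ^ 2 ≤
      (((2 : ℝ) ^ N)⁻¹ * K) ^ 2 * ((2 * R) * (2 * (R + (2 : ℝ) ^ N))) := by
    intro N
    have hl : (0 : ℝ) < (2 : ℝ) ^ N := by positivity
    rw [← setIntegral_eq_integral_of_forall_compl_eq_zero (s := Metric.closedBall (0 : ℝ) R ×ˢ
      Metric.closedBall (0 : ℝ) (R + (2 : ℝ) ^ N)) (fun z hz => by rw [hsup N z hz]; norm_num)]
    refine (le_abs_self _).trans ?_
    rw [← Real.norm_eq_abs]
    have hfin : volume (Metric.closedBall (0 : ℝ) R ×ˢ Metric.closedBall (0 : ℝ) (R + (2 : ℝ) ^ N)) < ⊤ := by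
      rw [Measure.volume_eq_prod, Measure.prod_prod]
      exact ENNReal.mul_lt_top measure_closedBall_lt_top measure_closedBall_lt_top
    refine (norm_setIntegral_le_of_norm_le_const (C := (((2 : ℝ) ^ N)⁻¹ * K) ^ 2) hfin ?_).trans ?_
    · intro z _
      rw [norm_pow, Real.norm_eq_abs]
      exact pow_le_pow_left₀ (abs_nonneg _) (hpt N z) 2
    · rw [Measure.volume_eq_prod, measureReal_prod_prod, Real.volume_real_closedBall hRn,
        Real.volume_real_closedBall (by positivity)]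
  have hlim : Tendsto (fun N : ℕ => (((2 : ℝ) ^ N)⁻¹ * K) ^ 2 * ((2 * R) * (2 * (R + (2 : ℝ) ^ N))))
      atTop (𝓝 0) := by
    have h1 : Tendsto (fun N : ℕ => ((1 / 2 : ℝ)) ^ N) atTop (𝓝 0) :=
      tendsto_pow_atTop_nhds_zero_of_lt_one (by norm_num) (by norm_num)
    have h2 : Tendsto (fun N : ℕ => K ^ 2 * (4 * R * R) * ((1 / 2 : ℝ) ^ N) ^ 2 +
        K ^ 2 * (4 * R) * (1 / 2 : ℝ) ^ N) atTop (𝓝 (K ^ 2 * (4 * R * R) * 0 ^ 2 + K ^ 2 * (4 * R) * 0)) :=
      ((h1.pow 2).const_mul _).add (h1.const_mul _)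
    simp only [ne_eq, OfNat.ofNat_ne_zero, not_false_eq_true, zero_pow, mul_zero, add_zero] at h2
    refine h2.congr fun N => ?_
    rw [one_div, inv_pow]
    have hl : (0 : ℝ) < (2 : ℝ) ^ N := by positivity
    field_simp
    ring
  exact squeeze_zero (fun N => integral_nonneg fun z => sq_nonneg _) hub hlim

theorem apx : Sh1x283.APX := fun χ h f hf => ⟨apx1 χ h f hf, apx2 χ h f hf⟩

end Crest.Agent.R087.Apxx738
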