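import Crest.Agent.R087.Sh1_283

/-!
Row 87, shell, S10 part 1: profiles `χ`, `dk`, `al` and antiderivatives.
-/

set_option autoImplicit false

noncomputable section

open MeasureTheory Crest.Agent.R087.Sh0x283 Crest.Agent.R087.Sh1x283

namespace Crest.Agent.R087.Asm1x283

theorem exists_chi : ∃ χ : ℝ → ℝ, ChiC χ := by
  let b : ContDiffBump (0 : ℝ) := ⟨1 / 16, 1 / 8, by norm_num, by norm_num⟩
  refine ⟨b.normed volume, b.contDiff_normed, fun r => b.normed_neg r, fun r => b.nonneg_normed r, ?_,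
    b.integral_normed⟩
  intro r hr
  have h1 : r ∉ Function.support (b.normed volume) := by
    rw [b.support_normed_eq]
    simp only [Metric.mem_ball, dist_zero_right, Real.norm_eq_abs, not_lt]
    exact hr.le
  simpa [Function.mem_support] using h1

theorem phiC_comp {φ : ℝ → ℝ} (h : PhiC φ) : HasCompactSupport φ := by
  refine HasCompactSupport.intro (isCompact_Icc (a := (-1 : ℝ)) (b := 1)) ?_
  intro x hx
  apply h.2.1
  by_contra hcon
  exact hx (abs_le.mp (not_lt.mp hcon))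

theorem chiC_comp {φ : ℝ → ℝ} (h : ChiC φ) : HasCompactSupport φ := by
  refine HasCompactSupport.intro (isCompact_Icc (a := (-(1 / 8) : ℝ)) (b := 1 / 8)) ?_
  intro x hx
  apply h.2.2.2.1
  by_contra hcon
  exact hx (abs_le.mp (not_lt.mp hcon))

/-- derivative of a profile vanishing outside `[-1,1]` is in `PhiC`. -/
theorem phiC_deriv {φ : ℝ → ℝ} (h1 : ContDiff ℝ (⊤ : ℕ∞) φ) (h2 : ∀ r, 1 < |r| → φ r = 0) :
    PhiC (deriv φ) := by
  have hcd : ContDiff ℝ (⊤ : ℕ∞) (deriv φ) := (contDiff_infty_iff_deriv.mp h1).2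
  have hc : HasCompactSupport φ := by
    refine HasCompactSupport.intro (isCompact_Icc (a := (-1 : ℝ)) (b := 1)) ?_
    intro x hx
    apply h2
    by_contra hcon
    exact hx (abs_le.mp (not_lt.mp hcon))
  refine ⟨hcd, ?_, ?_⟩
  · intro r hr
    have hopen : IsOpen {r : ℝ | 1 < |r|} := isOpen_lt continuous_const continuous_abs
    have : φ =ᶠ[nhds r] fun _ => 0 := by
      filter_upwards [hopen.mem_nhds hr] with s hs using h2 s hs
    rw [this.deriv_eq]; simp
  · exact integral_eq_zero_of_hasDerivAt_of_integrable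
      (fun x => (h1.differentiable (by simp)).differentiableAt.hasDerivAt)
      (hcd.continuous.integrable_of_hasCompactSupport hc.deriv)
      (h1.continuous.integrable_of_hasCompactSupport hc)

/-- antiderivative. -/
theorem phiC_prim {φ : ℝ → ℝ} (h : PhiC φ) :
    ∃ ω : ℝ → ℝ, ContDiff ℝ (⊤ : ℕ∞) ω ∧ (∀ r, 1 < |r| → ω r = 0) ∧ deriv ω = φ := by
  have hcont : Continuous φ := h.1.continuous
  have hderiv : ∀ r, HasDerivAt (fun r => ∫ s in (-1 : ℝ)..r, φ s) (φ r) r := fun r =>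
    intervalIntegral.integral_hasDerivAt_right (hcont.intervalIntegrable _ _)
      hcont.aestronglyMeasurable.stronglyMeasurableAtFilter hcont.continuousAt
  have hd : deriv (fun r => ∫ s in (-1 : ℝ)..r, φ s) = φ := funext fun r => (hderiv r).deriv
  refine ⟨fun r => ∫ s in (-1 : ℝ)..r, φ s, ?_, ?_, hd⟩
  · rw [contDiff_infty_iff_deriv]
    exact ⟨fun r => (hderiv r).differentiableAt, by rw [hd]; exact h.1⟩
  · intro r hr
    have hae : ∀ a b : ℝ, (∀ s ∈ Set.uIoc a b, φ s = 0) → ∫ s in a..b, φ s = 0 := fun a b hab =>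
      intervalIntegral.integral_zero_ae (Filter.Eventually.of_forall hab)
    rcases lt_abs.mp hr with h1 | h1
    · have e1 : ∫ s in (1 : ℝ)..r, φ s = 0 := by
        apply hae
        intro s hs
        rw [Set.uIoc_of_le h1.le] at hs
        exact h.2.1 s (lt_abs.mpr (Or.inl hs.1))
      have e2 : ∫ s in (-1 : ℝ)..1, φ s = 0 := by
        rw [intervalIntegral.integral_of_le (by norm_num)]
        rw [setIntegral_eq_integral_of_ae_compl_eq_zero, h.2.2]
        have hne : ∀ᵐ s : ℝ, s ≠ -1 := by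
          simp [ae_iff]
        filter_upwards [hne] with s hs1 hs
        apply h.2.1
        rw [Set.mem_Ioc, not_and_or, not_lt, not_le] at hs
        rcases hs with hs | hs
        · exact lt_abs.mpr (Or.inr (by
            rcases hs.lt_or_eq with h3 | h3
            · linarith
            · exact absurd h3 hs1))
        · exact lt_abs.mpr (Or.inl hs)
      have := intervalIntegral.integral_add_adjacent_intervals
        (hcont.intervalIntegrable (μ := volume) (-1) 1) (hcont.intervalIntegrable 1 r)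
      show ∫ s in (-1 : ℝ)..r, φ s = 0
      rw [← this, e1, e2, add_zero]
    · apply hae
      intro s hs
      rw [Set.uIoc_of_ge (by linarith)] at hs
      rcases hs.2.lt_or_eq with h3 | h3
      · exact h.2.1 s (lt_abs.mpr (Or.inr (by linarith)))
      · -- endpoint: by continuity
        have hcl : s ∈ closure {r : ℝ | 1 < |r|} := by
          rw [h3]
          rw [mem_closure_iff_seq_limit]
          refine ⟨fun n => -1 - 1 / ((n : ℝ) + 1), ?_, ?_⟩
          · intro n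
            have : (0 : ℝ) < 1 / ((n : ℝ) + 1) := by positivity
            have h5 : (1 : ℝ) < -(-1 - 1 / ((n : ℝ) + 1)) := by linarith
            exact lt_abs.mpr (Or.inr h5)
          · have := (tendsto_one_div_add_atTop_nhds_zero_nat (𝕜 := ℝ)).const_sub (-1 : ℝ)
            simpa using this
        have : Set.EqOn φ (fun _ => 0) (closure {r : ℝ | 1 < |r|}) :=
          Set.EqOn.closure (fun r hr => h.2.1 r hr) hcont continuous_const
        exact this hcl

/-- convolution of two profiles (form used in ALG). -/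
def cvp (φ ψ : ℝ → ℝ) (r : ℝ) : ℝ := ∫ s, φ s * ψ (r - s)

/-- `χ` at scale `2`. -/
def ch2 (χ : ℝ → ℝ) (r : ℝ) : ℝ := χ (r / 2) / 2

def dk (χ : ℝ → ℝ) (r : ℝ) : ℝ := χ r - ch2 χ r

def al (χ : ℝ → ℝ) (r : ℝ) : ℝ :=
  3 * (χ r + ch2 χ r) - 2 * (cvp χ χ r + cvp χ (ch2 χ) r + cvp (ch2 χ) (ch2 χ) r)

theorem cvp_eq (φ ψ : ℝ → ℝ) :
    cvp φ ψ = MeasureTheory.convolution φ ψ (ContinuousLinearMap.mul ℝ ℝ) volume := by
  ext r
  simp [cvp, MeasureTheory.convolution]

theorem cvp_smooth {φ ψ : ℝ → ℝ} (h1 : Continuous φ) (_h1c : HasCompactSupport φ)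
    (h2 : ContDiff ℝ (⊤ : ℕ∞) ψ) (h2c : HasCompactSupport ψ) : ContDiff ℝ (⊤ : ℕ∞) (cvp φ ψ) := by
  rw [cvp_eq]
  exact h2c.contDiff_convolution_right _ h1.locallyIntegrable h2

theorem cvp_supp {φ ψ : ℝ → ℝ} {a b : ℝ} (h1 : ∀ r, a < |r| → φ r = 0) (h2 : ∀ r, b < |r| → ψ r = 0)
    (r : ℝ) (hr : a + b < |r|) : cvp φ ψ r = 0 := by
  unfold cvp
  rw [integral_eq_zero_of_ae]
  filter_upwards with s
  by_cases hs : a < |s|
  · simp [h1 s hs]
  · have : b < |r - s| := by
      have := abs_sub_abs_le_abs_sub r s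
      rw [not_lt] at hs
      linarith
    simp [h2 _ this]

theorem cvp_int {φ ψ : ℝ → ℝ} (h1 : Continuous φ) (h1c : HasCompactSupport φ)
    (h2 : Continuous ψ) (h2c : HasCompactSupport ψ) : ∫ r, cvp φ ψ r = (∫ r, φ r) * ∫ r, ψ r := by
  rw [cvp_eq]
  have := MeasureTheory.integral_convolution (L := ContinuousLinearMap.mul ℝ ℝ) (μ := volume)
    (ν := volume) (h1.integrable_of_hasCompactSupport h1c) (h2.integrable_of_hasCompactSupport h2c)
  simpa using this

theorem cvp_even {φ ψ : ℝ → ℝ} (h1 : ∀ r, φ (-r) = φ r) (h2 : ∀ r, ψ (-r) = ψ r) (r : ℝ) :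
    cvp φ ψ (-r) = cvp φ ψ r := by
  unfold cvp
  rw [← integral_neg_eq_self]
  congr 1
  ext s
  rw [h1, show -r - -s = -(r - s) by ring, h2]

theorem ch2_smooth {χ : ℝ → ℝ} (h : ContDiff ℝ (⊤ : ℕ∞) χ) : ContDiff ℝ (⊤ : ℕ∞) (ch2 χ) := by
  unfold ch2
  exact (h.comp (contDiff_id.div_const 2)).div_const 2

theorem ch2_supp {χ : ℝ → ℝ} {a : ℝ} (h : ∀ r, a < |r| → χ r = 0) (r : ℝ) (hr : 2 * a < |r|) :
    ch2 χ r = 0 := by
  unfold ch2
  rw [h (r / 2)]
  · simp
  · rw [abs_div, abs_of_pos (by norm_num : (0 : ℝ) < 2)]; linarith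

theorem ch2_int (χ : ℝ → ℝ) : ∫ r, ch2 χ r = ∫ r, χ r := by
  unfold ch2
  rw [integral_div]
  have := Measure.integral_comp_div χ (2 : ℝ)
  rw [this]
  simp

theorem ch2_even {χ : ℝ → ℝ} (h : ∀ r, χ (-r) = χ r) (r : ℝ) : ch2 χ (-r) = ch2 χ r := by
  unfold ch2
  rw [neg_div, h]

theorem compact_of_supp {φ : ℝ → ℝ} {a : ℝ} (h : ∀ r, a < |r| → φ r = 0) : HasCompactSupport φ := by
  refine HasCompactSupport.intro (isCompact_Icc (a := -a) (b := a)) ?_
  intro x hx
  apply h
  by_contra hcon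
  exact hx (abs_le.mp (not_lt.mp hcon))

theorem ch2_comp {χ : ℝ → ℝ} (h : ChiC χ) : HasCompactSupport (ch2 χ) :=
  compact_of_supp (ch2_supp h.2.2.2.1)

theorem dk_phi {χ : ℝ → ℝ} (h : ChiC χ) : PhiC (dk χ) := by
  refine ⟨h.1.sub (ch2_smooth h.1), ?_, ?_⟩
  · intro r hr
    unfold dk
    rw [h.2.2.2.1 r (by linarith), ch2_supp h.2.2.2.1 r (by linarith), sub_zero]
  · unfold dk
    rw [integral_sub (h.1.continuous.integrable_of_hasCompactSupport (chiC_comp h))
      ((ch2_smooth h.1).continuous.integrable_of_hasCompactSupport (ch2_comp h)), ch2_int, sub_self]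

theorem dk_even {χ : ℝ → ℝ} (h : ChiC χ) (r : ℝ) : dk χ (-r) = dk χ r := by
  unfold dk; rw [h.2.1, ch2_even h.2.1]

theorem al_phi {χ : ℝ → ℝ} (h : ChiC χ) : PhiC (al χ) := by
  have hc := h.1.continuous
  have hcc := chiC_comp h
  have h2 := ch2_smooth h.1
  have h2c := ch2_comp h
  have s1 := cvp_smooth hc hcc h.1 hcc
  have s2 := cvp_smooth hc hcc h2 h2c
  have s3 := cvp_smooth h2.continuous h2c h2 h2c
  have hs := h.2.2.2.1
  have hs2 := ch2_supp hs
  have z1 : ∀ r, 1 < |r| → cvp χ χ r = 0 := fun r hr => cvp_supp hs hs r (by linarith)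
  have z2 : ∀ r, 1 < |r| → cvp χ (ch2 χ) r = 0 := fun r hr => cvp_supp hs hs2 r (by linarith)
  have z3 : ∀ r, 1 < |r| → cvp (ch2 χ) (ch2 χ) r = 0 := fun r hr => cvp_supp hs2 hs2 r (by linarith)
  refine ⟨(contDiff_const.mul (h.1.add h2)).sub (contDiff_const.mul ((s1.add s2).add s3)), ?_, ?_⟩
  · intro r hr
    unfold al
    rw [h.2.2.2.1 r (by linarith), hs2 r (by linarith), z1 r hr, z2 r hr, z3 r hr]; ring
  · unfold al
    have i0 := hc.integrable_of_hasCompactSupport hcc (μ := volume)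
    have i1 := h2.continuous.integrable_of_hasCompactSupport h2c (μ := volume)
    have i2 := s1.continuous.integrable_of_hasCompactSupport (compact_of_supp z1) (μ := volume)
    have i3 := s2.continuous.integrable_of_hasCompactSupport (compact_of_supp z2) (μ := volume)
    have i4 := s3.continuous.integrable_of_hasCompactSupport (compact_of_supp z3) (μ := volume)
    have e1 : ∫ r, (3 * (χ r + ch2 χ r) - 2 * (cvp χ χ r + cvp χ (ch2 χ) r + cvp (ch2 χ) (ch2 χ) r)) =
        (∫ r, 3 * (χ r + ch2 χ r)) -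
          ∫ r, 2 * (cvp χ χ r + cvp χ (ch2 χ) r + cvp (ch2 χ) (ch2 χ) r) :=
      integral_sub ((i0.add i1).const_mul 3) (((i2.add i3).add i4).const_mul 2)
    have e2 : ∫ r, (χ r + ch2 χ r) = (∫ r, χ r) + ∫ r, ch2 χ r := integral_add i0 i1
    have e3 : ∫ r, (cvp χ χ r + cvp χ (ch2 χ) r + cvp (ch2 χ) (ch2 χ) r) =
        (∫ r, (cvp χ χ r + cvp χ (ch2 χ) r)) + ∫ r, cvp (ch2 χ) (ch2 χ) r :=
      integral_add (i2.add i3) i4
    have e4 : ∫ r, (cvp χ χ r + cvp χ (ch2 χ) r) = (∫ r, cvp χ χ r) + ∫ r, cvp χ (ch2 χ) r :=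
      integral_add i2 i3
    rw [e1, integral_const_mul, integral_const_mul, e2, e3, e4, cvp_int hc hcc hc hcc,
      cvp_int hc hcc h2.continuous h2c,
      cvp_int h2.continuous h2c h2.continuous h2c, ch2_int, h.2.2.2.2]
    norm_num

theorem al_even {χ : ℝ → ℝ} (h : ChiC χ) (r : ℝ) : al χ (-r) = al χ r := by
  unfold al
  rw [h.2.1, ch2_even h.2.1, cvp_even h.2.1 h.2.1, cvp_even h.2.1 (ch2_even h.2.1),
    cvp_even (ch2_even h.2.1) (ch2_even h.2.1)]

end Crest.Agent.R087.Asm1x283
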