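import Crest.Agent.R087.Asm1_283

/-!
Row 87, shell, S10 part 2: the pre-Hilbert space of nice functions and the operators.
-/

set_option autoImplicit false

noncomputable section

open MeasureTheory Crest.Agent.R087.Sh0x283 Crest.Agent.R087.Sh1x283 Crest.Agent.R087.Asm1x283
open scoped RealInnerProductSpace

namespace Crest.Agent.R087.Asm2x283

theorem nice_add {f g : ℝ × ℝ → ℝ} (hf : Nice f) (hg : Nice g) : Nice (fun z => f z + g z) := by
  obtain ⟨h1, ⟨M, hM⟩, R, hR⟩ := hf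
  obtain ⟨h1', ⟨M', hM'⟩, R', hR'⟩ := hg
  refine ⟨h1.add h1', ⟨M + M', fun z => (abs_add_le _ _).trans (add_le_add (hM z) (hM' z))⟩,
    max R R', fun z hz => ?_⟩
  show f z + g z = 0
  rw [hR z ((le_max_left _ _).trans_lt hz), hR' z ((le_max_right _ _).trans_lt hz), add_zero]

theorem nice_smul {f : ℝ × ℝ → ℝ} (a : ℝ) (hf : Nice f) : Nice (fun z => a * f z) := by
  obtain ⟨h1, ⟨M, hM⟩, R, hR⟩ := hf
  refine ⟨h1.const_mul a, ⟨|a| * M, fun z => ?_⟩, R, fun z hz => by
    show a * f z = 0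
    rw [hR z hz, mul_zero]⟩
  rw [abs_mul]
  exact mul_le_mul_of_nonneg_left (hM z) (abs_nonneg a)

theorem nice_zero : Nice (fun _ => 0) :=
  ⟨measurable_const, ⟨0, fun _ => by simp⟩, 0, fun _ _ => rfl⟩

theorem nice_integrable {f : ℝ × ℝ → ℝ} (hf : Nice f) : Integrable f := by
  obtain ⟨h1, ⟨M, hM⟩, R, hR⟩ := hf
  have hs : Function.support f ⊆ Metric.closedBall 0 R := by
    intro z hz
    rw [Metric.mem_closedBall, dist_zero_right]
    by_contra hcon
    exact hz (hR z (not_le.mp hcon))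
  rw [← integrableOn_iff_integrable_of_support_subset hs]
  refine Measure.integrableOn_of_bounded (M := M) ?_ h1.aestronglyMeasurable ?_
  · exact (isCompact_closedBall _ _).measure_lt_top.ne
  · exact Filter.Eventually.of_forall fun z => by simpa using hM z

theorem nice_mul {f g : ℝ × ℝ → ℝ} (hf : Nice f) (hg : Nice g) : Nice (fun z => f z * g z) := by
  obtain ⟨h1, ⟨M, hM⟩, R, hR⟩ := hf
  obtain ⟨h1', ⟨M', hM'⟩, R', hR'⟩ := hg
  refine ⟨h1.mul h1', ⟨M * M', fun z => ?_⟩, R, fun z hz => by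
    show f z * g z = 0
    rw [hR z hz, zero_mul]⟩
  rw [abs_mul]
  exact mul_le_mul (hM z) (hM' z) (abs_nonneg _) ((abs_nonneg _).trans (hM z))

def NS : Submodule ℝ (ℝ × ℝ → ℝ) where
  carrier := {f | Nice f}
  add_mem' := fun hf hg => nice_add hf hg
  zero_mem' := nice_zero
  smul_mem' := fun a _ hf => nice_smul a hf

/-- the space of nice functions. -/
def NF : Type := NS

instance : AddCommGroup NF := inferInstanceAs (AddCommGroup NS)
instance : Module ℝ NF := inferInstanceAs (Module ℝ NS)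

def NF.mk (f : ℝ × ℝ → ℝ) (h : Nice f) : NF := (⟨f, h⟩ : NS)
def NF.fn (f : NF) : ℝ × ℝ → ℝ := (f : NS).1
theorem NF.nice (f : NF) : Nice f.fn := (f : NS).2

@[ext] theorem NF.ext {f g : NF} (h : ∀ z, f.fn z = g.fn z) : f = g :=
  Subtype.ext (funext h)

@[simp] theorem fn_mk (f : ℝ × ℝ → ℝ) (h : Nice f) : (NF.mk f h).fn = f := rfl
@[simp] theorem fn_add (f g : NF) : (f + g).fn = fun z => f.fn z + g.fn z := rfl
@[simp] theorem fn_sub (f g : NF) : (f - g).fn = fun z => f.fn z - g.fn z := rfl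
@[simp] theorem fn_smul (a : ℝ) (f : NF) : (a • f).fn = fun z => a * f.fn z := rfl

instance core : PreInnerProductSpace.Core ℝ NF where
  inner f g := ∫ z, f.fn z * g.fn z
  conj_inner_symm f g := by
    simp only [conj_trivial]
    congr 1; ext z; ring
  re_inner_nonneg f := by
    simp only [RCLike.re_to_real]
    exact integral_nonneg fun z => mul_self_nonneg _
  add_left f g h := by
    have : ∀ z, (f + g).fn z * h.fn z = f.fn z * h.fn z + g.fn z * h.fn z := fun z => by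
      simp only [fn_add]; ring
    simp only [this]
    exact integral_add (nice_integrable (nice_mul f.nice h.nice))
      (nice_integrable (nice_mul g.nice h.nice))
  smul_left f g a := by
    have : ∀ z, (a • f).fn z * g.fn z = a * (f.fn z * g.fn z) := fun z => by
      simp only [fn_smul]; ring
    simp only [this, conj_trivial]
    exact integral_const_mul _ _

instance sng : SeminormedAddCommGroup NF :=
  @InnerProductSpace.Core.toSeminormedAddCommGroup ℝ NF _ _ _ core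
instance ips : InnerProductSpace ℝ NF := InnerProductSpace.ofCore core

theorem inner_eq (f g : NF) : ⟪f, g⟫ = ∫ z, f.fn z * g.fn z := rfl

theorem norm_sq_eq (f : NF) : ‖f‖ ^ 2 = ∫ z, (f.fn z) ^ 2 := by
  rw [← real_inner_self_eq_norm_sq, inner_eq]
  congr 1; ext z; ring

/-- from an `L²` inequality to norms. -/
theorem norm_le_of {f g : NF} {K : ℝ} (hK : 0 ≤ K)
    (h : ∫ z, (f.fn z) ^ 2 ≤ K ^ 2 * ∫ z, (g.fn z) ^ 2) : ‖f‖ ≤ K * ‖g‖ := by
  rw [← norm_sq_eq, ← norm_sq_eq, ← mul_pow] at h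
  exact le_of_sq_le_sq h (by positivity) |>.trans le_rfl

/-- convolution operator. -/
def CV (hA : ALG) (p : ℝ → ℝ) (hp : Continuous p) (hc : HasCompactSupport p) (k : ℤ) :
    NF →ₗ[ℝ] NF where
  toFun f := NF.mk (cv p k f.fn) (hA.1 p hp hc k f.fn f.nice)
  map_add' f g := by
    ext z
    simp only [fn_mk, fn_add]
    exact congrFun (hA.2.2.2.2.2.2.2.1 p hp hc k f.fn g.fn f.nice g.nice) z
  map_smul' a f := by
    ext z
    simp only [fn_mk, fn_smul, RingHom.id_apply]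
    exact congrFun (hA.2.2.2.2.2.2.2.2.1 p k f.fn a) z

@[simp] theorem CV_fn (hA : ALG) (p : ℝ → ℝ) (hp : Continuous p) (hc : HasCompactSupport p) (k : ℤ)
    (f : NF) : (CV hA p hp hc k f).fn = cv p k f.fn := rfl

/-- the transform as a linear map. -/
def TT (hT : TB) (K : ℝ → ℝ) (h1 : Measurable K) (h2 : ∃ M : ℝ, ∀ t, |K t| ≤ M)
    (h3 : ∀ t, 1 < |t| → K t = 0) (U : ℝ × ℝ → ℝ) (hU : Fld (1 / 2) U) : NF →ₗ[ℝ] NF where
  toFun f := NF.mk (tk K U f.fn) ((hT K h1 h2 h3 U hU).1 f.fn f.nice)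
  map_add' f g := by
    ext z
    simp only [fn_mk, fn_add]
    exact (hT K h1 h2 h3 U hU).2.2.1 f.fn g.fn f.nice g.nice z
  map_smul' a f := by
    ext z
    simp only [fn_mk, fn_smul, RingHom.id_apply]
    exact (hT K h1 h2 h3 U hU).2.2.2 f.fn a f.nice z

@[simp] theorem TT_fn (hT : TB) (K : ℝ → ℝ) (h1 : Measurable K) (h2 : ∃ M : ℝ, ∀ t, |K t| ≤ M)
    (h3 : ∀ t, 1 < |t| → K t = 0) (U : ℝ × ℝ → ℝ) (hU : Fld (1 / 2) U) (f : NF) :
    (TT hT K h1 h2 h3 U hU f).fn = tk K U f.fn := rfl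

theorem CV_norm (hA : ALG) (p : ℝ → ℝ) (hp : Continuous p) (hc : HasCompactSupport p) (k : ℤ)
    (f : NF) : ‖CV hA p hp hc k f‖ ≤ (∫ r, |p r|) * ‖f‖ := by
  refine norm_le_of (integral_nonneg fun _ => abs_nonneg _) ?_
  simpa using hA.2.1 p hp hc k f.fn f.nice

theorem CV_comm (hA : ALG) (p q : ℝ → ℝ) (hp : Continuous p) (hc : HasCompactSupport p)
    (hq : Continuous q) (hqc : HasCompactSupport q) (k l : ℤ) (f : NF) :
    CV hA p hp hc k (CV hA q hq hqc l f) = CV hA q hq hqc l (CV hA p hp hc k f) := by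
  ext z
  simp only [CV_fn]
  exact congrFun (hA.2.2.1 p q hp hc hq hqc k l f.fn f.nice) z

theorem CV_symm (hA : ALG) (p : ℝ → ℝ) (hp : Continuous p) (hc : HasCompactSupport p)
    (he : ∀ r, p (-r) = p r) (k : ℤ) (f g : NF) :
    ⟪CV hA p hp hc k f, g⟫ = ⟪f, CV hA p hp hc k g⟫ := by
  rw [inner_eq, inner_eq]
  simp only [CV_fn]
  rw [hA.2.2.2.1 p hp hc k f.fn g.fn f.nice g.nice]
  simp only [he]

/-- transfer of a derivative. -/
theorem CV_der (hA : ALG) {ω q : ℝ → ℝ} (hω : ContDiff ℝ (⊤ : ℕ∞) ω)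
    (hq : ContDiff ℝ (⊤ : ℕ∞) q) (k l : ℤ) (f : NF)
    (c1 : Continuous (deriv ω)) (c2 : HasCompactSupport (deriv ω)) (c3 : HasCompactSupport q)
    (c4 : HasCompactSupport ω) (c5 : Continuous (deriv q)) (c6 : HasCompactSupport (deriv q)) :
    CV hA (deriv ω) c1 c2 k (CV hA q hq.continuous c3 l f) =
      (2 : ℝ) ^ (k - l) • CV hA (deriv q) c5 c6 l (CV hA ω hω.continuous c4 k f) := by
  ext z
  simp only [CV_fn, fn_smul]
  rw [hA.2.2.2.2.1 ω q (hω.of_le (by simp)) c4 (hq.of_le (by simp)) c3 k l f.fn f.nice z]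
  congr 1
  exact congrFun (hA.2.2.1 ω (deriv q) hω.continuous c4 c5 c6 k l f.fn f.nice) z

end Crest.Agent.R087.Asm2x283
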