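import Crest.Agent.R087.Asm2_283

/-!
Row 87, shell, S10 part 3: assembly `asm : ABS → ALG → APX → SBK → COMM → TB → ASM`.
-/

set_option autoImplicit false

noncomputable section

open MeasureTheory Crest.Agent.R087.Sh0x283 Crest.Agent.R087.Sh1x283 Crest.Agent.R087.Asm1x283
  Crest.Agent.R087.Asm2x283
open scoped RealInnerProductSpace

namespace Crest.Agent.R087.Asm3x283

/-- smooth, support in `[-1,1]`. -/
def Sm (p : ℝ → ℝ) : Prop := ContDiff ℝ (⊤ : ℕ∞) p ∧ ∀ r, 1 < |r| → p r = 0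

theorem Sm.comp {p : ℝ → ℝ} (h : Sm p) : HasCompactSupport p := compact_of_supp h.2

theorem sm_of_phi {p : ℝ → ℝ} (h : PhiC p) : Sm p := ⟨h.1, h.2.1⟩

theorem sm_deriv {p : ℝ → ℝ} (h : Sm p) : Sm (deriv p) := sm_of_phi (phiC_deriv h.1 h.2)

def op (hA : ALG) (p : ℝ → ℝ) (h : Sm p) (k : ℤ) : NF →ₗ[ℝ] NF := CV hA p h.1.continuous h.comp k

theorem op_fn (hA : ALG) (p : ℝ → ℝ) (h : Sm p) (k : ℤ) (f : NF) :
    (op hA p h k f).fn = cv p k f.fn := rfl

theorem op_congr (hA : ALG) {p q : ℝ → ℝ} (h : Sm p) (h' : Sm q) (e : p = q) (k : ℤ) (f : NF) :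
    op hA p h k f = op hA q h' k f := by
  subst e; rfl

theorem op_norm (hA : ALG) (p : ℝ → ℝ) (h : Sm p) (k : ℤ) (f : NF) :
    ‖op hA p h k f‖ ≤ (∫ r, |p r|) * ‖f‖ := CV_norm hA p _ _ k f

theorem op_comm (hA : ALG) (p q : ℝ → ℝ) (h : Sm p) (h' : Sm q) (k l : ℤ) (f : NF) :
    op hA p h k (op hA q h' l f) = op hA q h' l (op hA p h k f) := CV_comm hA p q _ _ _ _ k l f

theorem op_der (hA : ALG) {ω q : ℝ → ℝ} (hω : Sm ω) (hq : Sm q) (k l : ℤ) (f : NF) :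
    op hA (deriv ω) (sm_deriv hω) k (op hA q hq l f) =
      (2 : ℝ) ^ (k - l) • op hA (deriv q) (sm_deriv hq) l (op hA ω hω k f) :=
  CV_der hA hω.1 hq.1 k l f _ _ _ _ _ _

theorem two_bound (hA : ALG) {p q : ℝ → ℝ} (hp : PhiC p) (hq : PhiC q) :
    ∃ W : ℝ, 0 ≤ W ∧ ∀ (T : NF →ₗ[ℝ] NF) (b : ℝ), 0 ≤ b →
      (∀ k g, ‖T (op hA (deriv p) (sm_deriv (sm_of_phi hp)) k g)‖ ≤ b * ‖g‖) →
      (∀ k g, ‖T (op hA (deriv q) (sm_deriv (sm_of_phi hq)) k g)‖ ≤ b * ‖g‖) →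
      ∀ k l f, ‖T (op hA p (sm_of_phi hp) k (op hA q (sm_of_phi hq) l f))‖ ≤
        W * b * (2 : ℝ) ^ (-|k - l|) * ‖f‖ := by
  obtain ⟨ωp, hp1, hp2, hp3⟩ := phiC_prim hp
  obtain ⟨ωq, hq1, hq2, hq3⟩ := phiC_prim hq
  have sp : Sm ωp := ⟨hp1, hp2⟩
  have sq : Sm ωq := ⟨hq1, hq2⟩
  have ip : 0 ≤ ∫ r, |ωp r| := integral_nonneg fun _ => abs_nonneg _
  have iq : 0 ≤ ∫ r, |ωq r| := integral_nonneg fun _ => abs_nonneg _
  refine ⟨(∫ r, |ωp r|) + ∫ r, |ωq r|, by positivity, ?_⟩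
  intro T b hb h1 h2 k l f
  rcases le_total k l with hkl | hkl
  · have e : op hA p (sm_of_phi hp) k (op hA q (sm_of_phi hq) l f) =
        (2 : ℝ) ^ (k - l) • op hA (deriv q) (sm_deriv (sm_of_phi hq)) l (op hA ωp sp k f) := by
      rw [← op_der hA sp (sm_of_phi hq) k l f]
      exact op_congr hA _ _ hp3.symm k _
    rw [e, map_smul, norm_smul, Real.norm_of_nonneg (by positivity : (0 : ℝ) ≤ 2 ^ (k - l))]
    have e2 : -|k - l| = k - l := by rw [abs_of_nonpos (by omega)]; ring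
    rw [e2]
    have h3 := h2 l (op hA ωp sp k f)
    have h4 := op_norm hA ωp sp k f
    have hpos : (0 : ℝ) < 2 ^ (k - l) := by positivity
    calc (2 : ℝ) ^ (k - l) * ‖T (op hA (deriv q) (sm_deriv (sm_of_phi hq)) l (op hA ωp sp k f))‖
        ≤ (2 : ℝ) ^ (k - l) * (b * ((∫ r, |ωp r|) * ‖f‖)) := by
          gcongr
          exact h3.trans (by gcongr)
      _ ≤ (2 : ℝ) ^ (k - l) * (b * (((∫ r, |ωp r|) + ∫ r, |ωq r|) * ‖f‖)) := by
          gcongr
          linarith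
      _ = _ := by ring
  · have e : op hA p (sm_of_phi hp) k (op hA q (sm_of_phi hq) l f) =
        (2 : ℝ) ^ (l - k) • op hA (deriv p) (sm_deriv (sm_of_phi hp)) k (op hA ωq sq l f) := by
      rw [← op_der hA sq (sm_of_phi hp) l k f, op_comm]
      exact op_congr hA _ _ hq3.symm l _
    rw [e, map_smul, norm_smul, Real.norm_of_nonneg (by positivity : (0 : ℝ) ≤ 2 ^ (l - k))]
    have e2 : -|k - l| = l - k := by rw [abs_of_nonneg (by omega)]; ring
    rw [e2]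
    have h3 := h1 k (op hA ωq sq l f)
    have h4 := op_norm hA ωq sq l f
    have hpos : (0 : ℝ) < 2 ^ (l - k) := by positivity
    calc (2 : ℝ) ^ (l - k) * ‖T (op hA (deriv p) (sm_deriv (sm_of_phi hp)) k (op hA ωq sq l f))‖
        ≤ (2 : ℝ) ^ (l - k) * (b * ((∫ r, |ωq r|) * ‖f‖)) := by
          gcongr
          exact h3.trans (by gcongr)
      _ ≤ (2 : ℝ) ^ (l - k) * (b * (((∫ r, |ωp r|) + ∫ r, |ωq r|) * ‖f‖)) := by
          gcongr
          linarith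
      _ = _ := by ring

theorem sm_chi {χ : ℝ → ℝ} (h : ChiC χ) : Sm χ := ⟨h.1, fun r hr => h.2.2.2.1 r (by linarith)⟩

theorem DD_eq (hA : ALG) {χ : ℝ → ℝ} (h : ChiC χ) (m : ℤ) (f : NF) :
    DD (fun m => op hA χ (sm_chi h) m) m f = op hA (dk χ) (sm_of_phi (dk_phi h)) m f := by
  ext z
  have h2 := ch2_smooth h.1
  have h2c := ch2_comp h
  have e1 : cv χ (m + 1) f.fn = cv (ch2 χ) m f.fn := hA.2.2.2.2.2.2.1 χ m f.fn
  have e2 := hA.2.2.2.2.2.2.2.2.2 χ (ch2 χ) h.1.continuous (chiC_comp h) h2.continuous h2c m f.fn 1 (-1)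
    f.nice
  have e3 : dk χ = fun r => 1 * χ r + -1 * ch2 χ r := by ext r; unfold dk; ring
  show (op hA χ (sm_chi h) m f).fn z - (op hA χ (sm_chi h) (m + 1) f).fn z = _
  simp only [op_fn]
  rw [e1, e3, e2]
  ring

theorem AA_eq (hA : ALG) {χ : ℝ → ℝ} (h : ChiC χ) (m : ℤ) (f : NF) :
    AA (fun m => op hA χ (sm_chi h) m) m f = op hA (al χ) (sm_of_phi (al_phi h)) m f := by
  ext z
  have hc := h.1.continuous
  have hcc := chiC_comp h
  have h2 := ch2_smooth h.1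
  have h2c := ch2_comp h
  have s1 := cvp_smooth hc hcc h.1 hcc
  have s2 := cvp_smooth hc hcc h2 h2c
  have s3 := cvp_smooth h2.continuous h2c h2 h2c
  have hs := h.2.2.2.1
  have hs2 := ch2_supp hs
  have c1 : HasCompactSupport (cvp χ χ) := compact_of_supp (fun r hr => cvp_supp hs hs r hr)
  have c2 : HasCompactSupport (cvp χ (ch2 χ)) := compact_of_supp (fun r hr => cvp_supp hs hs2 r hr)
  have c3 : HasCompactSupport (cvp (ch2 χ) (ch2 χ)) :=
    compact_of_supp (fun r hr => cvp_supp hs2 hs2 r hr)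
  have lin := hA.2.2.2.2.2.2.2.2.2
  have e1 : ∀ g : ℝ × ℝ → ℝ, cv χ (m + 1) g = cv (ch2 χ) m g := fun g => hA.2.2.2.2.2.2.1 χ m g
  have comp := hA.2.2.2.2.2.1
  -- compositions
  have f1 : cv χ m (cv χ m f.fn) = cv (cvp χ χ) m f.fn := comp χ χ hc hcc hc hcc m f.fn f.nice
  have f2 : cv χ m (cv χ (m + 1) f.fn) = cv (cvp χ (ch2 χ)) m f.fn := by
    rw [e1]; exact comp χ (ch2 χ) hc hcc h2.continuous h2c m f.fn f.nice
  have f3 : cv χ (m + 1) (cv χ (m + 1) f.fn) = cv (cvp (ch2 χ) (ch2 χ)) m f.fn := by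
    rw [e1, e1]; exact comp (ch2 χ) (ch2 χ) h2.continuous h2c h2.continuous h2c m f.fn f.nice
  -- linear combination
  have g1 := lin χ (ch2 χ) hc hcc h2.continuous h2c m f.fn 3 3 f.nice
  have g2 := lin (cvp χ χ) (cvp χ (ch2 χ)) s1.continuous c1 s2.continuous c2 m f.fn (-2) (-2) f.nice
  have k1 : Continuous (fun r => 3 * χ r + 3 * ch2 χ r) := by
    have := h2.continuous; fun_prop
  have k1c : HasCompactSupport (fun r => 3 * χ r + 3 * ch2 χ r) :=
    compact_of_supp (a := 1) (fun r hr => by rw [hs r (by linarith), hs2 r (by linarith)]; ring)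
  have k2 : Continuous (fun r => -2 * cvp χ χ r + -2 * cvp χ (ch2 χ) r) := by
    have := s1.continuous
    have := s2.continuous
    fun_prop
  have k2c : HasCompactSupport (fun r => -2 * cvp χ χ r + -2 * cvp χ (ch2 χ) r) :=
    compact_of_supp (a := 1) (fun r hr => by
      rw [cvp_supp hs hs r (by linarith), cvp_supp hs hs2 r (by linarith)]; ring)
  have g3 := lin _ _ k1 k1c k2 k2c m f.fn 1 1 f.nice
  have k3 : Continuous (fun r => 1 * (3 * χ r + 3 * ch2 χ r) +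
      1 * (-2 * cvp χ χ r + -2 * cvp χ (ch2 χ) r)) := by fun_prop
  have k3c : HasCompactSupport (fun r => 1 * (3 * χ r + 3 * ch2 χ r) +
      1 * (-2 * cvp χ χ r + -2 * cvp χ (ch2 χ) r)) :=
    compact_of_supp (a := 1) (fun r hr => by
      rw [hs r (by linarith), hs2 r (by linarith), cvp_supp hs hs r (by linarith),
        cvp_supp hs hs2 r (by linarith)]; ring)
  have g4 := lin _ (cvp (ch2 χ) (ch2 χ)) k3 k3c s3.continuous c3 m f.fn 1 (-2) f.nice
  have e3 : al χ = fun r => 1 * (1 * (3 * χ r + 3 * ch2 χ r) +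
      1 * (-2 * cvp χ χ r + -2 * cvp χ (ch2 χ) r)) + -2 * cvp (ch2 χ) (ch2 χ) r := by
    ext r; unfold al; ring
  show 3 * ((op hA χ (sm_chi h) m f).fn z + (op hA χ (sm_chi h) (m + 1) f).fn z) -
    2 * ((op hA χ (sm_chi h) m (op hA χ (sm_chi h) m f)).fn z +
      (op hA χ (sm_chi h) m (op hA χ (sm_chi h) (m + 1) f)).fn z +
      (op hA χ (sm_chi h) (m + 1) (op hA χ (sm_chi h) (m + 1) f)).fn z) = _
  simp only [op_fn]
  rw [f1, f2, f3, e3, g4, g3, g1, g2, e1]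
  ring

theorem kerS_props {ψ : ℝ → ℝ} (h : PsiC ψ) (S : ℕ) :
    Measurable (kerS ψ S) ∧ (∃ M : ℝ, ∀ t, |kerS ψ S t| ≤ M) ∧ (∀ t, 1 < |t| → kerS ψ S t = 0) := by
  have hcont : Continuous (kerS ψ S) := by
    unfold kerS
    have := h.1.continuous
    fun_prop
  have hz : ∀ t, 1 < |t| → kerS ψ S t = 0 := by
    intro t ht
    unfold kerS
    apply Finset.sum_eq_zero
    intro s _
    have h1 : (1 : ℝ) ≤ 2 ^ s := one_le_pow₀ (by norm_num)
    have : ψ ((2 : ℝ) ^ s * t) = 0 := by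
      by_contra hcon
      have := (h.2.2 _ hcon).2
      rw [abs_mul, abs_of_pos (by positivity : (0 : ℝ) < 2 ^ s)] at this
      nlinarith [abs_nonneg t]
    rw [this, mul_zero]
  refine ⟨hcont.measurable, ?_, hz⟩
  obtain ⟨M, hM⟩ := hcont.bounded_above_of_compact_support (compact_of_supp hz)
  exact ⟨M, fun t => by simpa using hM t⟩

theorem fld_mono {c c' : ℝ} (h : c ≤ c') {U : ℝ × ℝ → ℝ} (hU : Fld c U) : Fld c' U :=
  ⟨hU.1, hU.2.1, fun x y y' => (hU.2.2 x y y').trans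
    (mul_le_mul_of_nonneg_right h (abs_nonneg _))⟩

theorem asm (hAB : ABS) (hA : ALG) (hX : APX) (hS : SBK) (hC : COMM) (hT : TB) : ASM := by
  intro h ψ hψ
  obtain ⟨χ, hχ⟩ := exists_chi
  obtain ⟨K, hK⟩ := hAB
  have pd := dk_phi hχ
  have pa := al_phi hχ
  have pd' := phiC_deriv pd.1 pd.2.1
  have pa' := phiC_deriv pa.1 pa.2.1
  obtain ⟨c1, hc1, B1, hB1, b1⟩ := hS _ _ (h _ _ pd' hψ)
  obtain ⟨c2, hc2, B2, hB2, b2⟩ := hS _ _ (h _ _ pa' hψ)
  obtain ⟨L1, hL1, l1⟩ := hC _ _ pd hψ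
  obtain ⟨L2, hL2, l2⟩ := hC _ _ pa hψ
  obtain ⟨W1, hW1, w1⟩ := two_bound hA pd pd
  obtain ⟨W2, hW2, w2⟩ := two_bound hA pa pa
  obtain ⟨W3, hW3, w3⟩ := two_bound hA pd pa
  -- constants
  set nd : ℝ := ∫ r, |deriv (dk χ) r| with hnd
  set na : ℝ := ∫ r, |deriv (al χ) r| with hna
  have hnd0 : 0 ≤ nd := integral_nonneg fun _ => abs_nonneg _
  have hna0 : 0 ≤ na := integral_nonneg fun _ => abs_nonneg _
  set C₀ : ℝ := W1 * nd + W2 * na with hC0
  set b : ℝ := Real.sqrt B1 + Real.sqrt B2 with hb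
  set B : ℝ := (W2 + W3) * b with hBdef
  set L : ℝ := Real.sqrt L1 + Real.sqrt L2 with hLdef
  have hb0 : 0 ≤ b := by positivity
  have hL0 : 0 ≤ L := by positivity
  have hB0 : 0 ≤ B := by positivity
  have hC00 : 0 ≤ C₀ := by positivity
  refine ⟨min (1 / 2) (min c1 c2), by positivity, (K C₀ * (B + L)) ^ 2, ?_⟩
  intro U f hU hU1 hf S
  have hU2 : Fld (1 / 2) U := fld_mono (min_le_left _ _) hU
  have hUc1 : Fld c1 U := fld_mono ((min_le_right _ _).trans (min_le_left _ _)) hU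
  have hUc2 : Fld c2 U := fld_mono ((min_le_right _ _).trans (min_le_right _ _)) hU
  obtain ⟨k1, k2, k3⟩ := kerS_props hψ S
  set T : NF →ₗ[ℝ] NF := TT hT (kerS ψ S) k1 k2 k3 U hU2 with hTdef
  set X : ℤ → NF →ₗ[ℝ] NF := fun m => op hA χ (sm_chi hχ) m with hXdef
  have hTn : ∀ f : NF, (T f).fn = tk (kerS ψ S) U f.fn := fun f => rfl
  have sqB1 : Real.sqrt B1 ^ 2 = B1 := Real.sq_sqrt hB1
  have sqB2 : Real.sqrt B2 ^ 2 = B2 := Real.sq_sqrt hB2
  have td : ∀ k g, ‖T (op hA (deriv (dk χ)) (sm_deriv (sm_of_phi pd)) k g)‖ ≤ b * ‖g‖ := by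
    intro k g
    have h1 : ‖T (op hA (deriv (dk χ)) (sm_deriv (sm_of_phi pd)) k g)‖ ≤ Real.sqrt B1 * ‖g‖ := by
      refine norm_le_of (Real.sqrt_nonneg _) ?_
      rw [sqB1]
      exact b1 U g.fn hUc1 g.nice k S
    exact h1.trans (mul_le_mul_of_nonneg_right (by rw [hb]; linarith [Real.sqrt_nonneg B2])
      (norm_nonneg _))
  have ta : ∀ k g, ‖T (op hA (deriv (al χ)) (sm_deriv (sm_of_phi pa)) k g)‖ ≤ b * ‖g‖ := by
    intro k g
    have h1 : ‖T (op hA (deriv (al χ)) (sm_deriv (sm_of_phi pa)) k g)‖ ≤ Real.sqrt B2 * ‖g‖ := by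
      refine norm_le_of (Real.sqrt_nonneg _) ?_
      rw [sqB2]
      exact b2 U g.fn hUc2 g.nice k S
    exact h1.trans (mul_le_mul_of_nonneg_right (by rw [hb]; linarith [Real.sqrt_nonneg B1])
      (norm_nonneg _))
  have chi1 : ∫ r, |χ r| = 1 := by
    rw [← hχ.2.2.2.2]
    congr 1; ext r; exact abs_of_nonneg (hχ.2.2.1 r)
  have eD : ∀ m f, DD X m f = op hA (dk χ) (sm_of_phi pd) m f := fun m f => DD_eq hA hχ m f
  have eA : ∀ m f, AA X m f = op hA (al χ) (sm_of_phi pa) m f := fun m f => AA_eq hA hχ m f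
  have nd1 : ∀ k g, ‖(LinearMap.id : NF →ₗ[ℝ] NF)
      (op hA (deriv (dk χ)) (sm_deriv (sm_of_phi pd)) k g)‖ ≤ nd * ‖g‖ :=
    fun k g => op_norm hA _ (sm_deriv (sm_of_phi pd)) k g
  have na1 : ∀ k g, ‖(LinearMap.id : NF →ₗ[ℝ] NF)
      (op hA (deriv (al χ)) (sm_deriv (sm_of_phi pa)) k g)‖ ≤ na * ‖g‖ :=
    fun k g => op_norm hA _ (sm_deriv (sm_of_phi pa)) k g
  have key := hK NF X T C₀ B L (Real.sqrt (2 * (∫ t, |kerS ψ S t|) ^ 2)) hC00 hB0 hL0
    (Real.sqrt_nonneg _)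
    (fun m f g => CV_symm hA χ _ _ hχ.2.1 m f g)
    (fun m f => by
      have := op_norm hA χ (sm_chi hχ) m f
      rw [chi1, one_mul] at this
      exact this)
    (fun m n f => op_comm hA χ χ _ _ m n f)
    (fun f => by
      have h1 := (hX χ hχ f.fn f.nice).1
      have h2 : ∀ N : ℕ, ‖X (-(N : ℤ)) f - f‖ =
          Real.sqrt (∫ z, (cv χ (-(N : ℤ)) f.fn z - f.fn z) ^ 2) := by
        intro N
        rw [← Real.sqrt_sq (norm_nonneg (X (-(N : ℤ)) f - f)), norm_sq_eq]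
        rfl
      simp only [h2]
      have h3 := (Real.continuous_sqrt.tendsto 0).comp h1
      rw [Real.sqrt_zero] at h3
      exact h3)
    (fun f => by
      have h1 := (hX χ hχ f.fn f.nice).2
      have h2 : ∀ N : ℕ, ‖X (N : ℤ) f‖ = Real.sqrt (∫ z, (cv χ (N : ℤ) f.fn z) ^ 2) := by
        intro N
        rw [← Real.sqrt_sq (norm_nonneg (X (N : ℤ) f)), norm_sq_eq]
        rfl
      simp only [h2]
      have h3 := (Real.continuous_sqrt.tendsto 0).comp h1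
      rw [Real.sqrt_zero] at h3
      exact h3)
    (fun k l f => by
      rw [eD, eD]
      have := w1 LinearMap.id nd hnd0 nd1 nd1 k l f
      refine this.trans ?_
      have h0 : 0 ≤ W2 * na := by positivity
      have : W1 * nd ≤ C₀ := by rw [hC0]; linarith
      gcongr)
    (fun k l f => by
      rw [eA, eA]
      have := w2 LinearMap.id na hna0 na1 na1 k l f
      refine this.trans ?_
      have h0 : 0 ≤ W1 * nd := by positivity
      have : W2 * na ≤ C₀ := by rw [hC0]; linarith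
      gcongr)
    (fun k m f => by
      rw [eD, eA]
      refine (w3 T b hb0 td ta k m f).trans ?_
      have : W3 * b ≤ B := by
        rw [hBdef]; nlinarith
      gcongr)
    (fun k m f => by
      rw [eA, eA]
      refine (w2 T b hb0 ta ta k m f).trans ?_
      have : W2 * b ≤ B := by
        rw [hBdef]; nlinarith
      gcongr)
    (fun F f => by
      have h1 := l1 U f.fn hU2 hU1 f.nice S F
      have h2 : ∀ k, ‖DD X k (T f) - T (DD X k f)‖ ^ 2 =
          ∫ z, (cv (dk χ) k (tk (kerS ψ S) U f.fn) z - tk (kerS ψ S) U (cv (dk χ) k f.fn) z) ^ 2 := by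
        intro k
        rw [eD, eD, norm_sq_eq]
        rfl
      simp only [h2]
      refine h1.trans ?_
      rw [norm_sq_eq]
      have h3 : 0 ≤ ∫ z, (f.fn z) ^ 2 := integral_nonneg fun _ => sq_nonneg _
      refine mul_le_mul_of_nonneg_right ?_ h3
      have e1 := Real.sq_sqrt hL1
      rw [hLdef]
      nlinarith [Real.sqrt_nonneg L1, Real.sqrt_nonneg L2])
    (fun F f => by
      have h1 := l2 U f.fn hU2 hU1 f.nice S F
      have h2 : ∀ k, ‖AA X k (T f) - T (AA X k f)‖ ^ 2 =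
          ∫ z, (cv (al χ) k (tk (kerS ψ S) U f.fn) z - tk (kerS ψ S) U (cv (al χ) k f.fn) z) ^ 2 := by
        intro k
        rw [eA, eA, norm_sq_eq]
        rfl
      simp only [h2]
      refine h1.trans ?_
      rw [norm_sq_eq]
      have h3 : 0 ≤ ∫ z, (f.fn z) ^ 2 := integral_nonneg fun _ => sq_nonneg _
      refine mul_le_mul_of_nonneg_right ?_ h3
      have e1 := Real.sq_sqrt hL2
      rw [hLdef]
      nlinarith [Real.sqrt_nonneg L1, Real.sqrt_nonneg L2])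
    (fun f => by
      refine norm_le_of (Real.sqrt_nonneg _) ?_
      rw [Real.sq_sqrt (by positivity)]
      exact (hT _ k1 k2 k3 U hU2).2.1 f.fn f.nice)
    (NF.mk f hf)
  have h1 : ‖T (NF.mk f hf)‖ ^ 2 ≤ (K C₀ * (B + L) * ‖NF.mk f hf‖) ^ 2 :=
    pow_le_pow_left₀ (norm_nonneg _) key 2
  rw [mul_pow, norm_sq_eq, norm_sq_eq] at h1
  exact h1

end Crest.Agent.R087.Asm3x283
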