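import Crest.Agent.R087.SqI_90

/-!
Row 87, SHELL S2a: dyadic averages and the dyadic Carleson embedding on the line (Bellman function).
-/

set_option autoImplicit false

noncomputable section

open MeasureTheory Crest.Agent.R087.Sh0x283 Crest.Agent.R087.Sh1x283

namespace Crest.Agent.R087.Carlx562

/-- dyadic interval `[m 2^n, (m+1) 2^n)` -/
def Id (n m : ℤ) : Set ℝ := Set.Ico ((m : ℝ) * (2 : ℝ) ^ n) (((m : ℝ) + 1) * (2 : ℝ) ^ n)

/-- dyadic average at length `2^k` -/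
def Ed (k : ℤ) (g : ℝ → ℝ) (y : ℝ) : ℝ :=
  ((2 : ℝ) ^ k)⁻¹ * ∫ r in Set.Ico ((⌊y / (2 : ℝ) ^ k⌋ : ℝ) * (2 : ℝ) ^ k)
    (((⌊y / (2 : ℝ) ^ k⌋ : ℝ) + 1) * (2 : ℝ) ^ k), g r

theorem two_zpow_pos (k : ℤ) : (0 : ℝ) < (2 : ℝ) ^ k := zpow_pos (by norm_num) k

theorem two_zpow_succ (n : ℤ) : (2 : ℝ) ^ (n + 1) = 2 * (2 : ℝ) ^ n := by
  rw [zpow_add₀ (by norm_num)]; ring

theorem mem_Id {n m : ℤ} {y : ℝ} : y ∈ Id n m ↔ (m : ℝ) * (2 : ℝ) ^ n ≤ y ∧ y < ((m : ℝ) + 1) * (2 : ℝ) ^ n :=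
  Iff.rfl

theorem mem_Id_iff_floor {n m : ℤ} {y : ℝ} : y ∈ Id n m ↔ ⌊y / (2 : ℝ) ^ n⌋ = m := by
  rw [Int.floor_eq_iff, mem_Id, le_div_iff₀ (two_zpow_pos n), div_lt_iff₀ (two_zpow_pos n)]

theorem measurableSet_Id (n m : ℤ) : MeasurableSet (Id n m) := measurableSet_Ico

theorem Ed_eq (k : ℤ) (g : ℝ → ℝ) (y : ℝ) :
    Ed k g y = ((2 : ℝ) ^ k)⁻¹ * ∫ r in Id k ⌊y / (2 : ℝ) ^ k⌋, g r := rfl

theorem Ed_of_mem {k m : ℤ} (g : ℝ → ℝ) {y : ℝ} (h : y ∈ Id k m) :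
    Ed k g y = ((2 : ℝ) ^ k)⁻¹ * ∫ r in Id k m, g r := by
  rw [Ed_eq, mem_Id_iff_floor.1 h]

theorem Ed_congr {k m : ℤ} (g : ℝ → ℝ) {y y' : ℝ} (h : y ∈ Id k m) (h' : y' ∈ Id k m) :
    Ed k g y = Ed k g y' := by
  rw [Ed_of_mem g h, Ed_of_mem g h']

theorem measurable_Ed (k : ℤ) (g : ℝ → ℝ) : Measurable (Ed k g) := by
  have h1 : Measurable (fun y : ℝ => ⌊y / (2 : ℝ) ^ k⌋) :=
    Int.measurable_floor.comp (measurable_id.div_const _)
  have h2 : Measurable (fun m : ℤ => ((2 : ℝ) ^ k)⁻¹ * ∫ r in Id k m, g r) := measurable_of_countable _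
  exact h2.comp h1

theorem volume_Id (n m : ℤ) : volume (Id n m) = ENNReal.ofReal ((2 : ℝ) ^ n) := by
  rw [Id, Real.volume_Ico]
  congr 1
  ring

theorem volume_Id_toReal (n m : ℤ) : (volume (Id n m)).toReal = (2 : ℝ) ^ n := by
  rw [volume_Id, ENNReal.toReal_ofReal (two_zpow_pos n).le]

theorem volume_Id_lt_top (n m : ℤ) : volume (Id n m) < ⊤ := by
  rw [volume_Id]; exact ENNReal.ofReal_lt_top

theorem integrableOn_Id {h : ℝ → ℝ} (hm : Measurable h) {M : ℝ} (hM : ∀ y, |h y| ≤ M) (n m : ℤ) :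
    IntegrableOn h (Id n m) := by
  apply Measure.integrableOn_of_bounded (M := M) (volume_Id_lt_top n m).ne hm.aestronglyMeasurable
  exact Filter.Eventually.of_forall (fun y => by simpa using hM y)

theorem abs_Ed_le {g : ℝ → ℝ} {M : ℝ} (hM : ∀ y, |g y| ≤ M) (k : ℤ) (y : ℝ) : |Ed k g y| ≤ M := by
  rw [Ed_eq, abs_mul, abs_inv, abs_of_pos (two_zpow_pos k)]
  have h1 : |∫ r in Id k ⌊y / (2 : ℝ) ^ k⌋, g r| ≤ M * (2 : ℝ) ^ k := by
    have := norm_setIntegral_le_of_norm_le_const (μ := volume) (s := Id k ⌊y / (2 : ℝ) ^ k⌋) (f := g)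
      (C := M) (volume_Id_lt_top _ _) (fun x _ => by simpa using hM x)
    rw [Measure.real, volume_Id_toReal] at this
    simpa using this
  rw [inv_mul_le_iff₀ (two_zpow_pos k)]
  linarith [mul_comm M ((2 : ℝ) ^ k)]

/-- children of a dyadic interval -/
theorem Id_succ (n m : ℤ) : Id (n + 1) m = Id n (2 * m) ∪ Id n (2 * m + 1) := by
  have hp := two_zpow_pos n
  have h1 : ((m : ℝ)) * (2 : ℝ) ^ (n + 1) = ((2 * m : ℤ) : ℝ) * (2 : ℝ) ^ n := by
    rw [two_zpow_succ]; push_cast; ring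
  have h2 : (((2 * m : ℤ) : ℝ) + 1) * (2 : ℝ) ^ n = ((2 * m + 1 : ℤ) : ℝ) * (2 : ℝ) ^ n := by
    push_cast; ring
  have h3 : ((m : ℝ) + 1) * (2 : ℝ) ^ (n + 1) = (((2 * m + 1 : ℤ) : ℝ) + 1) * (2 : ℝ) ^ n := by
    rw [two_zpow_succ]; push_cast; ring
  unfold Id
  rw [h1, h2, h3]
  refine (Set.Ico_union_Ico_eq_Ico ?_ ?_).symm
  · push_cast; nlinarith
  · push_cast; nlinarith

theorem disjoint_Id {n m m' : ℤ} (h : m ≠ m') : Disjoint (Id n m) (Id n m') := by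
  rw [Set.disjoint_left]
  intro y hy hy'
  exact h ((mem_Id_iff_floor.1 hy).symm.trans (mem_Id_iff_floor.1 hy'))

theorem setIntegral_Id_succ {h : ℝ → ℝ} (n m : ℤ) (h1 : IntegrableOn h (Id n (2 * m)))
    (h2 : IntegrableOn h (Id n (2 * m + 1))) :
    ∫ y in Id (n + 1) m, h y = (∫ y in Id n (2 * m), h y) + ∫ y in Id n (2 * m + 1), h y := by
  rw [Id_succ]
  exact setIntegral_union (disjoint_Id (by omega)) (measurableSet_Id _ _) h1 h2

/-- Cauchy-Schwarz on a dyadic interval -/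
theorem sq_setIntegral_le {g : ℝ → ℝ} (hg : Measurable g) {M : ℝ} (hM : ∀ y, |g y| ≤ M) (n m : ℤ) :
    (∫ y in Id n m, g y) ^ 2 ≤ (2 : ℝ) ^ n * ∫ y in Id n m, (g y) ^ 2 := by
  have hp := two_zpow_pos n
  have i1 : IntegrableOn g (Id n m) := integrableOn_Id hg hM n m
  have i2 : IntegrableOn (fun y => (g y) ^ 2) (Id n m) := by
    apply integrableOn_Id (hg.pow_const 2) (M := M ^ 2)
    intro y
    rw [abs_pow]
    exact pow_le_pow_left₀ (abs_nonneg _) (hM y) 2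
  set p := ∫ y in Id n m, g y with hp_def
  set c := p / (2 : ℝ) ^ n with hc
  have h0 : 0 ≤ ∫ y in Id n m, (g y - c) ^ 2 := integral_nonneg (fun y => sq_nonneg _)
  have hfin : IntegrableOn (fun _ : ℝ => c ^ 2) (Id n m) := by
    exact integrableOn_const (volume_Id_lt_top n m).ne
  have e : ∫ y in Id n m, (g y - c) ^ 2 =
      (∫ y in Id n m, (g y) ^ 2) - 2 * c * p + c ^ 2 * (2 : ℝ) ^ n := by
    have : ∀ y, (g y - c) ^ 2 = (g y) ^ 2 - 2 * c * g y + c ^ 2 := fun y => by ring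
    simp_rw [this]
    have i3 : IntegrableOn (fun y => 2 * c * g y) (Id n m) := i1.const_mul _
    have i4 : IntegrableOn (fun y => (g y) ^ 2 - 2 * c * g y) (Id n m) := i2.sub i3
    rw [integral_add i4 hfin, integral_sub i2 i3, integral_const_mul, setIntegral_const]
    rw [Measure.real, volume_Id_toReal]
    simp only [smul_eq_mul]
    ring
  rw [e] at h0
  have hcp : c * (2 : ℝ) ^ n = p := by rw [hc]; field_simp
  have h3 : c ^ 2 * (2 : ℝ) ^ n = c * p := by rw [← hcp]; ring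
  have h4 : c * p ≤ ∫ y in Id n m, (g y) ^ 2 := by nlinarith
  calc p ^ 2 = (2 : ℝ) ^ n * (c * p) := by rw [← hcp]; ring
    _ ≤ _ := mul_le_mul_of_nonneg_left h4 hp.le

/-- the Bellman inequality (one dyadic step), homogeneous form -/
theorem bellman {B N p q D E a : ℝ} (hB : 0 < B) (hN : 0 < N) (hD : 0 < D) (hE : 0 < E) (ha : 0 ≤ a)
    (hT : D + E + a ≤ 2 * B * N) :
    a * ((p + q) / N) ^ 2 + 4 * B ^ 2 * ((p + q) ^ 2 / (D + E + a)) ≤
      4 * B ^ 2 * (p ^ 2 / D) + 4 * B ^ 2 * (q ^ 2 / E) := by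
  have h1 : (p + q) ^ 2 / (D + E) ≤ p ^ 2 / D + q ^ 2 / E := by
    rw [div_add_div _ _ hD.ne' hE.ne', div_le_div_iff₀ (by positivity) (by positivity)]
    nlinarith [mul_pos hD hE, sq_nonneg (p * E - q * D)]
  have hDE : 0 < D + E := by positivity
  have hDEa : 0 < D + E + a := by positivity
  have h2 : a * ((p + q) / N) ^ 2 ≤ 4 * B ^ 2 * ((p + q) ^ 2 / (D + E) - (p + q) ^ 2 / (D + E + a)) := by
    have e : (p + q) ^ 2 / (D + E) - (p + q) ^ 2 / (D + E + a) = a * (p + q) ^ 2 / ((D + E) * (D + E + a)) := by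
      rw [div_sub_div _ _ hDE.ne' hDEa.ne']
      congr 1
      ring
    rw [e, div_pow]
    have h3 : (D + E) * (D + E + a) ≤ (2 * B * N) ^ 2 := by
      have : D + E ≤ 2 * B * N := by linarith
      calc (D + E) * (D + E + a) ≤ (2 * B * N) * (2 * B * N) := mul_le_mul this hT hDEa.le (by positivity)
        _ = _ := by ring
    have h4 : a * (p + q) ^ 2 / (2 * B * N) ^ 2 ≤ a * (p + q) ^ 2 / ((D + E) * (D + E + a)) :=
      div_le_div_of_nonneg_left (by positivity) (by positivity) h3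
    calc a * ((p + q) ^ 2 / N ^ 2) = 4 * B ^ 2 * (a * (p + q) ^ 2 / (2 * B * N) ^ 2) := by
          field_simp; ring
      _ ≤ _ := mul_le_mul_of_nonneg_left h4 (by positivity)
  nlinarith [mul_le_mul_of_nonneg_left h1 (by positivity : (0 : ℝ) ≤ 4 * B ^ 2)]

section main

variable (F : Finset ℤ) (β : ℤ → ℝ → ℝ) (g : ℝ → ℝ)

/-- the Carleson mass -/
def Wm (n m : ℤ) : ℝ := ∑ k ∈ F.filter (· ≤ n), ∫ y in Id n m, β k y

/-- the local sum -/
def Sm (n m : ℤ) : ℝ := ∑ k ∈ F.filter (· ≤ n), ∫ y in Id n m, β k y * (Ed k g y) ^ 2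

variable {F β g}

theorem filter_succ_mem {n : ℤ} (h : n + 1 ∈ F) :
    F.filter (· ≤ n + 1) = insert (n + 1) (F.filter (· ≤ n)) := by
  ext k
  simp only [Finset.mem_filter, Finset.mem_insert]
  constructor
  · rintro ⟨h1, h2⟩
    by_cases hk : k = n + 1
    · exact Or.inl hk
    · exact Or.inr ⟨h1, by omega⟩
  · rintro (rfl | ⟨h1, h2⟩)
    · exact ⟨h, le_refl _⟩
    · exact ⟨h1, by omega⟩

theorem filter_succ_notMem {n : ℤ} (h : n + 1 ∉ F) :
    F.filter (· ≤ n + 1) = F.filter (· ≤ n) := by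
  ext k
  simp only [Finset.mem_filter]
  constructor
  · rintro ⟨h1, h2⟩
    refine ⟨h1, ?_⟩
    have : k ≠ n + 1 := fun e => h (e ▸ h1)
    omega
  · rintro ⟨h1, h2⟩
    exact ⟨h1, by omega⟩

/-- one step of the recursion for a general family of functions. -/
theorem sum_succ (u : ℤ → ℝ → ℝ) (hu : ∀ k ∈ F, ∀ n m, IntegrableOn (u k) (Id n m)) (n m : ℤ) :
    ∑ k ∈ F.filter (· ≤ n + 1), ∫ y in Id (n + 1) m, u k y =
      (∑ k ∈ F.filter (· ≤ n), ∫ y in Id n (2 * m), u k y) +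
      (∑ k ∈ F.filter (· ≤ n), ∫ y in Id n (2 * m + 1), u k y) +
      (if n + 1 ∈ F then ∫ y in Id (n + 1) m, u (n + 1) y else 0) := by
  have key : ∑ k ∈ F.filter (· ≤ n), ∫ y in Id (n + 1) m, u k y =
      (∑ k ∈ F.filter (· ≤ n), ∫ y in Id n (2 * m), u k y) +
      (∑ k ∈ F.filter (· ≤ n), ∫ y in Id n (2 * m + 1), u k y) := by
    rw [← Finset.sum_add_distrib]
    apply Finset.sum_congr rfl
    intro k hk
    have hkF : k ∈ F := (Finset.mem_filter.1 hk).1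
    exact setIntegral_Id_succ n m (hu k hkF _ _) (hu k hkF _ _)
  by_cases h : n + 1 ∈ F
  · rw [filter_succ_mem h, Finset.sum_insert (by simp), key, if_pos h]
    ring
  · rw [filter_succ_notMem h, key, if_neg h, add_zero]

theorem step_claim {B : ℝ} (hB : 0 < B) (h0 : ∀ k ∈ F, ∀ y, 0 ≤ β k y) (hm : ∀ k ∈ F, Measurable (β k))
    (hb : ∀ k ∈ F, ∃ M : ℝ, ∀ y, β k y ≤ M)
    (hC : ∀ n m : ℤ, ∑ k ∈ F.filter (· ≤ n), ∫ y in Id n m, β k y ≤ B * (2 : ℝ) ^ n)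
    (hg : Measurable g) {M : ℝ} (hM : ∀ y, |g y| ≤ M) (n : ℤ)
    (ih : ∀ m, Sm F β g n m + 4 * B ^ 2 * ((∫ y in Id n m, g y) ^ 2 / (B * (2 : ℝ) ^ n + Wm F β n m)) ≤
      4 * B * ∫ y in Id n m, (g y) ^ 2) (m : ℤ) :
    Sm F β g (n + 1) m + 4 * B ^ 2 * ((∫ y in Id (n + 1) m, g y) ^ 2 /
      (B * (2 : ℝ) ^ (n + 1) + Wm F β (n + 1) m)) ≤ 4 * B * ∫ y in Id (n + 1) m, (g y) ^ 2 := by
  have hβi : ∀ k ∈ F, ∀ n m, IntegrableOn (β k) (Id n m) := by
    intro k hk n m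
    obtain ⟨L, hL⟩ := hb k hk
    exact integrableOn_Id (hm k hk) (M := L) (fun y => by rw [abs_of_nonneg (h0 k hk y)]; exact hL y) n m
  have hβEi : ∀ k ∈ F, ∀ n m, IntegrableOn (fun y => β k y * (Ed k g y) ^ 2) (Id n m) := by
    intro k hk n m
    obtain ⟨L, hL⟩ := hb k hk
    refine integrableOn_Id ((hm k hk).mul ((measurable_Ed k g).pow_const 2)) (M := L * M ^ 2)
      (fun y => ?_) n m
    change |β k y * (Ed k g y) ^ 2| ≤ L * M ^ 2
    rw [abs_mul, abs_of_nonneg (h0 k hk y), abs_pow]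
    have h1 := hL y
    have h2 := h0 k hk y
    have h3 := abs_Ed_le hM k y
    exact mul_le_mul h1 (pow_le_pow_left₀ (abs_nonneg _) h3 2) (by positivity) (by linarith)
  have hgi : ∀ n m, IntegrableOn g (Id n m) := integrableOn_Id hg hM
  have hg2i : ∀ n m, IntegrableOn (fun y => (g y) ^ 2) (Id n m) := by
    intro n m
    refine integrableOn_Id (hg.pow_const 2) (M := M ^ 2) (fun y => ?_) n m
    rw [abs_pow]
    exact pow_le_pow_left₀ (abs_nonneg _) (hM y) 2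
  -- decomposition
  set a : ℝ := if n + 1 ∈ F then ∫ y in Id (n + 1) m, β (n + 1) y else 0 with ha_def
  have ha : 0 ≤ a := by
    rw [ha_def]
    split_ifs with h
    · exact integral_nonneg (fun y => h0 _ h y)
    · exact le_refl _
  have eW : Wm F β (n + 1) m = Wm F β n (2 * m) + Wm F β n (2 * m + 1) + a := by
    unfold Wm
    rw [sum_succ β hβi n m]
  have eS : Sm F β g (n + 1) m = Sm F β g n (2 * m) + Sm F β g n (2 * m + 1) +
      a * ((∫ y in Id (n + 1) m, g y) / (2 : ℝ) ^ (n + 1)) ^ 2 := by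
    unfold Sm
    rw [sum_succ (fun k y => β k y * (Ed k g y) ^ 2) hβEi n m]
    congr 1
    rw [ha_def]
    by_cases h : n + 1 ∈ F
    · rw [if_pos h, if_pos h, ← integral_mul_const]
      apply setIntegral_congr_fun (measurableSet_Id _ _)
      intro y hy
      simp only
      rw [Ed_of_mem g hy]
      congr 2
      rw [div_eq_inv_mul]
    · rw [if_neg h, if_neg h, zero_mul]
  have eg : ∫ y in Id (n + 1) m, g y = (∫ y in Id n (2 * m), g y) + ∫ y in Id n (2 * m + 1), g y :=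
    setIntegral_Id_succ n m (hgi _ _) (hgi _ _)
  have eg2 : ∫ y in Id (n + 1) m, (g y) ^ 2 =
      (∫ y in Id n (2 * m), (g y) ^ 2) + ∫ y in Id n (2 * m + 1), (g y) ^ 2 :=
    setIntegral_Id_succ n m (hg2i _ _) (hg2i _ _)
  have hWnn : ∀ m, 0 ≤ Wm F β n m := fun m =>
    Finset.sum_nonneg (fun k hk => integral_nonneg (fun y => h0 k (Finset.mem_filter.1 hk).1 y))
  have hp := two_zpow_pos n
  have i1 := ih (2 * m)
  have i2 := ih (2 * m + 1)
  have w1 := hWnn (2 * m)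
  have w2 := hWnn (2 * m + 1)
  have hCC := hC (n + 1) m
  have hCW : Wm F β (n + 1) m ≤ B * (2 : ℝ) ^ (n + 1) := hCC
  have hD : 0 < B * (2 : ℝ) ^ n + Wm F β n (2 * m) := by positivity
  have hE : 0 < B * (2 : ℝ) ^ n + Wm F β n (2 * m + 1) := by positivity
  have hT : (B * (2 : ℝ) ^ n + Wm F β n (2 * m)) + (B * (2 : ℝ) ^ n + Wm F β n (2 * m + 1)) + a ≤
      2 * B * (2 : ℝ) ^ (n + 1) := by
    rw [eW] at hCW
    rw [two_zpow_succ] at hCW ⊢
    linarith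
  have hbel := bellman (p := ∫ y in Id n (2 * m), g y) (q := ∫ y in Id n (2 * m + 1), g y) hB
    (two_zpow_pos (n + 1)) hD hE ha hT
  have eD : B * (2 : ℝ) ^ (n + 1) + Wm F β (n + 1) m =
      (B * (2 : ℝ) ^ n + Wm F β n (2 * m)) + (B * (2 : ℝ) ^ n + Wm F β n (2 * m + 1)) + a := by
    rw [eW, two_zpow_succ]; ring
  rw [eD, eS, eg, eg2]
  linarith

theorem base_claim {B : ℝ} (hB : 0 < B) (hg : Measurable g) {M : ℝ} (hM : ∀ y, |g y| ≤ M) (n : ℤ)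
    (hn : ∀ k ∈ F, n < k) (m : ℤ) :
    Sm F β g n m + 4 * B ^ 2 * ((∫ y in Id n m, g y) ^ 2 / (B * (2 : ℝ) ^ n + Wm F β n m)) ≤
      4 * B * ∫ y in Id n m, (g y) ^ 2 := by
  have hf : F.filter (· ≤ n) = ∅ := by
    rw [Finset.filter_eq_empty_iff]
    intro k hk
    exact not_le.2 (hn k hk)
  have e1 : Sm F β g n m = 0 := by unfold Sm; rw [hf, Finset.sum_empty]
  have e2 : Wm F β n m = 0 := by unfold Wm; rw [hf, Finset.sum_empty]
  rw [e1, e2, add_zero, zero_add]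
  have hp := two_zpow_pos n
  have h := sq_setIntegral_le hg hM n m
  have h2 : (∫ y in Id n m, g y) ^ 2 / (B * (2 : ℝ) ^ n) ≤ (∫ y in Id n m, (g y) ^ 2) / B := by
    rw [div_le_div_iff₀ (by positivity) hB]
    nlinarith
  calc 4 * B ^ 2 * ((∫ y in Id n m, g y) ^ 2 / (B * (2 : ℝ) ^ n))
      ≤ 4 * B ^ 2 * ((∫ y in Id n m, (g y) ^ 2) / B) := mul_le_mul_of_nonneg_left h2 (by positivity)
    _ = 4 * B * ∫ y in Id n m, (g y) ^ 2 := by field_simp

theorem all_claim {B : ℝ} (hB : 0 < B) (h0 : ∀ k ∈ F, ∀ y, 0 ≤ β k y) (hm : ∀ k ∈ F, Measurable (β k))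
    (hb : ∀ k ∈ F, ∃ M : ℝ, ∀ y, β k y ≤ M)
    (hC : ∀ n m : ℤ, ∑ k ∈ F.filter (· ≤ n), ∫ y in Id n m, β k y ≤ B * (2 : ℝ) ^ n)
    (hg : Measurable g) {M : ℝ} (hM : ∀ y, |g y| ≤ M) (n m : ℤ) :
    Sm F β g n m ≤ 4 * B * ∫ y in Id n m, (g y) ^ 2 := by
  obtain ⟨n₀, hn₀⟩ : ∃ n₀ : ℤ, ∀ k ∈ F, n₀ < k := by
    obtain ⟨b, hb'⟩ := F.finite_toSet.bddBelow
    exact ⟨b - 1, fun k hk => by have := hb' (Finset.mem_coe.2 hk); omega⟩
  have main : ∀ n, n₀ ≤ n → ∀ m, Sm F β g n m + 4 * B ^ 2 * ((∫ y in Id n m, g y) ^ 2 /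
      (B * (2 : ℝ) ^ n + Wm F β n m)) ≤ 4 * B * ∫ y in Id n m, (g y) ^ 2 := by
    intro n hn
    refine Int.leInduction (motive := fun n _ => ∀ m, Sm F β g n m + 4 * B ^ 2 *
      ((∫ y in Id n m, g y) ^ 2 / (B * (2 : ℝ) ^ n + Wm F β n m)) ≤ 4 * B * ∫ y in Id n m, (g y) ^ 2)
      ?_ ?_ n hn
    · exact fun m => base_claim hB hg hM n₀ hn₀ m
    · exact fun n hn ih m => step_claim hB h0 hm hb hC hg hM n ih m
  have hWnn : 0 ≤ Wm F β n m :=
    Finset.sum_nonneg (fun k hk => integral_nonneg (fun y => h0 k (Finset.mem_filter.1 hk).1 y))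
  have hp := two_zpow_pos n
  have hpos : 0 ≤ 4 * B ^ 2 * ((∫ y in Id n m, g y) ^ 2 / (B * (2 : ℝ) ^ n + Wm F β n m)) := by
    positivity
  rcases le_total n₀ n with h | h
  · linarith [main n h m]
  · have := base_claim (β := β) hB hg hM n (fun k hk => lt_of_le_of_lt h (hn₀ k hk)) m
    linarith

end main

/-- outside of `[-2^N, 2^N)` the averages at scales `≤ N` of a function supported there vanish -/
theorem Ed_eq_zero {g : ℝ → ℝ} {N : ℤ} (hg : ∀ y, (2 : ℝ) ^ N ≤ |y| → g y = 0) {k : ℤ} (hk : k ≤ N) {y : ℝ}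
    (hy : y ∉ Id N (-1) ∪ Id N 0) : Ed k g y = 0 := by
  obtain ⟨j, hj⟩ : ∃ j : ℕ, N = k + j := ⟨(N - k).toNat, by omega⟩
  have hkp := two_zpow_pos k
  have hNp := two_zpow_pos N
  have e : (2 : ℝ) ^ N = (((2 : ℤ) ^ j : ℤ) : ℝ) * (2 : ℝ) ^ k := by
    rw [hj, zpow_add₀ (by norm_num), zpow_natCast]
    push_cast
    ring
  have hy' : y < -(2 : ℝ) ^ N ∨ (2 : ℝ) ^ N ≤ y := by
    by_contra hcon
    push Not at hcon
    apply hy
    by_cases h : y < 0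
    · left
      rw [mem_Id]
      push_cast
      constructor <;> linarith [hcon.1]
    · right
      rw [mem_Id]
      push_cast
      constructor <;> linarith [hcon.2]
  rw [Ed_eq]
  have hz : ∫ r in Id k ⌊y / (2 : ℝ) ^ k⌋, g r = 0 := by
    apply setIntegral_eq_zero_of_forall_eq_zero
    intro r hr
    apply hg
    rw [mem_Id] at hr
    rcases hy' with h | h
    · have h1 : y / (2 : ℝ) ^ k < ((-(2 : ℤ) ^ j : ℤ) : ℝ) := by
        rw [div_lt_iff₀ hkp]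
        push_cast
        push_cast at e
        linarith
      have h2 : ⌊y / (2 : ℝ) ^ k⌋ < -(2 : ℤ) ^ j := Int.floor_lt.2 h1
      have h3 : ((⌊y / (2 : ℝ) ^ k⌋ : ℤ) : ℝ) + 1 ≤ ((-(2 : ℤ) ^ j : ℤ) : ℝ) := by
        exact_mod_cast h2
      have h4 : r < -(2 : ℝ) ^ N := by
        calc r < _ := hr.2
          _ ≤ ((-(2 : ℤ) ^ j : ℤ) : ℝ) * (2 : ℝ) ^ k := mul_le_mul_of_nonneg_right h3 hkp.le
          _ = _ := by rw [e]; push_cast; ring
      rw [abs_of_neg (by linarith)]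
      linarith
    · have h1 : (((2 : ℤ) ^ j : ℤ) : ℝ) ≤ y / (2 : ℝ) ^ k := by
        rw [le_div_iff₀ hkp]
        linarith
      have h2 : (2 : ℤ) ^ j ≤ ⌊y / (2 : ℝ) ^ k⌋ := Int.le_floor.2 h1
      have h3 : (((2 : ℤ) ^ j : ℤ) : ℝ) ≤ ((⌊y / (2 : ℝ) ^ k⌋ : ℤ) : ℝ) := by exact_mod_cast h2
      have h4 : (2 : ℝ) ^ N ≤ r := by
        rw [e]
        exact le_trans (mul_le_mul_of_nonneg_right h3 hkp.le) hr.1
      exact le_trans h4 (le_abs_self r)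
  rw [hz, mul_zero]

/-- integral of a function vanishing outside of `Id N (-1) ∪ Id N 0` -/
theorem integral_two {h : ℝ → ℝ} {N : ℤ} (h1 : IntegrableOn h (Id N (-1))) (h2 : IntegrableOn h (Id N 0))
    (hz : ∀ y, y ∉ Id N (-1) ∪ Id N 0 → h y = 0) :
    ∫ y, h y = (∫ y in Id N (-1), h y) + ∫ y in Id N 0, h y := by
  rw [← setIntegral_eq_integral_of_forall_compl_eq_zero hz]
  exact setIntegral_union (disjoint_Id (by norm_num)) (measurableSet_Id _ _) h1 h2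

theorem mem_two_of_abs_lt {N : ℤ} {y : ℝ} (h : |y| < (2 : ℝ) ^ N) : y ∈ Id N (-1) ∪ Id N 0 := by
  have hp := two_zpow_pos N
  rw [abs_lt] at h
  by_cases h' : y < 0
  · left; rw [mem_Id]; push_cast; constructor <;> linarith [h.1]
  · right; rw [mem_Id]; push_cast; constructor <;> linarith [h.2]

/-- for a finite set of scales and a bounded support there is one big scale -/
theorem exists_big (F : Finset ℤ) (R : ℝ) : ∃ N : ℤ, (∀ k ∈ F, k ≤ N) ∧ R < (2 : ℝ) ^ N := by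
  obtain ⟨b, hb⟩ := F.finite_toSet.bddAbove
  obtain ⟨j, hj⟩ := pow_unbounded_of_one_lt R (by norm_num : (1 : ℝ) < 2)
  refine ⟨max b j, fun k hk => le_trans (hb (Finset.mem_coe.2 hk)) (le_max_left _ _), ?_⟩
  calc R < (2 : ℝ) ^ j := hj
    _ = (2 : ℝ) ^ (j : ℤ) := (zpow_natCast _ _).symm
    _ ≤ _ := zpow_le_zpow_right₀ (by norm_num) (le_max_right _ _)

theorem carl_pos (F : Finset ℤ) (β : ℤ → ℝ → ℝ) (B : ℝ) (hB : 0 < B) (h0 : ∀ k ∈ F, ∀ y, 0 ≤ β k y)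
    (hm : ∀ k ∈ F, Measurable (β k)) (hb : ∀ k ∈ F, ∃ M : ℝ, ∀ y, β k y ≤ M)
    (hC : ∀ n m : ℤ, ∑ k ∈ F.filter (· ≤ n), ∫ y in Id n m, β k y ≤ B * (2 : ℝ) ^ n)
    (g : ℝ → ℝ) (hg : Nice1 g) :
    ∑ k ∈ F, ∫ y, β k y * (Ed k g y) ^ 2 ≤ 4 * B * ∫ y, (g y) ^ 2 := by
  obtain ⟨hgm, ⟨M, hM⟩, ⟨R, hR⟩⟩ := hg
  obtain ⟨N, hN, hRN⟩ := exists_big F R
  have hgN : ∀ y, (2 : ℝ) ^ N ≤ |y| → g y = 0 := fun y hy => hR y (lt_of_lt_of_le hRN hy)
  have hfil : F.filter (· ≤ N) = F := by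
    rw [Finset.filter_eq_self]; exact hN
  have hβEi : ∀ k ∈ F, ∀ n m, IntegrableOn (fun y => β k y * (Ed k g y) ^ 2) (Id n m) := by
    intro k hk n m
    obtain ⟨L, hL⟩ := hb k hk
    refine integrableOn_Id ((hm k hk).mul ((measurable_Ed k g).pow_const 2)) (M := L * M ^ 2)
      (fun y => ?_) n m
    change |β k y * (Ed k g y) ^ 2| ≤ L * M ^ 2
    rw [abs_mul, abs_of_nonneg (h0 k hk y), abs_pow]
    have h1 := hL y
    have h2 := h0 k hk y
    have h3 := abs_Ed_le hM k y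
    exact mul_le_mul h1 (pow_le_pow_left₀ (abs_nonneg _) h3 2) (by positivity) (by linarith)
  have hg2i : ∀ n m, IntegrableOn (fun y => (g y) ^ 2) (Id n m) := by
    intro n m
    refine integrableOn_Id (hgm.pow_const 2) (M := M ^ 2) (fun y => ?_) n m
    rw [abs_pow]
    exact pow_le_pow_left₀ (abs_nonneg _) (hM y) 2
  have e1 : ∑ k ∈ F, ∫ y, β k y * (Ed k g y) ^ 2 = Sm F β g N (-1) + Sm F β g N 0 := by
    unfold Sm
    rw [hfil, ← Finset.sum_add_distrib]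
    apply Finset.sum_congr rfl
    intro k hk
    apply integral_two (hβEi k hk _ _) (hβEi k hk _ _)
    intro y hy
    rw [Ed_eq_zero hgN (hN k hk) hy]
    ring
  have e2 : ∫ y, (g y) ^ 2 = (∫ y in Id N (-1), (g y) ^ 2) + ∫ y in Id N 0, (g y) ^ 2 := by
    apply integral_two (hg2i _ _) (hg2i _ _)
    intro y hy
    have : g y = 0 := by
      apply hgN
      by_contra hcon
      exact hy (mem_two_of_abs_lt (not_le.1 hcon))
    rw [this]; ring
  rw [e1, e2]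
  have c1 := all_claim hB h0 hm hb hC hgm hM N (-1)
  have c2 := all_claim hB h0 hm hb hC hgm hM N 0
  linarith

/-- **dyadic Carleson embedding** -/
theorem carl (F : Finset ℤ) (β : ℤ → ℝ → ℝ) (B : ℝ) (hB : 0 ≤ B) (h0 : ∀ k ∈ F, ∀ y, 0 ≤ β k y)
    (hm : ∀ k ∈ F, Measurable (β k)) (hb : ∀ k ∈ F, ∃ M : ℝ, ∀ y, β k y ≤ M)
    (hC : ∀ n m : ℤ, ∑ k ∈ F.filter (· ≤ n), ∫ y in Set.Ico ((m : ℝ) * 2 ^ n) ((m + 1 : ℝ) * 2 ^ n),
      β k y ≤ B * 2 ^ n) (g : ℝ → ℝ) (hg : Nice1 g) :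
    ∑ k ∈ F, ∫ y, β k y * (Ed k g y) ^ 2 ≤ 4 * B * ∫ y, (g y) ^ 2 := by
  have hI : 0 ≤ ∫ y, (g y) ^ 2 := integral_nonneg (fun y => sq_nonneg _)
  set I := ∫ y, (g y) ^ 2 with hIdef
  apply le_of_forall_pos_le_add
  intro ε hε
  have hδ : 0 < ε / (4 * (I + 1)) := by positivity
  have h := carl_pos F β (B + ε / (4 * (I + 1))) (by linarith) h0 hm hb
    (fun n m => le_trans (hC n m) (mul_le_mul_of_nonneg_right (by linarith) (two_zpow_pos n).le)) g hg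
  rw [← hIdef] at h
  have h2 : 4 * (B + ε / (4 * (I + 1))) * I ≤ 4 * B * I + ε := by
    have h3 : 4 * (ε / (4 * (I + 1))) * I ≤ ε := by
      have : 4 * (ε / (4 * (I + 1))) * I = ε * (I / (I + 1)) := by
        field_simp
      rw [this]
      have h4 : I / (I + 1) ≤ 1 := by
        rw [div_le_one (by linarith)]; linarith
      calc ε * (I / (I + 1)) ≤ ε * 1 := mul_le_mul_of_nonneg_left h4 hε.le
        _ = ε := mul_one _
    linarith
  linarith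

/-- **S2a** in the literal form of `SqI_90`. -/
theorem dce : Crest.Agent.R087.SqIx90.DCE := by
  intro A F b hA hbm hbb hC g hg
  have h := carl F (fun k y => (b k y) ^ 2) (A ^ 2) (sq_nonneg A) (fun k _ y => sq_nonneg _)
    (fun k hk => (hbm k hk).pow_const 2)
    (fun k hk => ⟨(4 * A) ^ 2, fun y => by
      rw [← sq_abs]; exact pow_le_pow_left₀ (abs_nonneg _) (hbb k hk y) 2⟩) hC g hg
  refine le_trans (le_of_eq ?_) h
  apply Finset.sum_congr rfl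
  intro k _
  congr 1
  funext y
  rw [mul_pow]
  rfl

end Crest.Agent.R087.Carlx562
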