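import Crest.Agent.R087.T1def_90

/-!
Row 87, operator part, leaf T2c (helper929): positive Carleson sums along a tree.

`eb b s m = 2^s ∫⁻_{z : cel s z.1 = m} b z`,  `ES b s0 s x = ∑_{s0 ≤ i < s} eb (b i) i (cel i x)`.

If `∑_{i ≥ s} ∫⁻_{cell (s,m)} b i ≤ Θ 2^-s` for all cells, then
`∫⁻_{cell (s0,m0)} (ES b s0 S x)² ≤ 2 Θ² 2^-s0`.
-/

set_option autoImplicit false

noncomputable section

open MeasureTheory Crest.Agent.R087.Sh0x283 Crest.Agent.R087.GateDefx273 Crest.Agent.R087.T1x90
open scoped ENNReal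

namespace Crest.Agent.R087.Carpx929

theorem measurable_cel (s : ℕ) : Measurable (cel s) :=
  Int.measurable_floor.comp (measurable_const.mul measurable_id)

theorem measurableSet_cel (s : ℕ) (m : ℤ) : MeasurableSet {x : ℝ | cel s x = m} :=
  measurable_cel s (measurableSet_singleton m)

theorem measurableSet_cel2 (s : ℕ) (m : ℤ) : MeasurableSet {z : ℝ × ℝ | cel s z.1 = m} :=
  (measurable_cel s).comp measurable_fst (measurableSet_singleton m)

/-- equality of two cell indices is a measurable condition -/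
theorem measurableSet_celeq {α : Type*} [MeasurableSpace α] (s : ℕ) {f g : α → ℝ}
    (hf : Measurable f) (hg : Measurable g) : MeasurableSet {a | cel s (f a) = cel s (g a)} :=
  measurableSet_eq_fun ((measurable_cel s).comp hf) ((measurable_cel s).comp hg)

/-- the cell of index `c` at scale `s` as an interval -/
theorem cel_eq_iff (s : ℕ) (m : ℤ) (x : ℝ) :
    cel s x = m ↔ (m : ℝ) * (1 / 2) ^ s ≤ x ∧ x < ((m : ℝ) + 1) * (1 / 2) ^ s := by
  have h2 : (0 : ℝ) < 2 ^ s := by positivity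
  rw [cel, Int.floor_eq_iff, one_div, inv_pow, ← div_eq_mul_inv, ← div_eq_mul_inv,
    div_le_iff₀ h2, lt_div_iff₀ h2, mul_comm x]

theorem cel_set (s : ℕ) (m : ℤ) :
    {x : ℝ | cel s x = m} = Set.Ico ((m : ℝ) * (1 / 2) ^ s) (((m : ℝ) + 1) * (1 / 2) ^ s) := by
  ext x
  exact cel_eq_iff s m x

theorem volume_cel (s : ℕ) (m : ℤ) :
    volume {x : ℝ | cel s x = m} = ENNReal.ofReal ((1 / 2) ^ s) := by
  rw [cel_set, Real.volume_Ico]
  congr 1
  ring

/-- `2^s` times the volume of a cell is one -/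
theorem two_pow_mul_volume (s : ℕ) (m : ℤ) :
    (2 : ℝ≥0∞) ^ s * volume {x : ℝ | cel s x = m} = 1 := by
  rw [volume_cel, ENNReal.ofReal_pow (by norm_num), ← mul_pow]
  have : (2 : ℝ≥0∞) * ENNReal.ofReal (1 / 2) = 1 := by
    have h2 : (2 : ℝ≥0∞) = ENNReal.ofReal 2 := by simp
    rw [h2, ← ENNReal.ofReal_mul (by norm_num)]
    norm_num
  rw [this, one_pow]

/-- finer cells determine coarser cells -/
theorem cel_mono {s i : ℕ} (h : s ≤ i) {x y : ℝ} (hxy : cel i x = cel i y) : cel s x = cel s y := by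
  have key : ∀ t : ℝ, cel s t = cel i t / 2 ^ (i - s) := by
    intro t
    have h1 : (2 : ℝ) ^ s * t = (2 : ℝ) ^ i * t / ((2 ^ (i - s) : ℕ) : ℝ) := by
      have h3 : (2 : ℝ) ^ i = 2 ^ s * 2 ^ (i - s) := by rw [← pow_add]; congr 1; omega
      rw [h3]
      push_cast
      field_simp
    rw [cel, cel, h1, Int.floor_div_natCast]
    push_cast
    rfl
  rw [key, key, hxy]

/-- cell coefficient of a nonnegative function -/
def eb (b : ℝ × ℝ → ℝ≥0∞) (s : ℕ) (m : ℤ) : ℝ≥0∞ := 2 ^ s * ∫⁻ z in {z : ℝ × ℝ | cel s z.1 = m}, b z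

/-- positive Carleson sum -/
def ES (b : ℕ → ℝ × ℝ → ℝ≥0∞) (s0 s : ℕ) (x : ℝ) : ℝ≥0∞ :=
  ∑ i ∈ Finset.Ico s0 s, eb (b i) i (cel i x)

theorem measurable_eb (b : ℝ × ℝ → ℝ≥0∞) (s : ℕ) : Measurable fun x => eb b s (cel s x) :=
  (measurable_of_countable (eb b s)).comp (measurable_cel s)

theorem measurable_ES (b : ℕ → ℝ × ℝ → ℝ≥0∞) (s0 s : ℕ) : Measurable (ES b s0 s) :=
  Finset.measurable_sum _ fun i _ => measurable_eb (b i) i

/-- Tonelli: integral over `x` of a cell coefficient against a weight -/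
theorem lint_eb_mul {b : ℝ × ℝ → ℝ≥0∞} (hb : Measurable b) (s : ℕ) {f : ℝ → ℝ≥0∞}
    (hf : Measurable f) :
    ∫⁻ x, eb b s (cel s x) * f x =
      ∫⁻ z, b z * (2 ^ s * ∫⁻ x in {x : ℝ | cel s x = cel s z.1}, f x) := by
  have hA : MeasurableSet {p : ℝ × (ℝ × ℝ) | cel s p.2.1 = cel s p.1} :=
    measurableSet_celeq s (measurable_fst.comp measurable_snd) measurable_fst
  have e1 : ∀ x : ℝ, eb b s (cel s x) * f x =
      ∫⁻ z : ℝ × ℝ, {p : ℝ × (ℝ × ℝ) | cel s p.2.1 = cel s p.1}.indicator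
        (fun p => 2 ^ s * (b p.2 * f p.1)) (x, z) := by
    intro x
    have h1 : ∀ z : ℝ × ℝ, {p : ℝ × (ℝ × ℝ) | cel s p.2.1 = cel s p.1}.indicator
        (fun p => 2 ^ s * (b p.2 * f p.1)) (x, z) =
        2 ^ s * f x * ({z : ℝ × ℝ | cel s z.1 = cel s x}.indicator b z) := by
      intro z
      by_cases hz : cel s z.1 = cel s x
      · rw [Set.indicator_of_mem (by exact hz), Set.indicator_of_mem (by exact hz)]
        ring
      · rw [Set.indicator_of_notMem (by exact hz), Set.indicator_of_notMem (by exact hz), mul_zero]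
    simp_rw [h1]
    rw [lintegral_const_mul _ (hb.indicator (measurableSet_cel2 s _)),
      lintegral_indicator (measurableSet_cel2 s _), eb]
    ring
  simp_rw [e1]
  rw [lintegral_lintegral_swap]
  · refine lintegral_congr fun z => ?_
    have h1 : ∀ x : ℝ, {p : ℝ × (ℝ × ℝ) | cel s p.2.1 = cel s p.1}.indicator
        (fun p => 2 ^ s * (b p.2 * f p.1)) (x, z) =
        2 ^ s * b z * ({x : ℝ | cel s x = cel s z.1}.indicator f x) := by
      intro x
      by_cases hz : cel s z.1 = cel s x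
      · rw [Set.indicator_of_mem (by exact hz), Set.indicator_of_mem (by exact hz.symm)]
        ring
      · rw [Set.indicator_of_notMem (by exact hz),
          Set.indicator_of_notMem (by exact fun h => hz h.symm), mul_zero]
    simp_rw [h1]
    rw [lintegral_const_mul _ (hf.indicator (measurableSet_cel s _)),
      lintegral_indicator (measurableSet_cel s _)]
    ring
  · apply Measurable.aemeasurable
    exact (measurable_const.mul ((hb.comp measurable_snd).mul (hf.comp measurable_fst))).indicator hA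

/-- integral of a cell coefficient over a coarser cell -/
theorem lint_eb_cell {b : ℝ × ℝ → ℝ≥0∞} (hb : Measurable b) {s i : ℕ} (h : s ≤ i) (m : ℤ) :
    ∫⁻ x in {x : ℝ | cel s x = m}, eb b i (cel i x) = ∫⁻ z in {z : ℝ × ℝ | cel s z.1 = m}, b z := by
  have e1 : ∫⁻ x in {x : ℝ | cel s x = m}, eb b i (cel i x) =
      ∫⁻ x, eb b i (cel i x) * {x : ℝ | cel s x = m}.indicator 1 x := by
    rw [← lintegral_indicator (measurableSet_cel s m)]
    refine lintegral_congr fun x => ?_
    by_cases hx : cel s x = m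
    · rw [Set.indicator_of_mem (by exact hx), Set.indicator_of_mem (by exact hx)]; simp
    · rw [Set.indicator_of_notMem (by exact hx), Set.indicator_of_notMem (by exact hx)]; simp
  rw [e1, lint_eb_mul hb i (measurable_one.indicator (measurableSet_cel s m)),
    ← lintegral_indicator (measurableSet_cel2 s m)]
  refine lintegral_congr fun z => ?_
  by_cases hz : cel s z.1 = m
  · rw [Set.indicator_of_mem (by exact hz)]
    have : ∫⁻ x in {x : ℝ | cel i x = cel i z.1}, {x : ℝ | cel s x = m}.indicator (1 : ℝ → ℝ≥0∞) x =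
        volume {x : ℝ | cel i x = cel i z.1} := by
      rw [setLIntegral_congr_fun (measurableSet_cel i _) (g := fun _ => 1)]
      · simp
      · intro x hx
        rw [Set.indicator_of_mem]
        · simp
        · show cel s x = m
          rw [cel_mono h hx, hz]
    rw [this, two_pow_mul_volume, mul_one]
  · rw [Set.indicator_of_notMem (by exact hz)]
    have : ∫⁻ x in {x : ℝ | cel i x = cel i z.1}, {x : ℝ | cel s x = m}.indicator (1 : ℝ → ℝ≥0∞) x =
        0 := by
      rw [setLIntegral_congr_fun (measurableSet_cel i _) (g := fun _ => 0)]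
      · simp
      · intro x hx
        rw [Set.indicator_of_notMem]
        show ¬ cel s x = m
        rw [cel_mono h hx]
        exact hz
    rw [this]
    simp

/-- square of a finite nonnegative sum -/
theorem sq_sum_le (c : ℕ → ℝ≥0∞) (s0 S : ℕ) :
    (∑ i ∈ Finset.Ico s0 S, c i) ^ 2 ≤
      2 * ∑ s ∈ Finset.Ico s0 S, c s * ∑ i ∈ Finset.Ico s S, c i := by
  induction S with
  | zero => simp
  | succ S ih =>
    rcases Nat.lt_or_ge S s0 with h | h
    · have : Finset.Ico s0 (S + 1) = ∅ := by ext; simp; omega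
      rw [this]; simp
    · rw [Finset.sum_Ico_succ_top h, Finset.sum_Ico_succ_top h]
      have h1 : ∀ s ∈ Finset.Ico s0 S, c s * ∑ i ∈ Finset.Ico s (S + 1), c i =
          c s * (∑ i ∈ Finset.Ico s S, c i) + c s * c S := by
        intro s hs
        rw [Finset.mem_Ico] at hs
        rw [Finset.sum_Ico_succ_top hs.2.le, mul_add]
      rw [Finset.sum_congr rfl h1, Finset.sum_add_distrib, ← Finset.sum_mul]
      have h2 : ∑ i ∈ Finset.Ico S (S + 1), c i = c S := by simp
      rw [h2]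
      calc (∑ i ∈ Finset.Ico s0 S, c i + c S) ^ 2
          = (∑ i ∈ Finset.Ico s0 S, c i) ^ 2 + 2 * ((∑ i ∈ Finset.Ico s0 S, c i) * c S)
            + c S * c S := by ring
        _ ≤ 2 * (∑ s ∈ Finset.Ico s0 S, c s * ∑ i ∈ Finset.Ico s S, c i)
            + 2 * ((∑ i ∈ Finset.Ico s0 S, c i) * c S) + 2 * (c S * c S) := by
            have h5 : c S * c S ≤ 2 * (c S * c S) := by
              calc c S * c S = 1 * (c S * c S) := (one_mul _).symm
                _ ≤ 2 * (c S * c S) := by gcongr; norm_num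
            exact add_le_add (add_le_add ih le_rfl) h5
        _ = _ := by ring

/-- **positive Carleson embedding** -/
theorem carl {b : ℕ → ℝ × ℝ → ℝ≥0∞} (hb : ∀ i, Measurable (b i)) (s0 S : ℕ) (m0 : ℤ) (Θ : ℝ≥0∞)
    (hpack : ∀ s m, s0 ≤ s → s < S →
      ∑ i ∈ Finset.Ico s S, ∫⁻ z in {z : ℝ × ℝ | cel s z.1 = m}, b i z ≤
        Θ * ENNReal.ofReal ((1 / 2) ^ s)) :
    ∫⁻ x in {x : ℝ | cel s0 x = m0}, (ES b s0 S x) ^ 2 ≤
      2 * Θ ^ 2 * ENNReal.ofReal ((1 / 2) ^ s0) := by
  rcases Nat.lt_or_ge s0 S with hlt | hge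
  swap
  · have : ∀ x, ES b s0 S x = 0 := by
      intro x
      rw [ES, Finset.Ico_eq_empty (by omega), Finset.sum_empty]
    simp [this]
  -- the tail sums
  set T : ℕ → ℝ → ℝ≥0∞ := fun s x => ∑ i ∈ Finset.Ico s S, eb (b i) i (cel i x) with hT
  have hTm : ∀ s, Measurable (T s) := fun s => Finset.measurable_sum _ fun i _ => measurable_eb (b i) i
  have hTcell : ∀ s m, s0 ≤ s → s < S →
      ∫⁻ x in {x : ℝ | cel s x = m}, T s x ≤ Θ * ENNReal.ofReal ((1 / 2) ^ s) := by
    intro s m h0 h1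
    rw [lintegral_finsetSum _ fun i _ => measurable_eb (b i) i]
    refine le_trans (le_of_eq (Finset.sum_congr rfl fun i hi => ?_)) (hpack s m h0 h1)
    rw [Finset.mem_Ico] at hi
    exact lint_eb_cell (hb i) hi.1 m
  set X : Set ℝ := {x : ℝ | cel s0 x = m0} with hX
  have hXm : MeasurableSet X := measurableSet_cel s0 m0
  -- one scale
  have h1 : ∀ s, s0 ≤ s → s < S → ∫⁻ x in X, eb (b s) s (cel s x) * T s x ≤
      Θ * ∫⁻ x in X, eb (b s) s (cel s x) := by
    intro s hs0 hsS
    have e1 : ∫⁻ x in X, eb (b s) s (cel s x) * T s x =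
        ∫⁻ x, eb (b s) s (cel s x) * X.indicator (T s) x := by
      rw [← lintegral_indicator hXm]
      refine lintegral_congr fun x => ?_
      by_cases hx : x ∈ X
      · rw [Set.indicator_of_mem hx, Set.indicator_of_mem hx]
      · rw [Set.indicator_of_notMem hx, Set.indicator_of_notMem hx, mul_zero]
    rw [e1, lint_eb_mul (hb s) s ((hTm s).indicator hXm), hX, lint_eb_cell (hb s) hs0 m0,
      ← lintegral_indicator (measurableSet_cel2 s0 m0),
      ← lintegral_const_mul _ ((hb s).indicator (measurableSet_cel2 s0 m0))]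
    refine lintegral_mono fun z => ?_
    by_cases hz : cel s0 z.1 = m0
    · rw [Set.indicator_of_mem (by exact hz), mul_comm Θ]
      have h2 : ∫⁻ x in {x : ℝ | cel s x = cel s z.1}, X.indicator (T s) x ≤
          Θ * ENNReal.ofReal ((1 / 2) ^ s) :=
        (lintegral_mono fun x => Set.indicator_le_self _ _ _).trans (hTcell s _ hs0 hsS)
      have h3 : 2 ^ s * ∫⁻ x in {x : ℝ | cel s x = cel s z.1}, X.indicator (T s) x ≤ Θ := by
        calc 2 ^ s * ∫⁻ x in {x : ℝ | cel s x = cel s z.1}, X.indicator (T s) x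
            ≤ 2 ^ s * (Θ * ENNReal.ofReal ((1 / 2) ^ s)) := by gcongr
          _ = Θ * (2 ^ s * volume {x : ℝ | cel s x = 0}) := by rw [volume_cel]; ring
          _ = Θ := by rw [two_pow_mul_volume, mul_one]
      gcongr
    · have h2 : ∫⁻ x in {x : ℝ | cel s x = cel s z.1}, X.indicator (T s) x = 0 := by
        rw [setLIntegral_congr_fun (measurableSet_cel s _) (g := fun _ => 0)]
        · simp
        · intro x hx
          rw [Set.indicator_of_notMem]
          show ¬ cel s0 x = m0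
          rw [cel_mono hs0 hx]
          exact hz
      rw [h2]
      simp
  calc ∫⁻ x in X, (ES b s0 S x) ^ 2
      ≤ ∫⁻ x in X, 2 * ∑ s ∈ Finset.Ico s0 S, eb (b s) s (cel s x) * T s x :=
        lintegral_mono fun x => sq_sum_le (fun i => eb (b i) i (cel i x)) s0 S
    _ = 2 * ∑ s ∈ Finset.Ico s0 S, ∫⁻ x in X, eb (b s) s (cel s x) * T s x := by
        rw [lintegral_const_mul, lintegral_finsetSum]
        · exact fun s _ => (measurable_eb (b s) s).mul (hTm s)
        · exact Finset.measurable_sum _ fun s _ => (measurable_eb (b s) s).mul (hTm s)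
    _ ≤ 2 * ∑ s ∈ Finset.Ico s0 S, Θ * ∫⁻ x in X, eb (b s) s (cel s x) := by
        have h2 : ∀ s ∈ Finset.Ico s0 S, ∫⁻ x in X, eb (b s) s (cel s x) * T s x ≤
            Θ * ∫⁻ x in X, eb (b s) s (cel s x) := by
          intro s hs
          rw [Finset.mem_Ico] at hs
          exact h1 s hs.1 hs.2
        have h3 := Finset.sum_le_sum h2
        gcongr
    _ = 2 * Θ * ∫⁻ x in X, T s0 x := by
        rw [← Finset.mul_sum, lintegral_finsetSum _ fun i _ => measurable_eb (b i) i, mul_assoc]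
    _ ≤ 2 * Θ * (Θ * ENNReal.ofReal ((1 / 2) ^ s0)) := by
        have h2 := hTcell s0 m0 le_rfl hlt
        gcongr
    _ = 2 * Θ ^ 2 * ENNReal.ofReal ((1 / 2) ^ s0) := by ring

/-- real cell coefficient of a nonnegative function -/
def rb (b : ℝ × ℝ → ℝ) (s : ℕ) (m : ℤ) : ℝ := 2 ^ s * ∫ z in {z : ℝ × ℝ | cel s z.1 = m}, b z

/-- real positive Carleson sum -/
def RS (b : ℕ → ℝ × ℝ → ℝ) (s0 s : ℕ) (x : ℝ) : ℝ :=
  ∑ i ∈ Finset.Ico s0 s, rb (b i) i (cel i x)

theorem measurable_rb (b : ℝ × ℝ → ℝ) (s : ℕ) : Measurable fun x => rb b s (cel s x) :=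
  (measurable_of_countable (rb b s)).comp (measurable_cel s)

theorem measurable_RS (b : ℕ → ℝ × ℝ → ℝ) (s0 s : ℕ) : Measurable (RS b s0 s) :=
  Finset.measurable_sum _ fun i _ => measurable_rb (b i) i

theorem rb_nonneg {b : ℝ × ℝ → ℝ} (hb : ∀ z, 0 ≤ b z) (s : ℕ) (m : ℤ) : 0 ≤ rb b s m :=
  mul_nonneg (by positivity) (integral_nonneg fun z => hb z)

theorem RS_nonneg {b : ℕ → ℝ × ℝ → ℝ} (hb : ∀ i z, 0 ≤ b i z) (s0 s : ℕ) (x : ℝ) : 0 ≤ RS b s0 s x :=
  Finset.sum_nonneg fun i _ => rb_nonneg (hb i) i _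

theorem ofReal_rb {b : ℝ × ℝ → ℝ} (hb0 : ∀ z, 0 ≤ b z) (hi : Integrable b) (s : ℕ) (m : ℤ) :
    ENNReal.ofReal (rb b s m) = eb (fun z => ENNReal.ofReal (b z)) s m := by
  rw [rb, eb, ENNReal.ofReal_mul (by positivity), ENNReal.ofReal_pow (by norm_num),
    ofReal_integral_eq_lintegral_ofReal hi.integrableOn (Filter.Eventually.of_forall fun z => hb0 z)]
  simp

theorem ofReal_RS {b : ℕ → ℝ × ℝ → ℝ} (hb0 : ∀ i z, 0 ≤ b i z) (hi : ∀ i, Integrable (b i))
    (s0 s : ℕ) (x : ℝ) :
    ENNReal.ofReal (RS b s0 s x) = ES (fun i z => ENNReal.ofReal (b i z)) s0 s x := by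
  rw [RS, ES, ENNReal.ofReal_sum_of_nonneg fun i _ => rb_nonneg (hb0 i) i _]
  exact Finset.sum_congr rfl fun i _ => ofReal_rb (hb0 i) (hi i) i _

/-- **T2c**: positive Carleson sums along a tree. `b i z` lives on the population `Z` and on the
active scales, `∑_i b i z ≤ a`; then `∫ (∑ ...)² ≤ 2 (a D)² |I|`. -/
theorem tree_RS {S s0 : ℕ} {m0 : ℤ} {h : ℝ × ℝ → ℝ} {act : ℕ → Set (ℝ × ℝ)} {Z : Set (ℝ × ℝ)}
    {H D : ℝ} (ht : Tree S s0 m0 h act Z H D) {b : ℕ → ℝ × ℝ → ℝ} (hbm : ∀ i, Measurable (b i))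
    (hb0 : ∀ i z, 0 ≤ b i z) (hbZ : ∀ i z, b i z ≠ 0 → z ∈ Z ∧ z ∈ act i) {a : ℝ}
    (ha : ∀ z, ∑ i ∈ Finset.Ico s0 S, b i z ≤ a) :
    ∫ x, (RS b s0 S x) ^ 2 ≤ 2 * (a * D) ^ 2 * (1 / 2) ^ s0 := by
  have hD := ht.D0
  -- `b i` vanishes outside the relevant scales
  have hout : ∀ i z, b i z ≠ 0 → s0 ≤ i ∧ i < S := by
    intro i z hz
    obtain ⟨h1, h2⟩ := hbZ i z hz
    refine ⟨?_, ?_⟩
    · by_contra hc
      exact Set.disjoint_left.1 (ht.lo i (by omega)) h2 h1
    · by_contra hc
      exact Set.disjoint_left.1 (ht.hi i (by omega)) h2 h1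
  have hba : ∀ i z, b i z ≤ max a 0 := by
    intro i z
    by_cases hz : b i z = 0
    · rw [hz]; exact le_max_right _ _
    · obtain ⟨h1, h2⟩ := hout i z hz
      exact ((Finset.single_le_sum (f := fun i => b i z) (fun j _ => hb0 j z)
        (Finset.mem_Ico.2 ⟨h1, h2⟩)).trans (ha z)).trans (le_max_left _ _)
  have hint : ∀ i, Integrable (b i) := by
    intro i
    by_cases hz : ∃ z, b i z ≠ 0
    · obtain ⟨z0, hz0⟩ := hz
      obtain ⟨h1, h2⟩ := hbZ i z0 hz0
      have h3 := ht.dens z0 h1 s0 le_rfl ⟨i, (hout i z0 hz0).1, h2⟩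
      have h4 : Z ∩ {w : ℝ × ℝ | cel s0 w.1 = cel s0 z0.1} = Z := by
        rw [Set.inter_eq_left]
        intro w hw
        show cel s0 w.1 = cel s0 z0.1
        rw [ht.top w hw, ht.top z0 h1]
      rw [h4] at h3
      have h5 : volume Z ≠ ⊤ := ne_top_of_le_ne_top ENNReal.ofReal_ne_top h3
      have h6 : Integrable (Z.indicator fun _ : ℝ × ℝ => max a 0) :=
        (integrable_indicator_iff ht.mZ).2 (integrableOn_const h5)
      refine h6.mono' (hbm i).aestronglyMeasurable (Filter.Eventually.of_forall fun z => ?_)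
      rw [Real.norm_of_nonneg (hb0 i z)]
      by_cases hz : b i z = 0
      · rw [hz]
        exact Set.indicator_nonneg (fun _ _ => le_max_right _ _) z
      · rw [Set.indicator_of_mem (hbZ i z hz).1]
        exact hba i z
    · push Not at hz
      have : b i = fun _ => 0 := funext hz
      rw [this]
      exact integrable_zero _ _ _
  -- the packing condition
  have hpack : ∀ s m, s0 ≤ s → s < S →
      ∑ i ∈ Finset.Ico s S, ∫⁻ z in {z : ℝ × ℝ | cel s z.1 = m}, ENNReal.ofReal (b i z) ≤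
        ENNReal.ofReal (a * D) * ENNReal.ofReal ((1 / 2) ^ s) := by
    intro s m hs0 hsS
    rw [← lintegral_finsetSum _ fun i _ => (hbm i).ennreal_ofReal]
    by_cases hex : ∃ z ∈ Z, cel s z.1 = m ∧ ∃ s', s ≤ s' ∧ z ∈ act s'
    · obtain ⟨z0, hz0, hc0, s', hs', hact⟩ := hex
      have h3 := ht.dens z0 hz0 s hs0 ⟨s', hs', hact⟩
      have ha0 : 0 ≤ a := (Finset.sum_nonneg fun i _ => hb0 i z0).trans (ha z0)
      calc ∫⁻ z in {z : ℝ × ℝ | cel s z.1 = m}, ∑ i ∈ Finset.Ico s S, ENNReal.ofReal (b i z)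
          ≤ ∫⁻ z in {z : ℝ × ℝ | cel s z.1 = m}, Z.indicator (fun _ => ENNReal.ofReal a) z := by
            refine lintegral_mono fun z => ?_
            rw [← ENNReal.ofReal_sum_of_nonneg fun i _ => hb0 i z]
            by_cases hz : z ∈ Z
            · rw [Set.indicator_of_mem hz]
              refine ENNReal.ofReal_le_ofReal (le_trans ?_ (ha z))
              exact Finset.sum_le_sum_of_subset_of_nonneg
                (Finset.Ico_subset_Ico hs0 le_rfl) fun i _ _ => hb0 i z
            · rw [Set.indicator_of_notMem hz]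
              have : ∑ i ∈ Finset.Ico s S, b i z = 0 := by
                refine Finset.sum_eq_zero fun i _ => ?_
                by_contra hne
                exact hz (hbZ i z hne).1
              rw [this]; simp
        _ = ENNReal.ofReal a * volume (Z ∩ {w : ℝ × ℝ | cel s w.1 = cel s z0.1}) := by
            rw [lintegral_indicator ht.mZ, setLIntegral_const,
              Measure.restrict_apply ht.mZ, hc0]
        _ ≤ ENNReal.ofReal a * ENNReal.ofReal (D * (1 / 2) ^ s) := by gcongr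
        _ = ENNReal.ofReal (a * D) * ENNReal.ofReal ((1 / 2) ^ s) := by
            rw [← ENNReal.ofReal_mul ha0, ← ENNReal.ofReal_mul (mul_nonneg ha0 hD)]
            congr 1; ring
    · have : ∫⁻ z in {z : ℝ × ℝ | cel s z.1 = m}, ∑ i ∈ Finset.Ico s S, ENNReal.ofReal (b i z) = 0 := by
        rw [setLIntegral_congr_fun (measurableSet_cel2 s m) (g := fun _ => 0)]
        · simp
        · intro z hz
          refine Finset.sum_eq_zero fun i hi => ?_
          rw [Finset.mem_Ico] at hi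
          by_contra hne
          have hne' : b i z ≠ 0 := by
            intro h0
            rw [h0] at hne
            simp at hne
          obtain ⟨h1, h2⟩ := hbZ i z hne'
          exact hex ⟨z, h1, hz, i, hi.1, h2⟩
      rw [this]
      exact bot_le
  have hmain := carl (b := fun i z => ENNReal.ofReal (b i z)) (fun i => (hbm i).ennreal_ofReal)
    s0 S m0 (ENNReal.ofReal (a * D)) hpack
  -- `RS` lives on the top cell
  have hsupp : ∀ x, cel s0 x ≠ m0 → RS b s0 S x = 0 := by
    intro x hx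
    refine Finset.sum_eq_zero fun i hi => ?_
    rw [Finset.mem_Ico] at hi
    rw [rb, setIntegral_congr_fun (measurableSet_cel2 i _) (g := fun _ => 0)]
    · simp
    · intro z hz
      by_contra hne
      obtain ⟨h1, h2⟩ := hbZ i z hne
      apply hx
      rw [← ht.top z h1]
      exact (cel_mono hi.1 hz).symm
  have hle : ∫⁻ x, ENNReal.ofReal ((RS b s0 S x) ^ 2) ≤
      2 * ENNReal.ofReal (a * D) ^ 2 * ENNReal.ofReal ((1 / 2) ^ s0) := by
    refine le_trans (le_of_eq ?_) hmain
    rw [← lintegral_indicator (measurableSet_cel s0 m0)]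
    refine lintegral_congr fun x => ?_
    by_cases hx : cel s0 x = m0
    · rw [Set.indicator_of_mem (by exact hx), ← ofReal_RS hb0 hint,
        ENNReal.ofReal_pow (RS_nonneg hb0 _ _ _)]
    · rw [Set.indicator_of_notMem (by exact hx), hsupp x hx]
      simp
  rcases le_or_gt 0 a with ha0 | ha0
  · have h1 : (2 : ℝ≥0∞) * ENNReal.ofReal (a * D) ^ 2 * ENNReal.ofReal ((1 / 2) ^ s0) =
        ENNReal.ofReal (2 * (a * D) ^ 2 * (1 / 2) ^ s0) := by
      have h2 : (2 : ℝ≥0∞) = ENNReal.ofReal 2 := by simp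
      rw [h2, ← ENNReal.ofReal_pow (mul_nonneg ha0 hD), ← ENNReal.ofReal_mul (by norm_num),
        ← ENNReal.ofReal_mul (by positivity)]
    rw [h1] at hle
    rw [integral_eq_lintegral_of_nonneg_ae (Filter.Eventually.of_forall fun x => sq_nonneg _)
      ((measurable_RS b s0 S).pow_const 2).aestronglyMeasurable]
    exact ENNReal.toReal_le_of_le_ofReal (by positivity) hle
  · have h0 : ∀ x, RS b s0 S x = 0 := by
      intro x
      exact absurd ((Finset.sum_nonneg fun i _ => hb0 i (0, 0)).trans (ha (0, 0))) (not_le.2 ha0)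
    simp only [h0]
    simp
    positivity

end Crest.Agent.R087.Carpx929
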