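import Crest.Agent.R087.OPdef_799

/-!
Row 87 (S0115), operator part: interval truncations (`Ch`) are stable under cutting by a property
`P s z` which is increasing in the scale `s` (helper70).

* `up`   : keep the scales with `P s z`;
* `down` : keep the scales without `P s z`.
-/

set_option autoImplicit false

noncomputable section

open MeasureTheory Crest.Agent.R087.Sh0x283 Crest.Agent.R087.GateDefx273 Crest.Agent.R087.OPdefx799

namespace Crest.Agent.R087.ChIx70

open Classical in
/-- first scale with `P` (junk `0` if there is none) -/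
def fst (P : ℕ → ℝ × ℝ → Prop) (z : ℝ × ℝ) : ℕ :=
  if h : ∃ s, P s z then Nat.find h else 0

theorem fst_spec {P : ℕ → ℝ × ℝ → Prop} {z : ℝ × ℝ} (h : ∃ s, P s z) : P (fst P z) z := by
  classical
  unfold fst
  rw [dif_pos h]
  exact Nat.find_spec h

theorem fst_le {P : ℕ → ℝ × ℝ → Prop} {z : ℝ × ℝ} {s : ℕ} (h : P s z) : fst P z ≤ s := by
  classical
  unfold fst
  rw [dif_pos ⟨s, h⟩]
  exact Nat.find_min' _ h

theorem mono_le {P : ℕ → ℝ × ℝ → Prop} (hP : ∀ s z, P s z → P (s + 1) z) {s t : ℕ} (h : s ≤ t)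
    {z : ℝ × ℝ} (hz : P s z) : P t z := by
  induction t, h using Nat.le_induction with
  | base => exact hz
  | succ t _ ih => exact hP t z ih

/-- for an increasing property, `P s z` holds iff `fst P z ≤ s` -/
theorem iff_le {P : ℕ → ℝ × ℝ → Prop} (hP : ∀ s z, P s z → P (s + 1) z) {z : ℝ × ℝ}
    (h : ∃ s, P s z) (s : ℕ) : P s z ↔ fst P z ≤ s :=
  ⟨fst_le, fun h1 => mono_le hP h1 (fst_spec h)⟩

theorem measurable_fst {P : ℕ → ℝ × ℝ → Prop} (hm : ∀ s, MeasurableSet {z | P s z}) :
    Measurable (fst P) := by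
  classical
  have h0 : MeasurableSet {z | ∃ s, P s z} := by
    have : {z : ℝ × ℝ | ∃ s, P s z} = ⋃ s, {z | P s z} := by ext z; simp
    rw [this]; exact MeasurableSet.iUnion hm
  refine measurable_to_countable' (fun n => ?_)
  have h1 : fst P ⁻¹' {n} = ({z | ∃ s, P s z} ∩ ({z | P n z} ∩ ⋂ m ∈ Finset.range n, {z | P m z}ᶜ)) ∪
      ({z | ∃ s, P s z}ᶜ ∩ {z | n = 0}) := by
    ext z
    simp only [Set.mem_preimage, Set.mem_singleton_iff, Set.mem_union, Set.mem_inter_iff,
      Set.mem_ofPred_eq, Set.mem_iInter, Finset.mem_range, Set.mem_compl_iff]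
    constructor
    · intro h
      by_cases hz : ∃ s, P s z
      · left
        refine ⟨hz, ?_, ?_⟩
        · rw [← h]; exact fst_spec hz
        · intro m hm h2
          have := fst_le h2
          omega
      · right
        refine ⟨hz, ?_⟩
        rw [← h]
        unfold fst
        rw [dif_neg hz]
    · rintro (⟨h1, h2, h3⟩ | ⟨h1, h2⟩)
      · apply le_antisymm (fst_le h2)
        by_contra hlt
        push Not at hlt
        exact h3 _ hlt (fst_spec h1)
      · unfold fst
        rw [dif_neg h1, h2]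
  rw [h1]
  refine MeasurableSet.union (h0.inter ((hm n).inter ?_)) (h0.compl.inter (MeasurableSet.const _))
  exact Finset.measurableSet_biInter _ (fun m _ => (hm m).compl)

open Classical in
/-- keep the scales with `P` -/
theorem up {h : ℝ × ℝ → ℝ} {H : ℕ → ℝ × ℝ → ℝ} (hH : Ch h H) {P : ℕ → ℝ × ℝ → Prop}
    (hP : ∀ s z, P s z → P (s + 1) z) (hm : ∀ s, MeasurableSet {z | P s z}) :
    Ch h (fun s z => if P s z then H s z else 0) := by
  obtain ⟨lo, hi, h1, h2, h3⟩ := hH
  have h0 : MeasurableSet {z | ∃ s, P s z} := by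
    have : {z : ℝ × ℝ | ∃ s, P s z} = ⋃ s, {z | P s z} := by ext z; simp
    rw [this]; exact MeasurableSet.iUnion hm
  refine ⟨fun z => max (lo z) (fst P z), fun z => if ∃ s, P s z then hi z else 0,
    h1.max (measurable_fst hm), Measurable.ite h0 h2 measurable_const, fun s z => ?_⟩
  simp only [h3]
  by_cases hz : ∃ s, P s z
  · have e1 : (if ∃ s, P s z then hi z else 0) = hi z := if_pos hz
    simp only [e1]
    have := iff_le hP hz s
    by_cases h4 : P s z
    · rw [if_pos h4]
      have h5 := this.1 h4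
      refine if_congr ?_ rfl rfl
      constructor
      · rintro ⟨a, b⟩; exact ⟨max_le a h5, b⟩
      · rintro ⟨a, b⟩; exact ⟨(le_max_left _ _).trans a, b⟩
    · rw [if_neg h4, if_neg]
      rintro ⟨a, b⟩
      exact h4 (this.2 ((le_max_right _ _).trans a))
  · have e1 : (if ∃ s, P s z then hi z else 0) = 0 := if_neg hz
    simp only [e1]
    rw [if_neg (fun h4 => hz ⟨s, h4⟩), if_neg]
    rintro ⟨a, b⟩
    omega

open Classical in
/-- keep the scales without `P` -/
theorem down {h : ℝ × ℝ → ℝ} {H : ℕ → ℝ × ℝ → ℝ} (hH : Ch h H) {P : ℕ → ℝ × ℝ → Prop}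
    (hP : ∀ s z, P s z → P (s + 1) z) (hm : ∀ s, MeasurableSet {z | P s z}) :
    Ch h (fun s z => if P s z then 0 else H s z) := by
  obtain ⟨lo, hi, h1, h2, h3⟩ := hH
  have h0 : MeasurableSet {z | ∃ s, P s z} := by
    have : {z : ℝ × ℝ | ∃ s, P s z} = ⋃ s, {z | P s z} := by ext z; simp
    rw [this]; exact MeasurableSet.iUnion hm
  refine ⟨lo, fun z => if ∃ s, P s z then min (hi z) (fst P z) else hi z,
    h1, Measurable.ite h0 (h2.min (measurable_fst hm)) h2, fun s z => ?_⟩
  simp only [h3]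
  by_cases hz : ∃ s, P s z
  · have e1 : (if ∃ s, P s z then min (hi z) (fst P z) else hi z) = min (hi z) (fst P z) := if_pos hz
    simp only [e1]
    have := iff_le hP hz s
    by_cases h4 : P s z
    · rw [if_pos h4, if_neg]
      rintro ⟨a, b⟩
      have h5 := this.1 h4
      have := min_le_right (hi z) (fst P z)
      omega
    · rw [if_neg h4]
      have h5 : s < fst P z := by
        by_contra h6
        exact h4 (this.2 (not_lt.1 h6))
      refine if_congr ?_ rfl rfl
      constructor
      · rintro ⟨a, b⟩; exact ⟨a, lt_min b h5⟩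
      · rintro ⟨a, b⟩; exact ⟨a, b.trans_le (min_le_left _ _)⟩
  · have e1 : (if ∃ s, P s z then min (hi z) (fst P z) else hi z) = hi z := if_neg hz
    simp only [e1]
    rw [if_neg (fun h4 => hz ⟨s, h4⟩)]

/-- change the base function on a measurable set of points -/
theorem restr {h : ℝ × ℝ → ℝ} {H : ℕ → ℝ × ℝ → ℝ} (hH : Ch h H) (Z : Set (ℝ × ℝ)) :
    Ch (Z.indicator h) (fun s => Z.indicator (H s)) := by
  classical
  obtain ⟨lo, hi, h1, h2, h3⟩ := hH
  refine ⟨lo, hi, h1, h2, fun s z => ?_⟩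
  by_cases hz : z ∈ Z
  · simp only [Set.indicator_of_mem hz, h3]
  · simp only [Set.indicator_of_notMem hz, ite_self]

/-- the value of a truncation is `0` or the value of the function -/
theorem val {h : ℝ × ℝ → ℝ} {H : ℕ → ℝ × ℝ → ℝ} (hH : Ch h H) (s : ℕ) (z : ℝ × ℝ) :
    H s z = 0 ∨ H s z = h z := by
  obtain ⟨lo, hi, h1, h2, h3⟩ := hH
  rw [h3]
  split_ifs
  · exact Or.inr rfl
  · exact Or.inl rfl

theorem meas {h : ℝ × ℝ → ℝ} {H : ℕ → ℝ × ℝ → ℝ} (hH : Ch h H) (hh : Measurable h) (s : ℕ) :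
    Measurable (H s) := by
  obtain ⟨lo, hi, h1, h2, h3⟩ := hH
  have : H s = fun z => if lo z ≤ s ∧ s < hi z then h z else 0 := funext (fun z => h3 s z)
  rw [this]
  refine Measurable.ite ?_ hh measurable_const
  exact (measurableSet_le h1 measurable_const).inter (measurableSet_lt measurable_const h2)

end Crest.Agent.R087.ChIx70
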