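import Crest.Agent.R087.OP0_270

/-!
Row 87 (S0115), operator part, leaf CLASSN (helper233): the chain of one class splits into one LOW
chain and `n + 7` one-scale TOP chains.
-/

set_option autoImplicit false

noncomputable section

open MeasureTheory

namespace Crest.Agent.R087.ClassNx233

open Crest.Agent.R087.Sh0x283 Crest.Agent.R087.E2x542 Crest.Agent.R087.E2Kx752
  Crest.Agent.R087.GateDefx273 Crest.Agent.R087.OP0x270

/-- larger Lipschitz constant -/
theorem fld_mono {c c' : ℝ} (h : c ≤ c') {U : ℝ × ℝ → ℝ} (hU : Fld c U) : Fld c' U :=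
  ⟨hU.1, hU.2.1, fun x y y' => (hU.2.2 x y y').trans (mul_le_mul_of_nonneg_right h (abs_nonneg _))⟩

theorem subC_mono {ζ ω : ℝ → ℝ} {U h : ℝ × ℝ → ℝ} {n : ℕ} {lo hi : ℝ × ℝ → ℕ} {Λ C C' : ℝ}
    (hΛ : 1 ≤ Λ) (hC : C ≤ C') (H : SubC ζ ω U h n lo hi Λ C) : SubC ζ ω U h n lo hi Λ C' := by
  obtain ⟨hi', h1, h2, h3, h4⟩ := H
  have h0 : 0 ≤ ∫ z, (h z) ^ 2 := integral_nonneg fun _ => sq_nonneg _
  have h5 : (0 : ℝ) ≤ (2 : ℝ) ^ (-(n : ℝ) / 4) := by positivity
  have h6 : (0 : ℝ) ≤ (1 / Λ) ^ 2 := by positivity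
  have h7 : (0 : ℝ) ≤ (n : ℝ) + 1 := by positivity
  refine ⟨hi', h1, h2, h3.trans ?_, h4.trans ?_⟩
  · refine mul_le_mul_of_nonneg_right ?_ h0
    refine mul_le_mul_of_nonneg_right ?_ h5
    exact mul_le_mul_of_nonneg_right hC (by linarith)
  · refine mul_le_mul_of_nonneg_right ?_ h0
    refine mul_le_mul_of_nonneg_right ?_ h6
    exact mul_le_mul_of_nonneg_right hC h7

theorem upp_scale {U h : ℝ × ℝ → ℝ} {A n : ℕ} {k : ℤ} {s t : ℕ} (hst : s ≤ t) {z : ℝ × ℝ}
    (hz : upp U h A n k t z) : upp U h A n k s z := by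
  intro i R h1 h2 h3 h4
  refine hz i R h1 (h2.trans hst) h3 ⟨h4.1, le_trans ?_ h4.2⟩
  have : (1 / 2 : ℝ) ^ t ≤ (1 / 2 : ℝ) ^ s := pow_le_pow_of_le_one (by norm_num) (by norm_num) hst
  exact mul_le_mul_of_nonneg_left this (abs_nonneg _)

theorem uppAt_sub {U h : ℝ × ℝ → ℝ} {A n : ℕ} {lo hi lo' hi' : ℝ × ℝ → ℕ}
    (H : UppAt U h A n lo hi) (hs : ∀ z, lo' z < hi' z → lo z < hi z ∧ hi' z ≤ hi z) :
    UppAt U h A n lo' hi' := by
  intro z hz h' k hk
  exact upp_scale (Nat.sub_le_sub_right (hs z h').2 1) (H z hz (hs z h').1 k hk)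

/-- slope of the top of a point -/
def sl {N : ℕ} (R : Fin N → Tube) (B : Fin N → Set (ℝ × ℝ)) (z : ℝ × ℝ) : ℝ :=
  ∑ m, (B m).indicator (fun _ => (R m).m) z

theorem sl_meas {N : ℕ} (R : Fin N → Tube) {B : Fin N → Set (ℝ × ℝ)}
    (hB : ∀ m, MeasurableSet (B m)) : Measurable (sl R B) := by
  unfold sl
  exact Finset.measurable_sum _ fun m _ => measurable_const.indicator (hB m)

theorem sl_eq {N : ℕ} (R : Fin N → Tube) {B : Fin N → Set (ℝ × ℝ)}
    (hd : Pairwise (Function.onFun Disjoint B)) {m : Fin N} {z : ℝ × ℝ} (hz : z ∈ B m) :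
    sl R B z = (R m).m := by
  unfold sl
  rw [Finset.sum_eq_single m]
  · simp [hz]
  · intro m' _ hm
    have : z ∉ B m' := fun h => Set.disjoint_left.1 (hd hm) h hz
    simp [this]
  · simp

/-- counting a decreasing predicate -/
theorem cnt_spec (p : ℕ → Prop) [DecidablePred p] (hp : ∀ s t, s ≤ t → p t → p s) (T : ℕ) :
    (∑ t ∈ Finset.range T, if p t then 1 else 0) ≤ T ∧
    ((∑ t ∈ Finset.range T, if p t then 1 else 0) < T →
      ¬ p (∑ t ∈ Finset.range T, if p t then 1 else 0)) := by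
  induction T with
  | zero => simp
  | succ T ih =>
    obtain ⟨h1, h2⟩ := ih
    rw [Finset.sum_range_succ]
    set c := ∑ t ∈ Finset.range T, if p t then 1 else 0 with hc
    by_cases hT : p T
    · have h3 : c = T := by
        rcases h1.lt_or_eq with h | h
        · exact absurd (hp _ _ h1 hT) (h2 h)
        · exact h
      simp [hT, h3]
    · simp only [hT, if_false, add_zero]
      refine ⟨by omega, fun h => ?_⟩
      rcases h1.lt_or_eq with h' | h'
      · exact h2 h'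
      · rw [h']; exact hT

/-- number of TOP scales -/
def cnt (T : ℕ) (U σ : ℝ × ℝ → ℝ) (lo : ℝ × ℝ → ℕ) (z : ℝ × ℝ) : ℕ :=
  ∑ t ∈ Finset.range T, if 1 < |U z - σ z| * (1 / 2 : ℝ) ^ (lo z + t) then 1 else 0

theorem cnt_meas (T : ℕ) {U σ : ℝ × ℝ → ℝ} {lo : ℝ × ℝ → ℕ} (hU : Measurable U)
    (hσ : Measurable σ) (hlo : Measurable lo) : Measurable (cnt T U σ lo) := by
  unfold cnt
  refine Finset.measurable_sum _ fun t _ => ?_
  refine Measurable.ite ?_ measurable_const measurable_const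
  refine measurableSet_lt measurable_const ?_
  refine Measurable.mul ?_ ?_
  · exact (hU.sub hσ).abs
  · exact (measurable_from_nat (f := fun n : ℕ => (1 / 2 : ℝ) ^ (n + t))).comp hlo

theorem cnt_le (T : ℕ) (U σ : ℝ × ℝ → ℝ) (lo : ℝ × ℝ → ℕ) (z : ℝ × ℝ) : cnt T U σ lo z ≤ T := by
  unfold cnt
  calc ∑ t ∈ Finset.range T, (if 1 < |U z - σ z| * (1 / 2 : ℝ) ^ (lo z + t) then 1 else 0)
      ≤ ∑ t ∈ Finset.range T, 1 := Finset.sum_le_sum fun t _ => by split_ifs <;> omega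
    _ = T := by simp

theorem cnt_low {T : ℕ} {U σ : ℝ × ℝ → ℝ} {lo : ℝ × ℝ → ℕ} {z : ℝ × ℝ}
    (h : |U z - σ z| * (1 / 2 : ℝ) ^ (lo z + T) ≤ 1) :
    |U z - σ z| * (1 / 2 : ℝ) ^ (lo z + cnt T U σ lo z) ≤ 1 := by
  have hp : ∀ s t : ℕ, s ≤ t → 1 < |U z - σ z| * (1 / 2 : ℝ) ^ (lo z + t) →
      1 < |U z - σ z| * (1 / 2 : ℝ) ^ (lo z + s) := by
    intro s t hst ht
    refine lt_of_lt_of_le ht ?_
    refine mul_le_mul_of_nonneg_left ?_ (abs_nonneg _)
    exact pow_le_pow_of_le_one (by norm_num) (by norm_num) (by omega)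
  have h1 := cnt_spec (fun t : ℕ => 1 < |U z - σ z| * (1 / 2 : ℝ) ^ (lo z + t)) hp T
  rcases h1.1.lt_or_eq with h2 | h2
  · exact not_lt.1 (h1.2 h2)
  · have h3 : cnt T U σ lo z = T := h2
    rw [h3]; exact h

/-- first LOW scale -/
def mid (T : ℕ) (U σ : ℝ × ℝ → ℝ) (lo hi : ℝ × ℝ → ℕ) (z : ℝ × ℝ) : ℕ :=
  min (hi z) (lo z + cnt T U σ lo z)

theorem mid_meas (T : ℕ) {U σ : ℝ × ℝ → ℝ} {lo hi : ℝ × ℝ → ℕ} (hU : Measurable U)
    (hσ : Measurable σ) (hlo : Measurable lo) (hhi : Measurable hi) :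
    Measurable (mid T U σ lo hi) := by
  unfold mid
  exact hhi.min (hlo.add (cnt_meas T hU hσ hlo))

/-- tops of the sub-chains -/
def lcc (T : ℕ) (U σ : ℝ × ℝ → ℝ) (lo hi : ℝ × ℝ → ℕ) (i : ℕ) (z : ℝ × ℝ) : ℕ :=
  if i = 0 then mid T U σ lo hi z else lo z + (i - 1)

/-- bottoms of the sub-chains -/
def hcc (T : ℕ) (U σ : ℝ × ℝ → ℝ) (lo hi : ℝ × ℝ → ℕ) (i : ℕ) (z : ℝ × ℝ) : ℕ :=
  if i = 0 then hi z else min (lo z + (i - 1) + 1) (mid T U σ lo hi z)

theorem range_split (lo m T : ℕ) (_h : lo ≤ m) (f : ℕ → ℝ) :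
    ∑ t ∈ Finset.range T, ∑ s ∈ Finset.Ico (lo + t) (min (lo + t + 1) m), f s =
      ∑ s ∈ Finset.Ico lo (min (lo + T) m), f s := by
  induction T with
  | zero => simp
  | succ T ih =>
    rw [Finset.sum_range_succ, ih]
    rcases lt_or_ge (lo + T) m with h1 | h1
    · rw [min_eq_left h1.le, min_eq_left (by omega : lo + T + 1 ≤ m),
        show lo + (T + 1) = lo + T + 1 by ring, min_eq_left (by omega : lo + T + 1 ≤ m)]
      exact Finset.sum_Ico_consecutive f (by omega) (by omega)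
    · rw [min_eq_right h1, min_eq_right (by omega : m ≤ lo + T + 1),
        min_eq_right (by omega : m ≤ lo + (T + 1)), Finset.Ico_eq_empty (by omega : ¬ lo + T < m)]
      simp

theorem split_sum (lo hi c T : ℕ) (hc : c ≤ T) (f : ℕ → ℝ) :
    ∑ s ∈ Finset.Ico lo hi, f s =
      (∑ t ∈ Finset.range T, ∑ s ∈ Finset.Ico (lo + t) (min (lo + t + 1) (min hi (lo + c))), f s) +
        ∑ s ∈ Finset.Ico (min hi (lo + c)) hi, f s := by
  rcases le_or_gt lo hi with h | h
  · rw [range_split lo _ T (le_min h (by omega)) f]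
    have h1 : min (lo + T) (min hi (lo + c)) = min hi (lo + c) :=
      min_eq_right ((min_le_right _ _).trans (by omega))
    rw [h1]
    exact (Finset.sum_Ico_consecutive f (le_min h (by omega)) (min_le_left _ _)).symm
  · have h1 : min hi (lo + c) = hi := min_eq_left (by omega)
    rw [h1, Finset.Ico_eq_empty (by omega : ¬ lo < hi), Finset.Ico_self]
    simp only [Finset.sum_empty, add_zero]
    refine (Finset.sum_eq_zero fun t _ => ?_).symm
    rw [min_eq_right (by omega : hi ≤ lo + t + 1), Finset.Ico_eq_empty (by omega : ¬ lo + t < hi)]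
    simp

theorem classn (ζ : ℝ → ℝ) (hT : TOPS) (hR : REMSUM) (hL : LOWN ζ) (hP : TOPN ζ) : CLASSN ζ := by
  obtain ⟨c1, hc1, C1, hC1, L⟩ := hL
  obtain ⟨c2, hc2, C2, hC2, P⟩ := hP
  refine ⟨min c1 c2, lt_min hc1 hc2, max C1 C2, le_max_of_le_left hC1, ?_⟩
  intro ω hω U h n S lo hi Λ hU hh hg hch hup hlow hΛ
  have hA : 2 ≤ AA := by unfold AA; norm_num
  obtain ⟨N, R, k, i, E, B, HT⟩ := hT AA n hA U h S lo hi hU.1 hh hg hch hlow
  obtain ⟨hi1, -⟩ := hR n U h lo hi hU.1 hh N R k i E B HT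
  have hin : ∀ m, i m ≤ n + 1 := by
    intro m
    have h1 := hi1 m
    have h2 : 1 ≤ AA - 1 := by unfold AA; norm_num
    calc i m = 1 * i m := (one_mul _).symm
      _ ≤ (AA - 1) * i m := Nat.mul_le_mul_right _ h2
      _ ≤ n + 1 := h1
  set σ := sl R B with hσ
  have hσm : Measurable σ := sl_meas R HT.mB
  set T := n + 7 with hTn
  -- the first low scale
  have hlow1 : ∀ m, ∀ z ∈ B m, lo z < hi z →
      |U z - (R m).m| * (1 / 2 : ℝ) ^ (lo z + cnt T U σ lo z) ≤ 1 := by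
    intro m z hz hlt
    have e : σ z = (R m).m := sl_eq R HT.disB hz
    have h1 : |U z - σ z| * (1 / 2 : ℝ) ^ (lo z + T) ≤ 1 := by
      rw [e, pow_add, ← mul_assoc]
      have h2 := (HT.top m z hz hlt).2.2.2
      have h3 : (2 : ℝ) ^ i m ≤ 2 ^ (n + 1) := pow_le_pow_right₀ (by norm_num) (hin m)
      have h4 : (0 : ℝ) < (1 / 2 : ℝ) ^ T := by positivity
      have h5 : (5 * 2 ^ (n + 1) : ℝ) * (1 / 2 : ℝ) ^ T ≤ 1 := by
        rw [hTn, show n + 7 = (n + 1) + 6 by ring, pow_add (1 / 2 : ℝ) (n + 1) 6, ← mul_assoc,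
          mul_assoc 5 ((2 : ℝ) ^ (n + 1)), ← mul_pow]
        norm_num
      calc |U z - (R m).m| * (1 / 2 : ℝ) ^ lo z * (1 / 2 : ℝ) ^ T
          ≤ (5 * 2 ^ i m) * (1 / 2 : ℝ) ^ T := mul_le_mul_of_nonneg_right h2 h4.le
        _ ≤ (5 * 2 ^ (n + 1)) * (1 / 2 : ℝ) ^ T :=
            mul_le_mul_of_nonneg_right (by linarith) h4.le
        _ ≤ 1 := h5
    have h6 := cnt_low h1
    rwa [e] at h6
  refine ⟨lcc T U σ lo hi, hcc T U σ lo hi, ?_, ?_⟩
  · intro j
    rcases Nat.eq_zero_or_pos j with hj | hj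
    · subst hj
      have e1 : lcc T U σ lo hi 0 = mid T U σ lo hi := by funext z; simp [lcc]
      have e2 : hcc T U σ lo hi 0 = hi := by funext z; simp [hcc]
      rw [e1, e2]
      have hsub : ∀ z, mid T U σ lo hi z < hi z → lo z ≤ mid T U σ lo hi z ∧ lo z < hi z := by
        intro z hz
        unfold mid at hz ⊢
        rcases min_lt_iff.1 hz with h1 | h1
        · omega
        · have : lo z < hi z := by omega
          exact ⟨le_min this.le (by omega), this⟩
      have hchm : Chain S (mid T U σ lo hi) hi := ⟨mid_meas T hU.1 hσm hch.1 hch.2.1, hch.2.1, hch.2.2⟩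
      refine ⟨hchm, ?_⟩
      refine subC_mono hΛ (le_max_left _ _) ?_
      refine L ω hω U h n S _ hi Λ (fld_mono (min_le_left _ _) hU) hh hchm
        (uppAt_sub hup fun z hz => ⟨(hsub z hz).2, le_rfl⟩) hΛ N R k i E B (HT.sub hsub) ?_
      intro m z hz hlt
      have h1 : mid T U σ lo hi z = lo z + cnt T U σ lo z := by
        unfold mid at hlt ⊢
        rcases min_lt_iff.1 hlt with h1 | h1
        · omega
        · exact min_eq_right h1.le
      rw [h1]
      exact hlow1 m z hz (hsub z hlt).2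
    · have hj' : j ≠ 0 := by omega
      have e1 : ∀ z, lcc T U σ lo hi j z = lo z + (j - 1) := by intro z; simp [lcc, hj']
      have e2 : ∀ z, hcc T U σ lo hi j z = min (lo z + (j - 1) + 1) (mid T U σ lo hi z) := by
        intro z; simp [hcc, hj']
      have hm := mid_meas T hU.1 hσm hch.1 hch.2.1 (hi := hi)
      have m1 : Measurable (lcc T U σ lo hi j) := by
        have : lcc T U σ lo hi j = fun z => lo z + (j - 1) := funext e1
        rw [this]; exact hch.1.add_const _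
      have m2 : Measurable (hcc T U σ lo hi j) := by
        have : hcc T U σ lo hi j = fun z => min (lo z + (j - 1) + 1) (mid T U σ lo hi z) :=
          funext e2
        rw [this]; exact ((hch.1.add_const _).add_const _).min hm
      have hmh : ∀ z, mid T U σ lo hi z ≤ hi z := fun z => min_le_left _ _
      have hhc : ∀ z, hcc T U σ lo hi j z ≤ hi z := by
        intro z; rw [e2]; exact (min_le_right _ _).trans (hmh z)
      have hchj : Chain S (lcc T U σ lo hi j) (hcc T U σ lo hi j) :=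
        ⟨m1, m2, fun z => (hhc z).trans (hch.2.2 z)⟩
      have hsub : ∀ z, lcc T U σ lo hi j z < hcc T U σ lo hi j z →
          lo z ≤ lcc T U σ lo hi j z ∧ lo z < hi z := by
        intro z hz
        have h1 := hhc z
        rw [e1] at hz ⊢
        omega
      refine ⟨hchj, ?_⟩
      refine subC_mono hΛ (le_max_right _ _) ?_
      refine P ω hω U h n S _ _ Λ (fld_mono (min_le_right _ _) hU) hh hchj
        (uppAt_sub hup fun z hz => ⟨(hsub z hz).2, hhc z⟩) hΛ N R k i E B (HT.sub hsub) ?_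
      intro z
      rw [e1, e2]
      exact min_le_left _ _
  · intro z _ f
    rw [show n + 8 = T + 1 by omega, Finset.sum_range_succ']
    have h1 := split_sum (lo z) (hi z) (cnt T U σ lo z) T (cnt_le T U σ lo z) f
    rw [h1]
    congr 1

theorem l_classn : L_CLASSN := fun ζ _ hT hR hL hP => classn ζ hT hR hL hP

end Crest.Agent.R087.ClassNx233
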