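import Crest.Agent.R087.ChI_70

/-!
Row 87 (S0115), operator part: classification of the scales by the dilated tile density, predicate
form (captain's decision D2), on the base `OPdef_799` (helper70).

* `col h k`          : colour `k`: `2^k ≤ |h| < 2^(k+1)`
* `EK U G i r j b m` : points of `G` over the cell `(r,j)` which are `2^i`-near the integer line `b+mt`
* `den A U G i r j b m = 2^(-A i) * 2^r * |EK|`
* `PP A U h n s z`   : some competitor above `(z, J_s(z))` has density `> 2^-n`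
* `cls A U h n s z`  : `PP n` and no `PP n'` with `n' < n`
-/

set_option autoImplicit false

noncomputable section

open MeasureTheory Crest.Agent.R087.Sh0x283 Crest.Agent.R087.GateDefx273 Crest.Agent.R087.OPdefx799

namespace Crest.Agent.R087.Cls2x70

/-! ### colours -/

/-- colours of `h` -/
def col (h : ℝ × ℝ → ℝ) (k : ℤ) : Set (ℝ × ℝ) :=
  {z | (2 : ℝ) ^ k ≤ |h z| ∧ |h z| < (2 : ℝ) ^ (k + 1)}

theorem col_unique {h : ℝ × ℝ → ℝ} {k k' : ℤ} {z : ℝ × ℝ} (h1 : z ∈ col h k) (h2 : z ∈ col h k') :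
    k = k' := by
  obtain ⟨a1, a2⟩ := h1
  obtain ⟨b1, b2⟩ := h2
  have h3 : (2 : ℝ) ^ k < 2 ^ (k' + 1) := lt_of_le_of_lt a1 b2
  have h4 : (2 : ℝ) ^ k' < 2 ^ (k + 1) := lt_of_le_of_lt b1 a2
  have h5 := (zpow_lt_zpow_iff_right₀ (one_lt_two : (1 : ℝ) < 2)).1 h3
  have h6 := (zpow_lt_zpow_iff_right₀ (one_lt_two : (1 : ℝ) < 2)).1 h4
  omega

theorem col_disjoint (h : ℝ × ℝ → ℝ) {k k' : ℤ} (hk : k ≠ k') : Disjoint (col h k) (col h k') := by
  rw [Set.disjoint_left]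
  exact fun z h1 h2 => hk (col_unique h1 h2)

theorem col_exists {h : ℝ × ℝ → ℝ} {z : ℝ × ℝ} (hz : h z ≠ 0) : ∃ k, z ∈ col h k := by
  obtain ⟨k, hk1, hk2⟩ := exists_mem_Ico_zpow (abs_pos.2 hz) (one_lt_two : (1 : ℝ) < 2)
  exact ⟨k, hk1, hk2⟩

theorem col_ne {h : ℝ × ℝ → ℝ} {k : ℤ} {z : ℝ × ℝ} (hz : z ∈ col h k) : h z ≠ 0 := by
  intro h0
  have h1 := hz.1
  rw [h0, abs_zero] at h1
  have h2 : (0 : ℝ) < 2 ^ k := by positivity
  linarith

theorem measurableSet_col {h : ℝ × ℝ → ℝ} (hh : Measurable h) (k : ℤ) :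
    MeasurableSet (col h k) := by
  have h1 : Measurable fun z => |h z| := hh.abs
  exact (measurableSet_le measurable_const h1).inter (measurableSet_lt h1 measurable_const)

theorem col_finite {h : ℝ × ℝ → ℝ} (hN : Nice h) (k : ℤ) : volume (col h k) ≠ ⊤ := by
  obtain ⟨hh, ⟨W, hW⟩, ⟨r, hr⟩⟩ := hN
  refine ne_top_of_le_ne_top (measure_closedBall_lt_top (x := (0 : ℝ × ℝ)) (r := r)).ne
    (measure_mono (fun z hz => ?_))
  rw [Metric.mem_closedBall, dist_zero_right]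
  by_contra h1
  exact col_ne hz (hr z (not_le.1 h1))

theorem integrable_sq {h : ℝ × ℝ → ℝ} (hN : Nice h) : Integrable (fun z => (h z) ^ 2) := by
  obtain ⟨hh, ⟨W, hW⟩, ⟨r, hr⟩⟩ := hN
  have h1 : Integrable ((Metric.closedBall (0 : ℝ × ℝ) r).indicator (fun _ => W ^ 2)) :=
    (integrable_indicator_iff Metric.isClosed_closedBall.measurableSet).2
      (integrableOn_const (measure_closedBall_lt_top).ne)
  refine h1.mono' (hh.pow_const 2).aestronglyMeasurable (Filter.Eventually.of_forall (fun z => ?_))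
  rw [Real.norm_eq_abs, abs_of_nonneg (sq_nonneg _)]
  by_cases hz : z ∈ Metric.closedBall (0 : ℝ × ℝ) r
  · rw [Set.indicator_of_mem hz, ← sq_abs (h z)]
    exact pow_le_pow_left₀ (abs_nonneg _) (hW z) 2
  · rw [Set.indicator_of_notMem hz]
    rw [Metric.mem_closedBall, dist_zero_right, not_le] at hz
    rw [hr z hz]
    norm_num

/-! ### cells and nearness -/

theorem measurable_ix (s : ℕ) : Measurable (ix s) := by
  unfold ix; exact Int.measurable_floor.comp (by fun_prop)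

theorem measurableSet_nr {U : ℝ × ℝ → ℝ} (hU : Measurable U) (K b m : ℝ) (s : ℕ) :
    MeasurableSet {z | nr U K b m z s} := by
  have h1 : Measurable fun z : ℝ × ℝ => |z.2 - (b + m * z.1)| := by fun_prop
  have h2 : Measurable fun z : ℝ × ℝ => |U z - m| * (1 / 2 : ℝ) ^ s := by fun_prop
  exact (measurableSet_le h1 measurable_const).inter (measurableSet_le h2 measurable_const)

theorem nr_scale {U : ℝ × ℝ → ℝ} {K b m : ℝ} {z : ℝ × ℝ} {s t : ℕ} (hst : s ≤ t)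
    (h : nr U K b m z s) : nr U K b m z t :=
  ⟨h.1, (mul_le_mul_of_nonneg_left
    (pow_le_pow_of_le_one (by norm_num) (by norm_num) hst) (abs_nonneg _)).trans h.2⟩

theorem volume_ix (s : ℕ) (j : ℤ) :
    volume {x : ℝ | ix s x = j} = ENNReal.ofReal ((1 / 2 : ℝ) ^ s) := by
  have h : {x : ℝ | ix s x = j} = Set.Ico ((j : ℝ) * (1 / 2) ^ s) (((j : ℝ) + 1) * (1 / 2) ^ s) := by
    ext x
    simp only [ix, Set.mem_ofPred_eq, Int.floor_eq_iff, Set.mem_Ico]
    have h2 : (0 : ℝ) < 2 ^ s := by positivity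
    have e1 : (j : ℝ) * (1 / 2) ^ s = j / 2 ^ s := by rw [one_div, inv_pow]; rfl
    have e2 : ((j : ℝ) + 1) * (1 / 2) ^ s = (j + 1) / 2 ^ s := by rw [one_div, inv_pow]; rfl
    rw [e1, e2, div_le_iff₀ h2, lt_div_iff₀ h2, mul_comm x]
  rw [h, Real.volume_Ico]
  congr 1; ring

/-- area of a strip over a cell -/
theorem volume_strip (K b m : ℝ) (hK : 0 ≤ K) (r : ℕ) (j : ℤ) :
    volume {w : ℝ × ℝ | ix r w.1 = j ∧ |w.2 - (b + m * w.1)| ≤ K} ≤
      ENNReal.ofReal (2 * K * (1 / 2 : ℝ) ^ r) := by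
  have hI : MeasurableSet {x : ℝ | ix r x = j} := measurable_ix r (MeasurableSet.singleton j)
  have hms : MeasurableSet {w : ℝ × ℝ | ix r w.1 = j ∧ |w.2 - (b + m * w.1)| ≤ K} := by
    have h1 : MeasurableSet {z : ℝ × ℝ | ix r z.1 = j} := measurable_fst hI
    have h3 : Measurable fun z : ℝ × ℝ => |z.2 - (b + m * z.1)| := by fun_prop
    exact h1.inter (measurableSet_le h3 measurable_const)
  rw [Measure.volume_eq_prod, Measure.prod_apply hms]
  calc _ ≤ ∫⁻ x, {x : ℝ | ix r x = j}.indicator (fun _ => ENNReal.ofReal (2 * K)) x := by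
        refine lintegral_mono (fun x => ?_)
        by_cases hx : ix r x = j
        · rw [Set.indicator_of_mem (show x ∈ {x : ℝ | ix r x = j} from hx)]
          have : Prod.mk x ⁻¹' {w : ℝ × ℝ | ix r w.1 = j ∧ |w.2 - (b + m * w.1)| ≤ K} ⊆
              Set.Icc (b + m * x - K) (b + m * x + K) := by
            intro y hy
            have h1 := abs_le.1 hy.2
            exact ⟨by linarith [h1.1], by linarith [h1.2]⟩
          refine (measure_mono this).trans ?_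
          rw [Real.volume_Icc]
          exact ENNReal.ofReal_le_ofReal (by linarith)
        · rw [Set.indicator_of_notMem (show x ∉ {x : ℝ | ix r x = j} from hx)]
          have : Prod.mk x ⁻¹' {w : ℝ × ℝ | ix r w.1 = j ∧ |w.2 - (b + m * w.1)| ≤ K} = ∅ := by
            ext y
            simp only [Set.mem_preimage, Set.mem_empty_iff_false, iff_false]
            intro hy
            exact hx hy.1
          rw [this, measure_empty]
    _ = ENNReal.ofReal (2 * K) * volume {x : ℝ | ix r x = j} := by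
        rw [lintegral_indicator hI, setLIntegral_const]
    _ = ENNReal.ofReal (2 * K * (1 / 2 : ℝ) ^ r) := by
        rw [volume_ix, ← ENNReal.ofReal_mul (by positivity)]

/-! ### density -/

/-- points of `G` over the cell `(r,j)`, `2^i`-near the integer line `b + m t` -/
def EK (U : ℝ × ℝ → ℝ) (G : Set (ℝ × ℝ)) (i r : ℕ) (j b m : ℤ) : Set (ℝ × ℝ) :=
  {w | w ∈ G ∧ ix r w.1 = j ∧ nr U (2 ^ i) b m w r}

/-- weighted density -/
def den (A : ℕ) (U : ℝ × ℝ → ℝ) (G : Set (ℝ × ℝ)) (i r : ℕ) (j b m : ℤ) : ℝ :=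
  (1 / 2 : ℝ) ^ (A * i) * 2 ^ r * (volume (EK U G i r j b m)).toReal

theorem measurableSet_EK {U : ℝ × ℝ → ℝ} (hU : Measurable U) {G : Set (ℝ × ℝ)}
    (hG : MeasurableSet G) (i r : ℕ) (j b m : ℤ) : MeasurableSet (EK U G i r j b m) :=
  hG.inter ((measurable_fst (measurable_ix r (MeasurableSet.singleton j))).inter
    (measurableSet_nr hU _ _ _ _))

theorem volume_EK_le (U : ℝ × ℝ → ℝ) (G : Set (ℝ × ℝ)) (i r : ℕ) (j b m : ℤ) :
    volume (EK U G i r j b m) ≤ ENNReal.ofReal (2 * 2 ^ i * (1 / 2 : ℝ) ^ r) := by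
  have hsub : EK U G i r j b m ⊆
      {w : ℝ × ℝ | ix r w.1 = j ∧ |w.2 - ((b : ℝ) + m * w.1)| ≤ 2 ^ i} :=
    fun w hw => ⟨hw.2.1, hw.2.2.1⟩
  exact (measure_mono hsub).trans (volume_strip (2 ^ i) b m (by positivity) r j)

theorem volume_EK_ne_top (U : ℝ × ℝ → ℝ) (G : Set (ℝ × ℝ)) (i r : ℕ) (j b m : ℤ) :
    volume (EK U G i r j b m) ≠ ⊤ :=
  ne_top_of_le_ne_top ENNReal.ofReal_ne_top (volume_EK_le U G i r j b m)

theorem den_nonneg (A : ℕ) (U : ℝ × ℝ → ℝ) (G : Set (ℝ × ℝ)) (i r : ℕ) (j b m : ℤ) :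
    0 ≤ den A U G i r j b m := by
  unfold den
  have := ENNReal.toReal_nonneg (a := volume (EK U G i r j b m))
  positivity

theorem half_two (r : ℕ) : (1 / 2 : ℝ) ^ r * 2 ^ r = 1 := by
  rw [← mul_pow]; norm_num

/-- `den ≤ x` in terms of the volume -/
theorem vol_le_of_den {A : ℕ} {U : ℝ × ℝ → ℝ} {G : Set (ℝ × ℝ)} {i r : ℕ} {j b m : ℤ} {x : ℝ}
    (h : den A U G i r j b m ≤ x) :
    (volume (EK U G i r j b m)).toReal ≤ 2 ^ (A * i) * x * (1 / 2 : ℝ) ^ r := by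
  set V := (volume (EK U G i r j b m)).toReal with hV
  have h1 : V = 2 ^ (A * i) * den A U G i r j b m * (1 / 2 : ℝ) ^ r := by
    unfold den
    rw [← hV]
    have e1 := half_two (A * i)
    have e2 := half_two r
    calc V = ((1 / 2 : ℝ) ^ (A * i) * 2 ^ (A * i)) * ((1 / 2 : ℝ) ^ r * 2 ^ r) * V := by
          rw [e1, e2]; ring
      _ = _ := by ring
  rw [h1]
  gcongr

theorem lt_vol_of_den {A : ℕ} {U : ℝ × ℝ → ℝ} {G : Set (ℝ × ℝ)} {i r : ℕ} {j b m : ℤ} {x : ℝ}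
    (h : x < den A U G i r j b m) :
    2 ^ (A * i) * x * (1 / 2 : ℝ) ^ r < (volume (EK U G i r j b m)).toReal := by
  by_contra h1
  push Not at h1
  have h2 : den A U G i r j b m ≤ x := by
    unfold den
    calc (1 / 2 : ℝ) ^ (A * i) * 2 ^ r * (volume (EK U G i r j b m)).toReal
        ≤ (1 / 2 : ℝ) ^ (A * i) * 2 ^ r * (2 ^ (A * i) * x * (1 / 2 : ℝ) ^ r) := by gcongr
      _ = ((1 / 2 : ℝ) ^ (A * i) * 2 ^ (A * i)) * ((1 / 2 : ℝ) ^ r * 2 ^ r) * x := by ring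
      _ = x := by rw [half_two, half_two]; ring
  linarith

theorem den_le (A : ℕ) (U : ℝ × ℝ → ℝ) (G : Set (ℝ × ℝ)) (i r : ℕ) (j b m : ℤ) :
    den A U G i r j b m ≤ 2 * 2 ^ i * (1 / 2 : ℝ) ^ (A * i) := by
  unfold den
  have h1 : (volume (EK U G i r j b m)).toReal ≤ 2 * 2 ^ i * (1 / 2 : ℝ) ^ r :=
    ENNReal.toReal_le_of_le_ofReal (by positivity) (volume_EK_le U G i r j b m)
  calc (1 / 2 : ℝ) ^ (A * i) * 2 ^ r * (volume (EK U G i r j b m)).toReal
      ≤ (1 / 2 : ℝ) ^ (A * i) * 2 ^ r * (2 * 2 ^ i * (1 / 2 : ℝ) ^ r) := by gcongr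
    _ = ((1 / 2 : ℝ) ^ r * 2 ^ r) * (2 * 2 ^ i * (1 / 2 : ℝ) ^ (A * i)) := by ring
    _ = _ := by rw [half_two, one_mul]

theorem den_le_two {A : ℕ} (hA : 1 ≤ A) (U : ℝ × ℝ → ℝ) (G : Set (ℝ × ℝ)) (i r : ℕ)
    (j b m : ℤ) : den A U G i r j b m ≤ 2 := by
  refine (den_le A U G i r j b m).trans ?_
  have h1 : (1 / 2 : ℝ) ^ (A * i) ≤ (1 / 2 : ℝ) ^ i :=
    pow_le_pow_of_le_one (by norm_num) (by norm_num) (by nlinarith)
  calc 2 * 2 ^ i * (1 / 2 : ℝ) ^ (A * i) ≤ 2 * 2 ^ i * (1 / 2 : ℝ) ^ i := by gcongr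
    _ = 2 * ((1 / 2 : ℝ) ^ i * 2 ^ i) := by ring
    _ = 2 := by rw [half_two, mul_one]

/-- the dilation of a competitor of density `> 2^-n` is at most `2^(n/(A-1))` -/
theorem dil_le {A n : ℕ} {U : ℝ × ℝ → ℝ} {G : Set (ℝ × ℝ)} {i r : ℕ} {j b m : ℤ}
    (h : (1 / 2 : ℝ) ^ n < den A U G i r j b m) : A * i ≤ n + i := by
  by_contra hcon
  push Not at hcon
  have h1 := h.trans_le (den_le A U G i r j b m)
  have h2 : (1 / 2 : ℝ) ^ (A * i) ≤ (1 / 2 : ℝ) ^ (n + i + 1) :=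
    pow_le_pow_of_le_one (by norm_num) (by norm_num) hcon
  have h3 : 2 * 2 ^ i * (1 / 2 : ℝ) ^ (A * i) ≤ (1 / 2 : ℝ) ^ n := by
    calc 2 * 2 ^ i * (1 / 2 : ℝ) ^ (A * i) ≤ 2 * 2 ^ i * (1 / 2 : ℝ) ^ (n + i + 1) := by gcongr
      _ = (1 / 2 : ℝ) ^ n * ((1 / 2 : ℝ) ^ i * 2 ^ i) := by rw [pow_succ, pow_add]; ring
      _ = (1 / 2 : ℝ) ^ n := by rw [half_two, mul_one]
  linarith

/-! ### the classes -/

/-- some competitor above `(z, J_s(z))` has density `> 2^-n` -/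
def PP (A : ℕ) (U h : ℝ × ℝ → ℝ) (n s : ℕ) (z : ℝ × ℝ) : Prop :=
  ∃ (k : ℤ) (i r : ℕ) (b m : ℤ), z ∈ col h k ∧ r ≤ s ∧ nr U (2 ^ i) b m z s ∧
    (1 / 2 : ℝ) ^ n < den A U (col h k) i r (ix r z.1) b m

/-- class `n` at `(z, J_s(z))` -/
def cls (A : ℕ) (U h : ℝ × ℝ → ℝ) (n s : ℕ) (z : ℝ × ℝ) : Prop :=
  PP A U h n s z ∧ ∀ n' < n, ¬ PP A U h n' s z

variable {A : ℕ} {U h : ℝ × ℝ → ℝ}

theorem PP_scale {n s t : ℕ} (hst : s ≤ t) {z : ℝ × ℝ} (hz : PP A U h n s z) : PP A U h n t z := by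
  obtain ⟨k, i, r, b, m, h1, h2, h3, h4⟩ := hz
  exact ⟨k, i, r, b, m, h1, h2.trans hst, nr_scale hst h3, h4⟩

theorem PP_class {n n' : ℕ} (hn : n ≤ n') {s : ℕ} {z : ℝ × ℝ} (hz : PP A U h n s z) :
    PP A U h n' s z := by
  obtain ⟨k, i, r, b, m, h1, h2, h3, h4⟩ := hz
  exact ⟨k, i, r, b, m, h1, h2, h3,
    lt_of_le_of_lt (pow_le_pow_of_le_one (by norm_num) (by norm_num) hn) h4⟩

theorem PP_ne {n s : ℕ} {z : ℝ × ℝ} (hz : PP A U h n s z) : h z ≠ 0 := by
  obtain ⟨k, i, r, b, m, h1, h2, h3, h4⟩ := hz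
  exact col_ne h1

theorem measurableSet_PP (A : ℕ) (hU : Measurable U) (hh : Measurable h) (n s : ℕ) :
    MeasurableSet {z | PP A U h n s z} := by
  have : {z | PP A U h n s z} = ⋃ k : ℤ, ⋃ i : ℕ, ⋃ r : ℕ, ⋃ b : ℤ, ⋃ m : ℤ,
      col h k ∩ ({_z | r ≤ s} ∩ ({z | nr U (2 ^ i) b m z s} ∩
        (fun z : ℝ × ℝ => ix r z.1) ⁻¹' {j | (1 / 2 : ℝ) ^ n < den A U (col h k) i r j b m})) := by
    ext z
    simp only [PP, Set.mem_ofPred_eq, Set.mem_iUnion, Set.mem_inter_iff, Set.mem_preimage]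
  rw [this]
  refine MeasurableSet.iUnion fun k => MeasurableSet.iUnion fun i => MeasurableSet.iUnion fun r =>
    MeasurableSet.iUnion fun b => MeasurableSet.iUnion fun m => ?_
  refine (measurableSet_col hh k).inter ((MeasurableSet.const _).inter
    ((measurableSet_nr hU _ _ _ _).inter ?_))
  exact ((measurable_ix r).comp measurable_fst) (MeasurableSet.of_discrete)

theorem measurableSet_cls (A : ℕ) (hU : Measurable U) (hh : Measurable h) (n s : ℕ) :
    MeasurableSet {z | cls A U h n s z} := by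
  have : {z | cls A U h n s z} = {z | PP A U h n s z} ∩
      ⋂ n' ∈ Finset.range n, {z | PP A U h n' s z}ᶜ := by
    ext z
    simp only [cls, Set.mem_ofPred_eq, Set.mem_inter_iff, Set.mem_iInter, Finset.mem_range,
      Set.mem_compl_iff]
  rw [this]
  exact (measurableSet_PP A hU hh n s).inter
    (Finset.measurableSet_biInter _ (fun m _ => (measurableSet_PP A hU hh m s).compl))

theorem cls_zero {s : ℕ} {z : ℝ × ℝ} : cls A U h 0 s z ↔ PP A U h 0 s z :=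
  ⟨fun h1 => h1.1, fun h1 => ⟨h1, fun _ h2 => absurd h2 (Nat.not_lt_zero _)⟩⟩

theorem cls_succ {n s : ℕ} {z : ℝ × ℝ} :
    cls A U h (n + 1) s z ↔ PP A U h (n + 1) s z ∧ ¬ PP A U h n s z :=
  ⟨fun h1 => ⟨h1.1, h1.2 n (Nat.lt_succ_self n)⟩,
    fun h1 => ⟨h1.1, fun _ h2 h3 => h1.2 (PP_class (Nat.lt_succ_iff.1 h2) h3)⟩⟩

/-- the classes are disjoint -/
theorem cls_unique {n n' s : ℕ} {z : ℝ × ℝ} (h1 : cls A U h n s z) (h2 : cls A U h n' s z) :
    n = n' := by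
  rcases lt_trichotomy n n' with h3 | h3 | h3
  · exact absurd h1.1 (h2.2 n h3)
  · exact h3
  · exact absurd h2.1 (h1.2 n' h3)

/-- every `(z,s)` with `PP N` is in one of the classes `≤ N` -/
theorem cls_exists {N s : ℕ} {z : ℝ × ℝ} (hz : PP A U h N s z) : ∃ n ≤ N, cls A U h n s z := by
  classical
  have hex : ∃ n, PP A U h n s z := ⟨N, hz⟩
  exact ⟨Nat.find hex, Nat.find_min' hex hz, Nat.find_spec hex, fun n' h1 => Nat.find_min hex h1⟩

/-- UPPER BOUND for all competitors -/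
theorem cls_upper (hA : 1 ≤ A) {n s : ℕ} {z : ℝ × ℝ} (hz : cls A U h n s z) {k : ℤ}
    (hk : z ∈ col h k) {i r : ℕ} {b m : ℤ} (hr : r ≤ s) (hn : nr U (2 ^ i) b m z s) :
    den A U (col h k) i r (ix r z.1) b m ≤ 2 * (1 / 2 : ℝ) ^ n := by
  cases n with
  | zero => rw [pow_zero, mul_one]; exact den_le_two hA U _ i r _ b m
  | succ n =>
    have h1 := (cls_succ.1 hz).2
    by_contra h2
    push Not at h2
    apply h1
    refine ⟨k, i, r, b, m, hk, hr, hn, ?_⟩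
    rw [pow_succ] at h2
    linarith

/-- the same with volumes -/
theorem cls_mass (hA : 1 ≤ A) {n s : ℕ} {z : ℝ × ℝ} (hz : cls A U h n s z) {k : ℤ}
    (hk : z ∈ col h k) {i r : ℕ} {b m : ℤ} (hr : r ≤ s) (hn : nr U (2 ^ i) b m z s) :
    (volume (EK U (col h k) i r (ix r z.1) b m)).toReal ≤
      2 ^ (A * i) * (2 * (1 / 2 : ℝ) ^ n) * (1 / 2 : ℝ) ^ r :=
  vol_le_of_den (cls_upper hA hz hk hr hn)

/-- LOWER BOUND: a dense competitor above the cell, of dilation at most `2^(n/(A-1))` -/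
theorem cls_lower {n s : ℕ} {z : ℝ × ℝ} (hz : cls A U h n s z) {k : ℤ} (hk : z ∈ col h k) :
    ∃ (i r : ℕ) (b m : ℤ), r ≤ s ∧ nr U (2 ^ i) b m z s ∧ A * i ≤ n + i ∧
      2 ^ (A * i) * (1 / 2 : ℝ) ^ n * (1 / 2 : ℝ) ^ r <
        (volume (EK U (col h k) i r (ix r z.1) b m)).toReal := by
  obtain ⟨k', i, r, b, m, h1, h2, h3, h4⟩ := hz.1
  rw [col_unique h1 hk] at h4
  exact ⟨i, r, b, m, h2, h3, dil_le h4, lt_vol_of_den h4⟩

/-! ### chains -/

open Classical in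
/-- the part of the chain in class `n` -/
def Hc (A : ℕ) (U h : ℝ × ℝ → ℝ) (n : ℕ) (H : ℕ → ℝ × ℝ → ℝ) (s : ℕ) (z : ℝ × ℝ) : ℝ :=
  if cls A U h n s z then H s z else 0

theorem Hc_ch (A : ℕ) (hU : Measurable U) (hh : Measurable h) {H : ℕ → ℝ × ℝ → ℝ} (hH : Ch h H)
    (n : ℕ) : Ch h (Hc A U h n H) := by
  classical
  cases n with
  | zero =>
    have h1 := ChIx70.up hH (P := fun s z => PP A U h 0 s z) (fun s z => PP_scale (Nat.le_succ s))
      (measurableSet_PP A hU hh 0)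
    have h2 : Hc A U h 0 H = fun s z => if PP A U h 0 s z then H s z else 0 := by
      funext s z
      unfold Hc
      exact if_congr cls_zero rfl rfl
    rw [h2]; exact h1
  | succ n =>
    have h1 := ChIx70.up hH (P := fun s z => PP A U h (n + 1) s z)
      (fun s z => PP_scale (Nat.le_succ s)) (measurableSet_PP A hU hh (n + 1))
    have h2 := ChIx70.down h1 (P := fun s z => PP A U h n s z)
      (fun s z => PP_scale (Nat.le_succ s)) (measurableSet_PP A hU hh n)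
    have h3 : Hc A U h (n + 1) H =
        fun s z => if PP A U h n s z then 0 else if PP A U h (n + 1) s z then H s z else 0 := by
      funext s z
      unfold Hc
      by_cases a1 : PP A U h n s z
      · rw [if_pos a1, if_neg]
        exact fun h4 => (cls_succ.1 h4).2 a1
      · rw [if_neg a1]
        refine if_congr ?_ rfl rfl
        rw [cls_succ]
        exact ⟨fun h4 => h4.1, fun h4 => ⟨h4, a1⟩⟩
    rw [h3]; exact h2

/-- the classes `≤ N` exhaust the chain at the points with `PP N` at the scale `0` -/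
theorem Hc_sum {N s : ℕ} {z : ℝ × ℝ} (hz : PP A U h N 0 z) (H : ℕ → ℝ × ℝ → ℝ) :
    ∑ n ∈ Finset.range (N + 1), Hc A U h n H s z = H s z := by
  classical
  obtain ⟨n, hn, hc⟩ := cls_exists (PP_scale (Nat.zero_le s) hz)
  rw [Finset.sum_eq_single n]
  · unfold Hc; rw [if_pos hc]
  · intro n' _ hne
    unfold Hc
    rw [if_neg]
    exact fun h1 => hne (cls_unique h1 hc)
  · intro h1
    exact absurd (Finset.mem_range.2 (Nat.lt_succ_of_le hn)) h1

/-! ### exhaustion -/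

theorem exists_int_near (u : ℝ) : ∃ q : ℤ, |u - q| ≤ 1 :=
  ⟨⌊u⌋, by rw [abs_of_nonneg (by linarith [Int.floor_le u])]; linarith [Int.lt_floor_add_one u]⟩

/-- every point has an integer line `1`-near to it at all scales -/
theorem exists_line (U : ℝ × ℝ → ℝ) (z : ℝ × ℝ) : ∃ b m : ℤ, ∀ s, nr U 1 b m z s := by
  obtain ⟨m, hm⟩ := exists_int_near (U z)
  obtain ⟨b, hb⟩ := exists_int_near (z.2 - m * z.1)
  refine ⟨b, m, fun s => ⟨?_, ?_⟩⟩
  · have : z.2 - ((b : ℝ) + m * z.1) = z.2 - m * z.1 - b := by ring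
    rw [this]; exact hb
  · have h1 : (1 / 2 : ℝ) ^ s ≤ 1 := pow_le_one₀ (by norm_num) (by norm_num)
    have h2 : (0 : ℝ) ≤ (1 / 2 : ℝ) ^ s := by positivity
    nlinarith [abs_nonneg (U z - m)]

/-- points not classified by the classes `≤ N` -/
def QQ (A : ℕ) (U h : ℝ × ℝ → ℝ) (N : ℕ) : Set (ℝ × ℝ) := {z | h z ≠ 0 ∧ ¬ PP A U h N 0 z}

theorem QQ_anti (A : ℕ) (U h : ℝ × ℝ → ℝ) : Antitone (QQ A U h) := fun _ _ hn _ hz =>
  ⟨hz.1, fun h1 => hz.2 (PP_class hn h1)⟩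

theorem measurableSet_QQ (A : ℕ) (hU : Measurable U) (hh : Measurable h) (N : ℕ) :
    MeasurableSet (QQ A U h N) :=
  (measurableSet_eq_fun hh measurable_const).compl.inter (measurableSet_PP A hU hh N 0).compl

theorem null_inter (A : ℕ) (U h : ℝ × ℝ → ℝ) : volume (⋂ N, QQ A U h N) = 0 := by
  have hsub : (⋂ N, QQ A U h N) ⊆ ⋃ k : ℤ, ⋃ j : ℤ, ⋃ b : ℤ, ⋃ m : ℤ,
      (if volume (EK U (col h k) 0 0 j b m) = 0 then EK U (col h k) 0 0 j b m else ∅) := by
    intro z hz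
    simp only [Set.mem_iInter] at hz
    obtain ⟨k, hk⟩ := col_exists (hz 0).1
    obtain ⟨b, m, hbm⟩ := exists_line U z
    have hnr : nr U (2 ^ 0) b m z 0 := by rw [pow_zero]; exact hbm 0
    have hzero : volume (EK U (col h k) 0 0 (ix 0 z.1) b m) = 0 := by
      have h1 : ∀ n : ℕ, den A U (col h k) 0 0 (ix 0 z.1) b m ≤ (1 / 2 : ℝ) ^ n := by
        intro n
        by_contra h2
        push Not at h2
        exact (hz n).2 ⟨k, 0, 0, b, m, hk, le_rfl, hnr, h2⟩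
      have h2 : den A U (col h k) 0 0 (ix 0 z.1) b m ≤ 0 :=
        ge_of_tendsto' (tendsto_pow_atTop_nhds_zero_of_lt_one (by norm_num) (by norm_num)) h1
      have h3 := vol_le_of_den h2
      have h4 : (volume (EK U (col h k) 0 0 (ix 0 z.1) b m)).toReal = 0 :=
        le_antisymm (by simpa using h3) ENNReal.toReal_nonneg
      rcases (ENNReal.toReal_eq_zero_iff _).1 h4 with h5 | h5
      · exact h5
      · exact absurd h5 (volume_EK_ne_top U (col h k) 0 0 (ix 0 z.1) b m)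
    simp only [Set.mem_iUnion]
    refine ⟨k, ix 0 z.1, b, m, ?_⟩
    rw [if_pos hzero]
    exact ⟨hk, rfl, hnr⟩
  refine measure_mono_null hsub ?_
  refine measure_iUnion_null fun k => measure_iUnion_null fun j => measure_iUnion_null fun b =>
    measure_iUnion_null fun m => ?_
  split_ifs with h1
  · exact h1
  · exact measure_empty

/-- EXHAUSTION: up to a set `QQ N` of small energy the classes `≤ N` are everything -/
theorem exhaust (A : ℕ) (hU : Measurable U) (hN : Nice h) {ε : ℝ} (hε : 0 < ε) :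
    ∃ N, ∫ z in QQ A U h N, (h z) ^ 2 ≤ ε := by
  have hlim := tendsto_setIntegral_of_antitone (μ := volume) (f := fun z => (h z) ^ 2)
    (measurableSet_QQ A hU hN.1) (QQ_anti A U h) ⟨0, (integrable_sq hN).integrableOn⟩
  rw [setIntegral_measure_zero _ (null_inter A U h)] at hlim
  obtain ⟨N, h1⟩ := (hlim.eventually (gt_mem_nhds hε)).exists
  exact ⟨N, h1.le⟩

end Crest.Agent.R087.Cls2x70
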