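import Crest.Agent.R087.OP0_270

/-!
Row 87 (S0115), operator part: leaf `CLS` of `OP0_270` (classification of the scales by the dilated
tile density), helper70.

* `Bad n s` : points `z` (of some colour `k`) with `¬ upp U h A n k s z`; increasing in `n` and `s`;
* `ff n z`  : first scale `s ≤ S` with `z ∈ Bad n s`, `S` if there is none;
* `lc n z = max (lo z) (ff (n+1) z)`, `hc n z = min (hi z) (ff n z)`.
-/

set_option autoImplicit false

noncomputable section

open MeasureTheory

namespace Crest.Agent.R087.Clsx70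

open Crest.Agent.R087.Sh0x283 Crest.Agent.R087.E2x542 Crest.Agent.R087.E2Kx752
  Crest.Agent.R087.GateDefx273 Crest.Agent.R087.OP0x270

/-! ### colours -/

theorem col_unique {h : ℝ × ℝ → ℝ} {k k' : ℤ} {z : ℝ × ℝ} (h1 : z ∈ col h k) (h2 : z ∈ col h k') :
    k = k' := by
  obtain ⟨a1, a2⟩ := h1
  obtain ⟨b1, b2⟩ := h2
  have h3 : (2 : ℝ) ^ k < 2 ^ (k' + 1) := lt_of_le_of_lt a1 b2
  have h4 : (2 : ℝ) ^ k' < 2 ^ (k + 1) := lt_of_le_of_lt b1 a2
  have h5 := (zpow_lt_zpow_iff_right₀ (one_lt_two : (1 : ℝ) < 2)).1 h3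
  have h6 := (zpow_lt_zpow_iff_right₀ (one_lt_two : (1 : ℝ) < 2)).1 h4
  omega

theorem col_exists {h : ℝ × ℝ → ℝ} {z : ℝ × ℝ} (hz : h z ≠ 0) : ∃ k, z ∈ col h k := by
  obtain ⟨k, hk1, hk2⟩ := exists_mem_Ico_zpow (abs_pos.2 hz) (one_lt_two : (1 : ℝ) < 2)
  exact ⟨k, hk1, hk2⟩

theorem measurableSet_col {h : ℝ × ℝ → ℝ} (hh : Measurable h) (k : ℤ) :
    MeasurableSet (col h k) := by
  have h1 : Measurable fun z => |h z| := hh.abs
  exact (measurableSet_le measurable_const h1).inter (measurableSet_lt h1 measurable_const)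

/-! ### monotonicity of `upp` -/

variable (U h : ℝ × ℝ → ℝ) (A : ℕ)

theorem upp_scale {n : ℕ} {k : ℤ} {s t : ℕ} (hst : s ≤ t) {z : ℝ × ℝ} (hz : upp U h A n k t z) :
    upp U h A n k s z := by
  intro i R hR hk hI hn
  refine hz i R hR (hk.trans hst) hI ⟨hn.1, ?_⟩
  refine le_trans ?_ hn.2
  refine mul_le_mul_of_nonneg_left ?_ (abs_nonneg _)
  exact pow_le_pow_of_le_one (by norm_num) (by norm_num) hst

theorem upp_class {n n' : ℕ} (hn : n ≤ n') {k : ℤ} {s : ℕ} {z : ℝ × ℝ}
    (hz : upp U h A n' k s z) : upp U h A n k s z := by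
  intro i R hR hk hI hne
  refine (hz i R hR hk hI hne).trans ?_
  have h1 : (1 / 2 : ℝ) ^ n' ≤ (1 / 2 : ℝ) ^ n := pow_le_pow_of_le_one (by norm_num) (by norm_num) hn
  have h2 : 0 ≤ R.len := R.len_pos.le
  gcongr

/-- the volume of a fat tube -/
theorem volume_fat_le (K : ℝ) (hK : 0 ≤ K) (R : Tube) :
    volume (fat K R) ≤ ENNReal.ofReal (2 * K * R.len) := by
  have hms : MeasurableSet (fat K R) := by
    have h1 : MeasurableSet {z : ℝ × ℝ | z.1 ∈ R.I} := measurable_fst R.measurableSet_I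
    have h2 : MeasurableSet {z : ℝ × ℝ | |z.2 - R.line z.1| ≤ K} := by
      apply measurableSet_le _ measurable_const
      have := R.measurable_line
      fun_prop
    exact h1.inter h2
  rw [Measure.volume_eq_prod, Measure.prod_apply hms]
  calc ∫⁻ x, volume (Prod.mk x ⁻¹' fat K R) ≤ ∫⁻ x, R.I.indicator (fun _ => ENNReal.ofReal (2 * K)) x := by
        refine lintegral_mono (fun x => ?_)
        by_cases hx : x ∈ R.I
        · rw [Set.indicator_of_mem hx]
          have : Prod.mk x ⁻¹' fat K R ⊆ Set.Icc (R.line x - K) (R.line x + K) := by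
            intro y hy
            have h1 := abs_le.1 hy.2
            exact ⟨by linarith [h1.1], by linarith [h1.2]⟩
          refine (measure_mono this).trans ?_
          rw [Real.volume_Icc]
          exact ENNReal.ofReal_le_ofReal (by linarith)
        · rw [Set.indicator_of_notMem hx]
          have : Prod.mk x ⁻¹' fat K R = ∅ := by
            ext y
            simp only [Set.mem_preimage, Set.mem_empty_iff_false, iff_false]
            intro hy
            exact hx hy.1
          rw [this, measure_empty]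
    _ = ENNReal.ofReal (2 * K) * volume R.I := by
        rw [lintegral_indicator R.measurableSet_I, setLIntegral_const]
    _ = ENNReal.ofReal (2 * K * R.len) := by
        have hI : volume R.I = ENNReal.ofReal R.len := by
          unfold Tube.I
          rw [Real.volume_Ico]
          congr 1
          ring
        rw [hI, ← ENNReal.ofReal_mul (by positivity)]

/-- class `0` is everything -/
theorem upp_zero (hA : 1 ≤ A) (k : ℤ) (s : ℕ) (z : ℝ × ℝ) : upp U h A 0 k s z := by
  intro i R _ _ _ _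
  have h1 : volume (col h k ∩ fatV U (2 ^ i) R) ≤ ENNReal.ofReal (2 * 2 ^ i * R.len) := by
    refine le_trans (measure_mono ?_) (volume_fat_le (2 ^ i) (by positivity) R)
    exact fun w hw => hw.2.1
  have h2 : (volume (col h k ∩ fatV U (2 ^ i) R)).toReal ≤ 2 * 2 ^ i * R.len := by
    refine ENNReal.toReal_le_of_le_ofReal ?_ h1
    have := R.len_pos
    positivity
  refine h2.trans ?_
  have h3 : (2 : ℝ) ^ i ≤ 2 ^ (A * i) := pow_le_pow_right₀ (by norm_num) (by nlinarith)
  have h4 : 0 ≤ R.len := R.len_pos.le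
  rw [pow_zero, mul_one, mul_comm (2 : ℝ) (2 ^ i)]
  gcongr

/-! ### bad sets -/

/-- points whose colour is denser than the class `n` at the scale `s` -/
def Bad (n s : ℕ) : Set (ℝ × ℝ) := {z | ∃ k, z ∈ col h k ∧ ¬ upp U h A n k s z}

theorem bad_scale {n s t : ℕ} (hst : s ≤ t) : Bad U h A n s ⊆ Bad U h A n t := by
  rintro z ⟨k, h1, h2⟩
  exact ⟨k, h1, fun h3 => h2 (upp_scale U h A hst h3)⟩

theorem bad_class {n n' : ℕ} (hn : n ≤ n') (s : ℕ) : Bad U h A n s ⊆ Bad U h A n' s := by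
  rintro z ⟨k, h1, h2⟩
  exact ⟨k, h1, fun h3 => h2 (upp_class U h A hn h3)⟩

theorem bad_zero (hA : 1 ≤ A) (s : ℕ) : Bad U h A 0 s = ∅ := by
  ext z
  simp only [Bad, Set.mem_ofPred_eq, Set.mem_empty_iff_false, iff_false, not_exists, not_and,
    not_not]
  exact fun k _ => upp_zero U h A hA k s z

/-- the tube with integer data -/
def rt (p : ℕ × ℤ × ℤ × ℤ) : Tube := ⟨p.1, p.2.1, p.2.2.1, p.2.2.2⟩

theorem rt_int (p : ℕ × ℤ × ℤ × ℤ) : IntT (rt p) := ⟨⟨_, rfl⟩, ⟨_, rfl⟩⟩

theorem rt_surj {R : Tube} (hR : IntT R) : ∃ p, R = rt p := by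
  obtain ⟨⟨q, hq⟩, ⟨q', hq'⟩⟩ := hR
  refine ⟨(R.k, R.j, q, q'), ?_⟩
  cases R
  simp only [rt, Tube.mk.injEq, true_and]
  exact ⟨hq, hq'⟩

theorem bad_eq (n s : ℕ) : Bad U h A n s =
    ⋃ k : ℤ, ⋃ i : ℕ, ⋃ p : ℕ × ℤ × ℤ × ℤ,
      (col h k ∩ {z | z.1 ∈ (rt p).I ∧ near U (2 ^ i) (rt p).b (rt p).m s z}) ∩
        {_z | (rt p).k ≤ s ∧ ¬ (volume (col h k ∩ fatV U (2 ^ i) (rt p))).toReal ≤
          2 ^ (A * i) * (2 * (1 / 2 : ℝ) ^ n) * (rt p).len} := by
  ext z
  simp only [Bad, Set.mem_ofPred_eq, Set.mem_iUnion, Set.mem_inter_iff]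
  constructor
  · rintro ⟨k, hk, h1⟩
    unfold upp at h1
    push Not at h1
    obtain ⟨i, R, hR, h2, h3, h4, h5⟩ := h1
    obtain ⟨p, rfl⟩ := rt_surj hR
    exact ⟨k, i, p, ⟨hk, h3, h4⟩, h2, not_le.2 h5⟩
  · rintro ⟨k, i, p, ⟨hk, h3, h4⟩, h2, h5⟩
    exact ⟨k, hk, fun h6 => h5 (h6 i (rt p) (rt_int p) h2 h3 h4)⟩

theorem measurableSet_near {U : ℝ × ℝ → ℝ} (hU : Measurable U) (K b m : ℝ) (s : ℕ) :
    MeasurableSet {z | near U K b m s z} := by
  have h1 : Measurable fun z : ℝ × ℝ => |z.2 - (b + m * z.1)| := by fun_prop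
  have h2 : Measurable fun z : ℝ × ℝ => |U z - m| * (1 / 2 : ℝ) ^ s := by fun_prop
  exact (measurableSet_le h1 measurable_const).inter (measurableSet_le h2 measurable_const)

theorem measurableSet_bad {U h : ℝ × ℝ → ℝ} (hU : Measurable U) (hh : Measurable h) (n s : ℕ) :
    MeasurableSet (Bad U h A n s) := by
  rw [bad_eq]
  refine MeasurableSet.iUnion (fun k => MeasurableSet.iUnion (fun i => MeasurableSet.iUnion
    (fun p => ?_)))
  refine MeasurableSet.inter ((measurableSet_col hh k).inter ?_) (MeasurableSet.const _)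
  exact MeasurableSet.inter (measurable_fst (rt p).measurableSet_I) (measurableSet_near hU _ _ _ _)

/-! ### the first bad scale -/

open Classical in
/-- first scale `s ≤ S` with `z ∈ Bad n s`, `S` if there is none -/
def ff (S n : ℕ) (z : ℝ × ℝ) : ℕ :=
  Nat.find (⟨S, Or.inr le_rfl⟩ : ∃ s, z ∈ Bad U h A n s ∨ S ≤ s)

theorem ff_le (S n : ℕ) (z : ℝ × ℝ) : ff U h A S n z ≤ S := by
  classical
  exact Nat.find_min' _ (Or.inr le_rfl)

theorem ff_of_bad {S n s : ℕ} {z : ℝ × ℝ} (hz : z ∈ Bad U h A n s) : ff U h A S n z ≤ s := by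
  classical
  exact Nat.find_min' _ (Or.inl hz)

theorem not_bad_of_lt {S n s : ℕ} {z : ℝ × ℝ} (hs : s < ff U h A S n z) : z ∉ Bad U h A n s := by
  classical
  intro h1
  exact Nat.find_min _ hs (Or.inl h1)

theorem bad_of_lt {S n s : ℕ} {z : ℝ × ℝ} (hs : ff U h A S n z ≤ s) (hS : s < S) :
    z ∈ Bad U h A n s := by
  classical
  have h1 : z ∈ Bad U h A n (ff U h A S n z) ∨ S ≤ ff U h A S n z := Nat.find_spec (p := fun s => z ∈ Bad U h A n s ∨ S ≤ s) _
  rcases h1 with h1 | h1
  · exact bad_scale U h A hs h1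
  · omega

theorem ff_anti {S n n' : ℕ} (hn : n ≤ n') (z : ℝ × ℝ) : ff U h A S n' z ≤ ff U h A S n z := by
  rcases Nat.lt_or_ge (ff U h A S n z) S with h1 | h1
  · exact ff_of_bad U h A (bad_class U h A hn _ (bad_of_lt U h A le_rfl h1))
  · exact (ff_le U h A S n' z).trans h1

theorem ff_zero (hA : 1 ≤ A) (S : ℕ) (z : ℝ × ℝ) : ff U h A S 0 z = S := by
  apply le_antisymm (ff_le U h A S 0 z)
  by_contra h1
  push Not at h1
  have := bad_of_lt U h A le_rfl h1
  rw [bad_zero U h A hA] at this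
  exact this

theorem measurable_ff {U h : ℝ × ℝ → ℝ} (hU : Measurable U) (hh : Measurable h) (S n : ℕ) :
    Measurable (ff U h A S n) := by
  classical
  refine measurable_find _ (fun s => ?_)
  have : {z : ℝ × ℝ | z ∈ Bad U h A n s ∨ S ≤ s} = Bad U h A n s ∪ {_z | S ≤ s} := rfl
  rw [this]
  exact (measurableSet_bad A hU hh n s).union (MeasurableSet.const _)

/-! ### the exceptional set -/

/-- points which are not classified by `n` classes -/
def QQ (n : ℕ) : Set (ℝ × ℝ) := {z | h z ≠ 0} \ Bad U h A n 0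

theorem exists_int_near (u : ℝ) : ∃ q : ℤ, |u - q| ≤ 1 :=
  ⟨⌊u⌋, by rw [abs_of_nonneg (by linarith [Int.floor_le u])]; linarith [Int.lt_floor_add_one u]⟩

theorem null_inter {U h : ℝ × ℝ → ℝ} (hfin : ∀ k, volume (col h k) ≠ ⊤) :
    volume (⋂ n, QQ U h A n) = 0 := by
  have hsub : (⋂ n, QQ U h A n) ⊆ ⋃ k : ℤ, ⋃ p : ℕ × ℤ × ℤ × ℤ,
      (if volume (col h k ∩ fatV U (2 ^ 0) (rt p)) = 0 then col h k ∩ fatV U (2 ^ 0) (rt p) else ∅) := by
    intro z hz
    simp only [Set.mem_iInter] at hz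
    obtain ⟨k, hk⟩ := col_exists (hz 0).1
    -- an integer line near `z`
    obtain ⟨m, hm⟩ := exists_int_near (U z)
    obtain ⟨b, hb⟩ := exists_int_near (z.2 - m * z.1)
    set j : ℤ := ⌊z.1⌋ with hj
    set p : ℕ × ℤ × ℤ × ℤ := (0, j, b, m) with hp
    have hlen : (rt p).len = 1 := by simp [rt, Tube.len, hp]
    have hI : z.1 ∈ (rt p).I := by
      unfold Tube.I
      rw [hlen]
      refine ⟨?_, ?_⟩
      · simp only [rt, hp, mul_one]; exact Int.floor_le _
      · simp only [rt, hp, mul_one]; exact Int.lt_floor_add_one _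
    have hb' : |z.2 - ((b : ℝ) + m * z.1)| ≤ 1 := by
      have : z.2 - ((b : ℝ) + m * z.1) = z.2 - m * z.1 - b := by ring
      rw [this]; linarith
    have hnear : near U (2 ^ 0) (rt p).b (rt p).m 0 z := by
      refine ⟨?_, ?_⟩
      · simpa [rt, hp] using hb'
      · simp only [rt, hp, pow_zero, mul_one]; linarith
    have hmem : z ∈ col h k ∩ fatV U (2 ^ 0) (rt p) := by
      refine ⟨hk, ⟨⟨hI, ?_⟩, ?_⟩⟩
      · simpa [rt, hp, Tube.line] using hb'
      · rw [hlen]; simpa [near] using hnear.2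
    have hzero : volume (col h k ∩ fatV U (2 ^ 0) (rt p)) = 0 := by
      have h1 : ∀ n : ℕ, (volume (col h k ∩ fatV U (2 ^ 0) (rt p))).toReal ≤ 2 * (1 / 2 : ℝ) ^ n := by
        intro n
        have h2 : upp U h A n k 0 z := by
          by_contra h3
          exact (hz n).2 ⟨k, hk, h3⟩
        have h3 := h2 0 (rt p) (rt_int p) (le_refl _) hI hnear
        rw [hlen] at h3
        simpa using h3
      have h2 : (volume (col h k ∩ fatV U (2 ^ 0) (rt p))).toReal ≤ 0 := by
        have h3 : Filter.Tendsto (fun n : ℕ => 2 * (1 / 2 : ℝ) ^ n) Filter.atTop (nhds (2 * 0)) :=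
          (tendsto_pow_atTop_nhds_zero_of_lt_one (by norm_num) (by norm_num)).const_mul 2
        rw [mul_zero] at h3
        exact ge_of_tendsto' h3 h1
      have h3 : (volume (col h k ∩ fatV U (2 ^ 0) (rt p))).toReal = 0 :=
        le_antisymm h2 ENNReal.toReal_nonneg
      rcases (ENNReal.toReal_eq_zero_iff _).1 h3 with h4 | h4
      · exact h4
      · exact absurd h4 (ne_top_of_le_ne_top (hfin k) (measure_mono Set.inter_subset_left))
    simp only [Set.mem_iUnion]
    refine ⟨k, p, ?_⟩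
    rw [if_pos hzero]
    exact hmem
  refine measure_mono_null hsub ?_
  refine measure_iUnion_null (fun k => measure_iUnion_null (fun p => ?_))
  split_ifs with h1
  · exact h1
  · exact measure_empty

/-! ### telescoping -/

theorem tele (f : ℕ → ℝ) (F : ℕ → ℕ) (hF : ∀ n, F (n + 1) ≤ F n) (lo hi : ℕ) (h0 : hi ≤ F 0) (N : ℕ) :
    ∑ n ∈ Finset.range N, ∑ s ∈ Finset.Ico (max lo (F (n + 1))) (min hi (F n)), f s =
      ∑ s ∈ Finset.Ico (max lo (F N)) hi, f s := by
  induction N with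
  | zero =>
    rw [Finset.range_zero, Finset.sum_empty, Finset.Ico_eq_empty, Finset.sum_empty]
    intro h1
    have := le_max_right lo (F 0)
    omega
  | succ N ih =>
    rw [Finset.sum_range_succ, ih]
    have h1 := hF N
    rcases le_total hi (F N) with h2 | h2
    · rw [min_eq_left h2, Finset.Ico_eq_empty (a := max lo (F N)), Finset.sum_empty, zero_add]
      intro h3
      have := le_max_right lo (F N)
      omega
    · rw [min_eq_right h2]
      rcases le_total lo (F N) with h3 | h3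
      · rw [max_eq_right h3, add_comm,
          Finset.sum_Ico_consecutive _ (max_le h3 h1) h2]
      · rw [max_eq_left h3, max_eq_left (h1.trans h3), Finset.Ico_eq_empty (a := lo) (b := F N),
          Finset.sum_empty, add_zero]
        omega

/-! ### the leaf -/

theorem integrable_sq {h : ℝ × ℝ → ℝ} (hN : Nice h) : Integrable (fun z => (h z) ^ 2) := by
  obtain ⟨hh, ⟨W, hW⟩, ⟨r, hr⟩⟩ := hN
  have h1 : Integrable ((Metric.closedBall (0 : ℝ × ℝ) r).indicator (fun _ => W ^ 2)) :=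
    (integrable_indicator_iff Metric.isClosed_closedBall.measurableSet).2
      (integrableOn_const (measure_closedBall_lt_top).ne)
  refine h1.mono' (hh.pow_const 2).aestronglyMeasurable (Filter.Eventually.of_forall (fun z => ?_))
  rw [Real.norm_eq_abs, abs_of_nonneg (sq_nonneg _)]
  by_cases hz : z ∈ Metric.closedBall (0 : ℝ × ℝ) r
  · rw [Set.indicator_of_mem hz, ← sq_abs (h z)]
    exact pow_le_pow_left₀ (abs_nonneg _) (hW z) 2
  · rw [Set.indicator_of_notMem hz]
    rw [Metric.mem_closedBall, dist_zero_right, not_le] at hz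
    rw [hr z hz]
    norm_num

theorem col_finite {h : ℝ × ℝ → ℝ} (hN : Nice h) (k : ℤ) : volume (col h k) ≠ ⊤ := by
  obtain ⟨hh, ⟨W, hW⟩, ⟨r, hr⟩⟩ := hN
  refine ne_top_of_le_ne_top (measure_closedBall_lt_top (x := (0 : ℝ × ℝ)) (r := r)).ne
    (measure_mono (fun z hz => ?_))
  rw [Metric.mem_closedBall, dist_zero_right]
  by_contra h1
  have h2 := hr z (not_le.1 h1)
  have h3 := hz.1
  rw [h2, abs_zero] at h3
  have h4 : (0 : ℝ) < 2 ^ k := by positivity
  linarith

theorem cls : CLS := by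
  intro A hA U h S lo hi hU hN hch ε hε
  have hA1 : 1 ≤ A := by omega
  have hh : Measurable h := hN.1
  -- the exceptional set
  have hQm : ∀ n, MeasurableSet (QQ U h A n) := fun n =>
    (measurableSet_eq_fun hh measurable_const).compl.diff (measurableSet_bad A hU hh n 0)
  have hanti : Antitone (QQ U h A) := fun n n' hn z hz =>
    ⟨hz.1, fun h1 => hz.2 (bad_class U h A hn 0 h1)⟩
  have hlim := tendsto_setIntegral_of_antitone (μ := volume) (f := fun z => (h z) ^ 2) hQm hanti
    ⟨0, (integrable_sq hN).integrableOn⟩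
  rw [setIntegral_measure_zero _ (null_inter A (col_finite hN))] at hlim
  obtain ⟨n0, hn0⟩ := (hlim.eventually (gt_mem_nhds hε)).exists
  refine ⟨n0, fun n z => max (lo z) (ff U h A S (n + 1) z), fun n z => min (hi z) (ff U h A S n z),
    QQ U h A n0, hQm n0, fun n => ⟨⟨?_, ?_, ?_⟩, ?_, ?_⟩, hn0.le, ?_⟩
  · exact hch.1.max (measurable_ff A hU hh S (n + 1))
  · exact hch.2.1.min (measurable_ff A hU hh S n)
  · exact fun z => (min_le_left _ _).trans (hch.2.2 z)
  · -- upper density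
    intro z _ hlt k hk
    have h1 : min (hi z) (ff U h A S n z) - 1 < ff U h A S n z := by
      have h4 := min_le_right (hi z) (ff U h A S n z)
      have h5 : max (lo z) (ff U h A S (n + 1) z) < min (hi z) (ff U h A S n z) := hlt
      omega
    have h2 := not_bad_of_lt U h A h1
    by_contra h3
    exact h2 ⟨k, hk, h3⟩
  · -- lower density
    intro z _ hlt k hk h3
    have h1 : max (lo z) (ff U h A S (n + 1) z) < S :=
      lt_of_lt_of_le hlt ((min_le_left _ _).trans (hch.2.2 z))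
    obtain ⟨k', hk', h4⟩ := bad_of_lt U h A (le_max_right (lo z) (ff U h A S (n + 1) z)) h1
    rw [col_unique hk' hk] at h4
    exact h4 h3
  · intro z hz hzQ f
    have h0 : ff U h A S n0 z = 0 := by
      have h1 : z ∈ Bad U h A n0 0 := by
        by_contra h2
        exact hzQ ⟨hz, h2⟩
      exact Nat.le_zero.1 (ff_of_bad U h A h1)
    rw [tele f (fun n => ff U h A S n z) (fun n => ff_anti U h A (Nat.le_succ n) z) (lo z) (hi z)
      (by simp only [ff_zero U h A hA1]; exact hch.2.2 z) n0]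
    simp only [h0, Nat.max_zero]

end Crest.Agent.R087.Clsx70
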