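import Crest.Agent.R087.Sh1_283

/-!
Row 87, OUTER SHELL, leaf S4 (helper824): the commutator estimate `COMM` from Lemma L.
-/

set_option autoImplicit false

noncomputable section

open MeasureTheory Crest.Agent.R087.Sh0x283 Crest.Agent.R087.Sh1x283

namespace Crest.Agent.R087.Commx824

section General

variable {X : Type*} [NormedAddCommGroup X] [MeasurableSpace X]

/-- measurable, bounded, bounded support -/
def NiceG (g : X → ℝ) : Prop :=
  Measurable g ∧ (∃ M : ℝ, ∀ x, |g x| ≤ M) ∧ (∃ R : ℝ, ∀ x, R < ‖x‖ → g x = 0)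

theorem NiceG.integrable [BorelSpace X] [ProperSpace X] {μ : Measure X}
    [IsFiniteMeasureOnCompacts μ] {g : X → ℝ} (hg : NiceG g) : Integrable g μ := by
  obtain ⟨h1, ⟨M, h2⟩, ⟨R, h3⟩⟩ := hg
  have hsub : Function.support g ⊆ Metric.closedBall 0 R := by
    intro x hx
    rw [mem_closedBall_zero_iff]
    by_contra h
    push Not at h
    exact hx (h3 x h)
  rw [← integrableOn_iff_integrable_of_support_subset hsub]
  exact Measure.integrableOn_of_bounded (M := M)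
    (isCompact_closedBall (0 : X) R).measure_lt_top.ne h1.aestronglyMeasurable
    (Filter.Eventually.of_forall fun x => by simpa using h2 x)

theorem niceG_of_nice {f : ℝ × ℝ → ℝ} (h : Nice f) : NiceG f := h

theorem niceG_of_nice1 {f : ℝ → ℝ} (h : Nice1 f) : NiceG f := h

/-- Cauchy-Schwarz with weight -/
theorem cs_weight {K D : ℝ → ℝ} (h0 : Integrable fun t => |K t|)
    (h1 : Integrable fun t => |K t| * |D t|) (h2 : Integrable fun t => |K t| * D t ^ 2) :
    (∫ t, K t * D t) ^ 2 ≤ (∫ t, |K t|) * ∫ t, |K t| * D t ^ 2 := by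
  set I0 := ∫ t, |K t|
  set I1 := ∫ t, |K t| * |D t|
  set I2 := ∫ t, |K t| * D t ^ 2
  have hI0 : 0 ≤ I0 := integral_nonneg fun t => abs_nonneg _
  have hI1 : 0 ≤ I1 := integral_nonneg fun t => mul_nonneg (abs_nonneg _) (abs_nonneg _)
  have key : ∀ l : ℝ, 0 ≤ I0 * (l * l) + (-2 * I1) * l + I2 := by
    intro l
    have e1 : ∫ t, |K t| * (|D t| - l) ^ 2 = I0 * (l * l) + (-2 * I1) * l + I2 := by
      have e2 : (fun t => |K t| * (|D t| - l) ^ 2) =
          fun t => (|K t| * D t ^ 2 + (-2 * l) * (|K t| * |D t|)) + (l * l) * |K t| := by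
        funext t
        have : D t ^ 2 = |D t| ^ 2 := (sq_abs _).symm
        rw [this]; ring
      have i1 : Integrable (fun t => |K t| * D t ^ 2 + (-2 * l) * (|K t| * |D t|)) :=
        h2.add (h1.const_mul _)
      have i2 : Integrable (fun t => (l * l) * |K t|) := h0.const_mul _
      rw [e2, integral_add i1 i2, integral_add h2 (h1.const_mul _), integral_const_mul,
        integral_const_mul]
      ring
    rw [← e1]
    exact integral_nonneg fun t => mul_nonneg (abs_nonneg _) (sq_nonneg _)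
  have hd := discrim_le_zero key
  unfold discrim at hd
  have h3 : I1 ^ 2 ≤ I0 * I2 := by nlinarith
  have h4 : |∫ t, K t * D t| ≤ I1 := by
    refine (abs_integral_le_integral_abs).trans (le_of_eq ?_)
    refine integral_congr_ae (Filter.Eventually.of_forall fun t => ?_)
    simp [abs_mul]
  calc (∫ t, K t * D t) ^ 2 = |∫ t, K t * D t| ^ 2 := (sq_abs _).symm
    _ ≤ I1 ^ 2 := pow_le_pow_left₀ (abs_nonneg _) h4 2
    _ ≤ I0 * I2 := h3

end General

section Main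

/-- the commutator with the map at parameter `t` -/
def Dk (φ : ℝ → ℝ) (U f : ℝ × ℝ → ℝ) (k : ℤ) (z : ℝ × ℝ) (t : ℝ) : ℝ :=
  (∫ r, φ r * f (z.1 - t, (z.2 - (2 : ℝ) ^ k * r) - t * U (z.1, z.2 - (2 : ℝ) ^ k * r))) -
    ∫ r, φ r * f (z.1 - t, (z.2 - t * U z) - (2 : ℝ) ^ k * r)

theorem Dk_eq (φ : ℝ → ℝ) (U f : ℝ × ℝ → ℝ) (k : ℤ) (x y : ℝ) (t : ℝ) :
    Dk φ U f k (x, y) t =
      cv1 φ k (fun y => (fun y => f (x - t, y)) (y - (fun y => t * U (x, y)) y)) y -
        cv1 φ k (fun y => f (x - t, y)) (y - (fun y => t * U (x, y)) y) := rfl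

variable {φ : ℝ → ℝ} {U f : ℝ × ℝ → ℝ}

theorem measurable_Dk (hφ : Measurable φ) (hU : Measurable U) (hf : Measurable f) (k : ℤ) :
    Measurable (fun p : (ℝ × ℝ) × ℝ => Dk φ U f k p.1 p.2) := by
  have m1 : Measurable (fun q : ((ℝ × ℝ) × ℝ) × ℝ => φ q.2 * f (q.1.1.1 - q.1.2,
      (q.1.1.2 - (2 : ℝ) ^ k * q.2) - q.1.2 * U (q.1.1.1, q.1.1.2 - (2 : ℝ) ^ k * q.2))) := by
    fun_prop
  have m2 : Measurable (fun q : ((ℝ × ℝ) × ℝ) × ℝ => φ q.2 * f (q.1.1.1 - q.1.2,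
      (q.1.1.2 - q.1.2 * U q.1.1) - (2 : ℝ) ^ k * q.2)) := by
    fun_prop
  have s1 := (m1.stronglyMeasurable.integral_prod_right' (ν := (volume : Measure ℝ))).measurable
  have s2 := (m2.stronglyMeasurable.integral_prod_right' (ν := (volume : Measure ℝ))).measurable
  exact s1.sub s2

theorem phi_niceG (hφ : PhiC φ) : NiceG φ := by
  have hc : Continuous φ := hφ.1.continuous
  refine ⟨hc.measurable, ?_, 1, fun r hr => hφ.2.1 r hr⟩
  have hcs : HasCompactSupport φ := by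
    apply HasCompactSupport.of_support_subset_isCompact (isCompact_closedBall (0 : ℝ) 1)
    intro r hr
    rw [mem_closedBall_zero_iff]
    by_contra h
    push Not at h
    exact hr (hφ.2.1 r h)
  obtain ⟨M, hM⟩ := hc.bounded_above_of_compact_support hcs
  exact ⟨M, fun x => by simpa using hM x⟩

theorem Dk_bound (hφ : PhiC φ) {M : ℝ} (hM : ∀ z, |f z| ≤ M) (k : ℤ) (z : ℝ × ℝ) (t : ℝ) :
    |Dk φ U f k z t| ≤ 2 * ((∫ r, |φ r|) * M) := by
  have hint : Integrable φ := (phi_niceG hφ).integrable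
  have h : ∀ h : ℝ → ℝ × ℝ, |∫ r, φ r * f (h r)| ≤ (∫ r, |φ r|) * M := by
    intro h
    rw [← integral_mul_const, ← Real.norm_eq_abs]
    refine norm_integral_le_of_norm_le (hint.abs.mul_const M) ?_
    refine Filter.Eventually.of_forall fun r => ?_
    rw [Real.norm_eq_abs, abs_mul]
    exact mul_le_mul_of_nonneg_left (hM _) (abs_nonneg _)
  unfold Dk
  refine (abs_sub _ _).trans ?_
  have h1 := h (fun r => (z.1 - t, (z.2 - (2 : ℝ) ^ k * r) - t * U (z.1, z.2 - (2 : ℝ) ^ k * r)))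
  have h2 := h (fun r => (z.1 - t, (z.2 - t * U z) - (2 : ℝ) ^ k * r))
  linarith

theorem Dk_supp (hφ : PhiC φ) {R W : ℝ} (hR : ∀ z, R < ‖z‖ → f z = 0)
    (hW : ∀ z, |U z| ≤ W) (k : ℤ) (z : ℝ × ℝ) (t : ℝ) (ht : |t| ≤ 1)
    (hz : |R| + 1 + (2 : ℝ) ^ k + W < ‖z‖) : Dk φ U f k z t = 0 := by
  have hW0 : 0 ≤ W := (abs_nonneg _).trans (hW z)
  have h2k : (0 : ℝ) < (2 : ℝ) ^ k := by positivity
  have key : ∀ r c u : ℝ, |r| ≤ 1 → |u| ≤ W → c = z.2 - (2 : ℝ) ^ k * r - t * u →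
      f (z.1 - t, c) = 0 := by
    intro r c u hr hu hc
    apply hR
    have h1 : R ≤ |R| := le_abs_self R
    rw [Prod.norm_def] at hz ⊢
    simp only [Real.norm_eq_abs] at hz ⊢
    rcases lt_max_iff.mp hz with h | h
    · apply lt_max_of_lt_left
      have := abs_sub_abs_le_abs_sub z.1 t
      linarith
    · apply lt_max_of_lt_right
      have e1 : |(2 : ℝ) ^ k * r| ≤ (2 : ℝ) ^ k := by
        rw [abs_mul, abs_of_pos h2k]
        nlinarith
      have e2 : |t * u| ≤ W := by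
        rw [abs_mul]
        nlinarith [abs_nonneg t, abs_nonneg u]
      have e3 : |z.2| ≤ |c| + |(2 : ℝ) ^ k * r| + |t * u| := by
        have : z.2 = c + (2 : ℝ) ^ k * r + t * u := by rw [hc]; ring
        calc |z.2| = |c + (2 : ℝ) ^ k * r + t * u| := by rw [← this]
          _ ≤ |c + (2 : ℝ) ^ k * r| + |t * u| := abs_add_le _ _
          _ ≤ |c| + |(2 : ℝ) ^ k * r| + |t * u| := by
              have := abs_add_le c ((2 : ℝ) ^ k * r)
              linarith
      linarith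
  unfold Dk
  have z1 : (∫ r, φ r * f (z.1 - t, (z.2 - (2 : ℝ) ^ k * r) -
      t * U (z.1, z.2 - (2 : ℝ) ^ k * r))) = 0 := by
    apply integral_eq_zero_of_ae
    refine Filter.Eventually.of_forall fun r => ?_
    by_cases hr : |r| ≤ 1
    · have := key r _ (U (z.1, z.2 - (2 : ℝ) ^ k * r)) hr (hW _) rfl
      simp only [Pi.zero_apply]
      rw [this, mul_zero]
    · push Not at hr
      simp only [Pi.zero_apply]
      rw [hφ.2.1 r hr, zero_mul]
  have z2 : (∫ r, φ r * f (z.1 - t, (z.2 - t * U z) - (2 : ℝ) ^ k * r)) = 0 := by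
    apply integral_eq_zero_of_ae
    refine Filter.Eventually.of_forall fun r => ?_
    by_cases hr : |r| ≤ 1
    · have := key r ((z.2 - t * U z) - (2 : ℝ) ^ k * r) (U z) hr (hW _) (by ring)
      simp only [Pi.zero_apply]
      rw [this, mul_zero]
    · push Not at hr
      simp only [Pi.zero_apply]
      rw [hφ.2.1 r hr, zero_mul]
  rw [z1, z2, sub_zero]

theorem niceG_mul_Dk {K : ℝ → ℝ} (hK : NiceG K) (hK1 : ∀ t, 1 < |t| → K t = 0) (hφ : PhiC φ)
    (hU : Measurable U) {W : ℝ} (hW : ∀ z, |U z| ≤ W) (hf : Nice f) (k : ℤ) (n : ℕ) (hn : n ≠ 0) :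
    NiceG (fun p : (ℝ × ℝ) × ℝ => |K p.2| * Dk φ U f k p.1 p.2 ^ n) := by
  obtain ⟨f1, ⟨M, f2⟩, ⟨R, f3⟩⟩ := hf
  obtain ⟨k1, ⟨N, k2⟩, -⟩ := hK
  have hm := measurable_Dk (φ := φ) (U := U) (f := f) hφ.1.continuous.measurable hU f1 k
  refine ⟨?_, ⟨|N| * |2 * ((∫ r, |φ r|) * M)| ^ n, fun p => ?_⟩,
    ⟨max (|R| + 1 + (2 : ℝ) ^ k + W) 1, fun p hp => ?_⟩⟩
  · exact ((k1.comp measurable_snd).abs).mul (hm.pow_const n)
  · rw [abs_mul, abs_abs, abs_pow]
    refine mul_le_mul ((k2 _).trans (le_abs_self _)) ?_ (by positivity) (abs_nonneg _)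
    exact pow_le_pow_left₀ (abs_nonneg _) ((Dk_bound hφ f2 k p.1 p.2).trans (le_abs_self _)) n
  · by_cases ht : |p.2| ≤ 1
    · have : Dk φ U f k p.1 p.2 = 0 := by
        apply Dk_supp hφ f3 hW k p.1 p.2 ht
        rw [Prod.norm_def] at hp
        rcases lt_max_iff.mp hp with h | h
        · exact (le_max_left _ _).trans_lt h
        · exfalso
          have := (le_max_right (|R| + 1 + (2 : ℝ) ^ k + W) 1).trans_lt h
          rw [Real.norm_eq_abs] at this
          linarith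
      change |K p.2| * Dk φ U f k p.1 p.2 ^ n = 0
      rw [this, zero_pow hn, mul_zero]
    · push Not at ht
      change |K p.2| * Dk φ U f k p.1 p.2 ^ n = 0
      rw [hK1 _ ht]
      simp

theorem niceG_Dk_slice (hφ : PhiC φ)
    (hU : Measurable U) {W : ℝ} (hW : ∀ z, |U z| ≤ W) (hf : Nice f) (k : ℤ) (t : ℝ) (ht : |t| ≤ 1) :
    NiceG (fun z : ℝ × ℝ => Dk φ U f k z t ^ 2) := by
  obtain ⟨f1, ⟨M, f2⟩, ⟨R, f3⟩⟩ := hf
  have hm := measurable_Dk (φ := φ) (U := U) (f := f) hφ.1.continuous.measurable hU f1 k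
  refine ⟨(hm.comp (measurable_id.prodMk measurable_const)).pow_const 2,
    ⟨|2 * ((∫ r, |φ r|) * M)| ^ 2, fun z => ?_⟩, ⟨|R| + 1 + (2 : ℝ) ^ k + W, fun z hz => ?_⟩⟩
  · rw [abs_pow]
    exact pow_le_pow_left₀ (abs_nonneg _) ((Dk_bound hφ f2 k z t).trans (le_abs_self _)) 2
  · have : Dk φ U f k z t = 0 := Dk_supp hφ f3 hW k z t ht hz
    change Dk φ U f k z t ^ 2 = 0
    rw [this]; norm_num

theorem niceG_slice {X : Type*} [NormedAddCommGroup X] [MeasurableSpace X]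
    {h : X × ℝ → ℝ} (hh : NiceG h) (x : X) : NiceG (fun t : ℝ => h (x, t)) := by
  obtain ⟨h1, ⟨M, h2⟩, ⟨R, h3⟩⟩ := hh
  refine ⟨h1.comp (measurable_const.prodMk measurable_id), ⟨M, fun t => h2 _⟩, ⟨R, fun t ht => ?_⟩⟩
  apply h3
  rw [Prod.norm_def]
  exact ht.trans_le (le_max_right _ _)

theorem nice_sq {f : ℝ × ℝ → ℝ} (hf : Nice f) : NiceG (fun z => f z ^ 2) := by
  obtain ⟨f1, ⟨M, f2⟩, ⟨R, f3⟩⟩ := hf
  refine ⟨f1.pow_const 2, ⟨|M| ^ 2, fun z => ?_⟩, ⟨R, fun z hz => by simp only; rw [f3 z hz]; norm_num⟩⟩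
  rw [abs_pow]
  exact pow_le_pow_left₀ (abs_nonneg _) ((f2 z).trans (le_abs_self _)) 2

theorem nice1_shift {f : ℝ × ℝ → ℝ} (hf : Nice f) (a : ℝ) : Nice1 (fun y => f (a, y)) := by
  obtain ⟨f1, ⟨M, f2⟩, ⟨R, f3⟩⟩ := hf
  refine ⟨f1.comp (measurable_const.prodMk measurable_id), ⟨M, fun t => f2 _⟩,
    ⟨R, fun y hy => ?_⟩⟩
  apply f3
  rw [Prod.norm_def]
  exact hy.trans_le (le_max_right _ _)

/-- the estimate at a fixed `t` -/
theorem slice_bound {C : ℝ} (_hC : 0 ≤ C)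
    (hL : ∀ (δ : ℝ) (w : ℝ → ℝ), 0 ≤ δ → δ ≤ 1 / 2 →
      ContDiff ℝ 1 w → (∀ y y', |w y - w y'| ≤ δ * |y - y'|) → ∀ g : ℝ → ℝ, Nice1 g → ∀ F : Finset ℤ,
      ∑ k ∈ F, ∫ y, (cv1 φ k (fun y => g (y - w y)) y - cv1 φ k g (y - w y)) ^ 2 ≤
        C * δ ^ 2 * ∫ y, (g y) ^ 2)
    (hφ : PhiC φ) (hU : Fld (1 / 2) U) (hU1 : ∀ x, ContDiff ℝ 1 (fun y => U (x, y)))
    (hf : Nice f) (F : Finset ℤ) (t : ℝ) (ht : |t| ≤ 1) :
    ∑ k ∈ F, ∫ z, Dk φ U f k z t ^ 2 ≤ C * (|t| / 2) ^ 2 * ∫ z, (f z) ^ 2 := by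
  obtain ⟨u1, ⟨W, u2⟩, u3⟩ := hU
  have hi : ∀ k, Integrable (fun z : ℝ × ℝ => Dk φ U f k z t ^ 2) (volume.prod volume) := fun k =>
    (niceG_Dk_slice hφ u1 u2 hf k t ht).integrable
  have e1 : ∀ k, ∫ z, Dk φ U f k z t ^ 2 = ∫ x, ∫ y, Dk φ U f k (x, y) t ^ 2 := fun k => by
    rw [Measure.volume_eq_prod, integral_prod _ (hi k)]
  have hif : Integrable (fun z : ℝ × ℝ => (f z) ^ 2) (volume.prod volume) :=
    (nice_sq hf).integrable
  have e2 : ∫ z, (f z) ^ 2 = ∫ x, ∫ y, f (x - t, y) ^ 2 := by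
    rw [Measure.volume_eq_prod, integral_prod _ hif]
    exact (integral_sub_right_eq_self (fun x => ∫ y, f (x, y) ^ 2) t).symm
  simp_rw [e1]
  rw [← integral_finsetSum _ fun k _ => (hi k).integral_prod_left, e2, ← integral_const_mul]
  apply integral_mono
  · exact integrable_finsetSum _ fun k _ => (hi k).integral_prod_left
  · exact (hif.integral_prod_left.comp_sub_right t).const_mul _
  · intro x
    have := hL (|t| / 2) (fun y => t * U (x, y)) (by positivity) (by linarith)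
      (contDiff_const.mul (hU1 x)) (fun y y' => by
        have h := u3 x y y'
        rw [← mul_sub, abs_mul]
        calc |t| * |U (x, y) - U (x, y')| ≤ |t| * (1 / 2 * |y - y'|) :=
              mul_le_mul_of_nonneg_left h (abs_nonneg _)
          _ = |t| / 2 * |y - y'| := by ring)
      (fun y => f (x - t, y)) (nice1_shift hf _) F
    exact this

theorem single {C : ℝ} (hC : 0 ≤ C)
    (hL : ∀ (δ : ℝ) (w : ℝ → ℝ), 0 ≤ δ → δ ≤ 1 / 2 →
      ContDiff ℝ 1 w → (∀ y y', |w y - w y'| ≤ δ * |y - y'|) → ∀ g : ℝ → ℝ, Nice1 g → ∀ F : Finset ℤ,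
      ∑ k ∈ F, ∫ y, (cv1 φ k (fun y => g (y - w y)) y - cv1 φ k g (y - w y)) ^ 2 ≤
        C * δ ^ 2 * ∫ y, (g y) ^ 2)
    (hφ : PhiC φ) (hU : Fld (1 / 2) U) (hU1 : ∀ x, ContDiff ℝ 1 (fun y => U (x, y)))
    (hf : Nice f) (F : Finset ℤ) {K : ℝ → ℝ} (hK : NiceG K) {ρ : ℝ} (_hρ0 : 0 ≤ ρ) (hρ : ρ ≤ 1)
    (hKρ : ∀ t, ρ < |t| → K t = 0) :
    ∑ k ∈ F, ∫ z, (∫ t, K t * Dk φ U f k z t) ^ 2 ≤
      C * (ρ / 2) ^ 2 * (∫ t, |K t|) ^ 2 * ∫ z, (f z) ^ 2 := by
  have hK1 : ∀ t, 1 < |t| → K t = 0 := fun t ht => hKρ t (hρ.trans_lt ht)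
  obtain ⟨u1, ⟨W, u2⟩, u3⟩ := hU
  set I := ∫ z, (f z) ^ 2 with hI
  have hI0 : 0 ≤ I := integral_nonneg fun z => sq_nonneg _
  have n2 := fun k => niceG_mul_Dk hK hK1 hφ u1 u2 hf k 2 two_ne_zero
  have n1 := fun k => niceG_mul_Dk hK hK1 hφ u1 u2 hf k 1 one_ne_zero
  have hKi : Integrable fun t => |K t| := hK.integrable.abs
  -- Cauchy-Schwarz
  have A1 : ∀ k z, (∫ t, K t * Dk φ U f k z t) ^ 2 ≤
      (∫ t, |K t|) * ∫ t, |K t| * Dk φ U f k z t ^ 2 := by
    intro k z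
    refine cs_weight hKi ?_ (niceG_slice (n2 k) z).integrable
    have h := (niceG_slice (n1 k) z).integrable (μ := (volume : Measure ℝ))
    refine h.abs.congr (Filter.Eventually.of_forall fun t => ?_)
    simp [abs_mul]
  have i2 : ∀ k, Integrable (fun p : (ℝ × ℝ) × ℝ => |K p.2| * Dk φ U f k p.1 p.2 ^ 2)
      (volume.prod volume) := fun k => (n2 k).integrable
  have A2 : ∀ k, ∫ z, (∫ t, K t * Dk φ U f k z t) ^ 2 ≤
      (∫ t, |K t|) * ∫ t, |K t| * ∫ z, Dk φ U f k z t ^ 2 := by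
    intro k
    have e1 : ∫ z, ∫ t, |K t| * Dk φ U f k z t ^ 2 = ∫ t, |K t| * ∫ z, Dk φ U f k z t ^ 2 := by
      rw [integral_integral_swap (i2 k)]
      refine integral_congr_ae (Filter.Eventually.of_forall fun t => ?_)
      exact integral_const_mul _ _
    rw [← e1, ← integral_const_mul]
    refine integral_mono_of_nonneg (Filter.Eventually.of_forall fun z => sq_nonneg _) ?_
      (Filter.Eventually.of_forall fun z => A1 k z)
    exact (i2 k).integral_prod_left.const_mul _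
  have i3 : ∀ k, Integrable (fun t => |K t| * ∫ z, Dk φ U f k z t ^ 2) := by
    intro k
    refine (i2 k).integral_prod_right.congr (Filter.Eventually.of_forall fun t => ?_)
    exact integral_const_mul (μ := (volume : Measure (ℝ × ℝ))) (|K t|)
      (fun z => Dk φ U f k z t ^ 2)
  have hsum : ∑ k ∈ F, ∫ t, |K t| * ∫ z, Dk φ U f k z t ^ 2 ≤
      (∫ t, |K t|) * (C * (ρ / 2) ^ 2 * I) := by
    rw [← integral_finsetSum _ fun k _ => i3 k, ← integral_mul_const]
    refine integral_mono (integrable_finsetSum _ fun k _ => i3 k) (hKi.mul_const _) fun t => ?_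
    simp only
    rw [← Finset.mul_sum]
    by_cases ht : |t| ≤ ρ
    · refine mul_le_mul_of_nonneg_left ?_ (abs_nonneg _)
      refine (slice_bound hC hL hφ ⟨u1, ⟨W, u2⟩, u3⟩ hU1 hf F t (ht.trans hρ)).trans ?_
      refine mul_le_mul_of_nonneg_right ?_ hI0
      refine mul_le_mul_of_nonneg_left ?_ hC
      exact pow_le_pow_left₀ (by positivity) (by linarith) 2
    · push Not at ht
      rw [hKρ t ht]
      simp
  calc ∑ k ∈ F, ∫ z, (∫ t, K t * Dk φ U f k z t) ^ 2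
      ≤ ∑ k ∈ F, (∫ t, |K t|) * ∫ t, |K t| * ∫ z, Dk φ U f k z t ^ 2 :=
        Finset.sum_le_sum fun k _ => A2 k
    _ = (∫ t, |K t|) * ∑ k ∈ F, ∫ t, |K t| * ∫ z, Dk φ U f k z t ^ 2 := by rw [Finset.mul_sum]
    _ ≤ (∫ t, |K t|) * ((∫ t, |K t|) * (C * (ρ / 2) ^ 2 * I)) :=
        mul_le_mul_of_nonneg_left hsum (integral_nonneg fun t => abs_nonneg _)
    _ = C * (ρ / 2) ^ 2 * (∫ t, |K t|) ^ 2 * I := by ring

/-- the difference as an integral in `t` -/
theorem diff_eq (hφ : PhiC φ) (hU : Fld (1 / 2) U) (hf : Nice f) {K : ℝ → ℝ} (hK : NiceG K)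
    (k : ℤ) (z : ℝ × ℝ) :
    cv φ k (tk K U f) z - tk K U (cv φ k f) z = ∫ t, K t * Dk φ U f k z t := by
  obtain ⟨u1, ⟨W, u2⟩, u3⟩ := hU
  obtain ⟨f1, ⟨M, f2⟩, ⟨R, f3⟩⟩ := hf
  obtain ⟨k1, ⟨N, k2⟩, ⟨Q, k3⟩⟩ := hK
  obtain ⟨p1, ⟨P, p2⟩, ⟨p0, p3⟩⟩ := phi_niceG hφ
  have nice2 : ∀ h : ℝ × ℝ → ℝ × ℝ, Measurable h →
      NiceG (fun q : ℝ × ℝ => K q.1 * (φ q.2 * f (h q))) := by
    intro h hh
    refine ⟨(k1.comp measurable_fst).mul ((p1.comp measurable_snd).mul (f1.comp hh)),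
      ⟨|N| * (|P| * |M|), fun q => ?_⟩, ⟨max Q p0, fun q hq => ?_⟩⟩
    · rw [abs_mul, abs_mul]
      refine mul_le_mul ((k2 _).trans (le_abs_self _)) ?_ (by positivity) (abs_nonneg _)
      exact mul_le_mul ((p2 _).trans (le_abs_self _)) ((f2 _).trans (le_abs_self _))
        (abs_nonneg _) (abs_nonneg _)
    · rw [Prod.norm_def] at hq
      rcases lt_max_iff.mp hq with h' | h'
      · change K q.1 * (φ q.2 * f (h q)) = 0
        rw [k3 _ ((le_max_left _ _).trans_lt h')]; simp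
      · change K q.1 * (φ q.2 * f (h q)) = 0
        rw [p3 _ ((le_max_right _ _).trans_lt h')]; simp
  set h1 : ℝ × ℝ → ℝ × ℝ := fun q => (z.1 - q.1, (z.2 - (2 : ℝ) ^ k * q.2) -
    q.1 * U (z.1, z.2 - (2 : ℝ) ^ k * q.2)) with hh1
  set h2 : ℝ × ℝ → ℝ × ℝ := fun q => (z.1 - q.1, (z.2 - q.1 * U z) - (2 : ℝ) ^ k * q.2) with hh2
  have m1 : Measurable h1 := by rw [hh1]; fun_prop
  have m2 : Measurable h2 := by rw [hh2]; fun_prop
  have i1 : Integrable (fun q : ℝ × ℝ => K q.1 * (φ q.2 * f (h1 q))) (volume.prod volume) :=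
    (nice2 h1 m1).integrable
  have i2 : Integrable (fun q : ℝ × ℝ => K q.1 * (φ q.2 * f (h2 q))) (volume.prod volume) :=
    (nice2 h2 m2).integrable
  have e1 : cv φ k (tk K U f) z = ∫ t, K t * ∫ r, φ r * f (h1 (t, r)) := by
    calc cv φ k (tk K U f) z = ∫ r, ∫ t, K t * (φ r * f (h1 (t, r))) := by
          refine integral_congr_ae (Filter.Eventually.of_forall fun r => ?_)
          simp only [tk]
          rw [← integral_const_mul]
          refine integral_congr_ae (Filter.Eventually.of_forall fun t => ?_)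
          simp only [hh1]
          ring
      _ = ∫ t, ∫ r, K t * (φ r * f (h1 (t, r))) := (integral_integral_swap i1).symm
      _ = ∫ t, K t * ∫ r, φ r * f (h1 (t, r)) :=
          integral_congr_ae (Filter.Eventually.of_forall fun t => integral_const_mul _ _)
  have e2 : tk K U (cv φ k f) z = ∫ t, K t * ∫ r, φ r * f (h2 (t, r)) := rfl
  have j1 : Integrable (fun t => K t * ∫ r, φ r * f (h1 (t, r))) :=
    i1.integral_prod_left.congr (Filter.Eventually.of_forall fun t =>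
      integral_const_mul (μ := (volume : Measure ℝ)) (K t) (fun r => φ r * f (h1 (t, r))))
  have j2 : Integrable (fun t => K t * ∫ r, φ r * f (h2 (t, r))) :=
    i2.integral_prod_left.congr (Filter.Eventually.of_forall fun t =>
      integral_const_mul (μ := (volume : Measure ℝ)) (K t) (fun r => φ r * f (h2 (t, r))))
  rw [e1, e2, ← integral_sub j1 j2]
  refine integral_congr_ae (Filter.Eventually.of_forall fun t => ?_)
  simp only [Dk, hh1, hh2]
  ring

end Main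

theorem psi_piece {ψ : ℝ → ℝ} (hψ : PsiC ψ) (s : ℕ) :
    NiceG (fun t => (2 : ℝ) ^ s * ψ ((2 : ℝ) ^ s * t)) ∧
    (∀ t, ((2 : ℝ) ^ s)⁻¹ < |t| → (2 : ℝ) ^ s * ψ ((2 : ℝ) ^ s * t) = 0) ∧
    ∫ t, |(2 : ℝ) ^ s * ψ ((2 : ℝ) ^ s * t)| = ∫ t, |ψ t| := by
  obtain ⟨h1, h2, h3⟩ := hψ
  have hpos : (0 : ℝ) < (2 : ℝ) ^ s := by positivity
  have hsupp : ∀ t, ((2 : ℝ) ^ s)⁻¹ < |t| → (2 : ℝ) ^ s * ψ ((2 : ℝ) ^ s * t) = 0 := by
    intro t ht
    by_contra hne
    have hne' : ψ ((2 : ℝ) ^ s * t) ≠ 0 := fun h => hne (by rw [h, mul_zero])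
    have := (h3 _ hne').2
    rw [abs_mul, abs_of_pos hpos] at this
    have h4 : 1 < (2 : ℝ) ^ s * |t| := by
      rwa [inv_lt_iff_one_lt_mul₀ hpos, mul_comm] at ht
    linarith
  have hc : HasCompactSupport ψ := by
    apply HasCompactSupport.of_support_subset_isCompact (isCompact_closedBall (0 : ℝ) 1)
    intro r hr
    rw [mem_closedBall_zero_iff]
    exact (h3 r hr).2
  obtain ⟨M, hM⟩ := h1.continuous.bounded_above_of_compact_support hc
  refine ⟨⟨?_, ⟨(2 : ℝ) ^ s * M, fun t => ?_⟩, ⟨((2 : ℝ) ^ s)⁻¹, hsupp⟩⟩, hsupp, ?_⟩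
  · have := h1.continuous
    fun_prop
  · rw [abs_mul, abs_of_pos hpos]
    exact mul_le_mul_of_nonneg_left (by simpa using hM ((2 : ℝ) ^ s * t)) hpos.le
  · have e : (fun t => |(2 : ℝ) ^ s * ψ ((2 : ℝ) ^ s * t)|) =
        fun t => (2 : ℝ) ^ s * |ψ ((2 : ℝ) ^ s * t)| := by
      funext t
      rw [abs_mul, abs_of_pos hpos]
    rw [e, integral_const_mul, Measure.integral_comp_mul_left (fun t => |ψ t|), abs_inv,
      abs_of_pos hpos, smul_eq_mul, mul_inv_cancel_left₀ hpos.ne']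

/-- S4 -/
theorem comm : LemL → COMM := by
  intro hLem φ ψ hφ hψ
  obtain ⟨C, hC, hL⟩ := hLem φ hφ
  set Ψ := ∫ t, |ψ t| with hΨ
  refine ⟨C * Ψ ^ 2, by positivity, ?_⟩
  intro U f hU hU1 hf S F
  set I := ∫ z, (f z) ^ 2 with hI
  have hI0 : 0 ≤ I := integral_nonneg fun z => sq_nonneg _
  set Ks : ℕ → ℝ → ℝ := fun s t => (2 : ℝ) ^ s * ψ ((2 : ℝ) ^ s * t) with hKs
  have p := fun s => psi_piece hψ s
  have hU' := hU
  obtain ⟨u1, ⟨W, u2⟩, u3⟩ := hU'
  have hone : ∀ s : ℕ, ((2 : ℝ) ^ s)⁻¹ ≤ 1 := fun s => inv_le_one_of_one_le₀ (one_le_pow₀ (by norm_num))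
  have hK1 : ∀ s t, 1 < |t| → Ks s t = 0 := fun s t ht => (p s).2.1 t ((hone s).trans_lt ht)
  -- the full kernel is nice
  have hKer : NiceG (kerS ψ S) := by
    refine ⟨?_, ⟨∑ s ∈ Finset.range S, (p s).1.2.1.choose, fun t => ?_⟩, ⟨1, fun t ht => ?_⟩⟩
    · unfold kerS
      exact Finset.measurable_sum _ fun s _ => (p s).1.1
    · unfold kerS
      refine (Finset.abs_sum_le_sum_abs _ _).trans (Finset.sum_le_sum fun s _ => ?_)
      exact (p s).1.2.1.choose_spec t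
    · unfold kerS
      refine Finset.sum_eq_zero fun s _ => hK1 s t ?_
      simpa using ht
  have hint : ∀ s k z, Integrable (fun t => Ks s t * Dk φ U f k z t) := by
    intro s k z
    have n1 := niceG_mul_Dk (p s).1 (hK1 s) hφ u1 u2 hf k 1 one_ne_zero
    have h := (niceG_slice n1 z).integrable (μ := (volume : Measure ℝ))
    refine h.mono ?_ (Filter.Eventually.of_forall fun t => ?_)
    · have hm := measurable_Dk (φ := φ) (U := U) (f := f) hφ.1.continuous.measurable u1 hf.1 k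
      exact ((p s).1.1.mul (hm.comp (measurable_const.prodMk measurable_id))).aestronglyMeasurable
    · simp [abs_mul, hKs]
  set a : ℕ → ℤ → ℝ × ℝ → ℝ := fun s k z => ∫ t, Ks s t * Dk φ U f k z t with ha
  have hd : ∀ k z, cv φ k (tk (kerS ψ S) U f) z - tk (kerS ψ S) U (cv φ k f) z =
      ∑ s ∈ Finset.range S, a s k z := by
    intro k z
    rw [diff_eq hφ hU hf hKer]
    simp only [ha]
    rw [← integral_finsetSum _ fun s _ => hint s k z]
    refine integral_congr_ae (Filter.Eventually.of_forall fun t => ?_)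
    simp only [kerS, hKs]
    rw [Finset.sum_mul]
  have hgeo : ∑ s ∈ Finset.range S, ((2 : ℝ) ^ s)⁻¹ ≤ 2 := by
    have h1 : ∀ s : ℕ, ((2 : ℝ) ^ s)⁻¹ = (1 / 2 : ℝ) ^ s := fun s => by
      rw [one_div, inv_pow]
    simp_rw [h1]
    have := (summable_geometric_two).sum_le_tsum (Finset.range S) (fun i _ => by positivity)
    rwa [tsum_geometric_two] at this
  have hcs : ∀ k z, (∑ s ∈ Finset.range S, a s k z) ^ 2 ≤
      2 * ∑ s ∈ Finset.range S, (2 : ℝ) ^ s * a s k z ^ 2 := by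
    intro k z
    have h1 := Finset.sum_sq_le_sum_mul_sum_of_sq_le_mul (Finset.range S)
      (r := fun s => a s k z) (f := fun s => ((2 : ℝ) ^ s)⁻¹)
      (g := fun s => (2 : ℝ) ^ s * a s k z ^ 2) (fun s _ => by positivity) (fun s _ => by positivity)
      (fun s _ => by
        rw [inv_mul_cancel_left₀ (by positivity)])
    refine h1.trans ?_
    refine mul_le_mul_of_nonneg_right hgeo ?_
    exact Finset.sum_nonneg fun s _ => by positivity
  have hs : ∀ s, ∑ k ∈ F, ∫ z, a s k z ^ 2 ≤ C * (((2 : ℝ) ^ s)⁻¹ / 2) ^ 2 * Ψ ^ 2 * I := by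
    intro s
    have h1 := single hC hL hφ hU hU1 hf F (p s).1 (ρ := ((2 : ℝ) ^ s)⁻¹) (by positivity) (hone s)
      (p s).2.1
    rw [(p s).2.2] at h1
    exact h1
  -- integrability of the squares
  have hai : ∀ s k, Integrable (fun z => a s k z ^ 2) := by
    intro s k
    have n2 := niceG_mul_Dk (p s).1 (hK1 s) hφ u1 u2 hf k 2 two_ne_zero
    have n1 := niceG_mul_Dk (p s).1 (hK1 s) hφ u1 u2 hf k 1 one_ne_zero
    have i2 : Integrable (fun q : (ℝ × ℝ) × ℝ => |Ks s q.2| * Dk φ U f k q.1 q.2 ^ 2)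
      (volume.prod volume) := n2.integrable
    have hm := measurable_Dk (φ := φ) (U := U) (f := f) hφ.1.continuous.measurable u1 hf.1 k
    have hmeas : Measurable (fun z => a s k z) := by
      have : Measurable (fun q : (ℝ × ℝ) × ℝ => Ks s q.2 * Dk φ U f k q.1 q.2) :=
        ((p s).1.1.comp measurable_snd).mul hm
      exact (this.stronglyMeasurable.integral_prod_right' (ν := (volume : Measure ℝ))).measurable
    refine (i2.integral_prod_left.const_mul (∫ t, |Ks s t|)).mono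
      (hmeas.pow_const 2).aestronglyMeasurable (Filter.Eventually.of_forall fun z => ?_)
    rw [Real.norm_eq_abs, Real.norm_eq_abs, abs_of_nonneg (sq_nonneg _)]
    refine le_trans ?_ (le_abs_self _)
    refine cs_weight (p s).1.integrable.abs ?_ (niceG_slice n2 z).integrable
    have h := (niceG_slice n1 z).integrable (μ := (volume : Measure ℝ))
    refine h.abs.congr (Filter.Eventually.of_forall fun t => ?_)
    simp [abs_mul, hKs]
  calc ∑ k ∈ F, ∫ z, (cv φ k (tk (kerS ψ S) U f) z - tk (kerS ψ S) U (cv φ k f) z) ^ 2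
      ≤ ∑ k ∈ F, ∑ s ∈ Finset.range S, 2 * (2 : ℝ) ^ s * ∫ z, a s k z ^ 2 := by
        refine Finset.sum_le_sum fun k _ => ?_
        have e : ∑ s ∈ Finset.range S, 2 * (2 : ℝ) ^ s * ∫ z, a s k z ^ 2 =
            ∫ z, 2 * ∑ s ∈ Finset.range S, (2 : ℝ) ^ s * a s k z ^ 2 := by
          rw [integral_const_mul, integral_finsetSum _ fun s _ => (hai s k).const_mul _,
            Finset.mul_sum]
          refine Finset.sum_congr rfl fun s _ => ?_
          rw [integral_const_mul]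
          ring
        rw [e]
        refine integral_mono_of_nonneg (Filter.Eventually.of_forall fun z => sq_nonneg _) ?_
          (Filter.Eventually.of_forall fun z => ?_)
        · exact (integrable_finsetSum _ fun s _ => (hai s k).const_mul _).const_mul _
        · simp only
          rw [hd]
          exact hcs k z
    _ = ∑ s ∈ Finset.range S, 2 * (2 : ℝ) ^ s * ∑ k ∈ F, ∫ z, a s k z ^ 2 := by
        rw [Finset.sum_comm]
        refine Finset.sum_congr rfl fun s _ => ?_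
        rw [Finset.mul_sum]
    _ ≤ ∑ s ∈ Finset.range S, 2 * (2 : ℝ) ^ s * (C * (((2 : ℝ) ^ s)⁻¹ / 2) ^ 2 * Ψ ^ 2 * I) :=
        Finset.sum_le_sum fun s _ => mul_le_mul_of_nonneg_left (hs s) (by positivity)
    _ = (C * Ψ ^ 2 * I / 2) * ∑ s ∈ Finset.range S, ((2 : ℝ) ^ s)⁻¹ := by
        rw [Finset.mul_sum]
        refine Finset.sum_congr rfl fun s _ => ?_
        have : (2 : ℝ) ^ s ≠ 0 := by positivity
        field_simp
    _ ≤ (C * Ψ ^ 2 * I / 2) * 2 := mul_le_mul_of_nonneg_left hgeo (by positivity)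
    _ = C * Ψ ^ 2 * I := by ring

end Crest.Agent.R087.Commx824
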