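import Crest.Agent.R087.SQT1_90

/-!
Row 87, shell leaf S2a: dyadic Carleson embedding (Bellman function), helper90.
-/

set_option autoImplicit false

noncomputable section

open MeasureTheory Crest.Agent.R087.Sh0x283 Crest.Agent.R087.Sh1x283 Crest.Agent.R087.SqIx90
  Crest.Agent.R087.SqBx90

namespace Crest.Agent.R087.DCEx90

theorem intOn {f : ℝ → ℝ} (hm : Measurable f) (hb : ∃ M : ℝ, ∀ y, |f y| ≤ M) (n m : ℤ) :
    IntegrableOn f (II n m) := by
  obtain ⟨M, hM⟩ := hb
  refine Measure.integrableOn_of_bounded (M := M) (by rw [volume_II]; exact ENNReal.ofReal_ne_top)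
    hm.aestronglyMeasurable ?_
  exact Filter.Eventually.of_forall fun y => by simpa using hM y

theorem EE_add_bdd {n : ℤ} {f g : ℝ → ℝ} (hf : Measurable f) (hfb : ∃ M : ℝ, ∀ y, |f y| ≤ M)
    (hg : Measurable g) (hgb : ∃ M : ℝ, ∀ y, |g y| ≤ M) (y : ℝ) :
    EE n (fun y => f y + g y) y = EE n f y + EE n g y := by
  unfold EE
  rw [integral_add (intOn hf hfb n _) (intOn hg hgb n _)]
  ring

theorem EE_EE_bdd {m n : ℤ} (h : m ≤ n) {f : ℝ → ℝ} (hf : Measurable f)
    (hfb : ∃ M : ℝ, ∀ y, |f y| ≤ M) : EE n (EE m f) = EE n f := by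
  classical
  obtain ⟨M, hM⟩ := hfb
  funext y
  unfold EE
  congr 1
  change ∫ r in II n (fl n y), EE m f r = ∫ r in II n (fl n y), f r
  have hl : Cst m (Set.indicator (II n (fl n y)) (fun _ => (1 : ℝ))) := by
    intro z z' hz
    have : z ∈ II n (fl n y) ↔ z' ∈ II n (fl n y) := by
      rw [mem_II, mem_II, fl_mono h hz]
    by_cases hh : z ∈ II n (fl n y)
    · rw [Set.indicator_of_mem hh, Set.indicator_of_mem (this.1 hh)]
    · rw [Set.indicator_of_notMem hh, Set.indicator_of_notMem (fun h' => hh (this.2 h'))]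
  have aux : ∀ g : ℝ → ℝ, Set.indicator (II n (fl n y)) g =
      fun z => Set.indicator (II n (fl n y)) (fun _ => (1 : ℝ)) z * g z := by
    intro g
    funext z
    by_cases hh : z ∈ II n (fl n y)
    · rw [Set.indicator_of_mem hh, Set.indicator_of_mem hh, one_mul]
    · rw [Set.indicator_of_notMem hh, Set.indicator_of_notMem hh, zero_mul]
  have i1 : Integrable (fun z => Set.indicator (II n (fl n y)) (fun _ => (1 : ℝ)) z * f z) := by
    rw [← aux f]
    exact (intOn hf ⟨M, hM⟩ n _).integrable_indicator (measurableSet_II _ _)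
  have i2 : Integrable (fun z => Set.indicator (II n (fl n y)) (fun _ => (1 : ℝ)) z * EE m f z) := by
    rw [← aux (EE m f)]
    exact (intOn (cst_EE m f).measurable ⟨M, EE_bound hM m⟩ n _).integrable_indicator
      (measurableSet_II _ _)
  have key := integral_mul_EE hl i1 i2
  rw [← integral_indicator (measurableSet_II _ _), ← integral_indicator (measurableSet_II _ _)]
  rw [aux (EE m f), aux f, key]

/-- Jensen's inequality for `(f, w) ↦ f² / (c + w)`. -/
theorem jensen {c : ℝ} (hc : 0 < c) {G w : ℝ → ℝ} (hG : Nice1 G) (hw : Measurable w)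
    (hwb : ∃ M : ℝ, ∀ y, |w y| ≤ M) (hw0 : ∀ y, 0 ≤ w y) (n : ℤ) :
    ∫ y, EE n G y ^ 2 / (c + EE n w y) ≤ ∫ y, G y ^ 2 / (c + w y) := by
  have hwn0 : ∀ y, 0 ≤ EE n w y := EE_nonneg hw0
  obtain ⟨W, hW⟩ := hwb
  -- reciprocals are bounded
  have hinv : ∀ v : ℝ → ℝ, (∀ y, 0 ≤ v y) → ∀ y, |(c + v y)⁻¹| ≤ c⁻¹ := by
    intro v hv y
    rw [abs_of_nonneg (inv_nonneg.2 (by linarith [hv y]))]
    exact inv_anti₀ hc (by linarith [hv y])
  have hwm : Measurable (EE n w) := (cst_EE n w).measurable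
  have hGn := nice_EE hG n
  let lam : ℝ → ℝ := fun y => EE n G y * (c + EE n w y)⁻¹
  have hlc : Cst n lam := (cst_EE n G).mul ((cst_EE n w).comp fun t => (c + t)⁻¹)
  have hln : Nice1 lam := n1_mul_bdd hGn ((hwm.const_add c).inv) ⟨c⁻¹, hinv _ hwn0⟩
  have i0 : Integrable (fun y => G y ^ 2 / (c + w y)) := by
    simp only [div_eq_mul_inv]
    exact n1_integrable (n1_mul_bdd (n1_sq hG) ((hw.const_add c).inv) ⟨c⁻¹, hinv _ hw0⟩)
  have i1 : Integrable (fun y => lam y * G y) := n1_integrable (n1_mul hln hG)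
  have i1' : Integrable (fun y => lam y * EE n G y) := n1_integrable (n1_mul hln hGn)
  have i2 : Integrable (fun y => lam y ^ 2 * w y) :=
    n1_integrable (n1_mul_bdd (n1_sq hln) hw ⟨W, hW⟩)
  have i2' : Integrable (fun y => lam y ^ 2 * EE n w y) :=
    n1_integrable (n1_mul_bdd (n1_sq hln) hwm ⟨W, EE_bound hW n⟩)
  have i3 : Integrable (fun y => lam y ^ 2) := n1_integrable (n1_sq hln)
  have i4 : Integrable (fun y => c * lam y ^ 2 + lam y ^ 2 * w y) := (i3.const_mul c).add i2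
  have i4' : Integrable (fun y => c * lam y ^ 2 + lam y ^ 2 * EE n w y) := (i3.const_mul c).add i2'
  have e1 := integral_mul_EE hlc i1 i1'
  have e2 := integral_mul_EE (hlc.pow 2) i2 i2'
  calc ∫ y, EE n G y ^ 2 / (c + EE n w y)
      = ∫ y, (2 * (lam y * EE n G y) - (c * lam y ^ 2 + lam y ^ 2 * EE n w y)) := by
        congr 1; funext y
        have : c + EE n w y ≠ 0 := by have := hwn0 y; positivity
        simp only [lam]
        field_simp
        ring
    _ = 2 * (∫ y, lam y * EE n G y) - (c * (∫ y, lam y ^ 2) + ∫ y, lam y ^ 2 * EE n w y) := by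
        rw [integral_sub (i1'.const_mul 2) i4',
          integral_add (i3.const_mul c) i2', integral_const_mul, integral_const_mul]
    _ = 2 * (∫ y, lam y * G y) - (c * (∫ y, lam y ^ 2) + ∫ y, lam y ^ 2 * w y) := by rw [e1, e2]
    _ = ∫ y, (2 * (lam y * G y) - (c * lam y ^ 2 + lam y ^ 2 * w y)) := by
        rw [integral_sub (i1.const_mul 2) i4,
          integral_add (i3.const_mul c) i2, integral_const_mul, integral_const_mul]
    _ ≤ ∫ y, G y ^ 2 / (c + w y) := by
        refine integral_mono ((i1.const_mul 2).sub ((i3.const_mul c).add i2)) i0 fun y => ?_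
        simp only
        have h1 : 0 < c + w y := by linarith [hw0 y]
        rw [le_div_iff₀ h1]
        nlinarith [sq_nonneg (G y - lam y * (c + w y))]

/-- sum of squares -/
def sg (b : ℤ → ℝ → ℝ) (s : Finset ℤ) (y : ℝ) : ℝ := ∑ k ∈ s, b k y ^ 2

theorem bellman {A : ℝ} (hA : 0 < A) (b : ℤ → ℝ → ℝ) {g : ℝ → ℝ} (hg : Nice1 g) (F : Finset ℤ) :
    (∀ k ∈ F, Measurable (b k)) → (∀ k ∈ F, ∀ y, |b k y| ≤ 4 * A) →
    (∀ n m : ℤ, ∑ k ∈ F.filter (· ≤ n), ∫ y in II n m, (b k y) ^ 2 ≤ A ^ 2 * (2 : ℝ) ^ n) →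
    ∀ n : ℤ, (∀ k ∈ F, k ≤ n) →
      (∫ y, EE n g y ^ 2 / (A ^ 2 + EE n (sg b F) y)) +
        (4 * A ^ 4)⁻¹ * ∑ k ∈ F, ∫ y, (b k y * EE k g y) ^ 2 ≤ (A ^ 2)⁻¹ * ∫ y, g y ^ 2 := by
  have hA2 : 0 < A ^ 2 := by positivity
  induction F using Finset.induction_on_max with
  | empty =>
    intro _ _ _ n _
    have : ∀ y, EE n (sg b ∅) y = 0 := by
      intro y; unfold EE sg; simp
    simp only [this, add_zero, Finset.sum_empty, mul_zero, div_eq_inv_mul]
    rw [integral_const_mul]
    exact mul_le_mul_of_nonneg_left (EE_contr hg n) (by positivity)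
  | insert a s hmax ih =>
    intro hm hb hC n hn
    have has : a ∉ s := fun h => lt_irrefl _ (hmax a h)
    have hms : ∀ k ∈ s, Measurable (b k) := fun k hk => hm k (Finset.mem_insert_of_mem hk)
    have hbs : ∀ k ∈ s, ∀ y, |b k y| ≤ 4 * A := fun k hk => hb k (Finset.mem_insert_of_mem hk)
    have hma : Measurable (b a) := hm a (Finset.mem_insert_self _ _)
    have hba : ∀ y, |b a y| ≤ 4 * A := hb a (Finset.mem_insert_self _ _)
    have hCs : ∀ n m : ℤ, ∑ k ∈ s.filter (· ≤ n), ∫ y in II n m, (b k y) ^ 2 ≤ A ^ 2 * (2 : ℝ) ^ n := by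
      intro n m
      refine le_trans ?_ (hC n m)
      refine Finset.sum_le_sum_of_subset_of_nonneg ?_ fun k _ _ => integral_nonneg fun y => sq_nonneg _
      exact Finset.filter_subset_filter _ (Finset.subset_insert _ _)
    have ih' := ih hms hbs hCs a (fun k hk => (hmax k hk).le)
    -- bounded measurable functions
    have hsq : ∀ (u : ℝ → ℝ), (∀ y, |u y| ≤ 4 * A) → ∀ y, |u y ^ 2| ≤ (4 * A) ^ 2 := by
      intro u hu y
      rw [abs_pow]
      exact pow_le_pow_left₀ (abs_nonneg _) (hu y) 2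
    have hsgm : ∀ t : Finset ℤ, (∀ k ∈ t, Measurable (b k)) → Measurable (sg b t) := by
      intro t ht
      unfold sg
      exact Finset.measurable_sum _ fun k hk => (ht k hk).pow_const 2
    have hsgb : ∀ t : Finset ℤ, (∀ k ∈ t, ∀ y, |b k y| ≤ 4 * A) → ∃ M : ℝ, ∀ y, |sg b t y| ≤ M := by
      intro t ht
      refine ⟨∑ k ∈ t, (4 * A) ^ 2, fun y => ?_⟩
      unfold sg
      refine (Finset.abs_sum_le_sum_abs _ _).trans (Finset.sum_le_sum fun k hk => hsq _ (ht k hk) y)
    have hsg0 : ∀ t : Finset ℤ, ∀ y, 0 ≤ sg b t y := fun t y => Finset.sum_nonneg fun k _ => sq_nonneg _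
    have hins : sg b (insert a s) = fun y => b a y ^ 2 + sg b s y := by
      funext y; unfold sg; rw [Finset.sum_insert has]
    have hEa : ∀ y, EE a (sg b (insert a s)) y = EE a (fun y => b a y ^ 2) y + EE a (sg b s) y := by
      intro y
      rw [hins]
      exact EE_add_bdd (hma.pow_const 2) ⟨_, hsq _ hba⟩ (hsgm s hms) (hsgb s hbs) y
    -- Carleson bound at level `a`
    have hcar : ∀ y, EE a (sg b (insert a s)) y ≤ A ^ 2 := by
      intro y
      unfold EE
      rw [inv_mul_le_iff₀ (zp a)]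
      refine le_trans (le_of_eq ?_) ((hC a (fl a y)).trans (le_of_eq (by ring)))
      unfold sg
      rw [integral_finsetSum]
      · refine Finset.sum_congr ?_ fun k _ => rfl
        ext k
        simp only [Finset.mem_filter, Finset.mem_insert]
        constructor
        · rintro (rfl | h)
          · exact ⟨Or.inl rfl, le_rfl⟩
          · exact ⟨Or.inr h, (hmax k h).le⟩
        · exact fun h => h.1
      · intro k hk
        exact intOn ((hm k hk).pow_const 2) ⟨_, hsq _ (hb k hk)⟩ a _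
    have hGn := nice_EE hg a
    have hba0 : ∀ y, 0 ≤ EE a (fun y => b a y ^ 2) y := EE_nonneg fun y => sq_nonneg _
    have hs0 : ∀ y, 0 ≤ EE a (sg b s) y := EE_nonneg (hsg0 s)
    have hi0 : ∀ y, 0 ≤ EE a (sg b (insert a s)) y := EE_nonneg (hsg0 _)
    have hinv : ∀ v : ℝ → ℝ, (∀ y, 0 ≤ v y) → ∀ y, |(A ^ 2 + v y)⁻¹| ≤ (A ^ 2)⁻¹ := by
      intro v hv y
      rw [abs_of_nonneg (inv_nonneg.2 (by linarith [hv y]))]
      exact inv_anti₀ hA2 (by linarith [hv y])
    have j1 : Integrable (fun y => EE a g y ^ 2 / (A ^ 2 + EE a (sg b s) y)) := by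
      simp only [div_eq_mul_inv]
      exact n1_integrable (n1_mul_bdd (n1_sq hGn) (((cst_EE a _).measurable.const_add _).inv)
        ⟨_, hinv _ hs0⟩)
    have j2 : Integrable (fun y => EE a g y ^ 2 / (A ^ 2 + EE a (sg b (insert a s)) y)) := by
      simp only [div_eq_mul_inv]
      exact n1_integrable (n1_mul_bdd (n1_sq hGn) (((cst_EE a _).measurable.const_add _).inv)
        ⟨_, hinv _ hi0⟩)
    have j3 : Integrable (fun y => EE a g y ^ 2 * b a y ^ 2) :=
      n1_integrable (n1_mul_bdd (n1_sq hGn) (hma.pow_const 2) ⟨_, hsq _ hba⟩)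
    have j4 : Integrable (fun y => EE a g y ^ 2 * EE a (fun y => b a y ^ 2) y) :=
      n1_integrable (n1_mul_bdd (n1_sq hGn) (cst_EE a _).measurable ⟨_, EE_bound (hsq _ hba) a⟩)
    -- adding the mass at level `a`
    have step1 : (∫ y, EE a g y ^ 2 / (A ^ 2 + EE a (sg b (insert a s)) y)) +
        (4 * A ^ 4)⁻¹ * (∫ y, (b a y * EE a g y) ^ 2) ≤
        ∫ y, EE a g y ^ 2 / (A ^ 2 + EE a (sg b s) y) := by
      have e : ∫ y, (b a y * EE a g y) ^ 2 = ∫ y, EE a g y ^ 2 * EE a (fun y => b a y ^ 2) y := by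
        rw [← integral_mul_EE ((cst_EE a g).pow 2) j3 j4]
        congr 1; funext y; ring
      rw [e, ← integral_const_mul, ← integral_add j2 (j4.const_mul _)]
      refine integral_mono (j2.add (j4.const_mul _)) j1 fun y => ?_
      simp only
      have h1 := hs0 y
      have h2 := hba0 y
      have h3 := hcar y
      rw [hEa y] at h3 ⊢
      set v := EE a (sg b s) y
      set p := EE a (fun y => b a y ^ 2) y
      set G := EE a g y
      have q1 : 0 < A ^ 2 + v := by linarith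
      have q2 : 0 < A ^ 2 + (p + v) := by linarith
      have q3 : G ^ 2 / (A ^ 2 + v) - G ^ 2 / (A ^ 2 + (p + v)) =
          (G ^ 2 * p) / ((A ^ 2 + v) * (A ^ 2 + (p + v))) := by
        field_simp; ring
      have q4 : (4 * A ^ 4)⁻¹ * (G ^ 2 * p) ≤ (G ^ 2 * p) / ((A ^ 2 + v) * (A ^ 2 + (p + v))) := by
        rw [div_eq_inv_mul]
        refine mul_le_mul_of_nonneg_right ?_ (mul_nonneg (sq_nonneg _) h2)
        refine inv_anti₀ (mul_pos q1 q2) ?_
        calc (A ^ 2 + v) * (A ^ 2 + (p + v)) ≤ (2 * A ^ 2) * (2 * A ^ 2) :=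
              mul_le_mul (by linarith) (by linarith) q2.le (by positivity)
          _ = 4 * A ^ 4 := by ring
      linarith
    -- going up from level `a` to level `n`
    have step2 : (∫ y, EE n g y ^ 2 / (A ^ 2 + EE n (sg b (insert a s)) y)) ≤
        ∫ y, EE a g y ^ 2 / (A ^ 2 + EE a (sg b (insert a s)) y) := by
      have han : a ≤ n := hn a (Finset.mem_insert_self _ _)
      obtain ⟨M, hM⟩ := hsgb (insert a s) hb
      have := jensen hA2 hGn (cst_EE a (sg b (insert a s))).measurable ⟨M, EE_bound hM a⟩ hi0 n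
      rwa [EE_EE_of_le han hg, EE_EE_bdd han (hsgm _ hm) ⟨M, hM⟩] at this
    rw [Finset.sum_insert has, mul_add]
    linarith

theorem dce : DCE := by
  intro A F b hA hm hb hC g hg
  rcases hA.eq_or_lt with h | h
  · have : ∀ k ∈ F, ∫ y, (b k y * EE k g y) ^ 2 = 0 := by
      intro k hk
      have h0 : ∀ y, b k y = 0 := by
        intro y
        have := hb k hk y
        rw [← h, mul_zero] at this
        exact abs_nonpos_iff.1 this
      simp [h0]
    rw [Finset.sum_eq_zero this, ← h]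
    simp
  · obtain ⟨n, hn⟩ : ∃ n : ℤ, ∀ k ∈ F, k ≤ n := by
      obtain ⟨n, hn⟩ := F.bddAbove
      exact ⟨n, fun k hk => hn hk⟩
    have key := bellman h b hg F hm hb hC n hn
    have hA2 : 0 < A ^ 2 := by positivity
    have h0 : 0 ≤ ∫ y, EE n g y ^ 2 / (A ^ 2 + EE n (sg b F) y) := by
      refine integral_nonneg fun y => ?_
      have : 0 ≤ EE n (sg b F) y := EE_nonneg (fun y => Finset.sum_nonneg fun k _ => sq_nonneg _) y
      positivity
    have h1 : (4 * A ^ 4)⁻¹ * ∑ k ∈ F, ∫ y, (b k y * EE k g y) ^ 2 ≤ (A ^ 2)⁻¹ * ∫ y, g y ^ 2 := by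
      linarith
    rw [inv_mul_le_iff₀ (by positivity)] at h1
    refine h1.trans (le_of_eq ?_)
    field_simp

theorem sqt1 : SQT1 := Crest.Agent.R087.SQT1x90.sqt1_of_dce dce

end Crest.Agent.R087.DCEx90
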