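import Crest.Agent.R087.GateDef_273

/-!
Row 87, operator part (helper738): one dimensional dyadic tools in the notation of the gates.

* cells `Jc s j = [j 2^-s, (j+1) 2^-s)`, `dx s x = ⌊2^s x⌋`, averages `av s f`;
* `doob` : `∫ (max_{s ≤ n} |av s f|)^2 ≤ 4 ∫ f^2`;
* gate martingale: partial sums of `∑ gt(fract(2^r x)) a_r(x)` are `av (s+2)` of the full sum, `gate_sq`;
* `ζ`-sums: almost orthogonality, truncations, coefficients `β`.
-/

set_option autoImplicit false

noncomputable section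

open MeasureTheory Crest.Agent.R087.Sh0x283 Crest.Agent.R087.Sh1x283 Crest.Agent.R087.GateDefx273

namespace Crest.Agent.R087.Dyax738

/-! ### cells -/

/-- index of the cell of scale `2^-s` containing `x` -/
def dx (s : ℕ) (x : ℝ) : ℤ := ⌊(2 : ℝ) ^ s * x⌋

/-- dyadic cell -/
def Jc (s : ℕ) (j : ℤ) : Set ℝ := Set.Ico ((j : ℝ) / 2 ^ s) (((j : ℝ) + 1) / 2 ^ s)

theorem pw (s : ℕ) : (0 : ℝ) < 2 ^ s := by positivity

theorem mem_Jc {s : ℕ} {j : ℤ} {x : ℝ} : x ∈ Jc s j ↔ dx s x = j := by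
  unfold Jc dx
  rw [Set.mem_Ico, Int.floor_eq_iff, div_le_iff₀ (pw s), lt_div_iff₀ (pw s), mul_comm x]

theorem self_mem (s : ℕ) (x : ℝ) : x ∈ Jc s (dx s x) := mem_Jc.2 rfl

theorem left_mem (s : ℕ) (j : ℤ) : (j : ℝ) / 2 ^ s ∈ Jc s j := by
  refine ⟨le_rfl, ?_⟩
  have := pw s
  gcongr
  linarith

theorem dx_left (s : ℕ) (j : ℤ) : dx s ((j : ℝ) / 2 ^ s) = j := mem_Jc.1 (left_mem s j)

theorem measurableSet_Jc (s : ℕ) (j : ℤ) : MeasurableSet (Jc s j) := measurableSet_Ico

theorem volume_Jc (s : ℕ) (j : ℤ) : volume (Jc s j) = ENNReal.ofReal (1 / 2 ^ s) := by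
  unfold Jc
  rw [Real.volume_Ico]
  congr 1
  ring

theorem volume_Jc_ne (s : ℕ) (j : ℤ) : volume (Jc s j) ≠ ⊤ := by
  rw [volume_Jc]; exact ENNReal.ofReal_ne_top

theorem real_Jc (s : ℕ) (j : ℤ) : volume.real (Jc s j) = 1 / 2 ^ s := by
  rw [Measure.real, volume_Jc, ENNReal.toReal_ofReal (by positivity)]

theorem disj_Jc (s : ℕ) : Pairwise (Function.onFun Disjoint (Jc s)) := by
  intro i j hij
  rw [Function.onFun, Set.disjoint_left]
  intro x hx hx'
  exact hij ((mem_Jc.1 hx).symm.trans (mem_Jc.1 hx'))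

theorem iUnion_Jc (s : ℕ) : ⋃ j, Jc s j = Set.univ :=
  Set.eq_univ_of_forall fun x => Set.mem_iUnion.2 ⟨dx s x, self_mem s x⟩

theorem measurable_dx (s : ℕ) : Measurable (dx s) :=
  Int.measurable_floor.comp (measurable_const_mul _)

theorem dx_succ (s : ℕ) (x : ℝ) : dx (s + 1) x = 2 * dx s x ∨ dx (s + 1) x = 2 * dx s x + 1 := by
  unfold dx
  have h1 := Int.floor_le ((2 : ℝ) ^ s * x)
  have h2 := Int.lt_floor_add_one ((2 : ℝ) ^ s * x)
  set n := ⌊(2 : ℝ) ^ s * x⌋ with hn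
  have h3 : (2 : ℝ) ^ (s + 1) * x = 2 * ((2 : ℝ) ^ s * x) := by ring
  rw [h3]
  by_cases hc : 2 * ((2 : ℝ) ^ s * x) < 2 * n + 1
  · left
    rw [Int.floor_eq_iff]
    push_cast
    constructor <;> linarith
  · right
    rw [Int.floor_eq_iff]
    push_cast
    constructor <;> linarith

theorem dx_parent {s : ℕ} {x y : ℝ} (h : dx (s + 1) x = dx (s + 1) y) : dx s x = dx s y := by
  rcases dx_succ s x with h1 | h1 <;> rcases dx_succ s y with h2 | h2 <;> omega

theorem dx_mono {r s : ℕ} (hrs : r ≤ s) {x y : ℝ} (h : dx s x = dx s y) : dx r x = dx r y := by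
  induction s, hrs using Nat.le_induction with
  | base => exact h
  | succ n _ ih => exact ih (dx_parent h)

/-- adapted to the scale `2^-s` -/
def Ad (s : ℕ) (h : ℝ → ℝ) : Prop := ∀ x y, dx s x = dx s y → h x = h y

theorem Ad.mono {r s : ℕ} (hrs : r ≤ s) {h : ℝ → ℝ} (ha : Ad r h) : Ad s h :=
  fun _ _ hxy => ha _ _ (dx_mono hrs hxy)

theorem Ad.eq_left {s : ℕ} {h : ℝ → ℝ} (ha : Ad s h) (x : ℝ) :
    h x = h ((dx s x : ℝ) / 2 ^ s) := ha _ _ (dx_left s _).symm

theorem Ad.measurable {s : ℕ} {h : ℝ → ℝ} (ha : Ad s h) : Measurable h := by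
  have : h = (fun j : ℤ => h ((j : ℝ) / 2 ^ s)) ∘ dx s := funext fun x => ha.eq_left x
  rw [this]
  exact (measurable_of_countable _).comp (measurable_dx s)

theorem Ad.mul {s : ℕ} {h h' : ℝ → ℝ} (ha : Ad s h) (ha' : Ad s h') : Ad s fun x => h x * h' x :=
  fun x y hxy => by
    show h x * h' x = h y * h' y
    rw [ha x y hxy, ha' x y hxy]

/-! ### integrals over cells -/

theorem int_cells {F : ℝ → ℝ} (hF : Integrable F) (s : ℕ) :
    HasSum (fun j : ℤ => ∫ x in Jc s j, F x) (∫ x, F x) := by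
  have h := hasSum_integral_iUnion (measurableSet_Jc s) (disj_Jc s)
    (hF.integrableOn (s := ⋃ j, Jc s j))
  rwa [iUnion_Jc, setIntegral_univ] at h

theorem le_cells {F G : ℝ → ℝ} (hF : Integrable F) (hG : Integrable G) (s : ℕ)
    (h : ∀ j : ℤ, ∫ x in Jc s j, F x ≤ ∫ x in Jc s j, G x) : ∫ x, F x ≤ ∫ x, G x :=
  hasSum_le h (int_cells hF s) (int_cells hG s)

theorem eq_cells {F G : ℝ → ℝ} (hF : Integrable F) (hG : Integrable G) (s : ℕ)
    (h : ∀ j : ℤ, ∫ x in Jc s j, F x = ∫ x in Jc s j, G x) : ∫ x, F x = ∫ x, G x :=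
  (int_cells hF s).unique (by simpa only [h] using int_cells hG s)

theorem int_ad_mul {s : ℕ} {h : ℝ → ℝ} (ha : Ad s h) (j : ℤ) (f : ℝ → ℝ) :
    ∫ x in Jc s j, h x * f x = h ((j : ℝ) / 2 ^ s) * ∫ x in Jc s j, f x := by
  rw [← integral_const_mul]
  refine setIntegral_congr_fun (measurableSet_Jc s j) fun x hx => ?_
  show h x * f x = h ((j : ℝ) / 2 ^ s) * f x
  rw [ha.eq_left x, mem_Jc.1 hx]

theorem int_ad {s : ℕ} {h : ℝ → ℝ} (ha : Ad s h) (j : ℤ) :
    ∫ x in Jc s j, h x = h ((j : ℝ) / 2 ^ s) * (1 / 2 ^ s) := by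
  have := int_ad_mul ha j (fun _ => 1)
  simp only [mul_one] at this
  rw [this, setIntegral_const, real_Jc, smul_eq_mul, mul_one]

/-! ### averages -/

/-- average over the cell of scale `2^-s` -/
def av (s : ℕ) (f : ℝ → ℝ) (x : ℝ) : ℝ := 2 ^ s * ∫ u in Jc s (dx s x), f u

theorem av_ad (s : ℕ) (f : ℝ → ℝ) : Ad s (av s f) := fun x y h => by unfold av; rw [h]

theorem int_Jc_av (s : ℕ) (f : ℝ → ℝ) (j : ℤ) : ∫ x in Jc s j, av s f x = ∫ x in Jc s j, f x := by
  rw [int_ad (av_ad s f)]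
  unfold av
  rw [dx_left]
  have := pw s
  field_simp

theorem int_mul_av {s : ℕ} {h f : ℝ → ℝ} (ha : Ad s h) (h1 : Integrable fun x => h x * f x)
    (h2 : Integrable fun x => h x * av s f x) : ∫ x, h x * av s f x = ∫ x, h x * f x :=
  eq_cells h2 h1 s fun j => by rw [int_ad_mul ha, int_ad_mul ha, int_Jc_av]

theorem nice_int {f : ℝ → ℝ} (hf : Nice1 f) : Integrable f := by
  obtain ⟨hm, ⟨M, hM⟩, ⟨R, hR⟩⟩ := hf
  have h1 : IntegrableOn f (Set.Icc (-R) R) :=
    Measure.integrableOn_of_bounded (M := M) (by simp) hm.aestronglyMeasurable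
      (Filter.Eventually.of_forall fun x => by simpa using hM x)
  refine h1.integrable_of_forall_notMem_eq_zero fun x hx => hR x ?_
  rw [Set.mem_Icc, ← abs_le, not_le] at hx
  exact hx

theorem nice_mul {f g : ℝ → ℝ} (hf : Nice1 f) (hg : Nice1 g) : Nice1 fun x => f x * g x := by
  obtain ⟨hm, ⟨M, hM⟩, ⟨R, hR⟩⟩ := hf
  obtain ⟨hm', ⟨M', hM'⟩, _⟩ := hg
  refine ⟨hm.mul hm', ⟨M * M', fun y => ?_⟩, ⟨R, fun y hy => by simp only [hR y hy, zero_mul]⟩⟩
  rw [abs_mul]
  exact mul_le_mul (hM y) (hM' y) (abs_nonneg _) ((abs_nonneg _).trans (hM y))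

/-- nice times bounded measurable -/
theorem nice_mul_bdd {f g : ℝ → ℝ} (hf : Nice1 f) (hg : Measurable g) {M' : ℝ}
    (hM' : ∀ x, |g x| ≤ M') : Nice1 fun x => g x * f x := by
  obtain ⟨hm, ⟨M, hM⟩, ⟨R, hR⟩⟩ := hf
  refine ⟨hg.mul hm, ⟨M' * M, fun y => ?_⟩, ⟨R, fun y hy => by simp only [hR y hy, mul_zero]⟩⟩
  rw [abs_mul]
  exact mul_le_mul (hM' y) (hM y) (abs_nonneg _) ((abs_nonneg _).trans (hM' y))

theorem nice_sq {f : ℝ → ℝ} (hf : Nice1 f) : Nice1 fun x => f x ^ 2 := by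
  simpa only [sq] using nice_mul hf hf

theorem nice_abs {f : ℝ → ℝ} (hf : Nice1 f) : Nice1 fun x => |f x| := by
  obtain ⟨hm, ⟨M, hM⟩, ⟨R, hR⟩⟩ := hf
  exact ⟨hm.abs, ⟨M, fun x => by rw [abs_abs]; exact hM x⟩, ⟨R, fun x hx => by simp [hR x hx]⟩⟩

theorem nice_add {f g : ℝ → ℝ} (hf : Nice1 f) (hg : Nice1 g) : Nice1 fun x => f x + g x := by
  obtain ⟨hm, ⟨M, hM⟩, ⟨R, hR⟩⟩ := hf
  obtain ⟨hm', ⟨M', hM'⟩, ⟨R', hR'⟩⟩ := hg
  refine ⟨hm.add hm', ⟨M + M', fun y => (abs_add_le _ _).trans (add_le_add (hM y) (hM' y))⟩,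
    ⟨max R R', fun y hy => ?_⟩⟩
  show f y + g y = 0
  rw [hR y ((le_max_left _ _).trans_lt hy), hR' y ((le_max_right _ _).trans_lt hy), add_zero]

theorem nice_const_mul {f : ℝ → ℝ} (c : ℝ) (hf : Nice1 f) : Nice1 fun x => c * f x :=
  nice_mul_bdd hf measurable_const (M' := |c|) fun _ => le_rfl

theorem nice_zero : Nice1 fun _ => 0 := ⟨measurable_const, ⟨0, by simp⟩, ⟨0, fun _ _ => rfl⟩⟩

theorem nice_sum {ι : Type*} (s : Finset ι) (f : ι → ℝ → ℝ) (h : ∀ i ∈ s, Nice1 (f i)) :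
    Nice1 fun x => ∑ i ∈ s, f i x := by
  classical
  induction s using Finset.induction_on with
  | empty => simpa using nice_zero
  | insert i s hi ih =>
    simp only [Finset.sum_insert hi]
    exact nice_add (h i (Finset.mem_insert_self i s))
      (ih fun j hj => h j (Finset.mem_insert_of_mem hj))

theorem nice_max {f g : ℝ → ℝ} (hf : Nice1 f) (hg : Nice1 g) : Nice1 fun x => max (f x) (g x) := by
  obtain ⟨hm, ⟨M, hM⟩, ⟨R, hR⟩⟩ := hf
  obtain ⟨hm', ⟨M', hM'⟩, ⟨R', hR'⟩⟩ := hg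
  refine ⟨hm.max hm', ⟨max M M', fun y => ?_⟩, ⟨max R R', fun y hy => ?_⟩⟩
  · exact abs_max_le_max_abs_abs.trans (max_le_max (hM y) (hM' y))
  · show max (f y) (g y) = 0
    rw [hR y ((le_max_left _ _).trans_lt hy), hR' y ((le_max_right _ _).trans_lt hy), max_self]

theorem cell_dist {s : ℕ} {x y : ℝ} (h : dx s x = dx s y) : |x - y| ≤ 1 / 2 ^ s := by
  have h1 := self_mem s x
  have h2 := self_mem s y
  rw [← h] at h2
  unfold Jc at h1 h2
  rw [Set.mem_Ico, add_div] at h1 h2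
  rw [abs_le]
  constructor <;> linarith [h1.1, h1.2, h2.1, h2.2]

theorem pw_le_one (s : ℕ) : 1 / (2 : ℝ) ^ s ≤ 1 := by
  rw [div_le_one (pw s)]
  exact one_le_pow₀ (by norm_num)

theorem abs_av_le {f : ℝ → ℝ} {M : ℝ} (hM : ∀ x, |f x| ≤ M) (s : ℕ) (x : ℝ) : |av s f x| ≤ M := by
  unfold av
  have h1 : ‖∫ u in Jc s (dx s x), f u‖ ≤ M * volume.real (Jc s (dx s x)) :=
    norm_setIntegral_le_of_norm_le_const (volume_Jc_ne s _).lt_top fun u _ => hM u
  rw [real_Jc, Real.norm_eq_abs] at h1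
  rw [abs_mul, abs_of_pos (pw s)]
  calc (2 : ℝ) ^ s * |∫ u in Jc s (dx s x), f u| ≤ 2 ^ s * (M * (1 / 2 ^ s)) := by gcongr
    _ = M := by have := pw s; field_simp

theorem nice_av {f : ℝ → ℝ} (hf : Nice1 f) (s : ℕ) : Nice1 (av s f) := by
  obtain ⟨hm, ⟨M, hM⟩, ⟨R, hR⟩⟩ := hf
  refine ⟨(av_ad s f).measurable, ⟨M, abs_av_le hM s⟩, ⟨R + 1, fun x hx => ?_⟩⟩
  unfold av
  rw [setIntegral_eq_zero_of_forall_eq_zero, mul_zero]
  intro u hu
  apply hR
  have h1 := (cell_dist (mem_Jc.1 hu)).trans (pw_le_one s)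
  have h2 := abs_sub_abs_le_abs_sub x u
  rw [abs_sub_comm] at h2
  linarith

theorem av_of_ad {s : ℕ} {h : ℝ → ℝ} (ha : Ad s h) (x : ℝ) : av s h x = h x := by
  unfold av
  rw [int_ad ha, ← ha.eq_left]
  have := pw s
  field_simp

/-- the integral of `f` over a coarse cell is the integral of its finer average -/
theorem int_coarse {f : ℝ → ℝ} (hf : Nice1 f) {r s : ℕ} (hrs : r ≤ s) (j : ℤ) :
    ∫ x in Jc r j, av s f x = ∫ x in Jc r j, f x := by
  classical
  set h : ℝ → ℝ := (Jc r j).indicator fun _ => 1 with hh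
  have ha : Ad s h := by
    intro x y hxy
    have e := dx_mono hrs hxy
    simp only [hh, Set.indicator_apply, mem_Jc, e]
  have hb : ∀ x, |h x| ≤ 1 := by
    intro x
    simp only [hh, Set.indicator_apply]
    split_ifs <;> norm_num
  have e : ∀ F : ℝ → ℝ, ∫ x in Jc r j, F x = ∫ x, h x * F x := by
    intro F
    rw [← integral_indicator (measurableSet_Jc r j)]
    refine integral_congr_ae (Filter.Eventually.of_forall fun x => ?_)
    simp only [hh, Set.indicator_apply]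
    split_ifs <;> simp
  rw [e, e]
  exact int_mul_av ha (nice_int (nice_mul_bdd hf ha.measurable hb))
    (nice_int (nice_mul_bdd (nice_av hf s) ha.measurable hb))

theorem av_av {f : ℝ → ℝ} (hf : Nice1 f) {r s : ℕ} (hrs : r ≤ s) (x : ℝ) :
    av r (av s f) x = av r f x := by
  unfold av
  rw [show (fun u => (2 : ℝ) ^ s * ∫ v in Jc s (dx s u), f v) = av s f from rfl]
  rw [int_coarse hf hrs]

theorem int_av_sq_le {f : ℝ → ℝ} (hf : Nice1 f) (s : ℕ) :
    ∫ x, (av s f x) ^ 2 ≤ ∫ x, (f x) ^ 2 := by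
  have h1 : ∫ x, av s f x * av s f x = ∫ x, av s f x * f x :=
    int_mul_av (av_ad s f) (nice_int (nice_mul (nice_av hf s) hf))
      (nice_int (nice_mul (nice_av hf s) (nice_av hf s)))
  have h2 : 0 ≤ ∫ x, (f x - av s f x) ^ 2 := integral_nonneg fun x => sq_nonneg _
  have h3 : ∫ x, (f x - av s f x) ^ 2 = (∫ x, (f x) ^ 2) - 2 * (∫ x, av s f x * f x) +
      ∫ x, av s f x * av s f x := by
    have i1 := nice_int (nice_sq hf)
    have i2 := nice_int (nice_mul (nice_av hf s) hf)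
    have i3 := nice_int (nice_mul (nice_av hf s) (nice_av hf s))
    have i4 : Integrable fun x => f x ^ 2 - 2 * (av s f x * f x) := i1.sub (i2.const_mul 2)
    rw [← integral_const_mul, ← integral_sub i1 (i2.const_mul 2), ← integral_add i4 i3]
    refine integral_congr_ae (Filter.Eventually.of_forall fun x => ?_)
    simp only
    ring
  have h4 : ∫ x, (av s f x) ^ 2 = ∫ x, av s f x * av s f x := by
    simp only [sq]
  linarith

/-! ### Doob -/

/-- dyadic maximal function, scales `0..n` -/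
def Mx (f : ℝ → ℝ) : ℕ → ℝ → ℝ
  | 0, x => |av 0 f x|
  | n + 1, x => max (Mx f n x) |av (n + 1) f x|

theorem Mx_nonneg (f : ℝ → ℝ) (n : ℕ) (x : ℝ) : 0 ≤ Mx f n x := by
  cases n with
  | zero => exact abs_nonneg _
  | succ n => exact (abs_nonneg _).trans (le_max_right _ _)

theorem Mx_mono (f : ℝ → ℝ) {m n : ℕ} (h : m ≤ n) (x : ℝ) : Mx f m x ≤ Mx f n x := by
  induction n, h using Nat.le_induction with
  | base => exact le_rfl
  | succ n _ ih => exact ih.trans (le_max_left _ _)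

theorem av_le_Mx' (f : ℝ → ℝ) (n : ℕ) (x : ℝ) : |av n f x| ≤ Mx f n x := by
  cases n with
  | zero => exact le_rfl
  | succ n => exact le_max_right _ _

theorem av_le_Mx (f : ℝ → ℝ) {s n : ℕ} (h : s ≤ n) (x : ℝ) : |av s f x| ≤ Mx f n x :=
  (av_le_Mx' f s x).trans (Mx_mono f h x)

theorem Mx_ad (f : ℝ → ℝ) (n : ℕ) : Ad n (Mx f n) := by
  induction n with
  | zero => intro x y h; show |av 0 f x| = |av 0 f y|; rw [av_ad 0 f x y h]
  | succ n ih =>
    intro x y h
    show max (Mx f n x) |av (n + 1) f x| = max (Mx f n y) |av (n + 1) f y|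
    rw [ih x y (dx_parent h), av_ad (n + 1) f x y h]

theorem nice_Mx {f : ℝ → ℝ} (hf : Nice1 f) (n : ℕ) : Nice1 (Mx f n) := by
  induction n with
  | zero => exact nice_abs (nice_av hf 0)
  | succ n ih => exact nice_max ih (nice_abs (nice_av hf (n + 1)))

/-- pathwise form of Doob's inequality -/
theorem path (f : ℝ → ℝ) (n : ℕ) (x : ℝ) :
    ∑ k ∈ Finset.range n, Mx f k x * (|av (k + 1) f x| - |av k f x|) ≤
      Mx f n x * |av n f x| - (Mx f n x) ^ 2 / 2 := by
  induction n with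
  | zero =>
    simp only [Finset.range_zero, Finset.sum_empty]
    show 0 ≤ |av 0 f x| * |av 0 f x| - |av 0 f x| ^ 2 / 2
    nlinarith [abs_nonneg (av 0 f x)]
  | succ n ih =>
    rw [Finset.sum_range_succ]
    have h0 : Mx f (n + 1) x = max (Mx f n x) |av (n + 1) f x| := rfl
    rcases le_total (Mx f n x) |av (n + 1) f x| with h | h
    · rw [h0, max_eq_right h]
      nlinarith [sq_nonneg (|av (n + 1) f x| - Mx f n x)]
    · rw [h0, max_eq_left h]
      nlinarith

theorem step_nonneg {f : ℝ → ℝ} (hf : Nice1 f) (k : ℕ) :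
    0 ≤ ∫ x, Mx f k x * (|av (k + 1) f x| - |av k f x|) := by
  have n1 : Nice1 fun x => Mx f k x * |av k f x| := nice_mul (nice_Mx hf k) (nice_abs (nice_av hf k))
  have n2 : Nice1 fun x => Mx f k x * |av (k + 1) f x| :=
    nice_mul (nice_Mx hf k) (nice_abs (nice_av hf (k + 1)))
  have h : ∫ x, Mx f k x * |av k f x| ≤ ∫ x, Mx f k x * |av (k + 1) f x| := by
    refine le_cells (nice_int n1) (nice_int n2) k fun j => ?_
    rw [int_ad_mul (Mx_ad f k), int_ad_mul (Mx_ad f k)]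
    refine mul_le_mul_of_nonneg_left ?_ (Mx_nonneg _ _ _)
    have a1 : Ad k fun x => |av k f x| := fun x y h => by simp only [av_ad k f x y h]
    rw [int_ad a1]
    have e1 : |av k f ((j : ℝ) / 2 ^ k)| * (1 / 2 ^ k) = |∫ x in Jc k j, f x| := by
      unfold av
      rw [dx_left, abs_mul, abs_of_pos (pw k)]
      have := pw k
      field_simp
    rw [e1, ← int_coarse hf (Nat.le_succ k) j]
    exact abs_integral_le_integral_abs
  have e : ∫ x, Mx f k x * (|av (k + 1) f x| - |av k f x|) =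
      (∫ x, Mx f k x * |av (k + 1) f x|) - ∫ x, Mx f k x * |av k f x| := by
    rw [← integral_sub (nice_int n2) (nice_int n1)]
    refine integral_congr_ae (Filter.Eventually.of_forall fun x => ?_)
    simp only
    ring
  rw [e]
  linarith

/-- **Doob's `L²` inequality** for the dyadic maximal function. -/
theorem doob {f : ℝ → ℝ} (hf : Nice1 f) (n : ℕ) :
    ∫ x, (Mx f n x) ^ 2 ≤ 4 * ∫ x, (f x) ^ 2 := by
  have nk : ∀ k, Nice1 fun x => Mx f k x * (|av (k + 1) f x| - |av k f x|) := by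
    intro k
    have h := nice_add (nice_mul (nice_Mx hf k) (nice_abs (nice_av hf (k + 1))))
      (nice_const_mul (-1) (nice_mul (nice_Mx hf k) (nice_abs (nice_av hf k))))
    have e : (fun x => Mx f k x * |av (k + 1) f x| + -1 * (Mx f k x * |av k f x|)) =
        fun x => Mx f k x * (|av (k + 1) f x| - |av k f x|) := by
      funext x; ring
    rwa [e] at h
  have h1 : ∫ x, (Mx f n x) ^ 2 ≤ ∫ x, (4 * (av n f x) ^ 2 -
      4 * ∑ k ∈ Finset.range n, Mx f k x * (|av (k + 1) f x| - |av k f x|)) := by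
    refine integral_mono (nice_int (nice_sq (nice_Mx hf n))) ?_ fun x => ?_
    · exact ((nice_int (nice_sq (nice_av hf n))).const_mul 4).sub
        ((nice_int (nice_sum _ _ fun k _ => nk k)).const_mul 4)
    · have h2 := path f n x
      have h3 : |av n f x| ^ 2 = (av n f x) ^ 2 := sq_abs _
      simp only
      nlinarith [sq_nonneg (Mx f n x / 2 - |av n f x|)]
  refine h1.trans ?_
  rw [integral_sub ((nice_int (nice_sq (nice_av hf n))).const_mul 4)
    ((nice_int (nice_sum _ _ fun k _ => nk k)).const_mul 4), integral_const_mul, integral_const_mul,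
    integral_finsetSum _ fun k _ => nice_int (nk k)]
  have h4 : 0 ≤ ∑ k ∈ Finset.range n, ∫ x, Mx f k x * (|av (k + 1) f x| - |av k f x|) :=
    Finset.sum_nonneg fun k _ => step_nonneg hf k
  have h5 := int_av_sq_le hf n
  linarith


theorem av_sum {ι : Type*} (t : Finset ι) (f : ι → ℝ → ℝ) (h : ∀ i ∈ t, Nice1 (f i)) (s : ℕ) (x : ℝ) :
    av s (fun x => ∑ i ∈ t, f i x) x = ∑ i ∈ t, av s (f i) x := by
  unfold av
  rw [integral_finsetSum _ fun i hi => (nice_int (h i hi)).integrableOn, Finset.mul_sum]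

theorem Jc_split (s : ℕ) (j : ℤ) : Jc s j = Jc (s + 1) (2 * j) ∪ Jc (s + 1) (2 * j + 1) := by
  ext x
  rw [Set.mem_union, mem_Jc, mem_Jc, mem_Jc]
  rcases dx_succ s x with h | h <;> omega

theorem int_split {f : ℝ → ℝ} (s : ℕ) (j : ℤ) (hf : IntegrableOn f (Jc s j)) :
    ∫ x in Jc s j, f x = (∫ x in Jc (s + 1) (2 * j), f x) + ∫ x in Jc (s + 1) (2 * j + 1), f x := by
  rw [Jc_split] at hf
  rw [Jc_split, setIntegral_union (disj_Jc (s + 1) (by omega)) (measurableSet_Jc _ _)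
    (hf.mono_set Set.subset_union_left) (hf.mono_set Set.subset_union_right)]

theorem intOn_bdd {f : ℝ → ℝ} (hf : Measurable f) {M : ℝ} (hM : ∀ x, |f x| ≤ M) (s : ℕ) (j : ℤ) :
    IntegrableOn f (Jc s j) :=
  Measure.integrableOn_of_bounded (M := M) (volume_Jc_ne s j) hf.aestronglyMeasurable
    (Filter.Eventually.of_forall fun x => by simpa using hM x)

/-! ### gates -/

/-- the gate at scale `2^-r` -/
def gr (r : ℕ) (x : ℝ) : ℝ := gt (Int.fract ((2 : ℝ) ^ r * x))

theorem gr_quarter (r : ℕ) (x : ℝ) : gr r x =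
    if dx (r + 2) x = 4 * dx r x ∨ dx (r + 2) x = 4 * dx r x + 3 then 1 else -1 := by
  unfold gr
  have h0 := Int.fract_nonneg ((2 : ℝ) ^ r * x)
  have h1 := Int.fract_lt_one ((2 : ℝ) ^ r * x)
  have h2 : (2 : ℝ) ^ r * x = dx r x + Int.fract ((2 : ℝ) ^ r * x) := (Int.floor_add_fract _).symm
  set t := Int.fract ((2 : ℝ) ^ r * x) with ht
  have h3 : (2 : ℝ) ^ (r + 2) * x = 4 * dx r x + 4 * t := by
    rw [pow_add, mul_assoc, mul_comm ((2 : ℝ) ^ 2) x, ← mul_assoc, h2]; ring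
  have h4 : ∀ m : ℤ, (m : ℝ) ≤ 4 * t → 4 * t < m + 1 → dx (r + 2) x = 4 * dx r x + m := by
    intro m hm1 hm2
    unfold dx
    rw [h3, Int.floor_eq_iff]
    push_cast
    constructor
    · unfold dx; linarith
    · unfold dx; linarith
  rcases lt_or_ge t (1 / 4) with c1 | c1
  · have := h4 0 (by push_cast; linarith) (by push_cast; linarith)
    rw [if_pos (Or.inl (by omega))]
    unfold gt
    rw [if_neg (by linarith), if_pos c1]
  · rcases lt_or_ge t (1 / 2) with c2 | c2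
    · have := h4 1 (by push_cast; linarith) (by push_cast; linarith)
      rw [if_neg (by omega)]
      unfold gt
      rw [if_neg (by linarith), if_neg (by linarith), if_pos (by linarith)]
    · rcases lt_or_ge t (3 / 4) with c3 | c3
      · have := h4 2 (by push_cast; linarith) (by push_cast; linarith)
        rw [if_neg (by omega)]
        unfold gt
        rw [if_neg (by linarith), if_neg (by linarith), if_pos (by linarith)]
      · have := h4 3 (by push_cast; linarith) (by push_cast; linarith)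
        rw [if_pos (Or.inr (by omega))]
        unfold gt
        rw [if_neg (by linarith), if_neg (by linarith), if_neg (by linarith), if_pos h1]

theorem gr_sq (r : ℕ) (x : ℝ) : gr r x ^ 2 = 1 := by
  rw [gr_quarter]; split_ifs <;> norm_num

theorem gr_abs (r : ℕ) (x : ℝ) : |gr r x| = 1 := by
  rw [gr_quarter]; split_ifs <;> norm_num

theorem gr_ad (r : ℕ) : Ad (r + 2) (gr r) := by
  intro x y h
  rw [gr_quarter, gr_quarter, h, dx_mono (by omega : r ≤ r + 2) h]

theorem gr_mean (r : ℕ) (i : ℤ) : ∫ x in Jc (r + 1) i, gr r x = 0 := by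
  rw [int_split (r + 1) i (intOn_bdd (gr_ad r).measurable (fun x => (gr_abs r x).le) _ _),
    int_ad (gr_ad r), int_ad (gr_ad r), gr_quarter, gr_quarter]
  have a1 : dx (r + 1 + 1) (((2 * i : ℤ) : ℝ) / 2 ^ (r + 1 + 1)) = 2 * i := dx_left _ _
  have a2 : dx (r + 1 + 1) (((2 * i + 1 : ℤ) : ℝ) / 2 ^ (r + 1 + 1)) = 2 * i + 1 := dx_left _ _
  set x1 := ((2 * i : ℤ) : ℝ) / 2 ^ (r + 1 + 1) with hx1
  set x2 := ((2 * i + 1 : ℤ) : ℝ) / 2 ^ (r + 1 + 1) with hx2
  have b1 := dx_succ (r + 1) x1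
  have b2 := dx_succ (r + 1) x2
  have c1 := dx_succ r x1
  have c2 := dx_succ r x2
  change dx (r + 2) x1 = _ at a1
  change dx (r + 2) x2 = _ at a2
  change dx (r + 2) x1 = _ ∨ dx (r + 2) x1 = _ at b1
  change dx (r + 2) x2 = _ ∨ dx (r + 2) x2 = _ at b2
  have hp := pw (r + 1 + 1)
  by_cases h : dx (r + 2) x1 = 4 * dx r x1 ∨ dx (r + 2) x1 = 4 * dx r x1 + 3
  · rw [if_pos h, if_neg (by omega)]
    field_simp
    ring
  · rw [if_neg h, if_pos (by omega)]
    field_simp
    ring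

/-- a gate has mean zero against functions adapted to the next scale -/
theorem int_gate {r : ℕ} {h : ℝ → ℝ} (hh : Ad (r + 1) h) (nh : Nice1 h) :
    ∫ x, h x * gr r x = 0 := by
  have n1 : Nice1 fun x => h x * gr r x := by
    have := nice_mul_bdd nh (gr_ad r).measurable (fun x => (gr_abs r x).le)
    simpa only [mul_comm] using this
  have := eq_cells (nice_int n1) (nice_int nice_zero) (r + 1) fun j => by
    rw [int_ad_mul hh, gr_mean, mul_zero]; simp
  simpa using this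

section gates

variable {a : ℕ → ℝ → ℝ} (hA : ∀ r, Ad r (a r)) (hN : ∀ r, Nice1 (a r))

/-- gate sum -/
def GS (a : ℕ → ℝ → ℝ) (S : ℕ) (x : ℝ) : ℝ := ∑ r ∈ Finset.range S, gr r x * a r x

include hA in
theorem gs_ad (S : ℕ) : Ad (S + 1) (GS a S) := by
  intro x y h
  unfold GS
  refine Finset.sum_congr rfl fun r hr => ?_
  have hr' := Finset.mem_range.1 hr
  rw [gr_ad r x y (dx_mono (by omega) h), hA r x y (dx_mono (by omega) h)]

include hN in
theorem nice_ga (r : ℕ) : Nice1 fun x => gr r x * a r x :=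
  nice_mul_bdd (hN r) (gr_ad r).measurable (fun x => (gr_abs r x).le)

include hN in
theorem nice_gs (S : ℕ) : Nice1 (GS a S) := nice_sum _ _ fun r _ => nice_ga hN r

include hA hN in
theorem av_ga_fine {r s : ℕ} (h : s ≤ r + 1) (x : ℝ) : av s (fun x => gr r x * a r x) x = 0 := by
  rw [← av_av (nice_ga hN r) h]
  have : av (r + 1) (fun x => gr r x * a r x) = fun _ => 0 := by
    funext y
    unfold av
    have e : ∀ j, ∫ u in Jc (r + 1) j, gr r u * a r u = 0 := by
      intro j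
      have := int_ad_mul ((hA r).mono (Nat.le_succ r)) j (gr r)
      simp only [mul_comm (gr r _)]
      rw [this, gr_mean, mul_zero]
    rw [e, mul_zero]
  rw [this]
  unfold av
  simp

include hA hN in
/-- partial sums of the gate series are averages of the full sum -/
theorem gate_partial {S s : ℕ} (h : s < S) (x : ℝ) : av (s + 2) (GS a S) x = GS a (s + 1) x := by
  unfold GS
  rw [av_sum _ _ fun r _ => nice_ga hN r]
  rw [← Finset.sum_subset (Finset.range_mono (Nat.succ_le_of_lt h))]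
  · refine Finset.sum_congr rfl fun r hr => ?_
    have hr' := Finset.mem_range.1 hr
    refine av_of_ad ?_ x
    exact ((gr_ad r).mono (by omega)).mul ((hA r).mono (by omega))
  · intro r _ hr
    rw [Finset.mem_range, not_lt] at hr
    exact av_ga_fine hA hN (by omega) x

include hA hN in
theorem gate_le {S s : ℕ} (h : s ≤ S) (x : ℝ) : |GS a s x| ≤ Mx (GS a S) (S + 1) x := by
  rcases Nat.eq_zero_or_pos s with h0 | h0
  · subst h0
    simp only [GS, Finset.range_zero, Finset.sum_empty, abs_zero]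
    exact Mx_nonneg _ _ _
  · obtain ⟨t, rfl⟩ : ∃ t, s = t + 1 := ⟨s - 1, by omega⟩
    rw [← gate_partial hA hN (by omega : t < S)]
    exact av_le_Mx _ (by omega) x

include hA hN in
/-- orthogonality of the gates -/
theorem gate_sq (S : ℕ) : ∫ x, (GS a S x) ^ 2 = ∑ r ∈ Finset.range S, ∫ x, (a r x) ^ 2 := by
  induction S with
  | zero => simp [GS]
  | succ S ih =>
    rw [Finset.sum_range_succ, ← ih]
    have e : ∀ x, (GS a (S + 1) x) ^ 2 =
        (GS a S x) ^ 2 + (2 * ((GS a S x * a S x) * gr S x) + (a S x) ^ 2) := by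
      intro x
      have h1 : GS a (S + 1) x = GS a S x + gr S x * a S x := by
        unfold GS; rw [Finset.sum_range_succ]
      rw [h1]
      have h2 := gr_sq S x
      linear_combination (a S x) ^ 2 * h2
    have n1 := nice_mul (nice_gs hN S) (hN S)
    have n2 : Nice1 fun x => (GS a S x * a S x) * gr S x := by
      have := nice_mul_bdd n1 (gr_ad S).measurable (fun x => (gr_abs S x).le)
      simpa only [mul_comm (gr S _)] using this
    have i2 : Integrable fun x => 2 * ((GS a S x * a S x) * gr S x) := (nice_int n2).const_mul 2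
    have i3 := nice_int (nice_sq (hN S))
    have i4 : Integrable fun x => 2 * ((GS a S x * a S x) * gr S x) + (a S x) ^ 2 := i2.add i3
    simp only [e]
    rw [integral_add (nice_int (nice_sq (nice_gs hN S))) i4, integral_add i2 i3,
      integral_const_mul, int_gate ((gs_ad hA S).mul ((hA S).mono (Nat.le_succ S))) n1]
    ring

include hA hN in
/-- maximal truncations of the gate series -/
theorem gate_max (S : ℕ) :
    ∫ x, (Mx (GS a S) (S + 1) x) ^ 2 ≤ 4 * ∑ r ∈ Finset.range S, ∫ x, (a r x) ^ 2 := by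
  rw [← gate_sq hA hN S]
  exact doob (nice_gs hN S) (S + 1)

end gates

end Crest.Agent.R087.Dyax738
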