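import Crest.Agent.R087.Sh1_283

/-!
Row 87, OUTER SHELL, leaf S5 (helper820): a priori bounds for `tk`.
-/

set_option autoImplicit false

noncomputable section

open MeasureTheory Crest.Agent.R087.Sh0x283 Crest.Agent.R087.Sh1x283
open scoped ENNReal NNReal

namespace Crest.Agent.R087.TBx820

/-! ### Cauchy-Schwarz with a weight, for `lintegral` -/

theorem cs {α : Type*} [MeasurableSpace α] (μ : Measure α) (k h : α → ℝ≥0∞) (hk : Measurable k)
    (hh : Measurable h) :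
    (∫⁻ a, k a * h a ∂μ) ^ 2 ≤ (∫⁻ a, k a ∂μ) * ∫⁻ a, k a * h a ^ 2 ∂μ := by
  have hpq : (2 : ℝ).HolderConjugate 2 := Real.HolderConjugate.two_two
  have h1 := ENNReal.lintegral_mul_le_Lp_mul_Lq μ hpq (f := fun a => k a ^ (1 / 2 : ℝ))
    (g := fun a => k a ^ (1 / 2 : ℝ) * h a) (hk.pow_const _).aemeasurable
    ((hk.pow_const _).mul hh).aemeasurable
  have h2 : ∀ a, (k a ^ (1 / 2 : ℝ)) * (k a ^ (1 / 2 : ℝ) * h a) = k a * h a := by
    intro a
    rw [← mul_assoc, ← ENNReal.rpow_add_of_nonneg _ _ (by norm_num) (by norm_num)]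
    norm_num
  have h3 : ∀ a, (k a ^ (1 / 2 : ℝ)) ^ (2 : ℝ) = k a := by
    intro a
    rw [← ENNReal.rpow_mul]; norm_num
  have h4 : ∀ a, (k a ^ (1 / 2 : ℝ) * h a) ^ (2 : ℝ) = k a * h a ^ 2 := by
    intro a
    rw [ENNReal.mul_rpow_of_nonneg _ _ (by norm_num), h3, ENNReal.rpow_two]
  simp only [Pi.mul_apply, h2, h3, h4] at h1
  have h5 := pow_le_pow_left' h1 2
  refine h5.trans (le_of_eq ?_)
  rw [mul_pow, ← ENNReal.rpow_two, ← ENNReal.rpow_two, ← ENNReal.rpow_mul, ← ENNReal.rpow_mul]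
  norm_num

/-! ### the change of variables `y ↦ y - t U(x,y)` -/

theorem map_le {Φ : ℝ → ℝ} (hΦm : Measurable Φ) (hΦ : AntilipschitzWith 2 Φ) :
    Measure.map Φ volume ≤ (2 : ℝ≥0∞) • (volume : Measure ℝ) := by
  rw [Measure.le_iff]
  intro s hs
  rw [Measure.map_apply hΦm hs, Measure.smul_apply, smul_eq_mul]
  have h := hΦ.hausdorffMeasure_preimage_le (d := 1) zero_le_one s
  rw [hausdorffMeasure_real] at h
  simpa using h

theorem lintegral_comp_le {Φ : ℝ → ℝ} (hΦm : Measurable Φ) (hΦ : AntilipschitzWith 2 Φ)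
    {g : ℝ → ℝ≥0∞} (hg : Measurable g) : ∫⁻ y, g (Φ y) ≤ 2 * ∫⁻ y, g y := by
  rw [← lintegral_map hg hΦm]
  refine (lintegral_mono' (map_le hΦm hΦ) le_rfl).trans ?_
  rw [lintegral_smul_measure, smul_eq_mul]

theorem antilip {U : ℝ × ℝ → ℝ} {c : ℝ} (hc : c ≤ 1 / 2)
    (hU : ∀ x y y' : ℝ, |U (x, y) - U (x, y')| ≤ c * |y - y'|) (x t : ℝ) (ht : |t| ≤ 1) :
    AntilipschitzWith 2 (fun y => y - t * U (x, y)) := by
  refine AntilipschitzWith.of_le_mul_dist ?_
  intro y y'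
  rw [Real.dist_eq, Real.dist_eq]
  have h1 := hU x y y'
  have h2 : |t * (U (x, y) - U (x, y'))| ≤ 1 / 2 * |y - y'| := by
    rw [abs_mul]
    calc |t| * |U (x, y) - U (x, y')| ≤ 1 * (c * |y - y'|) :=
          mul_le_mul ht h1 (abs_nonneg _) zero_le_one
      _ ≤ 1 / 2 * |y - y'| := by
          rw [one_mul]; exact mul_le_mul_of_nonneg_right hc (abs_nonneg _)
  have h3 : y - y' = (y - t * U (x, y) - (y' - t * U (x, y'))) + t * (U (x, y) - U (x, y')) := by
    ring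
  have h4 : |y - y'| ≤ |y - t * U (x, y) - (y' - t * U (x, y'))| +
      |t * (U (x, y) - U (x, y'))| := by
    conv_lhs => rw [h3]
    exact abs_add_le _ _
  push_cast
  linarith

/-- `∫⁻ F(x - t, y - t U(x,y)) ≤ 2 ∫⁻ F` -/
theorem lintegral_shift_le {U : ℝ × ℝ → ℝ} {c : ℝ} (hc : c ≤ 1 / 2) (hU : Fld c U) (t : ℝ)
    (ht : |t| ≤ 1) {F : ℝ × ℝ → ℝ≥0∞} (hF : Measurable F) :
    ∫⁻ z : ℝ × ℝ, F (z.1 - t, z.2 - t * U z) ≤ 2 * ∫⁻ z, F z := by
  obtain ⟨hUm, -, hUl⟩ := hU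
  have hm : Measurable fun z : ℝ × ℝ => F (z.1 - t, z.2 - t * U z) := by fun_prop
  rw [Measure.volume_eq_prod, lintegral_prod _ hm.aemeasurable, lintegral_prod _ hF.aemeasurable]
  have h1 : ∀ x : ℝ, ∫⁻ y, F (x - t, y - t * U (x, y)) ≤ 2 * ∫⁻ y, F (x - t, y) := by
    intro x
    have hΦm : Measurable fun y => y - t * U (x, y) := by fun_prop
    exact lintegral_comp_le hΦm (antilip hc hUl x t ht) (g := fun y => F (x - t, y)) (by fun_prop)
  calc ∫⁻ x, ∫⁻ y, F (x - t, y - t * U (x, y)) ≤ ∫⁻ x, 2 * ∫⁻ y, F (x - t, y) :=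
        lintegral_mono h1
    _ = 2 * ∫⁻ x, ∫⁻ y, F (x - t, y) := by
        rw [lintegral_const_mul]
        exact (hF.lintegral_prod_right').comp (measurable_id.sub_const t)
    _ = 2 * ∫⁻ x, ∫⁻ y, F (x, y) := by
        rw [lintegral_sub_right_eq_self (fun x => ∫⁻ y, F (x, y)) t]

/-! ### nice functions -/

theorem nice_integrable {f : ℝ × ℝ → ℝ} (hf : Nice f) : Integrable f := by
  obtain ⟨hm, ⟨M, hM⟩, R, hR⟩ := hf
  have h1 : IntegrableOn f (Metric.closedBall 0 R) := by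
    refine Measure.integrableOn_of_bounded (M := M) (measure_closedBall_lt_top).ne
      hm.aestronglyMeasurable (Filter.Eventually.of_forall fun z => ?_)
    rw [Real.norm_eq_abs]; exact hM z
  refine h1.integrable_of_forall_notMem_eq_zero ?_
  intro z hz
  apply hR
  simpa using hz

theorem nice_sq {f : ℝ × ℝ → ℝ} (hf : Nice f) : Nice (fun z => (f z) ^ 2) := by
  obtain ⟨hm, ⟨M, hM⟩, R, hR⟩ := hf
  refine ⟨hm.pow_const 2, ⟨M ^ 2, fun z => ?_⟩, R, fun z hz => ?_⟩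
  · rw [abs_pow]
    exact pow_le_pow_left₀ (abs_nonneg _) (hM z) 2
  · simp only [hR z hz, ne_eq, OfNat.ofNat_ne_zero, not_false_eq_true, zero_pow]

theorem nice_integrable_sq {f : ℝ × ℝ → ℝ} (hf : Nice f) : Integrable (fun z => (f z) ^ 2) :=
  nice_integrable (nice_sq hf)

theorem ofReal_sq (a : ℝ) : ENNReal.ofReal (a ^ 2) = ‖a‖ₑ ^ 2 := by
  rw [← sq_abs, ENNReal.ofReal_pow (abs_nonneg _), Real.enorm_eq_ofReal_abs]

theorem nice_ofReal {f : ℝ × ℝ → ℝ} (hf : Nice f) :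
    ENNReal.ofReal (∫ z, (f z) ^ 2) = ∫⁻ z, ‖f z‖ₑ ^ 2 := by
  rw [ofReal_integral_eq_lintegral_ofReal (nice_integrable_sq hf)
    (Filter.Eventually.of_forall fun z => sq_nonneg _)]
  exact lintegral_congr fun z => ofReal_sq _

/-- the squares of the shifted function -/
theorem integral_shift_le {U f : ℝ × ℝ → ℝ} {c : ℝ} (hc : c ≤ 1 / 2) (hU : Fld c U) (t : ℝ)
    (ht : |t| ≤ 1) (hf : Nice f) :
    ∫ z : ℝ × ℝ, (f (z.1 - t, z.2 - t * U z)) ^ 2 ≤ 2 * ∫ z, (f z) ^ 2 := by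
  have h1 := lintegral_shift_le hc hU t ht (F := fun z => ‖f z‖ₑ ^ 2)
    (hf.1.enorm.pow_const 2)
  rw [← nice_ofReal hf] at h1
  rw [integral_eq_lintegral_of_nonneg_ae (Filter.Eventually.of_forall fun z => sq_nonneg _)]
  · have h2 : ∫⁻ z : ℝ × ℝ, ENNReal.ofReal ((f (z.1 - t, z.2 - t * U z)) ^ 2) ≤
        ENNReal.ofReal (2 * ∫ z, (f z) ^ 2) := by
      rw [ENNReal.ofReal_mul (by norm_num)]
      refine (lintegral_mono fun z => (ofReal_sq _).le).trans (h1.trans (le_of_eq ?_))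
      norm_num
    refine ENNReal.toReal_le_of_le_ofReal ?_ h2
    exact mul_nonneg (by norm_num) (integral_nonneg fun z => sq_nonneg _)
  · obtain ⟨hUm, -, -⟩ := hU
    have hfm := hf.1
    have : Measurable fun z : ℝ × ℝ => (f (z.1 - t, z.2 - t * U z)) ^ 2 := by fun_prop
    exact this.aestronglyMeasurable

/-! ### the operator -/

section op

variable {K : ℝ → ℝ} (hK : Measurable K) (hKb : ∃ M : ℝ, ∀ t, |K t| ≤ M)
  (hKs : ∀ t, 1 < |t| → K t = 0)

include hK hKb hKs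

theorem K_integrable : Integrable K := by
  obtain ⟨M, hM⟩ := hKb
  have h1 : IntegrableOn K (Set.Icc (-1) 1) := by
    refine Measure.integrableOn_of_bounded (M := M) (by simp) hK.aestronglyMeasurable
      (Filter.Eventually.of_forall fun z => ?_)
    rw [Real.norm_eq_abs]; exact hM z
  refine h1.integrable_of_forall_notMem_eq_zero ?_
  intro t ht
  apply hKs
  rw [Set.mem_Icc, ← abs_le, not_le] at ht
  exact ht

theorem Kf_integrable {U f : ℝ × ℝ → ℝ} (hf : Nice f) (z : ℝ × ℝ) :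
    Integrable fun t => K t * f (z.1 - t, z.2 - t * U z) := by
  obtain ⟨hm, ⟨M, hM⟩, -⟩ := hf
  have hm' : Measurable fun t : ℝ => f (z.1 - t, z.2 - t * U z) := by fun_prop
  refine (K_integrable hK hKb hKs).mul_bdd (c := M) hm'.aestronglyMeasurable ?_
  exact Filter.Eventually.of_forall fun t => by rw [Real.norm_eq_abs]; exact hM _

theorem tk_nice {U f : ℝ × ℝ → ℝ} (hUm : Measurable U) (hUb : ∃ W : ℝ, ∀ z, |U z| ≤ W)
    (hf : Nice f) : Nice (tk K U f) := by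
  have hf' := hf
  obtain ⟨hm, ⟨M, hM⟩, R, hR⟩ := hf
  obtain ⟨W, hW⟩ := hUb
  refine ⟨?_, ⟨(∫ t, |K t|) * M, fun z => ?_⟩, max (R + 1) (R + W), fun z hz => ?_⟩
  · have h1 : Measurable fun p : (ℝ × ℝ) × ℝ => K p.2 * f (p.1.1 - p.2, p.1.2 - p.2 * U p.1) := by
      fun_prop
    exact (h1.stronglyMeasurable.integral_prod_right').measurable
  · unfold tk
    calc |∫ t, K t * f (z.1 - t, z.2 - t * U z)| ≤ ∫ t, |K t * f (z.1 - t, z.2 - t * U z)| :=
          abs_integral_le_integral_abs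
      _ ≤ ∫ t, |K t| * M := by
          refine integral_mono ((Kf_integrable hK hKb hKs hf' z).abs)
            ((K_integrable hK hKb hKs).abs.mul_const M) fun t => ?_
          simp only [abs_mul]
          exact mul_le_mul_of_nonneg_left (hM _) (abs_nonneg _)
      _ = (∫ t, |K t|) * M := integral_mul_const _ _
  · unfold tk
    have h0 : ∀ t, K t * f (z.1 - t, z.2 - t * U z) = 0 := by
      intro t
      by_cases ht : 1 < |t|
      · rw [hKs t ht, zero_mul]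
      · rw [not_lt] at ht
        rw [hR, mul_zero]
        by_contra hcon
        rw [not_lt] at hcon
        have h1 : |z.1 - t| ≤ R := (norm_fst_le _).trans hcon
        have h2 : |z.2 - t * U z| ≤ R := (norm_snd_le (z.1 - t, z.2 - t * U z)).trans hcon
        have h3 : |z.1| ≤ R + 1 := by
          have : z.1 = (z.1 - t) + t := by ring
          rw [this]; exact (abs_add_le _ _).trans (add_le_add h1 ht)
        have h4 : |t * U z| ≤ W := by
          rw [abs_mul]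
          calc |t| * |U z| ≤ 1 * W := mul_le_mul ht (hW z) (abs_nonneg _) zero_le_one
            _ = W := one_mul W
        have h5 : |z.2| ≤ R + W := by
          have : z.2 = (z.2 - t * U z) + t * U z := by ring
          rw [this]; exact (abs_add_le _ _).trans (add_le_add h2 h4)
        have h6 : ‖z‖ ≤ max (R + 1) (R + W) := by
          rw [Prod.norm_def]
          exact max_le_max h3 h5
        exact absurd hz (not_lt.2 h6)
    simp only [h0, integral_zero]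

theorem tk_sq_le {U f : ℝ × ℝ → ℝ} {c : ℝ} (hc : c ≤ 1 / 2) (hU : Fld c U) (hf : Nice f) :
    ∫ z, (tk K U f z) ^ 2 ≤ 2 * (∫ t, |K t|) ^ 2 * ∫ z, (f z) ^ 2 := by
  have hUm := hU.1
  have hfm := hf.1
  have hT := tk_nice hK hKb hKs hU.1 hU.2.1 hf
  have hA : ∫⁻ t, ‖K t‖ₑ = ENNReal.ofReal (∫ t, |K t|) := by
    rw [ofReal_integral_eq_lintegral_ofReal (K_integrable hK hKb hKs).abs
      (Filter.Eventually.of_forall fun t => abs_nonneg _)]
    exact lintegral_congr fun t => Real.enorm_eq_ofReal_abs _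
  have h1 : ∀ z, ‖tk K U f z‖ₑ ^ 2 ≤
      (∫⁻ t, ‖K t‖ₑ) * ∫⁻ t, ‖K t‖ₑ * ‖f (z.1 - t, z.2 - t * U z)‖ₑ ^ 2 := by
    intro z
    have h2 : ‖tk K U f z‖ₑ ≤ ∫⁻ t, ‖K t‖ₑ * ‖f (z.1 - t, z.2 - t * U z)‖ₑ := by
      refine (enorm_integral_le_lintegral_enorm _).trans (le_of_eq ?_)
      exact lintegral_congr fun t => by rw [enorm_mul]
    refine (pow_le_pow_left' h2 2).trans ?_
    have hm : Measurable fun t : ℝ => ‖f (z.1 - t, z.2 - t * U z)‖ₑ := by fun_prop
    exact cs volume (fun t => ‖K t‖ₑ) _ hK.enorm hm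
  have h3 : ∫⁻ z, ‖tk K U f z‖ₑ ^ 2 ≤
      (∫⁻ t, ‖K t‖ₑ) * ((∫⁻ t, ‖K t‖ₑ) * (2 * ∫⁻ z, ‖f z‖ₑ ^ 2)) := by
    refine (lintegral_mono h1).trans ?_
    have hjm : Measurable fun p : (ℝ × ℝ) × ℝ =>
        ‖K p.2‖ₑ * ‖f (p.1.1 - p.2, p.1.2 - p.2 * U p.1)‖ₑ ^ 2 := by fun_prop
    rw [lintegral_const_mul _ hjm.lintegral_prod_right']
    refine mul_le_mul_right ?_ _
    rw [lintegral_lintegral_swap hjm.aemeasurable]
    have h4 : ∀ t : ℝ, ∫⁻ z : ℝ × ℝ, ‖K t‖ₑ * ‖f (z.1 - t, z.2 - t * U z)‖ₑ ^ 2 ≤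
        ‖K t‖ₑ * (2 * ∫⁻ z, ‖f z‖ₑ ^ 2) := by
      intro t
      by_cases ht : 1 < |t|
      · rw [hKs t ht]; simp
      · rw [not_lt] at ht
        have hm : Measurable fun z : ℝ × ℝ => ‖f (z.1 - t, z.2 - t * U z)‖ₑ ^ 2 := by fun_prop
        rw [lintegral_const_mul _ hm]
        exact mul_le_mul_right (lintegral_shift_le hc hU t ht
          (F := fun z => ‖f z‖ₑ ^ 2) (hfm.enorm.pow_const 2)) _
    refine (lintegral_mono h4).trans (le_of_eq ?_)
    rw [lintegral_mul_const _ hK.enorm]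
  rw [hA, ← nice_ofReal hf, ← nice_ofReal hT] at h3
  have hI : 0 ≤ ∫ t, |K t| := integral_nonneg fun t => abs_nonneg _
  have hJ : 0 ≤ ∫ z, (f z) ^ 2 := integral_nonneg fun z => sq_nonneg _
  have h5 : ENNReal.ofReal (∫ t, |K t|) * (ENNReal.ofReal (∫ t, |K t|) *
      (2 * ENNReal.ofReal (∫ z, (f z) ^ 2))) =
      ENNReal.ofReal (2 * (∫ t, |K t|) ^ 2 * ∫ z, (f z) ^ 2) := by
    have h6 : (2 : ℝ≥0∞) = ENNReal.ofReal 2 := by norm_num
    rw [h6, ← ENNReal.ofReal_mul (by norm_num), ← ENNReal.ofReal_mul hI,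
      ← ENNReal.ofReal_mul hI]
    congr 1
    ring
  rw [h5] at h3
  exact (ENNReal.ofReal_le_ofReal_iff (by positivity)).1 h3

end op

/-- **S5** -/
theorem tb : TB := by
  intro K hK hKb hKs U hU
  refine ⟨fun f hf => tk_nice hK hKb hKs hU.1 hU.2.1 hf,
    fun f hf => tk_sq_le hK hKb hKs le_rfl hU hf, ?_, ?_⟩
  · intro f g hf hg z
    unfold tk
    rw [← integral_add (Kf_integrable hK hKb hKs hf z) (Kf_integrable hK hKb hKs hg z)]
    exact integral_congr_ae (Filter.Eventually.of_forall fun t => by ring)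
  · intro f a _ z
    unfold tk
    rw [← integral_const_mul]
    exact integral_congr_ae (Filter.Eventually.of_forall fun t => by ring)

end Crest.Agent.R087.TBx820
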