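import Crest.Agent.R087.GateDef_273
import Crest.Agent.R087.TB_820
import Crest.Agent.R087.ALG_390

/-!
Row 87 (S0115), GATING part A (helper273): duality.  `gat ζ S U (cv φ 0 f)` is the integral operator
with kernel `KK`, its adjoint is `Tst`; the bound for `Tst` gives the bound for `gat ∘ cv`.
-/

set_option autoImplicit false

noncomputable section

open MeasureTheory Crest.Agent.R087.Sh0x283 Crest.Agent.R087.Sh1x283
open Crest.Agent.R087.GateDefx273

namespace Crest.Agent.R087.GateAx273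

theorem gt_meas : Measurable gt := by
  unfold gt
  refine Measurable.ite measurableSet_Iio measurable_const ?_
  refine Measurable.ite measurableSet_Iio measurable_const ?_
  refine Measurable.ite measurableSet_Iio measurable_const ?_
  exact Measurable.ite measurableSet_Iio measurable_const measurable_const

theorem gt_abs (t : ℝ) : |gt t| ≤ 1 := by
  unfold gt
  split_ifs <;> simp

theorem zet_cs {ζ : ℝ → ℝ} (h : ZetC ζ) : HasCompactSupport ζ := by
  refine HasCompactSupport.intro (isCompact_Icc (a := (0 : ℝ)) (b := 1)) ?_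
  intro t ht
  by_contra h0
  have := h.2.1 t h0
  exact ht ⟨by linarith [this.1], by linarith [this.2]⟩

theorem zet_bd {ζ : ℝ → ℝ} (h : ZetC ζ) : ∃ M : ℝ, 0 ≤ M ∧ ∀ t, |ζ t| ≤ M := by
  obtain ⟨C, hC⟩ := h.1.continuous.bounded_above_of_compact_support (zet_cs h)
  exact ⟨max C 0, le_max_right _ _, fun t => (hC t).trans (le_max_left _ _)⟩

/-- the kernel of `f ↦ gat ζ S U (cv φ 0 f)`. -/
def KK (φ ζ : ℝ → ℝ) (S : ℕ) (U : ℝ × ℝ → ℝ) (z w : ℝ × ℝ) : ℝ :=
  gk ζ S z.1 w.1 * φ (z.2 + (w.1 - z.1) * U z - w.2)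

theorem gk_meas {ζ : ℝ → ℝ} (h : ZetC ζ) (S : ℕ) :
    Measurable fun p : ℝ × ℝ => gk ζ S p.1 p.2 := by
  unfold gk
  refine Finset.measurable_fun_sum _ fun s _ => ?_
  have h1 : Measurable fun p : ℝ × ℝ => Int.fract ((2 : ℝ) ^ s * p.1) :=
    measurable_fract.comp (measurable_fst.const_mul _)
  have h2 : Measurable fun p : ℝ × ℝ => ((⌊(2 : ℝ) ^ s * p.1⌋ : ℤ) : ℝ) :=
    (measurable_from_top (f := fun n : ℤ => (n : ℝ))).comp
      (Int.measurable_floor.comp (measurable_fst.const_mul _))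
  exact ((gt_meas.comp h1).const_mul _).mul
    (h.1.continuous.measurable.comp ((measurable_snd.const_mul _).sub h2))

theorem gk_bd {ζ : ℝ → ℝ} (h : ZetC ζ) (S : ℕ) : ∃ M : ℝ, 0 ≤ M ∧ ∀ x u, |gk ζ S x u| ≤ M := by
  obtain ⟨M, hM0, hM⟩ := zet_bd h
  refine ⟨∑ s ∈ Finset.range S, (2 : ℝ) ^ s * M, Finset.sum_nonneg fun s _ => by positivity, ?_⟩
  intro x u
  unfold gk
  refine (Finset.abs_sum_le_sum_abs _ _).trans (Finset.sum_le_sum fun s _ => ?_)
  rw [abs_mul, abs_mul, abs_of_nonneg (by positivity : (0 : ℝ) ≤ 2 ^ s)]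
  calc (2 : ℝ) ^ s * |gt (Int.fract (2 ^ s * x))| * |ζ (2 ^ s * u - ⌊2 ^ s * x⌋)|
      ≤ 2 ^ s * 1 * M := by
        have := gt_abs (Int.fract (2 ^ s * x))
        have := hM (2 ^ s * u - ⌊2 ^ s * x⌋)
        gcongr
    _ = 2 ^ s * M := by ring

/-- the scale `s` piece is integrable in `u`. -/
theorem zet_scale_int {ζ : ℝ → ℝ} (h : ZetC ζ) (s : ℕ) (a : ℝ) :
    Integrable fun u : ℝ => ζ ((2 : ℝ) ^ s * u - a) := by
  have h1 : Integrable ζ := h.1.continuous.integrable_of_hasCompactSupport (zet_cs h)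
  have h2 : Integrable fun u => ζ (u - a) := h1.comp_sub_right a
  exact h2.comp_mul_left' (by positivity : (2 : ℝ) ^ s ≠ 0)

theorem KK_meas {φ ζ : ℝ → ℝ} (hφ : Continuous φ) (h : ZetC ζ) (S : ℕ) {U : ℝ × ℝ → ℝ}
    (hU : Measurable U) : Measurable fun p : (ℝ × ℝ) × (ℝ × ℝ) => KK φ ζ S U p.1 p.2 := by
  unfold KK
  have h1 : Measurable fun p : (ℝ × ℝ) × (ℝ × ℝ) => gk ζ S p.1.1 p.2.1 :=
    (gk_meas h S).comp ((measurable_fst.comp measurable_fst).prodMk
      (measurable_fst.comp measurable_snd))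
  have h2 : Measurable fun p : (ℝ × ℝ) × (ℝ × ℝ) =>
      p.1.2 + (p.2.1 - p.1.1) * U p.1 - p.2.2 := by fun_prop
  exact h1.mul (hφ.measurable.comp h2)

/-- a one dimensional slice formula -/
theorem slice {φ ζ : ℝ → ℝ} (hφ : Continuous φ) (hφc : HasCompactSupport φ) (h : ZetC ζ) (S : ℕ)
    {U f : ℝ × ℝ → ℝ} (hf : Nice f) (z : ℝ × ℝ) :
    gat ζ S U (cv φ 0 f) z = ∫ w, KK φ ζ S U z w * f w := by
  obtain ⟨Mφ, hMφ⟩ := hφ.bounded_above_of_compact_support hφc
  obtain ⟨Mk, hMk0, hMk⟩ := gk_bd h S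
  have hfi : Integrable f := TBx820.nice_integrable hf
  have hfm := hf.1
  obtain ⟨Mf, hMf⟩ := hf.2.1
  -- the inner convolution
  set G : ℝ → ℝ := fun u => cv φ 0 f (u, z.2 + (u - z.1) * U z) with hG
  have hG1 : ∀ u, G u = ∫ v, φ (z.2 + (u - z.1) * U z - v) * f (u, v) := by
    intro u
    rw [hG]
    unfold cv
    simp only [zpow_zero, one_mul]
    rw [← integral_sub_left_eq_self (fun r => φ r * f (u, z.2 + (u - z.1) * U z - r)) volume
      (z.2 + (u - z.1) * U z)]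
    refine integral_congr_ae (Filter.Eventually.of_forall fun v => ?_)
    simp only [sub_sub_cancel]
  have hGm : Measurable G := by
    have : G = fun u => ∫ v, φ (z.2 + (u - z.1) * U z - v) * f (u, v) := funext hG1
    rw [this]
    have h1 : Measurable fun p : ℝ × ℝ => φ (z.2 + (p.1 - z.1) * U z - p.2) * f (p.1, p.2) := by
      have h2 : Measurable fun p : ℝ × ℝ => z.2 + (p.1 - z.1) * U z - p.2 := by fun_prop
      have h3 : Measurable fun p : ℝ × ℝ => f (p.1, p.2) := hfm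
      exact (hφ.measurable.comp h2).mul h3
    exact (h1.stronglyMeasurable.integral_prod_right').measurable
  have hGb : ∃ MG : ℝ, ∀ u, |G u| ≤ MG := by
    refine ⟨(∫ r, |φ r|) * Mf, fun u => ?_⟩
    rw [hG]
    unfold cv
    have hφi : Integrable φ := hφ.integrable_of_hasCompactSupport hφc
    calc |∫ r, φ r * f (u, z.2 + (u - z.1) * U z - (2 : ℝ) ^ (0 : ℤ) * r)|
        ≤ ∫ r, |φ r * f (u, z.2 + (u - z.1) * U z - (2 : ℝ) ^ (0 : ℤ) * r)| :=
          abs_integral_le_integral_abs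
      _ ≤ ∫ r, |φ r| * Mf := by
          refine integral_mono_of_nonneg (Filter.Eventually.of_forall fun r => abs_nonneg _)
            (hφi.abs.mul_const Mf) (Filter.Eventually.of_forall fun r => ?_)
          simp only [abs_mul]
          exact mul_le_mul_of_nonneg_left (hMf _) (abs_nonneg _)
      _ = (∫ r, |φ r|) * Mf := integral_mul_const _ _
  obtain ⟨MG, hMG⟩ := hGb
  have e1 : gat ζ S U (cv φ 0 f) z = ∫ u, gk ζ S z.1 u * G u := by
    unfold gat gat1 gk
    have h2 : ∀ u, (∑ s ∈ Finset.range S, (2 : ℝ) ^ s * gt (Int.fract ((2 : ℝ) ^ s * z.1)) *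
        ζ ((2 : ℝ) ^ s * u - ⌊(2 : ℝ) ^ s * z.1⌋)) * G u =
        ∑ s ∈ Finset.range S, (2 : ℝ) ^ s * gt (Int.fract ((2 : ℝ) ^ s * z.1)) *
          (ζ ((2 : ℝ) ^ s * u - ⌊(2 : ℝ) ^ s * z.1⌋) * G u) := by
      intro u
      rw [Finset.sum_mul]
      exact Finset.sum_congr rfl fun s _ => by ring
    simp only [h2]
    rw [integral_finsetSum]
    · exact Finset.sum_congr rfl fun s _ => by rw [integral_const_mul]
    · intro s _
      refine Integrable.const_mul ?_ _
      refine (zet_scale_int h s _).mul_bdd (c := MG) hGm.aestronglyMeasurable ?_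
      exact Filter.Eventually.of_forall fun u => hMG u
  rw [e1]
  have e2 : ∀ u, gk ζ S z.1 u * G u =
      ∫ v, (fun p : ℝ × ℝ => KK φ ζ S U z p * f p) (u, v) := by
    intro u
    rw [hG1 u, ← integral_const_mul]
    refine integral_congr_ae (Filter.Eventually.of_forall fun v => ?_)
    simp only [KK]
    ring
  simp only [e2]
  rw [Measure.volume_eq_prod]
  refine (integral_prod (fun p : ℝ × ℝ => KK φ ζ S U z p * f p) ?_).symm
  rw [← Measure.volume_eq_prod]
  -- integrability on the plane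
  have hKm : Measurable fun w : ℝ × ℝ => KK φ ζ S U z w := by
    unfold KK
    have h1 : Measurable fun w : ℝ × ℝ => gk ζ S z.1 w.1 :=
      (gk_meas h S).comp (measurable_const.prodMk measurable_fst)
    have h2 : Measurable fun w : ℝ × ℝ => z.2 + (w.1 - z.1) * U z - w.2 := by fun_prop
    exact h1.mul (hφ.measurable.comp h2)
  refine hfi.bdd_mul (c := Mk * Mφ) hKm.aestronglyMeasurable ?_
  refine Filter.Eventually.of_forall fun w => ?_
  rw [Real.norm_eq_abs]
  unfold KK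
  rw [abs_mul]
  exact mul_le_mul (hMk _ _) (hMφ _) (abs_nonneg _) hMk0

theorem KK_bd {φ ζ : ℝ → ℝ} (hφ : Continuous φ) (hφc : HasCompactSupport φ) (h : ZetC ζ) (S : ℕ)
    (U : ℝ × ℝ → ℝ) : ∃ M : ℝ, ∀ z w, |KK φ ζ S U z w| ≤ M := by
  obtain ⟨Mφ, hMφ⟩ := hφ.bounded_above_of_compact_support hφc
  obtain ⟨Mk, hMk0, hMk⟩ := gk_bd h S
  refine ⟨Mk * Mφ, fun z w => ?_⟩
  unfold KK
  rw [abs_mul]
  exact mul_le_mul (hMk _ _) (hMφ _) (abs_nonneg _) hMk0

/-- `gat ∘ cv` maps nice functions to nice functions. -/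
theorem gat_nice {φ ζ : ℝ → ℝ} (hφ : Continuous φ) (hφ1 : ∀ r, 1 < |r| → φ r = 0)
    (hφc : HasCompactSupport φ) (h : ZetC ζ) (S : ℕ)
    {U f : ℝ × ℝ → ℝ} (hUm : Measurable U) (hUb : ∃ W : ℝ, ∀ z, |U z| ≤ W) (hf : Nice f) :
    Nice (gat ζ S U (cv φ 0 f)) := by
  obtain ⟨MK, hMK⟩ := KK_bd hφ hφc h S U
  have hfi : Integrable f := TBx820.nice_integrable hf
  have hfm := hf.1
  obtain ⟨W, hW⟩ := hUb
  obtain ⟨R, hR⟩ := hf.2.2
  have e : gat ζ S U (cv φ 0 f) = fun z => ∫ w, KK φ ζ S U z w * f w :=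
    funext fun z => slice hφ hφc h S hf z
  rw [e]
  refine ⟨?_, ⟨MK * ∫ w, |f w|, fun z => ?_⟩, ?_⟩
  · have h1 : Measurable fun p : (ℝ × ℝ) × (ℝ × ℝ) => KK φ ζ S U p.1 p.2 * f p.2 :=
      (KK_meas hφ h S hUm).mul (hfm.comp measurable_snd)
    exact (h1.stronglyMeasurable.integral_prod_right').measurable
  · calc |∫ w, KK φ ζ S U z w * f w| ≤ ∫ w, |KK φ ζ S U z w * f w| :=
          abs_integral_le_integral_abs
      _ ≤ ∫ w, MK * |f w| := by
          refine integral_mono_of_nonneg (Filter.Eventually.of_forall fun r => abs_nonneg _)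
            (hfi.abs.const_mul MK) (Filter.Eventually.of_forall fun w => ?_)
          simp only [abs_mul]
          exact mul_le_mul_of_nonneg_right (hMK _ _) (abs_nonneg _)
      _ = MK * ∫ w, |f w| := integral_const_mul _ _
  · have hW0 : 0 ≤ W := (abs_nonneg _).trans (hW (0, 0))
    refine ⟨max (|R| + 1) (|R| + W + 1), fun z hz => ?_⟩
    have h0 : ∀ w, KK φ ζ S U z w * f w = 0 := by
      intro w
      by_contra hne
      have hfw : f w ≠ 0 := fun h0 => hne (by rw [h0, mul_zero])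
      have hKw : KK φ ζ S U z w ≠ 0 := fun h0 => hne (by rw [h0, zero_mul])
      have hwR : ‖w‖ ≤ R := by
        by_contra hcon
        exact hfw (hR w (not_le.1 hcon))
      have hw1 : |w.1| ≤ R := (norm_fst_le w).trans hwR
      have hw2 : |w.2| ≤ R := (norm_snd_le w).trans hwR
      have hR0 : 0 ≤ R := (norm_nonneg _).trans hwR
      have hgk : gk ζ S z.1 w.1 ≠ 0 := fun h0 => hKw (by unfold KK; rw [h0, zero_mul])
      have hph : φ (z.2 + (w.1 - z.1) * U z - w.2) ≠ 0 :=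
        fun h0 => hKw (by unfold KK; rw [h0, mul_zero])
      -- |z.1 - w.1| ≤ 1
      have hxw : |w.1 - z.1| ≤ 1 := by
        unfold gk at hgk
        obtain ⟨s, -, hs⟩ := Finset.exists_ne_zero_of_sum_ne_zero hgk
        have hz0 : ζ ((2 : ℝ) ^ s * w.1 - ⌊(2 : ℝ) ^ s * z.1⌋) ≠ 0 :=
          fun h0 => hs (by rw [h0, mul_zero])
        have h1 := h.2.1 _ hz0
        have h2 := Int.floor_le ((2 : ℝ) ^ s * z.1)
        have h3 := (Int.lt_floor_add_one ((2 : ℝ) ^ s * z.1)).le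
        have hp : (1 : ℝ) ≤ 2 ^ s := one_le_pow₀ (by norm_num)
        have h4 : |(2 : ℝ) ^ s * (w.1 - z.1)| ≤ 1 := by
          rw [abs_le]; constructor <;> nlinarith [h1.1, h1.2]
        rw [abs_mul, abs_of_nonneg (by positivity : (0 : ℝ) ≤ 2 ^ s)] at h4
        nlinarith [abs_nonneg (w.1 - z.1)]
      have h5 : |z.2 + (w.1 - z.1) * U z - w.2| ≤ 1 := by
        by_contra hcon
        exact hph (hφ1 _ (not_le.1 hcon))
      have h6 : |(w.1 - z.1) * U z| ≤ W := by
        rw [abs_mul]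
        calc |w.1 - z.1| * |U z| ≤ 1 * W := mul_le_mul hxw (hW z) (abs_nonneg _) zero_le_one
          _ = W := one_mul W
      have h7 : |z.1| ≤ R + 1 := by
        have e0 : z.1 = w.1 - (w.1 - z.1) := by ring
        rw [e0]
        exact (abs_sub _ _).trans (add_le_add hw1 hxw)
      have h8 : |z.2| ≤ R + W + 1 := by
        have e0 : z.2 = w.2 + ((z.2 + (w.1 - z.1) * U z - w.2) - (w.1 - z.1) * U z) := by ring
        rw [e0]
        refine (abs_add_le _ _).trans ?_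
        have := abs_sub (z.2 + (w.1 - z.1) * U z - w.2) ((w.1 - z.1) * U z)
        linarith
      rw [Prod.norm_def, lt_max_iff] at hz
      rw [Real.norm_eq_abs, Real.norm_eq_abs, max_lt_iff, max_lt_iff] at hz
      rw [abs_of_nonneg hR0] at hz
      rcases hz with hz | hz
      · linarith [hz.1]
      · linarith [hz.2]
    simp only [h0, integral_zero]

/-- duality: `∫ (gat (cv f)) h = ∫ f (Tst h)`. -/
theorem dual {φ ζ : ℝ → ℝ} (hφ : Continuous φ) (hφc : HasCompactSupport φ) (h : ZetC ζ) (S : ℕ)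
    {U f g : ℝ × ℝ → ℝ} (hUm : Measurable U) (hf : Nice f) (hg : Nice g) :
    ∫ z, gat ζ S U (cv φ 0 f) z * g z = ∫ w, f w * Tst φ ζ S U g w := by
  obtain ⟨MK, hMK⟩ := KK_bd hφ hφc h S U
  have hfi : Integrable f := TBx820.nice_integrable hf
  have hgi : Integrable g := TBx820.nice_integrable hg
  have hfm := hf.1
  have hgm := hg.1
  have hI : Integrable (fun p : (ℝ × ℝ) × (ℝ × ℝ) => KK φ ζ S U p.1 p.2 * (g p.1 * f p.2))
      ((volume : Measure (ℝ × ℝ)).prod (volume : Measure (ℝ × ℝ))) := by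
    refine (hgi.mul_prod hfi).bdd_mul (c := MK) (KK_meas hφ h S hUm).aestronglyMeasurable ?_
    exact Filter.Eventually.of_forall fun p => hMK _ _
  have e1 : ∀ z, gat ζ S U (cv φ 0 f) z * g z = ∫ w, KK φ ζ S U z w * (g z * f w) := by
    intro z
    rw [slice hφ hφc h S hf z, ← integral_mul_const]
    exact integral_congr_ae (Filter.Eventually.of_forall fun w => by ring)
  have e2 : ∀ w, f w * Tst φ ζ S U g w = ∫ z, KK φ ζ S U z w * (g z * f w) := by
    intro w
    unfold Tst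
    rw [← integral_const_mul]
    refine integral_congr_ae (Filter.Eventually.of_forall fun z => ?_)
    simp only [KK]
    ring
  simp only [e1, e2]
  exact integral_integral_swap hI

theorem Tst_nice {φ ζ : ℝ → ℝ} (hφ : Continuous φ) (hφ1 : ∀ r, 1 < |r| → φ r = 0)
    (hφc : HasCompactSupport φ) (h : ZetC ζ) (S : ℕ)
    {U g : ℝ × ℝ → ℝ} (hUm : Measurable U) (hUb : ∃ W : ℝ, ∀ z, |U z| ≤ W) (hg : Nice g) :
    Nice (Tst φ ζ S U g) := by
  obtain ⟨MK, hMK⟩ := KK_bd hφ hφc h S U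
  have hgi : Integrable g := TBx820.nice_integrable hg
  have hgm := hg.1
  obtain ⟨W, hW⟩ := hUb
  obtain ⟨R, hR⟩ := hg.2.2
  have e : Tst φ ζ S U g = fun w => ∫ z, KK φ ζ S U z w * g z := by
    funext w; rfl
  rw [e]
  refine ⟨?_, ⟨MK * ∫ w, |g w|, fun w => ?_⟩, ?_⟩
  · have h1 : Measurable fun p : (ℝ × ℝ) × (ℝ × ℝ) => KK φ ζ S U p.2 p.1 * g p.2 :=
      ((KK_meas hφ h S hUm).comp measurable_swap).mul (hgm.comp measurable_snd)
    exact (h1.stronglyMeasurable.integral_prod_right').measurable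
  · calc |∫ z, KK φ ζ S U z w * g z| ≤ ∫ z, |KK φ ζ S U z w * g z| :=
          abs_integral_le_integral_abs
      _ ≤ ∫ z, MK * |g z| := by
          refine integral_mono_of_nonneg (Filter.Eventually.of_forall fun r => abs_nonneg _)
            (hgi.abs.const_mul MK) (Filter.Eventually.of_forall fun w => ?_)
          simp only [abs_mul]
          exact mul_le_mul_of_nonneg_right (hMK _ _) (abs_nonneg _)
      _ = MK * ∫ w, |g w| := integral_const_mul _ _
  · have hW0 : 0 ≤ W := (abs_nonneg _).trans (hW (0, 0))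
    refine ⟨max (|R| + 1) (|R| + W + 1), fun w hw => ?_⟩
    have h0 : ∀ z, KK φ ζ S U z w * g z = 0 := by
      intro z
      by_contra hne
      have hgz : g z ≠ 0 := fun h0 => hne (by rw [h0, mul_zero])
      have hKw : KK φ ζ S U z w ≠ 0 := fun h0 => hne (by rw [h0, zero_mul])
      have hzR : ‖z‖ ≤ R := by
        by_contra hcon
        exact hgz (hR z (not_le.1 hcon))
      have hz1 : |z.1| ≤ R := (norm_fst_le z).trans hzR
      have hz2 : |z.2| ≤ R := (norm_snd_le z).trans hzR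
      have hR0 : 0 ≤ R := (norm_nonneg _).trans hzR
      have hgk : gk ζ S z.1 w.1 ≠ 0 := fun h0 => hKw (by unfold KK; rw [h0, zero_mul])
      have hph : φ (z.2 + (w.1 - z.1) * U z - w.2) ≠ 0 :=
        fun h0 => hKw (by unfold KK; rw [h0, mul_zero])
      have hxw : |w.1 - z.1| ≤ 1 := by
        unfold gk at hgk
        obtain ⟨s, -, hs⟩ := Finset.exists_ne_zero_of_sum_ne_zero hgk
        have hz0 : ζ ((2 : ℝ) ^ s * w.1 - ⌊(2 : ℝ) ^ s * z.1⌋) ≠ 0 :=
          fun h0 => hs (by rw [h0, mul_zero])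
        have h1 := h.2.1 _ hz0
        have h2 := Int.floor_le ((2 : ℝ) ^ s * z.1)
        have h3 := (Int.lt_floor_add_one ((2 : ℝ) ^ s * z.1)).le
        have hp : (1 : ℝ) ≤ 2 ^ s := one_le_pow₀ (by norm_num)
        have h4 : |(2 : ℝ) ^ s * (w.1 - z.1)| ≤ 1 := by
          rw [abs_le]; constructor <;> nlinarith [h1.1, h1.2]
        rw [abs_mul, abs_of_nonneg (by positivity : (0 : ℝ) ≤ 2 ^ s)] at h4
        nlinarith [abs_nonneg (w.1 - z.1)]
      have h5 : |z.2 + (w.1 - z.1) * U z - w.2| ≤ 1 := by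
        by_contra hcon
        exact hph (hφ1 _ (not_le.1 hcon))
      have h6 : |(w.1 - z.1) * U z| ≤ W := by
        rw [abs_mul]
        calc |w.1 - z.1| * |U z| ≤ 1 * W := mul_le_mul hxw (hW z) (abs_nonneg _) zero_le_one
          _ = W := one_mul W
      have h7 : |w.1| ≤ R + 1 := by
        have e0 : w.1 = z.1 + (w.1 - z.1) := by ring
        rw [e0]
        exact (abs_add_le _ _).trans (add_le_add hz1 hxw)
      have h8 : |w.2| ≤ R + W + 1 := by
        have e0 : w.2 = z.2 + ((w.1 - z.1) * U z - (z.2 + (w.1 - z.1) * U z - w.2)) := by ring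
        rw [e0]
        refine (abs_add_le _ _).trans ?_
        have := abs_sub ((w.1 - z.1) * U z) (z.2 + (w.1 - z.1) * U z - w.2)
        linarith
      rw [Prod.norm_def, lt_max_iff] at hw
      rw [Real.norm_eq_abs, Real.norm_eq_abs, max_lt_iff, max_lt_iff] at hw
      rw [abs_of_nonneg hR0] at hw
      rcases hw with hw | hw
      · linarith [hw.1]
      · linarith [hw.2]
    simp only [h0, integral_zero]

/-- Cauchy–Schwarz for nice functions. -/
theorem cs_nice {f g : ℝ × ℝ → ℝ} (hf : Nice f) (hg : Nice g) :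
    (∫ z, f z * g z) ^ 2 ≤ (∫ z, (f z) ^ 2) * ∫ z, (g z) ^ 2 := by
  have hf2 := TBx820.nice_integrable_sq hf
  have hg2 := TBx820.nice_integrable_sq hg
  have hfg : Integrable fun z => f z * g z := TBx820.nice_integrable (ALGx390.nice_mul hf hg)
  have key : ∀ t : ℝ, 0 ≤ (∫ z, (f z) ^ 2) * (t * t) + (2 * ∫ z, f z * g z) * t +
      ∫ z, (g z) ^ 2 := by
    intro t
    have h1 : 0 ≤ ∫ z, (t * f z + g z) ^ 2 := integral_nonneg fun z => sq_nonneg _
    have h2 : (∫ z, (t * f z + g z) ^ 2) =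
        (t * t) * (∫ z, (f z) ^ 2) + (2 * t) * (∫ z, f z * g z) + ∫ z, (g z) ^ 2 := by
      have h3 : (fun z => (t * f z + g z) ^ 2) =
          fun z => ((t * t) * (f z) ^ 2 + (2 * t) * (f z * g z)) + (g z) ^ 2 := by
        funext z; ring
      have i1 : Integrable fun z => (t * t) * (f z) ^ 2 := hf2.const_mul _
      have i2 : Integrable fun z => (2 * t) * (f z * g z) := hfg.const_mul _
      have i3 : Integrable fun z => (t * t) * (f z) ^ 2 + (2 * t) * (f z * g z) := i1.add i2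
      rw [h3, integral_add i3 hg2, integral_add i1 i2, integral_const_mul, integral_const_mul]
    rw [h2] at h1
    linarith
  have := discrim_le_zero key
  rw [discrim] at this
  nlinarith

/-- **the dual bound gives the direct bound.** -/
theorem direct {φ ζ : ℝ → ℝ} (hφ : Continuous φ) (hφ1 : ∀ r, 1 < |r| → φ r = 0)
    (hφc : HasCompactSupport φ) (h : ZetC ζ) (S : ℕ) {U : ℝ × ℝ → ℝ} (hUm : Measurable U)
    (hUb : ∃ W : ℝ, ∀ z, |U z| ≤ W) {B : ℝ}
    (H : ∀ g, Nice g → ∫ w, (Tst φ ζ S U g w) ^ 2 ≤ B * ∫ z, (g z) ^ 2)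
    {f : ℝ × ℝ → ℝ} (hf : Nice f) :
    ∫ z, (gat ζ S U (cv φ 0 f) z) ^ 2 ≤ B * ∫ z, (f z) ^ 2 := by
  set F := gat ζ S U (cv φ 0 f) with hF
  have hFn : Nice F := gat_nice hφ hφ1 hφc h S hUm hUb hf
  have hT : Nice (Tst φ ζ S U F) := Tst_nice hφ hφ1 hφc h S hUm hUb hFn
  have e : ∫ z, (F z) ^ 2 = ∫ w, f w * Tst φ ζ S U F w := by
    rw [← dual hφ hφc h S hUm hf hFn]
    exact integral_congr_ae (Filter.Eventually.of_forall fun z => by simp only [sq, hF])
  have hX : 0 ≤ ∫ z, (F z) ^ 2 := integral_nonneg fun z => sq_nonneg _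
  have hf0 : 0 ≤ ∫ z, (f z) ^ 2 := integral_nonneg fun z => sq_nonneg _
  have h1 : (∫ z, (F z) ^ 2) ^ 2 ≤ (∫ z, (f z) ^ 2) * (B * ∫ z, (F z) ^ 2) := by
    calc (∫ z, (F z) ^ 2) ^ 2 = (∫ w, f w * Tst φ ζ S U F w) ^ 2 := by rw [e]
      _ ≤ (∫ z, (f z) ^ 2) * ∫ w, (Tst φ ζ S U F w) ^ 2 := cs_nice hf hT
      _ ≤ (∫ z, (f z) ^ 2) * (B * ∫ z, (F z) ^ 2) := mul_le_mul_of_nonneg_left (H F hFn) hf0
  rcases hX.eq_or_lt with h0 | h0
  · rw [← h0]
    by_cases hB : 0 ≤ B
    · positivity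
    · -- B < 0 : then ∫ f^2 = 0
      have h2 : 0 ≤ ∫ w, (Tst φ ζ S U f w) ^ 2 := integral_nonneg fun z => sq_nonneg _
      have h3 := H f hf
      exact h2.trans h3
  · have h2 : (∫ z, (F z) ^ 2) * (∫ z, (F z) ^ 2) ≤ (B * ∫ z, (f z) ^ 2) * ∫ z, (F z) ^ 2 := by
      calc _ = (∫ z, (F z) ^ 2) ^ 2 := by ring
        _ ≤ _ := h1
        _ = _ := by ring
    exact le_of_mul_le_mul_right h2 h0

end Crest.Agent.R087.GateAx273
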