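import Crest.Agent.R087.OPdef_799
import Crest.Agent.R087.GateA_273
import Crest.Agent.R087.Dya_738

/-!
Row 87, operator part, leaf PAIR-LOW-DEEP (helper103, shadow of helper975), summation side.

One tree with the line `t ↦ b + m t` and the weights `H s z`; one short point `z'`, scales
`p ≤ s' < q` with `|m - U z'| 2^-s' ≤ κ₀`.

* `GK Φ ζ U s s' z z'` : kernel of a pair after integration over `w`;
* `al H b m F s x v`   : coefficient of the cell of scale `s` containing `x`;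
* `be`                 : coefficients of the short gate martingale;
* `PP s' z'`           : interaction of `(z', s')` with the part `s ≤ s'` of the tree.
-/

set_option autoImplicit false

noncomputable section

open MeasureTheory Crest.Agent.R087.Sh0x283 Crest.Agent.R087.Sh1x283
open Crest.Agent.R087.GateDefx273 Crest.Agent.R087.GateAx273
open Crest.Agent.R087.OPdefx799 Crest.Agent.R087.Dyax738

namespace Crest.Agent.R087.DeepSx103

/-- cell of scale `s` of the abscissa `x`, as a strip in the plane -/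
def cl (s : ℕ) (x : ℝ) : Set (ℝ × ℝ) := {z | ix s z.1 = ix s x}

/-- gate -/
def gz (s : ℕ) (x : ℝ) : ℝ := gt (Int.fract ((2 : ℝ) ^ s * x))

/-- wavelet of the cell of scale `s` containing `x` -/
def zs (ζ : ℝ → ℝ) (s : ℕ) (x u : ℝ) : ℝ := ζ ((2 : ℝ) ^ s * u - ix s x)

/-- pair kernel -/
def GK (Φ ζ : ℝ → ℝ) (U : ℝ × ℝ → ℝ) (s s' : ℕ) (z z' : ℝ × ℝ) : ℝ :=
  ((2 : ℝ) ^ s * gz s z.1) * ((2 : ℝ) ^ s' * gz s' z'.1) *
    ∫ u, zs ζ s z.1 u * zs ζ s' z'.1 u * Φ (ln U z u - ln U z' u)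

/-- coefficient of the cell of scale `s` containing `x` -/
def al (H : ℕ → ℝ × ℝ → ℝ) (b m : ℝ) (F : ℝ → ℝ) (s : ℕ) (x v : ℝ) : ℝ :=
  (2 : ℝ) ^ s * ∫ z in cl s x, H s z * gz s z.1 * F (z.2 - (b + m * z.1) + v)

/-- correlation of two wavelets -/
def cc (ζ : ℝ → ℝ) (s s' : ℕ) (x : ℝ) : ℝ := (2 : ℝ) ^ s' * ∫ u, zs ζ s x u * zs ζ s' x u

/-- coefficient of the short gate martingale -/
def be (H : ℕ → ℝ × ℝ → ℝ) (b m : ℝ) (F ζ : ℝ → ℝ) (s' : ℕ) (x v : ℝ) : ℝ :=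
  ∑ s ∈ Finset.range (s' + 1), al H b m F s x v * cc ζ s s' x

/-- interaction of `(z', s')` with the scales `s ≤ s'` of the tree -/
def PP (H : ℕ → ℝ × ℝ → ℝ) (Φ ζ : ℝ → ℝ) (U : ℝ × ℝ → ℝ) (s' : ℕ) (z' : ℝ × ℝ) : ℝ :=
  ∑ s ∈ Finset.range (s' + 1), ∫ z, H s z * GK Φ ζ U s s' z z'

/-- positive error sum -/
def nu (H : ℕ → ℝ × ℝ → ℝ) (U : ℝ × ℝ → ℝ) (m : ℝ) (s : ℕ) (x : ℝ) : ℝ :=
  (2 : ℝ) ^ s * ∫ z in cl s x, |H s z| * (|U z - m| * (1 / 2 : ℝ) ^ s)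

/-- what is used of the profile `Φ` -/
structure PhB (Φ : ℝ → ℝ) (L : ℝ) : Prop where
  L0 : 0 ≤ L
  cont : Continuous Φ
  bd : ∀ a, |Φ a| ≤ L
  lip : ∀ a a', |Φ a - Φ a'| ≤ L * |a - a'|
  lip2 : ∀ a a' p, |Φ (a + p) - Φ a - (Φ (a' + p) - Φ a')| ≤ L * |p| * |a - a'|

/-- what is used of the wavelet `ζ` -/
structure ZeB (ζ : ℝ → ℝ) (Z : ℝ) : Prop where
  Z0 : 0 ≤ Z
  cont : Continuous ζ
  supp : ∀ t, ζ t ≠ 0 → 0 ≤ t ∧ t < 1
  bd : ∀ t, |ζ t| ≤ Z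
  lip : ∀ t t', |ζ t - ζ t'| ≤ Z * |t - t'|
  mean : ∫ t, ζ t = 0

/-! ### cells -/

theorem ix_eq_dx (s : ℕ) (x : ℝ) : ix s x = dx s x := rfl

theorem ix_mono {r s : ℕ} (h : r ≤ s) {x y : ℝ} (e : ix s x = ix s y) : ix r x = ix r y :=
  dx_mono h e

theorem measurable_ix (s : ℕ) : Measurable (ix s) := measurable_dx s

theorem measurableSet_cl (s : ℕ) (x : ℝ) : MeasurableSet (cl s x) := by
  have h : Measurable fun z : ℝ × ℝ => ix s z.1 := (measurable_ix s).comp measurable_fst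
  exact h (measurableSet_singleton _)

theorem gz_abs (s : ℕ) (x : ℝ) : |gz s x| ≤ 1 := gt_abs _

theorem gz_meas (s : ℕ) : Measurable (gz s) :=
  gt_meas.comp (measurable_fract.comp (measurable_const_mul _))

theorem zs_cell {ζ : ℝ → ℝ} {Z : ℝ} (h : ZeB ζ Z) {s : ℕ} {x u : ℝ} (h0 : zs ζ s x u ≠ 0) :
    ix s u = ix s x := by
  have h1 := h.supp _ h0
  unfold ix at h1 ⊢
  rw [Int.floor_eq_iff]
  constructor <;> linarith [h1.1, h1.2]

theorem zs_congr (ζ : ℝ → ℝ) {s : ℕ} {x x' : ℝ} (h : ix s x = ix s x') (u : ℝ) :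
    zs ζ s x u = zs ζ s x' u := by
  unfold zs
  rw [h]

theorem zs_cont {ζ : ℝ → ℝ} {Z : ℝ} (h : ZeB ζ Z) (s : ℕ) (x : ℝ) : Continuous (zs ζ s x) :=
  h.cont.comp (by fun_prop)

theorem zs_bd {ζ : ℝ → ℝ} {Z : ℝ} (h : ZeB ζ Z) (s : ℕ) (x u : ℝ) : |zs ζ s x u| ≤ Z := h.bd _

theorem cell_dist' {s : ℕ} {x y : ℝ} (h : ix s x = ix s y) : |x - y| ≤ (1 / 2 : ℝ) ^ s := by
  have := cell_dist h
  rwa [one_div_pow]

/-- the cell as a set of the line -/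
theorem zs_supp {ζ : ℝ → ℝ} {Z : ℝ} (h : ZeB ζ Z) (s : ℕ) (x u : ℝ) (hu : u ∉ Jc s (ix s x)) :
    zs ζ s x u = 0 := by
  by_contra h0
  exact hu (mem_Jc.2 (zs_cell h h0))

theorem zs_int_mul {ζ : ℝ → ℝ} {Z : ℝ} (h : ZeB ζ Z) (s : ℕ) (x : ℝ) {f : ℝ → ℝ}
    (hf : Continuous f) : Integrable fun u => zs ζ s x u * f u := by
  have h1 : Continuous fun u => zs ζ s x u * f u := (zs_cont h s x).mul hf
  refine h1.integrable_of_hasCompactSupport ?_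
  refine HasCompactSupport.intro (isCompact_Icc (a := (ix s x : ℝ) / 2 ^ s)
    (b := ((ix s x : ℝ) + 1) / 2 ^ s)) ?_
  intro u hu
  rw [zs_supp h s x u, zero_mul]
  intro h2
  exact hu ⟨h2.1, h2.2.le⟩

theorem zs_mean {ζ : ℝ → ℝ} {Z : ℝ} (h : ZeB ζ Z) (s : ℕ) (x : ℝ) : ∫ u, zs ζ s x u = 0 := by
  unfold zs
  have h1 : ∫ u, ζ ((2 : ℝ) ^ s * u - ix s x) = |((2 : ℝ) ^ s)⁻¹| • ∫ y, ζ (y - ix s x) :=
    Measure.integral_comp_mul_left (fun y => ζ (y - ix s x)) ((2 : ℝ) ^ s)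
  rw [h1, integral_sub_right_eq_self (fun y => ζ y), h.mean, smul_zero]

/-- integration against a wavelet: absolute bound -/
theorem zs_abs {ζ : ℝ → ℝ} {Z : ℝ} (h : ZeB ζ Z) (s : ℕ) (x : ℝ) {f : ℝ → ℝ} {A : ℝ}
    (hf : ∀ u, ix s u = ix s x → |f u| ≤ A) :
    |(2 : ℝ) ^ s * ∫ u, zs ζ s x u * f u| ≤ Z * A := by
  have e : ∫ u, zs ζ s x u * f u = ∫ u in Jc s (ix s x), zs ζ s x u * f u := by
    symm
    apply setIntegral_eq_integral_of_forall_compl_eq_zero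
    intro u hu
    rw [zs_supp h s x u hu, zero_mul]
  have h1 : ‖∫ u in Jc s (ix s x), zs ζ s x u * f u‖ ≤ (Z * A) * volume.real (Jc s (ix s x)) := by
    refine norm_setIntegral_le_of_norm_le_const (volume_Jc_ne s _).lt_top fun u hu => ?_
    rw [Real.norm_eq_abs, abs_mul]
    exact mul_le_mul (zs_bd h s x u) (hf u (mem_Jc.1 hu)) (abs_nonneg _) h.Z0
  rw [real_Jc, Real.norm_eq_abs, ← e] at h1
  rw [abs_mul, abs_of_pos (pw s)]
  calc (2 : ℝ) ^ s * |∫ u, zs ζ s x u * f u| ≤ 2 ^ s * (Z * A * (1 / 2 ^ s)) := by gcongr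
    _ = Z * A := by have := pw s; field_simp

/-- integration against a wavelet: mean zero bound -/
theorem zs_lip {ζ : ℝ → ℝ} {Z : ℝ} (h : ZeB ζ Z) (s : ℕ) (x : ℝ) {f : ℝ → ℝ} (hc : Continuous f)
    {A : ℝ} (hf : ∀ u, ix s u = ix s x → |f u - f x| ≤ A) :
    |(2 : ℝ) ^ s * ∫ u, zs ζ s x u * f u| ≤ Z * A := by
  have e : ∫ u, zs ζ s x u * f u = ∫ u, zs ζ s x u * (f u - f x) := by
    have h1 : ∫ u, zs ζ s x u * (f u - f x) = (∫ u, zs ζ s x u * f u) - ∫ u, zs ζ s x u * f x := by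
      rw [← integral_sub (zs_int_mul h s x hc) (zs_int_mul h s x continuous_const)]
      refine integral_congr_ae (Filter.Eventually.of_forall fun u => ?_)
      simp only
      ring
    rw [h1, integral_mul_const, zs_mean h, zero_mul, sub_zero]
  rw [e]
  exact zs_abs h s x hf

end Crest.Agent.R087.DeepSx103
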