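import Crest.Agent.R087.STOP_630

/-!
# Row 87: dyadic Doob maximal inequality (helper630)

`F_n = ∑_{k0 ≤ k < k0+n} sg k * d k`, `d k` constant on the dyadic intervals of generation `k`;
then `∫ (max_{n ≤ N} |F_n|)² ≤ 4 ∫ ∑ d_k²` over `dyI k0 j0`.
-/

set_option autoImplicit false

noncomputable section

open MeasureTheory

namespace Crest.Agent.R087.Doobx630

open Crest.Agent.R087.E2x542 Crest.Agent.R087.STOPx630

/-- running maximum -/
def rmax (x : ℕ → ℝ) : ℕ → ℝ
  | 0 => x 0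
  | n + 1 => max (rmax x n) (x (n + 1))

lemma le_rmax (x : ℕ → ℝ) {m n : ℕ} (h : m ≤ n) : x m ≤ rmax x n := by
  induction n, h using Nat.le_induction with
  | base =>
    cases m with
    | zero => exact le_refl _
    | succ m => exact le_max_right _ _
  | succ n _ ih => exact ih.trans (le_max_left _ _)

lemma rmax_le {x : ℕ → ℝ} {n : ℕ} {B : ℝ} (h : ∀ m ≤ n, x m ≤ B) : rmax x n ≤ B := by
  induction n with
  | zero => exact h 0 le_rfl
  | succ n ih => exact max_le (ih fun m hm => h m (by omega)) (h _ le_rfl)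

lemma rmax_nonneg {x : ℕ → ℝ} (hx : ∀ n, 0 ≤ x n) (n : ℕ) : 0 ≤ rmax x n :=
  (hx 0).trans (le_rmax x (Nat.zero_le n))

lemma rmax_congr {x y : ℕ → ℝ} {n : ℕ} (h : ∀ m ≤ n, x m = y m) : rmax x n = rmax y n := by
  induction n with
  | zero => exact h 0 le_rfl
  | succ n ih =>
    show max _ _ = max _ _
    rw [ih fun m hm => h m (by omega), h _ le_rfl]

lemma exists_rmax (x : ℕ → ℝ) (n : ℕ) : ∃ m ≤ n, rmax x n = x m := by
  induction n with
  | zero => exact ⟨0, le_rfl, rfl⟩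
  | succ n ih =>
    obtain ⟨m, hm, e⟩ := ih
    rcases max_choice (rmax x n) (x (n + 1)) with h | h
    · exact ⟨m, by omega, by rw [rmax, h, e]⟩
    · exact ⟨n + 1, le_rfl, by rw [rmax, h]⟩

/-- pathwise form of Doob's inequality -/
lemma pathwise (x : ℕ → ℝ) (N : ℕ) :
    (rmax x N) ^ 2 ≤ 2 * rmax x N * x N - 2 * ∑ n ∈ Finset.range N, rmax x n * (x (n + 1) - x n) := by
  induction N with
  | zero => simp only [rmax, Finset.range_zero, Finset.sum_empty]; nlinarith [sq_nonneg (x 0)]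
  | succ N ih =>
    rw [Finset.sum_range_succ]
    rcases le_total (x (N + 1)) (rmax x N) with h | h
    · have e : rmax x (N + 1) = rmax x N := max_eq_left h
      rw [e]
      linarith
    · have e : rmax x (N + 1) = x (N + 1) := max_eq_right h
      rw [e]
      nlinarith [sq_nonneg (x (N + 1) - rmax x N)]

/-- real sign -/
def sgn (x : ℝ) : ℝ := if x < 0 then -1 else if 0 < x then 1 else 0

lemma sgn_neg {x : ℝ} (h : x < 0) : sgn x = -1 := if_pos h

lemma sgn_pos {x : ℝ} (h : 0 < x) : sgn x = 1 := by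
  rw [sgn, if_neg (not_lt.2 h.le), if_pos h]

lemma sgn_zero : sgn 0 = 0 := by simp [sgn]

/-- the partial sums -/
def psum (k0 : ℕ) (d : ℕ → ℝ → ℝ) (t : ℝ) (n : ℕ) : ℝ := ∑ k ∈ Finset.Ico k0 (k0 + n), sg k t * d k t

lemma psum_zero (k0 : ℕ) (d : ℕ → ℝ → ℝ) (t : ℝ) : psum k0 d t 0 = 0 := by simp [psum]

lemma psum_succ (k0 : ℕ) (d : ℕ → ℝ → ℝ) (t : ℝ) (n : ℕ) :
    psum k0 d t (n + 1) = psum k0 d t n + sg (k0 + n) t * d (k0 + n) t := by
  rw [psum, ← Nat.add_assoc, Finset.sum_Ico_succ_top (by omega)]; rfl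

lemma psum_ad {k0 : ℕ} {d : ℕ → ℝ → ℝ} (hd : ∀ k, k0 ≤ k → Ad k (d k)) {n K : ℕ} (h : k0 + n ≤ K) :
    Ad K (fun t => psum k0 d t n) := by
  intro t s hts
  refine Finset.sum_congr rfl fun k hk => ?_
  rw [Finset.mem_Ico] at hk
  rw [sg_ad k t s (dyx_mono (by omega) hts), hd k hk.1 t s (dyx_mono (by omega) hts)]

lemma rmax_ad {k0 : ℕ} {d : ℕ → ℝ → ℝ} (hd : ∀ k, k0 ≤ k → Ad k (d k)) {n K : ℕ} (h : k0 + n ≤ K) :
    Ad K (fun t => rmax (fun m => |psum k0 d t m|) n) := by
  intro t s hts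
  refine rmax_congr fun m hm => ?_
  have := psum_ad hd (n := m) (K := K) (by omega) t s hts
  simp only at this ⊢
  rw [this]

/-- **dyadic Doob inequality** -/
theorem doob {k0 : ℕ} (j0 : ℤ) (d : ℕ → ℝ → ℝ) (hd : ∀ k, k0 ≤ k → Ad k (d k)) (N : ℕ) :
    ∫ t in dyI k0 j0, (rmax (fun n => |psum k0 d t n|) N) ^ 2 ≤
      4 * ∫ t in dyI k0 j0, ∑ k ∈ Finset.Ico k0 (k0 + N), d k t ^ 2 := by
  set F : ℝ → ℕ → ℝ := psum k0 d with hF
  set R : ℕ → ℝ → ℝ := fun n t => rmax (fun m => |F t m|) n with hR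
  have hR0 : ∀ n t, 0 ≤ R n t := fun n t => rmax_nonneg (fun m => abs_nonneg _) n
  have hRad : ∀ n, n ≤ N → Ad (k0 + N) (R n) := fun n hn => rmax_ad hd (by omega)
  have hFad : ∀ n, n ≤ N → Ad (k0 + N) (fun t => F t n) := fun n hn => psum_ad hd (by omega)
  have iO : ∀ f : ℝ → ℝ, Ad (k0 + N) f → IntegrableOn f (dyI k0 j0) := fun f hf =>
    int_le (Nat.le_add_right _ _) j0 hf
  -- the increments
  have hinc : ∀ n, n < N → 0 ≤ ∫ t in dyI k0 j0, R n t * (|F t (n + 1)| - |F t n|) := by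
    intro n hn
    have hA : Ad (k0 + n) (fun t => R n t * sgn (F t n) * d (k0 + n) t) := by
      intro t s hts
      have h1 := rmax_ad hd (n := n) (K := k0 + n) le_rfl t s hts
      have h2 := psum_ad hd (n := n) (K := k0 + n) le_rfl t s hts
      have h3 := hd (k0 + n) (by omega) t s hts
      simp only [hR, hF] at h1 h2 h3 ⊢
      rw [h1, h2, h3]
    have h0 := haar' (Nat.le_add_right k0 n) j0 hA
    rw [← h0]
    refine setIntegral_mono (int_le (k := k0 + n + 1) (by omega) j0 ?_)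
      (int_le (k := k0 + n + 1) (by omega) j0 ?_) ?_
    · intro t s hts
      have h1 := sg_ad (k0 + n) t s hts
      have h2 := hA t s (dyx_parent hts)
      simp only at h1 h2 ⊢
      rw [h1, h2]
    · intro t s hts
      have h1 := rmax_ad hd (n := n) (K := k0 + n + 1) (by omega) t s hts
      have h2 := psum_ad hd (n := n) (K := k0 + n + 1) (by omega) t s hts
      have h3 := psum_ad hd (n := n + 1) (K := k0 + n + 1) (by omega) t s hts
      simp only [hR, hF] at h1 h2 h3 ⊢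
      rw [h1, h2, h3]
    · intro t
      show R n t * sgn (F t n) * d (k0 + n) t * sg (k0 + n) t ≤
        R n t * (|F t (n + 1)| - |F t n|)
      have hs : F t (n + 1) = F t n + sg (k0 + n) t * d (k0 + n) t := psum_succ _ _ _ _
      have h1 : sgn (F t n) * F t (n + 1) ≤ |F t (n + 1)| := by
        rcases lt_trichotomy (F t n) 0 with h | h | h
        · rw [sgn_neg h, neg_one_mul]; exact neg_le_abs _
        · rw [h, sgn_zero]; simp
        · rw [sgn_pos h, one_mul]; exact le_abs_self _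
      have h2 : sgn (F t n) * F t n = |F t n| := by
        rcases lt_trichotomy (F t n) 0 with h | h | h
        · rw [sgn_neg h, abs_of_neg h]; ring
        · rw [h]; simp
        · rw [sgn_pos h, abs_of_pos h]; ring
      have h3 : sgn (F t n) * (sg (k0 + n) t * d (k0 + n) t) ≤
          |F t (n + 1)| - |F t n| := by
        rw [← h2]
        rw [hs, mul_add] at h1
        rw [hs]
        linarith
      calc R n t * sgn (F t n) * d (k0 + n) t * sg (k0 + n) t
          = R n t * (sgn (F t n) * (sg (k0 + n) t * d (k0 + n) t)) := by ring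
        _ ≤ _ := mul_le_mul_of_nonneg_left h3 (hR0 n t)
  -- integrate the pathwise inequality
  have aRR : Ad (k0 + N) (fun t => R N t ^ 2) := fun t s h => congrArg (· ^ 2) (hRad N le_rfl t s h)
  have aRF : Ad (k0 + N) (fun t => 2 * R N t * |F t N|) := by
    intro t s h
    have h1 := hRad N le_rfl t s h
    have h2 := hFad N le_rfl t s h
    simp only at h1 h2 ⊢
    rw [h1, h2]
  have aFF : Ad (k0 + N) (fun t => (F t N) ^ 2) := fun t s h => congrArg (· ^ 2) (hFad N le_rfl t s h)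
  have aI : ∀ n, n < N → Ad (k0 + N) (fun t => R n t * (|F t (n + 1)| - |F t n|)) := by
    intro n hn t s h
    have h1 := hRad n hn.le t s h
    have h2 := hFad n hn.le t s h
    have h3 := hFad (n + 1) hn t s h
    simp only at h1 h2 h3 ⊢
    rw [h1, h2, h3]
  have hpt : ∀ t, R N t ^ 2 ≤ 2 * R N t * |F t N| -
      2 * ∑ n ∈ Finset.range N, R n t * (|F t (n + 1)| - |F t n|) := fun t =>
    pathwise (fun m => |F t m|) N
  have iS : IntegrableOn (fun t => 2 * ∑ n ∈ Finset.range N, R n t * (|F t (n + 1)| - |F t n|))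
      (dyI k0 j0) := by
    refine (integrable_finsetSum _ fun n hn => ?_).const_mul 2
    exact iO _ (aI n (Finset.mem_range.1 hn))
  have h1 : ∫ t in dyI k0 j0, R N t ^ 2 ≤ ∫ t in dyI k0 j0, 2 * R N t * |F t N| := by
    have h2 := setIntegral_mono (iO _ aRR) ((iO _ aRF).sub iS) hpt
    have h3 : ∫ t in dyI k0 j0, (2 * R N t * |F t N| -
        2 * ∑ n ∈ Finset.range N, R n t * (|F t (n + 1)| - |F t n|)) =
        (∫ t in dyI k0 j0, 2 * R N t * |F t N|) -
        2 * ∑ n ∈ Finset.range N, ∫ t in dyI k0 j0, R n t * (|F t (n + 1)| - |F t n|) := by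
      rw [integral_sub (iO _ aRF) iS, integral_const_mul, integral_finsetSum]
      intro n hn
      exact iO _ (aI n (Finset.mem_range.1 hn))
    have h4 : 0 ≤ ∑ n ∈ Finset.range N, ∫ t in dyI k0 j0, R n t * (|F t (n + 1)| - |F t n|) :=
      Finset.sum_nonneg fun n hn => hinc n (Finset.mem_range.1 hn)
    calc _ ≤ _ := h2
      _ = _ := h3
      _ ≤ _ := by linarith
  have h2 : ∫ t in dyI k0 j0, 2 * R N t * |F t N| ≤
      (1 / 2) * (∫ t in dyI k0 j0, R N t ^ 2) + 2 * ∫ t in dyI k0 j0, (F t N) ^ 2 := by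
    rw [← integral_const_mul, ← integral_const_mul, ← integral_add ((iO _ aRR).const_mul _)
      ((iO _ aFF).const_mul _)]
    refine setIntegral_mono (iO _ aRF) (((iO _ aRR).const_mul _).add ((iO _ aFF).const_mul _)) ?_
    intro t
    show 2 * R N t * |F t N| ≤ 1 / 2 * R N t ^ 2 + 2 * (F t N) ^ 2
    rw [← sq_abs (F t N)]
    nlinarith [sq_nonneg (R N t - 2 * |F t N|)]
  have h3 : ∫ t in dyI k0 j0, (F t N) ^ 2 =
      ∫ t in dyI k0 j0, ∑ k ∈ Finset.Ico k0 (k0 + N), d k t ^ 2 :=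
    (energy j0 d hd (k0 + N) (Nat.le_add_right _ _)).2
  show ∫ t in dyI k0 j0, R N t ^ 2 ≤ _
  rw [← h3]
  linarith

end Crest.Agent.R087.Doobx630
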