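import Crest.Agent.R087.Dya_738

/-!
Row 87, operator part (helper738): the `ζ`-series `∑ ζ(fract(2^r x)) a_r(x)`, `a_r` adapted to `2^-r`:
almost orthogonality, truncations with an explicit squared majorant `GZ`, the coefficients `β`,
and the positive Carleson sum.
-/

set_option autoImplicit false

noncomputable section

open MeasureTheory Crest.Agent.R087.Sh0x283 Crest.Agent.R087.Sh1x283 Crest.Agent.R087.GateDefx273
open Crest.Agent.R087.Dyax738

namespace Crest.Agent.R087.DyaZx738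

/-- what is needed of `ζ` -/
structure ZB (ζ : ℝ → ℝ) (K : ℝ) : Prop where
  meas : Measurable ζ
  nonneg : 0 ≤ K
  bd : ∀ t, |ζ t| ≤ K
  lip : ∀ t t', |ζ t - ζ t'| ≤ K * |t - t'|
  mean : ∫ t in Set.Ico (0 : ℝ) 1, ζ t = 0

theorem zb_of {ζ : ℝ → ℝ} (h : ZetC ζ) : ∃ K, ZB ζ K := by
  obtain ⟨h1, h2, h3⟩ := h
  have hc : HasCompactSupport ζ := by
    refine HasCompactSupport.intro (isCompact_Icc (a := (1 / 8 : ℝ)) (b := 7 / 8)) fun x hx => ?_
    by_contra hcon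
    exact hx (h2 x hcon)
  obtain ⟨B, hB⟩ := hc.exists_bound_of_continuous h1.continuous
  obtain ⟨C, hC⟩ := ContDiff.lipschitzWith_of_hasCompactSupport hc h1 (by simp)
  refine ⟨max B C, h1.continuous.measurable, le_max_of_le_right C.2, fun t => (hB t).trans
    (le_max_left _ _), fun t t' => ?_, ?_⟩
  · have := hC.dist_le_mul t t'
    rw [Real.dist_eq, Real.dist_eq] at this
    exact this.trans (mul_le_mul_of_nonneg_right (le_max_right _ _) (abs_nonneg _))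
  · rw [integral_Ico_eq_integral_Ioc, ← intervalIntegral.integral_of_le zero_le_one]
    have h4 := intervalIntegral.integral_comp_sub_left (a := 0) (b := 1) ζ 1
    simp only [h3, sub_zero, sub_self] at h4
    rw [intervalIntegral.integral_neg] at h4
    linarith

/-- the bump at scale `2^-r` -/
def zr (ζ : ℝ → ℝ) (r : ℕ) (x : ℝ) : ℝ := ζ (Int.fract ((2 : ℝ) ^ r * x))

theorem zr_eq (ζ : ℝ → ℝ) (r : ℕ) (x : ℝ) : zr ζ r x = ζ ((2 : ℝ) ^ r * x - dx r x) := rfl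

theorem geo (s : ℕ) : ∑ r ∈ Finset.range (s + 1), (2 : ℝ) ^ r / 2 ^ s ≤ 2 := by
  rw [← Finset.sum_div, geom_sum_eq (by norm_num), div_le_iff₀ (pw s)]
  have := pw s
  rw [pow_succ]
  linarith

theorem cs_geo (s : ℕ) (b : ℕ → ℝ) :
    (∑ r ∈ Finset.range (s + 1), (2 : ℝ) ^ r / 2 ^ s * |b r|) ^ 2 ≤
      2 * ∑ r ∈ Finset.range (s + 1), (2 : ℝ) ^ r / 2 ^ s * b r ^ 2 := by
  have h := Finset.sum_sq_le_sum_mul_sum_of_sq_le_mul (Finset.range (s + 1))
    (r := fun r => (2 : ℝ) ^ r / 2 ^ s * |b r|) (f := fun r => (2 : ℝ) ^ r / 2 ^ s)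
    (g := fun r => (2 : ℝ) ^ r / 2 ^ s * b r ^ 2) (fun i _ => by positivity)
    (fun i _ => by positivity) (fun i _ => by rw [mul_pow, sq_abs]; exact le_of_eq (by ring))
  refine h.trans (mul_le_mul_of_nonneg_right (geo s) ?_)
  exact Finset.sum_nonneg fun i _ => by positivity

theorem sum_geo_eq (S : ℕ) (b : ℕ → ℝ) :
    ∑ s ∈ Finset.range S, ∑ r ∈ Finset.range (s + 1), (2 : ℝ) ^ r / 2 ^ s * b r =
      ∑ r ∈ Finset.range S, (2 - 2 * (2 : ℝ) ^ r / 2 ^ S) * b r := by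
  induction S with
  | zero => simp
  | succ S ih =>
    rw [Finset.sum_range_succ, ih, Finset.sum_range_succ _ S, Finset.sum_range_succ _ S, ← add_assoc,
      ← Finset.sum_add_distrib]
    have hp := pw S
    congr 1
    · refine Finset.sum_congr rfl fun r _ => ?_
      rw [pow_succ]
      field_simp
      ring
    · rw [pow_succ]
      field_simp
      ring

theorem sum_geo_le (S : ℕ) (b : ℕ → ℝ) (hb : ∀ r, 0 ≤ b r) :
    ∑ s ∈ Finset.range S, ∑ r ∈ Finset.range (s + 1), (2 : ℝ) ^ r / 2 ^ s * b r ≤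
      2 * ∑ r ∈ Finset.range S, b r := by
  rw [sum_geo_eq, Finset.mul_sum]
  refine Finset.sum_le_sum fun r _ => mul_le_mul_of_nonneg_right ?_ (hb r)
  have : 0 ≤ 2 * (2 : ℝ) ^ r / 2 ^ S := by positivity
  linarith

theorem av_osc {f : ℝ → ℝ} (hf : Nice1 f) (s : ℕ) (x c ε : ℝ)
    (h : ∀ v, dx s v = dx s x → |c - f v| ≤ ε) : |c - av s f x| ≤ ε := by
  have hp := pw s
  have e : c - av s f x = 2 ^ s * ∫ v in Jc s (dx s x), (c - f v) := by
    have i1 : IntegrableOn (fun _ : ℝ => c) (Jc s (dx s x)) := integrableOn_const (volume_Jc_ne s _)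
    have i2 : IntegrableOn f (Jc s (dx s x)) := (nice_int hf).integrableOn
    rw [integral_sub i1 i2, setIntegral_const, real_Jc, smul_eq_mul, mul_sub]
    unfold av
    field_simp
  rw [e, abs_mul, abs_of_pos hp]
  have h1 : ‖∫ v in Jc s (dx s x), (c - f v)‖ ≤ ε * volume.real (Jc s (dx s x)) :=
    norm_setIntegral_le_of_norm_le_const (volume_Jc_ne s _).lt_top fun v hv => h v (mem_Jc.1 hv)
  rw [real_Jc, Real.norm_eq_abs] at h1
  calc (2 : ℝ) ^ s * |∫ v in Jc s (dx s x), (c - f v)| ≤ 2 ^ s * (ε * (1 / 2 ^ s)) := by gcongr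
    _ = ε := by field_simp

section zeta

variable {ζ : ℝ → ℝ} {K : ℝ} (hζ : ZB ζ K)

include hζ

theorem zr_meas (r : ℕ) : Measurable (zr ζ r) :=
  hζ.meas.comp (measurable_fract.comp (measurable_const_mul _))

theorem zr_bd (r : ℕ) (x : ℝ) : |zr ζ r x| ≤ K := hζ.bd _

theorem zr_osc {r s : ℕ} (hrs : r ≤ s) {u v : ℝ} (h : dx s u = dx s v) :
    |zr ζ r u - zr ζ r v| ≤ K * ((2 : ℝ) ^ r / 2 ^ s) := by
  have h1 := hζ.lip ((2 : ℝ) ^ r * u - dx r u) ((2 : ℝ) ^ r * v - dx r v)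
  rw [zr_eq, zr_eq]
  refine h1.trans (mul_le_mul_of_nonneg_left ?_ hζ.nonneg)
  rw [dx_mono hrs h]
  have h2 : (2 : ℝ) ^ r * u - dx r v - ((2 : ℝ) ^ r * v - dx r v) = 2 ^ r * (u - v) := by ring
  rw [h2, abs_mul, abs_of_pos (pw r)]
  calc (2 : ℝ) ^ r * |u - v| ≤ 2 ^ r * (1 / 2 ^ s) := by
        have := cell_dist h
        gcongr
    _ = 2 ^ r / 2 ^ s := by ring

theorem zr_mean (r : ℕ) (j : ℤ) : ∫ x in Jc r j, zr ζ r x = 0 := by
  have hp := pw r
  have e : ∫ x in Jc r j, zr ζ r x = ∫ x in Jc r j, ζ ((2 : ℝ) ^ r * x - j) := by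
    refine setIntegral_congr_fun (measurableSet_Jc r j) fun x hx => ?_
    show zr ζ r x = ζ ((2 : ℝ) ^ r * x - j)
    rw [zr_eq, mem_Jc.1 hx]
  rw [e]
  unfold Jc
  have hle : (j : ℝ) / 2 ^ r ≤ ((j : ℝ) + 1) / 2 ^ r := by gcongr; linarith
  rw [integral_Ico_eq_integral_Ioc, ← intervalIntegral.integral_of_le hle,
    intervalIntegral.integral_comp_mul_sub _ hp.ne']
  have e1 : (2 : ℝ) ^ r * (j / 2 ^ r) - j = 0 := by field_simp; ring
  have e2 : (2 : ℝ) ^ r * ((j + 1) / 2 ^ r) - j = 1 := by field_simp; ring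
  rw [e1, e2, intervalIntegral.integral_of_le zero_le_one, ← integral_Ico_eq_integral_Ioc, hζ.mean,
    smul_zero]

/-- product of bumps over a cell of the finer scale -/
theorem zz_int {r s : ℕ} (hrs : r ≤ s) (j : ℤ) :
    |∫ x in Jc s j, zr ζ r x * zr ζ s x| ≤ K ^ 2 * ((2 : ℝ) ^ r / 2 ^ s) * (1 / 2 ^ s) := by
  have hp := pw s
  rcases hrs.lt_or_eq with h | h
  · set x₀ := (j : ℝ) / 2 ^ s with hx₀
    have hx : dx s x₀ = j := dx_left s j
    have i1 : IntegrableOn (fun x => zr ζ r x * zr ζ s x) (Jc s j) :=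
      intOn_bdd ((zr_meas hζ r).mul (zr_meas hζ s)) (M := K * K) (fun x => by
        rw [Pi.mul_apply, abs_mul]
        exact mul_le_mul (zr_bd hζ r x) (zr_bd hζ s x) (abs_nonneg _) hζ.nonneg) s j
    have i2 : IntegrableOn (fun x => zr ζ r x₀ * zr ζ s x) (Jc s j) :=
      (intOn_bdd (zr_meas hζ s) (zr_bd hζ s) s j).const_mul _
    have e : ∫ x in Jc s j, zr ζ r x * zr ζ s x =
        ∫ x in Jc s j, (zr ζ r x * zr ζ s x - zr ζ r x₀ * zr ζ s x) := by
      rw [integral_sub i1 i2, integral_const_mul, zr_mean hζ, mul_zero, sub_zero]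
    rw [e, ← Real.norm_eq_abs]
    have h1 : ‖∫ x in Jc s j, (zr ζ r x * zr ζ s x - zr ζ r x₀ * zr ζ s x)‖ ≤
        K ^ 2 * ((2 : ℝ) ^ r / 2 ^ s) * volume.real (Jc s j) := by
      refine norm_setIntegral_le_of_norm_le_const (volume_Jc_ne s _).lt_top fun x hx' => ?_
      rw [Real.norm_eq_abs, ← sub_mul, abs_mul]
      have h2 := zr_osc hζ hrs (u := x) (v := x₀) ((mem_Jc.1 hx').trans hx.symm)
      calc |zr ζ r x - zr ζ r x₀| * |zr ζ s x| ≤ (K * ((2 : ℝ) ^ r / 2 ^ s)) * K :=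
            mul_le_mul h2 (zr_bd hζ s x) (abs_nonneg _) (mul_nonneg hζ.nonneg (by positivity))
        _ = _ := by ring
    rwa [real_Jc] at h1
  · subst h
    have h1 : ‖∫ x in Jc r j, zr ζ r x * zr ζ r x‖ ≤ K ^ 2 * volume.real (Jc r j) := by
      refine norm_setIntegral_le_of_norm_le_const (volume_Jc_ne r _).lt_top fun x _ => ?_
      rw [Real.norm_eq_abs, abs_mul, sq]
      exact mul_le_mul (zr_bd hζ r x) (zr_bd hζ r x) (abs_nonneg _) hζ.nonneg
    rw [real_Jc, Real.norm_eq_abs] at h1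
    rw [div_self hp.ne', mul_one]
    exact h1

theorem av_zz {r s : ℕ} (hrs : r ≤ s) (x : ℝ) :
    |av s (fun u => zr ζ r u * zr ζ s u) x| ≤ K ^ 2 * ((2 : ℝ) ^ r / 2 ^ s) := by
  have hp := pw s
  unfold av
  rw [abs_mul, abs_of_pos hp]
  calc (2 : ℝ) ^ s * |∫ u in Jc s (dx s x), zr ζ r u * zr ζ s u| ≤
      2 ^ s * (K ^ 2 * ((2 : ℝ) ^ r / 2 ^ s) * (1 / 2 ^ s)) := by
        have := zz_int hζ hrs (dx s x)
        gcongr
    _ = _ := by field_simp

end zeta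

/-- the `ζ`-series -/
def FZ (ζ : ℝ → ℝ) (a : ℕ → ℝ → ℝ) (S : ℕ) (x : ℝ) : ℝ := ∑ r ∈ Finset.range S, zr ζ r x * a r x

/-- squared majorant of the truncations -/
def GZ (ζ : ℝ → ℝ) (K : ℝ) (a : ℕ → ℝ → ℝ) (S : ℕ) (x : ℝ) : ℝ :=
  2 * (Mx (FZ ζ a S) S x) ^ 2 + 4 * K ^ 2 * ∑ r ∈ Finset.range S, a r x ^ 2

/-- the coefficients `β` -/
def bz (ζ : ℝ → ℝ) (a : ℕ → ℝ → ℝ) (s : ℕ) (x : ℝ) : ℝ :=
  ∑ r ∈ Finset.range (s + 1), a r x * av s (fun u => zr ζ r u * zr ζ s u) x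

theorem GZ_nonneg (ζ : ℝ → ℝ) (K : ℝ) (a : ℕ → ℝ → ℝ) (S : ℕ) (x : ℝ) : 0 ≤ GZ ζ K a S x := by
  unfold GZ
  have : 0 ≤ ∑ r ∈ Finset.range S, a r x ^ 2 := Finset.sum_nonneg fun r _ => sq_nonneg _
  positivity

section series

variable {ζ : ℝ → ℝ} {K : ℝ} (hζ : ZB ζ K) {a : ℕ → ℝ → ℝ} (hA : ∀ r, Ad r (a r))
  (hN : ∀ r, Nice1 (a r))

include hζ hN in
theorem nice_za (r : ℕ) : Nice1 fun x => zr ζ r x * a r x :=
  nice_mul_bdd (hN r) (zr_meas hζ r) (zr_bd hζ r)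

include hζ hN in
theorem nice_fz (S : ℕ) : Nice1 (FZ ζ a S) := nice_sum _ _ fun r _ => nice_za hζ hN r

include hζ hA hN in
theorem av_za_fine {r s : ℕ} (h : s ≤ r) (x : ℝ) : av s (fun x => zr ζ r x * a r x) x = 0 := by
  rw [← av_av (nice_za hζ hN r) h]
  have : av r (fun x => zr ζ r x * a r x) = fun _ => 0 := by
    funext y
    unfold av
    have e : ∀ j, ∫ u in Jc r j, zr ζ r u * a r u = 0 := by
      intro j
      have := int_ad_mul (hA r) j (zr ζ r)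
      simp only [mul_comm (zr ζ r _)]
      rw [this, zr_mean hζ, mul_zero]
    rw [e, mul_zero]
  rw [this]
  unfold av
  simp

include hζ hA hN in
/-- truncation at scale `2^-s`, evaluated at any point `u` of the cell of `x` -/
theorem z_trunc {S s : ℕ} (hs : s < S) {u x : ℝ} (hu : dx s u = dx s x) :
    |∑ r ∈ Finset.range (s + 1), zr ζ r u * a r u - av s (FZ ζ a S) x| ≤
      K * ∑ r ∈ Finset.range (s + 1), (2 : ℝ) ^ r / 2 ^ s * |a r x| := by
  have e : av s (FZ ζ a S) x =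
      ∑ r ∈ Finset.range (s + 1), av s (fun x => zr ζ r x * a r x) x := by
    unfold FZ
    rw [av_sum _ _ fun r _ => nice_za hζ hN r]
    rw [← Finset.sum_subset (Finset.range_mono (Nat.succ_le_of_lt hs))]
    intro r _ hr
    rw [Finset.mem_range, not_lt] at hr
    exact av_za_fine hζ hA hN (by omega) x
  rw [e, ← Finset.sum_sub_distrib, Finset.mul_sum]
  refine (Finset.abs_sum_le_sum_abs _ _).trans (Finset.sum_le_sum fun r hr => ?_)
  have hr' : r ≤ s := Nat.lt_succ_iff.1 (Finset.mem_range.1 hr)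
  refine av_osc (nice_za hζ hN r) s x _ _ fun v hv => ?_
  have h1 : a r u = a r x := hA r u x (dx_mono hr' hu)
  have h2 : a r v = a r x := hA r v x (dx_mono hr' hv)
  rw [h1, h2, ← sub_mul, abs_mul, ← mul_assoc]
  exact mul_le_mul_of_nonneg_right (zr_osc hζ hr' (hu.trans hv.symm)) (abs_nonneg _)

include hζ hA hN in
theorem z_major {S s : ℕ} (hs : s < S) {u x : ℝ} (hu : dx s u = dx s x) :
    (∑ r ∈ Finset.range (s + 1), zr ζ r u * a r u) ^ 2 ≤ GZ ζ K a S x := by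
  have h1 := z_trunc hζ hA hN hs hu
  set P := ∑ r ∈ Finset.range (s + 1), zr ζ r u * a r u
  set Q := ∑ r ∈ Finset.range (s + 1), (2 : ℝ) ^ r / 2 ^ s * |a r x| with hQ
  have h2 : |av s (FZ ζ a S) x| ≤ Mx (FZ ζ a S) S x := av_le_Mx _ hs.le x
  have h3 : Q ^ 2 ≤ 2 * ∑ r ∈ Finset.range S, a r x ^ 2 := by
    refine (cs_geo s fun r => a r x).trans (mul_le_mul_of_nonneg_left ?_ (by norm_num))
    calc ∑ r ∈ Finset.range (s + 1), (2 : ℝ) ^ r / 2 ^ s * a r x ^ 2 ≤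
        ∑ r ∈ Finset.range (s + 1), a r x ^ 2 := by
          refine Finset.sum_le_sum fun r hr => ?_
          have hr' : r ≤ s := Nat.lt_succ_iff.1 (Finset.mem_range.1 hr)
          have : (2 : ℝ) ^ r / 2 ^ s ≤ 1 := by
            rw [div_le_one (pw s)]
            exact pow_le_pow_right₀ (by norm_num) hr'
          have h5 := sq_nonneg (a r x)
          nlinarith
      _ ≤ ∑ r ∈ Finset.range S, a r x ^ 2 :=
          Finset.sum_le_sum_of_subset_of_nonneg (Finset.range_mono (Nat.succ_le_of_lt hs))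
            fun _ _ _ => sq_nonneg _
  have h4 : |P| ≤ Mx (FZ ζ a S) S x + K * Q := by
    have h5 := abs_sub_abs_le_abs_sub P (av s (FZ ζ a S) x)
    linarith
  have hQ0 : 0 ≤ Q := Finset.sum_nonneg fun r _ => by positivity
  have hM0 := Mx_nonneg (FZ ζ a S) S x
  have hK := hζ.nonneg
  have h6 : P ^ 2 ≤ (Mx (FZ ζ a S) S x + K * Q) ^ 2 := by
    rw [← sq_abs P]
    exact pow_le_pow_left₀ (abs_nonneg _) h4 2
  unfold GZ
  have h7 : (Mx (FZ ζ a S) S x + K * Q) ^ 2 ≤ 2 * (Mx (FZ ζ a S) S x) ^ 2 + 2 * (K * Q) ^ 2 := by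
    nlinarith [sq_nonneg (Mx (FZ ζ a S) S x - K * Q)]
  have h8 : 2 * (K * Q) ^ 2 ≤ 4 * K ^ 2 * ∑ r ∈ Finset.range S, a r x ^ 2 := by
    have : K ^ 2 * Q ^ 2 ≤ K ^ 2 * (2 * ∑ r ∈ Finset.range S, a r x ^ 2) := by gcongr
    nlinarith
  linarith

include hζ hA hN in
theorem z_pair {r s : ℕ} (hrs : r ≤ s) :
    ∫ x, (zr ζ r x * a r x) * (zr ζ s x * a s x) ≤
      K ^ 2 * ((2 : ℝ) ^ r / 2 ^ s) * ((∫ x, a r x ^ 2) + ∫ x, a s x ^ 2) / 2 := by
  have n1 := nice_mul (nice_za hζ hN r) (nice_za hζ hN s)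
  have n2 : Nice1 fun x => K ^ 2 * ((2 : ℝ) ^ r / 2 ^ s) / 2 * (a r x ^ 2 + a s x ^ 2) :=
    nice_const_mul _ (nice_add (nice_sq (hN r)) (nice_sq (hN s)))
  have key : ∫ x, (zr ζ r x * a r x) * (zr ζ s x * a s x) ≤
      ∫ x, K ^ 2 * ((2 : ℝ) ^ r / 2 ^ s) / 2 * (a r x ^ 2 + a s x ^ 2) := by
    refine le_cells (nice_int n1) (nice_int n2) s fun j => ?_
    have a1 : Ad s fun x => a r x * a s x := ((hA r).mono hrs).mul (hA s)
    have a2 : Ad s fun x => K ^ 2 * ((2 : ℝ) ^ r / 2 ^ s) / 2 * (a r x ^ 2 + a s x ^ 2) := by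
      intro x y h
      simp only [(hA r).mono hrs x y h, hA s x y h]
    have e1 : ∫ x in Jc s j, (zr ζ r x * a r x) * (zr ζ s x * a s x) =
        ∫ x in Jc s j, (a r x * a s x) * (zr ζ r x * zr ζ s x) := by
      congr 1
      ext x
      ring
    rw [e1, int_ad_mul a1, int_ad a2]
    set x₀ := (j : ℝ) / 2 ^ s
    have h1 := zz_int hζ hrs j
    have h2 : |a r x₀ * a s x₀| ≤ (a r x₀ ^ 2 + a s x₀ ^ 2) / 2 := by
      rw [abs_mul]
      nlinarith [sq_nonneg (|a r x₀| - |a s x₀|), sq_abs (a r x₀), sq_abs (a s x₀)]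
    calc a r x₀ * a s x₀ * ∫ x in Jc s j, zr ζ r x * zr ζ s x ≤
        |a r x₀ * a s x₀ * ∫ x in Jc s j, zr ζ r x * zr ζ s x| := le_abs_self _
      _ = |a r x₀ * a s x₀| * |∫ x in Jc s j, zr ζ r x * zr ζ s x| := abs_mul _ _
      _ ≤ (a r x₀ ^ 2 + a s x₀ ^ 2) / 2 * (K ^ 2 * ((2 : ℝ) ^ r / 2 ^ s) * (1 / 2 ^ s)) := by
          gcongr
      _ = _ := by ring
  refine key.trans (le_of_eq ?_)
  rw [integral_const_mul, integral_add (nice_int (nice_sq (hN r))) (nice_int (nice_sq (hN s)))]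
  ring

include hζ hA hN in
/-- almost orthogonality of the `ζ`-series -/
theorem z_sq (S : ℕ) : ∫ x, (FZ ζ a S x) ^ 2 ≤ 3 * K ^ 2 * ∑ r ∈ Finset.range S, ∫ x, a r x ^ 2 := by
  have hA0 : ∀ r, 0 ≤ ∫ x, a r x ^ 2 := fun r => integral_nonneg fun x => sq_nonneg _
  have key : ∀ S : ℕ, ∫ x, (FZ ζ a S x) ^ 2 ≤
      K ^ 2 * ∑ r ∈ Finset.range S, (3 - 2 * (2 : ℝ) ^ r / 2 ^ S) * ∫ x, a r x ^ 2 := by
    intro S
    induction S with
    | zero => simp [FZ]
    | succ S ih =>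
      have e : ∀ x, (FZ ζ a (S + 1) x) ^ 2 = (FZ ζ a S x) ^ 2 +
          (2 * (∑ r ∈ Finset.range S, (zr ζ r x * a r x) * (zr ζ S x * a S x)) +
            (zr ζ S x * a S x) * (zr ζ S x * a S x)) := by
        intro x
        have h1 : FZ ζ a (S + 1) x = FZ ζ a S x + zr ζ S x * a S x := by
          unfold FZ; rw [Finset.sum_range_succ]
        rw [h1, ← Finset.sum_mul]
        show (FZ ζ a S x + zr ζ S x * a S x) ^ 2 = (FZ ζ a S x) ^ 2 +
          (2 * (FZ ζ a S x * (zr ζ S x * a S x)) + (zr ζ S x * a S x) * (zr ζ S x * a S x))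
        ring
      have n1 : ∀ r, Nice1 fun x => (zr ζ r x * a r x) * (zr ζ S x * a S x) :=
        fun r => nice_mul (nice_za hζ hN r) (nice_za hζ hN S)
      have i1 : Integrable fun x => 2 * (∑ r ∈ Finset.range S,
          (zr ζ r x * a r x) * (zr ζ S x * a S x)) :=
        (nice_int (nice_sum _ _ fun r _ => n1 r)).const_mul 2
      have i2 : Integrable fun x => 2 * (∑ r ∈ Finset.range S,
          (zr ζ r x * a r x) * (zr ζ S x * a S x)) + (zr ζ S x * a S x) * (zr ζ S x * a S x) :=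
        i1.add (nice_int (n1 S))
      simp only [e]
      rw [integral_add (nice_int (nice_sq (nice_fz hζ hN S))) i2, integral_add i1 (nice_int (n1 S)),
        integral_const_mul, integral_finsetSum _ fun r _ => nice_int (n1 r)]
      have h2 : ∑ r ∈ Finset.range S, ∫ x, (zr ζ r x * a r x) * (zr ζ S x * a S x) ≤
          ∑ r ∈ Finset.range S,
            K ^ 2 * ((2 : ℝ) ^ r / 2 ^ S) * ((∫ x, a r x ^ 2) + ∫ x, a S x ^ 2) / 2 :=
        Finset.sum_le_sum fun r hr => z_pair hζ hA hN (Finset.mem_range.1 hr).le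
      have h3 := z_pair hζ hA hN (le_refl S)
      have hp := pw S
      rw [div_self hp.ne', mul_one] at h3
      have h4 : ∑ r ∈ Finset.range S, (2 : ℝ) ^ r / 2 ^ S ≤ 1 := by
        have := geo S
        rw [Finset.sum_range_succ, div_self hp.ne'] at this
        linarith
      have h5 : ∑ r ∈ Finset.range S,
            K ^ 2 * ((2 : ℝ) ^ r / 2 ^ S) * ((∫ x, a r x ^ 2) + ∫ x, a S x ^ 2) / 2 =
          K ^ 2 / 2 * (∑ r ∈ Finset.range S, (2 : ℝ) ^ r / 2 ^ S * ∫ x, a r x ^ 2) +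
          K ^ 2 / 2 * ((∑ r ∈ Finset.range S, (2 : ℝ) ^ r / 2 ^ S) * ∫ x, a S x ^ 2) := by
        rw [Finset.sum_mul, Finset.mul_sum, Finset.mul_sum, ← Finset.sum_add_distrib]
        refine Finset.sum_congr rfl fun r _ => ?_
        ring
      have h6 : (∑ r ∈ Finset.range S, (2 : ℝ) ^ r / 2 ^ S) * ∫ x, a S x ^ 2 ≤ ∫ x, a S x ^ 2 := by
        have := hA0 S
        nlinarith
      have h7 : ∑ r ∈ Finset.range (S + 1), (3 - 2 * (2 : ℝ) ^ r / 2 ^ (S + 1)) * ∫ x, a r x ^ 2 =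
          (∑ r ∈ Finset.range S, (3 - 2 * (2 : ℝ) ^ r / 2 ^ S) * ∫ x, a r x ^ 2) +
          (∑ r ∈ Finset.range S, (2 : ℝ) ^ r / 2 ^ S * ∫ x, a r x ^ 2) + 2 * ∫ x, a S x ^ 2 := by
        rw [Finset.sum_range_succ, ← Finset.sum_add_distrib]
        congr 1
        · refine Finset.sum_congr rfl fun r _ => ?_
          rw [pow_succ]
          field_simp
          ring
        · rw [pow_succ]
          field_simp
          norm_num
      rw [h7]
      have hK : 0 ≤ K ^ 2 := sq_nonneg _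
      have h8 := mul_le_mul_of_nonneg_left h6 hK
      nlinarith
  refine (key S).trans ?_
  have e : 3 * K ^ 2 * ∑ r ∈ Finset.range S, ∫ x, a r x ^ 2 =
      K ^ 2 * ∑ r ∈ Finset.range S, 3 * ∫ x, a r x ^ 2 := by
    rw [← Finset.mul_sum]; ring
  rw [e]
  refine mul_le_mul_of_nonneg_left (Finset.sum_le_sum fun r _ => ?_) (sq_nonneg _)
  refine mul_le_mul_of_nonneg_right ?_ (hA0 r)
  have : 0 ≤ 2 * (2 : ℝ) ^ r / 2 ^ S := by positivity
  linarith

include hζ hN in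
theorem nice_GZ (S : ℕ) : Nice1 (GZ ζ K a S) := by
  unfold GZ
  exact nice_add (nice_const_mul 2 (nice_sq (nice_Mx (nice_fz hζ hN S) S)))
    (nice_const_mul _ (nice_sum _ _ fun r _ => nice_sq (hN r)))

include hζ hA hN in
/-- the integral of the squared majorant -/
theorem z_max (S : ℕ) : ∫ x, GZ ζ K a S x ≤ 28 * K ^ 2 * ∑ r ∈ Finset.range S, ∫ x, a r x ^ 2 := by
  unfold GZ
  rw [integral_add ((nice_int (nice_sq (nice_Mx (nice_fz hζ hN S) S))).const_mul 2)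
    ((nice_int (nice_sum _ _ fun r _ => nice_sq (hN r))).const_mul _), integral_const_mul,
    integral_const_mul, integral_finsetSum _ fun r _ => nice_int (nice_sq (hN r))]
  have h1 := doob (nice_fz hζ hN S) S
  have h2 := z_sq hζ hA hN S
  nlinarith

/-! ### the coefficients `β` -/

include hA in
theorem bz_ad (s : ℕ) : Ad s (bz ζ a s) := by
  intro x y h
  unfold bz
  refine Finset.sum_congr rfl fun r hr => ?_
  have hr' : r ≤ s := Nat.lt_succ_iff.1 (Finset.mem_range.1 hr)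
  rw [(hA r).mono hr' x y h, av_ad s _ x y h]

include hζ hN in
theorem nice_bz (s : ℕ) : Nice1 (bz ζ a s) := by
  unfold bz
  refine nice_sum _ _ fun r hr => ?_
  have hr' : r ≤ s := Nat.lt_succ_iff.1 (Finset.mem_range.1 hr)
  have h := nice_mul_bdd (hN r) (av_ad s (fun u => zr ζ r u * zr ζ s u)).measurable
    (M' := K ^ 2 * ((2 : ℝ) ^ r / 2 ^ s)) (av_zz hζ hr')
  simpa only [mul_comm] using h

include hζ in
theorem bz_sq_le (s : ℕ) (x : ℝ) :
    bz ζ a s x ^ 2 ≤ 2 * K ^ 4 * ∑ r ∈ Finset.range (s + 1), (2 : ℝ) ^ r / 2 ^ s * a r x ^ 2 := by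
  have h1 : |bz ζ a s x| ≤ K ^ 2 * ∑ r ∈ Finset.range (s + 1), (2 : ℝ) ^ r / 2 ^ s * |a r x| := by
    unfold bz
    rw [Finset.mul_sum]
    refine (Finset.abs_sum_le_sum_abs _ _).trans (Finset.sum_le_sum fun r hr => ?_)
    have hr' : r ≤ s := Nat.lt_succ_iff.1 (Finset.mem_range.1 hr)
    rw [abs_mul]
    have := av_zz hζ hr' x
    calc |a r x| * |av s (fun u => zr ζ r u * zr ζ s u) x| ≤
        |a r x| * (K ^ 2 * ((2 : ℝ) ^ r / 2 ^ s)) := by gcongr
      _ = _ := by ring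
  have h2 := cs_geo s fun r => a r x
  have h3 : bz ζ a s x ^ 2 ≤
      (K ^ 2 * ∑ r ∈ Finset.range (s + 1), (2 : ℝ) ^ r / 2 ^ s * |a r x|) ^ 2 := by
    rw [← sq_abs (bz ζ a s x)]
    exact pow_le_pow_left₀ (abs_nonneg _) h1 2
  refine h3.trans ?_
  rw [mul_pow]
  have hK : 0 ≤ (K ^ 2) ^ 2 := by positivity
  have h4 := mul_le_mul_of_nonneg_left h2 hK
  refine h4.trans (le_of_eq ?_)
  ring

include hζ hN in
theorem bz_sum (S : ℕ) : ∑ s ∈ Finset.range S, ∫ x, bz ζ a s x ^ 2 ≤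
    4 * K ^ 4 * ∑ r ∈ Finset.range S, ∫ x, a r x ^ 2 := by
  rw [← integral_finsetSum _ fun s _ => nice_int (nice_sq (nice_bz hζ hN s)),
    ← integral_finsetSum _ fun r _ => nice_int (nice_sq (hN r)), ← integral_const_mul]
  refine integral_mono (nice_int (nice_sum _ _ fun s _ => nice_sq (nice_bz hζ hN s)))
    ((nice_int (nice_sum _ _ fun r _ => nice_sq (hN r))).const_mul _) fun x => ?_
  have h1 := sum_geo_le S (fun r => a r x ^ 2) (fun r => sq_nonneg _)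
  calc ∑ s ∈ Finset.range S, bz ζ a s x ^ 2 ≤ ∑ s ∈ Finset.range S,
      2 * K ^ 4 * ∑ r ∈ Finset.range (s + 1), (2 : ℝ) ^ r / 2 ^ s * a r x ^ 2 :=
        Finset.sum_le_sum fun s _ => bz_sq_le hζ s x
    _ = 2 * K ^ 4 * ∑ s ∈ Finset.range S, ∑ r ∈ Finset.range (s + 1),
        (2 : ℝ) ^ r / 2 ^ s * a r x ^ 2 := by rw [Finset.mul_sum]
    _ ≤ 2 * K ^ 4 * (2 * ∑ r ∈ Finset.range S, a r x ^ 2) := by gcongr
    _ = _ := by ring

include hζ hA in
/-- pairing of the truncated series with the bump `ζ_s` -/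
theorem bz_pairing (s : ℕ) (x : ℝ) :
    av s (fun u => zr ζ s u * ∑ r ∈ Finset.range (s + 1), zr ζ r u * a r u) x = bz ζ a s x := by
  unfold bz av
  have e : ∫ u in Jc s (dx s x), zr ζ s u * ∑ r ∈ Finset.range (s + 1), zr ζ r u * a r u =
      ∫ u in Jc s (dx s x), ∑ r ∈ Finset.range (s + 1), a r x * (zr ζ r u * zr ζ s u) := by
    refine setIntegral_congr_fun (measurableSet_Jc s _) fun u hu => ?_
    show zr ζ s u * ∑ r ∈ Finset.range (s + 1), zr ζ r u * a r u =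
      ∑ r ∈ Finset.range (s + 1), a r x * (zr ζ r u * zr ζ s u)
    rw [Finset.mul_sum]
    refine Finset.sum_congr rfl fun r hr => ?_
    have hr' : r ≤ s := Nat.lt_succ_iff.1 (Finset.mem_range.1 hr)
    rw [hA r u x (dx_mono hr' (mem_Jc.1 hu))]
    ring
  rw [e, integral_finsetSum, Finset.mul_sum]
  · refine Finset.sum_congr rfl fun r _ => ?_
    rw [integral_const_mul]
    ring
  · intro r _
    exact (intOn_bdd ((zr_meas hζ r).mul (zr_meas hζ s)) (M := K * K) (fun x => by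
        rw [Pi.mul_apply, abs_mul]
        exact mul_le_mul (zr_bd hζ r x) (zr_bd hζ s x) (abs_nonneg _) hζ.nonneg) s _).const_mul _

/-- truncations of the gate series with the coefficients `β` -/
theorem beta_major (hζ : ZB ζ K) (hA : ∀ r, Ad r (a r)) (hN : ∀ r, Nice1 (a r)) {S s : ℕ}
    (h : s ≤ S) (x : ℝ) :
    (GS (bz ζ a) s x) ^ 2 ≤ (Mx (GS (bz ζ a) S) (S + 1) x) ^ 2 := by
  rw [← sq_abs (GS (bz ζ a) s x)]
  exact pow_le_pow_left₀ (abs_nonneg _) (gate_le (fun r => bz_ad hA r) (fun r => nice_bz hζ hN r) h x) 2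

theorem beta_max (hζ : ZB ζ K) (hA : ∀ r, Ad r (a r)) (hN : ∀ r, Nice1 (a r)) (S : ℕ) :
    ∫ x, (Mx (GS (bz ζ a) S) (S + 1) x) ^ 2 ≤
      16 * K ^ 4 * ∑ r ∈ Finset.range S, ∫ x, a r x ^ 2 := by
  have h1 := gate_max (a := bz ζ a) (fun r => bz_ad hA r) (fun r => nice_bz hζ hN r) S
  have h2 := bz_sum hζ hN S
  linarith

end series

/-! ### positive Carleson sum -/

theorem carleson_pos {a : ℕ → ℝ → ℝ} {A : ℝ} (S : ℕ) (hA : ∀ r, Ad r (a r))
    (hN : ∀ r, Nice1 (a r)) (h0 : ∀ r x, 0 ≤ a r x)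
    (hC : ∀ r < S, ∀ x, a r x ≠ 0 → av r (fun u => ∑ s ∈ Finset.Ico r S, a s u) x ≤ A) :
    ∫ x, (∑ r ∈ Finset.range S, a r x) ^ 2 ≤ 2 * A * ∫ x, ∑ r ∈ Finset.range S, a r x := by
  have hpt : ∀ x, (∑ r ∈ Finset.range S, a r x) ^ 2 ≤
      2 * ∑ r ∈ Finset.range S, a r x * ∑ s ∈ Finset.Ico r S, a s x := by
    intro x
    have : ∀ S : ℕ, (∑ r ∈ Finset.range S, a r x) ^ 2 ≤
        2 * ∑ r ∈ Finset.range S, a r x * ∑ s ∈ Finset.Ico r S, a s x := by
      intro S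
      induction S with
      | zero => simp
      | succ S ih =>
        rw [Finset.sum_range_succ, Finset.sum_range_succ _ S]
        have e : ∑ r ∈ Finset.range S, a r x * ∑ s ∈ Finset.Ico r (S + 1), a s x =
            (∑ r ∈ Finset.range S, a r x * ∑ s ∈ Finset.Ico r S, a s x) +
            (∑ r ∈ Finset.range S, a r x) * a S x := by
          rw [Finset.sum_mul, ← Finset.sum_add_distrib]
          refine Finset.sum_congr rfl fun r hr => ?_
          rw [Finset.sum_Ico_succ_top (Finset.mem_range.1 hr).le, mul_add]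
        have e2 : ∑ s ∈ Finset.Ico S (S + 1), a s x = a S x := by simp
        rw [e, e2]
        nlinarith [h0 S x, mul_self_nonneg (a S x)]
    exact this S
  have nS : ∀ r, Nice1 fun x => ∑ s ∈ Finset.Ico r S, a s x := fun r => nice_sum _ _ fun s _ => hN s
  have h1 : ∫ x, (∑ r ∈ Finset.range S, a r x) ^ 2 ≤
      ∫ x, 2 * ∑ r ∈ Finset.range S, a r x * ∑ s ∈ Finset.Ico r S, a s x :=
    integral_mono (nice_int (nice_sq (nice_sum _ _ fun r _ => hN r)))
      ((nice_int (nice_sum _ _ fun r _ => nice_mul (hN r) (nS r))).const_mul 2) hpt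
  refine h1.trans ?_
  rw [integral_const_mul, integral_finsetSum _ fun r _ => nice_int (nice_mul (hN r) (nS r)),
    integral_finsetSum _ fun r _ => nice_int (hN r), mul_assoc, Finset.mul_sum (a := A)]
  refine mul_le_mul_of_nonneg_left (Finset.sum_le_sum fun r hr => ?_) (by norm_num)
  rw [← int_mul_av (hA r) (nice_int (nice_mul (hN r) (nS r)))
    (nice_int (nice_mul (hN r) (nice_av (nS r) r))), ← integral_const_mul]
  refine integral_mono (nice_int (nice_mul (hN r) (nice_av (nS r) r)))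
    ((nice_int (hN r)).const_mul A) fun x => ?_
  by_cases h : a r x = 0
  · simp [h]
  · simp only
    rw [mul_comm A]
    exact mul_le_mul_of_nonneg_left (hC r (Finset.mem_range.1 hr) x h) (h0 r x)

end Crest.Agent.R087.DyaZx738
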