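import Crest.Agent.R087.E2s_542

/-!
# Row 87: the heart (E2s) for fat tubes over arbitrary intervals

`E2K` : tubes of height `2K`, direction tolerance `K/|I|`, dyadic intervals `⊂` length `≤ 1`.
`E2G` : the same for arbitrary intervals of length `≤ H`.
-/

set_option autoImplicit false

noncomputable section

open MeasureTheory

namespace Crest.Agent.R087.E2Kx752

open Crest.Agent.R087.Sh0x283 Crest.Agent.R087.E2x542

/-- strip over the interval `[x, x+h)` around the line `t ↦ b + m t`, half height `K` -/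
def strip (x h b m K : ℝ) : Set (ℝ × ℝ) :=
  {z | z.1 ∈ Set.Ico x (x + h) ∧ |z.2 - (b + m * z.1)| ≤ K}

/-- part of the strip where the field has the direction of the line up to `K / h` -/
def stripV (U : ℝ × ℝ → ℝ) (x h b m K : ℝ) : Set (ℝ × ℝ) :=
  {z | z ∈ strip x h b m K ∧ |U z - m| * h ≤ K}

/-- fat tube over a dyadic interval -/
def fat (K : ℝ) (R : Tube) : Set (ℝ × ℝ) := {z | z.1 ∈ R.I ∧ |z.2 - R.line z.1| ≤ K}

/-- fat alive part -/
def fatV (U : ℝ × ℝ → ℝ) (K : ℝ) (R : Tube) : Set (ℝ × ℝ) :=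
  {z | z ∈ fat K R ∧ |U z - R.m| * R.len ≤ K}

/-- **(E2K)**: (E2s) with fat tubes -/
def E2K : Prop :=
  ∃ c : ℝ, 0 < c ∧ ∃ C : ℝ, 0 ≤ C ∧ ∀ U : ℝ × ℝ → ℝ, Fld c U →
    ∀ K : ℝ, 1 ≤ K → ∀ (n : ℕ) (R : Fin n → Tube) (E : Fin n → Set (ℝ × ℝ)) (a δ : Fin n → ℝ),
      (∀ i, MeasurableSet (E i)) → (∀ i, E i ⊆ fatV U K (R i)) →
      Pairwise (Function.onFun Disjoint E) →
      (∀ i, 0 < δ i) → (∀ i, δ i ≤ 1) → (∀ i, δ i * (R i).len ≤ (volume (E i)).toReal) →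
      (∀ i, 0 ≤ a i) →
      ∫ z, (∑ i, a i * (fat K (R i)).indicator 1 z) ^ 2 ≤
        C * K ^ 5 * ∑ i, a i ^ 2 * (R i).len * ((1 + Real.log (1 / δ i)) / δ i)

/-! ### general lemmas -/

theorem pig {ι : Type*} (s : Finset ι) (hs : s.Nonempty) (E : Set (ℝ × ℝ)) (hfin : volume E ≠ ⊤)
    (A : ι → Set (ℝ × ℝ)) (hE : ∀ z ∈ E, ∃ p ∈ s, z ∈ A p) :
    ∃ p ∈ s, (volume E).toReal ≤ s.card * (volume (E ∩ A p)).toReal := by
  by_contra hcon
  push Not at hcon
  have h1 : ∑ p ∈ s, (s.card : ℝ) * (volume (E ∩ A p)).toReal < ∑ p ∈ s, (volume E).toReal :=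
    Finset.sum_lt_sum_of_nonempty hs (fun p hp => hcon p hp)
  rw [← Finset.mul_sum, Finset.sum_const, nsmul_eq_mul] at h1
  have hc : (0 : ℝ) < s.card := by exact_mod_cast hs.card_pos
  have h2 : ∑ p ∈ s, (volume (E ∩ A p)).toReal < (volume E).toReal := lt_of_mul_lt_mul_left h1 hc.le
  have h3 : E ⊆ ⋃ p ∈ s, (E ∩ A p) := by
    intro z hz
    obtain ⟨p, hp, hzp⟩ := hE z hz
    simp only [Set.mem_iUnion]
    exact ⟨p, hp, hz, hzp⟩
  have hne : ∀ p, volume (E ∩ A p) ≠ ⊤ := fun p =>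
    ne_top_of_le_ne_top hfin (measure_mono Set.inter_subset_left)
  have h4 : (volume E).toReal ≤ ∑ p ∈ s, (volume (E ∩ A p)).toReal := by
    rw [← ENNReal.toReal_sum (fun p _ => hne p)]
    apply ENNReal.toReal_mono
    · exact (ENNReal.sum_lt_top.2 (fun p _ => lt_top_iff_ne_top.2 (hne p))).ne
    · exact (measure_mono h3).trans (measure_biUnion_finset_le s _)
  linarith

/-- monotonicity of the entropy factor -/
theorem ent_anti {a b : ℝ} (ha : 0 < a) (hab : a ≤ b) (hb : b ≤ 1) :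
    (1 + Real.log (1 / b)) / b ≤ (1 + Real.log (1 / a)) / a := by
  have hb0 : 0 < b := lt_of_lt_of_le ha hab
  have h1 : Real.log (1 / b) ≤ Real.log (1 / a) :=
    Real.log_le_log (by positivity) (one_div_le_one_div_of_le ha hab)
  have h0 : 0 ≤ Real.log (1 / b) := Real.log_nonneg (by rw [le_div_iff₀ hb0]; linarith)
  gcongr
  linarith

/-- the entropy factor after division of the density by `q²` -/
theorem ent_div {d q : ℝ} (hd : 0 < d) (hd1 : d ≤ 1) (hq : 1 ≤ q) :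
    (1 + Real.log (1 / (d / q ^ 2))) / (d / q ^ 2) ≤ 2 * q ^ 3 * ((1 + Real.log (1 / d)) / d) := by
  have hq0 : 0 < q := by linarith
  have hl : 0 ≤ Real.log (1 / d) := Real.log_nonneg (by rw [le_div_iff₀ hd]; linarith)
  have hlq : Real.log q ≤ q - 1 := Real.log_le_sub_one_of_pos hq0
  have hlq0 : 0 ≤ Real.log q := Real.log_nonneg hq
  have e1 : 1 / (d / q ^ 2) = (1 / d) * q ^ 2 := by field_simp
  have e2 : Real.log (1 / (d / q ^ 2)) = Real.log (1 / d) + 2 * Real.log q := by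
    rw [e1, Real.log_mul (by positivity) (by positivity), Real.log_pow]
    norm_num
  rw [e2]
  have e3 : (1 + (Real.log (1 / d) + 2 * Real.log q)) / (d / q ^ 2) =
      (1 + (Real.log (1 / d) + 2 * Real.log q)) * q ^ 2 / d := by field_simp
  rw [e3]
  have e4 : 2 * q ^ 3 * ((1 + Real.log (1 / d)) / d) = 2 * q ^ 3 * (1 + Real.log (1 / d)) / d := by
    ring
  rw [e4]
  have : 1 + (Real.log (1 / d) + 2 * Real.log q) ≤ 2 * q * (1 + Real.log (1 / d)) := by
    nlinarith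
  have h5 := mul_le_mul_of_nonneg_right this (sq_nonneg q)
  have h6 : (1 + (Real.log (1 / d) + 2 * Real.log q)) * q ^ 2 ≤ 2 * q ^ 3 * (1 + Real.log (1 / d)) := by
    nlinarith [h5]
  exact div_le_div_of_nonneg_right h6 hd.le

/-- translates in the second variable -/
theorem shift_sum (T : ℕ) (F G : ℝ × ℝ → ℝ) (hF : Integrable (fun z => F z ^ 2))
    (hG0 : ∀ z, 0 ≤ G z)
    (hFG : ∀ z, G z ≤ ∑ σ ∈ Finset.Icc (-(T : ℤ)) T, F (z - (0, (σ : ℝ)))) :
    ∫ z, G z ^ 2 ≤ (2 * T + 1) ^ 2 * ∫ z, F z ^ 2 := by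
  have hcard : ((Finset.Icc (-(T : ℤ)) T).card : ℝ) = 2 * T + 1 := by
    rw [Int.card_Icc]
    have : ((T : ℤ) + 1 - -(T : ℤ)).toNat = 2 * T + 1 := by omega
    rw [this]; push_cast; ring
  have hint : ∀ σ : ℤ, Integrable (fun z : ℝ × ℝ => F (z - (0, (σ : ℝ))) ^ 2) := fun σ =>
    hF.comp_sub_right ((0 : ℝ), (σ : ℝ))
  have hpt : ∀ z, G z ^ 2 ≤
      (2 * T + 1) * ∑ σ ∈ Finset.Icc (-(T : ℤ)) T, F (z - (0, (σ : ℝ))) ^ 2 := by
    intro z
    have h1 : G z ^ 2 ≤ (∑ σ ∈ Finset.Icc (-(T : ℤ)) T, F (z - (0, (σ : ℝ)))) ^ 2 :=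
      pow_le_pow_left₀ (hG0 z) (hFG z) 2
    have h2 := sq_sum_le_card_mul_sum_sq (s := Finset.Icc (-(T : ℤ)) T)
      (f := fun σ : ℤ => F (z - (0, (σ : ℝ))))
    rw [hcard] at h2
    exact h1.trans h2
  have hR : Integrable (fun z =>
      (2 * (T : ℝ) + 1) * ∑ σ ∈ Finset.Icc (-(T : ℤ)) T, F (z - (0, (σ : ℝ))) ^ 2) :=
    (integrable_finsetSum _ (fun σ _ => hint σ)).const_mul _
  calc ∫ z, G z ^ 2 ≤ ∫ z, (2 * (T : ℝ) + 1) * ∑ σ ∈ Finset.Icc (-(T : ℤ)) T, F (z - (0, (σ : ℝ))) ^ 2 := by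
        apply integral_mono_of_nonneg (Filter.Eventually.of_forall (fun z => by positivity)) hR
        exact Filter.Eventually.of_forall hpt
    _ = (2 * (T : ℝ) + 1) * ∑ σ ∈ Finset.Icc (-(T : ℤ)) T, ∫ z, F (z - (0, (σ : ℝ))) ^ 2 := by
        rw [integral_const_mul, integral_finsetSum _ (fun σ _ => hint σ)]
    _ = (2 * (T : ℝ) + 1) * ∑ σ ∈ Finset.Icc (-(T : ℤ)) T, ∫ z, F z ^ 2 := by
        congr 1
        apply Finset.sum_congr rfl
        intro σ _
        exact integral_sub_right_eq_self (fun z => F z ^ 2) ((0 : ℝ), (σ : ℝ))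
    _ = (2 * T + 1) ^ 2 * ∫ z, F z ^ 2 := by
        rw [Finset.sum_const, nsmul_eq_mul, hcard]; ring

/-! ### the adjusted thin tubes -/

/-- slope increased by `l / len`, left end raised by `v` -/
def adj (R : Tube) (l v : ℤ) : Tube := ⟨R.k, R.j, R.b + v - l * R.j, R.m + l / R.len⟩

theorem adj_len (R : Tube) (l v : ℤ) : (adj R l v).len = R.len := rfl

theorem adj_I (R : Tube) (l v : ℤ) : (adj R l v).I = R.I := rfl

theorem adj_line (R : Tube) (l v : ℤ) (t : ℝ) :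
    (adj R l v).line t = R.line t + v + l * (t / R.len - R.j) := by
  simp only [adj, Tube.line]
  ring

theorem theta_mem (R : Tube) {t : ℝ} (ht : t ∈ R.I) : 0 ≤ t / R.len - R.j ∧ t / R.len - R.j ≤ 1 := by
  have h := R.len_pos
  simp only [Tube.I, Set.mem_Ico] at ht
  constructor
  · rw [sub_nonneg, le_div_iff₀ h]; exact ht.1
  · rw [sub_le_iff_le_add, div_le_iff₀ h]; linarith [ht.2]

theorem abs_int_le_of_le {n : ℤ} {M : ℕ} (h : |(n : ℝ)| ≤ M + 1 / 2) : n ∈ Finset.Icc (-(M : ℤ)) M := by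
  rw [abs_le] at h
  rw [Finset.mem_Icc]
  constructor
  · have h1 : (-(M : ℝ) - 1) < n := by linarith [h.1]
    have h2 : (-(M : ℤ) - 1) < n := by exact_mod_cast h1
    omega
  · have h1 : (n : ℝ) < M + 1 := by linarith [h.2]
    have h2 : n < M + 1 := by exact_mod_cast h1
    omega

theorem cover {U : ℝ × ℝ → ℝ} {K : ℝ} {M : ℕ} (hKM : K ≤ M) (R : Tube) {z : ℝ × ℝ}
    (hz : z ∈ fatV U K R) :
    ∃ p ∈ (Finset.Icc (-(M : ℤ)) M) ×ˢ (Finset.Icc (-((2 * M : ℕ) : ℤ)) ((2 * M : ℕ) : ℤ)),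
      z ∈ Tube.V U (adj R p.1 p.2) := by
  have hlen := R.len_pos
  obtain ⟨⟨hzI, hzb⟩, hzU⟩ := hz
  set l : ℤ := round ((U z - R.m) * R.len) with hl
  have hl1 : |(U z - R.m) * R.len - l| ≤ 1 / 2 := abs_sub_round _
  have hzU' : |(U z - R.m) * R.len| ≤ K := by rw [abs_mul, abs_of_pos hlen]; exact hzU
  have hl2 : |(l : ℝ)| ≤ M + 1 / 2 := by
    rw [abs_le] at hl1 hzU' ⊢
    constructor <;> linarith [hl1.1, hl1.2, hzU'.1, hzU'.2]
  have hlM := abs_int_le_of_le hl2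
  obtain ⟨hθ0, hθ1⟩ := theta_mem R hzI
  set θ : ℝ := z.1 / R.len - R.j with hθ
  set v : ℤ := round (z.2 - R.line z.1 - l * θ) with hv
  have hv1 : |z.2 - R.line z.1 - l * θ - v| ≤ 1 / 2 := abs_sub_round _
  have hlM' : |(l : ℝ)| ≤ M := by
    rw [Finset.mem_Icc] at hlM
    rw [abs_le]
    constructor
    · exact_mod_cast hlM.1
    · exact_mod_cast hlM.2
  have hlθ : |(l : ℝ) * θ| ≤ M := by
    rw [abs_mul, abs_of_nonneg hθ0]
    calc |(l : ℝ)| * θ ≤ M * 1 := mul_le_mul hlM' hθ1 hθ0 (by positivity)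
      _ = M := mul_one _
  have hv2 : |(v : ℝ)| ≤ ((2 * M : ℕ) : ℝ) + 1 / 2 := by
    rw [abs_le] at hv1 hzb hlθ ⊢
    push_cast
    constructor <;> linarith [hv1.1, hv1.2, hzb.1, hzb.2, hlθ.1, hlθ.2]
  have hvM := abs_int_le_of_le hv2
  refine ⟨(l, v), Finset.mem_product.2 ⟨hlM, hvM⟩, ⟨hzI, ?_⟩, ?_⟩
  · rw [adj_line]
    have : z.2 - (R.line z.1 + (v : ℝ) + l * (z.1 / R.len - R.j)) = z.2 - R.line z.1 - l * θ - v := by
      rw [hθ]; ring
    show |z.2 - (R.line z.1 + (v : ℝ) + l * (z.1 / R.len - R.j))| ≤ 1 / 2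
    rw [this]; exact hv1
  · show |U z - (R.m + l / R.len)| * R.len ≤ 1
    have e1 : |U z - (R.m + l / R.len)| * R.len = |(U z - R.m) * R.len - l| := by
      rw [← abs_of_pos hlen, ← abs_mul, abs_of_pos hlen]
      congr 1
      field_simp
      ring
    rw [e1]
    linarith

theorem fat_cover {K : ℝ} {M : ℕ} (hKM : K ≤ M) (R : Tube) {l v : ℤ} (hl : l ∈ Finset.Icc (-(M : ℤ)) M)
    (hv : v ∈ Finset.Icc (-((2 * M : ℕ) : ℤ)) ((2 * M : ℕ) : ℤ)) {z : ℝ × ℝ} (hz : z ∈ fat K R) :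
    ∃ σ ∈ Finset.Icc (-((4 * M : ℕ) : ℤ)) ((4 * M : ℕ) : ℤ), z - (0, (σ : ℝ)) ∈ (adj R l v).body := by
  obtain ⟨hzI, hzb⟩ := hz
  obtain ⟨hθ0, hθ1⟩ := theta_mem R hzI
  set θ : ℝ := z.1 / R.len - R.j with hθ
  have hlM' : |(l : ℝ)| ≤ M := by
    rw [Finset.mem_Icc] at hl
    rw [abs_le]
    constructor
    · exact_mod_cast hl.1
    · exact_mod_cast hl.2
  have hvM' : |(v : ℝ)| ≤ 2 * M := by
    rw [Finset.mem_Icc] at hv
    rw [abs_le]
    constructor
    · have := hv.1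
      exact_mod_cast this
    · exact_mod_cast hv.2
  have hlθ : |(l : ℝ) * θ| ≤ M := by
    rw [abs_mul, abs_of_nonneg hθ0]
    calc |(l : ℝ)| * θ ≤ M * 1 := mul_le_mul hlM' hθ1 hθ0 (by positivity)
      _ = M := mul_one _
  set σ : ℤ := round (z.2 - (adj R l v).line z.1) with hσ
  have hσ1 : |z.2 - (adj R l v).line z.1 - σ| ≤ 1 / 2 := abs_sub_round _
  have hσ2 : |(σ : ℝ)| ≤ ((4 * M : ℕ) : ℝ) + 1 / 2 := by
    rw [adj_line] at hσ1
    rw [abs_le] at hσ1 hzb hlθ hvM' ⊢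
    push_cast
    constructor <;> linarith [hσ1.1, hσ1.2, hzb.1, hzb.2, hlθ.1, hlθ.2, hvM'.1, hvM'.2]
  refine ⟨σ, abs_int_le_of_le hσ2, ?_, ?_⟩
  · show z.1 - 0 ∈ (adj R l v).I
    rw [sub_zero]; exact hzI
  · show |(z.2 - (σ : ℝ)) - (adj R l v).line (z.1 - 0)| ≤ 1 / 2
    rw [sub_zero]
    have : z.2 - (σ : ℝ) - (adj R l v).line z.1 = z.2 - (adj R l v).line z.1 - σ := by ring
    rw [this]; exact hσ1

theorem int_sq_sum {n : ℕ} (B : Fin n → Set (ℝ × ℝ)) (a : Fin n → ℝ) (hB : ∀ i, MeasurableSet (B i))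
    (hf : ∀ i, volume (B i) ≠ ⊤) :
    Integrable (fun z => (∑ i, a i * (B i).indicator (1 : ℝ × ℝ → ℝ) z) ^ 2) := by
  have h : MemLp (fun z => ∑ i, a i * (B i).indicator (1 : ℝ × ℝ → ℝ) z) 2 volume := by
    apply memLp_finsetSum
    intro i _
    have h1 := (memLp_indicator_const 2 (hB i) (1 : ℝ) (Or.inr (hf i))).const_mul (a i)
    exact h1
  exact h.integrable_sq

theorem body_ne_top (R : Tube) : volume R.body ≠ ⊤ := by
  rw [Tube.volume_body]; exact ENNReal.ofReal_ne_top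

theorem body_toReal (R : Tube) : (volume R.body).toReal = R.len := by
  rw [Tube.volume_body, ENNReal.toReal_ofReal R.len_pos.le]

/-- **(E2K)** from **(E2s)** -/
theorem e2K (h : E2s) : E2K := by
  obtain ⟨c, hc, C, hC, hE2⟩ := h
  refine ⟨c, hc, 331776 * C, by positivity, ?_⟩
  intro U hU K hK n R E a δ hEm hEV hdisj hδ0 hδ1 hδE ha
  have hUm : Measurable U := hU.1
  -- the natural number `M`
  set M : ℕ := ⌈K⌉₊ with hM
  have hKM : K ≤ M := Nat.le_ceil K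
  have hM2 : (M : ℝ) ≤ 2 * K := by
    have := Nat.ceil_lt_add_one (show 0 ≤ K by linarith)
    rw [← hM] at this
    linarith
  have hM1 : (1 : ℝ) ≤ M := hK.trans hKM
  set s : Finset (ℤ × ℤ) :=
    (Finset.Icc (-(M : ℤ)) M) ×ˢ (Finset.Icc (-((2 * M : ℕ) : ℤ)) ((2 * M : ℕ) : ℤ)) with hs
  have hsne : s.Nonempty := ⟨(0, 0), by simp [hs]⟩
  have hcard : (s.card : ℝ) ≤ (4 * M) ^ 2 := by
    rw [hs, Finset.card_product, Int.card_Icc, Int.card_Icc]
    have e1 : ((M : ℤ) + 1 - -(M : ℤ)).toNat = 2 * M + 1 := by omega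
    have e2 : (((2 * M : ℕ) : ℤ) + 1 - -((2 * M : ℕ) : ℤ)).toNat = 4 * M + 1 := by omega
    rw [e1, e2]
    push_cast
    nlinarith
  -- finiteness
  have hfat : ∀ i, E i ⊆ ⋃ p ∈ s, (adj (R i) p.1 p.2).body := by
    intro i z hz
    obtain ⟨p, hp, hz2⟩ := cover hKM (R i) (hEV i hz)
    simp only [Set.mem_iUnion]
    exact ⟨p, hp, hz2.1⟩
  have hEfin : ∀ i, volume (E i) ≠ ⊤ := by
    intro i
    refine ne_top_of_le_ne_top ?_ ((measure_mono (hfat i)).trans (measure_biUnion_finset_le s _))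
    exact (ENNReal.sum_lt_top.2 (fun p _ => lt_top_iff_ne_top.2 (body_ne_top _))).ne
  -- choice of the thin tubes
  have hch : ∀ i, ∃ p ∈ s, (volume (E i)).toReal ≤
      s.card * (volume (E i ∩ Tube.V U (adj (R i) p.1 p.2))).toReal := fun i =>
    pig s hsne (E i) (hEfin i) _ (fun z hz => cover hKM (R i) (hEV i hz))
  choose p hp hpE using hch
  set R' : Fin n → Tube := fun i => adj (R i) (p i).1 (p i).2 with hR'
  set E' : Fin n → Set (ℝ × ℝ) := fun i => E i ∩ Tube.V U (R' i) with hE'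
  have hlen : ∀ i, (R' i).len = (R i).len := fun i => rfl
  set δ' : Fin n → ℝ := fun i => (volume (E' i)).toReal / (R i).len with hδ'
  have hM0 : (0 : ℝ) < 4 * M := by linarith
  have hlow : ∀ i, δ i / (4 * M) ^ 2 ≤ δ' i := by
    intro i
    have hl := (R i).len_pos
    rw [hδ', div_le_div_iff₀ (by positivity) hl]
    have h1 := hδE i
    have h2 := hpE i
    have h3 : (s.card : ℝ) * (volume (E' i)).toReal ≤ (4 * M) ^ 2 * (volume (E' i)).toReal :=
      mul_le_mul_of_nonneg_right hcard ENNReal.toReal_nonneg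
    calc δ i * (R i).len ≤ (volume (E i)).toReal := h1
      _ ≤ s.card * (volume (E' i)).toReal := h2
      _ ≤ (4 * M) ^ 2 * (volume (E' i)).toReal := h3
      _ = (volume (E' i)).toReal * (4 * M) ^ 2 := mul_comm _ _
  have hδ'0 : ∀ i, 0 < δ' i := fun i => lt_of_lt_of_le (by have := hδ0 i; positivity) (hlow i)
  have hδ'1 : ∀ i, δ' i ≤ 1 := by
    intro i
    have hl := (R i).len_pos
    rw [hδ', div_le_one hl, ← hlen i, ← body_toReal (R' i)]
    apply ENNReal.toReal_mono (body_ne_top _)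
    exact measure_mono (fun z hz => hz.2.1)
  -- the thin sum
  set F : ℝ × ℝ → ℝ := fun z => ∑ i, a i * (R' i).body.indicator (1 : ℝ × ℝ → ℝ) z with hF
  have hthin : ∫ z, F z ^ 2 ≤ C * ∑ i, a i ^ 2 * (R' i).len * ((1 + Real.log (1 / δ' i)) / δ' i) := by
    apply hE2 U hU n R' E' a δ'
    · exact fun i => (hEm i).inter (Tube.measurableSet_V hUm _)
    · exact fun i => Set.inter_subset_right
    · intro i j hij
      exact (hdisj hij).mono Set.inter_subset_left Set.inter_subset_left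
    · exact hδ'0
    · intro i
      rw [hlen i, hδ']
      field_simp [(R i).len_pos.ne']
    · exact ha
  have hthin2 : ∫ z, F z ^ 2 ≤
      C * (2 * (4 * M) ^ 3) * ∑ i, a i ^ 2 * (R i).len * ((1 + Real.log (1 / δ i)) / δ i) := by
    refine hthin.trans ?_
    rw [mul_assoc C]
    apply mul_le_mul_of_nonneg_left _ hC
    rw [Finset.mul_sum]
    apply Finset.sum_le_sum
    intro i _
    rw [hlen i]
    have h1 := ent_anti (a := δ i / (4 * M) ^ 2) (b := δ' i)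
      (by have := hδ0 i; positivity) (hlow i) (hδ'1 i)
    have h2 := ent_div (hδ0 i) (hδ1 i) (q := 4 * M) (by linarith)
    have h3 : 0 ≤ a i ^ 2 * (R i).len := mul_nonneg (sq_nonneg _) (R i).len_pos.le
    calc a i ^ 2 * (R i).len * ((1 + Real.log (1 / δ' i)) / δ' i)
        ≤ a i ^ 2 * (R i).len * (2 * (4 * M) ^ 3 * ((1 + Real.log (1 / δ i)) / δ i)) :=
          mul_le_mul_of_nonneg_left (h1.trans h2) h3
      _ = 2 * (4 * M) ^ 3 * (a i ^ 2 * (R i).len * ((1 + Real.log (1 / δ i)) / δ i)) := by ring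
  -- translates
  have hFint : Integrable (fun z => F z ^ 2) :=
    int_sq_sum _ a (fun i => (R' i).measurableSet_body) (fun i => body_ne_top _)
  have hshift := shift_sum (4 * M) F (fun z => ∑ i, a i * (fat K (R i)).indicator (1 : ℝ × ℝ → ℝ) z) hFint
    (fun z => Finset.sum_nonneg (fun i _ => mul_nonneg (ha i)
      (Set.indicator_nonneg (fun _ _ => zero_le_one) _))) (by
      intro z
      rw [hF]
      simp only
      rw [Finset.sum_comm]
      apply Finset.sum_le_sum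
      intro i _
      rw [← Finset.mul_sum]
      apply mul_le_mul_of_nonneg_left _ (ha i)
      by_cases hz : z ∈ fat K (R i)
      · rw [Set.indicator_of_mem hz, Pi.one_apply]
        have hpi := Finset.mem_product.1 (hp i)
        obtain ⟨σ, hσ, hz2⟩ := fat_cover hKM (R i) hpi.1 hpi.2 hz
        have h1 : (R' i).body.indicator (1 : ℝ × ℝ → ℝ) (z - (0, (σ : ℝ))) = 1 := by
          rw [Set.indicator_of_mem hz2, Pi.one_apply]
        rw [← h1]
        exact Finset.single_le_sum (f := fun σ : ℤ =>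
          (R' i).body.indicator (1 : ℝ × ℝ → ℝ) (z - (0, (σ : ℝ))))
          (fun σ _ => Set.indicator_nonneg (fun _ _ => zero_le_one) _) hσ
      · rw [Set.indicator_of_notMem hz]
        exact Finset.sum_nonneg (fun σ _ => Set.indicator_nonneg (fun _ _ => zero_le_one) _))
  refine hshift.trans ?_
  set S0 : ℝ := ∑ i, a i ^ 2 * (R i).len * ((1 + Real.log (1 / δ i)) / δ i) with hS0
  have hS0n : 0 ≤ S0 := by
    apply Finset.sum_nonneg
    intro i _
    have h3 : 0 ≤ a i ^ 2 * (R i).len := mul_nonneg (sq_nonneg _) (R i).len_pos.le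
    have h0 : 0 ≤ Real.log (1 / δ i) :=
      Real.log_nonneg (by rw [le_div_iff₀ (hδ0 i)]; linarith [hδ1 i])
    have := hδ0 i
    positivity
  have h1 : (2 * ((4 * M : ℕ) : ℝ) + 1) ^ 2 ≤ 81 * M ^ 2 := by
    push_cast
    nlinarith
  have hFn : 0 ≤ ∫ z, F z ^ 2 := integral_nonneg (fun z => sq_nonneg _)
  calc (2 * ((4 * M : ℕ) : ℝ) + 1) ^ 2 * ∫ z, F z ^ 2
      ≤ 81 * M ^ 2 * (C * (2 * (4 * M) ^ 3) * S0) := mul_le_mul h1 hthin2 hFn (by positivity)
    _ = 10368 * C * S0 * (M : ℝ) ^ 5 := by ring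
    _ ≤ 10368 * C * S0 * (2 * K) ^ 5 := by gcongr
    _ = 331776 * C * K ^ 5 * S0 := by ring

end Crest.Agent.R087.E2Kx752
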