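import Crest.Agent.R087.E2K_752

/-! Row 87: (E2K) for families indexed by a `Finset`, several radii. -/

set_option autoImplicit false

noncomputable section

open MeasureTheory

namespace Crest.Agent.R087.E2Kx752

open Crest.Agent.R087.Sh0x283 Crest.Agent.R087.E2x542

theorem fat_mono {K K' : ℝ} (h : K ≤ K') (R : Tube) : fat K R ⊆ fat K' R :=
  fun _ hz => ⟨hz.1, hz.2.trans h⟩

theorem fatV_mono {U : ℝ × ℝ → ℝ} {K K' : ℝ} (h : K ≤ K') (R : Tube) : fatV U K R ⊆ fatV U K' R :=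
  fun _ hz => ⟨fat_mono h R hz.1, hz.2.trans h⟩

theorem measurableSet_fat (K : ℝ) (R : Tube) : MeasurableSet (fat K R) := by
  have h1 : MeasurableSet {z : ℝ × ℝ | z.1 ∈ R.I} := measurable_fst R.measurableSet_I
  have h2 : MeasurableSet {z : ℝ × ℝ | |z.2 - R.line z.1| ≤ K} := by
    apply measurableSet_le _ measurable_const
    have := R.measurable_line
    fun_prop
  exact h1.inter h2

theorem measurableSet_fatV {U : ℝ × ℝ → ℝ} (hU : Measurable U) (K : ℝ) (R : Tube) :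
    MeasurableSet (fatV U K R) := by
  have h2 : MeasurableSet {z : ℝ × ℝ | |U z - R.m| * R.len ≤ K} := by
    apply measurableSet_le _ measurable_const
    fun_prop
  exact (measurableSet_fat K R).inter h2

/-- the fat tube has area `2 K len` -/
theorem volume_fat (K : ℝ) (R : Tube) : volume (fat K R) = ENNReal.ofReal (2 * K * R.len) := by
  have h : volume (fat K R) = ∫⁻ x in R.I, volume (Prod.mk x ⁻¹' (fat K R)) := by
    rw [Measure.volume_eq_prod, Measure.prod_apply (measurableSet_fat K R)]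
    rw [← lintegral_indicator R.measurableSet_I]
    refine lintegral_congr (fun x => ?_)
    by_cases hx : x ∈ R.I
    · rw [Set.indicator_of_mem hx]
    · rw [Set.indicator_of_notMem hx]
      have : Prod.mk x ⁻¹' (fat K R) = ∅ := by
        ext y; simp [fat, hx]
      rw [this, measure_empty]
  rw [h]
  have h2 : ∀ x ∈ R.I, volume (Prod.mk x ⁻¹' (fat K R)) = ENNReal.ofReal (2 * K) := by
    intro x hx
    have : Prod.mk x ⁻¹' (fat K R) = Set.Icc (R.line x - K) (R.line x + K) := by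
      ext y
      simp only [fat, Set.mem_preimage, Set.mem_ofPred_eq, Set.mem_Icc, hx, true_and, abs_le]
      constructor
      · rintro ⟨h1, h2⟩; constructor <;> linarith
      · rintro ⟨h1, h2⟩; constructor <;> linarith
    rw [this, Real.volume_Icc]
    ring_nf
  rw [setLIntegral_congr_fun R.measurableSet_I h2]
  rw [setLIntegral_const, Tube.I, Real.volume_Ico]
  have hl := R.len_pos
  rcases le_or_gt 0 K with hK | hK
  · rw [← ENNReal.ofReal_mul (by linarith)]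
    congr 1
    ring
  · rw [ENNReal.ofReal_of_nonpos (by linarith), zero_mul,
      ENNReal.ofReal_of_nonpos (by nlinarith)]

theorem fat_ne_top (K : ℝ) (R : Tube) : volume (fat K R) ≠ ⊤ := by
  rw [volume_fat]; exact ENNReal.ofReal_ne_top

/-- integrability of squares of finite sums of indicators, `Finset` version -/
theorem int_sq_finset {ι : Type*} (s : Finset ι) (B : ι → Set (ℝ × ℝ)) (a : ι → ℝ)
    (hB : ∀ i ∈ s, MeasurableSet (B i)) (hf : ∀ i ∈ s, volume (B i) ≠ ⊤) :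
    Integrable (fun z => (∑ i ∈ s, a i * (B i).indicator (1 : ℝ × ℝ → ℝ) z) ^ 2) := by
  have h : MemLp (fun z => ∑ i ∈ s, a i * (B i).indicator (1 : ℝ × ℝ → ℝ) z) 2 volume := by
    apply memLp_finsetSum
    intro i hi
    have h1 := (memLp_indicator_const 2 (hB i hi) (1 : ℝ) (Or.inr (hf i hi))).const_mul (a i)
    exact h1
  exact h.integrable_sq

/-- **(E2K)** for a finite family indexed by a `Finset` -/
def E2Kf : Prop :=
  ∃ c : ℝ, 0 < c ∧ ∃ C : ℝ, 0 ≤ C ∧ ∀ U : ℝ × ℝ → ℝ, Fld c U →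
    ∀ K : ℝ, 1 ≤ K → ∀ (ι : Type) (s : Finset ι) (R : ι → Tube) (E : ι → Set (ℝ × ℝ)) (a δ : ι → ℝ),
      (∀ i ∈ s, MeasurableSet (E i)) → (∀ i ∈ s, E i ⊆ fatV U K (R i)) →
      ((s : Set ι).PairwiseDisjoint E) →
      (∀ i ∈ s, 0 < δ i) → (∀ i ∈ s, δ i ≤ 1) → (∀ i ∈ s, δ i * (R i).len ≤ (volume (E i)).toReal) →
      (∀ i ∈ s, 0 ≤ a i) →
      ∫ z, (∑ i ∈ s, a i * (fat K (R i)).indicator 1 z) ^ 2 ≤
        C * K ^ 5 * ∑ i ∈ s, a i ^ 2 * (R i).len * ((1 + Real.log (1 / δ i)) / δ i)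

theorem e2Kf (h : E2K) : E2Kf := by
  obtain ⟨c, hc, C, hC, hE⟩ := h
  refine ⟨c, hc, C, hC, ?_⟩
  intro U hU K hK ι s R E a δ hEm hEV hd hδ0 hδ1 hδE ha
  classical
  set e := s.equivFin.symm with he
  have hsum : ∀ f : ι → ℝ, ∑ i ∈ s, f i = ∑ j : Fin s.card, f (e j) := by
    intro f
    rw [← Finset.sum_coe_sort s f]
    exact (Equiv.sum_comp e (fun i : s => f i)).symm
  have key := hE U hU K hK s.card (fun j => R (e j)) (fun j => E (e j)) (fun j => a (e j))
    (fun j => δ (e j)) (fun j => hEm _ (e j).2) (fun j => hEV _ (e j).2) ?_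
    (fun j => hδ0 _ (e j).2) (fun j => hδ1 _ (e j).2) (fun j => hδE _ (e j).2) (fun j => ha _ (e j).2)
  · rw [hsum]
    refine le_trans (le_of_eq ?_) key
    congr 1
    ext z
    rw [hsum]
  · intro j j' hjj
    apply hd (e j).2 (e j').2
    intro hh
    exact hjj (e.injective (Subtype.ext hh))

/-- version with one lower bound `d ≤ 1` for all densities and radii `K₁` (bodies), `K₂` (alive
sets) below `K` -/
theorem e2K_unif (h : E2Kf) : ∃ c : ℝ, 0 < c ∧ ∃ C : ℝ, 0 ≤ C ∧ ∀ U : ℝ × ℝ → ℝ, Fld c U →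
    ∀ K K₁ K₂ : ℝ, 1 ≤ K → K₁ ≤ K → K₂ ≤ K →
    ∀ (ι : Type) (s : Finset ι) (R : ι → Tube) (E : ι → Set (ℝ × ℝ)) (a : ι → ℝ) (d : ℝ),
      (∀ i ∈ s, MeasurableSet (E i)) → (∀ i ∈ s, E i ⊆ fatV U K₂ (R i)) →
      ((s : Set ι).PairwiseDisjoint E) → 0 < d → d ≤ 1 →
      (∀ i ∈ s, d * (R i).len ≤ (volume (E i)).toReal) → (∀ i ∈ s, 0 ≤ a i) →
      ∫ z, (∑ i ∈ s, a i * (fat K₁ (R i)).indicator 1 z) ^ 2 ≤
        C * K ^ 5 * ((1 + Real.log (1 / d)) / d ^ 2) * ∑ i ∈ s, a i ^ 2 * (volume (E i)).toReal := by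
  obtain ⟨c, hc, C, hC, hE⟩ := h
  refine ⟨c, hc, C, hC, ?_⟩
  intro U hU K K₁ K₂ hK hK₁ hK₂ ι s R E a d hEm hEV hd hd0 hd1 hdE ha
  have key := hE U hU K hK ι s R E a (fun _ => d) hEm
    (fun i hi => (hEV i hi).trans (fatV_mono hK₂ _)) hd (fun _ _ => hd0) (fun _ _ => hd1) hdE ha
  have hl0 : 0 ≤ Real.log (1 / d) := Real.log_nonneg (by rw [le_div_iff₀ hd0]; linarith)
  have hnn : ∀ (K : ℝ) (z : ℝ × ℝ), 0 ≤ ∑ i ∈ s, a i * (fat K (R i)).indicator (1 : ℝ × ℝ → ℝ) z :=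
    fun K z => Finset.sum_nonneg (fun i hi => mul_nonneg (ha i hi)
      (Set.indicator_nonneg (fun _ _ => zero_le_one) _))
  have h1 : ∫ z, (∑ i ∈ s, a i * (fat K₁ (R i)).indicator (1 : ℝ × ℝ → ℝ) z) ^ 2 ≤
      ∫ z, (∑ i ∈ s, a i * (fat K (R i)).indicator (1 : ℝ × ℝ → ℝ) z) ^ 2 := by
    apply integral_mono_of_nonneg (Filter.Eventually.of_forall (fun z => sq_nonneg _))
      (int_sq_finset s _ a (fun i _ => measurableSet_fat _ _) (fun i _ => fat_ne_top _ _))
    refine Filter.Eventually.of_forall (fun z => ?_)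
    apply pow_le_pow_left₀ (hnn K₁ z)
    apply Finset.sum_le_sum
    intro i hi
    apply mul_le_mul_of_nonneg_left _ (ha i hi)
    exact Set.indicator_le_indicator_of_subset (fat_mono hK₁ _) (fun _ => zero_le_one) _
  refine h1.trans (key.trans ?_)
  rw [mul_assoc (C * K ^ 5)]
  apply mul_le_mul_of_nonneg_left _ (by positivity)
  rw [Finset.mul_sum]
  apply Finset.sum_le_sum
  intro i hi
  have h3 := hdE i hi
  have h4 : (R i).len ≤ (volume (E i)).toReal / d := by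
    rw [le_div_iff₀ hd0]; linarith
  calc a i ^ 2 * (R i).len * ((1 + Real.log (1 / d)) / d)
      ≤ a i ^ 2 * ((volume (E i)).toReal / d) * ((1 + Real.log (1 / d)) / d) := by gcongr
    _ = (1 + Real.log (1 / d)) / d ^ 2 * (a i ^ 2 * (volume (E i)).toReal) := by
        field_simp

end Crest.Agent.R087.E2Kx752
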