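import Crest.Agent.R087.Sh0_283

/-!
# Row 87: frozen interface of the heart (E2)

Tubes: `t ∈ I = [j 2^-k, (j+1) 2^-k)`, `|y - (b + m t)| ≤ 1/2`.
`V U R` : points of the tube at which the field has the direction of the tube, up to `1/|I|`.
`E2`    : strong (2,2) Lipschitz-Kakeya estimate with polynomial loss in the density `δ` (note 984).
-/

set_option autoImplicit false

noncomputable section

open MeasureTheory

namespace Crest.Agent.R087.E2x542

open Crest.Agent.R087.Sh0x283

/-- a tube: dyadic interval `[j 2^-k, (j+1) 2^-k)`, central line `t ↦ b + m t`, height `1` -/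
structure Tube where
  k : ℕ
  j : ℤ
  b : ℝ
  m : ℝ

namespace Tube

/-- length of the tube -/
def len (R : Tube) : ℝ := (1 / 2 : ℝ) ^ R.k

/-- the dyadic interval -/
def I (R : Tube) : Set ℝ := Set.Ico (R.j * R.len) ((R.j + 1) * R.len)

/-- the central line -/
def line (R : Tube) (t : ℝ) : ℝ := R.b + R.m * t

/-- the tube as a subset of the plane -/
def body (R : Tube) : Set (ℝ × ℝ) := {z | z.1 ∈ R.I ∧ |z.2 - R.line z.1| ≤ 1 / 2}

/-- the part of the tube where the field has the direction of the tube -/
def V (U : ℝ × ℝ → ℝ) (R : Tube) : Set (ℝ × ℝ) := {z | z ∈ R.body ∧ |U z - R.m| * R.len ≤ 1}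

theorem len_pos (R : Tube) : 0 < R.len := by unfold len; positivity

theorem len_le_one (R : Tube) : R.len ≤ 1 :=
  pow_le_one₀ (by norm_num) (by norm_num)

theorem measurableSet_I (R : Tube) : MeasurableSet R.I := measurableSet_Ico

theorem measurable_line (R : Tube) : Measurable R.line := by unfold line; fun_prop

theorem measurableSet_body (R : Tube) : MeasurableSet R.body := by
  have h1 : MeasurableSet {z : ℝ × ℝ | z.1 ∈ R.I} := measurable_fst R.measurableSet_I
  have h2 : MeasurableSet {z : ℝ × ℝ | |z.2 - R.line z.1| ≤ 1 / 2} := by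
    apply measurableSet_le _ measurable_const
    have := R.measurable_line
    fun_prop
  exact h1.inter h2

theorem measurableSet_V {U : ℝ × ℝ → ℝ} (hU : Measurable U) (R : Tube) : MeasurableSet (V U R) := by
  have h2 : MeasurableSet {z : ℝ × ℝ | |U z - R.m| * R.len ≤ 1} := by
    apply measurableSet_le _ measurable_const
    fun_prop
  exact R.measurableSet_body.inter h2

/-- the tube has area `len` -/
theorem volume_body (R : Tube) : volume R.body = ENNReal.ofReal R.len := by
  have h : volume R.body = ∫⁻ x in R.I, volume (Prod.mk x ⁻¹' R.body) := by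
    rw [Measure.volume_eq_prod, Measure.prod_apply R.measurableSet_body]
    rw [← lintegral_indicator R.measurableSet_I]
    refine lintegral_congr (fun x => ?_)
    by_cases hx : x ∈ R.I
    · rw [Set.indicator_of_mem hx]
    · rw [Set.indicator_of_notMem hx]
      have : Prod.mk x ⁻¹' R.body = ∅ := by
        ext y; simp [body, hx]
      rw [this, measure_empty]
  rw [h]
  have h2 : ∀ x ∈ R.I, volume (Prod.mk x ⁻¹' R.body) = 1 := by
    intro x hx
    have : Prod.mk x ⁻¹' R.body = Set.Icc (R.line x - 1 / 2) (R.line x + 1 / 2) := by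
      ext y
      simp only [body, Set.mem_preimage, Set.mem_setOf_eq, Set.mem_Icc, hx, true_and, abs_le]
      constructor
      · rintro ⟨h1, h2⟩; constructor <;> linarith
      · rintro ⟨h1, h2⟩; constructor <;> linarith
    rw [this, Real.volume_Icc]
    ring_nf
    simp
  rw [setLIntegral_congr_fun R.measurableSet_I h2]
  rw [setLIntegral_const, one_mul, I, Real.volume_Ico]
  congr 1
  ring

end Tube

/-- **(E2)**: the strong (2,2) Lipschitz-Kakeya estimate with polynomial loss in the density. -/
def E2 : Prop :=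
  ∃ c : ℝ, 0 < c ∧ ∃ C : ℝ, ∃ N : ℕ, ∀ U : ℝ × ℝ → ℝ, Fld c U →
    ∀ (n : ℕ) (R : Fin n → Tube) (E : Fin n → Set (ℝ × ℝ)) (a : Fin n → ℝ) (δ : ℝ),
      0 < δ → δ ≤ 1 → (∀ i, MeasurableSet (E i)) → (∀ i, E i ⊆ Tube.V U (R i)) →
      Pairwise (Function.onFun Disjoint E) →
      (∀ i, δ * (R i).len ≤ (volume (E i)).toReal) → (∀ i, 0 ≤ a i) →
      ∫ z, (∑ i, a i * (R i).body.indicator 1 z) ^ 2 ≤ C * (1 / δ) ^ N * ∑ i, a i ^ 2 * (R i).len

end Crest.Agent.R087.E2x542
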