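import Crest.Agent.R087.E2leaf_542

/-!
# Row 87, heart (E2): leaves EDGE and FLAT

Pair sums: `P = ∑ a_i a_i' 1[|b_i - b_i'| ≤ 2] ≤ 7 ∫ N^2`, `N = ∑ a_i win (y - b_i)`.
EDGE: group by `q = ⌊M_i / 2^k⌋`, Cauchy-Schwarz with weights `|q|^{-3/2}`, then sum over `k` pairwise.
FLAT: a window of length `L` is a sum of `~ L` unit windows, Cauchy-Schwarz with weights `|e|^{-3/2}`.
-/

set_option autoImplicit false

noncomputable section

open MeasureTheory

namespace Crest.Agent.R087.EDGEx621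

open Crest.Agent.R087.E2x542

/-! ### windows -/

theorem win_add_eq (c : ℝ) : (fun y : ℝ => win (y + c)) =
    Set.indicator (Set.Icc (-(1 / 2) - c) (1 / 2 - c)) (fun _ => (1 : ℝ)) := by
  funext y
  unfold win
  by_cases h : |y + c| ≤ 1 / 2
  · rw [if_pos h, Set.indicator_of_mem]
    obtain ⟨h1, h2⟩ := abs_le.1 h
    constructor <;> linarith
  · rw [if_neg h, Set.indicator_of_notMem]
    rintro ⟨h1, h2⟩
    exact h (abs_le.2 ⟨by linarith, by linarith⟩)

theorem win_nonneg (u : ℝ) : 0 ≤ win u := by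
  unfold win; split_ifs <;> norm_num

theorem win_le_one (u : ℝ) : win u ≤ 1 := by
  unfold win; split_ifs <;> norm_num

theorem memLp_win (c : ℝ) : MemLp (fun y : ℝ => win (y + c)) 2 volume := by
  rw [win_add_eq]
  exact memLp_indicator_const 2 measurableSet_Icc 1 (Or.inr (by rw [Real.volume_Icc]; simp))

theorem integrable_win (c : ℝ) : Integrable (fun y : ℝ => win (y + c)) := by
  rw [win_add_eq]
  exact (integrable_indicator_iff measurableSet_Icc).2
    (integrableOn_const (by rw [Real.volume_Icc]; simp))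

theorem integral_win (c : ℝ) : ∫ y : ℝ, win (y + c) = 1 := by
  have : ∫ y : ℝ, win (y + c) = ∫ y : ℝ, win y := by
    exact MeasureTheory.integral_add_right_eq_self (fun y => win y) c
  rw [this]
  have h0 := win_add_eq 0
  simp only [add_zero] at h0
  have : (fun y : ℝ => win y) = Set.indicator (Set.Icc (-(1 / 2) - 0) (1 / 2 - 0)) (fun _ => (1 : ℝ)) := h0
  rw [this, integral_indicator measurableSet_Icc, setIntegral_const]
  simp [Real.volume_real_Icc]
  norm_num

theorem integrable_win_mul (c c' : ℝ) : Integrable (fun y : ℝ => win (y + c) * win (y + c')) :=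
  (memLp_win c).integrable_mul (memLp_win c')

/-- overlap of two unit windows -/
theorem ov_le (c c' : ℝ) : ∫ y : ℝ, win (y + c) * win (y + c') ≤ if |c - c'| ≤ 1 then 1 else 0 := by
  have h : ∀ y : ℝ, win (y + c) * win (y + c') ≤ (if |c - c'| ≤ 1 then 1 else 0) * win (y + c) := by
    intro y
    by_cases hc : |c - c'| ≤ 1
    · rw [if_pos hc, one_mul]
      exact mul_le_of_le_one_right (win_nonneg _) (win_le_one _)
    · rw [if_neg hc, zero_mul]
      unfold win
      by_cases h1 : |y + c| ≤ 1 / 2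
      · by_cases h2 : |y + c'| ≤ 1 / 2
        · exfalso
          apply hc
          rw [abs_le] at h1 h2 ⊢
          constructor <;> linarith [h1.1, h1.2, h2.1, h2.2]
        · rw [if_neg h2, mul_zero]
      · rw [if_neg h1, zero_mul]
  calc ∫ y : ℝ, win (y + c) * win (y + c')
      ≤ ∫ y : ℝ, (if |c - c'| ≤ 1 then 1 else 0) * win (y + c) :=
        integral_mono (integrable_win_mul c c') ((integrable_win c).const_mul _) h
    _ = if |c - c'| ≤ 1 then 1 else 0 := by
        rw [integral_const_mul, integral_win, mul_one]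

/-- every point is covered by one of the integer translates of the window -/
theorem one_le_sum_win (v : ℝ) (E : ℤ) (h : |v| + 1 / 2 ≤ E) :
    1 ≤ ∑ e ∈ Finset.Icc (-E) E, win (v + e) := by
  have h1 : |v - round v| ≤ 1 / 2 := abs_sub_round v
  have h2 : (-(round v : ℤ)) ∈ Finset.Icc (-E) E := by
    have h3 : |(round v : ℝ)| ≤ |v| + 1 / 2 := by
      have : |(round v : ℝ)| ≤ |v| + |v - round v| := by
        have := abs_sub_abs_le_abs_sub (round v : ℝ) v
        rw [abs_sub_comm] at this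
        linarith
      linarith
    have h4 : |(round v : ℝ)| ≤ (E : ℝ) := h3.trans h
    have h5 : |round v| ≤ E := by exact_mod_cast h4
    rw [Finset.mem_Icc]
    rw [abs_le] at h5
    constructor <;> linarith [h5.1, h5.2]
  have h3 : win (v + ((-(round v : ℤ) : ℤ) : ℝ)) = 1 := by
    unfold win
    rw [if_pos]
    push_cast
    rwa [← sub_eq_add_neg]
  rw [← h3]
  exact Finset.single_le_sum (f := fun e : ℤ => win (v + e)) (fun e _ => win_nonneg _) h2

/-! ### the density `N` -/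

/-- sum of windows -/
def NN {n : ℕ} (b a : Fin n → ℝ) (y : ℝ) : ℝ := ∑ i, a i * win (y - b i)

theorem NN_nonneg {n : ℕ} (b a : Fin n → ℝ) (ha : ∀ i, 0 ≤ a i) (y : ℝ) : 0 ≤ NN b a y :=
  Finset.sum_nonneg fun i _ => mul_nonneg (ha i) (win_nonneg _)

theorem memLp_NN {n : ℕ} (b a : Fin n → ℝ) (e : ℝ) : MemLp (fun y => NN b a (y + e)) 2 volume := by
  unfold NN
  refine memLp_finsetSum _ fun i _ => ?_
  have : (fun y : ℝ => a i * win (y + e - b i)) = fun y => a i * win (y + (e - b i)) := by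
    funext y; congr 2; ring
  rw [this]
  exact (memLp_win _).const_mul _

theorem integral_NN_shift {n : ℕ} (b a : Fin n → ℝ) (e : ℝ) :
    ∫ y, (NN b a (y + e)) ^ 2 = ∫ y, (NN b a y) ^ 2 :=
  MeasureTheory.integral_add_right_eq_self (fun y => (NN b a y) ^ 2) e

theorem integrable_NN_sq {n : ℕ} (b a : Fin n → ℝ) (e : ℝ) :
    Integrable (fun y => (NN b a (y + e)) ^ 2) := (memLp_NN b a e).integrable_sq

theorem integrable_NN_mul {n : ℕ} (b a : Fin n → ℝ) (e e' : ℝ) :
    Integrable (fun y => NN b a (y + e) * NN b a (y + e')) :=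
  (memLp_NN b a e).integrable_mul (memLp_NN b a e')

/-- neighbours -/
def BB {n : ℕ} (b a : Fin n → ℝ) (i : Fin n) : ℝ := ∑ i', a i' * (if |b i - b i'| ≤ 2 then 1 else 0)

theorem BB_nonneg {n : ℕ} (b a : Fin n → ℝ) (ha : ∀ i, 0 ≤ a i) (i : Fin n) : 0 ≤ BB b a i :=
  Finset.sum_nonneg fun i' _ => mul_nonneg (ha i') (by split_ifs <;> norm_num)

/-- pair sums are controlled by `∫ N^2` -/
theorem pair_le {n : ℕ} (b a : Fin n → ℝ) (ha : ∀ i, 0 ≤ a i) :
    ∑ i, a i * BB b a i ≤ 7 * ∫ y, (NN b a y) ^ 2 := by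
  have h1 : ∑ i, a i * BB b a i = ∫ y, ∑ i, a i * BB b a i * win (y - b i) := by
    rw [integral_finsetSum]
    · refine Finset.sum_congr rfl fun i _ => ?_
      rw [integral_const_mul]
      have : (fun y : ℝ => win (y - b i)) = fun y => win (y + (-b i)) := by
        funext y; rw [sub_eq_add_neg]
      rw [this, integral_win, mul_one]
    · intro i _
      refine Integrable.const_mul ?_ _
      have : (fun y : ℝ => win (y - b i)) = fun y => win (y + (-b i)) := by
        funext y; rw [sub_eq_add_neg]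
      rw [this]; exact integrable_win _
  have h2 : ∀ y : ℝ, ∑ i, a i * BB b a i * win (y - b i) ≤
      ∑ e ∈ Finset.Icc (-3 : ℤ) 3, NN b a y * NN b a (y + e) := by
    intro y
    rw [← Finset.mul_sum]
    have h3 : ∀ i, win (y - b i) * BB b a i ≤
        win (y - b i) * ∑ e ∈ Finset.Icc (-3 : ℤ) 3, NN b a (y + e) := by
      intro i
      by_cases hy : |y - b i| ≤ 1 / 2
      · have hw : win (y - b i) = 1 := by unfold win; rw [if_pos hy]
        rw [hw, one_mul, one_mul]
        unfold BB NN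
        rw [Finset.sum_comm]
        refine Finset.sum_le_sum fun i' _ => ?_
        rw [← Finset.mul_sum]
        refine mul_le_mul_of_nonneg_left ?_ (ha i')
        by_cases hb : |b i - b i'| ≤ 2
        · rw [if_pos hb]
          have h4 : |y - b i'| + 1 / 2 ≤ ((3 : ℤ) : ℝ) := by
            have : |y - b i'| ≤ |y - b i| + |b i - b i'| := by
              have := abs_add_le (y - b i) (b i - b i')
              rwa [sub_add_sub_cancel] at this
            push_cast; linarith
          refine (one_le_sum_win (y - b i') 3 h4).trans (le_of_eq ?_)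
          refine Finset.sum_congr (by norm_num) fun e _ => ?_
          congr 1; ring
        · rw [if_neg hb]
          exact Finset.sum_nonneg fun e _ => win_nonneg _
      · have hw : win (y - b i) = 0 := by unfold win; rw [if_neg hy]
        rw [hw, zero_mul, zero_mul]
    calc ∑ i, a i * BB b a i * win (y - b i) = ∑ i, a i * (win (y - b i) * BB b a i) := by
          refine Finset.sum_congr rfl fun i _ => ?_; ring
      _ ≤ ∑ i, a i * (win (y - b i) * ∑ e ∈ Finset.Icc (-3 : ℤ) 3, NN b a (y + e)) :=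
          Finset.sum_le_sum fun i _ => mul_le_mul_of_nonneg_left (h3 i) (ha i)
      _ = NN b a y * ∑ e ∈ Finset.Icc (-3 : ℤ) 3, NN b a (y + e) := by
          rw [show NN b a y = ∑ i, a i * win (y - b i) from rfl, Finset.sum_mul]
          refine Finset.sum_congr rfl fun i _ => ?_; ring
  have hi0 : ∀ i : Fin n, Integrable (fun y => a i * BB b a i * win (y - b i)) := by
    intro i
    refine Integrable.const_mul ?_ _
    have : (fun y : ℝ => win (y - b i)) = fun y => win (y + (-b i)) := by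
      funext y; rw [sub_eq_add_neg]
    rw [this]; exact integrable_win _
  have hi1 : ∀ e : ℤ, Integrable (fun y => NN b a y * NN b a (y + e)) := by
    intro e
    have := integrable_NN_mul b a 0 e
    simpa using this
  rw [h1]
  calc ∫ y, ∑ i, a i * BB b a i * win (y - b i)
      ≤ ∫ y, ∑ e ∈ Finset.Icc (-3 : ℤ) 3, NN b a y * NN b a (y + e) :=
        integral_mono (integrable_finsetSum _ fun i _ => hi0 i)
          (integrable_finsetSum _ fun e _ => hi1 e) h2
    _ = ∑ e ∈ Finset.Icc (-3 : ℤ) 3, ∫ y, NN b a y * NN b a (y + e) :=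
        integral_finsetSum _ fun e _ => hi1 e
    _ ≤ ∑ e ∈ Finset.Icc (-3 : ℤ) 3, ∫ y, (NN b a y) ^ 2 := by
        refine Finset.sum_le_sum fun e _ => ?_
        have h5 : ∀ y, NN b a y * NN b a (y + e) ≤
            (1 / 2) * (NN b a (y + (0 : ℝ))) ^ 2 + (1 / 2) * (NN b a (y + e)) ^ 2 := by
          intro y
          rw [add_zero]
          nlinarith [sq_nonneg (NN b a y - NN b a (y + e))]
        calc ∫ y, NN b a y * NN b a (y + e)
            ≤ ∫ y, ((1 / 2) * (NN b a (y + (0 : ℝ))) ^ 2 + (1 / 2) * (NN b a (y + e)) ^ 2) :=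
              integral_mono (hi1 e)
                (((integrable_NN_sq b a 0).const_mul _).add ((integrable_NN_sq b a e).const_mul _)) h5
          _ = (1 / 2) * (∫ y, (NN b a (y + (0 : ℝ))) ^ 2) + (1 / 2) * ∫ y, (NN b a (y + e)) ^ 2 := by
              rw [integral_add ((integrable_NN_sq b a 0).const_mul _)
                ((integrable_NN_sq b a e).const_mul _), integral_const_mul, integral_const_mul]
          _ = ∫ y, (NN b a y) ^ 2 := by
              rw [integral_NN_shift, integral_NN_shift]; ring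
    _ = 7 * ∫ y, (NN b a y) ^ 2 := by
        rw [Finset.sum_const]
        simp

/-! ### numerical sums -/

theorem rpow_eq_sqrt {t : ℝ} (ht : 0 ≤ t) : t ^ (-(3 / 2 : ℝ)) = (Real.sqrt t ^ 3)⁻¹ := by
  rw [Real.rpow_neg ht, Real.sqrt_eq_rpow, ← Real.rpow_natCast, ← Real.rpow_mul ht]
  norm_num

/-- weights `|e|^{-3/2}`, with the value `1` at `0` -/
def ww (e : ℤ) : ℝ := (Real.sqrt |(e : ℝ)| ^ 3)⁻¹ + if e = 0 then 1 else 0

theorem ww_nonneg (e : ℤ) : 0 ≤ ww e := by
  unfold ww; split_ifs <;> positivity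

theorem summable_ww : Summable ww := by
  unfold ww
  refine Summable.add ?_ ?_
  · have h := Real.summable_abs_int_rpow (b := 3 / 2) (by norm_num)
    refine h.congr fun e => ?_
    exact rpow_eq_sqrt (abs_nonneg _)
  · exact (hasSum_ite_eq (0 : ℤ) (1 : ℝ)).summable

theorem sum_ww_le (s : Finset ℤ) : ∑ e ∈ s, ww e ≤ ∑' e, ww e :=
  summable_ww.sum_le_tsum s fun e _ => ww_nonneg e

/-- geometric sum -/
theorem geo_le (m : ℝ) (K : ℕ) :
    ∑ k ∈ Finset.range K, (if 4 * 2 ^ k ≤ m then Real.sqrt (2 ^ k / m) else 0) ≤ 3 := by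
  by_cases hm : m ≤ 0
  · have : ∀ k ∈ Finset.range K, (if 4 * 2 ^ k ≤ m then Real.sqrt (2 ^ k / m) else 0) = 0 := by
      intro k _
      rw [if_neg]
      have : (0 : ℝ) < 2 ^ k := by positivity
      linarith
    rw [Finset.sum_congr rfl this]; simp
  · push Not at hm
    have key : ∑ k ∈ Finset.range K, (if 4 * 2 ^ k ≤ m then Real.sqrt (2 ^ k / m) else 0) ≤
        3 * Real.sqrt (min (2 ^ K / m) 1) := by
      induction K with
      | zero => simp
      | succ K ih =>
        rw [Finset.sum_range_succ]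
        by_cases hK : 4 * 2 ^ K ≤ m
        · rw [if_pos hK]
          have h1 : (2 : ℝ) ^ K / m ≤ 1 / 4 := by
            rw [div_le_iff₀ hm]; linarith
          have h2 : (2 : ℝ) ^ (K + 1) / m = 2 * (2 ^ K / m) := by ring
          rw [min_eq_left (by linarith)] at ih
          rw [h2, min_eq_left (by linarith), Real.sqrt_mul (by norm_num)]
          have h3 : (4 : ℝ) / 3 ≤ Real.sqrt 2 := by
            apply Real.le_sqrt_of_sq_le; norm_num
          have h4 := Real.sqrt_nonneg ((2 : ℝ) ^ K / m)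
          nlinarith
        · rw [if_neg hK, add_zero]
          refine ih.trans ?_
          refine mul_le_mul_of_nonneg_left ?_ (by norm_num)
          refine Real.sqrt_le_sqrt ?_
          refine min_le_min_right _ ?_
          refine div_le_div_of_nonneg_right ?_ hm.le
          exact pow_le_pow_right₀ (by norm_num) (Nat.le_succ K)
    refine key.trans ?_
    have : Real.sqrt (min (2 ^ K / m) 1) ≤ 1 := by
      calc Real.sqrt (min (2 ^ K / m) 1) ≤ Real.sqrt 1 := Real.sqrt_le_sqrt (min_le_right _ _)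
        _ = 1 := Real.sqrt_one
    linarith

/-- the sum over the scales of pair sums -/
theorem scales_le {n : ℕ} (b M a : Fin n → ℝ) (ha : ∀ i, 0 ≤ a i) (K : ℕ) :
    ∑ k ∈ Finset.range K, ∑ i with 4 * 2 ^ k ≤ |M i|, Real.sqrt (2 ^ k / |M i|) * (a i * BB b a i) ≤
      21 * ∫ y, (NN b a y) ^ 2 := by
  have h1 : ∑ k ∈ Finset.range K, ∑ i with 4 * 2 ^ k ≤ |M i|,
      Real.sqrt (2 ^ k / |M i|) * (a i * BB b a i) =
      ∑ i, (∑ k ∈ Finset.range K, (if 4 * 2 ^ k ≤ |M i| then Real.sqrt (2 ^ k / |M i|) else 0)) *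
        (a i * BB b a i) := by
    simp only [Finset.sum_filter, Finset.sum_mul]
    rw [Finset.sum_comm]
    refine Finset.sum_congr rfl fun i _ => Finset.sum_congr rfl fun k _ => ?_
    split_ifs <;> simp
  rw [h1]
  calc ∑ i, (∑ k ∈ Finset.range K, (if 4 * 2 ^ k ≤ |M i| then Real.sqrt (2 ^ k / |M i|) else 0)) *
        (a i * BB b a i) ≤ ∑ i, 3 * (a i * BB b a i) := by
        refine Finset.sum_le_sum fun i _ => ?_
        exact mul_le_mul_of_nonneg_right (geo_le _ K) (mul_nonneg (ha i) (BB_nonneg b a ha i))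
    _ = 3 * ∑ i, a i * BB b a i := by rw [Finset.mul_sum]
    _ ≤ 21 * ∫ y, (NN b a y) ^ 2 := by
        have := pair_le b a ha
        linarith

/-! ### squares of sums of moved windows -/

theorem memLp_sum_win {n : ℕ} (S : Finset (Fin n)) (c a : Fin n → ℝ) :
    MemLp (fun y => ∑ i ∈ S, a i * win (y + c i)) 2 volume :=
  memLp_finsetSum _ fun i _ => (memLp_win (c i)).const_mul (a i)

theorem integral_sum_win_sq_le {n : ℕ} (S : Finset (Fin n)) (c a : Fin n → ℝ) (ha : ∀ i, 0 ≤ a i) :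
    ∫ y, (∑ i ∈ S, a i * win (y + c i)) ^ 2 ≤
      ∑ i ∈ S, a i * ∑ i' ∈ S, a i' * (if |c i - c i'| ≤ 1 then 1 else 0) := by
  have h1 : ∀ y : ℝ, (∑ i ∈ S, a i * win (y + c i)) ^ 2 =
      ∑ i ∈ S, ∑ i' ∈ S, (a i * a i') * (win (y + c i) * win (y + c i')) := by
    intro y
    rw [sq, Finset.sum_mul_sum]
    refine Finset.sum_congr rfl fun i _ => Finset.sum_congr rfl fun i' _ => ?_
    ring
  have hi : ∀ i i' : Fin n, Integrable fun y : ℝ => (a i * a i') * (win (y + c i) * win (y + c i')) :=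
    fun i i' => (integrable_win_mul _ _).const_mul _
  simp only [h1]
  rw [integral_finsetSum _ fun i _ => integrable_finsetSum _ fun i' _ => hi i i']
  refine Finset.sum_le_sum fun i _ => ?_
  rw [integral_finsetSum _ fun i' _ => hi i i', Finset.mul_sum]
  refine Finset.sum_le_sum fun i' _ => ?_
  rw [integral_const_mul, mul_assoc]
  exact mul_le_mul_of_nonneg_left (mul_le_mul_of_nonneg_left (ov_le _ _) (ha i')) (ha i)

/-! ### EDGE -/

theorem edge_k {n : ℕ} (b M a : Fin n → ℝ) (x : ℝ) (hx : |x| ≤ 1) (ha : ∀ i, 0 ≤ a i) (k : ℕ) :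
    ∫ y, (∑ i with 4 * 2 ^ k ≤ |M i|,
      a i * (2 ^ k / |M i|) * win (y - b i + x * (M i / 2 ^ k))) ^ 2 ≤
      (∑' e, ww e) * (25 / 8) *
        ∑ i with 4 * 2 ^ k ≤ |M i|, Real.sqrt (2 ^ k / |M i|) * (a i * BB b a i) := by
  classical
  have h2k : (0 : ℝ) < 2 ^ k := by positivity
  set S : Finset (Fin n) := Finset.univ.filter (fun i => 4 * 2 ^ k ≤ |M i|) with hS
  set q : Fin n → ℤ := fun i => ⌊M i / 2 ^ k⌋ with hq
  set c : Fin n → ℝ := fun i => - b i + x * (M i / 2 ^ k) with hc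
  have hmem : ∀ i ∈ S, 4 ≤ |M i / 2 ^ k| := by
    intro i hi
    have := (Finset.mem_filter.1 hi).2
    rw [abs_div, abs_of_pos h2k, le_div_iff₀ h2k]
    exact this
  have hr : ∀ i, (2 : ℝ) ^ k / |M i| = |M i / 2 ^ k|⁻¹ := by
    intro i
    rw [abs_div, abs_of_pos h2k, inv_div]
  have hq1 : ∀ i, |(q i : ℝ) - M i / 2 ^ k| ≤ 1 := by
    intro i
    have h1 := Int.floor_le (M i / 2 ^ k)
    have h2 := Int.lt_floor_add_one (M i / 2 ^ k)
    rw [abs_le]; constructor <;> simp only [hq] <;> linarith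
  have hq2 : ∀ i ∈ S, 3 / 4 * |M i / 2 ^ k| ≤ |(q i : ℝ)| ∧ |(q i : ℝ)| ≤ 5 / 4 * |M i / 2 ^ k| := by
    intro i hi
    have h1 := hmem i hi
    have h2 := hq1 i
    have h3 := abs_sub_abs_le_abs_sub (q i : ℝ) (M i / 2 ^ k)
    have h4 := abs_sub_abs_le_abs_sub (M i / 2 ^ k) (q i : ℝ)
    rw [abs_sub_comm] at h4
    constructor <;> linarith
  set g : ℤ → ℝ → ℝ := fun p y => ∑ i ∈ S with q i = p, a i * win (y + c i) with hg
  have hg0 : ∀ p y, 0 ≤ g p y := fun p y =>
    Finset.sum_nonneg fun i _ => mul_nonneg (ha i) (win_nonneg _)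
  have hgm : ∀ p, MemLp (g p) 2 volume := fun p => memLp_sum_win _ _ _
  set Q : Finset ℤ := S.image q with hQ
  -- pointwise bound
  have hpt : ∀ y : ℝ, (∑ i ∈ S, a i * (2 ^ k / |M i|) * win (y - b i + x * (M i / 2 ^ k))) ≤
      ∑ p ∈ Q, 5 / 4 * |(p : ℝ)|⁻¹ * g p y := by
    intro y
    rw [← Finset.sum_fiberwise_of_maps_to (s := S) (t := Q) (g := q)
      (fun i hi => Finset.mem_image_of_mem q hi)]
    refine Finset.sum_le_sum fun p _ => ?_
    rw [hg, Finset.mul_sum]
    refine Finset.sum_le_sum fun i hi => ?_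
    obtain ⟨hiS, hip⟩ := Finset.mem_filter.1 hi
    have h1 : y - b i + x * (M i / 2 ^ k) = y + c i := by simp only [hc]; ring
    rw [h1, hr, ← hip]
    have h2 : |M i / 2 ^ k|⁻¹ ≤ 5 / 4 * |(q i : ℝ)|⁻¹ := by
      have h3 := hq2 i hiS
      have h4 := hmem i hiS
      have h5 : 0 < |(q i : ℝ)| := by linarith
      rw [inv_le_comm₀ (by linarith) (by positivity), mul_inv, inv_inv]
      linarith
    have h3 := mul_nonneg (ha i) (win_nonneg (y + c i))
    calc a i * |M i / 2 ^ k|⁻¹ * win (y + c i) = |M i / 2 ^ k|⁻¹ * (a i * win (y + c i)) := by ring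
      _ ≤ 5 / 4 * |(q i : ℝ)|⁻¹ * (a i * win (y + c i)) := mul_le_mul_of_nonneg_right h2 h3
  have hpt0 : ∀ y : ℝ, 0 ≤ (∑ i ∈ S, a i * (2 ^ k / |M i|) * win (y - b i + x * (M i / 2 ^ k))) := by
    intro y
    exact Finset.sum_nonneg fun i _ => mul_nonneg (mul_nonneg (ha i) (by positivity)) (win_nonneg _)
  have hW0 : 0 ≤ ∑' e, ww e := tsum_nonneg ww_nonneg
  have hpt2 : ∀ y : ℝ, (∑ i ∈ S, a i * (2 ^ k / |M i|) * win (y - b i + x * (M i / 2 ^ k))) ^ 2 ≤
      (∑' e, ww e) * ∑ p ∈ Q, 25 / 16 * (Real.sqrt |(p : ℝ)|)⁻¹ * (g p y) ^ 2 := by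
    intro y
    have h1 : (∑ p ∈ Q, 5 / 4 * |(p : ℝ)|⁻¹ * g p y) ^ 2 ≤
        (∑ p ∈ Q, ww p) * ∑ p ∈ Q, 25 / 16 * (Real.sqrt |(p : ℝ)|)⁻¹ * (g p y) ^ 2 := by
      refine Finset.sum_sq_le_sum_mul_sum_of_sq_le_mul Q (fun p _ => ww_nonneg p)
        (fun p _ => by positivity) fun p hp => ?_
      have h2 : (Real.sqrt |(p : ℝ)| ^ 3)⁻¹ ≤ ww p := by
        unfold ww; split_ifs <;> linarith
      have h3 : (Real.sqrt |(p : ℝ)| ^ 3)⁻¹ * (Real.sqrt |(p : ℝ)|)⁻¹ = (|(p : ℝ)|⁻¹) ^ 2 := by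
        rw [← mul_inv, ← pow_succ, inv_pow]
        congr 1
        calc Real.sqrt |(p : ℝ)| ^ (3 + 1) = (Real.sqrt |(p : ℝ)| ^ 2) ^ 2 := by ring
          _ = |(p : ℝ)| ^ 2 := by rw [Real.sq_sqrt (abs_nonneg _)]
      calc (5 / 4 * |(p : ℝ)|⁻¹ * g p y) ^ 2 = (|(p : ℝ)|⁻¹) ^ 2 * (25 / 16 * (g p y) ^ 2) := by ring
        _ = (Real.sqrt |(p : ℝ)| ^ 3)⁻¹ * (25 / 16 * (Real.sqrt |(p : ℝ)|)⁻¹ * (g p y) ^ 2) := by
            rw [← h3]; ring
        _ ≤ ww p * (25 / 16 * (Real.sqrt |(p : ℝ)|)⁻¹ * (g p y) ^ 2) :=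
            mul_le_mul_of_nonneg_right h2 (by positivity)
    calc (∑ i ∈ S, a i * (2 ^ k / |M i|) * win (y - b i + x * (M i / 2 ^ k))) ^ 2
        ≤ (∑ p ∈ Q, 5 / 4 * |(p : ℝ)|⁻¹ * g p y) ^ 2 := pow_le_pow_left₀ (hpt0 y) (hpt y) 2
      _ ≤ (∑ p ∈ Q, ww p) * ∑ p ∈ Q, 25 / 16 * (Real.sqrt |(p : ℝ)|)⁻¹ * (g p y) ^ 2 := h1
      _ ≤ (∑' e, ww e) * ∑ p ∈ Q, 25 / 16 * (Real.sqrt |(p : ℝ)|)⁻¹ * (g p y) ^ 2 :=
          mul_le_mul_of_nonneg_right (sum_ww_le Q) (Finset.sum_nonneg fun p _ => by positivity)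
  have hint : ∀ p : ℤ, Integrable fun y => 25 / 16 * (Real.sqrt |(p : ℝ)|)⁻¹ * (g p y) ^ 2 :=
    fun p => (hgm p).integrable_sq.const_mul _
  -- integral of the squares
  have hgi : ∀ p, (Real.sqrt |((p : ℤ) : ℝ)|)⁻¹ * ∫ y, (g p y) ^ 2 ≤
      2 * ∑ i ∈ S with q i = p, Real.sqrt (2 ^ k / |M i|) * (a i * BB b a i) := by
    intro p
    have h1 : ∫ y, (g p y) ^ 2 ≤ ∑ i ∈ S with q i = p, a i * BB b a i := by
      refine (integral_sum_win_sq_le _ c a ha).trans ?_
      refine Finset.sum_le_sum fun i hi => mul_le_mul_of_nonneg_left ?_ (ha i)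
      unfold BB
      calc ∑ i' ∈ S with q i' = p, a i' * (if |c i - c i'| ≤ 1 then 1 else 0)
          ≤ ∑ i' ∈ S with q i' = p, a i' * (if |b i - b i'| ≤ 2 then 1 else 0) := by
            refine Finset.sum_le_sum fun i' hi' => mul_le_mul_of_nonneg_left ?_ (ha i')
            by_cases h : |c i - c i'| ≤ 1
            · rw [if_pos h, if_pos]
              have e1 : (q i : ℝ) = p := by rw [(Finset.mem_filter.1 hi).2]
              have e2 : (q i' : ℝ) = p := by rw [(Finset.mem_filter.1 hi').2]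
              have h3 : |M i / 2 ^ k - M i' / 2 ^ k| ≤ 1 := by
                have f1 := Int.floor_le (M i / 2 ^ k)
                have f2 := Int.lt_floor_add_one (M i / 2 ^ k)
                have f3 := Int.floor_le (M i' / 2 ^ k)
                have f4 := Int.lt_floor_add_one (M i' / 2 ^ k)
                simp only [hq] at e1 e2
                rw [e1] at f1 f2
                rw [e2] at f3 f4
                rw [abs_le]; constructor <;> linarith
              have h4 : |x * (M i / 2 ^ k - M i' / 2 ^ k)| ≤ 1 := by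
                rw [abs_mul]
                exact mul_le_one₀ hx (abs_nonneg _) h3
              have h5 : b i - b i' = x * (M i / 2 ^ k - M i' / 2 ^ k) - (c i - c i') := by
                simp only [hc]; ring
              rw [h5]
              have := abs_sub (x * (M i / 2 ^ k - M i' / 2 ^ k)) (c i - c i')
              linarith
            · rw [if_neg h]; split_ifs <;> norm_num
        _ ≤ ∑ i', a i' * (if |b i - b i'| ≤ 2 then 1 else 0) :=
            Finset.sum_le_sum_of_subset_of_nonneg (Finset.subset_univ _)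
              fun i' _ _ => mul_nonneg (ha i') (by split_ifs <;> norm_num)
    calc (Real.sqrt |((p : ℤ) : ℝ)|)⁻¹ * ∫ y, (g p y) ^ 2
        ≤ (Real.sqrt |((p : ℤ) : ℝ)|)⁻¹ * ∑ i ∈ S with q i = p, a i * BB b a i :=
          mul_le_mul_of_nonneg_left h1 (by positivity)
      _ ≤ 2 * ∑ i ∈ S with q i = p, Real.sqrt (2 ^ k / |M i|) * (a i * BB b a i) := by
          rw [Finset.mul_sum, Finset.mul_sum]
          refine Finset.sum_le_sum fun i hi => ?_
          obtain ⟨hiS, hip⟩ := Finset.mem_filter.1 hi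
          rw [← mul_assoc (2 : ℝ)]
          refine mul_le_mul_of_nonneg_right ?_ (mul_nonneg (ha i) (BB_nonneg b a ha i))
          rw [hr, ← hip, ← Real.sqrt_inv]
          have h3 := hq2 i hiS
          have h4 := hmem i hiS
          have h5 : 0 < |(q i : ℝ)| := by linarith
          have h6 : |(q i : ℝ)|⁻¹ ≤ 2 ^ 2 * |M i / 2 ^ k|⁻¹ := by
            rw [inv_le_comm₀ h5 (by positivity), mul_inv, inv_inv]
            linarith
          calc Real.sqrt (|(q i : ℝ)|⁻¹) ≤ Real.sqrt (2 ^ 2 * |M i / 2 ^ k|⁻¹) :=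
                Real.sqrt_le_sqrt h6
            _ = 2 * Real.sqrt (|M i / 2 ^ k|⁻¹) := by
                rw [Real.sqrt_mul (by norm_num), Real.sqrt_sq (by norm_num)]
  calc ∫ y, (∑ i ∈ S, a i * (2 ^ k / |M i|) * win (y - b i + x * (M i / 2 ^ k))) ^ 2
      ≤ ∫ y, (∑' e, ww e) * ∑ p ∈ Q, 25 / 16 * (Real.sqrt |(p : ℝ)|)⁻¹ * (g p y) ^ 2 := by
        refine integral_mono_of_nonneg (Filter.Eventually.of_forall fun y => sq_nonneg _)
          ((integrable_finsetSum _ fun p _ => hint p).const_mul _)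
          (Filter.Eventually.of_forall hpt2)
    _ = (∑' e, ww e) * ∑ p ∈ Q, 25 / 16 * ((Real.sqrt |(p : ℝ)|)⁻¹ * ∫ y, (g p y) ^ 2) := by
        rw [integral_const_mul, integral_finsetSum _ fun p _ => hint p]
        congr 1
        refine Finset.sum_congr rfl fun p _ => ?_
        rw [integral_const_mul, mul_assoc]
    _ ≤ (∑' e, ww e) * ∑ p ∈ Q, 25 / 16 *
          (2 * ∑ i ∈ S with q i = p, Real.sqrt (2 ^ k / |M i|) * (a i * BB b a i)) := by
        refine mul_le_mul_of_nonneg_left ?_ hW0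
        refine Finset.sum_le_sum fun p _ => mul_le_mul_of_nonneg_left (hgi p) (by norm_num)
    _ = (∑' e, ww e) * (25 / 8) *
          ∑ i ∈ S, Real.sqrt (2 ^ k / |M i|) * (a i * BB b a i) := by
        rw [← Finset.sum_fiberwise_of_maps_to (s := S) (t := Q) (g := q)
          (fun i hi => Finset.mem_image_of_mem q hi), ← Finset.mul_sum, ← Finset.mul_sum]
        ring

theorem edge : EDGE := by
  refine ⟨(∑' e, ww e) * (25 / 8) * 21, ?_⟩
  intro K n b M a x ha hx
  have hW0 : 0 ≤ ∑' e, ww e := tsum_nonneg ww_nonneg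
  calc ∑ k ∈ Finset.range K,
      ∫ y, (∑ i with 4 * 2 ^ k ≤ |M i|,
        a i * (2 ^ k / |M i|) * win (y - b i + x k * (M i / 2 ^ k))) ^ 2
      ≤ ∑ k ∈ Finset.range K, (∑' e, ww e) * (25 / 8) *
        ∑ i with 4 * 2 ^ k ≤ |M i|, Real.sqrt (2 ^ k / |M i|) * (a i * BB b a i) :=
        Finset.sum_le_sum fun k _ => edge_k b M a (x k) (hx k) ha k
    _ = (∑' e, ww e) * (25 / 8) * ∑ k ∈ Finset.range K,
        ∑ i with 4 * 2 ^ k ≤ |M i|, Real.sqrt (2 ^ k / |M i|) * (a i * BB b a i) := by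
        rw [← Finset.mul_sum]
    _ ≤ (∑' e, ww e) * (25 / 8) * (21 * ∫ y, (NN b a y) ^ 2) :=
        mul_le_mul_of_nonneg_left (scales_le b M a ha K) (by positivity)
    _ = (∑' e, ww e) * (25 / 8) * 21 * ∫ y, (∑ i, a i * win (y - b i)) ^ 2 := by
        unfold NN; ring

/-! ### FLAT -/

theorem flat_k {n : ℕ} (b M a : Fin n → ℝ) (ha : ∀ i, 0 ≤ a i) (k : ℕ) :
    ∫ y, (∑ i with 4 * 2 ^ k ≤ |M i|,
      a i * (2 ^ k / |M i|) ^ 2 * (if |y - b i| ≤ 2 * (|M i| / 2 ^ k) then 1 else 0)) ^ 2 ≤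
      16 * (∑' e, ww e) ^ 2 *
        ∑ i with 4 * 2 ^ k ≤ |M i|, Real.sqrt (2 ^ k / |M i|) * (a i * BB b a i) := by
  classical
  have h2k : (0 : ℝ) < 2 ^ k := by positivity
  set S : Finset (Fin n) := Finset.univ.filter (fun i => 4 * 2 ^ k ≤ |M i|) with hS
  set r : Fin n → ℝ := fun i => |M i| / 2 ^ k with hrdef
  have hmem : ∀ i ∈ S, 4 ≤ r i := by
    intro i hi
    have := (Finset.mem_filter.1 hi).2
    simp only [hrdef]
    rw [le_div_iff₀ h2k]
    exact this
  have hr0 : ∀ i, 0 ≤ r i := fun i => by simp only [hrdef]; positivity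
  have hr : ∀ i, (2 : ℝ) ^ k / |M i| = (r i)⁻¹ := by
    intro i
    simp only [hrdef]
    rw [inv_div]
  set G : ℝ → ℝ := fun y => ∑ i ∈ S, (a i * Real.sqrt (r i)⁻¹) * win (y + -b i) with hG
  have hG0 : ∀ y, 0 ≤ G y := fun y =>
    Finset.sum_nonneg fun i _ => mul_nonneg (mul_nonneg (ha i) (Real.sqrt_nonneg _)) (win_nonneg _)
  have hGm : ∀ e : ℝ, MemLp (fun y => G (y + e)) 2 volume := by
    intro e
    have h1 : (fun y => G (y + e)) = fun y => ∑ i ∈ S, (a i * Real.sqrt (r i)⁻¹) * win (y + (e - b i)) := by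
      funext y
      simp only [hG]
      refine Finset.sum_congr rfl fun i _ => ?_
      congr 2; ring
    rw [h1]
    exact memLp_sum_win _ _ _
  obtain ⟨E, hE⟩ : ∃ E : ℤ, ∀ i, 2 * r i + 1 ≤ (E : ℝ) := by
    refine ⟨⌈∑ i, 2 * r i⌉ + 1, fun i => ?_⟩
    have h1 : 2 * r i ≤ ∑ i, 2 * r i :=
      Finset.single_le_sum (f := fun i => 2 * r i) (fun j _ => by have := hr0 j; positivity)
        (Finset.mem_univ i)
    have h2 := Int.le_ceil (∑ i, 2 * r i)
    push_cast; linarith
  have hpt : ∀ y : ℝ, (∑ i ∈ S, a i * (2 ^ k / |M i|) ^ 2 * (if |y - b i| ≤ 2 * r i then 1 else 0)) ≤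
      ∑ e ∈ Finset.Icc (-E) E, 4 * (ww e * G (y + e)) := by
    intro y
    have h1 : ∑ e ∈ Finset.Icc (-E) E, 4 * (ww e * G (y + e)) =
        ∑ i ∈ S, a i * ∑ e ∈ Finset.Icc (-E) E,
          4 * ww e * Real.sqrt (r i)⁻¹ * win (y + e + -b i) := by
      simp only [hG, Finset.mul_sum]
      rw [Finset.sum_comm]
      refine Finset.sum_congr rfl fun i _ => Finset.sum_congr rfl fun e _ => ?_
      ring
    rw [h1]
    refine Finset.sum_le_sum fun i hi => ?_
    rw [mul_assoc]
    refine mul_le_mul_of_nonneg_left ?_ (ha i)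
    by_cases hy : |y - b i| ≤ 2 * r i
    · rw [if_pos hy, mul_one, hr]
      have hi4 := hmem i hi
      set e0 : ℤ := -round (y - b i) with he0
      have hw : win (y + e0 + -b i) = 1 := by
        unfold win
        rw [if_pos]
        have h2 := abs_sub_round (y - b i)
        have h3 : y + (e0 : ℝ) + -b i = y - b i - round (y - b i) := by
          simp only [he0]; push_cast; ring
        rw [h3]; exact h2
      have he1 : |(e0 : ℝ)| ≤ 2 * r i + 1 / 2 := by
        have h2 := abs_sub_round (y - b i)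
        rw [abs_sub_comm] at h2
        have h3 := abs_sub_abs_le_abs_sub (round (y - b i) : ℝ) (y - b i)
        have h4 : |(e0 : ℝ)| = |(round (y - b i) : ℝ)| := by
          simp only [he0]; push_cast; rw [abs_neg]
        rw [h4]; linarith
      have he2 : e0 ∈ Finset.Icc (-E) E := by
        have h4 : |(e0 : ℝ)| ≤ (E : ℝ) := by
          have := hE i
          linarith
        have h5 : |e0| ≤ E := by exact_mod_cast h4
        rw [Finset.mem_Icc]
        rw [abs_le] at h5
        exact h5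
      have hmain : ((r i)⁻¹) ^ 2 ≤ 4 * ww e0 * Real.sqrt (r i)⁻¹ * win (y + e0 + -b i) := by
        rw [hw, mul_one]
        set s := Real.sqrt (r i) with hs
        have hs2 : s ^ 2 = r i := Real.sq_sqrt (hr0 i)
        have hs0 : 0 ≤ s := Real.sqrt_nonneg _
        have hs4 : 2 ≤ s := by
          apply Real.le_sqrt_of_sq_le; linarith
        have hspos : 0 < s := by linarith
        rw [Real.sqrt_inv, ← hs, ← hs2]
        have hkey : (s ^ 3)⁻¹ ≤ 4 * ww e0 := by
          by_cases h0 : e0 = 0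
          · have : ww e0 = 1 := by unfold ww; rw [h0]; simp
            rw [this]
            have h5 : (1 : ℝ) ≤ s ^ 3 := one_le_pow₀ (by linarith)
            have h6 : (s ^ 3)⁻¹ ≤ 1 := inv_le_one_of_one_le₀ h5
            linarith
          · have h5 : ww e0 = (Real.sqrt |(e0 : ℝ)| ^ 3)⁻¹ := by
              unfold ww; rw [if_neg h0, add_zero]
            rw [h5]
            have h6 : 0 < |(e0 : ℝ)| := by
              rw [abs_pos]; exact_mod_cast h0
            have h7 : Real.sqrt |(e0 : ℝ)| ≤ 3 / 2 * s := by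
              apply Real.sqrt_le_iff.2
              constructor
              · positivity
              · have : (3 / 2 * s) ^ 2 = 9 / 4 * r i := by rw [← hs2]; ring
                rw [this]; linarith
            have h8 : 0 < Real.sqrt |(e0 : ℝ)| := Real.sqrt_pos.2 h6
            have h9 : Real.sqrt |(e0 : ℝ)| ^ 3 ≤ 4 * s ^ 3 := by
              calc Real.sqrt |(e0 : ℝ)| ^ 3 ≤ (3 / 2 * s) ^ 3 := pow_le_pow_left₀ h8.le h7 3
                _ = 27 / 8 * s ^ 3 := by ring
                _ ≤ 4 * s ^ 3 := by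
                    have : 0 < s ^ 3 := by positivity
                    linarith
            rw [inv_le_comm₀ (by positivity) (by positivity), mul_inv, inv_inv]
            linarith
        calc ((s ^ 2)⁻¹) ^ 2 = (s ^ 3)⁻¹ * s⁻¹ := by
              rw [← mul_inv, ← pow_succ, inv_pow, ← pow_mul]
          _ ≤ 4 * ww e0 * s⁻¹ := mul_le_mul_of_nonneg_right hkey (by positivity)
      exact hmain.trans (Finset.single_le_sum
        (f := fun e : ℤ => 4 * ww e * Real.sqrt (r i)⁻¹ * win (y + e + -b i))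
        (fun e _ => mul_nonneg (mul_nonneg (mul_nonneg (by norm_num) (ww_nonneg e))
          (Real.sqrt_nonneg _)) (win_nonneg _)) he2)
    · rw [if_neg hy, mul_zero]
      exact Finset.sum_nonneg fun e _ => mul_nonneg (mul_nonneg (mul_nonneg (by norm_num)
        (ww_nonneg e)) (Real.sqrt_nonneg _)) (win_nonneg _)
  have hpt0 : ∀ y : ℝ, 0 ≤
      (∑ i ∈ S, a i * (2 ^ k / |M i|) ^ 2 * (if |y - b i| ≤ 2 * r i then 1 else 0)) := by
    intro y
    exact Finset.sum_nonneg fun i _ => mul_nonneg (mul_nonneg (ha i) (by positivity))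
      (by split_ifs <;> norm_num)
  have hW0 : 0 ≤ ∑' e, ww e := tsum_nonneg ww_nonneg
  have hpt2 : ∀ y : ℝ,
      (∑ i ∈ S, a i * (2 ^ k / |M i|) ^ 2 * (if |y - b i| ≤ 2 * r i then 1 else 0)) ^ 2 ≤
      16 * (∑' e, ww e) * ∑ e ∈ Finset.Icc (-E) E, ww e * (G (y + e)) ^ 2 := by
    intro y
    have h1 : (∑ e ∈ Finset.Icc (-E) E, ww e * G (y + e)) ^ 2 ≤
        (∑ e ∈ Finset.Icc (-E) E, ww e) * ∑ e ∈ Finset.Icc (-E) E, ww e * (G (y + e)) ^ 2 := by
      refine Finset.sum_sq_le_sum_mul_sum_of_sq_le_mul _ (fun p _ => ww_nonneg p)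
        (fun p _ => mul_nonneg (ww_nonneg p) (sq_nonneg _)) fun p hp => ?_
      exact le_of_eq (by ring)
    calc (∑ i ∈ S, a i * (2 ^ k / |M i|) ^ 2 * (if |y - b i| ≤ 2 * r i then 1 else 0)) ^ 2
        ≤ (∑ e ∈ Finset.Icc (-E) E, 4 * (ww e * G (y + e))) ^ 2 :=
          pow_le_pow_left₀ (hpt0 y) (hpt y) 2
      _ = 16 * (∑ e ∈ Finset.Icc (-E) E, ww e * G (y + e)) ^ 2 := by
          rw [← Finset.mul_sum]; ring
      _ ≤ 16 * ((∑ e ∈ Finset.Icc (-E) E, ww e) *
            ∑ e ∈ Finset.Icc (-E) E, ww e * (G (y + e)) ^ 2) :=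
          mul_le_mul_of_nonneg_left h1 (by norm_num)
      _ ≤ 16 * ((∑' e, ww e) * ∑ e ∈ Finset.Icc (-E) E, ww e * (G (y + e)) ^ 2) := by
          refine mul_le_mul_of_nonneg_left ?_ (by norm_num)
          exact mul_le_mul_of_nonneg_right (sum_ww_le _)
            (Finset.sum_nonneg fun p _ => mul_nonneg (ww_nonneg p) (sq_nonneg _))
      _ = 16 * (∑' e, ww e) * ∑ e ∈ Finset.Icc (-E) E, ww e * (G (y + e)) ^ 2 := by ring
  have hint : ∀ e : ℤ, Integrable fun y => ww e * (G (y + e)) ^ 2 :=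
    fun e => (hGm e).integrable_sq.const_mul _
  have hGint : ∫ y, (G y) ^ 2 ≤ ∑ i ∈ S, Real.sqrt (2 ^ k / |M i|) * (a i * BB b a i) := by
    have h1 := integral_sum_win_sq_le S (fun i => -b i) (fun i => a i * Real.sqrt (r i)⁻¹)
      (fun i => mul_nonneg (ha i) (Real.sqrt_nonneg _))
    refine h1.trans ?_
    refine Finset.sum_le_sum fun i hi => ?_
    rw [hr]
    have h2 : ∑ i' ∈ S, a i' * Real.sqrt (r i')⁻¹ * (if |-b i - -b i'| ≤ 1 then 1 else 0) ≤
        BB b a i := by
      unfold BB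
      calc ∑ i' ∈ S, a i' * Real.sqrt (r i')⁻¹ * (if |-b i - -b i'| ≤ 1 then 1 else 0)
          ≤ ∑ i' ∈ S, a i' * (if |b i - b i'| ≤ 2 then 1 else 0) := by
            refine Finset.sum_le_sum fun i' hi' => ?_
            rw [mul_assoc]
            refine mul_le_mul_of_nonneg_left ?_ (ha i')
            have h3 : Real.sqrt (r i')⁻¹ ≤ 1 := by
              calc Real.sqrt (r i')⁻¹ ≤ Real.sqrt 1 := by
                    refine Real.sqrt_le_sqrt (inv_le_one_of_one_le₀ ?_)
                    have := hmem i' hi'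
                    linarith
                _ = 1 := Real.sqrt_one
            have h4 : |-b i - -b i'| = |b i - b i'| := by
              rw [← abs_neg]; congr 1; ring
            rw [h4]
            by_cases h5 : |b i - b i'| ≤ 1
            · rw [if_pos h5, if_pos (by linarith), mul_one]; exact h3
            · rw [if_neg h5, mul_zero]; split_ifs <;> norm_num
        _ ≤ ∑ i', a i' * (if |b i - b i'| ≤ 2 then 1 else 0) :=
            Finset.sum_le_sum_of_subset_of_nonneg (Finset.subset_univ _)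
              fun i' _ _ => mul_nonneg (ha i') (by split_ifs <;> norm_num)
    calc a i * Real.sqrt (r i)⁻¹ *
          ∑ i' ∈ S, a i' * Real.sqrt (r i')⁻¹ * (if |-b i - -b i'| ≤ 1 then 1 else 0)
        ≤ a i * Real.sqrt (r i)⁻¹ * BB b a i :=
          mul_le_mul_of_nonneg_left h2 (mul_nonneg (ha i) (Real.sqrt_nonneg _))
      _ = Real.sqrt (r i)⁻¹ * (a i * BB b a i) := by ring
  have hGshift : ∀ e : ℤ, ∫ y, (G (y + e)) ^ 2 = ∫ y, (G y) ^ 2 := fun e =>
    MeasureTheory.integral_add_right_eq_self (fun y => (G y) ^ 2) (e : ℝ)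
  calc ∫ y, (∑ i ∈ S, a i * (2 ^ k / |M i|) ^ 2 * (if |y - b i| ≤ 2 * r i then 1 else 0)) ^ 2
      ≤ ∫ y, 16 * (∑' e, ww e) * ∑ e ∈ Finset.Icc (-E) E, ww e * (G (y + e)) ^ 2 := by
        refine integral_mono_of_nonneg (Filter.Eventually.of_forall fun y => sq_nonneg _)
          ((integrable_finsetSum _ fun p _ => hint p).const_mul _)
          (Filter.Eventually.of_forall hpt2)
    _ = 16 * (∑' e, ww e) * ((∑ e ∈ Finset.Icc (-E) E, ww e) * ∫ y, (G y) ^ 2) := by
        rw [integral_const_mul, integral_finsetSum _ fun p _ => hint p, Finset.sum_mul]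
        congr 1
        refine Finset.sum_congr rfl fun p _ => ?_
        rw [integral_const_mul, hGshift]
    _ ≤ 16 * (∑' e, ww e) * ((∑' e, ww e) *
          ∑ i ∈ S, Real.sqrt (2 ^ k / |M i|) * (a i * BB b a i)) := by
        refine mul_le_mul_of_nonneg_left ?_ (by positivity)
        refine mul_le_mul (sum_ww_le _) hGint (integral_nonneg fun y => sq_nonneg _) hW0
    _ = 16 * (∑' e, ww e) ^ 2 * ∑ i ∈ S, Real.sqrt (2 ^ k / |M i|) * (a i * BB b a i) := by ring

theorem flat : FLAT := by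
  refine ⟨16 * (∑' e, ww e) ^ 2 * 21, ?_⟩
  intro K n b M a ha
  have hW0 : 0 ≤ ∑' e, ww e := tsum_nonneg ww_nonneg
  calc ∑ k ∈ Finset.range K,
      ∫ y, (∑ i with 4 * 2 ^ k ≤ |M i|,
        a i * (2 ^ k / |M i|) ^ 2 * (if |y - b i| ≤ 2 * (|M i| / 2 ^ k) then 1 else 0)) ^ 2
      ≤ ∑ k ∈ Finset.range K, 16 * (∑' e, ww e) ^ 2 *
        ∑ i with 4 * 2 ^ k ≤ |M i|, Real.sqrt (2 ^ k / |M i|) * (a i * BB b a i) :=
        Finset.sum_le_sum fun k _ => flat_k b M a ha k
    _ = 16 * (∑' e, ww e) ^ 2 * ∑ k ∈ Finset.range K,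
        ∑ i with 4 * 2 ^ k ≤ |M i|, Real.sqrt (2 ^ k / |M i|) * (a i * BB b a i) := by
        rw [← Finset.mul_sum]
    _ ≤ 16 * (∑' e, ww e) ^ 2 * (21 * ∫ y, (NN b a y) ^ 2) :=
        mul_le_mul_of_nonneg_left (scales_le b M a ha K) (by positivity)
    _ = 16 * (∑' e, ww e) ^ 2 * 21 * ∫ y, (∑ i, a i * win (y - b i)) ^ 2 := by
        unfold NN; ring

end Crest.Agent.R087.EDGEx621
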