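import Crest.Agent.R087.E2leaf_542

/-!
# Row 87, leaf `HLlin`: discrete linearised Hardy-Littlewood in `L²` (helper975)

Elementary `T T*` and bootstrapping: `S[h] ≤ 16 Q + S[4 h] / 2`.
-/

set_option autoImplicit false

noncomputable section

open MeasureTheory

namespace Crest.Agent.R087.HLlinx975

open Crest.Agent.R087.E2x542

/-- box -/
def bx (r c y : ℝ) : ℝ := if |y - c| ≤ r then 1 else 0

theorem bx_nonneg (r c y : ℝ) : 0 ≤ bx r c y := by unfold bx; split_ifs <;> norm_num

theorem bx_le_one (r c y : ℝ) : bx r c y ≤ 1 := by unfold bx; split_ifs <;> norm_num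

theorem bx_eq_indicator (r c : ℝ) : bx r c = (Set.Icc (c - r) (c + r)).indicator fun _ => 1 := by
  funext y
  unfold bx
  by_cases h : |y - c| ≤ r
  · rw [if_pos h, Set.indicator_of_mem]
    rw [abs_le] at h
    constructor <;> linarith [h.1, h.2]
  · rw [if_neg h, Set.indicator_of_notMem]
    intro h2
    apply h
    rw [abs_le]
    constructor <;> linarith [h2.1, h2.2]

theorem integrable_bx (r c : ℝ) : Integrable (bx r c) := by
  rw [bx_eq_indicator]
  exact (integrable_indicator_iff measurableSet_Icc).2 (integrableOn_const (by simp))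

theorem integral_bx (r c : ℝ) (hr : 0 ≤ r) : ∫ y, bx r c y = 2 * r := by
  rw [bx_eq_indicator, integral_indicator measurableSet_Icc]
  simp only [integral_const, MeasurableSet.univ, measureReal_restrict_apply, Set.univ_inter,
    Real.volume_real_Icc, smul_eq_mul, mul_one]
  rw [max_eq_left (by linarith)]
  ring

theorem integrable_bx_mul (r c s d : ℝ) : Integrable fun y => bx r c y * bx s d y := by
  refine (integrable_bx r c).mul_bdd (c := 1) ?_ ?_
  · exact (integrable_bx s d).aestronglyMeasurable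
  · refine Filter.Eventually.of_forall fun y => ?_
    rw [Real.norm_eq_abs, abs_of_nonneg (bx_nonneg _ _ _)]
    exact bx_le_one _ _ _

theorem pair_le (r s b c : ℝ) (hr : 0 ≤ r) :
    ∫ y, bx r b y * bx s c y ≤ 2 * r * (if |b - c| ≤ r + s then 1 else 0) := by
  have h1 : ∀ y, bx r b y * bx s c y ≤ bx r b y * (if |b - c| ≤ r + s then 1 else 0) := by
    intro y
    unfold bx
    by_cases hb : |y - b| ≤ r
    · by_cases hc : |y - c| ≤ s
      · have : |b - c| ≤ r + s := by
          rw [abs_le] at *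
          constructor <;> linarith [hb.1, hb.2, hc.1, hc.2]
        simp [hb, hc, this]
      · simp only [hb, hc, if_true, if_false, mul_zero, one_mul]
        split_ifs <;> norm_num
    · simp [hb]
  calc ∫ y, bx r b y * bx s c y
      ≤ ∫ y, bx r b y * (if |b - c| ≤ r + s then 1 else 0) :=
        integral_mono (integrable_bx_mul _ _ _ _) ((integrable_bx r b).mul_const _) h1
    _ = _ := by rw [integral_mul_const, integral_bx r b hr]

theorem pair_eq (r s b c : ℝ) (hr : 0 ≤ r) (h : |b - c| + r ≤ s) :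
    ∫ y, bx r b y * bx s c y = 2 * r := by
  rw [← integral_bx r b hr]
  congr 1
  funext y
  unfold bx
  by_cases hb : |y - b| ≤ r
  · have : |y - c| ≤ s := by
      have := abs_add_le (y - b) (b - c)
      rw [show y - b + (b - c) = y - c by ring] at this
      linarith
    simp [hb, this]
  · simp [hb]

variable {n : ℕ}

/-- the linearised sum -/
def S (b a h : Fin n → ℝ) : ℝ :=
  ∑ i, a i * (h i)⁻¹ * ∑ i', a i' * (if |b i - b i'| ≤ h i then 1 else 0)

/-- the smoothed function -/
def gg (b a h : Fin n → ℝ) (y : ℝ) : ℝ := ∑ i, a i * (h i)⁻¹ * bx (2 * h i) (b i) y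

/-- the counting function -/
def NN (b a : Fin n → ℝ) (y : ℝ) : ℝ := ∑ i, a i * bx (1 / 2) (b i) y

theorem mul_expand (b a h : Fin n → ℝ) (y : ℝ) :
    gg b a h y * NN b a y =
      ∑ i, ∑ j, a i * (h i)⁻¹ * a j * (bx (1 / 2) (b j) y * bx (2 * h i) (b i) y) := by
  rw [gg, NN, Finset.sum_mul_sum]
  refine Finset.sum_congr rfl fun i _ => Finset.sum_congr rfl fun j _ => ?_
  ring

theorem sq_expand (b a h : Fin n → ℝ) (y : ℝ) :
    gg b a h y ^ 2 =
      ∑ i, ∑ j, a i * (h i)⁻¹ * (a j * (h j)⁻¹) *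
        (bx (2 * h i) (b i) y * bx (2 * h j) (b j) y) := by
  rw [sq, gg, Finset.sum_mul_sum]
  refine Finset.sum_congr rfl fun i _ => Finset.sum_congr rfl fun j _ => ?_
  ring

theorem N_expand (b a : Fin n → ℝ) (y : ℝ) :
    NN b a y ^ 2 =
      ∑ i, ∑ j, a i * a j * (bx (1 / 2) (b i) y * bx (1 / 2) (b j) y) := by
  rw [sq, NN, Finset.sum_mul_sum]
  refine Finset.sum_congr rfl fun i _ => Finset.sum_congr rfl fun j _ => ?_
  ring

theorem integrable_mul (b a h : Fin n → ℝ) : Integrable fun y => gg b a h y * NN b a y := by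
  simp_rw [mul_expand]
  exact integrable_finsetSum _ fun i _ => integrable_finsetSum _ fun j _ =>
    (integrable_bx_mul _ _ _ _).const_mul _

theorem integrable_sq (b a h : Fin n → ℝ) : Integrable fun y => gg b a h y ^ 2 := by
  simp_rw [sq_expand]
  exact integrable_finsetSum _ fun i _ => integrable_finsetSum _ fun j _ =>
    (integrable_bx_mul _ _ _ _).const_mul _

theorem integrable_N (b a : Fin n → ℝ) : Integrable fun y => NN b a y ^ 2 := by
  simp_rw [N_expand]
  exact integrable_finsetSum _ fun i _ => integrable_finsetSum _ fun j _ =>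
    (integrable_bx_mul _ _ _ _).const_mul _

theorem S_le_integral (b a h : Fin n → ℝ) (ha : ∀ i, 0 ≤ a i) (hh : ∀ i, 1 ≤ h i) :
    S b a h ≤ ∫ y, gg b a h y * NN b a y := by
  simp_rw [mul_expand]
  rw [integral_finsetSum _ fun i _ => integrable_finsetSum _ fun j _ =>
    (integrable_bx_mul _ _ _ _).const_mul _]
  rw [S]
  refine Finset.sum_le_sum fun i _ => ?_
  rw [integral_finsetSum _ fun j _ => (integrable_bx_mul _ _ _ _).const_mul _, Finset.mul_sum]
  refine Finset.sum_le_sum fun j _ => ?_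
  rw [integral_const_mul, ← mul_assoc]
  have hi : 0 < h i := lt_of_lt_of_le one_pos (hh i)
  have h0 : 0 ≤ a i * (h i)⁻¹ * a j :=
    mul_nonneg (mul_nonneg (ha i) (inv_nonneg.2 hi.le)) (ha j)
  refine mul_le_mul_of_nonneg_left ?_ h0
  by_cases hc : |b i - b j| ≤ h i
  · rw [if_pos hc, pair_eq _ _ _ _ (by norm_num)]
    · norm_num
    · rw [abs_sub_comm]; linarith [hh i]
  · rw [if_neg hc]
    exact integral_nonneg fun y => mul_nonneg (bx_nonneg _ _ _) (bx_nonneg _ _ _)

theorem integral_sq_le (b a h : Fin n → ℝ) (ha : ∀ i, 0 ≤ a i) (hh : ∀ i, 1 ≤ h i) :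
    ∫ y, gg b a h y ^ 2 ≤ 32 * S b a (fun i => 4 * h i) := by
  simp_rw [sq_expand]
  rw [integral_finsetSum _ fun i _ => integrable_finsetSum _ fun j _ =>
    (integrable_bx_mul _ _ _ _).const_mul _]
  have hpair : ∀ i j : Fin n,
      a i * (h i)⁻¹ * (a j * (h j)⁻¹) * (∫ y, bx (2 * h i) (b i) y * bx (2 * h j) (b j) y) ≤
        4 * (a i * (h i)⁻¹ * (a j * (if |b i - b j| ≤ 4 * h i then 1 else 0))) +
        4 * (a j * (h j)⁻¹ * (a i * (if |b j - b i| ≤ 4 * h j then 1 else 0))) := by
    intro i j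
    have hi : 0 < h i := lt_of_lt_of_le one_pos (hh i)
    have hj : 0 < h j := lt_of_lt_of_le one_pos (hh j)
    have hA : 0 ≤ a i * (h i)⁻¹ * (a j * (if |b i - b j| ≤ 4 * h i then (1 : ℝ) else 0)) := by
      refine mul_nonneg (mul_nonneg (ha i) (inv_nonneg.2 hi.le)) (mul_nonneg (ha j) ?_)
      split_ifs <;> norm_num
    have hB : 0 ≤ a j * (h j)⁻¹ * (a i * (if |b j - b i| ≤ 4 * h j then (1 : ℝ) else 0)) := by
      refine mul_nonneg (mul_nonneg (ha j) (inv_nonneg.2 hj.le)) (mul_nonneg (ha i) ?_)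
      split_ifs <;> norm_num
    have h0 : 0 ≤ a i * (h i)⁻¹ * (a j * (h j)⁻¹) :=
      mul_nonneg (mul_nonneg (ha i) (inv_nonneg.2 hi.le)) (mul_nonneg (ha j) (inv_nonneg.2 hj.le))
    rcases le_total (h j) (h i) with hij | hij
    · -- `h j ≤ h i`
      have h1 : ∫ y, bx (2 * h i) (b i) y * bx (2 * h j) (b j) y ≤
          2 * (2 * h j) * (if |b i - b j| ≤ 4 * h i then 1 else 0) := by
        have h2 := pair_le (2 * h j) (2 * h i) (b j) (b i) (by linarith)
        simp_rw [mul_comm (bx (2 * h j) (b j) _)] at h2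
        refine h2.trans ?_
        refine mul_le_mul_of_nonneg_left ?_ (by linarith)
        by_cases hc : |b j - b i| ≤ 2 * h j + 2 * h i
        · rw [if_pos hc, if_pos]
          rw [abs_sub_comm]; linarith
        · rw [if_neg hc]; split_ifs <;> norm_num
      have h3 := mul_le_mul_of_nonneg_left h1 h0
      have h4 : a i * (h i)⁻¹ * (a j * (h j)⁻¹) *
          (2 * (2 * h j) * (if |b i - b j| ≤ 4 * h i then 1 else 0)) =
          4 * (a i * (h i)⁻¹ * (a j * (if |b i - b j| ≤ 4 * h i then 1 else 0))) := by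
        field_simp
        ring
      linarith
    · have h1 : ∫ y, bx (2 * h i) (b i) y * bx (2 * h j) (b j) y ≤
          2 * (2 * h i) * (if |b j - b i| ≤ 4 * h j then 1 else 0) := by
        have h2 := pair_le (2 * h i) (2 * h j) (b i) (b j) (by linarith)
        refine h2.trans ?_
        refine mul_le_mul_of_nonneg_left ?_ (by linarith)
        by_cases hc : |b i - b j| ≤ 2 * h i + 2 * h j
        · rw [if_pos hc, if_pos]
          rw [abs_sub_comm]; linarith
        · rw [if_neg hc]; split_ifs <;> norm_num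
      have h3 := mul_le_mul_of_nonneg_left h1 h0
      have h4 : a i * (h i)⁻¹ * (a j * (h j)⁻¹) *
          (2 * (2 * h i) * (if |b j - b i| ≤ 4 * h j then 1 else 0)) =
          4 * (a j * (h j)⁻¹ * (a i * (if |b j - b i| ≤ 4 * h j then 1 else 0))) := by
        field_simp
        ring
      linarith
  have hS : S b a (fun i => 4 * h i) =
      (1 / 4) * ∑ i, ∑ j, a i * (h i)⁻¹ * (a j * (if |b i - b j| ≤ 4 * h i then 1 else 0)) := by
    rw [S, Finset.mul_sum]
    refine Finset.sum_congr rfl fun i _ => ?_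
    rw [← Finset.mul_sum, mul_inv]
    ring
  have hsum : ∑ i, ∫ y, ∑ j, a i * (h i)⁻¹ * (a j * (h j)⁻¹) *
        (bx (2 * h i) (b i) y * bx (2 * h j) (b j) y) ≤
      ∑ i, ∑ j, (4 * (a i * (h i)⁻¹ * (a j * (if |b i - b j| ≤ 4 * h i then 1 else 0))) +
        4 * (a j * (h j)⁻¹ * (a i * (if |b j - b i| ≤ 4 * h j then 1 else 0)))) := by
    refine Finset.sum_le_sum fun i _ => ?_
    rw [integral_finsetSum _ fun j _ => (integrable_bx_mul _ _ _ _).const_mul _]
    refine Finset.sum_le_sum fun j _ => ?_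
    rw [integral_const_mul]
    exact hpair i j
  refine hsum.trans (le_of_eq ?_)
  rw [hS]
  have key : ∀ f : Fin n → Fin n → ℝ, ∑ i, ∑ j, (4 * f i j + 4 * f j i) =
      32 * (1 / 4 * ∑ i, ∑ j, f i j) := by
    intro f
    simp_rw [Finset.sum_add_distrib, ← Finset.mul_sum]
    rw [Finset.sum_comm (f := fun i j => f j i)]
    ring
  exact key fun i j => a i * (h i)⁻¹ * (a j * (if |b i - b j| ≤ 4 * h i then (1 : ℝ) else 0))

theorem S_step (b a h : Fin n → ℝ) (ha : ∀ i, 0 ≤ a i) (hh : ∀ i, 1 ≤ h i) :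
    S b a h ≤ 16 * (∫ y, NN b a y ^ 2) + S b a (fun i => 4 * h i) / 2 := by
  have h1 := S_le_integral b a h ha hh
  have h2 := integral_sq_le b a h ha hh
  have h3 : ∫ y, gg b a h y * NN b a y ≤ ∫ y, (16 * NN b a y ^ 2 + (1 / 64) * gg b a h y ^ 2) := by
    refine integral_mono (integrable_mul b a h)
      (((integrable_N b a).const_mul _).add ((integrable_sq b a h).const_mul _)) fun y => ?_
    change gg b a h y * NN b a y ≤ 16 * NN b a y ^ 2 + (1 / 64) * gg b a h y ^ 2
    nlinarith [sq_nonneg (4 * NN b a y - (1 / 8) * gg b a h y)]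
  rw [integral_add ((integrable_N b a).const_mul _) ((integrable_sq b a h).const_mul _),
    integral_const_mul, integral_const_mul] at h3
  linarith

theorem S_le_B (b a h : Fin n → ℝ) (ha : ∀ i, 0 ≤ a i) (hh : ∀ i, 1 ≤ h i) :
    S b a h ≤ (∑ i, a i) * ∑ i, a i := by
  rw [S, Finset.sum_mul]
  refine Finset.sum_le_sum fun i _ => ?_
  have h1 : ∑ i', a i' * (if |b i - b i'| ≤ h i then (1 : ℝ) else 0) ≤ ∑ i', a i' := by
    refine Finset.sum_le_sum fun j _ => ?_
    refine mul_le_of_le_one_right (ha j) ?_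
    split_ifs <;> norm_num
  have h2 : a i * (h i)⁻¹ ≤ a i := mul_le_of_le_one_right (ha i) (inv_le_one_of_one_le₀ (hh i))
  have h3 : 0 ≤ ∑ i', a i' * (if |b i - b i'| ≤ h i then (1 : ℝ) else 0) := by
    refine Finset.sum_nonneg fun j _ => mul_nonneg (ha j) ?_
    split_ifs <;> norm_num
  exact mul_le_mul h2 h1 h3 (ha i)

theorem S_iter (b a : Fin n → ℝ) (ha : ∀ i, 0 ≤ a i) (m : ℕ) :
    ∀ h : Fin n → ℝ, (∀ i, 1 ≤ h i) →
      S b a h ≤ 32 * (∫ y, NN b a y ^ 2) + ((∑ i, a i) * ∑ i, a i) / 2 ^ m := by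
  have hQ : 0 ≤ ∫ y, NN b a y ^ 2 := integral_nonneg fun y => sq_nonneg _
  induction m with
  | zero =>
    intro h hh
    have := S_le_B b a h ha hh
    simp only [pow_zero, div_one]
    linarith
  | succ m ih =>
    intro h hh
    have h1 := S_step b a h ha hh
    have h2 := ih (fun i => 4 * h i) fun i => by linarith [hh i]
    rw [pow_succ, ← div_div]
    linarith

/-- **leaf HLlin**. -/
theorem hllin : HLlin := by
  refine ⟨32, ?_⟩
  intro n b h a ha hh
  have hN : ∀ y, ∑ i, a i * win (y - b i) = NN b a y := fun y => rfl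
  simp_rw [hN]
  change S b a h ≤ _
  have h1 : Filter.Tendsto (fun m : ℕ => 32 * (∫ y, NN b a y ^ 2) +
      ((∑ i, a i) * ∑ i, a i) / 2 ^ m) Filter.atTop (nhds (32 * (∫ y, NN b a y ^ 2) + 0)) := by
    refine Filter.Tendsto.add tendsto_const_nhds ?_
    exact tendsto_const_nhds.div_atTop (tendsto_pow_atTop_atTop_of_one_lt (by norm_num))
  rw [add_zero] at h1
  exact ge_of_tendsto' h1 fun m => S_iter b a ha m h hh

end Crest.Agent.R087.HLlinx975
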