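import Crest.Agent.R087.HLlin_975

/-!
# Row 87, part of leaf `MAINof`: last rounding error (helper975)

`|kap θ d μ - kap θ d μ'| ≤ 5 μ⁻² 1[|d| ≤ 2|μ|] + (5/4)|μ|⁻¹ (edge windows)` for `|μ - μ'| ≤ 1`,
`4 ≤ |μ'| ≤ |μ|`, and its sum by `FLAT` and `EDGE`.
-/

set_option autoImplicit false

noncomputable section

open MeasureTheory

namespace Crest.Agent.R087.RoundEx975

open Crest.Agent.R087.E2x542 Crest.Agent.R087.HLlinx975

theorem continuous_tent : Continuous tent := by unfold tent; fun_prop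

theorem tent_nonneg (u : ℝ) : 0 ≤ tent u := le_max_right _ _

theorem tent_le_one (u : ℝ) : tent u ≤ 1 := by
  unfold tent; exact max_le (by linarith [abs_nonneg u]) (by norm_num)

theorem tent_eq_zero {u : ℝ} (h : 1 ≤ |u|) : tent u = 0 := by
  unfold tent; exact max_eq_right (by linarith)

/-- primitive of the tent -/
def Ph (v : ℝ) : ℝ := ∫ x in (0 : ℝ)..v, tent x

theorem integral_tent (u v : ℝ) : ∫ x in u..v, tent x = Ph v - Ph u := by
  unfold Ph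
  rw [intervalIntegral.integral_interval_sub_left
    (continuous_tent.intervalIntegrable _ _) (continuous_tent.intervalIntegrable _ _)]

theorem Ph_lip (u v : ℝ) : |Ph v - Ph u| ≤ |v - u| := by
  rw [← integral_tent]
  have := intervalIntegral.norm_integral_le_of_norm_le_const (a := u) (b := v) (f := tent) (C := 1)
    (fun x _ => by
      rw [Real.norm_eq_abs, abs_of_nonneg (tent_nonneg x)]; exact tent_le_one x)
  simpa [Real.norm_eq_abs] using this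

theorem Ph_const {u v : ℝ} (hu : 1 ≤ u) (hv : 1 ≤ v) : Ph u = Ph v := by
  have h : ∫ x in u..v, tent x = 0 := by
    rw [intervalIntegral.integral_congr (g := fun _ => (0 : ℝ))]
    · simp
    · intro x hx
      have h1 : 1 ≤ x := by
        rcases Set.mem_uIcc.1 hx with h | h
        · exact hu.trans h.1
        · exact hv.trans h.1
      exact tent_eq_zero (h1.trans (le_abs_self x))
  rw [integral_tent] at h
  linarith

theorem Ph_const' {u v : ℝ} (hu : u ≤ -1) (hv : v ≤ -1) : Ph u = Ph v := by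
  have h : ∫ x in u..v, tent x = 0 := by
    rw [intervalIntegral.integral_congr (g := fun _ => (0 : ℝ))]
    · simp
    · intro x hx
      have h1 : x ≤ -1 := by
        rcases Set.mem_uIcc.1 hx with h | h
        · exact h.2.trans hv
        · exact h.2.trans hu
      refine tent_eq_zero ?_
      rw [abs_of_nonpos (by linarith)]; linarith
  rw [integral_tent] at h
  linarith

theorem Ph_zero : Ph 0 = 0 := by unfold Ph; simp

theorem Ph_abs (v : ℝ) : |Ph v| ≤ 1 := by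
  rcases le_total 1 v with h | h
  · rw [Ph_const h le_rfl]
    have := Ph_lip 0 1
    rw [Ph_zero] at this; simpa using this
  rcases le_total v (-1) with h' | h'
  · rw [Ph_const' h' le_rfl]
    have := Ph_lip 0 (-1)
    rw [Ph_zero] at this; simpa using this
  · have := Ph_lip 0 v
    rw [Ph_zero, sub_zero, sub_zero] at this
    exact this.trans (abs_le.2 ⟨h', h⟩)

/-- numerator of `kap` -/
def Gk (θ d μ : ℝ) : ℝ :=
  2 * Ph (d + (1 / 2 - θ) * μ) - Ph (d + (-θ) * μ) - Ph (d + (1 - θ) * μ)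

theorem integral_comp (a b d μ : ℝ) (hμ : μ ≠ 0) :
    ∫ x in a..b, tent (d + x * μ) = μ⁻¹ * (Ph (d + b * μ) - Ph (d + a * μ)) := by
  have h : ∀ x : ℝ, tent (d + x * μ) = tent (d + μ * x) := fun x => by rw [mul_comm x μ]
  simp_rw [h]
  rw [intervalIntegral.integral_comp_add_mul (fun x => tent x) hμ, integral_tent, smul_eq_mul,
    mul_comm μ b, mul_comm μ a]

theorem kap_eq (θ d μ : ℝ) (hμ : μ ≠ 0) : kap θ d μ = μ⁻¹ * Gk θ d μ := by
  unfold kap Gk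
  rw [integral_comp _ _ _ _ hμ, integral_comp _ _ _ _ hμ]
  ring

theorem Gk_abs (θ d μ : ℝ) : |Gk θ d μ| ≤ 4 := by
  unfold Gk
  have h1 := abs_le.1 (Ph_abs (d + (1 / 2 - θ) * μ))
  have h2 := abs_le.1 (Ph_abs (d + (-θ) * μ))
  have h3 := abs_le.1 (Ph_abs (d + (1 - θ) * μ))
  rw [abs_le]
  constructor <;> linarith [h1.1, h1.2, h2.1, h2.2, h3.1, h3.2]

theorem Gk_eq_zero {θ d μ B : ℝ} (h0 : 0 ≤ θ) (h1 : θ < 1) (hB : 1 ≤ B) (hμ : |μ| ≤ B)
    (hd : 2 * B < |d|) : Gk θ d μ = 0 := by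
  have hx : ∀ x : ℝ, |x| ≤ 1 → |x * μ| ≤ B := by
    intro x hx
    rw [abs_mul]
    calc |x| * |μ| ≤ 1 * |μ| := mul_le_mul_of_nonneg_right hx (abs_nonneg _)
      _ ≤ B := by rw [one_mul]; exact hμ
  have a1 := abs_le.1 (hx (1 / 2 - θ) (abs_le.2 ⟨by linarith, by linarith⟩))
  have a2 := abs_le.1 (hx (-θ) (abs_le.2 ⟨by linarith, by linarith⟩))
  have a3 := abs_le.1 (hx (1 - θ) (abs_le.2 ⟨by linarith, by linarith⟩))
  unfold Gk
  rcases le_total 0 d with h | h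
  · rw [abs_of_nonneg h] at hd
    rw [Ph_const (u := d + (1 / 2 - θ) * μ) (v := 1) (by linarith [a1.1]) le_rfl,
      Ph_const (u := d + (-θ) * μ) (v := 1) (by linarith [a2.1]) le_rfl,
      Ph_const (u := d + (1 - θ) * μ) (v := 1) (by linarith [a3.1]) le_rfl]
    ring
  · rw [abs_of_nonpos h] at hd
    rw [Ph_const' (u := d + (1 / 2 - θ) * μ) (v := -1) (by linarith [a1.2]) le_rfl,
      Ph_const' (u := d + (-θ) * μ) (v := -1) (by linarith [a2.2]) le_rfl,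
      Ph_const' (u := d + (1 - θ) * μ) (v := -1) (by linarith [a3.2]) le_rfl]
    ring

theorem Ph_diff {x d μ μ' : ℝ} (hx : |x| ≤ 1) (h : |μ - μ'| ≤ 1) :
    |Ph (d + x * μ) - Ph (d + x * μ')| ≤ bx 2 0 (d + x * μ) := by
  have h1 : |x * (μ - μ')| ≤ 1 := by
    rw [abs_mul]
    calc |x| * |μ - μ'| ≤ 1 * 1 := mul_le_mul hx h (abs_nonneg _) zero_le_one
      _ = 1 := one_mul 1
  have h1' := abs_le.1 h1
  unfold bx
  by_cases hc : |d + x * μ - 0| ≤ 2
  · rw [if_pos hc]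
    refine (Ph_lip _ _).trans ?_
    rw [show d + x * μ - (d + x * μ') = x * (μ - μ') by ring]
    exact h1
  · rw [if_neg hc, sub_zero] at *
    rw [not_le] at hc
    rcases le_total 0 (d + x * μ) with h2 | h2
    · rw [abs_of_nonneg h2] at hc
      rw [Ph_const (u := d + x * μ) (v := d + x * μ') (by linarith) (by nlinarith [h1'.1, h1'.2])]
      simp
    · rw [abs_of_nonpos h2] at hc
      rw [Ph_const' (u := d + x * μ) (v := d + x * μ') (by linarith) (by nlinarith [h1'.1, h1'.2])]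
      simp

theorem kap_diff {θ d μ μ' : ℝ} (h0 : 0 ≤ θ) (h1 : θ < 1) (h4 : 4 ≤ |μ'|) (hle : |μ'| ≤ |μ|)
    (h : |μ - μ'| ≤ 1) :
    |kap θ d μ - kap θ d μ'| ≤ 5 * (|μ|⁻¹ ^ 2 * bx (2 * |μ|) 0 d) +
      5 / 4 * (|μ|⁻¹ * (2 * bx 2 0 (d + (1 / 2 - θ) * μ) + bx 2 0 (d + (-θ) * μ) +
        bx 2 0 (d + (1 - θ) * μ))) := by
  have hμ'0 : μ' ≠ 0 := by
    rintro rfl; rw [abs_zero] at h4; linarith
  have hμpos : 0 < |μ| := by linarith
  have hμ'pos : 0 < |μ'| := by linarith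
  have hμ0 : μ ≠ 0 := abs_pos.1 hμpos
  rw [kap_eq _ _ _ hμ0, kap_eq _ _ _ hμ'0]
  have hsplit : μ⁻¹ * Gk θ d μ - μ'⁻¹ * Gk θ d μ' =
      (μ⁻¹ - μ'⁻¹) * Gk θ d μ + μ'⁻¹ * (Gk θ d μ - Gk θ d μ') := by ring
  rw [hsplit]
  have hinv : |μ'|⁻¹ ≤ 5 / 4 * |μ|⁻¹ := by
    have h5 : |μ| ≤ 5 / 4 * |μ'| := by
      have := abs_sub_abs_le_abs_sub μ μ'
      linarith
    rw [← div_eq_mul_inv, inv_eq_one_div, div_le_div_iff₀ hμ'pos hμpos]
    linarith
  have hdinv : |μ⁻¹ - μ'⁻¹| ≤ 5 / 4 * |μ|⁻¹ ^ 2 := by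
    rw [inv_sub_inv hμ0 hμ'0, abs_div, abs_mul, div_eq_mul_inv, mul_inv, abs_sub_comm]
    calc |μ - μ'| * (|μ|⁻¹ * |μ'|⁻¹) ≤ 1 * (|μ|⁻¹ * (5 / 4 * |μ|⁻¹)) := by
          refine mul_le_mul h ?_ (by positivity) zero_le_one
          exact mul_le_mul_of_nonneg_left hinv (by positivity)
      _ = 5 / 4 * |μ|⁻¹ ^ 2 := by ring
  have t1 : |(μ⁻¹ - μ'⁻¹) * Gk θ d μ| ≤ 5 * (|μ|⁻¹ ^ 2 * bx (2 * |μ|) 0 d) := by
    rw [abs_mul]
    unfold bx
    by_cases hd : |d - 0| ≤ 2 * |μ|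
    · rw [if_pos hd]
      calc |μ⁻¹ - μ'⁻¹| * |Gk θ d μ| ≤ (5 / 4 * |μ|⁻¹ ^ 2) * 4 :=
            mul_le_mul hdinv (Gk_abs _ _ _) (abs_nonneg _) (by positivity)
        _ = _ := by ring
    · rw [if_neg hd, Gk_eq_zero h0 h1 (B := |μ|) (by linarith) le_rfl (by
        rw [sub_zero, not_le] at hd; exact hd)]
      simp
  have t2 : |μ'⁻¹ * (Gk θ d μ - Gk θ d μ')| ≤
      5 / 4 * (|μ|⁻¹ * (2 * bx 2 0 (d + (1 / 2 - θ) * μ) + bx 2 0 (d + (-θ) * μ) +
        bx 2 0 (d + (1 - θ) * μ))) := by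
    rw [abs_mul, abs_inv]
    have b1 := Ph_diff (x := 1 / 2 - θ) (d := d) (abs_le.2 ⟨by linarith, by linarith⟩) h
    have b2 := Ph_diff (x := -θ) (d := d) (abs_le.2 ⟨by linarith, by linarith⟩) h
    have b3 := Ph_diff (x := 1 - θ) (d := d) (abs_le.2 ⟨by linarith, by linarith⟩) h
    have hG : |Gk θ d μ - Gk θ d μ'| ≤ 2 * bx 2 0 (d + (1 / 2 - θ) * μ) +
        bx 2 0 (d + (-θ) * μ) + bx 2 0 (d + (1 - θ) * μ) := by
      unfold Gk
      rw [abs_le] at *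
      constructor <;> linarith [b1.1, b1.2, b2.1, b2.2, b3.1, b3.2]
    have hs : 0 ≤ 2 * bx 2 0 (d + (1 / 2 - θ) * μ) + bx 2 0 (d + (-θ) * μ) +
        bx 2 0 (d + (1 - θ) * μ) := (abs_nonneg _).trans hG
    calc |μ'|⁻¹ * |Gk θ d μ - Gk θ d μ'|
        ≤ (5 / 4 * |μ|⁻¹) * (2 * bx 2 0 (d + (1 / 2 - θ) * μ) +
          bx 2 0 (d + (-θ) * μ) + bx 2 0 (d + (1 - θ) * μ)) :=
          mul_le_mul hinv hG (abs_nonneg _) (by positivity)
      _ = _ := by ring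
  exact (abs_add_le _ _).trans (add_le_add t1 t2)

/-! ### summation -/

theorem win_nonneg (v : ℝ) : 0 ≤ win v := by unfold win; split_ifs <;> norm_num

theorem bx_cover (v : ℝ) : bx 2 0 v ≤ ∑ e ∈ Finset.range 5, win (v - ((e : ℝ) - 2)) := by
  unfold bx
  by_cases h : |v - 0| ≤ 2
  · rw [if_pos h]
    rw [sub_zero, abs_le] at h
    have key : ∃ e ∈ Finset.range 5, |v - ((e : ℝ) - 2)| ≤ 1 / 2 := by
      rcases le_total v (-(3 / 2)) with h1 | h1
      · exact ⟨0, by simp, abs_le.2 ⟨by push_cast; linarith [h.1], by push_cast; linarith [h.2]⟩⟩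
      rcases le_total v (-(1 / 2)) with h2 | h2
      · exact ⟨1, by simp, abs_le.2 ⟨by push_cast; linarith, by push_cast; linarith⟩⟩
      rcases le_total v (1 / 2) with h3 | h3
      · exact ⟨2, by simp, abs_le.2 ⟨by push_cast; linarith, by push_cast; linarith⟩⟩
      rcases le_total v (3 / 2) with h4 | h4
      · exact ⟨3, by simp, abs_le.2 ⟨by push_cast; linarith, by push_cast; linarith⟩⟩
      · exact ⟨4, by simp, abs_le.2 ⟨by push_cast; linarith [h.1], by push_cast; linarith [h.2]⟩⟩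
    obtain ⟨e, he, hv⟩ := key
    calc (1 : ℝ) = win (v - ((e : ℝ) - 2)) := by unfold win; rw [if_pos hv]
      _ ≤ _ := Finset.single_le_sum (f := fun e : ℕ => win (v - ((e : ℝ) - 2)))
        (fun _ _ => win_nonneg _) he
  · rw [if_neg h]
    exact Finset.sum_nonneg fun _ _ => win_nonneg _

variable {n : ℕ}

theorem integrable_sq_sum (s : Finset (Fin n)) (c r p : Fin n → ℝ) :
    Integrable fun y => (∑ i ∈ s, c i * bx (r i) (p i) y) ^ 2 := by
  have h : ∀ y, (∑ i ∈ s, c i * bx (r i) (p i) y) ^ 2 =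
      ∑ i ∈ s, ∑ j ∈ s, c i * c j * (bx (r i) (p i) y * bx (r j) (p j) y) := by
    intro y
    rw [sq, Finset.sum_mul_sum]
    refine Finset.sum_congr rfl fun i _ => Finset.sum_congr rfl fun j _ => ?_
    ring
  simp_rw [h]
  exact integrable_finsetSum _ fun i _ => integrable_finsetSum _ fun j _ =>
    (integrable_bx_mul _ _ _ _).const_mul _

/-- flat term -/
def FL (b M a : Fin n → ℝ) (k : ℕ) (y : ℝ) : ℝ :=
  ∑ i with 4 * 2 ^ k ≤ |M i|,
    a i * (2 ^ k / |M i|) ^ 2 * (if |y - b i| ≤ 2 * (|M i| / 2 ^ k) then 1 else 0)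

/-- edge term -/
def ED (b M a : Fin n → ℝ) (x : ℕ → ℝ) (k : ℕ) (y : ℝ) : ℝ :=
  ∑ i with 4 * 2 ^ k ≤ |M i|, a i * (2 ^ k / |M i|) * win (y - b i + x k * (M i / 2 ^ k))

theorem integrable_FL (b M a : Fin n → ℝ) (k : ℕ) : Integrable fun y => FL b M a k y ^ 2 :=
  integrable_sq_sum _ (fun i => a i * (2 ^ k / |M i|) ^ 2) (fun i => 2 * (|M i| / 2 ^ k)) b

theorem integrable_ED (b M a : Fin n → ℝ) (x : ℕ → ℝ) (k : ℕ) :
    Integrable fun y => ED b M a x k y ^ 2 := by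
  have h := integrable_sq_sum (Finset.univ.filter fun i => 4 * 2 ^ k ≤ |M i|)
    (fun i => a i * (2 ^ k / |M i|)) (fun _ => 1 / 2) (fun i => b i - x k * (M i / 2 ^ k))
  have h2 : ∀ y, ED b M a x k y = ∑ i with 4 * 2 ^ k ≤ |M i|,
      a i * (2 ^ k / |M i|) * bx (1 / 2) (b i - x k * (M i / 2 ^ k)) y := by
    intro y
    unfold ED
    refine Finset.sum_congr rfl fun i _ => ?_
    unfold win bx
    rw [show y - (b i - x k * (M i / 2 ^ k)) = y - b i + x k * (M i / 2 ^ k) by ring]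
  simp_rw [h2]
  exact h

theorem FL_nonneg (b M a : Fin n → ℝ) (ha : ∀ i, 0 ≤ a i) (k : ℕ) (y : ℝ) : 0 ≤ FL b M a k y :=
  Finset.sum_nonneg fun i _ => mul_nonneg (mul_nonneg (ha i) (by positivity))
    (by split_ifs <;> norm_num)

theorem ED_nonneg (b M a : Fin n → ℝ) (ha : ∀ i, 0 ≤ a i) (x : ℕ → ℝ) (k : ℕ) (y : ℝ) :
    0 ≤ ED b M a x k y :=
  Finset.sum_nonneg fun i _ => mul_nonneg (mul_nonneg (ha i) (by positivity)) (win_nonneg _)

theorem pointwise (b M a : Fin n → ℝ) (kk : Fin n → ℕ) (θ : ℝ) (M' : Fin n → ℝ) (k : ℕ)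
    (ha : ∀ i, 0 ≤ a i) (h0 : 0 ≤ θ) (h1 : θ < 1)
    (hM : ∀ i, 4 * 2 ^ k ≤ |M i| → 4 * 2 ^ k ≤ |M' i| ∧ |M' i| ≤ |M i| ∧ |M i - M' i| ≤ 2 ^ k)
    (y : ℝ) :
    |∑ i with kk i ≤ k ∧ 4 * 2 ^ k ≤ |M i|,
      a i * (kap θ (y - b i) (M i / 2 ^ k) - kap θ (y - b i) (M' i / 2 ^ k))| ≤
    5 * FL b M a k y + 5 / 4 * ∑ e ∈ Finset.range 5,
      (2 * ED (fun i => b i + ((e : ℝ) - 2)) M a (fun _ => 1 / 2 - θ) k y +
        ED (fun i => b i + ((e : ℝ) - 2)) M a (fun _ => -θ) k y +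
        ED (fun i => b i + ((e : ℝ) - 2)) M a (fun _ => 1 - θ) k y) := by
  have hk : (0 : ℝ) < 2 ^ k := by positivity
  have hterm : ∀ i, 4 * 2 ^ k ≤ |M i| →
      a i * |kap θ (y - b i) (M i / 2 ^ k) - kap θ (y - b i) (M' i / 2 ^ k)| ≤
      5 * (a i * (2 ^ k / |M i|) ^ 2 * (if |y - b i| ≤ 2 * (|M i| / 2 ^ k) then 1 else 0)) +
      5 / 4 * ∑ e ∈ Finset.range 5,
        (2 * (a i * (2 ^ k / |M i|) *
            win (y - (b i + ((e : ℝ) - 2)) + (1 / 2 - θ) * (M i / 2 ^ k))) +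
          a i * (2 ^ k / |M i|) * win (y - (b i + ((e : ℝ) - 2)) + (-θ) * (M i / 2 ^ k)) +
          a i * (2 ^ k / |M i|) * win (y - (b i + ((e : ℝ) - 2)) + (1 - θ) * (M i / 2 ^ k))) := by
    intro i hi
    obtain ⟨p1, p2, p3⟩ := hM i hi
    have hc : (2 : ℝ) ^ k = |(2 : ℝ) ^ k| := (abs_of_pos hk).symm
    have habs : ∀ z : ℝ, |z / 2 ^ k| = |z| / 2 ^ k := fun z => by
      rw [abs_div, ← hc]
    have q1 : 4 ≤ |M' i / 2 ^ k| := by rw [habs, le_div_iff₀ hk]; exact p1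
    have q2 : |M' i / 2 ^ k| ≤ |M i / 2 ^ k| := by
      rw [habs, habs]; exact div_le_div_of_nonneg_right p2 hk.le
    have q3 : |M i / 2 ^ k - M' i / 2 ^ k| ≤ 1 := by
      rw [← sub_div, habs, div_le_one hk]; exact p3
    have hk1 := kap_diff (d := y - b i) h0 h1 q1 q2 q3
    have hinv : |M i / 2 ^ k|⁻¹ = 2 ^ k / |M i| := by rw [habs, inv_div]
    rw [hinv] at hk1
    have hA : 0 ≤ 2 ^ k / |M i| := by positivity
    have hcov : ∀ x : ℝ, bx 2 0 (y - b i + x * (M i / 2 ^ k)) ≤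
        ∑ e ∈ Finset.range 5, win (y - (b i + ((e : ℝ) - 2)) + x * (M i / 2 ^ k)) := by
      intro x
      refine (bx_cover _).trans (le_of_eq ?_)
      refine Finset.sum_congr rfl fun e _ => ?_
      congr 1; ring
    have hbx : bx (2 * |M i / 2 ^ k|) 0 (y - b i) =
        (if |y - b i| ≤ 2 * (|M i| / 2 ^ k) then 1 else 0) := by
      unfold bx; rw [habs, sub_zero]
    rw [hbx] at hk1
    have hk2 := mul_le_mul_of_nonneg_left hk1 (ha i)
    refine hk2.trans ?_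
    have c1 := hcov (1 / 2 - θ)
    have c2 := hcov (-θ)
    have c3 := hcov (1 - θ)
    have hsum : (2 ^ k / |M i|) * (2 * bx 2 0 (y - b i + (1 / 2 - θ) * (M i / 2 ^ k)) +
        bx 2 0 (y - b i + (-θ) * (M i / 2 ^ k)) + bx 2 0 (y - b i + (1 - θ) * (M i / 2 ^ k))) ≤
        (2 ^ k / |M i|) * (2 * (∑ e ∈ Finset.range 5,
          win (y - (b i + ((e : ℝ) - 2)) + (1 / 2 - θ) * (M i / 2 ^ k))) +
        (∑ e ∈ Finset.range 5, win (y - (b i + ((e : ℝ) - 2)) + (-θ) * (M i / 2 ^ k))) +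
        ∑ e ∈ Finset.range 5, win (y - (b i + ((e : ℝ) - 2)) + (1 - θ) * (M i / 2 ^ k))) := by
      refine mul_le_mul_of_nonneg_left ?_ hA
      linarith
    have hsum2 := mul_le_mul_of_nonneg_left hsum (ha i)
    simp only [Finset.sum_add_distrib, ← Finset.mul_sum]
    nlinarith [hsum2]
  calc |∑ i with kk i ≤ k ∧ 4 * 2 ^ k ≤ |M i|,
        a i * (kap θ (y - b i) (M i / 2 ^ k) - kap θ (y - b i) (M' i / 2 ^ k))|
      ≤ ∑ i with kk i ≤ k ∧ 4 * 2 ^ k ≤ |M i|,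
        |a i * (kap θ (y - b i) (M i / 2 ^ k) - kap θ (y - b i) (M' i / 2 ^ k))| :=
        Finset.abs_sum_le_sum_abs _ _
    _ ≤ ∑ i with 4 * 2 ^ k ≤ |M i|,
        a i * |kap θ (y - b i) (M i / 2 ^ k) - kap θ (y - b i) (M' i / 2 ^ k)| := by
        have : ∀ i, |a i * (kap θ (y - b i) (M i / 2 ^ k) - kap θ (y - b i) (M' i / 2 ^ k))| =
            a i * |kap θ (y - b i) (M i / 2 ^ k) - kap θ (y - b i) (M' i / 2 ^ k)| := fun i => by
          rw [abs_mul, abs_of_nonneg (ha i)]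
        simp_rw [this]
        refine Finset.sum_le_sum_of_subset_of_nonneg ?_ fun i _ _ =>
          mul_nonneg (ha i) (abs_nonneg _)
        intro i hi
        rw [Finset.mem_filter] at *
        exact ⟨hi.1, hi.2.2⟩
    _ ≤ _ := Finset.sum_le_sum fun i hi => hterm i (Finset.mem_filter.1 hi).2
    _ = _ := by
        rw [Finset.sum_add_distrib, ← Finset.mul_sum, ← Finset.mul_sum, Finset.sum_comm]
        simp_rw [Finset.sum_add_distrib, ← Finset.mul_sum]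
        rfl

theorem sq_bound (F : ℝ) (X Y Z : ℕ → ℝ) :
    (5 * F + 5 / 4 * ∑ e ∈ Finset.range 5, (2 * X e + Y e + Z e)) ^ 2 ≤
      50 * F ^ 2 + 200 * ∑ e ∈ Finset.range 5, (X e ^ 2 + Y e ^ 2 + Z e ^ 2) := by
  have h1 : (∑ e ∈ Finset.range 5, (2 * X e + Y e + Z e)) ^ 2 ≤
      5 * ∑ e ∈ Finset.range 5, (2 * X e + Y e + Z e) ^ 2 := by
    have := sq_sum_le_card_mul_sum_sq (s := Finset.range 5) (f := fun e => 2 * X e + Y e + Z e)
    simpa using this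
  have h2 : ∑ e ∈ Finset.range 5, (2 * X e + Y e + Z e) ^ 2 ≤
      12 * ∑ e ∈ Finset.range 5, (X e ^ 2 + Y e ^ 2 + Z e ^ 2) := by
    rw [Finset.mul_sum]
    refine Finset.sum_le_sum fun e _ => ?_
    nlinarith [sq_nonneg (2 * X e - Y e), sq_nonneg (2 * X e - Z e), sq_nonneg (Y e - Z e),
      sq_nonneg (Y e), sq_nonneg (Z e)]
  have h3 : 0 ≤ ∑ e ∈ Finset.range 5, (X e ^ 2 + Y e ^ 2 + Z e ^ 2) :=
    Finset.sum_nonneg fun e _ => by positivity
  nlinarith [sq_nonneg (5 * F - 5 / 4 * ∑ e ∈ Finset.range 5, (2 * X e + Y e + Z e))]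

theorem translate (b a : Fin n → ℝ) (e : ℝ) :
    ∫ y, (∑ i, a i * win (y - (b i + e))) ^ 2 = ∫ y, (∑ i, a i * win (y - b i)) ^ 2 := by
  rw [← integral_sub_right_eq_self (fun y => (∑ i, a i * win (y - b i)) ^ 2) e]
  congr 1
  funext y
  congr 1
  refine Finset.sum_congr rfl fun i _ => ?_
  congr 2; ring

/-- **last rounding error**. -/
theorem last_error (hE : EDGE) (hF : FLAT) : ∃ C : ℝ, 0 ≤ C ∧
    ∀ (K n : ℕ) (b M a : Fin n → ℝ) (kk : Fin n → ℕ) (θ : ℕ → ℝ) (M' : ℕ → Fin n → ℝ),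
    (∀ i, 0 ≤ a i) → (∀ k, 0 ≤ θ k ∧ θ k < 1) →
    (∀ k i, 4 * 2 ^ k ≤ |M i| →
      4 * 2 ^ k ≤ |M' k i| ∧ |M' k i| ≤ |M i| ∧ |M i - M' k i| ≤ 2 ^ k) →
    ∑ k ∈ Finset.range K,
      ∫ y, (∑ i with kk i ≤ k ∧ 4 * 2 ^ k ≤ |M i|,
        a i * (kap (θ k) (y - b i) (M i / 2 ^ k) - kap (θ k) (y - b i) (M' k i / 2 ^ k))) ^ 2 ≤
      C * ∫ y, (∑ i, a i * win (y - b i)) ^ 2 := by
  obtain ⟨CE, hE⟩ := hE
  obtain ⟨CF, hF⟩ := hF
  refine ⟨50 * |CF| + 200 * (5 * (3 * |CE|)), by positivity, ?_⟩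
  intro K n b M a kk θ M' ha hθ hM
  set Q := ∫ y, (∑ i, a i * win (y - b i)) ^ 2 with hQ
  have hQ0 : 0 ≤ Q := integral_nonneg fun y => sq_nonneg _
  have hk : ∀ k, ∫ y, (∑ i with kk i ≤ k ∧ 4 * 2 ^ k ≤ |M i|,
        a i * (kap (θ k) (y - b i) (M i / 2 ^ k) - kap (θ k) (y - b i) (M' k i / 2 ^ k))) ^ 2 ≤
      50 * (∫ y, FL b M a k y ^ 2) + 200 * ∑ e ∈ Finset.range 5,
        ((∫ y, ED (fun i => b i + ((e : ℝ) - 2)) M a (fun k => 1 / 2 - θ k) k y ^ 2) +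
        (∫ y, ED (fun i => b i + ((e : ℝ) - 2)) M a (fun k => -θ k) k y ^ 2) +
        ∫ y, ED (fun i => b i + ((e : ℝ) - 2)) M a (fun k => 1 - θ k) k y ^ 2) := by
    intro k
    have h2e : ∀ e : ℕ, Integrable fun y =>
        ED (fun i => b i + ((e : ℝ) - 2)) M a (fun k => 1 / 2 - θ k) k y ^ 2 +
        ED (fun i => b i + ((e : ℝ) - 2)) M a (fun k => -θ k) k y ^ 2 := fun e =>
      (integrable_ED _ M a _ k).add (integrable_ED _ M a _ k)
    have h3e : ∀ e : ℕ, Integrable fun y =>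
        ED (fun i => b i + ((e : ℝ) - 2)) M a (fun k => 1 / 2 - θ k) k y ^ 2 +
        ED (fun i => b i + ((e : ℝ) - 2)) M a (fun k => -θ k) k y ^ 2 +
        ED (fun i => b i + ((e : ℝ) - 2)) M a (fun k => 1 - θ k) k y ^ 2 := fun e =>
      (h2e e).add (integrable_ED _ M a _ k)
    have hsume : Integrable fun y => 200 * ∑ e ∈ Finset.range 5,
        (ED (fun i => b i + ((e : ℝ) - 2)) M a (fun k => 1 / 2 - θ k) k y ^ 2 +
        ED (fun i => b i + ((e : ℝ) - 2)) M a (fun k => -θ k) k y ^ 2 +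
        ED (fun i => b i + ((e : ℝ) - 2)) M a (fun k => 1 - θ k) k y ^ 2) :=
      (integrable_finsetSum _ fun e _ => h3e e).const_mul _
    have hFLi : Integrable fun y => 50 * FL b M a k y ^ 2 := (integrable_FL b M a k).const_mul _
    have hint : Integrable fun y => 50 * FL b M a k y ^ 2 + 200 * ∑ e ∈ Finset.range 5,
        (ED (fun i => b i + ((e : ℝ) - 2)) M a (fun k => 1 / 2 - θ k) k y ^ 2 +
        ED (fun i => b i + ((e : ℝ) - 2)) M a (fun k => -θ k) k y ^ 2 +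
        ED (fun i => b i + ((e : ℝ) - 2)) M a (fun k => 1 - θ k) k y ^ 2) := hFLi.add hsume
    refine (integral_mono_of_nonneg (Filter.Eventually.of_forall fun y => sq_nonneg _) hint
      (Filter.Eventually.of_forall fun y => ?_)).trans (le_of_eq ?_)
    · have h1 := pointwise b M a kk (θ k) (M' k) k ha (hθ k).1 (hθ k).2 (hM k) y
      have h2 := sq_bound (FL b M a k y)
        (fun e => ED (fun i => b i + ((e : ℝ) - 2)) M a (fun k => 1 / 2 - θ k) k y)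
        (fun e => ED (fun i => b i + ((e : ℝ) - 2)) M a (fun k => -θ k) k y)
        (fun e => ED (fun i => b i + ((e : ℝ) - 2)) M a (fun k => 1 - θ k) k y)
      refine le_trans ?_ h2
      rw [← sq_abs]
      exact pow_le_pow_left₀ (abs_nonneg _) h1 2
    · rw [integral_add hFLi hsume, integral_const_mul, integral_const_mul,
        integral_finsetSum _ fun e _ => h3e e]
      congr 2
      refine Finset.sum_congr rfl fun e _ => ?_
      rw [integral_add (h2e e) (integrable_ED _ M a _ k),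
        integral_add (integrable_ED _ M a _ k) (integrable_ED _ M a _ k)]
  have hED : ∀ (e : ℕ) (x : ℕ → ℝ), (∀ k, |x k| ≤ 1) →
      ∑ k ∈ Finset.range K, (∫ y, ED (fun i => b i + ((e : ℝ) - 2)) M a x k y ^ 2) ≤
        |CE| * Q := by
    intro e x hx
    have h1 := hE K n (fun i => b i + ((e : ℝ) - 2)) M a x ha hx
    rw [translate] at h1
    exact h1.trans (mul_le_mul_of_nonneg_right (le_abs_self _) hQ0)
  have hFL : ∑ k ∈ Finset.range K, (∫ y, FL b M a k y ^ 2) ≤ |CF| * Q :=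
    (hF K n b M a ha).trans (mul_le_mul_of_nonneg_right (le_abs_self _) hQ0)
  refine (Finset.sum_le_sum fun k _ => hk k).trans ?_
  rw [Finset.sum_add_distrib, ← Finset.mul_sum, ← Finset.mul_sum, Finset.sum_comm]
  simp_rw [Finset.sum_add_distrib]
  have hx1 : ∀ k, |1 / 2 - θ k| ≤ 1 := fun k =>
    abs_le.2 ⟨by linarith [(hθ k).2], by linarith [(hθ k).1]⟩
  have hx2 : ∀ k, |-θ k| ≤ 1 := fun k => abs_le.2 ⟨by linarith [(hθ k).2], by linarith [(hθ k).1]⟩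
  have hx3 : ∀ k, |1 - θ k| ≤ 1 := fun k =>
    abs_le.2 ⟨by linarith [(hθ k).2], by linarith [(hθ k).1]⟩
  have s1 := Finset.sum_le_sum fun e (_ : e ∈ Finset.range 5) => hED e _ hx1
  have s2 := Finset.sum_le_sum fun e (_ : e ∈ Finset.range 5) => hED e _ hx2
  have s3 := Finset.sum_le_sum fun e (_ : e ∈ Finset.range 5) => hED e _ hx3
  simp only [Finset.sum_const, Finset.card_range, nsmul_eq_mul] at s1 s2 s3
  push_cast at s1 s2 s3
  linarith

end Crest.Agent.R087.RoundEx975
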