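import Crest.Agent.R087.MAINof_575
import Crest.Agent.R087.RoundE_975

/-!
Row 87, (E2): final form of MAINof (helper575), with the last rounding error of helper975.
-/

set_option autoImplicit false

noncomputable section

open MeasureTheory Filter Topology

namespace Crest.Agent.R087.MAINofFx575

open E2x542 MAINofx575

theorem err (hE : EDGE) (hF : FLAT) : ERR := by
  obtain ⟨C, hC0, hC⟩ := RoundEx975.last_error hE hF
  refine ⟨C, hC0, fun K n b M a kk θ M' ha hθ hM' => ?_⟩
  refine hC K n b M a kk θ (fun k i => M' i k) ha hθ fun k i h => ?_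
  obtain ⟨h1, h2, h3, h4⟩ := hM' i k h
  refine ⟨h2, h3, ?_⟩
  -- same sign
  have key : |M i - M' i k| = |M i| - |M' i k| := by
    rcases lt_trichotomy (M i) 0 with h5 | h5 | h5
    · have h6 : M' i k < 0 := by
        by_contra h7
        push Not at h7
        nlinarith
      rw [abs_of_neg h5, abs_of_neg h6] at *
      rw [abs_of_nonpos (by linarith)]
      ring
    · rw [h5, mul_zero] at h1
      exact absurd h1 (lt_irrefl 0)
    · have h6 : 0 < M' i k := by
        by_contra h7
        push Not at h7
        nlinarith
      rw [abs_of_pos h5, abs_of_pos h6] at *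
      rw [abs_of_nonneg (by linarith)]
  rw [key]
  linarith

/-- **leaf MAINof** -/
theorem mainof : MAINof := fun hM hT hEdge hFlat => mainof_of_err (err hEdge hFlat) hM hT

end Crest.Agent.R087.MAINofFx575
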