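import Crest.Agent.R087.E2leaf_542

/-!
# Row 87, leaf MART: dyadic conditional expectations on the line
-/

set_option autoImplicit false

noncomputable section

open MeasureTheory Filter Topology

namespace Crest.Agent.R087.MARTx612

open Crest.Agent.R087.E2x542

/-! ### nice functions -/

theorem Nice1.integrable {f : ℝ → ℝ} (hf : Nice1 f) : Integrable f := by
  obtain ⟨hm, ⟨M, hM⟩, ⟨R, hR⟩⟩ := hf
  have h1 : IntegrableOn f (Set.Icc (-R) R) := by
    refine Measure.integrableOn_of_bounded (M := M) ?_ hm.aestronglyMeasurable ?_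
    · simp
    · exact ae_of_all _ fun x => by simpa using hM x
  refine (integrableOn_iff_integrable_of_support_subset ?_).1 h1
  intro x hx
  rw [Function.mem_support] at hx
  by_contra h
  apply hx
  apply hR
  by_contra h'
  exact h (abs_le.1 (not_lt.1 h'))

theorem Nice1.mul {f g : ℝ → ℝ} (hf : Nice1 f) (hg : Nice1 g) : Nice1 fun x => f x * g x := by
  obtain ⟨hm, ⟨M, hM⟩, ⟨R, hR⟩⟩ := hf
  obtain ⟨hm', ⟨M', hM'⟩, ⟨R', hR'⟩⟩ := hg
  refine ⟨hm.mul hm', ⟨M * M', fun y => ?_⟩, ⟨R, fun y hy => by simp [hR y hy]⟩⟩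
  rw [abs_mul]
  exact mul_le_mul (hM y) (hM' y) (abs_nonneg _) ((abs_nonneg _).trans (hM y))

theorem Nice1.sq {f : ℝ → ℝ} (hf : Nice1 f) : Nice1 fun x => f x ^ 2 := by
  simpa [pow_two] using Nice1.mul hf hf

theorem Nice1.add {f g : ℝ → ℝ} (hf : Nice1 f) (hg : Nice1 g) : Nice1 fun x => f x + g x := by
  obtain ⟨hm, ⟨M, hM⟩, ⟨R, hR⟩⟩ := hf
  obtain ⟨hm', ⟨M', hM'⟩, ⟨R', hR'⟩⟩ := hg
  refine ⟨hm.add hm', ⟨M + M', fun y => (abs_add_le _ _).trans (add_le_add (hM y) (hM' y))⟩,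
    ⟨max R R', fun y hy => ?_⟩⟩
  show f y + g y = 0
  rw [hR y ((le_max_left _ _).trans_lt hy), hR' y ((le_max_right _ _).trans_lt hy), add_zero]

theorem Nice1.neg {f : ℝ → ℝ} (hf : Nice1 f) : Nice1 fun x => - f x := by
  obtain ⟨hm, ⟨M, hM⟩, ⟨R, hR⟩⟩ := hf
  exact ⟨hm.neg, ⟨M, fun y => by simpa using hM y⟩, ⟨R, fun y hy => by simp [hR y hy]⟩⟩

theorem Nice1.sub {f g : ℝ → ℝ} (hf : Nice1 f) (hg : Nice1 g) : Nice1 fun x => f x - g x := by
  simpa [sub_eq_add_neg] using Nice1.add hf (Nice1.neg hg)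

/-! ### dyadic cells -/

/-- same dyadic interval of length `2^l` -/
def Sm (l : ℤ) (x y : ℝ) : Prop := ⌊x / 2 ^ l⌋ = ⌊y / 2 ^ l⌋

/-- the kernel -/
def kl (l : ℤ) (x y : ℝ) : ℝ := Set.indicator {z : ℝ × ℝ | Sm l z.1 z.2} 1 (x, y)

theorem mem_cell {l n : ℤ} {x : ℝ} :
    x ∈ Set.Ico (n * (2 : ℝ) ^ l) ((n + 1) * (2 : ℝ) ^ l) ↔ ⌊x / 2 ^ l⌋ = n := by
  have h : (0 : ℝ) < 2 ^ l := by positivity
  rw [Int.floor_eq_iff, Set.mem_Ico, le_div_iff₀ h, div_lt_iff₀ h]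

theorem meas_Sm (l : ℤ) : MeasurableSet {z : ℝ × ℝ | Sm l z.1 z.2} := by
  refine measurableSet_eq_fun ?_ ?_
  · exact Int.measurable_floor.comp (by fun_prop)
  · exact Int.measurable_floor.comp (by fun_prop)

theorem kl_symm (l : ℤ) (x y : ℝ) : kl l x y = kl l y x := by
  by_cases h : Sm l x y
  · have h' : Sm l y x := h.symm
    unfold kl
    rw [Set.indicator_of_mem (by exact h), Set.indicator_of_mem (by exact h')]
    rfl
  · have h' : ¬ Sm l y x := fun h' => h h'.symm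
    unfold kl
    rw [Set.indicator_of_notMem (by exact h), Set.indicator_of_notMem (by exact h')]

theorem kl_abs (l : ℤ) (x y : ℝ) : |kl l x y| ≤ 1 := by
  unfold kl Set.indicator
  split_ifs <;> simp

theorem Ex_eq (l : ℤ) (f : ℝ → ℝ) (y : ℝ) :
    Ex l f y = ((2 : ℝ) ^ l)⁻¹ * ∫ x, kl l x y * f x := by
  unfold Ex
  congr 1
  rw [← integral_indicator measurableSet_Ico]
  congr 1
  ext x
  by_cases h : ⌊x / (2 : ℝ) ^ l⌋ = ⌊y / 2 ^ l⌋
  · rw [Set.indicator_of_mem (mem_cell.2 h)]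
    have : kl l x y = 1 := by
      unfold kl
      rw [Set.indicator_of_mem (by exact h)]
      rfl
    rw [this, one_mul]
  · rw [Set.indicator_of_notMem (fun h' => h (mem_cell.1 h'))]
    have : kl l x y = 0 := by
      unfold kl
      rw [Set.indicator_of_notMem (by exact h)]
    rw [this, zero_mul]

theorem Ex_congr {l : ℤ} (f : ℝ → ℝ) {x y : ℝ} (h : Sm l x y) : Ex l f x = Ex l f y := by
  unfold Ex
  unfold Sm at h
  rw [h]

theorem Sm_succ {l : ℤ} {x y : ℝ} (h : Sm l x y) : Sm (l + 1) x y := by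
  unfold Sm at *
  have e : ∀ z : ℝ, z / (2 : ℝ) ^ (l + 1) = (z / 2 ^ l) / (2 : ℕ) := fun z => by
    rw [zpow_add₀ (by norm_num), div_div]
    norm_num
  rw [e, e, Int.floor_div_natCast, Int.floor_div_natCast, h]

/-- functions constant on cells are fixed -/
theorem Ex_of_const {l : ℤ} {h : ℝ → ℝ} (hh : ∀ x y, Sm l x y → h x = h y) (y : ℝ) :
    Ex l h y = h y := by
  unfold Ex
  have h0 : (0 : ℝ) < 2 ^ l := by positivity
  rw [setIntegral_congr_fun (g := fun _ => h y) measurableSet_Ico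
    (fun x hx => hh x y (mem_cell.1 hx))]
  rw [setIntegral_const, Real.volume_real_Ico_of_le (by nlinarith)]
  rw [smul_eq_mul]
  field_simp
  ring

theorem Ex_Ex (l : ℤ) (f : ℝ → ℝ) (y : ℝ) : Ex l (Ex l f) y = Ex l f y :=
  Ex_of_const (fun _ _ h => Ex_congr f h) y

theorem Ex_Ex_succ (l : ℤ) (f : ℝ → ℝ) (y : ℝ) : Ex l (Ex (l + 1) f) y = Ex (l + 1) f y :=
  Ex_of_const (fun _ _ h => Ex_congr f (Sm_succ h)) y

theorem Ex_abs_le {l : ℤ} {f : ℝ → ℝ} {M : ℝ} (hM : ∀ y, |f y| ≤ M) (y : ℝ) :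
    |Ex l f y| ≤ M := by
  unfold Ex
  have h0 : (0 : ℝ) < 2 ^ l := by positivity
  rw [abs_mul, abs_of_pos (inv_pos.2 h0), inv_mul_le_iff₀ h0]
  have h1 := norm_setIntegral_le_of_norm_le_const (μ := volume) (f := f) (C := M)
    (s := Set.Ico (⌊y / (2 : ℝ) ^ l⌋ * (2 : ℝ) ^ l) ((⌊y / 2 ^ l⌋ + 1) * (2 : ℝ) ^ l))
    (by simp) (fun x _ => by simpa using hM x)
  rw [Real.norm_eq_abs, Real.volume_real_Ico_of_le (by nlinarith)] at h1
  calc _ ≤ _ := h1
    _ = _ := by ring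

theorem Nice1.Ex (l : ℤ) {f : ℝ → ℝ} (hf : Nice1 f) : Nice1 (Ex l f) := by
  obtain ⟨hm, ⟨M, hM⟩, ⟨R, hR⟩⟩ := hf
  have h0 : (0 : ℝ) < 2 ^ l := by positivity
  refine ⟨?_, ⟨M, fun y => Ex_abs_le hM y⟩, ⟨R + 2 ^ l, fun y hy => ?_⟩⟩
  · have : E2x542.Ex l f = (fun n : ℤ => ((2 : ℝ) ^ l)⁻¹ *
        ∫ x in Set.Ico (n * (2 : ℝ) ^ l) ((n + 1) * (2 : ℝ) ^ l), f x) ∘
        fun y : ℝ => ⌊y / 2 ^ l⌋ := rfl
    rw [this]
    exact (measurable_of_countable _).comp (Int.measurable_floor.comp (by fun_prop))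
  · unfold E2x542.Ex
    rw [setIntegral_congr_fun (g := fun _ => (0 : ℝ)) measurableSet_Ico]
    · simp
    · intro x hx
      apply hR
      have h1 := Int.floor_le (y / (2 : ℝ) ^ l)
      have h2 := Int.lt_floor_add_one (y / (2 : ℝ) ^ l)
      rw [le_div_iff₀ h0] at h1
      rw [div_lt_iff₀ h0] at h2
      have h3 := hx.1
      have h4 := hx.2
      have h5 : |x - y| < 2 ^ l := by
        rw [abs_lt]
        constructor <;> nlinarith
      have h6 := abs_sub_abs_le_abs_sub y x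
      rw [abs_sub_comm] at h6
      linarith

/-! ### self-adjointness -/

theorem Ex_adj (l : ℤ) {f g : ℝ → ℝ} (hf : Nice1 f) (hg : Nice1 g) :
    ∫ y, Ex l f y * g y = ∫ y, f y * Ex l g y := by
  have hint : Integrable (Function.uncurry fun x y => kl l x y * (f x * g y))
      (volume.prod volume) := by
    have h1 := (Nice1.integrable hf).mul_prod (Nice1.integrable hg)
    refine h1.mono ?_ (ae_of_all _ fun z => ?_)
    · have hk : Measurable (Function.uncurry (kl l)) := by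
        have : Function.uncurry (kl l) = Set.indicator {z : ℝ × ℝ | Sm l z.1 z.2} 1 := rfl
        rw [this]
        exact measurable_one.indicator (meas_Sm l)
      have : Measurable (Function.uncurry fun x y => kl l x y * (f x * g y)) := by
        have h2 : Measurable fun z : ℝ × ℝ => f z.1 * g z.2 :=
          (hf.1.comp measurable_fst).mul (hg.1.comp measurable_snd)
        exact hk.mul h2
      exact this.aestronglyMeasurable
    · simp only [Function.uncurry, Real.norm_eq_abs, abs_mul]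
      have := kl_abs l z.1 z.2
      have h3 : 0 ≤ |f z.1| * |g z.2| := by positivity
      nlinarith
  have e1 : ∀ y, Ex l f y * g y = ((2 : ℝ) ^ l)⁻¹ * ∫ x, kl l x y * (f x * g y) := fun y => by
    rw [Ex_eq, mul_assoc, ← integral_mul_const]
    congr 2
    ext x
    ring
  have e2 : ∀ x, f x * Ex l g x = ((2 : ℝ) ^ l)⁻¹ * ∫ y, kl l x y * (f x * g y) := fun x => by
    rw [Ex_eq, mul_left_comm, ← integral_const_mul]
    congr 2
    ext y
    rw [kl_symm l x y]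
    ring
  simp_rw [e1, e2]
  rw [integral_const_mul, integral_const_mul, integral_integral_swap hint]

theorem Ex_sq (l : ℤ) {f : ℝ → ℝ} (hf : Nice1 f) :
    ∫ y, (Ex l f y) ^ 2 = ∫ y, f y * Ex l f y := by
  have h := Ex_adj l hf (Nice1.Ex l hf)
  simp_rw [Ex_Ex] at h
  rw [← h]
  congr 1
  ext y
  ring

theorem Ex_mul_Ex_succ (l : ℤ) {f g : ℝ → ℝ} (hf : Nice1 f) (hg : Nice1 g) :
    ∫ y, Ex l f y * Ex (l + 1) g y = ∫ y, Ex (l + 1) f y * Ex (l + 1) g y := by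
  have h1 := Ex_adj l hf (Nice1.Ex (l + 1) hg)
  simp_rw [Ex_Ex_succ] at h1
  have h2 := Ex_adj (l + 1) hf (Nice1.Ex (l + 1) hg)
  simp_rw [Ex_Ex] at h2
  rw [h1, h2]

theorem Ex_mul_Ex (l : ℤ) {f g : ℝ → ℝ} (hf : Nice1 f) (hg : Nice1 g) :
    ∫ y, Ex l f y * Ex l g y = ∫ y, Ex l f y * g y := by
  have h2 := Ex_adj l (Nice1.Ex l hf) hg
  simp_rw [Ex_Ex] at h2
  rw [← h2]

theorem Nice1.Dl (l : ℤ) {f : ℝ → ℝ} (hf : Nice1 f) : Nice1 (Dl l f) :=
  Nice1.sub (Nice1.Ex l hf) (Nice1.Ex (l + 1) hf)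

theorem Dl_mul_Dl (l : ℤ) {f g : ℝ → ℝ} (hf : Nice1 f) (hg : Nice1 g) :
    ∫ y, Dl l f y * Dl l g y =
      (∫ y, Ex l f y * Ex l g y) - ∫ y, Ex (l + 1) f y * Ex (l + 1) g y := by
  have i1 := Nice1.integrable (Nice1.mul (Nice1.Ex l hf) (Nice1.Ex l hg))
  have i2 := Nice1.integrable (Nice1.mul (Nice1.Ex l hf) (Nice1.Ex (l + 1) hg))
  have i3 := Nice1.integrable (Nice1.mul (Nice1.Ex l hg) (Nice1.Ex (l + 1) hf))
  have i4 := Nice1.integrable (Nice1.mul (Nice1.Ex (l + 1) hf) (Nice1.Ex (l + 1) hg))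
  have e : ∀ y, Dl l f y * Dl l g y = (Ex l f y * Ex l g y - Ex l f y * Ex (l + 1) g y) -
      (Ex l g y * Ex (l + 1) f y - Ex (l + 1) f y * Ex (l + 1) g y) := fun y => by
    unfold Dl
    ring
  simp_rw [e]
  have e12 := integral_sub (i1.sub i2) (i3.sub i4)
  simp only [Pi.sub_apply] at e12
  rw [e12, integral_sub i1 i2, integral_sub i3 i4,
    Ex_mul_Ex_succ l hf hg, Ex_mul_Ex_succ l hg hf]
  have : ∫ y, Ex (l + 1) g y * Ex (l + 1) f y = ∫ y, Ex (l + 1) f y * Ex (l + 1) g y := by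
    congr 1
    ext y
    ring
  rw [this]
  ring

theorem Dl_mul (l : ℤ) {f g : ℝ → ℝ} (hf : Nice1 f) (hg : Nice1 g) :
    ∫ y, Dl l f y * g y =
      (∫ y, Ex l f y * Ex l g y) - ∫ y, Ex (l + 1) f y * Ex (l + 1) g y := by
  have i1 := Nice1.integrable (Nice1.mul (Nice1.Ex l hf) hg)
  have i2 := Nice1.integrable (Nice1.mul (Nice1.Ex (l + 1) hf) hg)
  rw [Ex_mul_Ex l hf hg, Ex_mul_Ex (l + 1) hf hg, ← integral_sub i1 i2]
  congr 1
  ext y
  unfold Dl
  ring

/-! ### limits -/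

theorem tendsto_top {f : ℝ → ℝ} (hf : Nice1 f) :
    Tendsto (fun n : ℕ => ∫ y, (Ex (n : ℤ) f y) ^ 2) atTop (𝓝 0) := by
  have hi := Nice1.integrable hf
  set A : ℝ := ∫ y, |f y| with hA
  have hA0 : 0 ≤ A := integral_nonneg fun y => abs_nonneg _
  have key : ∀ n : ℕ, ∫ y, (Ex (n : ℤ) f y) ^ 2 ≤ A * A * ((1 / 2 : ℝ) ^ n) := by
    intro n
    rw [Ex_sq _ hf]
    have h1 : ∀ y, |Ex (n : ℤ) f y| ≤ (1 / 2 : ℝ) ^ n * A := by
      intro y
      unfold Ex
      have h0 : (0 : ℝ) < 2 ^ (n : ℤ) := by positivity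
      rw [abs_mul, abs_of_pos (inv_pos.2 h0)]
      have e : ((2 : ℝ) ^ (n : ℤ))⁻¹ = (1 / 2 : ℝ) ^ n := by
        rw [zpow_natCast, one_div, inv_pow]
      rw [e]
      refine mul_le_mul_of_nonneg_left ?_ (by positivity)
      refine (abs_integral_le_integral_abs).trans ?_
      exact setIntegral_le_integral hi.abs (ae_of_all _ fun y => abs_nonneg _)
    calc ∫ y, f y * Ex (n : ℤ) f y ≤ ∫ y, |f y| * ((1 / 2 : ℝ) ^ n * A) := by
          refine integral_mono (Nice1.integrable (Nice1.mul hf (Nice1.Ex _ hf)))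
            (hi.abs.mul_const _) fun y => ?_
          refine (le_abs_self _).trans ?_
          rw [abs_mul]
          exact mul_le_mul_of_nonneg_left (h1 y) (abs_nonneg _)
      _ = A * A * ((1 / 2 : ℝ) ^ n) := by
          rw [integral_mul_const]
          ring
  refine squeeze_zero (fun n => integral_nonneg fun y => sq_nonneg _) key ?_
  have := tendsto_pow_atTop_nhds_zero_of_lt_one (r := (1 / 2 : ℝ)) (by norm_num) (by norm_num)
  simpa using this.const_mul (A * A)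

theorem ae_lim {f : ℝ → ℝ} (hf : Nice1 f) :
    ∀ᵐ y : ℝ, Tendsto (fun n : ℕ => Ex (-(n : ℤ)) f y) atTop (𝓝 (f y)) := by
  have hloc : LocallyIntegrable f (volume : Measure ℝ) := (Nice1.integrable hf).locallyIntegrable
  filter_upwards [IsUnifLocDoublingMeasure.ae_tendsto_average (μ := (volume : Measure ℝ))
    hloc 1] with y hy
  have h := hy (ι := ℕ) (l := atTop)
    (fun n => (⌊y / (2 : ℝ) ^ (-(n : ℤ))⌋ + 1 / 2) * (2 : ℝ) ^ (-(n : ℤ)))
    (fun n => (2 : ℝ) ^ (-(n : ℤ)) / 2) ?_ ?_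
  · refine h.congr fun n => ?_
    have h0 : (0 : ℝ) < 2 ^ (-(n : ℤ)) := by positivity
    rw [Real.closedBall_eq_Icc]
    have e1 : (⌊y / (2 : ℝ) ^ (-(n : ℤ))⌋ + 1 / 2) * (2 : ℝ) ^ (-(n : ℤ)) -
        (2 : ℝ) ^ (-(n : ℤ)) / 2 = ⌊y / (2 : ℝ) ^ (-(n : ℤ))⌋ * (2 : ℝ) ^ (-(n : ℤ)) := by ring
    have e2 : (⌊y / (2 : ℝ) ^ (-(n : ℤ))⌋ + 1 / 2) * (2 : ℝ) ^ (-(n : ℤ)) +
        (2 : ℝ) ^ (-(n : ℤ)) / 2 = (⌊y / (2 : ℝ) ^ (-(n : ℤ))⌋ + 1) * (2 : ℝ) ^ (-(n : ℤ)) := by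
      ring
    rw [e1, e2, setAverage_eq, integral_Icc_eq_integral_Ico,
      Real.volume_real_Icc_of_le (by nlinarith)]
    unfold Ex
    rw [smul_eq_mul]
    congr 2
    ring
  · refine tendsto_nhdsWithin_iff.2 ⟨?_, Eventually.of_forall fun n => ?_⟩
    · have := tendsto_pow_atTop_nhds_zero_of_lt_one (r := (1 / 2 : ℝ)) (by norm_num) (by norm_num)
      have h2 := this.div_const 2
      simp only [zero_div] at h2
      refine h2.congr fun n => ?_
      rw [zpow_neg, zpow_natCast, one_div, inv_pow]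
    · show (0 : ℝ) < 2 ^ (-(n : ℤ)) / 2
      positivity
  · refine Eventually.of_forall fun n => ?_
    have h0 : (0 : ℝ) < 2 ^ (-(n : ℤ)) := by positivity
    rw [Real.closedBall_eq_Icc, Set.mem_Icc]
    have h1 := Int.floor_le (y / (2 : ℝ) ^ (-(n : ℤ)))
    have h2 := Int.lt_floor_add_one (y / (2 : ℝ) ^ (-(n : ℤ)))
    rw [le_div_iff₀ h0] at h1
    rw [div_lt_iff₀ h0] at h2
    constructor <;> nlinarith

theorem tendsto_bot {f : ℝ → ℝ} (hf : Nice1 f) :
    Tendsto (fun n : ℕ => ∫ y, (Ex (-(n : ℤ)) f y) ^ 2) atTop (𝓝 (∫ y, (f y) ^ 2)) := by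
  simp_rw [Ex_sq _ hf]
  have hM := hf.2.1
  obtain ⟨M, hM⟩ := hM
  refine tendsto_integral_of_dominated_convergence (fun y => |f y| * M) ?_ ?_ ?_ ?_
  · exact fun n => (Nice1.mul hf (Nice1.Ex _ hf)).1.aestronglyMeasurable
  · exact (Nice1.integrable hf).abs.mul_const _
  · intro n
    refine ae_of_all _ fun y => ?_
    rw [Real.norm_eq_abs, abs_mul]
    exact mul_le_mul_of_nonneg_left (Ex_abs_le hM y) (abs_nonneg _)
  · filter_upwards [ae_lim hf] with y hy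
    rw [pow_two]
    exact hy.const_mul (f y)

/-! ### the leaf -/

theorem Dl_sq (l : ℤ) {f : ℝ → ℝ} (hf : Nice1 f) :
    ∫ y, (Dl l f y) ^ 2 = (∫ y, (Ex l f y) ^ 2) - ∫ y, (Ex (l + 1) f y) ^ 2 := by
  simp_rw [pow_two]
  exact Dl_mul_Dl l hf hf

theorem hasSum_sq {f : ℝ → ℝ} (hf : Nice1 f) :
    HasSum (fun l : ℤ => ∫ y, (Dl l f y) ^ 2) (∫ y, (f y) ^ 2) := by
  have h0 : ∀ l : ℤ, 0 ≤ ∫ y, (Dl l f y) ^ 2 := fun l => integral_nonneg fun y => sq_nonneg _
  set u : ℤ → ℝ := fun l => ∫ y, (Ex l f y) ^ 2 with hu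
  have hD : ∀ l : ℤ, ∫ y, (Dl l f y) ^ 2 = u l - u (l + 1) := fun l => Dl_sq l hf
  have hp : HasSum (fun n : ℕ => ∫ y, (Dl (n : ℤ) f y) ^ 2) (u 0) := by
    rw [hasSum_iff_tendsto_nat_of_nonneg fun n => h0 _]
    have e : ∀ n : ℕ, ∑ i ∈ Finset.range n, ∫ y, (Dl (i : ℤ) f y) ^ 2 = u 0 - u n := by
      intro n
      induction n with
      | zero => simp
      | succ n ih =>
        rw [Finset.sum_range_succ, ih, hD]
        push_cast
        ring
    simp_rw [e]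
    simpa using (tendsto_const_nhds (x := u 0)).sub (tendsto_top hf)
  have hn : HasSum (fun n : ℕ => ∫ y, (Dl (-(n + 1 : ℤ)) f y) ^ 2) ((∫ y, (f y) ^ 2) - u 0) := by
    rw [hasSum_iff_tendsto_nat_of_nonneg fun n => h0 _]
    have e : ∀ n : ℕ, ∑ i ∈ Finset.range n, ∫ y, (Dl (-(i + 1 : ℤ)) f y) ^ 2 =
        u (-(n : ℤ)) - u 0 := by
      intro n
      induction n with
      | zero => simp
      | succ n ih =>
        rw [Finset.sum_range_succ, ih, hD]
        have : (-((n : ℤ) + 1) + 1) = -(n : ℤ) := by ring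
        rw [this]
        push_cast
        ring
    simp_rw [e]
    exact (tendsto_bot hf).sub tendsto_const_nhds
  have := HasSum.of_nat_of_neg_add_one (f := fun l : ℤ => ∫ y, (Dl l f y) ^ 2) hp hn
  simpa using this

theorem hasSum_mul {f g : ℝ → ℝ} (hf : Nice1 f) (hg : Nice1 g) :
    HasSum (fun l : ℤ => ∫ y, Dl l f y * g y) (∫ y, f y * g y) := by
  have h1 := hasSum_sq (Nice1.add hf hg)
  have h2 := hasSum_sq (Nice1.sub hf hg)
  have hlin : ∀ (l : ℤ) (s : ℝ) (y : ℝ), Ex l (fun x => f x + s * g x) y =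
      Ex l f y + s * Ex l g y := by
    intro l s y
    unfold Ex
    rw [integral_add (Nice1.integrable hf).integrableOn
      ((Nice1.integrable hg).integrableOn.const_mul s), integral_const_mul]
    ring
  have hp : ∀ l y, Dl l (fun x => f x + g x) y = Dl l f y + Dl l g y := by
    intro l y
    have a := hlin l 1 y
    have b := hlin (l + 1) 1 y
    simp only [one_mul] at a b
    unfold Dl
    rw [a, b]
    ring
  have hm : ∀ l y, Dl l (fun x => f x - g x) y = Dl l f y - Dl l g y := by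
    intro l y
    have a := hlin l (-1) y
    have b := hlin (l + 1) (-1) y
    simp only [neg_mul, one_mul, ← sub_eq_add_neg] at a b
    unfold Dl
    rw [a, b]
    ring
  have h3 := (h1.sub h2).div_const 4
  have iDf := fun l => Nice1.Dl l hf
  have iDg := fun l => Nice1.Dl l hg
  have quad : ∀ {p q : ℝ → ℝ}, Nice1 p → Nice1 q →
      ((∫ y, (p y + q y) ^ 2) - ∫ y, (p y - q y) ^ 2) / 4 = ∫ y, p y * q y := by
    intro p q hp hq
    rw [← integral_sub (Nice1.integrable (Nice1.sq (Nice1.add hp hq)))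
      (Nice1.integrable (Nice1.sq (Nice1.sub hp hq)))]
    rw [← integral_div]
    congr 1
    ext y
    ring
  rw [quad hf hg] at h3
  refine h3.congr_fun ?_
  intro l
  simp_rw [hp, hm]
  rw [quad (iDf l) (iDg l), Dl_mul_Dl l hf hg, Dl_mul l hf hg]

theorem mart : MART := by
  refine ⟨fun l f hf => Nice1.Ex l hf, fun l f hf => ?_, fun l f hf => Dl_sq l hf,
    fun f hf => hasSum_sq hf, fun f g hf hg => hasSum_mul hf hg⟩
  have h : 0 ≤ ∫ y, (f y - Ex l f y) ^ 2 := integral_nonneg fun y => sq_nonneg _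
  have e : ∫ y, (f y - Ex l f y) ^ 2 = (∫ y, (f y) ^ 2) - ∫ y, (Ex l f y) ^ 2 := by
    have i1 := Nice1.integrable (Nice1.sq hf)
    have i2 := Nice1.integrable (Nice1.mul hf (Nice1.Ex l hf))
    have i3 := Nice1.integrable (Nice1.sq (Nice1.Ex l hf))
    have e1 : ∀ y, (f y - Ex l f y) ^ 2 = (f y) ^ 2 - 2 * (f y * Ex l f y) + (Ex l f y) ^ 2 :=
      fun y => by ring
    simp_rw [e1]
    have e2 := integral_add (i1.sub (i2.const_mul 2)) i3
    simp only [Pi.sub_apply] at e2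
    rw [e2, integral_sub i1 (i2.const_mul 2),
      integral_const_mul, ← Ex_sq l hf]
    ring
  linarith

end Crest.Agent.R087.MARTx612
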