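import Crest.Agent.R087.E2leaf_542

/-!
# Row 87, leaf `SQof : HLlin → EDGE → FLAT → MAIN → SQ` (helper199)
-/

set_option autoImplicit false

noncomputable section

open MeasureTheory

namespace Crest.Agent.R087.SQofx199

open Crest.Agent.R087.Sh0x283 Crest.Agent.R087.E2x542

/-! ### the tent and its primitive -/

theorem tent_nonneg (u : ℝ) : 0 ≤ tent u := le_max_right _ _

theorem tent_le_one (u : ℝ) : tent u ≤ 1 := by
  unfold tent
  exact max_le (by have := abs_nonneg u; linarith) (by norm_num)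

theorem tent_cont : Continuous tent := by
  unfold tent
  fun_prop

theorem tent_zero {u : ℝ} (h : 1 ≤ |u|) : tent u = 0 := by
  unfold tent
  exact max_eq_right (by linarith)

theorem tent_lip (u v : ℝ) : |tent u - tent v| ≤ |u - v| := by
  unfold tent
  have h := abs_max_sub_max_le_abs (1 - |u|) (1 - |v|) 0
  refine h.trans ?_
  have h2 : 1 - |u| - (1 - |v|) = |v| - |u| := by ring
  rw [h2, abs_sub_comm u v]
  exact abs_abs_sub_abs_le_abs_sub v u

theorem tent_ii (p q : ℝ) : IntervalIntegrable tent volume p q :=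
  tent_cont.intervalIntegrable p q

/-- primitive of the tent -/
def Ph (v : ℝ) : ℝ := ∫ x in (0 : ℝ)..v, tent x

theorem Ph_sub (p q : ℝ) : ∫ x in p..q, tent x = Ph q - Ph p := by
  unfold Ph
  rw [intervalIntegral.integral_interval_sub_left (tent_ii _ _) (tent_ii _ _)]

theorem Ph_cont : Continuous Ph := by
  unfold Ph
  exact intervalIntegral.continuous_primitive (fun a b => tent_ii a b) 0

theorem Ph_right {p q : ℝ} (hp : 1 ≤ p) (hq : 1 ≤ q) : Ph q - Ph p = 0 := by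
  rw [← Ph_sub]
  apply intervalIntegral.integral_zero_ae
  refine Filter.Eventually.of_forall (fun x hx => ?_)
  apply tent_zero
  rw [Set.uIoc, Set.mem_Ioc] at hx
  have : 1 < x := lt_of_le_of_lt (le_min hp hq) hx.1
  rw [abs_of_pos (by linarith)]
  exact this.le

theorem Ph_left {p q : ℝ} (hp : p ≤ -1) (hq : q ≤ -1) : Ph q - Ph p = 0 := by
  rw [← Ph_sub]
  apply intervalIntegral.integral_zero_ae
  refine Filter.Eventually.of_forall (fun x hx => ?_)
  apply tent_zero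
  rw [Set.uIoc, Set.mem_Ioc] at hx
  have : x ≤ -1 := hx.2.trans (max_le hp hq)
  rw [abs_of_nonpos (by linarith)]
  linarith

theorem Ph_small {v : ℝ} (hv : |v| ≤ 1) : |Ph v| ≤ 1 := by
  unfold Ph
  have h := intervalIntegral.norm_integral_le_of_norm_le_const (a := 0) (b := v) (f := tent) (C := 1)
    (fun x _ => by rw [Real.norm_eq_abs, abs_of_nonneg (tent_nonneg x)]; exact tent_le_one x)
  rw [Real.norm_eq_abs] at h
  refine h.trans ?_
  simpa using hv

theorem Ph_abs (v : ℝ) : |Ph v| ≤ 1 := by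
  rcases le_total |v| 1 with h | h
  · exact Ph_small h
  · rcases le_total 0 v with h0 | h0
    · rw [abs_of_nonneg h0] at h
      have h1 := Ph_right (le_refl (1 : ℝ)) h
      have h2 := Ph_small (v := 1) (by simp)
      have : Ph v = Ph 1 := by linarith
      rwa [this]
    · rw [abs_of_nonpos h0] at h
      have h1 := Ph_left (le_refl (-1 : ℝ)) (q := v) (by linarith)
      have h2 := Ph_small (v := -1) (by simp)
      have : Ph v = Ph (-1) := by linarith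
      rwa [this]

/-- edges: the primitive does not move far from the origin -/
theorem Ph_edge {p p' r : ℝ} (h : |p' - p| ≤ r) :
    |Ph p' - Ph p| ≤ 2 * (if |p| ≤ 1 + r then 1 else 0) := by
  split_ifs with hp
  · have h1 := Ph_abs p
    have h2 := Ph_abs p'
    have := abs_sub (Ph p') (Ph p)
    linarith
  · push Not at hp
    have h3 := abs_le.mp h
    rcases le_total 0 p with h0 | h0
    · rw [abs_of_nonneg h0] at hp
      have hr : 0 ≤ r := (abs_nonneg _).trans h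
      rw [Ph_right (p := p) (q := p') (by linarith) (by linarith [h3.1])]
      simp
    · rw [abs_of_nonpos h0] at hp
      have hr : 0 ≤ r := (abs_nonneg _).trans h
      rw [Ph_left (p := p) (q := p') (by linarith) (by linarith [h3.2])]
      simp

/-! ### the kernel `kap` -/

theorem kap_eq {θ d μ : ℝ} (hμ : μ ≠ 0) :
    kap θ d μ = μ⁻¹ * (2 * Ph (d + (1 / 2 - θ) * μ) - Ph (d + (-θ) * μ) - Ph (d + (1 - θ) * μ)) := by
  unfold kap
  have h : ∀ p q : ℝ, ∫ x in p..q, tent (d + x * μ) = μ⁻¹ * (Ph (d + q * μ) - Ph (d + p * μ)) := by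
    intro p q
    have h1 : ∀ x : ℝ, tent (d + x * μ) = tent (d + μ * x) := fun x => by rw [mul_comm]
    simp_rw [h1]
    rw [intervalIntegral.integral_comp_add_mul tent hμ d, Ph_sub, smul_eq_mul, mul_comm q μ, mul_comm p μ]
  rw [h, h]
  ring

theorem kap_ii (d μ p q : ℝ) : IntervalIntegrable (fun x => tent (d + x * μ)) volume p q := by
  apply Continuous.intervalIntegrable
  have := tent_cont
  fun_prop

theorem kap_zero {θ d μ : ℝ} (h0 : 0 ≤ θ) (h1 : θ ≤ 1) (h : 1 + |μ| ≤ |d|) : kap θ d μ = 0 := by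
  have key : ∀ x : ℝ, |x| ≤ 1 → tent (d + x * μ) = 0 := by
    intro x hx
    apply tent_zero
    have h2 : |x * μ| ≤ |μ| := by
      rw [abs_mul]
      nlinarith [abs_nonneg μ, abs_nonneg x]
    have h3 : |d| ≤ |d + x * μ| + |x * μ| := by
      have := abs_sub (d + x * μ) (x * μ)
      simpa using this
    linarith
  unfold kap
  rw [intervalIntegral.integral_zero_ae, intervalIntegral.integral_zero_ae, sub_zero]
  · refine Filter.Eventually.of_forall (fun x hx => key x ?_)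
    rw [Set.uIoc_of_le (by linarith), Set.mem_Ioc] at hx
    rw [abs_le]; constructor <;> linarith [hx.1, hx.2]
  · refine Filter.Eventually.of_forall (fun x hx => key x ?_)
    rw [Set.uIoc_of_le (by linarith), Set.mem_Ioc] at hx
    rw [abs_le]; constructor <;> linarith [hx.1, hx.2]

theorem kap_le {θ d μ : ℝ} (h0 : 0 ≤ θ) (h1 : θ ≤ 1) : |kap θ d μ| ≤ |μ| := by
  have key : ∀ p q : ℝ, p ≤ q → -1 ≤ p → q ≤ 1 → q - p = 1 / 2 →
      |(∫ x in p..q, tent (d + x * μ)) - tent d / 2| ≤ |μ| / 2 := by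
    intro p q hpq hp hq hl
    have h2 : tent d / 2 = ∫ _x in p..q, tent d := by
      rw [intervalIntegral.integral_const, hl, smul_eq_mul]; ring
    rw [h2, ← intervalIntegral.integral_sub (kap_ii d μ p q) (by simp)]
    have h3 := intervalIntegral.norm_integral_le_of_norm_le_const (a := p) (b := q)
      (f := fun x => tent (d + x * μ) - tent d) (C := |μ|) (fun x hx => by
        rw [Set.uIoc_of_le hpq, Set.mem_Ioc] at hx
        rw [Real.norm_eq_abs]
        refine (tent_lip _ _).trans ?_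
        have h4 : d + x * μ - d = x * μ := by ring
        rw [h4, abs_mul]
        have h5 : |x| ≤ 1 := by rw [abs_le]; constructor <;> linarith [hx.1, hx.2]
        nlinarith [abs_nonneg μ, abs_nonneg x])
    rw [Real.norm_eq_abs, hl] at h3
    refine h3.trans ?_
    rw [abs_of_pos (by norm_num : (0 : ℝ) < 1 / 2)]
    linarith
  unfold kap
  have ha := key (-θ) (1 / 2 - θ) (by linarith) (by linarith) (by linarith) (by ring)
  have hb := key (1 / 2 - θ) (1 - θ) (by linarith) (by linarith) (by linarith) (by ring)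
  rw [abs_le] at ha hb ⊢
  constructor <;> linarith [ha.1, ha.2, hb.1, hb.2]

/-- large slopes: the kernel is stable under perturbations, up to flat and edge terms -/
theorem kap_diff {θ d d' μ μ' δ : ℝ} (h0 : 0 ≤ θ) (h1 : θ ≤ 1) (hμ : 4 ≤ |μ|) (hδ0 : 0 ≤ δ)
    (hδ : δ ≤ 1 / 16) (hd : |d' - d| ≤ 1 / 2) (hμ' : |μ' - μ| ≤ 1 + δ * |d|) :
    |kap θ d' μ' - kap θ d μ| ≤
      8 * ((1 / |μ|) ^ 2 * (if |d| ≤ 2 * |μ| then 1 else 0)) +
      16 * (δ / |μ| * (if |d| ≤ 2 * |μ| then 1 else 0)) +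
      (1 / |μ|) * (4 * (if |d + (1 / 2 - θ) * μ| ≤ 5 / 2 + 2 * δ * |μ| then 1 else 0) +
        2 * (if |d + (-θ) * μ| ≤ 5 / 2 + 2 * δ * |μ| then 1 else 0) +
        2 * (if |d + (1 - θ) * μ| ≤ 5 / 2 + 2 * δ * |μ| then 1 else 0)) := by
  have hμpos : 0 < |μ| := by linarith
  have hμ0 : μ ≠ 0 := abs_pos.mp hμpos
  have hite : ∀ P : Prop, ∀ [Decidable P], (0 : ℝ) ≤ (if P then 1 else 0) := by
    intro P _; split_ifs <;> norm_num
  by_cases hdl : |d| ≤ 2 * |μ|
  · -- the generic case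
    have hμd : |μ' - μ| ≤ 1 + 2 * δ * |μ| := by nlinarith
    have hμd2 : |μ' - μ| ≤ 3 / 8 * |μ| := by nlinarith
    have hμ'abs : 5 / 8 * |μ| ≤ |μ'| := by
      have := abs_sub_abs_le_abs_sub μ μ'
      rw [abs_sub_comm μ μ'] at this
      linarith
    have hμ'pos : 0 < |μ'| := by nlinarith
    have hμ'0 : μ' ≠ 0 := abs_pos.mp hμ'pos
    have hedge : ∀ ξ : ℝ, |ξ| ≤ 1 → |Ph (d' + ξ * μ') - Ph (d + ξ * μ)| ≤
        2 * (if |d + ξ * μ| ≤ 5 / 2 + 2 * δ * |μ| then 1 else 0) := by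
      intro ξ hξ
      have h2 : |d' + ξ * μ' - (d + ξ * μ)| ≤ 3 / 2 + 2 * δ * |μ| := by
        have h3 : d' + ξ * μ' - (d + ξ * μ) = (d' - d) + ξ * (μ' - μ) := by ring
        rw [h3]
        refine (abs_add_le _ _).trans ?_
        rw [abs_mul]
        nlinarith [abs_nonneg (μ' - μ), abs_nonneg ξ]
      have h4 := Ph_edge h2
      have h5 : 1 + (3 / 2 + 2 * δ * |μ|) = 5 / 2 + 2 * δ * |μ| := by ring
      rwa [h5] at h4
    have e1 := hedge (1 / 2 - θ) (by rw [abs_le]; constructor <;> linarith)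
    have e2 := hedge (-θ) (by rw [abs_le]; constructor <;> linarith)
    have e3 := hedge (1 - θ) (by rw [abs_le]; constructor <;> linarith)
    rw [kap_eq hμ'0, kap_eq hμ0, if_pos hdl]
    set P1' := Ph (d' + (1 / 2 - θ) * μ')
    set P2' := Ph (d' + (-θ) * μ')
    set P3' := Ph (d' + (1 - θ) * μ')
    set P1 := Ph (d + (1 / 2 - θ) * μ)
    set P2 := Ph (d + (-θ) * μ)
    set P3 := Ph (d + (1 - θ) * μ)
    set I1 : ℝ := (if |d + (1 / 2 - θ) * μ| ≤ 5 / 2 + 2 * δ * |μ| then 1 else 0)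
    set I2 : ℝ := (if |d + (-θ) * μ| ≤ 5 / 2 + 2 * δ * |μ| then 1 else 0)
    set I3 : ℝ := (if |d + (1 - θ) * μ| ≤ 5 / 2 + 2 * δ * |μ| then 1 else 0)
    have hsplit : μ'⁻¹ * (2 * P1' - P2' - P3') - μ⁻¹ * (2 * P1 - P2 - P3) =
        (μ'⁻¹ - μ⁻¹) * (2 * P1' - P2' - P3') + μ⁻¹ * (2 * (P1' - P1) - (P2' - P2) - (P3' - P3)) := by
      ring
    have hP : |2 * P1' - P2' - P3'| ≤ 4 := by
      have a1 := abs_le.mp (Ph_abs (d' + (1 / 2 - θ) * μ'))
      have a2 := abs_le.mp (Ph_abs (d' + (-θ) * μ'))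
      have a3 := abs_le.mp (Ph_abs (d' + (1 - θ) * μ'))
      rw [abs_le]
      constructor <;> linarith [a1.1, a1.2, a2.1, a2.2, a3.1, a3.2]
    have hinv : |μ'⁻¹ - μ⁻¹| ≤ 2 * (1 / |μ|) ^ 2 + 4 * (δ / |μ|) := by
      have h2 : μ'⁻¹ - μ⁻¹ = (μ - μ') / (μ' * μ) := by field_simp
      rw [h2, abs_div, abs_mul, abs_sub_comm μ μ']
      rw [div_le_iff₀ (by positivity)]
      have h3 : (2 * (1 / |μ|) ^ 2 + 4 * (δ / |μ|)) * (|μ'| * |μ|) =
          (2 + 4 * δ * |μ|) * (|μ'| / |μ|) := by field_simp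
      rw [h3]
      have h4 : 5 / 8 ≤ |μ'| / |μ| := by rw [le_div_iff₀ hμpos]; exact hμ'abs
      have h5 : 0 ≤ 2 + 4 * δ * |μ| := by positivity
      nlinarith
    have hedges : |2 * (P1' - P1) - (P2' - P2) - (P3' - P3)| ≤ 4 * I1 + 2 * I2 + 2 * I3 := by
      have a1 := abs_le.mp e1
      have a2 := abs_le.mp e2
      have a3 := abs_le.mp e3
      rw [abs_le]
      constructor <;> linarith [a1.1, a1.2, a2.1, a2.2, a3.1, a3.2]
    rw [hsplit]
    refine (abs_add_le _ _).trans ?_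
    rw [abs_mul, abs_mul, abs_inv]
    have b1 : |μ'⁻¹ - μ⁻¹| * |2 * P1' - P2' - P3'| ≤ (2 * (1 / |μ|) ^ 2 + 4 * (δ / |μ|)) * 4 := by
      apply mul_le_mul hinv hP (abs_nonneg _)
      positivity
    have b2 : |μ|⁻¹ * |2 * (P1' - P1) - (P2' - P2) - (P3' - P3)| ≤
        (1 / |μ|) * (4 * I1 + 2 * I2 + 2 * I3) := by
      rw [one_div]
      apply mul_le_mul_of_nonneg_left hedges
      positivity
    linarith
  · -- both vanish
    push Not at hdl
    have z1 : kap θ d μ = 0 := kap_zero h0 h1 (by linarith)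
    have z2 : kap θ d' μ' = 0 := by
      apply kap_zero h0 h1
      have h2 : |d| - 1 / 2 ≤ |d'| := by
        have := abs_sub_abs_le_abs_sub d d'
        rw [abs_sub_comm d d'] at this
        linarith
      have h3 : |μ'| ≤ |μ| + (1 + δ * |d|) := by
        have := abs_sub_abs_le_abs_sub μ' μ
        linarith
      have h4 : δ * |d| ≤ 1 / 16 * |d| := by nlinarith [abs_nonneg d]
      linarith
    rw [z1, z2, sub_zero, abs_zero]
    have i1 := hite (|d| ≤ 2 * |μ|)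
    have i2 := hite (|d + (1 / 2 - θ) * μ| ≤ 5 / 2 + 2 * δ * |μ|)
    have i3 := hite (|d + (-θ) * μ| ≤ 5 / 2 + 2 * δ * |μ|)
    have i4 := hite (|d + (1 - θ) * μ| ≤ 5 / 2 + 2 * δ * |μ|)
    positivity

/-! ### `Dk` in terms of `kap` -/

theorem int_Ico {f : ℝ → ℝ} {p q : ℝ} (h : p ≤ q) : ∫ s in Set.Ico p q, f s = ∫ s in p..q, f s := by
  rw [intervalIntegral.integral_of_le h, integral_Ico_eq_integral_Ioo, integral_Ioc_eq_integral_Ioo]

theorem Dk_eq {n : ℕ} (t : ℝ) (k : ℕ) (b m a : Fin n → ℝ) (kk : Fin n → ℕ) (b' m' : ℝ) :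
    Dk t k b m a kk b' m' =
      ∑ i with kk i ≤ k, a i * kap (Int.fract (t * 2 ^ k)) (b' - b i) ((m' - m i) / 2 ^ k) := by
  have h2k : (0 : ℝ) < 2 ^ k := by positivity
  have hsum : ∀ p q : ℝ, p ≤ q →
      (∫ s in Set.Ico p q, ∑ i with kk i ≤ k, a i * tent (b' - b i + (s - t) * (m' - m i))) =
      ∑ i with kk i ≤ k, a i * ∫ s in p..q, tent (b' - b i + (s - t) * (m' - m i)) := by
    intro p q hpq
    rw [int_Ico hpq, intervalIntegral.integral_finsetSum]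
    · refine Finset.sum_congr rfl (fun i _ => ?_)
      rw [intervalIntegral.integral_const_mul]
    · intro i _
      apply Continuous.intervalIntegrable
      have := tent_cont
      fun_prop
  have hsub : ∀ (i : Fin n) (p q : ℝ),
      (2 : ℝ) ^ k * ∫ s in (t + (1 / 2 ^ k) * p)..(t + (1 / 2 ^ k) * q),
        tent (b' - b i + (s - t) * (m' - m i)) =
      ∫ x in p..q, tent (b' - b i + x * ((m' - m i) / 2 ^ k)) := by
    intro i p q
    have h := intervalIntegral.integral_comp_add_mul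
      (fun s => tent (b' - b i + (s - t) * (m' - m i))) (a := p) (b := q)
      (c := (1 / 2 ^ k : ℝ)) (by positivity) t
    simp only [smul_eq_mul] at h
    have h3 : ((1 : ℝ) / 2 ^ k)⁻¹ = 2 ^ k := by rw [one_div, inv_inv]
    rw [h3] at h
    rw [← h]
    refine intervalIntegral.integral_congr (fun x _ => ?_)
    show tent (b' - b i + (t + 1 / 2 ^ k * x - t) * (m' - m i)) =
      tent (b' - b i + x * ((m' - m i) / 2 ^ k))
    congr 1
    field_simp
    ring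
  unfold Dk dyI
  have hj : (dyx k t : ℝ) = t * 2 ^ k - Int.fract (t * 2 ^ k) := by
    unfold dyx
    rw [Int.fract]; ring
  set θ := Int.fract (t * 2 ^ k) with hθ
  have hp : ((2 * dyx k t : ℤ) : ℝ) * (1 / 2 : ℝ) ^ (k + 1) = t + (1 / 2 ^ k) * (-θ) := by
    push_cast
    rw [hj, pow_succ, one_div_pow]
    field_simp
    ring
  have hq : (((2 * dyx k t : ℤ) : ℝ) + 1) * (1 / 2 : ℝ) ^ (k + 1) = t + (1 / 2 ^ k) * (1 / 2 - θ) := by
    push_cast
    rw [hj, pow_succ, one_div_pow]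
    field_simp
    ring
  have hq' : ((2 * dyx k t + 1 : ℤ) : ℝ) * (1 / 2 : ℝ) ^ (k + 1) = t + (1 / 2 ^ k) * (1 / 2 - θ) := by
    push_cast
    rw [hj, pow_succ, one_div_pow]
    field_simp
    ring
  have hr : (((2 * dyx k t + 1 : ℤ) : ℝ) + 1) * (1 / 2 : ℝ) ^ (k + 1) = t + (1 / 2 ^ k) * (1 - θ) := by
    push_cast
    rw [hj, pow_succ, one_div_pow]
    field_simp
    ring
  rw [hp, hq, hq', hr]
  have hpos : (0 : ℝ) < 1 / 2 ^ k := by positivity
  rw [hsum _ _ (by nlinarith), hsum _ _ (by nlinarith), ← Finset.sum_sub_distrib, Finset.mul_sum]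
  refine Finset.sum_congr rfl (fun i _ => ?_)
  unfold kap
  rw [← hsub i, ← hsub i]
  ring

/-! ### nice functions -/

theorem nice_int {f : ℝ → ℝ} (h : Nice1 f) : Integrable f := by
  obtain ⟨hm, ⟨M, hM⟩, ⟨R, hR⟩⟩ := h
  have h1 : Integrable ((Set.Icc (-|R|) |R|).indicator (fun _ => |M|)) := by
    apply (integrable_indicator_iff measurableSet_Icc).2
    exact integrableOn_const (by simp)
  refine h1.mono' hm.aestronglyMeasurable (Filter.Eventually.of_forall (fun y => ?_))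
  by_cases hy : y ∈ Set.Icc (-|R|) |R|
  · rw [Set.indicator_of_mem hy, Real.norm_eq_abs]
    exact (hM y).trans (le_abs_self M)
  · rw [Set.indicator_of_notMem hy, Real.norm_eq_abs, hR y ?_, abs_zero]
    rw [Set.mem_Icc, ← abs_le] at hy
    push Not at hy
    exact lt_of_le_of_lt (le_abs_self R) hy

theorem nice_mul {f g : ℝ → ℝ} (hf : Nice1 f) (hg : Nice1 g) : Nice1 (fun y => f y * g y) := by
  obtain ⟨hm, ⟨M, hM⟩, ⟨R, hR⟩⟩ := hf
  obtain ⟨hm', ⟨M', hM'⟩, _⟩ := hg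
  refine ⟨hm.mul hm', ⟨M * M', fun y => ?_⟩, ⟨R, fun y hy => by simp only [hR y hy, zero_mul]⟩⟩
  rw [abs_mul]
  exact mul_le_mul (hM y) (hM' y) (abs_nonneg _) ((abs_nonneg _).trans (hM y))

theorem nice_add {f g : ℝ → ℝ} (hf : Nice1 f) (hg : Nice1 g) : Nice1 (fun y => f y + g y) := by
  obtain ⟨hm, ⟨M, hM⟩, ⟨R, hR⟩⟩ := hf
  obtain ⟨hm', ⟨M', hM'⟩, ⟨R', hR'⟩⟩ := hg
  refine ⟨hm.add hm', ⟨M + M', fun y => ?_⟩, ⟨max R R', fun y hy => ?_⟩⟩
  · exact (abs_add_le _ _).trans (add_le_add (hM y) (hM' y))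
  · simp only [hR y (lt_of_le_of_lt (le_max_left _ _) hy),
      hR' y (lt_of_le_of_lt (le_max_right _ _) hy), add_zero]

theorem nice_zero : Nice1 (fun _ => 0) :=
  ⟨measurable_const, ⟨0, fun _ => by simp⟩, ⟨0, fun _ _ => rfl⟩⟩

theorem nice_cmul {f : ℝ → ℝ} (c : ℝ) (hf : Nice1 f) : Nice1 (fun y => c * f y) := by
  obtain ⟨hm, ⟨M, hM⟩, ⟨R, hR⟩⟩ := hf
  refine ⟨hm.const_mul c, ⟨|c| * M, fun y => ?_⟩, ⟨R, fun y hy => by simp only [hR y hy, mul_zero]⟩⟩
  rw [abs_mul]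
  exact mul_le_mul_of_nonneg_left (hM y) (abs_nonneg _)

theorem nice_sum {ι : Type*} (s : Finset ι) (f : ι → ℝ → ℝ) (h : ∀ i ∈ s, Nice1 (f i)) :
    Nice1 (fun y => ∑ i ∈ s, f i y) := by
  classical
  induction s using Finset.induction_on with
  | empty => simpa using nice_zero
  | insert i s hi ih =>
    have h1 : (fun y => ∑ j ∈ insert i s, f j y) = fun y => f i y + ∑ j ∈ s, f j y := by
      funext y
      rw [Finset.sum_insert hi]
    rw [h1]
    exact nice_add (h i (Finset.mem_insert_self i s))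
      (ih (fun j hj => h j (Finset.mem_insert_of_mem hj)))

theorem nice_sq {f : ℝ → ℝ} (hf : Nice1 f) : Nice1 (fun y => (f y) ^ 2) := by
  simpa only [pow_two] using nice_mul hf hf

/-- window of half length `h` around `c` -/
def wd (c h : ℝ) (y : ℝ) : ℝ := if |y - c| ≤ h then 1 else 0

theorem wd_nonneg (c h y : ℝ) : 0 ≤ wd c h y := by unfold wd; split_ifs <;> norm_num
theorem wd_le_one (c h y : ℝ) : wd c h y ≤ 1 := by unfold wd; split_ifs <;> norm_num

theorem nice_wd (c h : ℝ) : Nice1 (wd c h) := by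
  refine ⟨?_, ⟨1, fun y => ?_⟩, ⟨|c| + h, fun y hy => ?_⟩⟩
  · unfold wd
    refine Measurable.ite ?_ measurable_const measurable_const
    exact measurableSet_le (by fun_prop) measurable_const
  · rw [abs_of_nonneg (wd_nonneg c h y)]; exact wd_le_one c h y
  · unfold wd
    rw [if_neg]
    intro h2
    have := abs_sub_abs_le_abs_sub y c
    linarith

theorem int_wd (c : ℝ) {h : ℝ} (hh : 0 ≤ h) : ∫ y, wd c h y = 2 * h := by
  have h1 : wd c h = (Set.Icc (c - h) (c + h)).indicator (fun _ => (1 : ℝ)) := by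
    funext y
    unfold wd
    by_cases hy : |y - c| ≤ h
    · rw [if_pos hy, Set.indicator_of_mem]
      rw [abs_le] at hy
      exact ⟨by linarith [hy.1], by linarith [hy.2]⟩
    · rw [if_neg hy, Set.indicator_of_notMem]
      intro hm
      apply hy
      rw [abs_le]
      exact ⟨by linarith [hm.1], by linarith [hm.2]⟩
  rw [h1, integral_indicator measurableSet_Icc, setIntegral_const, smul_eq_mul, mul_one]
  rw [Measure.real, Real.volume_Icc, ENNReal.toReal_ofReal (by linarith)]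
  ring

theorem nice_kap {θ : ℝ} (h0 : 0 ≤ θ) (h1 : θ ≤ 1) (b μ : ℝ) : Nice1 (fun y => kap θ (y - b) μ) := by
  refine ⟨?_, ⟨|μ|, fun y => kap_le h0 h1⟩, ⟨|b| + (1 + |μ|), fun y hy => ?_⟩⟩
  · by_cases hμ : μ = 0
    · have : (fun y => kap θ (y - b) μ) = fun _ => 0 := by
        funext y
        have := kap_le (d := y - b) (μ := μ) h0 h1
        rw [hμ, abs_zero] at this
        rw [hμ]
        exact abs_nonpos_iff.mp this
      rw [this]; exact measurable_const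
    · have : (fun y => kap θ (y - b) μ) = fun y => μ⁻¹ * (2 * Ph (y - b + (1 / 2 - θ) * μ) -
          Ph (y - b + (-θ) * μ) - Ph (y - b + (1 - θ) * μ)) := by
        funext y
        exact kap_eq hμ
      rw [this]
      have hc := Ph_cont
      apply Continuous.measurable
      fun_prop
  · apply kap_zero h0 h1
    have := abs_sub_abs_le_abs_sub y b
    linarith

/-! ### the pair bound -/

theorem pair_int {A B νi νj ci cj bi bj : ℝ} (hA : 0 ≤ A) (hB : 0 ≤ B) (hB2 : B ≤ 2)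
    (hνj : 0 < νj) (hle : νj ≤ νi) (hci : |ci - bi| ≤ νi) (hcj : |cj - bj| ≤ νj) :
    ∫ y, (A / νi * wd ci (B * νi) y) * (A / νj * wd cj (B * νj) y) ≤
      2 * A ^ 2 * B * (νi⁻¹ * (if |bi - bj| ≤ 6 * νi then 1 else 0)) := by
  have hνi : 0 < νi := by linarith
  have hpt : ∀ y, (A / νi * wd ci (B * νi) y) * (A / νj * wd cj (B * νj) y) ≤
      (A / νi * (if |bi - bj| ≤ 6 * νi then 1 else 0)) * (A / νj) * wd cj (B * νj) y := by
    intro y
    by_cases h1 : |y - ci| ≤ B * νi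
    · by_cases h2 : |y - cj| ≤ B * νj
      · have h3 : |bi - bj| ≤ 6 * νi := by
          have e1 := abs_le.mp h1
          have e2 := abs_le.mp h2
          have e3 := abs_le.mp hci
          have e4 := abs_le.mp hcj
          have e5 : B * νi ≤ 2 * νi := by nlinarith
          have e6 : B * νj ≤ 2 * νi := by nlinarith
          rw [abs_le]
          constructor <;> linarith [e1.1, e1.2, e2.1, e2.2, e3.1, e3.2, e4.1, e4.2]
        rw [if_pos h3, mul_one]
        have h4 := wd_le_one ci (B * νi) y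
        have h5 : 0 ≤ A / νi := by positivity
        have h6 : 0 ≤ A / νj * wd cj (B * νj) y := mul_nonneg (by positivity) (wd_nonneg _ _ _)
        calc (A / νi * wd ci (B * νi) y) * (A / νj * wd cj (B * νj) y)
            ≤ (A / νi * 1) * (A / νj * wd cj (B * νj) y) :=
              mul_le_mul_of_nonneg_right (mul_le_mul_of_nonneg_left h4 h5) h6
          _ = A / νi * (A / νj) * wd cj (B * νj) y := by ring
      · have : wd cj (B * νj) y = 0 := by unfold wd; rw [if_neg h2]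
        rw [this]; simp
    · have : wd ci (B * νi) y = 0 := by unfold wd; rw [if_neg h1]
      rw [this, mul_zero, zero_mul]
      have h6 := wd_nonneg cj (B * νj) y
      split_ifs <;> positivity
  have hint1 : Integrable (fun y => (A / νi * wd ci (B * νi) y) * (A / νj * wd cj (B * νj) y)) :=
    nice_int (nice_mul (nice_cmul _ (nice_wd _ _)) (nice_cmul _ (nice_wd _ _)))
  have hint2 : Integrable (fun y =>
      (A / νi * (if |bi - bj| ≤ 6 * νi then 1 else 0)) * (A / νj) * wd cj (B * νj) y) :=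
    nice_int (nice_cmul _ (nice_wd _ _))
  refine (integral_mono hint1 hint2 hpt).trans ?_
  rw [integral_const_mul, int_wd _ (by positivity)]
  apply le_of_eq
  field_simp

/-- `L²` bound of a sum of windows of amplitude `A / ν i` and half length `B ν i` -/
theorem pair_bound {C : ℝ} (hHL : ∀ (n : ℕ) (b h a : Fin n → ℝ), (∀ i, 0 ≤ a i) → (∀ i, 1 ≤ h i) →
    ∑ i, a i * (h i)⁻¹ * ∑ i', a i' * (if |b i - b i'| ≤ h i then 1 else 0) ≤
      C * ∫ y, (∑ i, a i * win (y - b i)) ^ 2)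
    {n : ℕ} (b c ν a : Fin n → ℝ) (F : Finset (Fin n)) {A B : ℝ} (ha : ∀ i, 0 ≤ a i)
    (hA : 0 ≤ A) (hB : 0 ≤ B) (hB2 : B ≤ 2) (hν : ∀ i ∈ F, 1 ≤ ν i)
    (hc : ∀ i ∈ F, |c i - b i| ≤ ν i) :
    ∫ y, (∑ i ∈ F, a i * (A / ν i * wd (c i) (B * ν i) y)) ^ 2 ≤
      24 * A ^ 2 * B * (C * ∫ y, (∑ i, a i * win (y - b i)) ^ 2) := by
  classical
  have hexp : ∀ y, (∑ i ∈ F, a i * (A / ν i * wd (c i) (B * ν i) y)) ^ 2 =
      ∑ i ∈ F, ∑ j ∈ F, a i * a j *
        ((A / ν i * wd (c i) (B * ν i) y) * (A / ν j * wd (c j) (B * ν j) y)) := by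
    intro y
    rw [pow_two, Finset.sum_mul_sum]
    refine Finset.sum_congr rfl (fun i _ => Finset.sum_congr rfl (fun j _ => ?_))
    ring
  have hnice : ∀ i j, Nice1 (fun y => a i * a j *
        ((A / ν i * wd (c i) (B * ν i) y) * (A / ν j * wd (c j) (B * ν j) y))) := fun i j =>
    nice_cmul _ (nice_mul (nice_cmul _ (nice_wd _ _)) (nice_cmul _ (nice_wd _ _)))
  simp_rw [hexp]
  rw [integral_finsetSum _ (fun i _ => nice_int (nice_sum _ _ (fun j _ => hnice i j)))]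
  have h1 : ∀ i ∈ F, ∫ y, (∑ j ∈ F, a i * a j *
        ((A / ν i * wd (c i) (B * ν i) y) * (A / ν j * wd (c j) (B * ν j) y))) ≤
      ∑ j ∈ F, (a i * a j * (2 * A ^ 2 * B * ((ν i)⁻¹ * (if |b i - b j| ≤ 6 * ν i then 1 else 0))) +
        a i * a j * (2 * A ^ 2 * B * ((ν j)⁻¹ * (if |b j - b i| ≤ 6 * ν j then 1 else 0)))) := by
    intro i hi
    rw [integral_finsetSum _ (fun j _ => nice_int (hnice i j))]
    refine Finset.sum_le_sum (fun j hj => ?_)
    rw [integral_const_mul]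
    have haij : 0 ≤ a i * a j := mul_nonneg (ha i) (ha j)
    have hνi : 0 < ν i := by linarith [hν i hi]
    have hνj : 0 < ν j := by linarith [hν j hj]
    rw [← mul_add]
    apply mul_le_mul_of_nonneg_left _ haij
    rcases le_total (ν j) (ν i) with hle | hle
    · have h2 := pair_int hA hB hB2 hνj hle (hc i hi) (hc j hj)
      have h3 : 0 ≤ 2 * A ^ 2 * B * ((ν j)⁻¹ * (if |b j - b i| ≤ 6 * ν j then (1 : ℝ) else 0)) := by
        split_ifs <;> positivity
      linarith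
    · have h2 := pair_int hA hB hB2 hνi hle (hc j hj) (hc i hi)
      have h3 : 0 ≤ 2 * A ^ 2 * B * ((ν i)⁻¹ * (if |b i - b j| ≤ 6 * ν i then (1 : ℝ) else 0)) := by
        split_ifs <;> positivity
      have h4 : ∫ y, (A / ν i * wd (c i) (B * ν i) y) * (A / ν j * wd (c j) (B * ν j) y) =
          ∫ y, (A / ν j * wd (c j) (B * ν j) y) * (A / ν i * wd (c i) (B * ν i) y) := by
        congr 1; funext y; ring
      rw [h4]
      linarith
  refine (Finset.sum_le_sum h1).trans ?_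
  simp_rw [Finset.sum_add_distrib]
  have hsym : ∑ i ∈ F, ∑ j ∈ F, a i * a j *
        (2 * A ^ 2 * B * ((ν j)⁻¹ * (if |b j - b i| ≤ 6 * ν j then (1 : ℝ) else 0))) =
      ∑ i ∈ F, ∑ j ∈ F, a i * a j *
        (2 * A ^ 2 * B * ((ν i)⁻¹ * (if |b i - b j| ≤ 6 * ν i then (1 : ℝ) else 0))) := by
    rw [Finset.sum_comm]
    refine Finset.sum_congr rfl (fun i _ => Finset.sum_congr rfl (fun j _ => ?_))
    ring
  rw [hsym, ← two_mul]
  set h : Fin n → ℝ := fun i => if i ∈ F then 6 * ν i else 1 with hh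
  have hh1 : ∀ i, 1 ≤ h i := by
    intro i
    rw [hh]
    simp only
    split_ifs with hi
    · linarith [hν i hi]
    · exact le_refl 1
  have hmain := hHL n b h a ha hh1
  have hstep : ∑ i ∈ F, ∑ j ∈ F, a i * a j *
        (2 * A ^ 2 * B * ((ν i)⁻¹ * (if |b i - b j| ≤ 6 * ν i then (1 : ℝ) else 0))) ≤
      12 * A ^ 2 * B *
        ∑ i, a i * (h i)⁻¹ * ∑ i', a i' * (if |b i - b i'| ≤ h i then 1 else 0) := by
    rw [Finset.mul_sum]
    refine le_trans (Finset.sum_le_sum (g := fun i => 12 * A ^ 2 * B * (a i * (h i)⁻¹ *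
      ∑ i', a i' * (if |b i - b i'| ≤ h i then 1 else 0))) (fun i hi => ?_))
      (Finset.sum_le_sum_of_subset_of_nonneg (Finset.subset_univ F) (fun i _ _ => ?_))
    · have hhi : h i = 6 * ν i := by rw [hh]; simp only [if_pos hi]
      rw [hhi, Finset.mul_sum, Finset.mul_sum]
      refine le_trans (Finset.sum_le_sum (g := fun j => 12 * A ^ 2 * B * (a i * (6 * ν i)⁻¹ *
        (a j * (if |b i - b j| ≤ 6 * ν i then 1 else 0)))) (fun j hj => ?_))
        (Finset.sum_le_sum_of_subset_of_nonneg (Finset.subset_univ F) (fun j _ _ => ?_))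
      · have hνi : 0 < ν i := by linarith [hν i hi]
        apply le_of_eq
        rw [mul_inv]
        ring
      · have hνi : 0 < ν i := by linarith [hν i hi]
        have := ha i
        have := ha j
        split_ifs <;> positivity
    · have h5 : 0 ≤ ∑ i', a i' * (if |b i - b i'| ≤ h i then (1 : ℝ) else 0) :=
        Finset.sum_nonneg (fun j _ => mul_nonneg (ha j) (by split_ifs <;> norm_num))
      have h6 : 0 < h i := by linarith [hh1 i]
      have := ha i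
      positivity
  calc 2 * ∑ i ∈ F, ∑ j ∈ F, a i * a j *
        (2 * A ^ 2 * B * ((ν i)⁻¹ * (if |b i - b j| ≤ 6 * ν i then (1 : ℝ) else 0)))
      ≤ 2 * (12 * A ^ 2 * B *
        ∑ i, a i * (h i)⁻¹ * ∑ i', a i' * (if |b i - b i'| ≤ h i then 1 else 0)) := by linarith
    _ ≤ 2 * (12 * A ^ 2 * B * (C * ∫ y, (∑ i, a i * win (y - b i)) ^ 2)) := by
        apply mul_le_mul_of_nonneg_left _ (by norm_num)
        apply mul_le_mul_of_nonneg_left hmain
        positivity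
    _ = 24 * A ^ 2 * B * (C * ∫ y, (∑ i, a i * win (y - b i)) ^ 2) := by ring

/-! ### geometric sums -/

theorem geo_half (K : ℕ) : ∑ k ∈ Finset.range K, (1 / 2 : ℝ) ^ k ≤ 2 := by
  have h : ∀ K : ℕ, ∑ k ∈ Finset.range K, (1 / 2 : ℝ) ^ k = 2 - 2 * (1 / 2) ^ K := by
    intro K
    induction K with
    | zero => simp
    | succ K ih => rw [Finset.sum_range_succ, ih, pow_succ]; ring
  rw [h]
  have : (0 : ℝ) < (1 / 2) ^ K := by positivity
  linarith

theorem geo_quarter (K : ℕ) : ∑ k ∈ Finset.range K, ((1 / 2 : ℝ) ^ k) ^ 2 ≤ 2 := by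
  refine le_trans (Finset.sum_le_sum (fun k _ => ?_)) (geo_half K)
  have h1 : (1 / 2 : ℝ) ^ k ≤ 1 := pow_le_one₀ (by norm_num) (by norm_num)
  have h2 : (0 : ℝ) < (1 / 2) ^ k := by positivity
  nlinarith

/-- scales at which the slope is small -/
theorem geo_small (M : ℝ) (K : ℕ) :
    ∑ k ∈ (Finset.range K).filter (fun k => |M| < 4 * 2 ^ k), (|M| / 2 ^ k) ^ 2 ≤ 64 / 3 := by
  have key : ∀ K : ℕ, ∑ k ∈ (Finset.range K).filter (fun k => |M| < 4 * 2 ^ k), (|M| / 2 ^ k) ^ 2 +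
      4 / 3 * min ((|M| / 2 ^ K) ^ 2) 16 ≤ 64 / 3 := by
    intro K
    induction K with
    | zero =>
      simp only [Finset.range_zero, Finset.filter_empty, Finset.sum_empty, zero_add]
      have := min_le_right ((|M| / 2 ^ 0) ^ 2) (16 : ℝ)
      linarith
    | succ K ih =>
      have hpos : (0 : ℝ) < 2 ^ K := by positivity
      have hq : (|M| / 2 ^ (K + 1)) ^ 2 = (|M| / 2 ^ K) ^ 2 / 4 := by
        have h9 : (2 : ℝ) ^ (K + 1) = 2 ^ K * 2 := pow_succ _ _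
        rw [h9, ← div_div, div_pow (|M| / 2 ^ K)]; norm_num
      rw [Finset.range_add_one, Finset.filter_insert]
      by_cases hM : |M| < 4 * 2 ^ K
      · rw [if_pos hM, Finset.sum_insert (by simp)]
        have h4 : (|M| / 2 ^ K) ^ 2 ≤ 16 := by
          have h5 : |M| / 2 ^ K < 4 := by rw [div_lt_iff₀ hpos]; exact hM
          have h6 : 0 ≤ |M| / 2 ^ K := by positivity
          nlinarith
        rw [min_eq_left h4] at ih
        have h7 : min ((|M| / 2 ^ (K + 1)) ^ 2) 16 ≤ (|M| / 2 ^ K) ^ 2 / 4 := by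
          rw [hq]; exact min_le_left _ _
        linarith
      · rw [if_neg hM]
        push Not at hM
        have h4 : 16 ≤ (|M| / 2 ^ K) ^ 2 := by
          have h5 : 4 ≤ |M| / 2 ^ K := by rw [le_div_iff₀ hpos]; exact hM
          nlinarith
        rw [min_eq_right h4] at ih
        have h7 := min_le_right ((|M| / 2 ^ (K + 1)) ^ 2) (16 : ℝ)
        linarith
  have h := key K
  have h2 : 0 ≤ min ((|M| / 2 ^ K) ^ 2) 16 := le_min (by positivity) (by norm_num)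
  linarith

theorem geo_shift (k' K : ℕ) : ∑ k ∈ Finset.Ico k' K, ((2 : ℝ) ^ k' / 2 ^ k) ^ 2 ≤ 2 := by
  rw [Finset.sum_Ico_eq_sum_range]
  have h : ∀ j, ((2 : ℝ) ^ k' / 2 ^ (k' + j)) ^ 2 = ((1 / 2 : ℝ) ^ j) ^ 2 := by
    intro j
    rw [pow_add, one_div_pow]
    field_simp
  simp_rw [h]
  exact geo_quarter _

theorem geo_quarter' (k' K : ℕ) : ∑ k ∈ Finset.Ico k' K, ((1 / 2 : ℝ) ^ k) ^ 2 ≤ 2 := by
  refine le_trans (Finset.sum_le_sum_of_subset_of_nonneg (t := Finset.range K) ?_ ?_) (geo_quarter K)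
  · intro k hk
    rw [Finset.mem_Ico] at hk
    exact Finset.mem_range.mpr hk.2
  · intro k _ _
    positivity

/-! ### the small slopes -/

/-- the weights of the small slopes are square summable in the scale -/
theorem small_weights (M : ℝ) (k' K : ℕ) :
    ∑ k ∈ Finset.Ico k' K, (if |M| < 4 * 2 ^ k then
      (|M| / 2 ^ k + 2 ^ k' / 2 ^ k + (1 / 2) ^ k) else 0) ^ 2 ≤ 76 := by
  have h1 : ∀ k ∈ Finset.Ico k' K, (if |M| < 4 * 2 ^ k then
      (|M| / 2 ^ k + 2 ^ k' / 2 ^ k + (1 / 2) ^ k) else (0 : ℝ)) ^ 2 ≤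
      3 * (if |M| < 4 * 2 ^ k then (|M| / 2 ^ k) ^ 2 else 0) + 3 * ((2 : ℝ) ^ k' / 2 ^ k) ^ 2 +
        3 * ((1 / 2 : ℝ) ^ k) ^ 2 := by
    intro k _
    split_ifs with h
    · nlinarith [sq_nonneg (|M| / 2 ^ k - 2 ^ k' / 2 ^ k), sq_nonneg (|M| / 2 ^ k - (1 / 2) ^ k),
        sq_nonneg ((2 : ℝ) ^ k' / 2 ^ k - (1 / 2) ^ k)]
    · rw [zero_pow two_ne_zero]; positivity
  refine (Finset.sum_le_sum h1).trans ?_
  rw [Finset.sum_add_distrib, Finset.sum_add_distrib, ← Finset.mul_sum, ← Finset.mul_sum,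
    ← Finset.mul_sum]
  have h2 := geo_shift k' K
  have h3 := geo_quarter' k' K
  have h4 : ∑ k ∈ Finset.Ico k' K, (if |M| < 4 * 2 ^ k then (|M| / 2 ^ k) ^ 2 else 0) ≤ 64 / 3 := by
    rw [← Finset.sum_filter]
    refine le_trans (Finset.sum_le_sum_of_subset_of_nonneg ?_ ?_) (geo_small M K)
    · intro k hk
      rw [Finset.mem_filter, Finset.mem_Ico] at hk
      rw [Finset.mem_filter, Finset.mem_range]
      exact ⟨hk.1.2, hk.2⟩
    · intro k _ _
      exact sq_nonneg _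
  linarith

theorem small_sum {n : ℕ} (x : Fin n → ℝ) (M : Fin n → ℝ) (hx : ∀ i, 0 ≤ x i) (k' K : ℕ) :
    ∑ k ∈ Finset.Ico k' K, (∑ i, x i * (if |M i| < 4 * 2 ^ k then
      (|M i| / 2 ^ k + 2 ^ k' / 2 ^ k + (1 / 2) ^ k) else 0)) ^ 2 ≤ 76 * (∑ i, x i) ^ 2 := by
  have h1 : ∀ k ∈ Finset.Ico k' K, (∑ i, x i * (if |M i| < 4 * 2 ^ k then
      (|M i| / 2 ^ k + 2 ^ k' / 2 ^ k + (1 / 2) ^ k) else (0 : ℝ))) ^ 2 ≤
      (∑ i, x i) * ∑ i, x i * (if |M i| < 4 * 2 ^ k then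
      (|M i| / 2 ^ k + 2 ^ k' / 2 ^ k + (1 / 2) ^ k) else (0 : ℝ)) ^ 2 := by
    intro k _
    apply Finset.sum_sq_le_sum_mul_sum_of_sq_le_mul
    · intro i _; exact hx i
    · intro i _; exact mul_nonneg (hx i) (sq_nonneg _)
    · intro i _; apply le_of_eq; ring
  refine (Finset.sum_le_sum h1).trans ?_
  rw [← Finset.mul_sum, Finset.sum_comm]
  have hX : 0 ≤ ∑ i, x i := Finset.sum_nonneg (fun i _ => hx i)
  have h2 : ∑ i, ∑ k ∈ Finset.Ico k' K, x i * (if |M i| < 4 * 2 ^ k then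
      (|M i| / 2 ^ k + 2 ^ k' / 2 ^ k + (1 / 2) ^ k) else (0 : ℝ)) ^ 2 ≤ ∑ i, x i * 76 := by
    refine Finset.sum_le_sum (fun i _ => ?_)
    rw [← Finset.mul_sum]
    exact mul_le_mul_of_nonneg_left (small_weights (M i) k' K) (hx i)
  rw [← Finset.sum_mul] at h2
  nlinarith

/-! ### covering by unit windows -/

theorem cover (N : ℕ) (p : ℝ) (hp : |p| ≤ N + 1 / 2) :
    (1 : ℝ) ≤ ∑ e ∈ Finset.Icc (-(N : ℤ)) N, win (p - e) := by
  have h1 := abs_sub_round p
  have h2 : |(round p : ℝ)| ≤ N + 1 := by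
    have := abs_sub_abs_le_abs_sub (round p : ℝ) p
    rw [abs_sub_comm (round p : ℝ) p] at this
    linarith
  by_cases hr : round p ∈ Finset.Icc (-(N : ℤ)) N
  · refine le_trans ?_ (Finset.single_le_sum (f := fun e : ℤ => win (p - e)) (fun e _ => ?_) hr)
    · simp only [win]
      rw [if_pos h1]
    · simp only [win]; split_ifs <;> norm_num
  · -- then `|round p| = N + 1` and `|p| = N + 1/2`
    rw [Finset.mem_Icc, ← abs_le] at hr
    push Not at hr
    have h3 : ((N : ℤ) + 1 : ℤ) ≤ |round p| := by exact_mod_cast hr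
    rcases le_total 0 p with h0 | h0
    · rw [abs_of_nonneg h0] at hp
      have hmem : (N : ℤ) ∈ Finset.Icc (-(N : ℤ)) N := by
        rw [Finset.mem_Icc]; constructor <;> omega
      refine le_trans ?_ (Finset.single_le_sum (f := fun e : ℤ => win (p - e)) (fun e _ => ?_) hmem)
      · simp only [win]
        rw [if_pos]
        have h5 : (0 : ℤ) ≤ round p := by
          rw [round_eq]; exact Int.floor_nonneg.mpr (by linarith)
        rw [abs_of_nonneg h5] at h3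
        have h6 : ((N : ℝ) + 1) ≤ round p := by exact_mod_cast h3
        have h7 := abs_le.mp h1
        rw [abs_le]
        push_cast
        constructor <;> linarith [h7.1]
      · simp only [win]; split_ifs <;> norm_num
    · rw [abs_of_nonpos h0] at hp
      have hmem : (-(N : ℤ)) ∈ Finset.Icc (-(N : ℤ)) N := by
        rw [Finset.mem_Icc]; constructor <;> omega
      refine le_trans ?_ (Finset.single_le_sum (f := fun e : ℤ => win (p - e)) (fun e _ => ?_) hmem)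
      · simp only [win]
        rw [if_pos]
        have h5 : round p ≤ (0 : ℤ) := by
          rw [round_eq]
          have : p + 1 / 2 < 1 := by linarith
          have h8 : ⌊p + 1 / 2⌋ < 1 := Int.floor_lt.mpr (by push_cast; exact this)
          omega
        rw [abs_of_nonpos h5] at h3
        have h6 : ((N : ℝ) + 1) ≤ -(round p : ℝ) := by exact_mod_cast h3
        have h7 := abs_le.mp h1
        rw [abs_le]
        push_cast
        constructor <;> linarith [h7.2]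
      · simp only [win]; split_ifs <;> norm_num

theorem win_nonneg (p : ℝ) : 0 ≤ win p := by unfold win; split_ifs <;> norm_num

/-! ### one index -/

/-- the three breakpoints -/
def xi (θ : ℝ) (j : Fin 3) : ℝ := ![1 / 2 - θ, -θ, 1 - θ] j

theorem xi_abs {θ : ℝ} (h0 : 0 ≤ θ) (h1 : θ ≤ 1) (j : Fin 3) : |xi θ j| ≤ 1 := by
  fin_cases j <;> simp only [xi] <;> simp <;> rw [abs_le] <;> constructor <;> linarith

theorem edge_cover {y bi μ ξ δ : ℝ} :
    (if |y - bi + ξ * μ| ≤ 5 / 2 + 2 * δ * |μ| then (1 : ℝ) else 0) ≤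
      ∑ e ∈ Finset.Icc (-(3 : ℤ)) 3, win (y - (bi + e) + ξ * μ) +
        wd (bi - ξ * μ) (7 * δ * |μ|) y := by
  have hs : 0 ≤ ∑ e ∈ Finset.Icc (-(3 : ℤ)) 3, win (y - (bi + e) + ξ * μ) :=
    Finset.sum_nonneg (fun e _ => win_nonneg _)
  have hw := wd_nonneg (bi - ξ * μ) (7 * δ * |μ|) y
  split_ifs with h
  · by_cases h2 : 2 * δ * |μ| ≤ 1
    · have h3 := cover 3 (y - bi + ξ * μ) (by push_cast; linarith)
      have h4 : ∑ e ∈ Finset.Icc (-((3 : ℕ) : ℤ)) (3 : ℕ), win (y - bi + ξ * μ - e) =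
          ∑ e ∈ Finset.Icc (-(3 : ℤ)) 3, win (y - (bi + e) + ξ * μ) := by
        refine Finset.sum_congr rfl (fun e _ => ?_)
        congr 1; ring
      rw [h4] at h3
      linarith
    · push Not at h2
      have h5 : wd (bi - ξ * μ) (7 * δ * |μ|) y = 1 := by
        unfold wd
        rw [if_pos]
        have h6 : y - (bi - ξ * μ) = y - bi + ξ * μ := by ring
        rw [h6]
        linarith
      linarith
  · linarith

theorem idx_large {θ y b' bi Mi μ' δ : ℝ} (k : ℕ) (h0 : 0 ≤ θ) (h1 : θ ≤ 1)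
    (hM : 4 * 2 ^ k ≤ |Mi|) (hδ0 : 0 ≤ δ) (hδ : δ ≤ 1 / 16) (hy : |b' - y| ≤ 1 / 2)
    (hμ' : |μ' - Mi / 2 ^ k| ≤ 1 + δ * |y - bi|) :
    |kap θ (b' - bi) μ' - kap θ (y - bi) (Mi / 2 ^ k)| ≤
      8 * ((2 ^ k / |Mi|) ^ 2 * (if |y - bi| ≤ 2 * (|Mi| / 2 ^ k) then 1 else 0)) +
      16 * (δ / (|Mi| / 2 ^ k) * wd bi (2 * (|Mi| / 2 ^ k)) y) +
      ∑ j : Fin 3, 4 * ((∑ e ∈ Finset.Icc (-(3 : ℤ)) 3,
          (2 ^ k / |Mi|) * win (y - (bi + e) + xi θ j * (Mi / 2 ^ k))) +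
        1 / (|Mi| / 2 ^ k) * wd (bi - xi θ j * (Mi / 2 ^ k)) (7 * δ * (|Mi| / 2 ^ k)) y) := by
  have h2k : (0 : ℝ) < 2 ^ k := by positivity
  have hMpos : 0 < |Mi| := by nlinarith
  have hν : |Mi / 2 ^ k| = |Mi| / 2 ^ k := by rw [abs_div, abs_of_pos h2k]
  have hν4 : 4 ≤ |Mi / 2 ^ k| := by rw [hν, le_div_iff₀ h2k]; exact hM
  have hinv : 1 / |Mi / 2 ^ k| = 2 ^ k / |Mi| := by rw [hν, one_div_div]
  have key := kap_diff (d := y - bi) (d' := b' - bi) (μ := Mi / 2 ^ k) (μ' := μ') h0 h1 hν4 hδ0 hδ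
    (by have : b' - bi - (y - bi) = b' - y := by ring
        rw [this]; exact hy) hμ'
  refine key.trans ?_
  have hpos : 0 ≤ 1 / |Mi / 2 ^ k| := by positivity
  have e0 := edge_cover (y := y) (bi := bi) (μ := Mi / 2 ^ k) (ξ := 1 / 2 - θ) (δ := δ)
  have e1 := edge_cover (y := y) (bi := bi) (μ := Mi / 2 ^ k) (ξ := -θ) (δ := δ)
  have e2 := edge_cover (y := y) (bi := bi) (μ := Mi / 2 ^ k) (ξ := 1 - θ) (δ := δ)
  have n0 : 0 ≤ ∑ e ∈ Finset.Icc (-(3 : ℤ)) 3, win (y - (bi + e) + (-θ) * (Mi / 2 ^ k)) :=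
    Finset.sum_nonneg (fun e _ => win_nonneg _)
  have n1 : 0 ≤ ∑ e ∈ Finset.Icc (-(3 : ℤ)) 3, win (y - (bi + e) + (1 - θ) * (Mi / 2 ^ k)) :=
    Finset.sum_nonneg (fun e _ => win_nonneg _)
  have n2 := wd_nonneg (bi - (-θ) * (Mi / 2 ^ k)) (7 * δ * |Mi / 2 ^ k|) y
  have n3 := wd_nonneg (bi - (1 - θ) * (Mi / 2 ^ k)) (7 * δ * |Mi / 2 ^ k|) y
  have hfl : (1 / |Mi / 2 ^ k|) ^ 2 * (if |y - bi| ≤ 2 * |Mi / 2 ^ k| then (1 : ℝ) else 0) =
      (2 ^ k / |Mi|) ^ 2 * (if |y - bi| ≤ 2 * (|Mi| / 2 ^ k) then 1 else 0) := by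
    rw [hinv, hν]
  have ht2 : δ / |Mi / 2 ^ k| * (if |y - bi| ≤ 2 * |Mi / 2 ^ k| then (1 : ℝ) else 0) =
      δ / (|Mi| / 2 ^ k) * wd bi (2 * (|Mi| / 2 ^ k)) y := by
    rw [hν]; rfl
  rw [hfl, ht2]
  apply add_le_add_right
  rw [Fin.sum_univ_three]
  simp only [xi, Matrix.cons_val_zero, Matrix.cons_val_one, Matrix.cons_val_two, Matrix.head_cons,
    Matrix.tail_cons]
  simp only [← Finset.mul_sum]
  rw [← hν, ← hinv]
  have hfac : ∀ s w : ℝ, 4 * (1 / |Mi / 2 ^ k| * s + 1 / |Mi / 2 ^ k| * w) =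
      1 / |Mi / 2 ^ k| * (4 * (s + w)) := by intro s w; ring
  rw [hfac, hfac, hfac, ← mul_add, ← mul_add]
  apply mul_le_mul_of_nonneg_left _ hpos
  linarith

theorem idx_small {θ y b' bi Mi μ' : ℝ} {k k' : ℕ} (h0 : 0 ≤ θ) (h1 : θ ≤ 1) (hk : k' ≤ k)
    (hM : |Mi| < 4 * 2 ^ k) (hy : |b' - y| ≤ 1 / 2)
    (hμ' : |μ' - Mi / 2 ^ k| ≤ 2 ^ k' / 2 ^ k + 1 / 16 * (1 / 2) ^ k * |y - bi|) :
    |kap θ (b' - bi) μ'| ≤
      wd bi 8 y * (|Mi| / 2 ^ k + 2 ^ k' / 2 ^ k + (1 / 2) ^ k) := by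
  have h2k : (0 : ℝ) < 2 ^ k := by positivity
  have hν : |Mi / 2 ^ k| = |Mi| / 2 ^ k := by rw [abs_div, abs_of_pos h2k]
  have hν4 : |Mi| / 2 ^ k < 4 := by rw [div_lt_iff₀ h2k]; exact hM
  have hμabs : |μ'| ≤ |Mi| / 2 ^ k + (2 ^ k' / 2 ^ k + 1 / 16 * (1 / 2) ^ k * |y - bi|) := by
    have := abs_sub_abs_le_abs_sub μ' (Mi / 2 ^ k)
    rw [hν] at this
    linarith
  have hkk : (2 : ℝ) ^ k' / 2 ^ k ≤ 1 := by
    rw [div_le_one h2k]
    exact pow_le_pow_right₀ (by norm_num) hk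
  have hhalf : (1 / 2 : ℝ) ^ k ≤ 1 := pow_le_one₀ (by norm_num) (by norm_num)
  have hhalf0 : (0 : ℝ) < (1 / 2) ^ k := by positivity
  by_cases h8 : |y - bi| ≤ 8
  · have hw : wd bi 8 y = 1 := by unfold wd; rw [if_pos h8]
    rw [hw, one_mul]
    refine (kap_le h0 h1).trans (hμabs.trans ?_)
    have := abs_nonneg (y - bi)
    nlinarith
  · push Not at h8
    rw [kap_zero h0 h1 ?_]
    · rw [abs_zero]
      have := wd_nonneg bi 8 y
      positivity
    · have h3 : |y - bi| - 1 / 2 ≤ |b' - bi| := by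
        have h4 := abs_sub_abs_le_abs_sub (y - bi) (b' - bi)
        have h5 : y - bi - (b' - bi) = -(b' - y) := by ring
        rw [h5, abs_neg] at h4
        linarith
      have h6 : 1 / 16 * (1 / 2) ^ k * |y - bi| ≤ 1 / 16 * |y - bi| := by
        have := abs_nonneg (y - bi)
        nlinarith
      linarith

/-! ### one scale, one point -/

section point

variable {n : ℕ}

/-- main part of the large slopes -/
def fMn (b M a : Fin n → ℝ) (kk : Fin n → ℕ) (θ : ℝ) (k : ℕ) (y : ℝ) : ℝ :=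
  ∑ i with kk i ≤ k ∧ 4 * 2 ^ k ≤ |M i|, a i * kap θ (y - b i) (M i / 2 ^ k)

/-- flat terms -/
def fFl (b M a : Fin n → ℝ) (k : ℕ) (y : ℝ) : ℝ :=
  ∑ i with 4 * 2 ^ k ≤ |M i|,
    a i * (2 ^ k / |M i|) ^ 2 * (if |y - b i| ≤ 2 * (|M i| / 2 ^ k) then 1 else 0)

/-- flat terms with a small amplitude -/
def fT2 (b M a : Fin n → ℝ) (δ : ℝ) (k : ℕ) (y : ℝ) : ℝ :=
  ∑ i with 4 * 2 ^ k ≤ |M i|, a i * (δ / (|M i| / 2 ^ k) * wd (b i) (2 * (|M i| / 2 ^ k)) y)

/-- edge terms -/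
def fEd (b M a : Fin n → ℝ) (ξ : ℝ) (e : ℤ) (k : ℕ) (y : ℝ) : ℝ :=
  ∑ i with 4 * 2 ^ k ≤ |M i|, a i * (2 ^ k / |M i|) * win (y - (b i + e) + ξ * (M i / 2 ^ k))

/-- wide edge terms -/
def fT4 (b M a : Fin n → ℝ) (ξ δ : ℝ) (k : ℕ) (y : ℝ) : ℝ :=
  ∑ i with 4 * 2 ^ k ≤ |M i|,
    a i * (1 / (|M i| / 2 ^ k) * wd (b i - ξ * (M i / 2 ^ k)) (7 * δ * (|M i| / 2 ^ k)) y)

/-- contribution of the small slopes -/
def fS (b M a : Fin n → ℝ) (k' k : ℕ) (y : ℝ) : ℝ :=
  ∑ i, (a i * wd (b i) 8 y) * (if |M i| < 4 * 2 ^ k then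
      (|M i| / 2 ^ k + 2 ^ k' / 2 ^ k + (1 / 2) ^ k) else 0)

theorem point (b M a : Fin n → ℝ) (kk : Fin n → ℕ) (μ' : Fin n → ℝ) {θ y b' : ℝ} {k k' : ℕ}
    (ha : ∀ i, 0 ≤ a i) (h0 : 0 ≤ θ) (h1 : θ ≤ 1) (hk : k' ≤ k) (hy : |b' - y| ≤ 1 / 2)
    (hμ' : ∀ i, |μ' i - M i / 2 ^ k| ≤ 2 ^ k' / 2 ^ k + 1 / 16 * (1 / 2) ^ k * |y - b i|) :
    |∑ i with kk i ≤ k, a i * kap θ (b' - b i) (μ' i)| ≤
      fS b M a k' k y + |fMn b M a kk θ k y| + 8 * fFl b M a k y +
        16 * fT2 b M a (1 / 16 * (1 / 2) ^ k) k y +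
        ∑ j : Fin 3, 4 * (∑ e ∈ Finset.Icc (-(3 : ℤ)) 3, fEd b M a (xi θ j) e k y +
          fT4 b M a (xi θ j) (1 / 16 * (1 / 2) ^ k) k y) := by
  classical
  set δ : ℝ := 1 / 16 * (1 / 2) ^ k with hδdef
  have hδ0 : 0 ≤ δ := by rw [hδdef]; positivity
  have hhalf : (1 / 2 : ℝ) ^ k ≤ 1 := pow_le_one₀ (by norm_num) (by norm_num)
  have hδ : δ ≤ 1 / 16 := by rw [hδdef]; linarith
  have h2k : (0 : ℝ) < 2 ^ k := by positivity
  have hkk : (2 : ℝ) ^ k' / 2 ^ k ≤ 1 := by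
    rw [div_le_one h2k]
    exact pow_le_pow_right₀ (by norm_num) hk
  -- the pointwise error
  set R : Fin n → ℝ := fun i =>
    (a i * wd (b i) 8 y) * (if |M i| < 4 * 2 ^ k then
      (|M i| / 2 ^ k + 2 ^ k' / 2 ^ k + (1 / 2) ^ k) else 0) +
    (if 4 * 2 ^ k ≤ |M i| then
      (8 * (a i * (2 ^ k / |M i|) ^ 2 * (if |y - b i| ≤ 2 * (|M i| / 2 ^ k) then 1 else 0)) +
      16 * (a i * (δ / (|M i| / 2 ^ k) * wd (b i) (2 * (|M i| / 2 ^ k)) y)) +
      ∑ j : Fin 3, 4 * ((∑ e ∈ Finset.Icc (-(3 : ℤ)) 3,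
          a i * (2 ^ k / |M i|) * win (y - (b i + e) + xi θ j * (M i / 2 ^ k))) +
        a i * (1 / (|M i| / 2 ^ k) *
          wd (b i - xi θ j * (M i / 2 ^ k)) (7 * δ * (|M i| / 2 ^ k)) y))) else 0) with hR
  have hRi : ∀ i, |a i * kap θ (b' - b i) (μ' i) -
      (if 4 * 2 ^ k ≤ |M i| then a i * kap θ (y - b i) (M i / 2 ^ k) else 0)| ≤ R i := by
    intro i
    rw [hR]
    simp only
    by_cases hM : 4 * 2 ^ k ≤ |M i|
    · rw [if_pos hM, if_pos hM, if_neg (not_lt.mpr hM), mul_zero, zero_add, ← mul_sub, abs_mul,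
        abs_of_nonneg (ha i)]
      have h2 := idx_large (θ := θ) (y := y) (b' := b') (bi := b i) (Mi := M i) (μ' := μ' i) (δ := δ)
        k h0 h1 hM hδ0 hδ hy (by
          refine (hμ' i).trans ?_
          linarith)
      refine (mul_le_mul_of_nonneg_left h2 (ha i)).trans (le_of_eq ?_)
      rw [mul_add, mul_add, Finset.mul_sum]
      congr 1
      · ring
      · refine Finset.sum_congr rfl (fun j _ => ?_)
        have h3 : ∀ s w : ℝ, a i * (4 * (s + w)) = 4 * (a i * s + a i * w) := by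
          intro s w; ring
        rw [h3, Finset.mul_sum]
        congr 2
        refine Finset.sum_congr rfl (fun e _ => ?_)
        ring
    · rw [if_neg hM, if_neg hM, sub_zero, add_zero]
      push Not at hM
      rw [if_pos hM, abs_mul, abs_of_nonneg (ha i)]
      have h2 := idx_small (θ := θ) (y := y) (b' := b') (bi := b i) (Mi := M i) (μ' := μ' i)
        h0 h1 hk hM hy (hμ' i)
      refine (mul_le_mul_of_nonneg_left h2 (ha i)).trans (le_of_eq ?_)
      ring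
  have hR0 : ∀ i, 0 ≤ R i := fun i => (abs_nonneg _).trans (hRi i)
  have hsplit : ∑ i with kk i ≤ k, a i * kap θ (b' - b i) (μ' i) =
      fMn b M a kk θ k y + ∑ i with kk i ≤ k, (a i * kap θ (b' - b i) (μ' i) -
      (if 4 * 2 ^ k ≤ |M i| then a i * kap θ (y - b i) (M i / 2 ^ k) else 0)) := by
    have h2 : fMn b M a kk θ k y =
        ∑ i with kk i ≤ k, (if 4 * 2 ^ k ≤ |M i| then a i * kap θ (y - b i) (M i / 2 ^ k) else 0) := by
      unfold fMn
      rw [← Finset.filter_filter, Finset.sum_filter]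
    rw [h2, ← Finset.sum_add_distrib]
    refine Finset.sum_congr rfl (fun i _ => ?_)
    ring
  have hsumR : ∑ i, R i = fS b M a k' k y + (8 * fFl b M a k y + 16 * fT2 b M a δ k y +
        ∑ j : Fin 3, 4 * (∑ e ∈ Finset.Icc (-(3 : ℤ)) 3, fEd b M a (xi θ j) e k y +
          fT4 b M a (xi θ j) δ k y)) := by
    rw [hR, Finset.sum_add_distrib]
    congr 1
    rw [← Finset.sum_filter, Finset.sum_add_distrib, Finset.sum_add_distrib]
    unfold fFl fT2 fEd fT4
    rw [Finset.mul_sum, Finset.mul_sum]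
    congr 1
    rw [Finset.sum_comm]
    refine Finset.sum_congr rfl (fun j _ => ?_)
    rw [← Finset.mul_sum, Finset.sum_add_distrib]
    congr 2
    rw [Finset.sum_comm]
  rw [hsplit]
  refine (abs_add_le _ _).trans ?_
  have h5 : |∑ i with kk i ≤ k, (a i * kap θ (b' - b i) (μ' i) -
      (if 4 * 2 ^ k ≤ |M i| then a i * kap θ (y - b i) (M i / 2 ^ k) else 0))| ≤ ∑ i, R i := by
    refine (Finset.abs_sum_le_sum_abs _ _).trans ?_
    refine (Finset.sum_le_sum (fun i _ => hRi i)).trans ?_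
    exact Finset.sum_le_sum_of_subset_of_nonneg (Finset.subset_univ _) (fun i _ _ => hR0 i)
  rw [hsumR] at h5
  linarith

theorem sq5 (a b c d e : ℝ) : (a + b + c + d + e) ^ 2 ≤ 5 * (a ^ 2 + b ^ 2 + c ^ 2 + d ^ 2 + e ^ 2) := by
  nlinarith [sq_nonneg (a - b), sq_nonneg (a - c), sq_nonneg (a - d), sq_nonneg (a - e),
    sq_nonneg (b - c), sq_nonneg (b - d), sq_nonneg (b - e), sq_nonneg (c - d), sq_nonneg (c - e),
    sq_nonneg (d - e)]

/-- the sum of the squares of all functions which do not depend on `k'` -/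
def fG (b M a : Fin n → ℝ) (kk : Fin n → ℕ) (θ : ℝ) (k : ℕ) (y : ℝ) : ℝ :=
  5 * (fMn b M a kk θ k y) ^ 2 + 320 * (fFl b M a k y) ^ 2 +
    1280 * (fT2 b M a (1 / 16 * (1 / 2) ^ k) k y) ^ 2 +
    ∑ j : Fin 3, (∑ e ∈ Finset.Icc (-(3 : ℤ)) 3, 3360 * (fEd b M a (xi θ j) e k y) ^ 2 +
      480 * (fT4 b M a (xi θ j) (1 / 16 * (1 / 2) ^ k) k y) ^ 2)

theorem fG_nonneg (b M a : Fin n → ℝ) (kk : Fin n → ℕ) (θ : ℝ) (k : ℕ) (y : ℝ) :
    0 ≤ fG b M a kk θ k y := by
  unfold fG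
  have : 0 ≤ ∑ j : Fin 3, (∑ e ∈ Finset.Icc (-(3 : ℤ)) 3, 3360 * (fEd b M a (xi θ j) e k y) ^ 2 +
      480 * (fT4 b M a (xi θ j) (1 / 16 * (1 / 2) ^ k) k y) ^ 2) :=
    Finset.sum_nonneg (fun j _ => add_nonneg (Finset.sum_nonneg (fun e _ => by positivity))
      (by positivity))
  positivity

theorem point_sq (b M a : Fin n → ℝ) (kk : Fin n → ℕ) (μ' : Fin n → ℝ) {θ y b' : ℝ} {k k' : ℕ}
    (ha : ∀ i, 0 ≤ a i) (h0 : 0 ≤ θ) (h1 : θ ≤ 1) (hk : k' ≤ k) (hy : |b' - y| ≤ 1 / 2)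
    (hμ' : ∀ i, |μ' i - M i / 2 ^ k| ≤ 2 ^ k' / 2 ^ k + 1 / 16 * (1 / 2) ^ k * |y - b i|) :
    (∑ i with kk i ≤ k, a i * kap θ (b' - b i) (μ' i)) ^ 2 ≤
      5 * (fS b M a k' k y) ^ 2 + fG b M a kk θ k y := by
  have hp := point b M a kk μ' ha h0 h1 hk hy hμ'
  set D := ∑ i with kk i ≤ k, a i * kap θ (b' - b i) (μ' i)
  set s := fS b M a k' k y
  set m := fMn b M a kk θ k y with hm
  set f := fFl b M a k y with hf
  set t := fT2 b M a (1 / 16 * (1 / 2) ^ k) k y with ht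
  set g := ∑ j : Fin 3, 4 * (∑ e ∈ Finset.Icc (-(3 : ℤ)) 3, fEd b M a (xi θ j) e k y +
          fT4 b M a (xi θ j) (1 / 16 * (1 / 2) ^ k) k y) with hg
  have h2 : D ^ 2 ≤ (s + |m| + 8 * f + 16 * t + g) ^ 2 := by
    rw [← sq_abs D]
    apply pow_le_pow_left₀ (abs_nonneg D) hp
  have h3 := sq5 s |m| (8 * f) (16 * t) g
  have h4 : g ^ 2 ≤ ∑ j : Fin 3, (672 * ∑ e ∈ Finset.Icc (-(3 : ℤ)) 3, (fEd b M a (xi θ j) e k y) ^ 2 +
      96 * (fT4 b M a (xi θ j) (1 / 16 * (1 / 2) ^ k) k y) ^ 2) := by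
    rw [hg]
    refine (sq_sum_le_card_mul_sum_sq).trans ?_
    rw [Finset.card_univ, Fintype.card_fin, Finset.mul_sum]
    refine Finset.sum_le_sum (fun j _ => ?_)
    have h5 : (∑ e ∈ Finset.Icc (-(3 : ℤ)) 3, fEd b M a (xi θ j) e k y) ^ 2 ≤
        7 * ∑ e ∈ Finset.Icc (-(3 : ℤ)) 3, (fEd b M a (xi θ j) e k y) ^ 2 := by
      refine (sq_sum_le_card_mul_sum_sq).trans ?_
      have hc : (Finset.Icc (-(3 : ℤ)) 3).card = 7 := by decide
      rw [hc]
      norm_num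
    push_cast
    nlinarith [sq_nonneg (∑ e ∈ Finset.Icc (-(3 : ℤ)) 3, fEd b M a (xi θ j) e k y -
      fT4 b M a (xi θ j) (1 / 16 * (1 / 2) ^ k) k y)]
  have h6 : fG b M a kk θ k y = 5 * m ^ 2 + 320 * f ^ 2 + 1280 * t ^ 2 +
      5 * ∑ j : Fin 3, (672 * ∑ e ∈ Finset.Icc (-(3 : ℤ)) 3, (fEd b M a (xi θ j) e k y) ^ 2 +
      96 * (fT4 b M a (xi θ j) (1 / 16 * (1 / 2) ^ k) k y) ^ 2) := by
    unfold fG
    rw [← hm, ← hf, ← ht, Finset.mul_sum]
    congr 1
    refine Finset.sum_congr rfl (fun j _ => ?_)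
    rw [← Finset.mul_sum]
    ring
  rw [h6]
  rw [sq_abs] at h3
  linarith

end point

/-! ### integrals -/

section integrals

variable {n : ℕ}

theorem nice_fMn (b M a : Fin n → ℝ) (kk : Fin n → ℕ) {θ : ℝ} (h0 : 0 ≤ θ) (h1 : θ ≤ 1) (k : ℕ) :
    Nice1 (fMn b M a kk θ k) := by
  unfold fMn
  exact nice_sum _ _ (fun i _ => nice_cmul _ (nice_kap h0 h1 _ _))

theorem nice_fFl (b M a : Fin n → ℝ) (k : ℕ) : Nice1 (fFl b M a k) := by
  unfold fFl
  exact nice_sum _ _ (fun i _ => nice_cmul _ (nice_wd (b i) (2 * (|M i| / 2 ^ k))))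

theorem nice_fT2 (b M a : Fin n → ℝ) (δ : ℝ) (k : ℕ) : Nice1 (fT2 b M a δ k) := by
  unfold fT2
  exact nice_sum _ _ (fun i _ => nice_cmul _ (nice_cmul _ (nice_wd _ _)))

theorem win_wd (y c s : ℝ) : win (y - c + s) = wd (c - s) (1 / 2) y := by
  unfold win wd
  have : y - c + s = y - (c - s) := by ring
  rw [this]

theorem nice_win (c s : ℝ) : Nice1 (fun y => win (y - c + s)) := by
  simp_rw [win_wd]
  exact nice_wd _ _

theorem nice_fEd (b M a : Fin n → ℝ) (ξ : ℝ) (e : ℤ) (k : ℕ) : Nice1 (fEd b M a ξ e k) := by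
  unfold fEd
  exact nice_sum _ _ (fun i _ => nice_cmul _ (nice_win _ _))

theorem nice_fT4 (b M a : Fin n → ℝ) (ξ δ : ℝ) (k : ℕ) : Nice1 (fT4 b M a ξ δ k) := by
  unfold fT4
  exact nice_sum _ _ (fun i _ => nice_cmul _ (nice_cmul _ (nice_wd _ _)))

theorem nice_fG (b M a : Fin n → ℝ) (kk : Fin n → ℕ) {θ : ℝ} (h0 : 0 ≤ θ) (h1 : θ ≤ 1) (k : ℕ) :
    Nice1 (fG b M a kk θ k) := by
  unfold fG
  refine nice_add (nice_add (nice_add ?_ ?_) ?_) ?_
  · exact nice_cmul _ (nice_sq (nice_fMn b M a kk h0 h1 k))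
  · exact nice_cmul _ (nice_sq (nice_fFl b M a k))
  · exact nice_cmul _ (nice_sq (nice_fT2 b M a _ k))
  · refine nice_sum _ _ (fun j _ => nice_add ?_ ?_)
    · exact nice_sum _ _ (fun e _ => nice_cmul _ (nice_sq (nice_fEd b M a _ e k)))
    · exact nice_cmul _ (nice_sq (nice_fT4 b M a _ _ k))

theorem int_fG (b M a : Fin n → ℝ) (kk : Fin n → ℕ) {θ : ℝ} (h0 : 0 ≤ θ) (h1 : θ ≤ 1) (k : ℕ) :
    ∫ y, fG b M a kk θ k y = 5 * (∫ y, (fMn b M a kk θ k y) ^ 2) + 320 * (∫ y, (fFl b M a k y) ^ 2) +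
      1280 * (∫ y, (fT2 b M a (1 / 16 * (1 / 2) ^ k) k y) ^ 2) +
      ∑ j : Fin 3, (∑ e ∈ Finset.Icc (-(3 : ℤ)) 3, 3360 * (∫ y, (fEd b M a (xi θ j) e k y) ^ 2) +
        480 * (∫ y, (fT4 b M a (xi θ j) (1 / 16 * (1 / 2) ^ k) k y) ^ 2)) := by
  have i1 := nice_cmul 5 (nice_sq (nice_fMn b M a kk h0 h1 k))
  have i2 := nice_cmul 320 (nice_sq (nice_fFl b M a k))
  have i3 := nice_cmul 1280 (nice_sq (nice_fT2 b M a (1 / 16 * (1 / 2) ^ k) k))
  have i4 : ∀ j : Fin 3, ∀ e : ℤ, Nice1 (fun y => 3360 * (fEd b M a (xi θ j) e k y) ^ 2) :=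
    fun j e => nice_cmul 3360 (nice_sq (nice_fEd b M a _ e k))
  have i5 : ∀ j : Fin 3, Nice1 (fun y => 480 * (fT4 b M a (xi θ j) (1 / 16 * (1 / 2) ^ k) k y) ^ 2) :=
    fun j => nice_cmul 480 (nice_sq (nice_fT4 b M a _ _ k))
  have i6 : ∀ j : Fin 3, Nice1 (fun y => ∑ e ∈ Finset.Icc (-(3 : ℤ)) 3,
      3360 * (fEd b M a (xi θ j) e k y) ^ 2) := fun j => nice_sum _ _ (fun e _ => i4 j e)
  unfold fG
  rw [integral_add (nice_int (nice_add (nice_add i1 i2) i3))
    (nice_int (nice_sum _ _ (fun j _ => nice_add (i6 j) (i5 j)))),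
    integral_add (nice_int (nice_add i1 i2)) (nice_int i3),
    integral_add (nice_int i1) (nice_int i2), integral_const_mul, integral_const_mul,
    integral_const_mul, integral_finsetSum _ (fun j _ => nice_int (nice_add (i6 j) (i5 j)))]
  congr 1
  refine Finset.sum_congr rfl (fun j _ => ?_)
  rw [integral_add (nice_int (i6 j)) (nice_int (i5 j)), integral_const_mul,
    integral_finsetSum _ (fun e _ => nice_int (i4 j e))]
  congr 1
  refine Finset.sum_congr rfl (fun e _ => ?_)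
  rw [integral_const_mul]

theorem int_shift (b a : Fin n → ℝ) (e : ℝ) :
    ∫ y, (∑ i, a i * win (y - (b i + e))) ^ 2 = ∫ y, (∑ i, a i * win (y - b i)) ^ 2 := by
  rw [← integral_sub_right_eq_self (fun y => (∑ i, a i * win (y - b i)) ^ 2) e]
  congr 1
  funext y
  congr 1
  refine Finset.sum_congr rfl (fun i _ => ?_)
  congr 2
  ring

theorem nice_N (b a : Fin n → ℝ) : Nice1 (fun y => ∑ i, a i * win (y - b i)) := by
  refine nice_sum _ _ (fun i _ => nice_cmul _ ?_)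
  have h : (fun y => win (y - b i)) = fun y => win (y - b i + 0) := by funext y; rw [add_zero]
  rw [h]
  exact nice_win _ _

/-- windows of half length `8` -/
theorem int_W (b a : Fin n → ℝ) (ha : ∀ i, 0 ≤ a i) :
    ∫ y, (∑ i, a i * wd (b i) 8 y) ^ 2 ≤ 289 * ∫ y, (∑ i, a i * win (y - b i)) ^ 2 := by
  have hpt : ∀ y, (∑ i, a i * wd (b i) 8 y) ^ 2 ≤
      ∑ e ∈ Finset.Icc (-(8 : ℤ)) 8, 17 * (∑ i, a i * win (y - (b i + (e : ℝ)))) ^ 2 := by
    intro y
    have h1 : ∑ i, a i * wd (b i) 8 y ≤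
        ∑ e ∈ Finset.Icc (-(8 : ℤ)) 8, ∑ i, a i * win (y - (b i + (e : ℝ))) := by
      rw [Finset.sum_comm]
      refine Finset.sum_le_sum (fun i _ => ?_)
      rw [← Finset.mul_sum]
      apply mul_le_mul_of_nonneg_left _ (ha i)
      unfold wd
      split_ifs with h
      · have h2 := cover 8 (y - b i) (by push_cast; linarith)
        refine h2.trans (le_of_eq ?_)
        refine Finset.sum_congr rfl (fun e _ => ?_)
        congr 1; ring
      · exact Finset.sum_nonneg (fun e _ => win_nonneg _)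
    have h0 : 0 ≤ ∑ i, a i * wd (b i) 8 y :=
      Finset.sum_nonneg (fun i _ => mul_nonneg (ha i) (wd_nonneg _ _ _))
    refine (pow_le_pow_left₀ h0 h1 2).trans ?_
    refine (sq_sum_le_card_mul_sum_sq).trans ?_
    have hc : (Finset.Icc (-(8 : ℤ)) 8).card = 17 := by decide
    rw [hc, ← Finset.mul_sum]
    norm_num
  have hn : ∀ e : ℤ, Nice1 (fun y => 17 * (∑ i, a i * win (y - (b i + (e : ℝ)))) ^ 2) := fun e =>
    nice_cmul _ (nice_sq (nice_N (fun i => b i + (e : ℝ)) a))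
  have hW : Nice1 (fun y => (∑ i, a i * wd (b i) 8 y) ^ 2) :=
    nice_sq (nice_sum _ _ (fun i _ => nice_cmul _ (nice_wd _ _)))
  refine (integral_mono (nice_int hW) (nice_int (nice_sum _ _ (fun e _ => hn e))) hpt).trans ?_
  rw [integral_finsetSum _ (fun e _ => nice_int (hn e))]
  simp_rw [integral_const_mul, int_shift]
  rw [Finset.sum_const]
  have hc : (Finset.Icc (-(8 : ℤ)) 8).card = 17 := by decide
  rw [hc, nsmul_eq_mul]
  push_cast
  apply le_of_eq
  ring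

theorem int_T2 {C : ℝ} (hHL : ∀ (n : ℕ) (b h a : Fin n → ℝ), (∀ i, 0 ≤ a i) → (∀ i, 1 ≤ h i) →
    ∑ i, a i * (h i)⁻¹ * ∑ i', a i' * (if |b i - b i'| ≤ h i then 1 else 0) ≤
      C * ∫ y, (∑ i, a i * win (y - b i)) ^ 2)
    (b M a : Fin n → ℝ) (ha : ∀ i, 0 ≤ a i) {δ : ℝ} (hδ : 0 ≤ δ) (k : ℕ) :
    ∫ y, (fT2 b M a δ k y) ^ 2 ≤
      24 * δ ^ 2 * 2 * (C * ∫ y, (∑ i, a i * win (y - b i)) ^ 2) := by
  have h2k : (0 : ℝ) < 2 ^ k := by positivity
  unfold fT2
  refine pair_bound hHL b b (fun i => |M i| / 2 ^ k) a _ ha hδ (by norm_num) (le_refl 2) ?_ ?_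
  · intro i hi
    rw [Finset.mem_filter] at hi
    rw [le_div_iff₀ h2k]
    linarith [hi.2]
  · intro i _
    rw [sub_self, abs_zero]
    positivity

theorem int_T4 {C : ℝ} (hHL : ∀ (n : ℕ) (b h a : Fin n → ℝ), (∀ i, 0 ≤ a i) → (∀ i, 1 ≤ h i) →
    ∑ i, a i * (h i)⁻¹ * ∑ i', a i' * (if |b i - b i'| ≤ h i then 1 else 0) ≤
      C * ∫ y, (∑ i, a i * win (y - b i)) ^ 2)
    (b M a : Fin n → ℝ) (ha : ∀ i, 0 ≤ a i) {ξ δ : ℝ} (hξ : |ξ| ≤ 1) (hδ : 0 ≤ δ) (hδ1 : δ ≤ 1 / 16)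
    (k : ℕ) :
    ∫ y, (fT4 b M a ξ δ k y) ^ 2 ≤
      24 * 1 ^ 2 * (7 * δ) * (C * ∫ y, (∑ i, a i * win (y - b i)) ^ 2) := by
  have h2k : (0 : ℝ) < 2 ^ k := by positivity
  unfold fT4
  refine pair_bound hHL b (fun i => b i - ξ * (M i / 2 ^ k)) (fun i => |M i| / 2 ^ k) a _ ha
    (by norm_num) (by linarith) (by linarith) ?_ ?_
  · intro i hi
    rw [Finset.mem_filter] at hi
    rw [le_div_iff₀ h2k]
    linarith [hi.2]
  · intro i _
    have h3 : b i - ξ * (M i / 2 ^ k) - b i = -(ξ * (M i / 2 ^ k)) := by ring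
    rw [h3, abs_neg, abs_mul, abs_div, abs_of_pos h2k]
    have h4 : 0 ≤ |M i| / 2 ^ k := by positivity
    nlinarith

end integrals

/-! ### the leaf -/

theorem sqof : SQof := by
  rintro ⟨CH, hHL⟩ ⟨CE, hE⟩ ⟨CF, hF⟩ ⟨CM, hMain⟩
  refine ⟨1 / 16, by norm_num, 380 * 289 + 5 * CM + 320 * CF + 31520 * CH + 70560 * CE, ?_⟩
  intro u hu t K n p b m a kk b' m' k' Y ha hYm hYd hY
  classical
  set N2 := ∫ y, (∑ i, a i * win (y - b i)) ^ 2 with hN2
  set M : Fin n → ℝ := fun i => u (b i) - m i with hM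
  set θ : ℕ → ℝ := fun k => Int.fract (t * 2 ^ k) with hθ
  have hθ0 : ∀ k, 0 ≤ θ k := fun k => Int.fract_nonneg _
  have hθ1 : ∀ k, θ k < 1 := fun k => Int.fract_lt_one _
  have hN0 : 0 ≤ N2 := integral_nonneg (fun y => sq_nonneg _)
  -- the majorant
  set Φ : ℝ → ℝ := fun y => 380 * (∑ i, a i * wd (b i) 8 y) ^ 2 +
    ∑ k ∈ Finset.range K, fG b M a kk (θ k) k y with hΦ
  have hW : Nice1 (fun y => 380 * (∑ i, a i * wd (b i) 8 y) ^ 2) :=
    nice_cmul _ (nice_sq (nice_sum _ _ (fun i _ => nice_cmul _ (nice_wd _ _))))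
  have hGn : ∀ k, Nice1 (fG b M a kk (θ k) k) := fun k => nice_fG b M a kk (hθ0 k) (hθ1 k).le k
  have hGs : Nice1 (fun y => ∑ k ∈ Finset.range K, fG b M a kk (θ k) k y) :=
    nice_sum _ _ (fun k _ => hGn k)
  have hΦn : Nice1 Φ := nice_add hW hGs
  have hΦ0 : ∀ y, 0 ≤ Φ y := by
    intro y
    rw [hΦ]
    exact add_nonneg (by positivity) (Finset.sum_nonneg (fun k _ => fG_nonneg _ _ _ _ _ _ _))
  -- step A: pointwise
  have hA : ∀ q, ∀ y ∈ Y q,
      ∑ k ∈ Finset.Ico (k' q) K, (Dk t k b m a kk (b' q) (m' q)) ^ 2 ≤ Φ y := by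
    intro q y hy
    obtain ⟨hy1, hy2⟩ := hY q y hy
    have h1 : ∀ k ∈ Finset.Ico (k' q) K, (Dk t k b m a kk (b' q) (m' q)) ^ 2 ≤
        5 * (fS b M a (k' q) k y) ^ 2 + fG b M a kk (θ k) k y := by
      intro k hk
      rw [Finset.mem_Ico] at hk
      rw [Dk_eq]
      refine point_sq b M a kk (fun i => (m' q - m i) / 2 ^ k) ha (hθ0 k) (hθ1 k).le hk.1
        (by rw [abs_sub_comm]; exact hy1) ?_
      intro i
      have h2k : (0 : ℝ) < 2 ^ k := by positivity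
      have h2 : (m' q - m i) / 2 ^ k - M i / 2 ^ k = (-(u y - m' q) + (u y - u (b i))) / 2 ^ k := by
        rw [hM]; simp only; ring
      rw [h2, abs_div, abs_of_pos h2k]
      have h3 : |-(u y - m' q) + (u y - u (b i))| ≤ 2 ^ (k' q) + 1 / 16 * |y - b i| := by
        refine (abs_add_le _ _).trans ?_
        rw [abs_neg]
        exact add_le_add hy2 (hu y (b i))
      have h4 : (2 : ℝ) ^ (k' q) / 2 ^ k + 1 / 16 * (1 / 2) ^ k * |y - b i| =
          (2 ^ (k' q) + 1 / 16 * |y - b i|) / 2 ^ k := by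
        rw [one_div_pow]; field_simp
      rw [h4]
      exact div_le_div_of_nonneg_right h3 h2k.le
    refine (Finset.sum_le_sum h1).trans ?_
    rw [Finset.sum_add_distrib, ← Finset.mul_sum, hΦ]
    have h5 := small_sum (fun i => a i * wd (b i) 8 y) M
      (fun i => mul_nonneg (ha i) (wd_nonneg _ _ _)) (k' q) K
    have h6 : ∑ k ∈ Finset.Ico (k' q) K, fG b M a kk (θ k) k y ≤
        ∑ k ∈ Finset.range K, fG b M a kk (θ k) k y := by
      refine Finset.sum_le_sum_of_subset_of_nonneg ?_ (fun k _ _ => fG_nonneg _ _ _ _ _ _ _)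
      intro k hk
      rw [Finset.mem_Ico] at hk
      exact Finset.mem_range.mpr hk.2
    have h7 : ∑ k ∈ Finset.Ico (k' q) K, (fS b M a (k' q) k y) ^ 2 ≤
        76 * (∑ i, a i * wd (b i) 8 y) ^ 2 := h5
    simp only
    linarith
  -- step B: integrate over the disjoint sets
  have hfin : ∀ q, volume (Y q) < ⊤ := by
    intro q
    have : Y q ⊆ Set.Icc (b' q - 1 / 2) (b' q + 1 / 2) := by
      intro y hy
      have := abs_le.mp (hY q y hy).1
      exact ⟨by linarith [this.1], by linarith [this.2]⟩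
    exact lt_of_le_of_lt (measure_mono this) (by rw [Real.volume_Icc]; exact ENNReal.ofReal_lt_top)
  have hB : ∑ q, (volume (Y q)).toReal *
      ∑ k ∈ Finset.Ico (k' q) K, (Dk t k b m a kk (b' q) (m' q)) ^ 2 ≤ ∫ y, Φ y := by
    have h1 : ∀ q ∈ (Finset.univ : Finset (Fin p)), (volume (Y q)).toReal *
        ∑ k ∈ Finset.Ico (k' q) K, (Dk t k b m a kk (b' q) (m' q)) ^ 2 ≤ ∫ y in Y q, Φ y := by
      intro q _
      have h2 : (volume (Y q)).toReal *
          ∑ k ∈ Finset.Ico (k' q) K, (Dk t k b m a kk (b' q) (m' q)) ^ 2 =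
          ∫ _y in Y q, ∑ k ∈ Finset.Ico (k' q) K, (Dk t k b m a kk (b' q) (m' q)) ^ 2 := by
        rw [setIntegral_const, smul_eq_mul]; rfl
      rw [h2]
      refine setIntegral_mono_on ?_ (nice_int hΦn).integrableOn (hYm q) (hA q)
      exact integrableOn_const (hfin q).ne
    refine (Finset.sum_le_sum h1).trans ?_
    rw [← integral_biUnion_finset Finset.univ (fun q _ => hYm q)
      (fun i _ j _ hij => hYd hij) (fun q _ => (nice_int hΦn).integrableOn)]
    exact setIntegral_le_integral (nice_int hΦn) (Filter.Eventually.of_forall hΦ0)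
  refine hB.trans ?_
  -- step C: the integral of the majorant
  have hC1 : ∫ y, Φ y = 380 * (∫ y, (∑ i, a i * wd (b i) 8 y) ^ 2) +
      ∑ k ∈ Finset.range K, ∫ y, fG b M a kk (θ k) k y := by
    rw [hΦ]
    simp only
    rw [integral_add (nice_int hW) (nice_int hGs), integral_const_mul,
      integral_finsetSum _ (fun k _ => nice_int (hGn k))]
  rw [hC1]
  have hWb := int_W b a ha
  rw [← hN2] at hWb
  have hMn : ∑ k ∈ Finset.range K, ∫ y, (fMn b M a kk (θ k) k y) ^ 2 ≤ CM * N2 :=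
    hMain K n b M a kk θ ha (fun k => ⟨hθ0 k, hθ1 k⟩)
  have hFl : ∑ k ∈ Finset.range K, ∫ y, (fFl b M a k y) ^ 2 ≤ CF * N2 := hF K n b M a ha
  have hEd : ∀ (j : Fin 3) (e : ℤ),
      ∑ k ∈ Finset.range K, ∫ y, (fEd b M a (xi (θ k) j) e k y) ^ 2 ≤ CE * N2 := by
    intro j e
    have h1 := hE K n (fun i => b i + (e : ℝ)) M a (fun k => xi (θ k) j) ha
      (fun k => xi_abs (hθ0 k) (hθ1 k).le j)
    rw [int_shift, ← hN2] at h1
    exact h1
  set H := CH * N2 with hH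
  have hH0 : 0 ≤ H := by
    have h1 := hHL n b (fun _ => 1) a ha (fun _ => le_refl 1)
    rw [← hN2, ← hH] at h1
    refine le_trans ?_ h1
    refine Finset.sum_nonneg (fun i _ => ?_)
    have h5 : 0 ≤ ∑ i', a i' * (if |b i - b i'| ≤ 1 then (1 : ℝ) else 0) :=
      Finset.sum_nonneg (fun j _ => mul_nonneg (ha j) (by split_ifs <;> norm_num))
    have := ha i
    positivity
  have hT2 : ∑ k ∈ Finset.range K, ∫ y, (fT2 b M a (1 / 16 * (1 / 2) ^ k) k y) ^ 2 ≤ H := by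
    have h1 : ∀ k ∈ Finset.range K, ∫ y, (fT2 b M a (1 / 16 * (1 / 2) ^ k) k y) ^ 2 ≤
        (48 / 256 * H) * ((1 / 2 : ℝ) ^ k) ^ 2 := by
      intro k _
      refine (int_T2 hHL b M a ha (by positivity) k).trans (le_of_eq ?_)
      rw [← hN2, ← hH]
      ring
    refine (Finset.sum_le_sum h1).trans ?_
    rw [← Finset.mul_sum]
    have h2 := geo_quarter K
    nlinarith
  have hT4 : ∀ j : Fin 3,
      ∑ k ∈ Finset.range K, ∫ y, (fT4 b M a (xi (θ k) j) (1 / 16 * (1 / 2) ^ k) k y) ^ 2 ≤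
        21 * H := by
    intro j
    have h1 : ∀ k ∈ Finset.range K,
        ∫ y, (fT4 b M a (xi (θ k) j) (1 / 16 * (1 / 2) ^ k) k y) ^ 2 ≤
        (168 / 16 * H) * ((1 / 2 : ℝ) ^ k) := by
      intro k _
      have hhalf : (1 / 2 : ℝ) ^ k ≤ 1 := pow_le_one₀ (by norm_num) (by norm_num)
      refine (int_T4 hHL b M a ha (xi_abs (hθ0 k) (hθ1 k).le j) (by positivity)
        (by linarith) k).trans (le_of_eq ?_)
      rw [← hN2, ← hH]
      ring
    refine (Finset.sum_le_sum h1).trans ?_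
    rw [← Finset.mul_sum]
    have h2 := geo_half K
    nlinarith
  have hG : ∑ k ∈ Finset.range K, ∫ y, fG b M a kk (θ k) k y ≤
      5 * (CM * N2) + 320 * (CF * N2) + 1280 * H +
        ∑ _j : Fin 3, (∑ _e ∈ Finset.Icc (-(3 : ℤ)) 3, 3360 * (CE * N2) + 480 * (21 * H)) := by
    have h1 : ∑ k ∈ Finset.range K, ∫ y, fG b M a kk (θ k) k y =
        5 * (∑ k ∈ Finset.range K, ∫ y, (fMn b M a kk (θ k) k y) ^ 2) +
        320 * (∑ k ∈ Finset.range K, ∫ y, (fFl b M a k y) ^ 2) +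
        1280 * (∑ k ∈ Finset.range K, ∫ y, (fT2 b M a (1 / 16 * (1 / 2) ^ k) k y) ^ 2) +
        ∑ j : Fin 3, (∑ e ∈ Finset.Icc (-(3 : ℤ)) 3,
          3360 * (∑ k ∈ Finset.range K, ∫ y, (fEd b M a (xi (θ k) j) e k y) ^ 2) +
        480 * (∑ k ∈ Finset.range K,
          ∫ y, (fT4 b M a (xi (θ k) j) (1 / 16 * (1 / 2) ^ k) k y) ^ 2)) := by
      rw [Finset.sum_congr rfl (fun k _ => int_fG b M a kk (hθ0 k) (hθ1 k).le k)]
      rw [Finset.sum_add_distrib, Finset.sum_add_distrib, Finset.sum_add_distrib,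
        ← Finset.mul_sum, ← Finset.mul_sum, ← Finset.mul_sum]
      congr 1
      rw [Finset.sum_comm]
      refine Finset.sum_congr rfl (fun j _ => ?_)
      rw [Finset.sum_add_distrib, ← Finset.mul_sum]
      congr 1
      rw [Finset.sum_comm]
      refine Finset.sum_congr rfl (fun e _ => ?_)
      rw [← Finset.mul_sum]
    rw [h1]
    have h2 : ∑ j : Fin 3, (∑ e ∈ Finset.Icc (-(3 : ℤ)) 3,
          3360 * (∑ k ∈ Finset.range K, ∫ y, (fEd b M a (xi (θ k) j) e k y) ^ 2) +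
        480 * (∑ k ∈ Finset.range K,
          ∫ y, (fT4 b M a (xi (θ k) j) (1 / 16 * (1 / 2) ^ k) k y) ^ 2)) ≤
        ∑ _j : Fin 3, (∑ _e ∈ Finset.Icc (-(3 : ℤ)) 3, 3360 * (CE * N2) + 480 * (21 * H)) := by
      refine Finset.sum_le_sum (fun j _ => add_le_add (Finset.sum_le_sum (fun e _ => ?_)) ?_)
      · exact mul_le_mul_of_nonneg_left (hEd j e) (by norm_num)
      · exact mul_le_mul_of_nonneg_left (hT4 j) (by norm_num)
    linarith
  have hconst : ∑ _j : Fin 3, (∑ _e ∈ Finset.Icc (-(3 : ℤ)) 3, 3360 * (CE * N2) + 480 * (21 * H)) =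
      70560 * (CE * N2) + 30240 * H := by
    have hc : (Finset.Icc (-(3 : ℤ)) 3).card = 7 := by decide
    rw [Finset.sum_const, Finset.sum_const, hc, Finset.card_univ, Fintype.card_fin]
    simp only [nsmul_eq_mul]
    push_cast
    ring
  rw [hconst] at hG
  have hfin2 : (380 * 289 + 5 * CM + 320 * CF + 31520 * CH + 70560 * CE) * N2 =
      380 * (289 * N2) + 5 * (CM * N2) + 320 * (CF * N2) + 31520 * H + 70560 * (CE * N2) := by
    rw [hH]; ring
  rw [hfin2]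
  linarith

end Crest.Agent.R087.SQofx199
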