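import Crest.Agent.R087.ExTool_297

/-!
# Row 87, E2: the leaf `TB` (operator bounds for differences of averages)
-/

set_option autoImplicit false

noncomputable section

open MeasureTheory Set

namespace Crest.Agent.R087.TB2x297

open Crest.Agent.R087.E2x542 Crest.Agent.R087.ExToolx297

/-! ### mass of `Ex`, proportions -/

theorem int_Ex {H : ℝ → ℝ} (hH : Nice1 H) (l : ℤ) : ∫ y, Ex l H y = ∫ y, H y := by
  obtain ⟨M, R, hM0, hR0, hM, hR⟩ := Nice1.bounds hH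
  obtain ⟨N, hN⟩ := exists_nat_gt (R / 2 ^ l + 1)
  set S : Set ℝ := {y | |ix l y| ≤ (N : ℤ)} with hS
  have hSm : MeasurableSet S := measurable_ix l
    (Set.to_countable {n : ℤ | |n| ≤ (N : ℤ)}).measurableSet
  set g : ℝ → ℝ := S.indicator (fun _ => 1) with hg
  have hgc : CC l g := by
    intro x y h
    have hiff : (x ∈ S) ↔ (y ∈ S) := by simp only [hS, Set.mem_ofPred_eq, h]
    by_cases hx : x ∈ S
    · simp [hg, hx, hiff.1 hx]
    · have hy : y ∉ S := fun hy => hx (hiff.2 hy)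
      simp [hg, hx, hy]
  have hpos := two_zpow_pos l
  have hgN : Nice1 g := by
    refine ⟨measurable_const.indicator hSm, ⟨1, fun y => ?_⟩, (N + 1) * 2 ^ l, fun y hy => ?_⟩
    · simp only [hg, Set.indicator]; split_ifs <;> simp
    · have : y ∉ S := by
        intro hyS
        have h1 : |ix l y| ≤ (N : ℤ) := hyS
        have h2 := (mem_cell l (ix l y) y).2 rfl
        have h3 : (-(N : ℝ)) ≤ ix l y ∧ (ix l y : ℝ) ≤ N := by
          have := abs_le.1 h1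
          exact ⟨by exact_mod_cast this.1, by exact_mod_cast this.2⟩
        have h4 : |y| ≤ (N + 1) * 2 ^ l := by
          rw [abs_le]
          constructor <;> nlinarith [h2.1, h2.2]
        linarith
      simp [hg, this]
  have hfin : ∀ x, H x ≠ 0 → |ix l x| ≤ (N : ℤ) := by
    intro x hx
    have h1 : |x| ≤ R := by
      by_contra h
      exact hx (hR x (not_le.1 h))
    have h2 := (mem_cell l (ix l x) x).2 rfl
    have h3 : R / 2 ^ l < N - 1 := by linarith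
    rw [div_lt_iff₀ hpos] at h3
    have h4 := abs_le.1 h1
    rw [abs_le]
    constructor
    · have : (-(N : ℝ)) < ix l x + 1 := by
        by_contra hcon
        push Not at hcon
        nlinarith [h2.1, h2.2]
      have : (-(N : ℤ)) < ix l x + 1 := by exact_mod_cast this
      omega
    · have : (ix l x : ℝ) < N := by
        by_contra hcon
        push Not at hcon
        nlinarith [h2.1, h2.2]
      have : (ix l x) < (N : ℤ) := by exact_mod_cast this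
      omega
  have h1 := Ex_symm hH hgN l
  rw [Ex_of_CC hgc] at h1
  have h2 : (fun y => H y * g y) = H := by
    funext y
    by_cases h : H y = 0
    · simp [h]
    · have : y ∈ S := hfin y h
      simp [hg, this]
  have h3 : (fun y => Ex l H y * g y) = Ex l H := by
    funext y
    by_cases h : y ∈ S
    · simp [hg, h]
    · have h5 : Ex l H y = 0 := by
        rw [Ex_def']
        have h6 : ∀ x, (if ix l x = ix l y then H x else 0) = 0 := by
          intro x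
          split_ifs with h7
          · by_contra h8
            apply h
            have := hfin x h8
            simpa [hS, ← h7] using this
          · rfl
        simp [h6]
      simp [h5]
  rw [h2, h3] at h1
  exact h1

theorem frac_int {G : ℝ → ℝ} (hG : Nice1 G) {l : ℤ} (hc : CC l G) {α β : ℝ} (h0 : 0 ≤ α)
    (hab : α ≤ β) (h1 : β ≤ 1) :
    ∫ y, (if α ≤ Int.fract (y / 2 ^ l) ∧ Int.fract (y / 2 ^ l) < β then G y else 0)
      = (β - α) * ∫ y, G y := by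
  have hpos := two_zpow_pos l
  have hmf : Measurable fun y : ℝ => Int.fract (y / 2 ^ l) :=
    measurable_fract.comp (measurable_id.div_const _)
  set S : Set ℝ := {y | α ≤ Int.fract (y / 2 ^ l) ∧ Int.fract (y / 2 ^ l) < β} with hS
  have hSm : MeasurableSet S :=
    (measurableSet_le measurable_const hmf).inter (measurableSet_lt hmf measurable_const)
  have hN : Nice1 (S.indicator G) := Nice1.indicator hG hSm
  have h2 : ∀ y, (if α ≤ Int.fract (y / 2 ^ l) ∧ Int.fract (y / 2 ^ l) < β then G y else 0)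
      = S.indicator G y := by
    intro y
    simp [Set.indicator, hS]
  simp only [h2]
  rw [← int_Ex hN l, ← integral_const_mul]
  congr 1
  funext y
  rw [Ex_def]
  have hm : MeasurableSet {x | ix l x = ix l y} := measurable_ix l (measurableSet_singleton _)
  have h3 : ∫ x in {x | ix l x = ix l y}, S.indicator G x
      = ∫ x in {x | ix l x = ix l y}, S.indicator (fun _ => G y) x := by
    refine setIntegral_congr_fun hm fun x hx => ?_
    by_cases h : x ∈ S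
    · simp [h, hc x y hx]
    · simp [h]
  have h4 : {x | ix l x = ix l y} ∩ S
      = Set.Ico ((ix l y + α) * (2 : ℝ) ^ l) ((ix l y + β) * (2 : ℝ) ^ l) := by
    ext x
    simp only [Set.mem_inter_iff, Set.mem_ofPred_eq, hS, Set.mem_Ico]
    have h5 : Int.fract (x / 2 ^ l) = x / 2 ^ l - ix l x := rfl
    rw [← le_div_iff₀ hpos, ← div_lt_iff₀ hpos]
    constructor
    · rintro ⟨h6, h7, h8⟩
      rw [h5, h6] at h7 h8
      constructor <;> linarith
    · rintro ⟨h6, h7⟩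
      have h8 : ix l x = ix l y := by
        unfold ix at h6 h7 ⊢
        rw [Int.floor_eq_iff]
        constructor <;> linarith
      refine ⟨h8, ?_⟩
      rw [h5, h8]
      constructor <;> linarith
  rw [h3, setIntegral_indicator hSm, setIntegral_const, h4, Measure.real, Real.volume_Ico,
    ENNReal.toReal_ofReal (by nlinarith), smul_eq_mul]
  field_simp
  ring

/-! ### the shift lemma -/

theorem shift_sq_nonneg {g : ℝ → ℝ} (hg : Nice1 g) {l : ℤ} (hc : CC l g) {v : ℝ} (hv : 0 ≤ v) :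
    ∫ y, (g (y + v) - g y) ^ 2 ≤ 4 * (v / 2 ^ l) * ∫ y, (g y) ^ 2 := by
  have hpos := two_zpow_pos l
  have hI : 0 ≤ ∫ y, (g y) ^ 2 := integral_nonneg fun y => sq_nonneg _
  rcases le_or_gt (2 ^ l) v with h | h
  · have h1 := int_sub_sq (Nice1.shift hg v) hg
    have h2 : ∫ y, (g (y + v)) ^ 2 = ∫ y, (g y) ^ 2 := integral_shift (fun y => (g y) ^ 2) v
    have h3 : 1 ≤ v / 2 ^ l := by rwa [le_div_iff₀ hpos, one_mul]
    rw [h2] at h1
    nlinarith
  · have hq0 : 0 ≤ v / 2 ^ l := by positivity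
    have hq1 : v / 2 ^ l < 1 := by rwa [div_lt_one hpos]
    have hcs : CC l (fun y => (g y) ^ 2) := fun x y hxy => by simp only [hc x y hxy]
    set A : ℝ → ℝ := fun y => if 1 - v / 2 ^ l ≤ Int.fract (y / 2 ^ l) ∧ Int.fract (y / 2 ^ l) < 1
      then (g y) ^ 2 else 0 with hA
    set B : ℝ → ℝ := fun y => if 0 ≤ Int.fract (y / 2 ^ l) ∧ Int.fract (y / 2 ^ l) < v / 2 ^ l
      then (g y) ^ 2 else 0 with hB
    have hmf : Measurable fun y : ℝ => Int.fract (y / 2 ^ l) :=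
      measurable_fract.comp (measurable_id.div_const _)
    have hAN : Nice1 A := by
      have := Nice1.indicator (Nice1.sq hg) (S := {y | 1 - v / 2 ^ l ≤ Int.fract (y / 2 ^ l)
        ∧ Int.fract (y / 2 ^ l) < 1})
        ((measurableSet_le measurable_const hmf).inter (measurableSet_lt hmf measurable_const))
      convert this using 1
      funext y
      simp [hA, Set.indicator]
    have hBN : Nice1 B := by
      have := Nice1.indicator (Nice1.sq hg) (S := {y | 0 ≤ Int.fract (y / 2 ^ l)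
        ∧ Int.fract (y / 2 ^ l) < v / 2 ^ l})
        ((measurableSet_le measurable_const hmf).inter (measurableSet_lt hmf measurable_const))
      convert this using 1
      funext y
      simp [hB, Set.indicator]
    have iA : ∫ y, A y = (v / 2 ^ l) * ∫ y, (g y) ^ 2 := by
      have := frac_int (Nice1.sq hg) hcs (α := 1 - v / 2 ^ l) (β := 1) (by linarith) (by linarith)
        le_rfl
      rw [hA, this]; ring
    have iB : ∫ y, B y = (v / 2 ^ l) * ∫ y, (g y) ^ 2 := by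
      have := frac_int (Nice1.sq hg) hcs (α := 0) (β := v / 2 ^ l) le_rfl hq0 hq1.le
      rw [hB, this]; ring
    have hA0 : ∀ y, 0 ≤ A y := fun y => by
      simp only [hA]; split_ifs <;> positivity
    have hB0 : ∀ y, 0 ≤ B y := fun y => by
      simp only [hB]; split_ifs <;> positivity
    have hpt : ∀ y, (g (y + v) - g y) ^ 2 ≤ 2 * B (y + v) + 2 * A y := by
      intro y
      have e1 : (y + v) / 2 ^ l = y / 2 ^ l + v / 2 ^ l := by ring
      have f0 := Int.fract_nonneg (y / 2 ^ l)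
      have f1 := Int.fract_lt_one (y / 2 ^ l)
      have fe : Int.fract (y / 2 ^ l) = y / 2 ^ l - ix l y := rfl
      by_cases hfr : Int.fract (y / 2 ^ l) + v / 2 ^ l < 1
      · have h3 : ix l (y + v) = ix l y := by
          have : ⌊(y + v) / 2 ^ l⌋ = ix l y := by
            rw [Int.floor_eq_iff, e1]
            constructor <;> linarith
          exact this
        rw [hc _ _ h3]
        have := hA0 y; have := hB0 (y + v)
        nlinarith
      · push Not at hfr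
        have h3 : ix l (y + v) = ix l y + 1 := by
          have : ⌊(y + v) / 2 ^ l⌋ = ix l y + 1 := by
            rw [Int.floor_eq_iff, e1]
            push_cast
            constructor <;> linarith
          exact this
        have h4 : Int.fract ((y + v) / 2 ^ l) = (y + v) / 2 ^ l - ix l (y + v) := rfl
        have hAy : A y = (g y) ^ 2 := by
          simp only [hA]
          rw [if_pos ⟨by linarith, f1⟩]
        have h5 : Int.fract ((y + v) / 2 ^ l) < v / 2 ^ l := by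
          rw [h4, h3, e1]
          push_cast
          linarith
        have hBy : B (y + v) = (g (y + v)) ^ 2 := by
          simp only [hB]
          exact if_pos ⟨Int.fract_nonneg _, h5⟩
        rw [hAy, hBy]
        nlinarith [sq_nonneg (g (y + v) + g y)]
    have hBs : Nice1 (fun y => B (y + v)) := Nice1.shift hBN v
    calc ∫ y, (g (y + v) - g y) ^ 2 ≤ ∫ y, (2 * B (y + v) + 2 * A y) :=
          integral_mono (Nice1.integrable (Nice1.sq (Nice1.sub (Nice1.shift hg v) hg)))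
            (((Nice1.integrable hBs).const_mul 2).add ((Nice1.integrable hAN).const_mul 2)) hpt
      _ = 2 * (∫ y, B (y + v)) + 2 * ∫ y, A y := by
          rw [integral_add ((Nice1.integrable hBs).const_mul 2)
            ((Nice1.integrable hAN).const_mul 2), integral_const_mul, integral_const_mul]
      _ = 4 * (v / 2 ^ l) * ∫ y, (g y) ^ 2 := by
          rw [integral_shift, iA, iB]; ring

theorem shift_sq {g : ℝ → ℝ} (hg : Nice1 g) {l : ℤ} (hc : CC l g) (v : ℝ) :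
    ∫ y, (g (y + v) - g y) ^ 2 ≤ 4 * (|v| / 2 ^ l) * ∫ y, (g y) ^ 2 := by
  rcases le_or_gt 0 v with h | h
  · rw [abs_of_nonneg h]; exact shift_sq_nonneg hg hc h
  · rw [abs_of_neg h]
    have h1 := shift_sq_nonneg hg hc (v := -v) (by linarith)
    have h2 : ∫ y, (g (y + v) - g y) ^ 2 = ∫ y, (g (y + -v) - g y) ^ 2 := by
      rw [← integral_shift (fun y => (g (y + v) - g y) ^ 2) (-v)]
      congr 1
      funext y
      simp only [neg_add_cancel_right]
      ring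
    rw [h2]; exact h1

/-! ### Minkowski -/

/-- Cauchy-Schwarz on an interval -/
theorem cs_Ioc {φ : ℝ → ℝ} {a b : ℝ} (hab : a ≤ b) (h1 : IntegrableOn φ (Ioc a b))
    (h2 : IntegrableOn (fun x => (φ x) ^ 2) (Ioc a b)) :
    (∫ x in Ioc a b, φ x) ^ 2 ≤ (b - a) * ∫ x in Ioc a b, (φ x) ^ 2 := by
  rcases hab.eq_or_lt with h | h
  · simp [h]
  · set m : ℝ := (∫ x in Ioc a b, φ x) / (b - a) with hm
    have hba : 0 < b - a := by linarith
    have h3 : 0 ≤ ∫ x in Ioc a b, (φ x - m) ^ 2 := integral_nonneg fun x => sq_nonneg _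
    have hc : IntegrableOn (fun _ : ℝ => m ^ 2) (Ioc a b) := by
      simp
    have h4 : ∫ x in Ioc a b, (φ x - m) ^ 2
        = (∫ x in Ioc a b, (φ x) ^ 2) - 2 * m * (∫ x in Ioc a b, φ x) + m ^ 2 * (b - a) := by
      have e1 : ∀ x, (φ x - m) ^ 2 = ((φ x) ^ 2 - 2 * m * φ x) + m ^ 2 := fun x => by ring
      simp only [e1]
      have i1 : ∫ x in Ioc a b, (((φ x) ^ 2 - 2 * m * φ x) + m ^ 2)
          = (∫ x in Ioc a b, ((φ x) ^ 2 - 2 * m * φ x)) + ∫ x in Ioc a b, m ^ 2 :=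
        integral_add (h2.sub (h1.const_mul _)) hc
      have i2 : ∫ x in Ioc a b, ((φ x) ^ 2 - 2 * m * φ x)
          = (∫ x in Ioc a b, (φ x) ^ 2) - ∫ x in Ioc a b, 2 * m * φ x :=
        integral_sub h2 (h1.const_mul _)
      rw [i1, i2, integral_const_mul, setIntegral_const, Measure.real, Real.volume_Ioc,
        ENNReal.toReal_ofReal hba.le, smul_eq_mul]
      ring
    rw [h4, hm] at h3
    have h5 : 0 ≤ (b - a) * ((∫ x in Ioc a b, (φ x) ^ 2)
        - 2 * ((∫ x in Ioc a b, φ x) / (b - a)) * (∫ x in Ioc a b, φ x)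
        + ((∫ x in Ioc a b, φ x) / (b - a)) ^ 2 * (b - a)) := mul_nonneg hba.le h3
    have h6 : (b - a) * ((∫ x in Ioc a b, (φ x) ^ 2)
        - 2 * ((∫ x in Ioc a b, φ x) / (b - a)) * (∫ x in Ioc a b, φ x)
        + ((∫ x in Ioc a b, φ x) / (b - a)) ^ 2 * (b - a))
        = (b - a) * (∫ x in Ioc a b, (φ x) ^ 2) - (∫ x in Ioc a b, φ x) ^ 2 := by
      field_simp
      ring
    linarith

/-- data of a superposition `∫_a^b h x y dx` -/
structure Fam (h : ℝ → ℝ → ℝ) (a b : ℝ) : Prop where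
  meas : Measurable (Function.uncurry h)
  bdd : ∃ M : ℝ, 0 ≤ M ∧ ∀ x y, |h x y| ≤ M
  supp : ∃ R : ℝ, 0 ≤ R ∧ ∀ x, a ≤ x → x ≤ b → ∀ y, R < |y| → h x y = 0

theorem Fam.slice {h : ℝ → ℝ → ℝ} {a b : ℝ} (H : Fam h a b) (y : ℝ) :
    IntegrableOn (fun x => h x y) (Ioc a b) := by
  obtain ⟨M, hM0, hM⟩ := H.bdd
  refine Measure.integrableOn_of_bounded (M := M) measure_Ioc_lt_top.ne
    (H.meas.comp (measurable_id.prodMk measurable_const)).aestronglyMeasurable ?_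
  exact Filter.Eventually.of_forall fun x => by simpa using hM x y

theorem Fam.sq {h : ℝ → ℝ → ℝ} {a b : ℝ} (H : Fam h a b) : Fam (fun x y => (h x y) ^ 2) a b := by
  obtain ⟨M, hM0, hM⟩ := H.bdd
  obtain ⟨R, hR0, hR⟩ := H.supp
  refine ⟨H.meas.pow_const 2, ⟨M ^ 2, by positivity, fun x y => ?_⟩, R, hR0,
    fun x h1 h2 y hy => by simp [hR x h1 h2 y hy]⟩
  rw [abs_pow]
  exact pow_le_pow_left₀ (abs_nonneg _) (hM x y) 2

theorem Fam.integrable {h : ℝ → ℝ → ℝ} {a b : ℝ} (H : Fam h a b) :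
    Integrable (Function.uncurry h) ((volume.restrict (Ioc a b)).prod volume) := by
  obtain ⟨M, hM0, hM⟩ := H.bdd
  obtain ⟨R, hR0, hR⟩ := H.supp
  have h1 : Integrable ((Ioc a b ×ˢ (univ : Set ℝ)).indicator (Function.uncurry h))
      (volume.prod volume) := by
    refine integrable2 (M := M) (R := max R (max |a| |b|))
      (H.meas.indicator (measurableSet_Ioc.prod MeasurableSet.univ)) ?_ ?_
    · rintro ⟨x, y⟩
      by_cases h2 : (x, y) ∈ Ioc a b ×ˢ (univ : Set ℝ)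
      · rw [Set.indicator_of_mem h2]; exact hM x y
      · rw [Set.indicator_of_notMem h2]; simpa using hM0
    · rintro ⟨x, y⟩ hz
      by_cases h2 : (x, y) ∈ Ioc a b ×ˢ (univ : Set ℝ)
      · rw [Set.indicator_of_mem h2]
        have h3 : x ∈ Ioc a b := h2.1
        rw [Prod.norm_def, Real.norm_eq_abs, Real.norm_eq_abs] at hz
        have h4 : |x| ≤ max |a| |b| := by
          rw [abs_le]
          have := abs_le_max_abs_abs (le_of_lt h3.1) h3.2
          exact abs_le.1 this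
        rcases lt_max_iff.1 hz with h | h
        · exact absurd (lt_of_le_of_lt (le_max_right _ _) h) (not_lt.2 h4)
        · exact hR x h3.1.le h3.2 y ((le_max_left _ _).trans_lt h)
      · rw [Set.indicator_of_notMem h2]
  rw [integrable_indicator_iff (measurableSet_Ioc.prod MeasurableSet.univ)] at h1
  unfold IntegrableOn at h1
  rwa [← Measure.prod_restrict, Measure.restrict_univ] at h1

theorem Fam.nice {h : ℝ → ℝ → ℝ} {a b : ℝ} (H : Fam h a b) :
    Nice1 (fun y => ∫ x in Ioc a b, h x y) := by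
  obtain ⟨M, hM0, hM⟩ := H.bdd
  obtain ⟨R, hR0, hR⟩ := H.supp
  refine ⟨?_, ⟨M * max (b - a) 0, fun y => ?_⟩, R, fun y hy => ?_⟩
  · have h1 : StronglyMeasurable (fun z : ℝ × ℝ => h z.2 z.1) :=
      (H.meas.comp measurable_swap).stronglyMeasurable
    exact (h1.integral_prod_right' (ν := volume.restrict (Ioc a b))).measurable
  · have h2 := norm_setIntegral_le_of_norm_le_const (μ := volume) (f := fun x => h x y)
      (s := Ioc a b) (C := M) measure_Ioc_lt_top (fun x _ => by simpa using hM x y)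
    simpa using h2
  · have h3 : ∫ x in Ioc a b, h x y = ∫ x in Ioc a b, (0 : ℝ) :=
      setIntegral_congr_fun measurableSet_Ioc fun x hx => hR x hx.1.le hx.2 y hy
    change ∫ x in Ioc a b, h x y = 0
    rw [h3]; simp

theorem mink {h : ℝ → ℝ → ℝ} {a b : ℝ} (hab : a ≤ b) (H : Fam h a b) {B : ℝ}
    (hB : ∀ x, a ≤ x → x ≤ b → ∫ y, (h x y) ^ 2 ≤ B) :
    ∫ y, (∫ x in Ioc a b, h x y) ^ 2 ≤ (b - a) ^ 2 * B := by
  have hsq := H.sq
  have h1 : ∀ y, (∫ x in Ioc a b, h x y) ^ 2 ≤ (b - a) * ∫ x in Ioc a b, (h x y) ^ 2 :=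
    fun y => cs_Ioc hab (H.slice y) (hsq.slice y)
  have h2 : ∫ y, (∫ x in Ioc a b, h x y) ^ 2 ≤ ∫ y, (b - a) * ∫ x in Ioc a b, (h x y) ^ 2 :=
    integral_mono (Nice1.integrable (Nice1.sq H.nice)) ((Nice1.integrable hsq.nice).const_mul _) h1
  rw [integral_const_mul] at h2
  have h3 : ∫ y, ∫ x in Ioc a b, (h x y) ^ 2 = ∫ x in Ioc a b, ∫ y, (h x y) ^ 2 :=
    (integral_integral_swap (f := fun x y => (h x y) ^ 2) hsq.integrable).symm
  have h4 : ∫ x in Ioc a b, ∫ y, (h x y) ^ 2 ≤ ∫ x in Ioc a b, B := by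
    refine setIntegral_mono_on ?_ (by simp) measurableSet_Ioc
      fun x hx => hB x hx.1.le hx.2
    exact hsq.integrable.integral_prod_left
  have h5 : ∫ x in Ioc a b, B = (b - a) * B := by
    rw [setIntegral_const, Measure.real, Real.volume_Ioc, ENNReal.toReal_ofReal (by linarith),
      smul_eq_mul]
  rw [h3] at h2
  rw [h5] at h4
  calc ∫ y, (∫ x in Ioc a b, h x y) ^ 2 ≤ (b - a) * ∫ x in Ioc a b, ∫ y, (h x y) ^ 2 := h2
    _ ≤ (b - a) * ((b - a) * B) := mul_le_mul_of_nonneg_left h4 (by linarith)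
    _ = (b - a) ^ 2 * B := by ring

/-! ### superpositions of translates -/

theorem fam_shift {f : ℝ → ℝ} (hf : Nice1 f) (μ a b : ℝ) : Fam (fun x y => f (y + x * μ)) a b := by
  obtain ⟨M, R, hM0, hR0, hM, hR⟩ := Nice1.bounds hf
  refine ⟨?_, ⟨M, hM0, fun x y => hM _⟩, R + max |a| |b| * |μ|, by positivity,
    fun x h1 h2 y hy => ?_⟩
  · exact hf.1.comp (measurable_snd.add (measurable_fst.mul_const μ))
  · apply hR
    have h3 : |x| ≤ max |a| |b| := abs_le_max_abs_abs h1 h2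
    have h4 : |x * μ| ≤ max |a| |b| * |μ| := by
      rw [abs_mul]; exact mul_le_mul_of_nonneg_right h3 (abs_nonneg _)
    have := abs_sub_abs_le_abs_sub y (-(x * μ))
    rw [abs_neg, sub_neg_eq_add] at this
    linarith

theorem fam_diff {f : ℝ → ℝ} (hf : Nice1 f) (μ a b : ℝ) :
    Fam (fun x y => f (y + x * μ) - f y) a b := by
  have H := fam_shift hf μ a b
  obtain ⟨M, R, hM0, hR0, hM, hR⟩ := Nice1.bounds hf
  obtain ⟨M', hM0', hM'⟩ := H.bdd
  obtain ⟨R', hR0', hR'⟩ := H.supp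
  refine ⟨H.meas.sub (hf.1.comp measurable_snd), ⟨M' + M, by positivity, fun x y => ?_⟩,
    max R' R, by positivity, fun x h1 h2 y hy => ?_⟩
  · exact (abs_sub _ _).trans (add_le_add (hM' x y) (hM y))
  · rw [hR' x h1 h2 y ((le_max_left _ _).trans_lt hy), hR y ((le_max_right _ _).trans_lt hy)]
    simp

theorem ioc_eq (φ : ℝ → ℝ) {a b : ℝ} (hab : a ≤ b) : ∫ x in a..b, φ x = ∫ x in Ioc a b, φ x :=
  intervalIntegral.integral_of_le hab

/-- the two halves of `Tt` -/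
theorem Tt_eq (θ μ : ℝ) (f : ℝ → ℝ) (y : ℝ) :
    Tt θ μ f y = (∫ x in Ioc (-θ) (1 / 2 - θ), f (y + x * μ))
      - ∫ x in Ioc (1 / 2 - θ) (1 - θ), f (y + x * μ) := by
  unfold Tt
  rw [ioc_eq _ (by linarith), ioc_eq _ (by linarith)]

theorem Nice1.Tt {f : ℝ → ℝ} (hf : Nice1 f) (θ μ : ℝ) : Nice1 (Tt θ μ f) := by
  have e : E2x542.Tt θ μ f = fun y => (∫ x in Ioc (-θ) (1 / 2 - θ), f (y + x * μ))
      - ∫ x in Ioc (1 / 2 - θ) (1 - θ), f (y + x * μ) := by
    funext y; exact Tt_eq θ μ f y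
  rw [e]
  exact Nice1.sub (fam_shift hf μ _ _).nice (fam_shift hf μ _ _).nice

/-- subtracting the value at the centre -/
theorem Tt_eq' {f : ℝ → ℝ} (hf : Nice1 f) (θ μ y : ℝ) :
    E2x542.Tt θ μ f y = (∫ x in Ioc (-θ) (1 / 2 - θ), (f (y + x * μ) - f y))
      - ∫ x in Ioc (1 / 2 - θ) (1 - θ), (f (y + x * μ) - f y) := by
  rw [Tt_eq]
  have h1 : ∀ a b : ℝ, a ≤ b → ∫ x in Ioc a b, (f (y + x * μ) - f y)
      = (∫ x in Ioc a b, f (y + x * μ)) - (b - a) * f y := by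
    intro a b hab
    rw [integral_sub ((fam_shift hf μ a b).slice y) (by simp), setIntegral_const, Measure.real,
      Real.volume_Ioc, ENNReal.toReal_ofReal (by linarith), smul_eq_mul]
  rw [h1 _ _ (by linarith), h1 _ _ (by linarith)]
  ring

/-- trivial bound -/
theorem Tt_triv {f : ℝ → ℝ} (hf : Nice1 f) (θ μ : ℝ) :
    ∫ y, (E2x542.Tt θ μ f y) ^ 2 ≤ ∫ y, (f y) ^ 2 := by
  have hB : ∀ x : ℝ, ∫ y, (f (y + x * μ)) ^ 2 ≤ ∫ y, (f y) ^ 2 := fun x =>
    (integral_shift (fun y => (f y) ^ 2) (x * μ)).le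
  have h1 := mink (a := -θ) (b := 1 / 2 - θ) (by linarith) (fam_shift hf μ _ _)
    (fun x _ _ => hB x)
  have h2 := mink (a := 1 / 2 - θ) (b := 1 - θ) (by linarith) (fam_shift hf μ _ _)
    (fun x _ _ => hB x)
  have h3 := int_sub_sq (fam_shift hf μ (-θ) (1 / 2 - θ)).nice
    (fam_shift hf μ (1 / 2 - θ) (1 - θ)).nice
  simp only [Tt_eq]
  nlinarith

/-- coarse input, for cell-constant functions -/
theorem Tt_coarse {g : ℝ → ℝ} (hg : Nice1 g) {l : ℤ} (hc : CC l g) {θ : ℝ} (h0 : 0 ≤ θ)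
    (h1 : θ < 1) (μ : ℝ) :
    ∫ y, (E2x542.Tt θ μ g y) ^ 2 ≤ 4 * (|μ| / 2 ^ l) * ∫ y, (g y) ^ 2 := by
  have hpos := two_zpow_pos l
  have hI : 0 ≤ ∫ y, (g y) ^ 2 := integral_nonneg fun y => sq_nonneg _
  have hB : ∀ x : ℝ, |x| ≤ 1 → ∫ y, (g (y + x * μ) - g y) ^ 2
      ≤ 4 * (|μ| / 2 ^ l) * ∫ y, (g y) ^ 2 := by
    intro x hx
    refine (shift_sq hg hc (x * μ)).trans ?_
    refine mul_le_mul_of_nonneg_right (mul_le_mul_of_nonneg_left
      (div_le_div_of_nonneg_right ?_ hpos.le) (by norm_num)) hI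
    rw [abs_mul]
    nlinarith [abs_nonneg μ]
  have h2 := mink (a := -θ) (b := 1 / 2 - θ) (by linarith) (fam_diff hg μ _ _)
    (fun x hx hx' => hB x (abs_le.2 ⟨by linarith, by linarith⟩))
  have h3 := mink (a := 1 / 2 - θ) (b := 1 - θ) (by linarith) (fam_diff hg μ _ _)
    (fun x hx hx' => hB x (abs_le.2 ⟨by linarith, by linarith⟩))
  have h4 := int_sub_sq (fam_diff hg μ (-θ) (1 / 2 - θ)).nice
    (fam_diff hg μ (1 / 2 - θ) (1 - θ)).nice
  simp only [Tt_eq' hg]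
  have h5 : 0 ≤ (|μ| / 2 ^ l) * ∫ y, (g y) ^ 2 := by positivity
  nlinarith

/-! ### adjoint -/

theorem adj_half {f h : ℝ → ℝ} (hf : Nice1 f) (hh : Nice1 h) (μ a b : ℝ) :
    ∫ y, (∫ x in Ioc a b, f (y + x * μ)) * h y = ∫ y, f y * ∫ x in Ioc a b, h (y + x * (-μ)) := by
  have F1 : Fam (fun x y => f (y + x * μ) * h y) a b := by
    have H := fam_shift hf μ a b
    obtain ⟨M, R, hM0, hR0, hM, hR⟩ := Nice1.bounds hh
    obtain ⟨M', hM0', hM'⟩ := H.bdd
    refine ⟨H.meas.mul (hh.1.comp measurable_snd), ⟨M' * M, by positivity, fun x y => ?_⟩,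
      R, hR0, fun x _ _ y hy => by simp [hR y hy]⟩
    rw [abs_mul]; exact mul_le_mul (hM' x y) (hM y) (abs_nonneg _) hM0'
  have F2 : Fam (fun x y => f y * h (y + x * (-μ))) a b := by
    have H := fam_shift hh (-μ) a b
    obtain ⟨M, R, hM0, hR0, hM, hR⟩ := Nice1.bounds hf
    obtain ⟨M', hM0', hM'⟩ := H.bdd
    refine ⟨(hf.1.comp measurable_snd).mul H.meas, ⟨M * M', by positivity, fun x y => ?_⟩,
      R, hR0, fun x _ _ y hy => by simp [hR y hy]⟩
    rw [abs_mul]; exact mul_le_mul (hM y) (hM' x y) (abs_nonneg _) hM0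
  have s1 := integral_integral_swap (f := fun x y => f (y + x * μ) * h y) F1.integrable
  have s2 := integral_integral_swap (f := fun x y => f y * h (y + x * (-μ))) F2.integrable
  have e1 : ∀ y, (∫ x in Ioc a b, f (y + x * μ)) * h y = ∫ x in Ioc a b, f (y + x * μ) * h y :=
    fun y => (integral_mul_const _ _).symm
  have e2 : ∀ y, f y * (∫ x in Ioc a b, h (y + x * (-μ)))
      = ∫ x in Ioc a b, f y * h (y + x * (-μ)) :=
    fun y => (integral_const_mul _ _).symm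
  simp only [e1, e2]
  rw [← s1, ← s2]
  congr 1
  funext x
  rw [← integral_shift (fun y => f y * h (y + x * (-μ))) (x * μ)]
  congr 1
  funext y
  congr 2
  ring

theorem Tt_adj {f h : ℝ → ℝ} (hf : Nice1 f) (hh : Nice1 h) (θ μ : ℝ) :
    ∫ y, E2x542.Tt θ μ f y * h y = ∫ y, f y * E2x542.Tt θ (-μ) h y := by
  simp only [Tt_eq, sub_mul, mul_sub]
  rw [integral_sub (Nice1.integrable (Nice1.mul (fam_shift hf μ _ _).nice hh))
    (Nice1.integrable (Nice1.mul (fam_shift hf μ _ _).nice hh)),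
    integral_sub (Nice1.integrable (Nice1.mul hf (fam_shift hh (-μ) _ _).nice))
    (Nice1.integrable (Nice1.mul hf (fam_shift hh (-μ) _ _).nice)),
    adj_half hf hh, adj_half hf hh]

/-! ### duality: output bounds from input bounds -/

theorem dual {T T' : (ℝ → ℝ) → ℝ → ℝ} {l : ℤ} {K : ℝ} (hK : 0 ≤ K)
    (hT : ∀ f, Nice1 f → Nice1 (T f)) (hT' : ∀ f, Nice1 f → Nice1 (T' f))
    (hadj : ∀ f h, Nice1 f → Nice1 h → ∫ y, T f y * h y = ∫ y, f y * T' h y)
    (hin : ∀ h, Nice1 h → ∫ y, (T' (E2x542.Dl l h) y) ^ 2 ≤ K * ∫ y, (E2x542.Dl l h y) ^ 2)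
    {f : ℝ → ℝ} (hf : Nice1 f) :
    ∫ y, (E2x542.Dl l (T f) y) ^ 2 ≤ 4 * K * ∫ y, (f y) ^ 2 := by
  set u := E2x542.Dl l (T f) with hu
  have huN : Nice1 u := Nice1.Dl (hT f hf) l
  have hN0 : 0 ≤ ∫ y, (u y) ^ 2 := integral_nonneg fun y => sq_nonneg _
  have hF0 : 0 ≤ ∫ y, (f y) ^ 2 := integral_nonneg fun y => sq_nonneg _
  have e1 : ∫ y, (u y) ^ 2 = ∫ y, f y * T' (E2x542.Dl l u) y := by
    rw [← hadj f _ hf (Nice1.Dl huN l), ← Dl_symm (hT f hf) huN l]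
    congr 1; funext y; ring
  have h1 := cs_int hf (hT' _ (Nice1.Dl huN l))
  rw [← e1] at h1
  have h2 := hin u huN
  have h3 := Dl_bdd huN l
  have h4 : (∫ y, (u y) ^ 2) ^ 2 ≤ (4 * K * ∫ y, (f y) ^ 2) * ∫ y, (u y) ^ 2 := by
    calc (∫ y, (u y) ^ 2) ^ 2 ≤ (∫ y, (f y) ^ 2) * ∫ y, (T' (E2x542.Dl l u) y) ^ 2 := h1
      _ ≤ (∫ y, (f y) ^ 2) * (K * (4 * ∫ y, (u y) ^ 2)) := by
          refine mul_le_mul_of_nonneg_left (h2.trans ?_) hF0
          exact mul_le_mul_of_nonneg_left h3 hK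
      _ = _ := by ring
  rcases hN0.eq_or_lt with h | h
  · rw [← h]; positivity
  · have := h4
    rw [sq] at this
    exact le_of_mul_le_mul_right this h

/-! ### fine input -/

theorem int_cell_Ex {f : ℝ → ℝ} (hf : Nice1 f) {l m : ℤ} (hml : ∀ g, CC m g → CC l g) (n : ℤ) :
    ∫ x in {x | ix m x = n}, E2x542.Ex l f x = ∫ x in {x | ix m x = n}, f x := by
  have hm : MeasurableSet {x | ix m x = n} := measurable_ix m (measurableSet_singleton _)
  set g : ℝ → ℝ := {x | ix m x = n}.indicator (fun _ => 1) with hg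
  have hgc : CC m g := by
    intro x y h
    by_cases hx : ix m x = n
    · have hy : ix m y = n := h ▸ hx
      simp [hg, hx, hy]
    · have hy : ¬ ix m y = n := fun hy => hx (h.trans hy)
      simp [hg, hx, hy]
  have hgN : Nice1 g := by
    refine ⟨measurable_const.indicator hm, ⟨1, fun y => ?_⟩, (|(n : ℝ)| + 1) * 2 ^ m,
      fun y hy => ?_⟩
    · simp only [hg, Set.indicator]; split_ifs <;> simp
    · have hpos := two_zpow_pos m
      have : ¬ ix m y = n := by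
        intro h
        have h2 := (mem_cell m n y).2 h
        have h3 := abs_le.1 (le_refl |(n : ℝ)|)
        have h4 : |y| ≤ (|(n : ℝ)| + 1) * 2 ^ m := by
          rw [abs_le]
          constructor <;> nlinarith [h2.1, h2.2]
        linarith
      simp [hg, this]
  have h1 := Ex_symm hf hgN l
  rw [Ex_of_CC (hml g hgc)] at h1
  rw [← integral_indicator hm, ← integral_indicator hm]
  have e : ∀ φ : ℝ → ℝ, (fun y => φ y * g y) = {x | ix m x = n}.indicator φ := by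
    intro φ
    funext y
    by_cases h : ix m y = n
    · simp [hg, h]
    · simp [hg, h]
  rw [← e, ← e]
  exact h1

theorem cell_zero {f : ℝ → ℝ} (hf : Nice1 f) (l n : ℤ) :
    ∫ x in {x | ix (l + 1) x = n}, E2x542.Dl l f x = 0 := by
  unfold E2x542.Dl
  rw [integral_sub (Nice1.integrable (Nice1.Ex hf l)).integrableOn
    (Nice1.integrable (Nice1.Ex hf (l + 1))).integrableOn,
    int_cell_Ex hf (fun g hg => CC_mono hg) n, int_cell_Ex hf (fun g hg => hg) n, sub_self]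

theorem cell_zero' {f : ℝ → ℝ} (hf : Nice1 f) (l n : ℤ) :
    ∫ x in ((n : ℝ) * 2 ^ (l + 1))..((n + 1) * 2 ^ (l + 1)), E2x542.Dl l f x = 0 := by
  have hpos := two_zpow_pos (l + 1)
  rw [intervalIntegral.integral_of_le (by nlinarith), integral_Ioc_eq_integral_Ioo,
    ← integral_Ico_eq_integral_Ioo]
  have h : Set.Ico ((n : ℝ) * (2 : ℝ) ^ (l + 1)) ((n + 1) * (2 : ℝ) ^ (l + 1))
      = {x | ix (l + 1) x = n} := by
    ext x; exact mem_cell (l + 1) _ x
  rw [h]; exact cell_zero hf l n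

theorem prim_zero {f : ℝ → ℝ} (hf : Nice1 f) (l n : ℤ) :
    ∫ x in (0 : ℝ)..((n : ℝ) * 2 ^ (l + 1)), E2x542.Dl l f x = 0 := by
  have hii : ∀ a b : ℝ, IntervalIntegrable (E2x542.Dl l f) volume a b := fun a b =>
    (Nice1.integrable (Nice1.Dl hf l)).intervalIntegrable
  induction n using Int.induction_on with
  | zero => simp
  | succ k ih =>
    have h1 := cell_zero' hf l k
    have h2 := intervalIntegral.integral_add_adjacent_intervals
      (hii 0 (((k : ℤ) : ℝ) * 2 ^ (l + 1))) (hii _ ((((k : ℤ) : ℝ) + 1) * 2 ^ (l + 1)))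
    rw [ih, h1] at h2
    push_cast at h2 ⊢
    rw [← h2]; ring
  | pred k ih =>
    have h1 := cell_zero' hf l (-(k : ℤ) - 1)
    have h2 := intervalIntegral.integral_add_adjacent_intervals
      (hii 0 (((-(k : ℤ) - 1 : ℤ) : ℝ) * 2 ^ (l + 1)))
      (hii _ ((((-(k : ℤ) - 1 : ℤ) : ℝ) + 1) * 2 ^ (l + 1)))
    have e : ((((-(k : ℤ) - 1 : ℤ) : ℝ) + 1) * 2 ^ (l + 1)) = ((-(k : ℤ) : ℤ) : ℝ) * 2 ^ (l + 1) := by
      push_cast; ring
    rw [h1, e, ih] at h2
    linarith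

theorem prim_sq {f : ℝ → ℝ} (hf : Nice1 f) (l : ℤ) (a : ℝ) :
    (∫ x in (0 : ℝ)..a, E2x542.Dl l f x) ^ 2
      ≤ ((2 : ℝ) ^ (l + 1)) ^ 2 * E2x542.Ex (l + 1) (fun x => (E2x542.Dl l f x) ^ 2) a := by
  have hpos := two_zpow_pos (l + 1)
  have hD := Nice1.Dl hf l
  have hii : ∀ a b : ℝ, IntervalIntegrable (E2x542.Dl l f) volume a b := fun a b =>
    (Nice1.integrable hD).intervalIntegrable
  set n := ix (l + 1) a with hn
  have hna := (mem_cell (l + 1) n a).2 hn.symm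
  have h2 := intervalIntegral.integral_add_adjacent_intervals
    (hii 0 ((n : ℝ) * 2 ^ (l + 1))) (hii _ a)
  rw [prim_zero hf l n, zero_add] at h2
  rw [← h2, intervalIntegral.integral_of_le hna.1]
  have h3 := cs_Ioc hna.1 (Nice1.integrable hD).integrableOn
    (Nice1.integrable (Nice1.sq hD)).integrableOn
  refine h3.trans ?_
  have h4 : ∫ x in Ioc ((n : ℝ) * 2 ^ (l + 1)) a, (E2x542.Dl l f x) ^ 2
      ≤ ∫ x in {x | ix (l + 1) x = n}, (E2x542.Dl l f x) ^ 2 := by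
    have h5 : ∫ x in {x | ix (l + 1) x = n}, (E2x542.Dl l f x) ^ 2
        = ∫ x in Ioc ((n : ℝ) * 2 ^ (l + 1)) ((n + 1) * 2 ^ (l + 1)), (E2x542.Dl l f x) ^ 2 := by
      have h : {x | ix (l + 1) x = n}
          = Set.Ico ((n : ℝ) * (2 : ℝ) ^ (l + 1)) ((n + 1) * (2 : ℝ) ^ (l + 1)) := by
        ext x; exact (mem_cell (l + 1) _ x).symm
      rw [h, integral_Ico_eq_integral_Ioo, ← integral_Ioc_eq_integral_Ioo]
    rw [h5]
    refine setIntegral_mono_set (Nice1.integrable (Nice1.sq hD)).integrableOn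
      (Filter.Eventually.of_forall fun x => sq_nonneg _) ?_
    exact (Set.Ioc_subset_Ioc_right hna.2.le).eventuallyLE
  have h6 : 0 ≤ ∫ x in {x | ix (l + 1) x = n}, (E2x542.Dl l f x) ^ 2 :=
    integral_nonneg fun x => sq_nonneg _
  have h7 : 0 ≤ ∫ x in Ioc ((n : ℝ) * 2 ^ (l + 1)) a, (E2x542.Dl l f x) ^ 2 :=
    integral_nonneg fun x => sq_nonneg _
  rw [Ex_def, ← hn]
  calc (a - n * 2 ^ (l + 1)) * ∫ x in Ioc ((n : ℝ) * 2 ^ (l + 1)) a, (E2x542.Dl l f x) ^ 2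
      ≤ (2 : ℝ) ^ (l + 1) * ∫ x in {x | ix (l + 1) x = n}, (E2x542.Dl l f x) ^ 2 := by
        refine mul_le_mul ?_ h4 h7 hpos.le
        nlinarith [hna.2]
    _ = _ := by field_simp

theorem Tt_prim (θ : ℝ) {μ : ℝ} (hμ : μ ≠ 0) {g : ℝ → ℝ} (hg : Nice1 g) (y : ℝ) :
    E2x542.Tt θ μ g y = μ⁻¹ * (2 * (∫ x in (0 : ℝ)..(y + (1 / 2 - θ) * μ), g x)
      - (∫ x in (0 : ℝ)..(y + (-θ) * μ), g x) - ∫ x in (0 : ℝ)..(y + (1 - θ) * μ), g x) := by
  have hii : ∀ a b : ℝ, IntervalIntegrable g volume a b := fun a b =>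
    (Nice1.integrable hg).intervalIntegrable
  have h1 : ∀ a b : ℝ, ∫ x in a..b, g (y + x * μ)
      = μ⁻¹ * ((∫ x in (0 : ℝ)..(y + b * μ), g x) - ∫ x in (0 : ℝ)..(y + a * μ), g x) := by
    intro a b
    have h2 := intervalIntegral.integral_comp_add_mul (a := a) (b := b) g hμ y
    have h3 : ∀ x, g (y + x * μ) = g (y + μ * x) := fun x => by rw [mul_comm]
    simp only [h3]
    rw [h2, smul_eq_mul, intervalIntegral.integral_interval_sub_left (hii _ _) (hii _ _)]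
    congr 2 <;> ring
  unfold E2x542.Tt
  rw [h1, h1]
  ring

theorem Tt_fine {f : ℝ → ℝ} (hf : Nice1 f) (l : ℤ) (θ : ℝ) {μ : ℝ} (hμ : μ ≠ 0) :
    ∫ y, (E2x542.Tt θ μ (E2x542.Dl l f) y) ^ 2
      ≤ 64 * ((2 : ℝ) ^ l / |μ|) ^ 2 * ∫ y, (E2x542.Dl l f y) ^ 2 := by
  have hD := Nice1.Dl hf l
  set L : ℝ := (2 : ℝ) ^ (l + 1) with hL
  set E : ℝ → ℝ := E2x542.Ex (l + 1) (fun x => (E2x542.Dl l f x) ^ 2) with hE
  have hEN : Nice1 E := Nice1.Ex (Nice1.sq hD) (l + 1)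
  have hEi : ∫ y, E y = ∫ y, (E2x542.Dl l f y) ^ 2 := int_Ex (Nice1.sq hD) (l + 1)
  have hpt : ∀ y, (E2x542.Tt θ μ (E2x542.Dl l f) y) ^ 2
      ≤ (μ⁻¹) ^ 2 * L ^ 2 * (8 * E (y + (1 / 2 - θ) * μ) + 4 * E (y + (-θ) * μ)
        + 4 * E (y + (1 - θ) * μ)) := by
    intro y
    rw [Tt_prim θ hμ hD, mul_pow, mul_assoc]
    refine mul_le_mul_of_nonneg_left ?_ (sq_nonneg _)
    have p1 := prim_sq hf l (y + (1 / 2 - θ) * μ)
    have p2 := prim_sq hf l (y + (-θ) * μ)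
    have p3 := prim_sq hf l (y + (1 - θ) * μ)
    rw [← hL, ← hE] at p1 p2 p3
    set P1 := ∫ x in (0 : ℝ)..(y + (1 / 2 - θ) * μ), E2x542.Dl l f x
    set P2 := ∫ x in (0 : ℝ)..(y + (-θ) * μ), E2x542.Dl l f x
    set P3 := ∫ x in (0 : ℝ)..(y + (1 - θ) * μ), E2x542.Dl l f x
    have : (2 * P1 - P2 - P3) ^ 2 ≤ 8 * P1 ^ 2 + 4 * P2 ^ 2 + 4 * P3 ^ 2 := by
      nlinarith [sq_nonneg (2 * P1 + P2 + P3), sq_nonneg (P2 - P3)]
    nlinarith
  have i1 : Integrable fun y => E (y + (1 / 2 - θ) * μ) := Nice1.integrable (Nice1.shift hEN _)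
  have i2 : Integrable fun y => E (y + (-θ) * μ) := Nice1.integrable (Nice1.shift hEN _)
  have i3 : Integrable fun y => E (y + (1 - θ) * μ) := Nice1.integrable (Nice1.shift hEN _)
  have hint : ∫ y, (μ⁻¹) ^ 2 * L ^ 2 * (8 * E (y + (1 / 2 - θ) * μ) + 4 * E (y + (-θ) * μ)
        + 4 * E (y + (1 - θ) * μ)) = (μ⁻¹) ^ 2 * L ^ 2 * (16 * ∫ y, E y) := by
    rw [integral_const_mul]
    have j1 : ∫ y, (8 * E (y + (1 / 2 - θ) * μ) + 4 * E (y + (-θ) * μ)
        + 4 * E (y + (1 - θ) * μ)) = (∫ y, (8 * E (y + (1 / 2 - θ) * μ) + 4 * E (y + (-θ) * μ)))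
        + ∫ y, 4 * E (y + (1 - θ) * μ) :=
      integral_add ((i1.const_mul 8).add (i2.const_mul 4)) (i3.const_mul 4)
    have j2 : ∫ y, (8 * E (y + (1 / 2 - θ) * μ) + 4 * E (y + (-θ) * μ))
        = (∫ y, 8 * E (y + (1 / 2 - θ) * μ)) + ∫ y, 4 * E (y + (-θ) * μ) :=
      integral_add (i1.const_mul 8) (i2.const_mul 4)
    rw [j1, j2, integral_const_mul, integral_const_mul, integral_const_mul,
      integral_shift E, integral_shift E, integral_shift E]
    ring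
  have hmono := integral_mono (Nice1.integrable (Nice1.sq (Nice1.Tt hD θ μ)))
    ((((i1.const_mul 8).add (i2.const_mul 4)).add (i3.const_mul 4)).const_mul
      ((μ⁻¹) ^ 2 * L ^ 2)) hpt
  refine hmono.trans ?_
  have e : ∫ y, (fun y => (μ⁻¹) ^ 2 * L ^ 2 * (8 * E (y + (1 / 2 - θ) * μ) + 4 * E (y + (-θ) * μ)
        + 4 * E (y + (1 - θ) * μ))) y = (μ⁻¹) ^ 2 * L ^ 2 * (16 * ∫ y, E y) := hint
  refine (le_of_eq e).trans ?_
  rw [hEi, hL, zpow_add_one₀ two_ne_zero]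
  apply le_of_eq
  have hμ2 : |μ| ^ 2 = μ ^ 2 := sq_abs μ
  rw [div_pow, hμ2]
  field_simp
  ring

/-! ### differences in the parameter -/

/-- the two parameter operator on a one-variable profile -/
theorem prof (φ : ℝ → ℝ) (hφ : ∀ a b : ℝ, IntervalIntegrable φ volume a b) (θ : ℝ) {μ μ' : ℝ}
    (hμ : μ ≠ 0) (hμ' : μ' ≠ 0) :
    ((∫ x in (-θ)..(1 / 2 - θ), φ (x * μ)) - ∫ x in (1 / 2 - θ)..(1 - θ), φ (x * μ))
      - ((∫ x in (-θ)..(1 / 2 - θ), φ (x * μ')) - ∫ x in (1 / 2 - θ)..(1 - θ), φ (x * μ'))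
      = (1 - μ / μ') * ((∫ x in (-θ)..(1 / 2 - θ), φ (x * μ))
          - ∫ x in (1 / 2 - θ)..(1 - θ), φ (x * μ))
        + μ'⁻¹ * (2 * (∫ v in ((1 / 2 - θ) * μ')..((1 / 2 - θ) * μ), φ v)
          - (∫ v in ((-θ) * μ')..((-θ) * μ), φ v)
          - ∫ v in ((1 - θ) * μ')..((1 - θ) * μ), φ v) := by
  have h1 : ∀ (a b : ℝ) {ν : ℝ}, ν ≠ 0 → ∫ x in a..b, φ (x * ν)
      = ν⁻¹ * ((∫ x in (0 : ℝ)..(b * ν), φ x) - ∫ x in (0 : ℝ)..(a * ν), φ x) := by
    intro a b ν hν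
    rw [intervalIntegral.integral_comp_mul_right φ hν, smul_eq_mul,
      intervalIntegral.integral_interval_sub_left (hφ _ _) (hφ _ _)]
  have h2 : ∀ a b : ℝ, ∫ x in a..b, φ x
      = (∫ x in (0 : ℝ)..b, φ x) - ∫ x in (0 : ℝ)..a, φ x := fun a b =>
    (intervalIntegral.integral_interval_sub_left (hφ _ _) (hφ _ _)).symm
  rw [h1 _ _ hμ, h1 _ _ hμ, h1 _ _ hμ', h1 _ _ hμ', h2 ((1 / 2 - θ) * μ'), h2 ((-θ) * μ'),
    h2 ((1 - θ) * μ')]
  field_simp
  ring

/-- superposition over an unordered interval -/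
theorem mink' {h : ℝ → ℝ → ℝ} {a b : ℝ} (H : Fam h (min a b) (max a b)) {B : ℝ}
    (hB : ∀ x, min a b ≤ x → x ≤ max a b → ∫ y, (h x y) ^ 2 ≤ B) :
    Nice1 (fun y => ∫ x in a..b, h x y) ∧
      ∫ y, (∫ x in a..b, h x y) ^ 2 ≤ (b - a) ^ 2 * B := by
  have h1 := mink min_le_max H hB
  have h2 := H.nice
  rcases le_total a b with hab | hab
  · rw [min_eq_left hab, max_eq_right hab] at h1 h2
    have e : ∀ y, ∫ x in a..b, h x y = ∫ x in Ioc a b, h x y := fun y => ioc_eq _ hab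
    simp only [e]
    exact ⟨h2, h1⟩
  · rw [min_eq_right hab, max_eq_left hab] at h1 h2
    have e : ∀ y, ∫ x in a..b, h x y = (-1) * ∫ x in Ioc b a, h x y := fun y => by
      rw [intervalIntegral.integral_symm, ioc_eq _ hab]; ring
    simp only [e]
    refine ⟨Nice1.smul h2 (-1), ?_⟩
    have e2 : ∀ y, ((-1) * ∫ x in Ioc b a, h x y) ^ 2 = (∫ x in Ioc b a, h x y) ^ 2 :=
      fun y => by ring
    simp only [e2]
    calc _ ≤ (a - b) ^ 2 * B := h1
      _ = (b - a) ^ 2 * B := by ring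

/-- four terms -/
theorem four {A B C D : ℝ → ℝ} (hA : Nice1 A) (hB : Nice1 B) (hC : Nice1 C) (hD : Nice1 D) :
    ∫ y, (A y + (B y - C y - D y)) ^ 2
      ≤ 4 * ((∫ y, (A y) ^ 2) + (∫ y, (B y) ^ 2) + (∫ y, (C y) ^ 2) + ∫ y, (D y) ^ 2) := by
  have iA := Nice1.integrable (Nice1.sq hA)
  have iB := Nice1.integrable (Nice1.sq hB)
  have iC := Nice1.integrable (Nice1.sq hC)
  have iD := Nice1.integrable (Nice1.sq hD)
  have h1 : ∫ y, (A y + (B y - C y - D y)) ^ 2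
      ≤ ∫ y, 4 * ((A y) ^ 2 + (B y) ^ 2 + (C y) ^ 2 + (D y) ^ 2) := by
    refine integral_mono (Nice1.integrable (Nice1.sq (Nice1.add hA (Nice1.sub (Nice1.sub hB hC) hD))))
      ((((iA.add iB).add iC).add iD).const_mul 4) ?_
    intro y
    simp only
    nlinarith [sq_nonneg (A y - B y), sq_nonneg (A y + C y), sq_nonneg (A y + D y),
      sq_nonneg (B y + C y), sq_nonneg (B y + D y), sq_nonneg (C y - D y)]
  refine h1.trans (le_of_eq ?_)
  have j1 : ∫ y, ((A y) ^ 2 + (B y) ^ 2 + (C y) ^ 2 + (D y) ^ 2)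
      = (∫ y, ((A y) ^ 2 + (B y) ^ 2 + (C y) ^ 2)) + ∫ y, (D y) ^ 2 :=
    integral_add ((iA.add iB).add iC) iD
  have j2 : ∫ y, ((A y) ^ 2 + (B y) ^ 2 + (C y) ^ 2)
      = (∫ y, ((A y) ^ 2 + (B y) ^ 2)) + ∫ y, (C y) ^ 2 :=
    integral_add (iA.add iB) iC
  have j3 : ∫ y, ((A y) ^ 2 + (B y) ^ 2) = (∫ y, (A y) ^ 2) + ∫ y, (B y) ^ 2 :=
    integral_add iA iB
  rw [integral_const_mul, j1, j2, j3]

/-- abstract difference bound: `h v y` is either `f (y + v)` or `f (y + v) - f y` -/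
theorem diff_core {h : ℝ → ℝ → ℝ} (hF : ∀ a b, Fam h a b) {θ μ μ' : ℝ} (h0 : 0 ≤ θ) (h1 : θ < 1)
    (hμ : μ ≠ 0) (hd : |μ' - μ| ≤ |μ| / 2) {X X0 : ℝ}
    (hX : ∀ v, |v| ≤ 3 / 2 * |μ| → ∫ y, (h v y) ^ 2 ≤ X) {T T' : ℝ → ℝ}
    (hT : Nice1 T)
    (eT : ∀ y, T y = (∫ x in (-θ)..(1 / 2 - θ), h (x * μ) y)
      - ∫ x in (1 / 2 - θ)..(1 - θ), h (x * μ) y)
    (eT' : ∀ y, T' y = (∫ x in (-θ)..(1 / 2 - θ), h (x * μ') y)
      - ∫ x in (1 / 2 - θ)..(1 - θ), h (x * μ') y)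
    (hX0 : ∫ y, (T y) ^ 2 ≤ X0) :
    ∫ y, (T y - T' y) ^ 2 ≤ 16 * (|μ' - μ| / |μ|) ^ 2 * (X0 + 2 * X) := by
  have hμa : 0 < |μ| := abs_pos.2 hμ
  have hμ'2 : |μ| / 2 ≤ |μ'| := by
    have := abs_sub_abs_le_abs_sub μ μ'
    rw [abs_sub_comm] at this
    linarith
  have hμ'u : |μ'| ≤ 3 / 2 * |μ| := by
    have := abs_sub_abs_le_abs_sub μ' μ
    linarith
  have hμ'0 : 0 < |μ'| := by linarith
  have hμ' : μ' ≠ 0 := abs_pos.1 hμ'0
  have hX00 : 0 ≤ X0 := (integral_nonneg fun y => sq_nonneg _).trans hX0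
  have hXn : 0 ≤ X := (integral_nonneg fun y => sq_nonneg _).trans
    (hX 0 (by simp))
  -- the three small averages
  have hS : ∀ c : ℝ, |c| ≤ 1 → Nice1 (fun y => ∫ v in (c * μ')..(c * μ), h v y) ∧
      ∫ y, (∫ v in (c * μ')..(c * μ), h v y) ^ 2 ≤ (c * μ - c * μ') ^ 2 * X := by
    intro c hc
    refine mink' (hF _ _) fun v hv1 hv2 => hX v ?_
    have a1 : |c * μ'| ≤ 3 / 2 * |μ| := by
      rw [abs_mul]; nlinarith [abs_nonneg c, abs_nonneg μ']
    have a2 : |c * μ| ≤ 3 / 2 * |μ| := by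
      rw [abs_mul]; nlinarith [abs_nonneg c, abs_nonneg μ]
    have b1 := abs_le.1 a1
    have b2 := abs_le.1 a2
    rw [abs_le]
    constructor
    · exact (le_min b1.1 b2.1).trans hv1
    · exact hv2.trans (max_le b1.2 b2.2)
  obtain ⟨n1, s1⟩ := hS (1 / 2 - θ) (abs_le.2 ⟨by linarith, by linarith⟩)
  obtain ⟨n2, s2⟩ := hS (-θ) (abs_le.2 ⟨by linarith, by linarith⟩)
  obtain ⟨n3, s3⟩ := hS (1 - θ) (abs_le.2 ⟨by linarith, by linarith⟩)
  have hslice : ∀ y a b, IntervalIntegrable (fun v => h v y) volume a b := by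
    intro y a b
    rw [intervalIntegrable_iff]
    exact (hF (min a b) (max a b)).slice y
  have e : ∀ y, T y - T' y = (1 - μ / μ') * T y
      + (μ'⁻¹ * 2 * (∫ v in ((1 / 2 - θ) * μ')..((1 / 2 - θ) * μ), h v y)
        - μ'⁻¹ * (∫ v in ((-θ) * μ')..((-θ) * μ), h v y)
        - μ'⁻¹ * ∫ v in ((1 - θ) * μ')..((1 - θ) * μ), h v y) := by
    intro y
    have := prof (fun v => h v y) (hslice y) θ hμ hμ'
    rw [eT, eT', this]
    ring
  simp only [e]
  refine (four (Nice1.smul hT _) (Nice1.smul n1 _) (Nice1.smul n2 _) (Nice1.smul n3 _)).trans ?_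
  simp only [mul_pow]
  rw [integral_const_mul, integral_const_mul, integral_const_mul, integral_const_mul]
  set r := |μ' - μ| with hr
  have hr2 : (μ - μ') ^ 2 = r ^ 2 := by rw [hr, sq_abs]; ring
  have hμ's : |μ'| ^ 2 = μ' ^ 2 := sq_abs μ'
  have k1 : (1 - μ / μ') ^ 2 = (r / |μ'|) ^ 2 := by
    rw [div_pow, hμ's, ← hr2]; field_simp; ring
  have k2 : (μ'⁻¹) ^ 2 * r ^ 2 = (r / |μ'|) ^ 2 := by
    rw [div_pow, hμ's, ← hr2]; field_simp
  have k3 : (r / |μ'|) ^ 2 ≤ 4 * (r / |μ|) ^ 2 := by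
    have hr0 : 0 ≤ r := abs_nonneg _
    have : r / |μ'| ≤ 2 * (r / |μ|) := by
      rw [div_le_iff₀ hμ'0]
      have e3 : 2 * (r / |μ|) * |μ'| = r * (2 * |μ'| / |μ|) := by ring
      rw [e3]
      have : 1 ≤ 2 * |μ'| / |μ| := by rw [le_div_iff₀ hμa]; linarith
      nlinarith
    calc (r / |μ'|) ^ 2 ≤ (2 * (r / |μ|)) ^ 2 := pow_le_pow_left₀ (by positivity) this 2
      _ = _ := by ring
  have t1 : ((1 / 2 - θ) * μ - (1 / 2 - θ) * μ') ^ 2 * X ≤ (1 / 4) * (r ^ 2 * X) := by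
    have : ((1 / 2 - θ) * μ - (1 / 2 - θ) * μ') ^ 2 = (1 / 2 - θ) ^ 2 * r ^ 2 := by
      rw [← hr2]; ring
    rw [this, mul_assoc]
    exact mul_le_mul_of_nonneg_right (by nlinarith) (by positivity)
  have t2 : ((-θ) * μ - (-θ) * μ') ^ 2 * X = θ ^ 2 * (r ^ 2 * X) := by
    rw [← hr2]; ring
  have t3 : ((1 - θ) * μ - (1 - θ) * μ') ^ 2 * X = (1 - θ) ^ 2 * (r ^ 2 * X) := by
    rw [← hr2]; ring
  rw [t2] at s2
  rw [t3] at s3
  have s1' := s1.trans t1
  have hrX : 0 ≤ r ^ 2 * X := by positivity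
  have hθ2 : θ ^ 2 + (1 - θ) ^ 2 ≤ 1 := by nlinarith
  have hsum : (1 - μ / μ') ^ 2 * (∫ y, (T y) ^ 2)
      + (μ'⁻¹) ^ 2 * 2 ^ 2 * (∫ y, (∫ v in ((1 / 2 - θ) * μ')..((1 / 2 - θ) * μ), h v y) ^ 2)
      + (μ'⁻¹) ^ 2 * (∫ y, (∫ v in ((-θ) * μ')..((-θ) * μ), h v y) ^ 2)
      + (μ'⁻¹) ^ 2 * (∫ y, (∫ v in ((1 - θ) * μ')..((1 - θ) * μ), h v y) ^ 2)
      ≤ (r / |μ'|) ^ 2 * (X0 + 2 * X) := by
    have q0 : 0 ≤ (μ'⁻¹) ^ 2 := sq_nonneg _
    have u1 : (1 - μ / μ') ^ 2 * (∫ y, (T y) ^ 2) ≤ (r / |μ'|) ^ 2 * X0 := by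
      rw [k1]; exact mul_le_mul_of_nonneg_left hX0 (sq_nonneg _)
    have u2 := mul_le_mul_of_nonneg_left s1' q0
    have u3 := mul_le_mul_of_nonneg_left s2 q0
    have u4 := mul_le_mul_of_nonneg_left s3 q0
    set Z : ℝ := (r / |μ'|) ^ 2 * X with hZ
    have u6 : 0 ≤ Z := by positivity
    have v2 : (μ'⁻¹) ^ 2 * (1 / 4 * (r ^ 2 * X)) = 1 / 4 * Z := by rw [hZ, ← k2]; ring
    have v3 : (μ'⁻¹) ^ 2 * (θ ^ 2 * (r ^ 2 * X)) = θ ^ 2 * Z := by rw [hZ, ← k2]; ring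
    have v4 : (μ'⁻¹) ^ 2 * ((1 - θ) ^ 2 * (r ^ 2 * X)) = (1 - θ) ^ 2 * Z := by
      rw [hZ, ← k2]; ring
    rw [v2] at u2
    rw [v3] at u3
    rw [v4] at u4
    have v5 : θ ^ 2 * Z + (1 - θ) ^ 2 * Z ≤ Z := by
      have := mul_le_mul_of_nonneg_right hθ2 u6
      linarith
    have v6 : (r / |μ'|) ^ 2 * (X0 + 2 * X) = (r / |μ'|) ^ 2 * X0 + 2 * Z := by
      rw [hZ]; ring
    rw [v6]
    linarith
  have hfin : (r / |μ'|) ^ 2 * (X0 + 2 * X) ≤ 4 * (r / |μ|) ^ 2 * (X0 + 2 * X) :=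
    mul_le_mul_of_nonneg_right k3 (by positivity)
  linarith

theorem fam1 {f : ℝ → ℝ} (hf : Nice1 f) (a b : ℝ) : Fam (fun v y => f (y + v)) a b := by
  have := fam_shift hf 1 a b
  simpa using this

theorem fam2 {f : ℝ → ℝ} (hf : Nice1 f) (a b : ℝ) : Fam (fun v y => f (y + v) - f y) a b := by
  have := fam_diff hf 1 a b
  simpa using this

theorem Tt_diff {f : ℝ → ℝ} (hf : Nice1 f) {θ μ μ' : ℝ} (h0 : 0 ≤ θ) (h1 : θ < 1)
    (hμ : μ ≠ 0) (hd : |μ' - μ| ≤ |μ| / 2) :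
    ∫ y, (E2x542.Tt θ μ f y - E2x542.Tt θ μ' f y) ^ 2
      ≤ 48 * (|μ' - μ| / |μ|) ^ 2 * ∫ y, (f y) ^ 2 := by
  have h := diff_core (h := fun v y => f (y + v)) (fam1 hf) h0 h1 hμ hd
    (X := ∫ y, (f y) ^ 2) (X0 := ∫ y, (f y) ^ 2)
    (fun v _ => (integral_shift (fun y => (f y) ^ 2) v).le) (Nice1.Tt hf θ μ)
    (T' := E2x542.Tt θ μ' f) (fun y => rfl) (fun y => rfl) (Tt_triv hf θ μ)
  refine h.trans (le_of_eq ?_)
  ring

theorem Tt_diff_coarse {g : ℝ → ℝ} (hg : Nice1 g) {l : ℤ} (hc : CC l g) {θ μ μ' : ℝ}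
    (h0 : 0 ≤ θ) (h1 : θ < 1) (hμ : μ ≠ 0) (hd : |μ' - μ| ≤ |μ| / 2) :
    ∫ y, (E2x542.Tt θ μ g y - E2x542.Tt θ μ' g y) ^ 2
      ≤ 256 * (|μ' - μ| / |μ|) ^ 2 * (|μ| / 2 ^ l) * ∫ y, (g y) ^ 2 := by
  have hpos := two_zpow_pos l
  have hI : 0 ≤ ∫ y, (g y) ^ 2 := integral_nonneg fun y => sq_nonneg _
  have eT : ∀ ν y, E2x542.Tt θ ν g y = (∫ x in (-θ)..(1 / 2 - θ), (g (y + x * ν) - g y))
      - ∫ x in (1 / 2 - θ)..(1 - θ), (g (y + x * ν) - g y) := by
    intro ν y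
    rw [Tt_eq' hg, ioc_eq _ (by linarith), ioc_eq _ (by linarith)]
  have h := diff_core (h := fun v y => g (y + v) - g y) (fam2 hg) h0 h1 hμ hd
    (X := 6 * (|μ| / 2 ^ l) * ∫ y, (g y) ^ 2) (X0 := 4 * (|μ| / 2 ^ l) * ∫ y, (g y) ^ 2)
    (fun v hv => ?_) (Nice1.Tt hg θ μ)
    (T' := E2x542.Tt θ μ' g) (eT μ) (eT μ') (Tt_coarse hg hc h0 h1 μ)
  · refine h.trans (le_of_eq ?_)
    ring
  · refine (shift_sq hg hc v).trans ?_
    refine mul_le_mul_of_nonneg_right ?_ hI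
    have : |v| / 2 ^ l ≤ (3 / 2 * |μ|) / 2 ^ l := div_le_div_of_nonneg_right hv hpos.le
    calc 4 * (|v| / 2 ^ l) ≤ 4 * ((3 / 2 * |μ|) / 2 ^ l) := by linarith
      _ = 6 * (|μ| / 2 ^ l) := by ring

/-! ### the leaf -/

theorem tb : TB := by
  refine ⟨1024, ?_⟩
  intro θ μ l f h0 h1 hμ hf
  have hpos := two_zpow_pos l
  have hD := Nice1.Dl hf l
  have hI : 0 ≤ ∫ y, (f y) ^ 2 := integral_nonneg fun y => sq_nonneg _
  have hJ : 0 ≤ ∫ y, (E2x542.Dl l f y) ^ 2 := integral_nonneg fun y => sq_nonneg _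
  have hq : 0 ≤ |μ| / 2 ^ l := by positivity
  have hq2 : 0 ≤ ((2 : ℝ) ^ l / |μ|) ^ 2 := by positivity
  have hμn : -μ ≠ 0 := neg_ne_zero.2 hμ
  have hadj : ∀ ν : ℝ, ∀ f h, Nice1 f → Nice1 h →
      ∫ y, E2x542.Tt θ ν f y * h y = ∫ y, f y * E2x542.Tt θ (-ν) h y :=
    fun ν f h hf hh => Tt_adj hf hh θ ν
  refine ⟨Nice1.Tt hf θ μ, ?_, ?_, ?_, ?_, ?_⟩
  · refine (Tt_coarse hD (CC_Dl l f) h0 h1 μ).trans ?_
    have : 0 ≤ (|μ| / 2 ^ l) * ∫ y, (E2x542.Dl l f y) ^ 2 := by positivity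
    nlinarith
  · refine (Tt_fine hf l θ hμ).trans ?_
    have : 0 ≤ ((2 : ℝ) ^ l / |μ|) ^ 2 * ∫ y, (E2x542.Dl l f y) ^ 2 := by positivity
    nlinarith
  · have h := dual (T := E2x542.Tt θ μ) (T' := E2x542.Tt θ (-μ)) (l := l)
      (K := 4 * (|μ| / 2 ^ l)) (by positivity) (fun f hf => Nice1.Tt hf θ μ)
      (fun f hf => Nice1.Tt hf θ (-μ)) (hadj μ)
      (fun h hh => by
        have := Tt_coarse (Nice1.Dl hh l) (CC_Dl l h) h0 h1 (-μ)
        rwa [abs_neg] at this) hf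
    refine h.trans ?_
    have : 0 ≤ (|μ| / 2 ^ l) * ∫ y, (f y) ^ 2 := by positivity
    nlinarith
  · have h := dual (T := E2x542.Tt θ μ) (T' := E2x542.Tt θ (-μ)) (l := l)
      (K := 64 * ((2 : ℝ) ^ l / |μ|) ^ 2) (by positivity) (fun f hf => Nice1.Tt hf θ μ)
      (fun f hf => Nice1.Tt hf θ (-μ)) (hadj μ)
      (fun h hh => by
        have := Tt_fine hh l θ hμn
        rwa [abs_neg] at this) hf
    refine h.trans ?_
    have : 0 ≤ ((2 : ℝ) ^ l / |μ|) ^ 2 * ∫ y, (f y) ^ 2 := by positivity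
    nlinarith
  · intro μ' hd
    have hr : 0 ≤ (|μ' - μ| / |μ|) ^ 2 := sq_nonneg _
    refine ⟨?_, fun _ => ?_, fun _ => ?_⟩
    · refine (Tt_diff hf h0 h1 hμ hd).trans ?_
      have : 0 ≤ (|μ' - μ| / |μ|) ^ 2 * ∫ y, (f y) ^ 2 := by positivity
      nlinarith
    · refine (Tt_diff_coarse hD (CC_Dl l f) h0 h1 hμ hd).trans ?_
      have : 0 ≤ (|μ' - μ| / |μ|) ^ 2 * (|μ| / 2 ^ l) * ∫ y, (E2x542.Dl l f y) ^ 2 := by
        positivity
      nlinarith
    · have h := dual (T := fun f x => E2x542.Tt θ μ f x - E2x542.Tt θ μ' f x)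
        (T' := fun f x => E2x542.Tt θ (-μ) f x - E2x542.Tt θ (-μ') f x) (l := l)
        (K := 256 * (|μ' - μ| / |μ|) ^ 2 * (|μ| / 2 ^ l)) (by positivity)
        (fun f hf => Nice1.sub (Nice1.Tt hf θ μ) (Nice1.Tt hf θ μ'))
        (fun f hf => Nice1.sub (Nice1.Tt hf θ (-μ)) (Nice1.Tt hf θ (-μ')))
        (fun f h hf hh => by
          simp only [sub_mul, mul_sub]
          rw [integral_sub (Nice1.integrable (Nice1.mul (Nice1.Tt hf θ μ) hh))
            (Nice1.integrable (Nice1.mul (Nice1.Tt hf θ μ') hh)),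
            integral_sub (Nice1.integrable (Nice1.mul hf (Nice1.Tt hh θ (-μ))))
            (Nice1.integrable (Nice1.mul hf (Nice1.Tt hh θ (-μ')))), hadj μ f h hf hh,
            hadj μ' f h hf hh])
        (fun h hh => by
          have hd' : |-μ' - -μ| ≤ |-μ| / 2 := by
            rw [abs_neg, show -μ' - -μ = -(μ' - μ) by ring, abs_neg]; exact hd
          have := Tt_diff_coarse (Nice1.Dl hh l) (CC_Dl l h) h0 h1 hμn hd'
          rwa [abs_neg, show -μ' - -μ = -(μ' - μ) by ring, abs_neg] at this) hf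
      refine h.trans (le_of_eq ?_)
      ring

end Crest.Agent.R087.TB2x297
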