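import Crest.Agent.R087.STOPs_819
import Crest.Agent.R087.HLlin_975
import Crest.Agent.R087.MART_612
import Crest.Agent.R087.TB_297
import Crest.Agent.R087.EDGE_621
import Crest.Agent.R087.MAINofF_575
import Crest.Agent.R087.SQof_199
import Crest.Agent.R087.ASM2s_556
import Crest.Agent.R087.E2K_752

/-!
Row 87, the heart is closed: `E2s` and its fat version `E2K` (helper542, assembly of all leaves).
-/

set_option autoImplicit false

namespace Crest.Agent.R087.E2endx542

open Crest.Agent.R087.E2x542

theorem main : MAIN :=
  MAINofFx575.mainof MARTx612.mart TB2x297.tb EDGEx621.edge EDGEx621.flat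

theorem sq : SQ := SQofx199.sqof HLlinx975.hllin EDGEx621.edge EDGEx621.flat main

theorem e2s : E2s := ASM2x556.asm2s STOPsx819.stops sq

theorem e2K : E2Kx752.E2K := E2Kx752.e2K e2s

end Crest.Agent.R087.E2endx542
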