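import Crest.Agent.R087.Sh1_283

/-!
Row 87 (S0115), GATING (helper273): exact dyadic localisation of the operator part for smooth kernels.

`gat ζ S U g (x,y) = ∑_{s<S} 2^s η(frac(2^s x)) ∫ ζ(2^s u - ⌊2^s x⌋) g(u, y + (u-x) U(x,y)) du`

with the gate `η = (+1,-1,-1,+1)` on the quarters of `[0,1)` and `ζ` smooth, supported in `(0,1)`, odd
about `1/2`.  The average of `gat` over translations and dilations of the dyadic grid is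
`(c/t)` with smooth cut-offs.

`Tst φ ζ S U h` is the adjoint of `f ↦ gat ζ S U (cv φ 0 f)`.

* `GD φ ζ` : the gated single band estimate in dual form (THE TARGET of the operator part);
* `GB φ ζ` : the gated single band estimate in direct form.
-/

set_option autoImplicit false

noncomputable section

open MeasureTheory Crest.Agent.R087.Sh0x283 Crest.Agent.R087.Sh1x283

namespace Crest.Agent.R087.GateDefx273

/-- the gate: `+1, -1, -1, +1` on the quarters of `[0,1)`, zero outside. -/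
def gt (t : ℝ) : ℝ :=
  if t < 0 then 0 else if t < 1 / 4 then 1 else if t < 3 / 4 then -1 else if t < 1 then 1 else 0

/-- wavelet profiles in the `u` variable: smooth, support in `[1/8,7/8]`, odd about `1/2`. -/
def ZetC (ζ : ℝ → ℝ) : Prop :=
  ContDiff ℝ (⊤ : ℕ∞) ζ ∧ (∀ t, ζ t ≠ 0 → 1 / 8 ≤ t ∧ t ≤ 7 / 8) ∧ (∀ t, ζ (1 - t) = -ζ t)

/-- gated operator at the scale `2^-s`. -/
def gat1 (ζ : ℝ → ℝ) (s : ℕ) (U g : ℝ × ℝ → ℝ) (z : ℝ × ℝ) : ℝ :=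
  (2 : ℝ) ^ s * gt (Int.fract ((2 : ℝ) ^ s * z.1)) *
    ∫ u, ζ ((2 : ℝ) ^ s * u - ⌊(2 : ℝ) ^ s * z.1⌋) * g (u, z.2 + (u - z.1) * U z)

/-- gated operator, scales `2^-s`, `s < S`. -/
def gat (ζ : ℝ → ℝ) (S : ℕ) (U g : ℝ × ℝ → ℝ) (z : ℝ × ℝ) : ℝ :=
  ∑ s ∈ Finset.range S, gat1 ζ s U g z

/-- the gated single band estimate. -/
def GB (φ ζ : ℝ → ℝ) : Prop :=
  ∃ c : ℝ, 0 < c ∧ ∃ B : ℝ, ∀ U f : ℝ × ℝ → ℝ, Fld c U → Nice f → ∀ S : ℕ,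
    ∫ z, (gat ζ S U (cv φ 0 f) z) ^ 2 ≤ B * ∫ z, (f z) ^ 2

/-- gated kernel. -/
def gk (ζ : ℝ → ℝ) (S : ℕ) (x u : ℝ) : ℝ :=
  ∑ s ∈ Finset.range S, (2 : ℝ) ^ s * gt (Int.fract ((2 : ℝ) ^ s * x)) *
    ζ ((2 : ℝ) ^ s * u - ⌊(2 : ℝ) ^ s * x⌋)

/-- adjoint of `f ↦ gat ζ S U (cv φ 0 f)`. -/
def Tst (φ ζ : ℝ → ℝ) (S : ℕ) (U h : ℝ × ℝ → ℝ) (w : ℝ × ℝ) : ℝ :=
  ∫ z, gk ζ S z.1 w.1 * φ (z.2 + (w.1 - z.1) * U z - w.2) * h z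

/-- the gated single band estimate, dual form: TARGET of the operator part. -/
def GD (φ ζ : ℝ → ℝ) : Prop :=
  ∃ c : ℝ, 0 < c ∧ ∃ B : ℝ, ∀ U h : ℝ × ℝ → ℝ, Fld c U → Nice h → ∀ S : ℕ,
    ∫ w, (Tst φ ζ S U h w) ^ 2 ≤ B * ∫ z, (h z) ^ 2

/-- uniform version: profiles `φ = ω^(N)`, `ω` smooth, supported in `[-1,1]`, the first `M`
derivatives bounded by `1`; one fixed wavelet `ζ` with `∫ gt B ≠ 0`, `B v = ∫_v^1 ζ`. -/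
def GDN (ζ : ℝ → ℝ) (N M : ℕ) : Prop :=
  ∃ c : ℝ, 0 < c ∧ ∃ B : ℝ, ∀ ω : ℝ → ℝ, ContDiff ℝ (⊤ : ℕ∞) ω → (∀ r, 1 < |r| → ω r = 0) →
    (∀ i ≤ M, ∀ r, |iteratedDeriv i ω r| ≤ 1) → ∀ U h : ℝ × ℝ → ℝ, Fld c U → Nice h → ∀ S : ℕ,
    ∫ w, (Tst (iteratedDeriv N ω) ζ S U h w) ^ 2 ≤ B * ∫ z, (h z) ^ 2

end Crest.Agent.R087.GateDefx273
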