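import Crest.Agent.R087.Sh1_283

/-!
Row 87, SHELL leaf S6 (helper545): the single band estimate at all scales by rescaling `y ↦ 2^k y`.
-/

set_option autoImplicit false

noncomputable section

open MeasureTheory Crest.Agent.R087.Sh0x283 Crest.Agent.R087.Sh1x283

namespace Crest.Agent.R087.SBKx545

/-- scaling of the second variable in a plane integral (no integrability needed). -/
theorem integral_scale (a : ℝ) (ha : 0 < a) (F : ℝ × ℝ → ℝ) :
    ∫ z : ℝ × ℝ, F (z.1, a * z.2) = a⁻¹ * ∫ z, F z := by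
  have hm : Measure.map (Prod.map id (a * ·)) (volume : Measure (ℝ × ℝ)) =
      ENNReal.ofReal a⁻¹ • (volume : Measure (ℝ × ℝ)) := by
    rw [Measure.volume_eq_prod, ← Measure.map_prod_map _ _ measurable_id
      (measurable_const_mul a), Measure.map_id, Real.map_volume_mul_left ha.ne',
      Measure.prod_smul_right, abs_of_pos (inv_pos.2 ha)]
  have he : MeasurableEmbedding (Prod.map id (a * ·) : ℝ × ℝ → ℝ × ℝ) :=
    MeasurableEmbedding.id.prodMap (measurableEmbedding_mulLeft₀ ha.ne')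
  have h1 := he.integral_map (μ := (volume : Measure (ℝ × ℝ))) F
  rw [hm, integral_smul_measure] at h1
  rw [ENNReal.toReal_ofReal (inv_pos.2 ha).le, smul_eq_mul] at h1
  rw [h1]
  rfl

theorem sbk : SBK := by
  intro φ ψ hSB
  obtain ⟨c, hc, B, hB⟩ := hSB
  refine ⟨c, hc, max B 0, le_max_right _ _, ?_⟩
  intro U f hU hf k S
  have ha : (0 : ℝ) < 2 ^ k := by positivity
  obtain ⟨hUm, ⟨W, hW⟩, hUL⟩ := hU
  obtain ⟨hfm, ⟨M, hM⟩, ⟨R, hR⟩⟩ := hf
  have hU' : Fld c (fun z => ((2 : ℝ) ^ k)⁻¹ * U (z.1, 2 ^ k * z.2)) := by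
    refine ⟨?_, ⟨((2 : ℝ) ^ k)⁻¹ * W, ?_⟩, ?_⟩
    · apply Measurable.const_mul
      exact hUm.comp (measurable_fst.prodMk (measurable_snd.const_mul _))
    · intro z
      rw [abs_mul, abs_of_pos (inv_pos.2 ha)]
      have := hW (z.1, 2 ^ k * z.2)
      gcongr
    · intro x y y'
      simp only
      rw [← mul_sub, abs_mul, abs_of_pos (inv_pos.2 ha)]
      calc ((2 : ℝ) ^ k)⁻¹ * |U (x, 2 ^ k * y) - U (x, 2 ^ k * y')|
          ≤ ((2 : ℝ) ^ k)⁻¹ * (c * |2 ^ k * y - 2 ^ k * y'|) := by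
            have := hUL x (2 ^ k * y) (2 ^ k * y')
            gcongr
        _ = c * |y - y'| := by
            rw [← mul_sub, abs_mul, abs_of_pos ha]
            field_simp
  have hf' : Nice (fun z => f (z.1, 2 ^ k * z.2)) := by
    refine ⟨?_, ⟨M, fun z => hM _⟩, ⟨max R (((2 : ℝ) ^ k)⁻¹ * R), ?_⟩⟩
    · exact hfm.comp (measurable_fst.prodMk (measurable_snd.const_mul _))
    · intro z hz
      apply hR
      rw [Prod.norm_def] at hz ⊢
      simp only
      rcases lt_max_iff.1 hz with h | h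
      · exact lt_of_lt_of_le (lt_of_le_of_lt (le_max_left _ _) h) (le_max_left _ _)
      · refine lt_of_lt_of_le ?_ (le_max_right _ _)
        have h2 : ((2 : ℝ) ^ k)⁻¹ * R < ‖z.2‖ := lt_of_le_of_lt (le_max_right _ _) h
        rw [norm_mul, Real.norm_of_nonneg ha.le]
        calc R = 2 ^ k * (((2 : ℝ) ^ k)⁻¹ * R) := by field_simp
          _ < 2 ^ k * ‖z.2‖ := by gcongr
  have key := hB _ _ hU' hf' S
  have e1 : ∀ z : ℝ × ℝ, cv φ 0 (fun z => f (z.1, 2 ^ k * z.2)) z = cv φ k f (z.1, 2 ^ k * z.2) := by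
    intro z
    unfold cv
    congr 1
    ext r
    simp only [zpow_zero, one_mul, mul_sub]
  have e2 : ∀ z : ℝ × ℝ, tk (kerS ψ S) (fun z => ((2 : ℝ) ^ k)⁻¹ * U (z.1, 2 ^ k * z.2))
      (cv φ 0 (fun z => f (z.1, 2 ^ k * z.2))) z = tk (kerS ψ S) U (cv φ k f) (z.1, 2 ^ k * z.2) := by
    intro z
    unfold tk
    congr 1
    ext t
    rw [e1]
    simp only
    congr 3
    field_simp
  simp_rw [e2] at key
  rw [integral_scale (2 ^ k) ha (fun z => (tk (kerS ψ S) U (cv φ k f) z) ^ 2),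
    integral_scale (2 ^ k) ha (fun z => (f z) ^ 2)] at key
  have h3 : ∫ z, (tk (kerS ψ S) U (cv φ k f) z) ^ 2 ≤ B * ∫ z, (f z) ^ 2 := by
    have : ((2 : ℝ) ^ k)⁻¹ * (∫ z, (tk (kerS ψ S) U (cv φ k f) z) ^ 2) ≤
        ((2 : ℝ) ^ k)⁻¹ * (B * ∫ z, (f z) ^ 2) := by
      calc _ ≤ _ := key
        _ = _ := by ring
    exact le_of_mul_le_mul_left this (inv_pos.2 ha)
  refine h3.trans ?_
  have : 0 ≤ ∫ z, (f z) ^ 2 := integral_nonneg fun z => sq_nonneg _
  have := le_max_left B 0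
  gcongr

end Crest.Agent.R087.SBKx545
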