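import Crest.Agent.R087.Asm3_283
import Crest.Agent.R087.ALG_390
import Crest.Agent.R087.TB_820
import Crest.Agent.R087.SBK_545

/-!
Row 87, operator part, leaf RED (helper738): profile reduction.  It is enough to prove the single
band estimate, uniformly, for the profiles `ω^(N)`, where `ω` is smooth, supported in `[-1,1]` and
`|ω^(i)| ≤ 1` for `i ≤ M` (any fixed `N ≥ 1` and `M`).  Proof: write
`φ = ω^(N) = ω₁^(N+1) + I χ^(N)`, and `χ^(N)` is a geometric sum over the scales `2^j` of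
`η^(N+1)`, `η' = χ - χ(·/2)/2`.
-/

set_option autoImplicit false

noncomputable section

open MeasureTheory Crest.Agent.R087.Sh0x283 Crest.Agent.R087.Sh1x283
open Crest.Agent.R087.Asm1x283 Crest.Agent.R087.Asm2x283 Crest.Agent.R087.Asm3x283

namespace Crest.Agent.R087.Redx738

/-- the single band estimate, uniform over the profiles with `N` vanishing moments. -/
def SBN (ψ : ℝ → ℝ) (N M : ℕ) : Prop :=
  ∃ c : ℝ, 0 < c ∧ ∃ B : ℝ, ∀ ω : ℝ → ℝ, ContDiff ℝ (⊤ : ℕ∞) ω → (∀ r, 1 < |r| → ω r = 0) →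
    (∀ i ≤ M, ∀ r, |iteratedDeriv i ω r| ≤ 1) → ∀ U f : ℝ × ℝ → ℝ, Fld c U → Nice f → ∀ S : ℕ,
    ∫ z, (tk (kerS ψ S) U (cv (iteratedDeriv N ω) 0 f) z) ^ 2 ≤ B * ∫ z, (f z) ^ 2

/-- rescaling `y ↦ 2^k y` with the same constants. -/
theorem scal {φ ψ : ℝ → ℝ} {c B : ℝ} (hB : ∀ U f : ℝ × ℝ → ℝ, Fld c U → Nice f → ∀ S : ℕ,
    ∫ z, (tk (kerS ψ S) U (cv φ 0 f) z) ^ 2 ≤ B * ∫ z, (f z) ^ 2)
    (U f : ℝ × ℝ → ℝ) (hU : Fld c U) (hf : Nice f) (k : ℤ) (S : ℕ) :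
    ∫ z, (tk (kerS ψ S) U (cv φ k f) z) ^ 2 ≤ B * ∫ z, (f z) ^ 2 := by
  have ha : (0 : ℝ) < 2 ^ k := by positivity
  obtain ⟨hUm, ⟨W, hW⟩, hUL⟩ := hU
  obtain ⟨hfm, ⟨M, hM⟩, ⟨R, hR⟩⟩ := hf
  have hU' : Fld c (fun z => ((2 : ℝ) ^ k)⁻¹ * U (z.1, 2 ^ k * z.2)) := by
    refine ⟨?_, ⟨((2 : ℝ) ^ k)⁻¹ * W, ?_⟩, ?_⟩
    · apply Measurable.const_mul
      exact hUm.comp (measurable_fst.prodMk (measurable_snd.const_mul _))
    · intro z
      rw [abs_mul, abs_of_pos (inv_pos.2 ha)]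
      have := hW (z.1, 2 ^ k * z.2)
      gcongr
    · intro x y y'
      simp only
      rw [← mul_sub, abs_mul, abs_of_pos (inv_pos.2 ha)]
      calc ((2 : ℝ) ^ k)⁻¹ * |U (x, 2 ^ k * y) - U (x, 2 ^ k * y')|
          ≤ ((2 : ℝ) ^ k)⁻¹ * (c * |2 ^ k * y - 2 ^ k * y'|) := by
            have := hUL x (2 ^ k * y) (2 ^ k * y')
            gcongr
        _ = c * |y - y'| := by
            rw [← mul_sub, abs_mul, abs_of_pos ha]
            field_simp
  have hf' : Nice (fun z => f (z.1, 2 ^ k * z.2)) := by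
    refine ⟨?_, ⟨M, fun z => hM _⟩, ⟨max R (((2 : ℝ) ^ k)⁻¹ * R), ?_⟩⟩
    · exact hfm.comp (measurable_fst.prodMk (measurable_snd.const_mul _))
    · intro z hz
      apply hR
      rw [Prod.norm_def] at hz ⊢
      simp only
      rcases lt_max_iff.1 hz with h | h
      · exact lt_of_lt_of_le (lt_of_le_of_lt (le_max_left _ _) h) (le_max_left _ _)
      · refine lt_of_lt_of_le ?_ (le_max_right _ _)
        have h2 : ((2 : ℝ) ^ k)⁻¹ * R < ‖z.2‖ := lt_of_le_of_lt (le_max_right _ _) h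
        rw [norm_mul, Real.norm_of_nonneg ha.le]
        calc R = 2 ^ k * (((2 : ℝ) ^ k)⁻¹ * R) := by field_simp
          _ < 2 ^ k * ‖z.2‖ := by gcongr
  have key := hB _ _ hU' hf' S
  have e1 : ∀ z : ℝ × ℝ, cv φ 0 (fun z => f (z.1, 2 ^ k * z.2)) z =
      cv φ k f (z.1, 2 ^ k * z.2) := by
    intro z
    unfold cv
    congr 1
    ext r
    simp only [zpow_zero, one_mul, mul_sub]
  have e2 : ∀ z : ℝ × ℝ, tk (kerS ψ S) (fun z => ((2 : ℝ) ^ k)⁻¹ * U (z.1, 2 ^ k * z.2))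
      (cv φ 0 (fun z => f (z.1, 2 ^ k * z.2))) z =
      tk (kerS ψ S) U (cv φ k f) (z.1, 2 ^ k * z.2) := by
    intro z
    unfold tk
    congr 1
    ext t
    rw [e1]
    simp only
    congr 3
    field_simp
  simp_rw [e2] at key
  rw [SBKx545.integral_scale (2 ^ k) ha (fun z => (tk (kerS ψ S) U (cv φ k f) z) ^ 2),
    SBKx545.integral_scale (2 ^ k) ha (fun z => (f z) ^ 2)] at key
  have : ((2 : ℝ) ^ k)⁻¹ * (∫ z, (tk (kerS ψ S) U (cv φ k f) z) ^ 2) ≤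
      ((2 : ℝ) ^ k)⁻¹ * (B * ∫ z, (f z) ^ 2) := by
    calc _ ≤ _ := key
      _ = _ := by ring
  exact le_of_mul_le_mul_left this (inv_pos.2 ha)

theorem sm_iter {ω : ℝ → ℝ} (h : Sm ω) (n : ℕ) : Sm (iteratedDeriv n ω) := by
  induction n with
  | zero => simpa using h
  | succ n ih => rw [iteratedDeriv_succ]; exact sm_deriv ih

/-- a smooth compactly supported function has all derivatives up to order `M` bounded. -/
theorem bd_iter {ω : ℝ → ℝ} (h : Sm ω) (M : ℕ) :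
    ∃ C : ℝ, 0 < C ∧ ∀ i ≤ M, ∀ r, |iteratedDeriv i ω r| ≤ C := by
  induction M with
  | zero =>
    obtain ⟨C, hC⟩ := (sm_iter h 0).1.continuous.bounded_above_of_compact_support (sm_iter h 0).comp
    refine ⟨max C 1, by positivity, ?_⟩
    intro i hi r
    obtain rfl : i = 0 := by omega
    exact (hC r).trans (le_max_left _ _)
  | succ M ih =>
    obtain ⟨C, hC0, hC⟩ := ih
    obtain ⟨C', hC'⟩ := (sm_iter h (M + 1)).1.continuous.bounded_above_of_compact_support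
      (sm_iter h (M + 1)).comp
    refine ⟨max C C', lt_max_of_lt_left hC0, ?_⟩
    intro i hi r
    rcases Nat.lt_or_ge i (M + 1) with h1 | h1
    · exact (hC i (by omega) r).trans (le_max_left _ _)
    · obtain rfl : i = M + 1 := by omega
      exact (hC' r).trans (le_max_right _ _)

theorem halving {a : ℕ → ℝ} {A D : ℝ} (hA : ∀ j, a j ≤ A) (hD : 0 ≤ D)
    (h : ∀ j, a j ≤ 1 / 2 * a (j + 1) + D) : a 0 ≤ 2 * D := by
  have h1 : ∀ n : ℕ, ∀ j, a j ≤ A * (1 / 2) ^ n + 2 * D := by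
    intro n
    induction n with
    | zero => intro j; have := hA j; simp; linarith
    | succ n ih =>
      intro j
      have h2 := h j
      have h3 := ih (j + 1)
      rw [pow_succ]
      linarith
  have h2 : Filter.Tendsto (fun n : ℕ => A * (1 / 2) ^ n + 2 * D) Filter.atTop
      (nhds (A * 0 + 2 * D)) := by
    refine Filter.Tendsto.add_const _ (Filter.Tendsto.const_mul _ ?_)
    exact tendsto_pow_atTop_nhds_zero_of_lt_one (by norm_num) (by norm_num)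
  rw [mul_zero, zero_add] at h2
  exact ge_of_tendsto' h2 fun n => h1 n 0

/-- the transform on nice functions. -/
def Tr {ψ : ℝ → ℝ} (hψ : PsiC ψ) {U : ℝ × ℝ → ℝ} (hU : Fld (1 / 2) U) (S : ℕ) : NF →ₗ[ℝ] NF :=
  TT TBx820.tb (kerS ψ S) (kerS_props hψ S).1 (kerS_props hψ S).2.1 (kerS_props hψ S).2.2 U hU

theorem Tr_bd {ψ : ℝ → ℝ} (hψ : PsiC ψ) {U : ℝ × ℝ → ℝ} (hU : Fld (1 / 2) U) (S : ℕ) :
    ∃ A : ℝ, 0 ≤ A ∧ ∀ f : NF, ‖Tr hψ hU S f‖ ≤ A * ‖f‖ := by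
  refine ⟨Real.sqrt (2 * (∫ t, |kerS ψ S t|) ^ 2), Real.sqrt_nonneg _, fun f => ?_⟩
  refine norm_le_of (Real.sqrt_nonneg _) ?_
  rw [Real.sq_sqrt (by positivity)]
  exact (TBx820.tb (kerS ψ S) (kerS_props hψ S).1 (kerS_props hψ S).2.1 (kerS_props hψ S).2.2 U
    hU).2.1 f.fn f.nice

/-- use of `SBN` for a profile with bounds `C`. -/
theorem use {ψ : ℝ → ℝ} (hψ : PsiC ψ) {N M : ℕ} {c B : ℝ} (hB0 : 0 ≤ B)
    (hB : ∀ ω : ℝ → ℝ, ContDiff ℝ (⊤ : ℕ∞) ω → (∀ r, 1 < |r| → ω r = 0) →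
      (∀ i ≤ M, ∀ r, |iteratedDeriv i ω r| ≤ 1) → ∀ U f : ℝ × ℝ → ℝ, Fld c U → Nice f → ∀ S : ℕ,
      ∫ z, (tk (kerS ψ S) U (cv (iteratedDeriv N ω) 0 f) z) ^ 2 ≤ B * ∫ z, (f z) ^ 2)
    {ω : ℝ → ℝ} (h : Sm ω) {C : ℝ} (hC : 0 < C) (hω : ∀ i ≤ M, ∀ r, |iteratedDeriv i ω r| ≤ C)
    {U : ℝ × ℝ → ℝ} (hU : Fld (1 / 2) U) (hUc : Fld c U) (S : ℕ) (k : ℤ) (f : NF) :
    ‖Tr hψ hU S (op ALGx390.alg (iteratedDeriv N ω) (sm_iter h N) k f)‖ ≤
      C * Real.sqrt B * ‖f‖ := by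
  have hd : ∀ i r, iteratedDeriv i (fun r => C⁻¹ * ω r) r = C⁻¹ * iteratedDeriv i ω r := by
    intro i r
    exact iteratedDeriv_const_mul_field _ _
  have h1 : ContDiff ℝ (⊤ : ℕ∞) (fun r => C⁻¹ * ω r) := contDiff_const.mul h.1
  have h2 : ∀ r, 1 < |r| → (fun r => C⁻¹ * ω r) r = 0 := fun r hr => by simp [h.2 r hr]
  have h3 : ∀ i ≤ M, ∀ r, |iteratedDeriv i (fun r => C⁻¹ * ω r) r| ≤ 1 := by
    intro i hi r
    rw [hd, abs_mul, abs_of_pos (inv_pos.2 hC)]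
    have := hω i hi r
    calc C⁻¹ * |iteratedDeriv i ω r| ≤ C⁻¹ * C := by gcongr
      _ = 1 := inv_mul_cancel₀ hC.ne'
  have key := scal (hB _ h1 h2 h3) U f.fn hUc f.nice k S
  have e : cv (iteratedDeriv N (fun r => C⁻¹ * ω r)) k f.fn =
      fun z => C⁻¹ * cv (iteratedDeriv N ω) k f.fn z := by
    funext z
    unfold cv
    rw [← integral_const_mul]
    congr 1
    ext r
    rw [hd]
    ring
  rw [e] at key
  have e2 : ∀ z, tk (kerS ψ S) U (fun z => C⁻¹ * cv (iteratedDeriv N ω) k f.fn z) z =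
      C⁻¹ * tk (kerS ψ S) U (cv (iteratedDeriv N ω) k f.fn) z := by
    intro z
    unfold tk
    rw [← integral_const_mul]
    congr 1
    ext r
    ring
  simp only [e2, mul_pow] at key
  rw [integral_const_mul] at key
  refine norm_le_of (by positivity) ?_
  rw [mul_pow, Real.sq_sqrt hB0]
  show ∫ z, (tk (kerS ψ S) U (cv (iteratedDeriv N ω) k f.fn) z) ^ 2 ≤ _
  have hCC : C ^ 2 * C⁻¹ ^ 2 = 1 := by
    rw [← mul_pow, mul_inv_cancel₀ hC.ne', one_pow]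
  calc ∫ z, (tk (kerS ψ S) U (cv (iteratedDeriv N ω) k f.fn) z) ^ 2
      = C ^ 2 * (C⁻¹ ^ 2 * ∫ z, (tk (kerS ψ S) U (cv (iteratedDeriv N ω) k f.fn) z) ^ 2) := by
        rw [← mul_assoc, hCC, one_mul]
    _ ≤ C ^ 2 * (B * ∫ z, (f.fn z) ^ 2) := by gcongr
    _ = _ := by ring

/-- the operator depends on the profile linearly. -/
theorem op_lin {p q s : ℝ → ℝ} (hp : Sm p) (hq : Sm q) (hs : Sm s) {a b : ℝ}
    (e : ∀ r, s r = a * p r + b * q r) (k : ℤ) (f : NF) :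
    op ALGx390.alg s hs k f = a • op ALGx390.alg p hp k f + b • op ALGx390.alg q hq k f := by
  have e' : s = fun r => a * p r + b * q r := funext e
  subst e'
  ext z
  simp only [op_fn, fn_add, fn_smul]
  exact congrFun (ALGx390.alg10 p q hp.1.continuous hp.comp hq.1.continuous hq.comp k f.fn a b
    f.nice) z

theorem abs_int_le {ω : ℝ → ℝ} (h : Sm ω) (h1 : ∀ r, |ω r| ≤ 1) : |∫ r, ω r| ≤ 2 := by
  have e : ∫ r, ω r = ∫ r in Set.Icc (-1 : ℝ) 1, ω r := by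
    rw [setIntegral_eq_integral_of_forall_compl_eq_zero]
    intro r hr
    apply h.2
    rw [Set.mem_Icc, ← abs_le, not_le] at hr
    exact hr
  rw [e, ← Real.norm_eq_abs]
  refine (norm_setIntegral_le_of_norm_le_const (C := 1) (by simp) (fun r _ => h1 r)).trans ?_
  simp [Measure.real]
  norm_num

/-- from `N + 1` to `N` vanishing moments. -/
theorem step {ψ : ℝ → ℝ} (hψ : PsiC ψ) {N M : ℕ} (hN : 1 ≤ N) (H : SBN ψ (N + 1) M) :
    SBN ψ N M := by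
  obtain ⟨c, hc, B₀, hB₀⟩ := H
  obtain ⟨χ, hχ⟩ := exists_chi
  have sχ : Sm χ := sm_chi hχ
  obtain ⟨η, hη1, hη2, hη⟩ := phiC_prim (dk_phi hχ)
  have sη : Sm η := ⟨hη1, hη2⟩
  obtain ⟨Cχ, hCχ, bχ⟩ := bd_iter sχ M
  obtain ⟨Cη, hCη, bη⟩ := bd_iter sη M
  set B : ℝ := max B₀ 0 with hBdef
  have hB0 : 0 ≤ B := le_max_right _ _
  have hB : ∀ ω : ℝ → ℝ, ContDiff ℝ (⊤ : ℕ∞) ω → (∀ r, 1 < |r| → ω r = 0) →
      (∀ i ≤ M, ∀ r, |iteratedDeriv i ω r| ≤ 1) → ∀ U f : ℝ × ℝ → ℝ, Fld c U → Nice f → ∀ S : ℕ,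
      ∫ z, (tk (kerS ψ S) U (cv (iteratedDeriv (N + 1) ω) 0 f) z) ^ 2 ≤ B * ∫ z, (f z) ^ 2 := by
    intro ω h1 h2 h3 U f h4 h5 S
    refine (hB₀ ω h1 h2 h3 U f h4 h5 S).trans ?_
    have : 0 ≤ ∫ z, (f z) ^ 2 := integral_nonneg fun z => sq_nonneg _
    have := le_max_left B₀ 0
    gcongr
  set C₁ : ℝ := 3 * (1 + 2 * Cχ) with hC₁
  have hC₁0 : 0 < C₁ := by positivity
  refine ⟨min c (1 / 2), by positivity, ((C₁ + 4 * Cη) * Real.sqrt B) ^ 2, ?_⟩
  intro ω hω1 hω2 hω3 U f hU hf S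
  have sω : Sm ω := ⟨hω1, hω2⟩
  have hUc : Fld c U := fld_mono (min_le_left _ _) hU
  have hU2 : Fld (1 / 2) U := fld_mono (min_le_right _ _) hU
  set F : NF := NF.mk f hf with hF
  -- the primitive of `ω - I χ`
  set I : ℝ := ∫ r, ω r with hI
  have hω0 : ∀ r, |ω r| ≤ 1 := fun r => by
    have := hω3 0 (Nat.zero_le _) r
    simpa using this
  have hIle : |I| ≤ 2 := abs_int_le sω hω0
  have pm : PhiC (fun r => ω r - I * χ r) := by
    refine ⟨hω1.sub (contDiff_const.mul hχ.1), fun r hr => ?_, ?_⟩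
    · simp only [hω2 r hr, sχ.2 r hr, mul_zero, sub_zero]
    · rw [integral_sub (ALGx390.cpt_int hω1.continuous sω.comp)
        ((ALGx390.cpt_int hχ.1.continuous sχ.comp).const_mul _), integral_const_mul,
        hχ.2.2.2.2, mul_one, ← hI, sub_self]
  obtain ⟨ω₁, h11, h12, h13⟩ := phiC_prim pm
  have sω₁ : Sm ω₁ := ⟨h11, h12⟩
  have hder : ∀ n r, iteratedDeriv (n + 1) ω₁ r =
      iteratedDeriv n ω r - I * iteratedDeriv n χ r := by
    intro n r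
    rw [iteratedDeriv_succ', h13]
    have h1 : ContDiffAt ℝ n ω r := (hω1.of_le (by exact_mod_cast le_top)).contDiffAt
    have h2 : ContDiffAt ℝ n (fun r => I * χ r) r :=
      ((contDiff_const.mul hχ.1).of_le (by exact_mod_cast le_top)).contDiffAt
    have h3 := iteratedDeriv_sub h1 h2
    have h4 : (ω - fun r => I * χ r) = fun r => ω r - I * χ r := rfl
    rw [h4] at h3
    rw [h3]
    congr 1
    exact iteratedDeriv_const_mul_field _ _
  have bd1 : ∀ i ≤ M, ∀ r, |iteratedDeriv (i + 1) ω₁ r| ≤ 1 + 2 * Cχ := by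
    intro i hi r
    rw [hder]
    calc |iteratedDeriv i ω r - I * iteratedDeriv i χ r|
        ≤ |iteratedDeriv i ω r| + |I * iteratedDeriv i χ r| := abs_sub _ _
      _ ≤ 1 + 2 * Cχ := by
        rw [abs_mul]
        have := hω3 i hi r
        have := bχ i hi r
        gcongr
  have bd0 : ∀ r, |ω₁ r| ≤ C₁ := by
    intro r
    by_cases hr : 1 < |r|
    · rw [h12 r hr, abs_zero]; exact hC₁0.le
    · have hr' := abs_le.mp (not_lt.mp hr)
      have hd : ∀ x ∈ (Set.univ : Set ℝ), DifferentiableAt ℝ ω₁ x :=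
        fun x _ => (h11.differentiable (by simp)).differentiableAt
      have hb : ∀ x ∈ (Set.univ : Set ℝ), ‖deriv ω₁ x‖ ≤ 1 + 2 * Cχ := by
        intro x _
        have := bd1 0 (Nat.zero_le _) x
        rw [iteratedDeriv_succ, iteratedDeriv_zero] at this
        exact this
      have h1 := Convex.norm_image_sub_le_of_norm_deriv_le hd hb convex_univ
        (Set.mem_univ (-2 : ℝ)) (Set.mem_univ r)
      rw [h12 (-2) (by norm_num), sub_zero, Real.norm_eq_abs, Real.norm_eq_abs] at h1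
      refine h1.trans ?_
      rw [hC₁, mul_comm (3 : ℝ)]
      refine mul_le_mul_of_nonneg_left ?_ (by positivity)
      rw [abs_le]
      constructor <;> linarith [hr'.1, hr'.2]
  have b1 : ∀ i ≤ M, ∀ r, |iteratedDeriv i ω₁ r| ≤ C₁ := by
    intro i hi r
    rcases Nat.eq_zero_or_pos i with h0 | h0
    · subst h0; simpa using bd0 r
    · obtain ⟨j, rfl⟩ : ∃ j, i = j + 1 := ⟨i - 1, by omega⟩
      refine (bd1 j (by omega) r).trans ?_
      rw [hC₁]; linarith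
  have t1 := use hψ hB0 hB sω₁ hC₁0 b1 hU2 hUc S 0 F
  -- the telescoping of `χ^(N)`
  have t2 : ∀ k : ℤ, ‖Tr hψ hU2 S (op ALGx390.alg (iteratedDeriv (N + 1) η) (sm_iter sη (N + 1))
      k F)‖ ≤ Cη * Real.sqrt B * ‖F‖ := fun k => use hψ hB0 hB sη hCη bη hU2 hUc S k F
  have eη : ∀ r, iteratedDeriv (N + 1) η r =
      1 * iteratedDeriv N χ r + (-(1 / 2) ^ N) * (iteratedDeriv N χ (r / 2) / 2) := by
    intro r
    rw [iteratedDeriv_succ', hη]
    have h1 : ContDiffAt ℝ N χ r := (hχ.1.of_le (by exact_mod_cast le_top)).contDiffAt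
    have h2 : ContDiffAt ℝ N (ch2 χ) r := ((ch2_smooth hχ.1).of_le
      (by exact_mod_cast le_top)).contDiffAt
    have h3 := iteratedDeriv_sub h1 h2
    have h4 : (χ - ch2 χ) = dk χ := rfl
    rw [h4] at h3
    rw [h3]
    have h5 : ch2 χ = fun r => 1 / 2 * (fun r => χ (1 / 2 * r)) r := by
      funext r
      show χ (r / 2) / 2 = 1 / 2 * χ (1 / 2 * r)
      rw [show 1 / 2 * r = r / 2 by ring]; ring
    have h6 : iteratedDeriv N (ch2 χ) r = 1 / 2 * ((1 / 2) ^ N * iteratedDeriv N χ (1 / 2 * r)) := by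
      rw [h5, iteratedDeriv_const_mul_field]
      congr 1
      have := iteratedDeriv_comp_const_mul (n := N) (f := χ)
        (hχ.1.of_le (by exact_mod_cast le_top)) (1 / 2)
      exact congrFun this r
    rw [h6, show 1 / 2 * r = r / 2 by ring]
    ring
  have s2 : Sm (fun r => iteratedDeriv N χ (r / 2) / 2) := by
    have h1 := sm_iter sχ N
    refine ⟨?_, fun r hr => ?_⟩
    · exact (h1.1.comp (contDiff_id.div_const 2)).div_const 2
    · have hx : ∀ n, ∀ r, 1 / 2 < |r| → iteratedDeriv n χ r = 0 := by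
        intro n
        induction n with
        | zero => intro r hr; rw [iteratedDeriv_zero]; exact hχ.2.2.2.1 r (by linarith)
        | succ n ih =>
          intro r hr
          rw [iteratedDeriv_succ]
          have hopen : IsOpen {r : ℝ | 1 / 2 < |r|} := isOpen_lt continuous_const continuous_abs
          have : iteratedDeriv n χ =ᶠ[nhds r] fun _ => 0 := by
            filter_upwards [hopen.mem_nhds hr] with s hs using ih s hs
          rw [this.deriv_eq]; simp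
      have : 1 / 2 < |r / 2| := by
        rw [abs_div, abs_two]; linarith
      simp only [hx N _ this, zero_div]
  have eop : ∀ k : ℤ, op ALGx390.alg (iteratedDeriv (N + 1) η) (sm_iter sη (N + 1)) k F =
      (1 : ℝ) • op ALGx390.alg (iteratedDeriv N χ) (sm_iter sχ N) k F +
      (-(1 / 2) ^ N : ℝ) • op ALGx390.alg (iteratedDeriv N χ) (sm_iter sχ N) (k + 1) F := by
    intro k
    rw [op_lin (sm_iter sχ N) s2 (sm_iter sη (N + 1)) eη k F]
    congr 2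
    ext z
    simp only [op_fn]
    rw [ALGx390.alg7]
  obtain ⟨A, hA0, hA⟩ := Tr_bd hψ hU2 S
  set a : ℕ → ℝ := fun j => ‖Tr hψ hU2 S (op ALGx390.alg (iteratedDeriv N χ) (sm_iter sχ N) j F)‖
    with ha
  have ha1 : ∀ j, a j ≤ A * ((∫ r, |iteratedDeriv N χ r|) * ‖F‖) := by
    intro j
    refine (hA _).trans (mul_le_mul_of_nonneg_left ?_ hA0)
    exact op_norm _ _ _ _ _
  have ha2 : ∀ j, a j ≤ 1 / 2 * a (j + 1) + Cη * Real.sqrt B * ‖F‖ := by
    intro j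
    have h1 := eop j
    have h2 : op ALGx390.alg (iteratedDeriv N χ) (sm_iter sχ N) (j : ℤ) F =
        op ALGx390.alg (iteratedDeriv (N + 1) η) (sm_iter sη (N + 1)) j F +
        ((1 / 2) ^ N : ℝ) • op ALGx390.alg (iteratedDeriv N χ) (sm_iter sχ N) ((j : ℤ) + 1) F := by
      rw [h1, one_smul, neg_smul]
      abel
    have h3 : a j ≤ ‖Tr hψ hU2 S (op ALGx390.alg (iteratedDeriv (N + 1) η)
        (sm_iter sη (N + 1)) j F)‖ + (1 / 2) ^ N * a (j + 1) := by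
      simp only [ha]
      rw [h2, map_add, map_smul]
      refine (norm_add_le _ _).trans ?_
      rw [norm_smul, Real.norm_eq_abs, abs_of_nonneg (by positivity : (0 : ℝ) ≤ (1 / 2) ^ N)]
      push_cast
      exact le_rfl
    have h4 : (1 / 2 : ℝ) ^ N ≤ 1 / 2 := by
      calc (1 / 2 : ℝ) ^ N ≤ (1 / 2) ^ 1 := pow_le_pow_of_le_one (by norm_num) (by norm_num) hN
        _ = 1 / 2 := pow_one _
    have h5 : 0 ≤ a (j + 1) := norm_nonneg _
    have h6 := t2 j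
    nlinarith
  have t3 : a 0 ≤ 2 * (Cη * Real.sqrt B * ‖F‖) := halving ha1 (by positivity) ha2
  -- assembly
  have eω : ∀ r, iteratedDeriv N ω r = 1 * iteratedDeriv (N + 1) ω₁ r + I * iteratedDeriv N χ r := by
    intro r
    rw [hder]; ring
  have e3 : Tr hψ hU2 S (op ALGx390.alg (iteratedDeriv N ω) (sm_iter sω N) 0 F) =
      (1 : ℝ) • Tr hψ hU2 S (op ALGx390.alg (iteratedDeriv (N + 1) ω₁) (sm_iter sω₁ (N + 1)) 0 F) +
      I • Tr hψ hU2 S (op ALGx390.alg (iteratedDeriv N χ) (sm_iter sχ N) 0 F) := by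
    rw [op_lin (sm_iter sω₁ (N + 1)) (sm_iter sχ N) (sm_iter sω N) eω 0 F, map_add, map_smul,
      map_smul]
  have e4 : ‖Tr hψ hU2 S (op ALGx390.alg (iteratedDeriv N ω) (sm_iter sω N) 0 F)‖ ≤
      (C₁ + 4 * Cη) * Real.sqrt B * ‖F‖ := by
    rw [e3, one_smul]
    refine (norm_add_le _ _).trans ?_
    rw [norm_smul, Real.norm_eq_abs]
    have h7 : ‖Tr hψ hU2 S (op ALGx390.alg (iteratedDeriv N χ) (sm_iter sχ N) 0 F)‖ ≤
        2 * (Cη * Real.sqrt B * ‖F‖) := by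
      have := t3
      simp only [ha, Nat.cast_zero] at this
      exact this
    calc _ ≤ C₁ * Real.sqrt B * ‖F‖ + 2 * (2 * (Cη * Real.sqrt B * ‖F‖)) :=
          add_le_add t1 (mul_le_mul hIle h7 (norm_nonneg _) (by norm_num))
      _ = _ := by ring
  have e5 : ‖Tr hψ hU2 S (op ALGx390.alg (iteratedDeriv N ω) (sm_iter sω N) 0 F)‖ ^ 2 ≤
      ((C₁ + 4 * Cη) * Real.sqrt B * ‖F‖) ^ 2 := pow_le_pow_left₀ (norm_nonneg _) e4 2
  rw [mul_pow _ ‖F‖, norm_sq_eq, norm_sq_eq] at e5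
  exact e5

theorem fin {ψ : ℝ → ℝ} (hψ : PsiC ψ) {M : ℕ} (H : SBN ψ 1 M) (φ : ℝ → ℝ) (hφ : PhiC φ) :
    SB φ ψ := by
  obtain ⟨c, hc, B₀, hB₀⟩ := H
  obtain ⟨ω, h1, h2, h3⟩ := phiC_prim hφ
  have sω : Sm ω := ⟨h1, h2⟩
  obtain ⟨C, hC, bC⟩ := bd_iter sω M
  set B : ℝ := max B₀ 0 with hBdef
  have hB0 : 0 ≤ B := le_max_right _ _
  have hB : ∀ ω : ℝ → ℝ, ContDiff ℝ (⊤ : ℕ∞) ω → (∀ r, 1 < |r| → ω r = 0) →
      (∀ i ≤ M, ∀ r, |iteratedDeriv i ω r| ≤ 1) → ∀ U f : ℝ × ℝ → ℝ, Fld c U → Nice f → ∀ S : ℕ,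
      ∫ z, (tk (kerS ψ S) U (cv (iteratedDeriv 1 ω) 0 f) z) ^ 2 ≤ B * ∫ z, (f z) ^ 2 := by
    intro ω h1 h2 h3 U f h4 h5 S
    refine (hB₀ ω h1 h2 h3 U f h4 h5 S).trans ?_
    have : 0 ≤ ∫ z, (f z) ^ 2 := integral_nonneg fun z => sq_nonneg _
    have := le_max_left B₀ 0
    gcongr
  refine ⟨min c (1 / 2), by positivity, (C * Real.sqrt B) ^ 2, ?_⟩
  intro U f hU hf S
  have hUc : Fld c U := fld_mono (min_le_left _ _) hU
  have hU2 : Fld (1 / 2) U := fld_mono (min_le_right _ _) hU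
  set F : NF := NF.mk f hf with hF
  have t := use hψ hB0 hB sω hC bC hU2 hUc S 0 F
  have t' := pow_le_pow_left₀ (norm_nonneg _) t 2
  rw [mul_pow _ ‖F‖, norm_sq_eq, norm_sq_eq] at t'
  have e : iteratedDeriv 1 ω = φ := by rw [iteratedDeriv_one, h3]
  have e' : (op ALGx390.alg (iteratedDeriv 1 ω) (sm_iter sω 1) 0 F).fn = cv φ 0 f := by
    rw [op_fn, e]; rfl
  have e'' : (Tr hψ hU2 S (op ALGx390.alg (iteratedDeriv 1 ω) (sm_iter sω 1) 0 F)).fn =
      tk (kerS ψ S) U (cv φ 0 f) := by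
    show tk (kerS ψ S) U (op ALGx390.alg (iteratedDeriv 1 ω) (sm_iter sω 1) 0 F).fn = _
    rw [e']
  rw [e''] at t'
  exact t'

/-- **leaf RED** -/
theorem red {ψ : ℝ → ℝ} (hψ : PsiC ψ) {N M : ℕ} (hN : 1 ≤ N) (H : SBN ψ N M) :
    ∀ φ, PhiC φ → SB φ ψ := by
  obtain ⟨n, rfl⟩ : ∃ n, N = n + 1 := ⟨N - 1, by omega⟩
  clear hN
  induction n with
  | zero => exact fun φ hφ => fin hψ H φ hφ
  | succ n ih => exact ih (step hψ (by omega) H)

/-- all together: the target of the operator part from `SBN`. -/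
theorem red_all {N M : ℕ} (hN : 1 ≤ N) (H : ∀ ψ, PsiC ψ → SBN ψ N M) :
    ∀ φ ψ, PhiC φ → PsiC ψ → SB φ ψ :=
  fun φ ψ hφ hψ => red hψ hN (H ψ hψ) φ hφ

end Crest.Agent.R087.Redx738
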