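import Crest.Agent.R087.Shell_283

/-!
Row 87, outer shell with ONE fixed family of kernel profiles: `psE η t = (η t - η (2 t)) / t`.
`shell_one`: S0115 from `SB φ (psE η)` only (needed by the gating reduction, where
`kerS (psE η) S t = (η t - η (2^S t)) / t`).
`asm_one` is helper283's proof of `asm` with `ψ` fixed.
-/

set_option autoImplicit false

noncomputable section

open MeasureTheory Crest.Agent.R087.Sh0x283 Crest.Agent.R087.Sh1x283 Crest.Agent.R087.Asm1x283
  Crest.Agent.R087.Asm2x283 Crest.Agent.R087.Asm3x283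
open scoped RealInnerProductSpace

namespace Crest.Agent.R087.ShellOnex168

theorem asm_one (hAB : ABS) (hA : ALG) (hX : APX) (hS : SBK) (hC : COMM) (hT : TB)
    {ψ : ℝ → ℝ} (hψ : PsiC ψ) (h : ∀ φ, PhiC φ → SB φ ψ) : MOD ψ := by
  obtain ⟨χ, hχ⟩ := exists_chi
  obtain ⟨K, hK⟩ := hAB
  have pd := dk_phi hχ
  have pa := al_phi hχ
  have pd' := phiC_deriv pd.1 pd.2.1
  have pa' := phiC_deriv pa.1 pa.2.1
  obtain ⟨c1, hc1, B1, hB1, b1⟩ := hS _ _ (h _ pd')
  obtain ⟨c2, hc2, B2, hB2, b2⟩ := hS _ _ (h _ pa')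
  obtain ⟨L1, hL1, l1⟩ := hC _ _ pd hψ
  obtain ⟨L2, hL2, l2⟩ := hC _ _ pa hψ
  obtain ⟨W1, hW1, w1⟩ := two_bound hA pd pd
  obtain ⟨W2, hW2, w2⟩ := two_bound hA pa pa
  obtain ⟨W3, hW3, w3⟩ := two_bound hA pd pa
  -- constants
  set nd : ℝ := ∫ r, |deriv (dk χ) r| with hnd
  set na : ℝ := ∫ r, |deriv (al χ) r| with hna
  have hnd0 : 0 ≤ nd := integral_nonneg fun _ => abs_nonneg _
  have hna0 : 0 ≤ na := integral_nonneg fun _ => abs_nonneg _
  set C₀ : ℝ := W1 * nd + W2 * na with hC0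
  set b : ℝ := Real.sqrt B1 + Real.sqrt B2 with hb
  set B : ℝ := (W2 + W3) * b with hBdef
  set L : ℝ := Real.sqrt L1 + Real.sqrt L2 with hLdef
  have hb0 : 0 ≤ b := by positivity
  have hL0 : 0 ≤ L := by positivity
  have hB0 : 0 ≤ B := by positivity
  have hC00 : 0 ≤ C₀ := by positivity
  refine ⟨min (1 / 2) (min c1 c2), by positivity, (K C₀ * (B + L)) ^ 2, ?_⟩
  intro U f hU hU1 hf S
  have hU2 : Fld (1 / 2) U := fld_mono (min_le_left _ _) hU
  have hUc1 : Fld c1 U := fld_mono ((min_le_right _ _).trans (min_le_left _ _)) hU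
  have hUc2 : Fld c2 U := fld_mono ((min_le_right _ _).trans (min_le_right _ _)) hU
  obtain ⟨k1, k2, k3⟩ := kerS_props hψ S
  set T : NF →ₗ[ℝ] NF := TT hT (kerS ψ S) k1 k2 k3 U hU2 with hTdef
  set X : ℤ → NF →ₗ[ℝ] NF := fun m => op hA χ (sm_chi hχ) m with hXdef
  have hTn : ∀ f : NF, (T f).fn = tk (kerS ψ S) U f.fn := fun f => rfl
  have sqB1 : Real.sqrt B1 ^ 2 = B1 := Real.sq_sqrt hB1
  have sqB2 : Real.sqrt B2 ^ 2 = B2 := Real.sq_sqrt hB2
  have td : ∀ k g, ‖T (op hA (deriv (dk χ)) (sm_deriv (sm_of_phi pd)) k g)‖ ≤ b * ‖g‖ := by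
    intro k g
    have h1 : ‖T (op hA (deriv (dk χ)) (sm_deriv (sm_of_phi pd)) k g)‖ ≤ Real.sqrt B1 * ‖g‖ := by
      refine norm_le_of (Real.sqrt_nonneg _) ?_
      rw [sqB1]
      exact b1 U g.fn hUc1 g.nice k S
    exact h1.trans (mul_le_mul_of_nonneg_right (by rw [hb]; linarith [Real.sqrt_nonneg B2])
      (norm_nonneg _))
  have ta : ∀ k g, ‖T (op hA (deriv (al χ)) (sm_deriv (sm_of_phi pa)) k g)‖ ≤ b * ‖g‖ := by
    intro k g
    have h1 : ‖T (op hA (deriv (al χ)) (sm_deriv (sm_of_phi pa)) k g)‖ ≤ Real.sqrt B2 * ‖g‖ := by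
      refine norm_le_of (Real.sqrt_nonneg _) ?_
      rw [sqB2]
      exact b2 U g.fn hUc2 g.nice k S
    exact h1.trans (mul_le_mul_of_nonneg_right (by rw [hb]; linarith [Real.sqrt_nonneg B1])
      (norm_nonneg _))
  have chi1 : ∫ r, |χ r| = 1 := by
    rw [← hχ.2.2.2.2]
    congr 1; ext r; exact abs_of_nonneg (hχ.2.2.1 r)
  have eD : ∀ m f, DD X m f = op hA (dk χ) (sm_of_phi pd) m f := fun m f => DD_eq hA hχ m f
  have eA : ∀ m f, AA X m f = op hA (al χ) (sm_of_phi pa) m f := fun m f => AA_eq hA hχ m f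
  have nd1 : ∀ k g, ‖(LinearMap.id : NF →ₗ[ℝ] NF)
      (op hA (deriv (dk χ)) (sm_deriv (sm_of_phi pd)) k g)‖ ≤ nd * ‖g‖ :=
    fun k g => op_norm hA _ (sm_deriv (sm_of_phi pd)) k g
  have na1 : ∀ k g, ‖(LinearMap.id : NF →ₗ[ℝ] NF)
      (op hA (deriv (al χ)) (sm_deriv (sm_of_phi pa)) k g)‖ ≤ na * ‖g‖ :=
    fun k g => op_norm hA _ (sm_deriv (sm_of_phi pa)) k g
  have key := hK NF X T C₀ B L (Real.sqrt (2 * (∫ t, |kerS ψ S t|) ^ 2)) hC00 hB0 hL0
    (Real.sqrt_nonneg _)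
    (fun m f g => CV_symm hA χ _ _ hχ.2.1 m f g)
    (fun m f => by
      have := op_norm hA χ (sm_chi hχ) m f
      rw [chi1, one_mul] at this
      exact this)
    (fun m n f => op_comm hA χ χ _ _ m n f)
    (fun f => by
      have h1 := (hX χ hχ f.fn f.nice).1
      have h2 : ∀ N : ℕ, ‖X (-(N : ℤ)) f - f‖ =
          Real.sqrt (∫ z, (cv χ (-(N : ℤ)) f.fn z - f.fn z) ^ 2) := by
        intro N
        rw [← Real.sqrt_sq (norm_nonneg (X (-(N : ℤ)) f - f)), norm_sq_eq]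
        rfl
      simp only [h2]
      have h3 := (Real.continuous_sqrt.tendsto 0).comp h1
      rw [Real.sqrt_zero] at h3
      exact h3)
    (fun f => by
      have h1 := (hX χ hχ f.fn f.nice).2
      have h2 : ∀ N : ℕ, ‖X (N : ℤ) f‖ = Real.sqrt (∫ z, (cv χ (N : ℤ) f.fn z) ^ 2) := by
        intro N
        rw [← Real.sqrt_sq (norm_nonneg (X (N : ℤ) f)), norm_sq_eq]
        rfl
      simp only [h2]
      have h3 := (Real.continuous_sqrt.tendsto 0).comp h1
      rw [Real.sqrt_zero] at h3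
      exact h3)
    (fun k l f => by
      rw [eD, eD]
      have := w1 LinearMap.id nd hnd0 nd1 nd1 k l f
      refine this.trans ?_
      have h0 : 0 ≤ W2 * na := by positivity
      have : W1 * nd ≤ C₀ := by rw [hC0]; linarith
      gcongr)
    (fun k l f => by
      rw [eA, eA]
      have := w2 LinearMap.id na hna0 na1 na1 k l f
      refine this.trans ?_
      have h0 : 0 ≤ W1 * nd := by positivity
      have : W2 * na ≤ C₀ := by rw [hC0]; linarith
      gcongr)
    (fun k m f => by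
      rw [eD, eA]
      refine (w3 T b hb0 td ta k m f).trans ?_
      have : W3 * b ≤ B := by
        rw [hBdef]; nlinarith
      gcongr)
    (fun k m f => by
      rw [eA, eA]
      refine (w2 T b hb0 ta ta k m f).trans ?_
      have : W2 * b ≤ B := by
        rw [hBdef]; nlinarith
      gcongr)
    (fun F f => by
      have h1 := l1 U f.fn hU2 hU1 f.nice S F
      have h2 : ∀ k, ‖DD X k (T f) - T (DD X k f)‖ ^ 2 =
          ∫ z, (cv (dk χ) k (tk (kerS ψ S) U f.fn) z - tk (kerS ψ S) U (cv (dk χ) k f.fn) z) ^ 2 := by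
        intro k
        rw [eD, eD, norm_sq_eq]
        rfl
      simp only [h2]
      refine h1.trans ?_
      rw [norm_sq_eq]
      have h3 : 0 ≤ ∫ z, (f.fn z) ^ 2 := integral_nonneg fun _ => sq_nonneg _
      refine mul_le_mul_of_nonneg_right ?_ h3
      have e1 := Real.sq_sqrt hL1
      rw [hLdef]
      nlinarith [Real.sqrt_nonneg L1, Real.sqrt_nonneg L2])
    (fun F f => by
      have h1 := l2 U f.fn hU2 hU1 f.nice S F
      have h2 : ∀ k, ‖AA X k (T f) - T (AA X k f)‖ ^ 2 =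
          ∫ z, (cv (al χ) k (tk (kerS ψ S) U f.fn) z - tk (kerS ψ S) U (cv (al χ) k f.fn) z) ^ 2 := by
        intro k
        rw [eA, eA, norm_sq_eq]
        rfl
      simp only [h2]
      refine h1.trans ?_
      rw [norm_sq_eq]
      have h3 : 0 ≤ ∫ z, (f.fn z) ^ 2 := integral_nonneg fun _ => sq_nonneg _
      refine mul_le_mul_of_nonneg_right ?_ h3
      have e1 := Real.sq_sqrt hL2
      rw [hLdef]
      nlinarith [Real.sqrt_nonneg L1, Real.sqrt_nonneg L2])
    (fun f => by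
      refine norm_le_of (Real.sqrt_nonneg _) ?_
      rw [Real.sq_sqrt (by positivity)]
      exact (hT _ k1 k2 k3 U hU2).2.1 f.fn f.nice)
    (NF.mk f hf)
  have h1 : ‖T (NF.mk f hf)‖ ^ 2 ≤ (K C₀ * (B + L) * ‖NF.mk f hf‖) ^ 2 :=
    pow_le_pow_left₀ (norm_nonneg _) key 2
  rw [mul_pow, norm_sq_eq, norm_sq_eq] at h1
  exact h1

/-- the sum of the scales telescopes. -/
theorem kerS_psE (η : ℝ → ℝ) (S : ℕ) (t : ℝ) :
    kerS (S11x168.psE η) S t = (η t - η (2 ^ S * t)) / t := by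
  unfold kerS S11x168.psE
  rcases eq_or_ne t 0 with rfl | ht
  · simp
  induction S with
  | zero => simp
  | succ n ih =>
    rw [Finset.sum_range_succ, ih]
    have h2 : (2 : ℝ) ^ n ≠ 0 := by positivity
    have : (2 : ℝ) ^ n * ((η (2 ^ n * t) - η (2 * (2 ^ n * t))) / (2 ^ n * t)) =
        (η (2 ^ n * t) - η (2 * (2 ^ n * t))) / t := by
      field_simp
    rw [this, ← add_div]
    have e : (2 : ℝ) * (2 ^ n * t) = 2 ^ (n + 1) * t := by ring
    rw [e]
    congr 1
    ring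

theorem s11_one {η : ℝ → ℝ} (hη : EtaC η) (hmod : MOD (S11x168.psE η)) : MODL η := by
  obtain ⟨c, hc, C, hC⟩ := hmod
  refine ⟨min (c / 3) (1 / 20), by positivity, ?_, max C 0, le_max_right _ _, ?_⟩
  · exact (min_le_right _ _).trans_lt (by norm_num)
  · intro U f hU hfc hf S
    have hl : 0 < min (c / 3) (1 / 20) := by positivity
    have hlc : 3 * min (c / 3) (1 / 20) ≤ c := by
      have := min_le_left (c / 3) (1 / 20); linarith
    refine (S11x168.remove_c1 hη hl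
      (fun U f hU hU1 hf S => S11x168.c1_case hC hl hlc U f hU hU1 hf S) U f hU hfc hf S).trans ?_
    exact mul_le_mul_of_nonneg_right (le_max_left _ _) (integral_nonneg fun z => sq_nonneg _)

/-- S0115 from the single band estimate for the profiles `psE η` only. -/
theorem shell_one (h : ∀ η, EtaC η → ∀ φ, PhiC φ → SB φ (S11x168.psE η)) : TGT :=
  S13x738.s13 (S12x575.s12 fun η hη => s11_one hη
    (asm_one ABSx52.abs9 ALGx390.alg Apxx738.apx SBKx545.sbk Shellx283.comm TBx820.tb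
      (S11x168.psE_PsiC hη) (h η hη)))

end Crest.Agent.R087.ShellOnex168
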