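import Crest.Agent.R087.E2end_542
import Crest.Agent.R087.ShellOne_168
import Crest.Agent.R087.Red_738
import Crest.Agent.R087.GateDef_273

/-!
Row 87 (S0115), END (helper542): the statement from the two last open blocks
* `GATE ζ N M` (helper273): gated bound => single band estimate for `psE η`;
* `OP ζ N M` (operator part): `E2K => GDN ζ N M`.
Everything else (heart `E2s`, outer shell, profile reduction) is proved.
-/

set_option autoImplicit false

namespace Crest.Agent.R087.Endx542

open Crest.Agent.R087.Sh0x283 Crest.Agent.R087.Sh1x283 Crest.Agent.R087.GateDefx273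
open Crest.Agent.R087.Redx738 Crest.Agent.R087.S11x168 Crest.Agent.R087.E2Kx752

/-- the gating reduction -/
def GATE (ζ : ℝ → ℝ) (N M : ℕ) : Prop := ∀ η, EtaC η → GDN ζ N M → SBN (psE η) N M

/-- the operator part -/
def OP (ζ : ℝ → ℝ) (N M : ℕ) : Prop := E2K → GDN ζ N M

/-- S0115 from the two blocks. -/
theorem fin {ζ : ℝ → ℝ} {N M : ℕ} (hN : 1 ≤ N) (hG : GATE ζ N M) (hO : OP ζ N M) : TGT :=
  ShellOnex168.shell_one fun η hη => red (psE_PsiC hη) hN (hG η hη (hO E2endx542.e2K))

end Crest.Agent.R087.Endx542
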