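import Crest.Agent.R087.E2leaf_542

/-!
# Row 87, E2: toolkit for the dyadic expectations `Ex l` and the operators `Tt θ μ`
-/

set_option autoImplicit false

noncomputable section

open MeasureTheory Set

namespace Crest.Agent.R087.ExToolx297

open Crest.Agent.R087.E2x542

/-! ### integrability -/

/-- measurable, bounded, bounded support on the plane gives integrable -/
theorem integrable2 {F : ℝ × ℝ → ℝ} (hm : Measurable F) {M R : ℝ} (hb : ∀ z, |F z| ≤ M)
    (hs : ∀ z, R < ‖z‖ → F z = 0) : Integrable F (volume.prod volume) := by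
  have h1 : IntegrableOn F (Metric.closedBall 0 R) (volume.prod volume) := by
    refine Measure.integrableOn_of_bounded (M := M) ?_ hm.aestronglyMeasurable ?_
    · exact (isCompact_closedBall (0 : ℝ × ℝ) R).measure_lt_top.ne
    · exact Filter.Eventually.of_forall fun z => by simpa using hb z
  rw [← integrableOn_univ]
  refine h1.of_forall_sdiff_eq_zero MeasurableSet.univ ?_
  intro z hz
  apply hs
  simpa using hz.2

theorem Nice1.integrable {f : ℝ → ℝ} (hf : Nice1 f) : Integrable f := by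
  obtain ⟨hm, ⟨M, hM⟩, R, hR⟩ := hf
  have h1 : IntegrableOn f (Metric.closedBall 0 R) volume := by
    refine Measure.integrableOn_of_bounded (M := M) ?_ hm.aestronglyMeasurable ?_
    · exact (isCompact_closedBall (0 : ℝ) R).measure_lt_top.ne
    · exact Filter.Eventually.of_forall fun z => by simpa using hM z
  rw [← integrableOn_univ]
  refine h1.of_forall_sdiff_eq_zero MeasurableSet.univ ?_
  intro z hz
  apply hR
  simpa using hz.2

/-- a convenient form of `Nice1` with nonnegative bounds -/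
theorem Nice1.bounds {f : ℝ → ℝ} (hf : Nice1 f) :
    ∃ M R : ℝ, 0 ≤ M ∧ 0 ≤ R ∧ (∀ y, |f y| ≤ M) ∧ ∀ y, R < |y| → f y = 0 := by
  obtain ⟨-, ⟨M, hM⟩, R, hR⟩ := hf
  exact ⟨max M 0, max R 0, le_max_right _ _, le_max_right _ _, fun y => (hM y).trans (le_max_left _ _),
    fun y hy => hR y ((le_max_left _ _).trans_lt hy)⟩

theorem Nice1.mul {f g : ℝ → ℝ} (hf : Nice1 f) (hg : Nice1 g) : Nice1 (fun y => f y * g y) := by
  obtain ⟨M, R, hM0, hR0, hM, hR⟩ := Nice1.bounds hf
  obtain ⟨M', R', hM0', hR0', hM', hR'⟩ := Nice1.bounds hg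
  refine ⟨hf.1.mul hg.1, ⟨M * M', fun y => ?_⟩, R, fun y hy => ?_⟩
  · rw [abs_mul]; exact mul_le_mul (hM y) (hM' y) (abs_nonneg _) hM0
  · simp [hR y hy]

theorem Nice1.add {f g : ℝ → ℝ} (hf : Nice1 f) (hg : Nice1 g) : Nice1 (fun y => f y + g y) := by
  obtain ⟨M, R, hM0, hR0, hM, hR⟩ := Nice1.bounds hf
  obtain ⟨M', R', hM0', hR0', hM', hR'⟩ := Nice1.bounds hg
  refine ⟨hf.1.add hg.1, ⟨M + M', fun y => (abs_add_le _ _).trans (add_le_add (hM y) (hM' y))⟩,
    max R R', fun y hy => ?_⟩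
  simp [hR y ((le_max_left _ _).trans_lt hy), hR' y ((le_max_right _ _).trans_lt hy)]

theorem Nice1.smul {f : ℝ → ℝ} (hf : Nice1 f) (c : ℝ) : Nice1 (fun y => c * f y) := by
  obtain ⟨M, R, hM0, hR0, hM, hR⟩ := Nice1.bounds hf
  refine ⟨hf.1.const_mul c, ⟨|c| * M, fun y => ?_⟩, R, fun y hy => ?_⟩
  · rw [abs_mul]; exact mul_le_mul_of_nonneg_left (hM y) (abs_nonneg _)
  · simp [hR y hy]

theorem Nice1.sub {f g : ℝ → ℝ} (hf : Nice1 f) (hg : Nice1 g) : Nice1 (fun y => f y - g y) := by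
  have h := Nice1.add hf (Nice1.smul hg (-1))
  have e : (fun y => f y - g y) = fun y => f y + (-1) * g y := by funext y; ring
  rw [e]; exact h

theorem Nice1.sq {f : ℝ → ℝ} (hf : Nice1 f) : Nice1 (fun y => (f y) ^ 2) := by
  have h := Nice1.mul hf hf
  have e : (fun y => (f y) ^ 2) = fun y => f y * f y := by funext y; ring
  rw [e]; exact h

theorem Nice1.shift {f : ℝ → ℝ} (hf : Nice1 f) (v : ℝ) : Nice1 (fun y => f (y + v)) := by
  obtain ⟨M, R, hM0, hR0, hM, hR⟩ := Nice1.bounds hf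
  refine ⟨hf.1.comp (measurable_id.add_const v), ⟨M, fun y => hM _⟩, R + |v|, fun y hy => ?_⟩
  apply hR
  have := abs_sub_abs_le_abs_sub (y) (-v)
  rw [abs_neg, sub_neg_eq_add] at this
  linarith

theorem integral_shift (f : ℝ → ℝ) (v : ℝ) : ∫ y, f (y + v) = ∫ y, f y :=
  integral_add_right_eq_self f v

theorem Nice1.indicator {f : ℝ → ℝ} (hf : Nice1 f) {S : Set ℝ} (hS : MeasurableSet S) :
    Nice1 (S.indicator f) := by
  obtain ⟨M, R, hM0, hR0, hM, hR⟩ := Nice1.bounds hf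
  refine ⟨hf.1.indicator hS, ⟨M, fun y => ?_⟩, R, fun y hy => ?_⟩
  · by_cases h : y ∈ S
    · simpa [h] using hM y
    · simpa [h] using hM0
  · by_cases h : y ∈ S
    · simpa [h] using hR y hy
    · simp [h]

/-! ### cells -/

/-- index of the cell of length `2^l` containing `y` -/
def ix (l : ℤ) (y : ℝ) : ℤ := ⌊y / 2 ^ l⌋

theorem two_zpow_pos (l : ℤ) : (0 : ℝ) < 2 ^ l := by positivity

theorem mem_cell (l : ℤ) (n : ℤ) (x : ℝ) :
    x ∈ Set.Ico (n * (2 : ℝ) ^ l) ((n + 1) * (2 : ℝ) ^ l) ↔ ix l x = n := by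
  unfold ix
  rw [Int.floor_eq_iff, Set.mem_Ico, le_div_iff₀ (two_zpow_pos l), div_lt_iff₀ (two_zpow_pos l)]

theorem measurable_ix (l : ℤ) : Measurable (ix l) :=
  Int.measurable_floor.comp (measurable_id.div_const _)

theorem Ex_def (l : ℤ) (f : ℝ → ℝ) (y : ℝ) :
    Ex l f y = ((2 : ℝ) ^ l)⁻¹ * ∫ x in {x | ix l x = ix l y}, f x := by
  have h : Set.Ico ((ix l y : ℝ) * (2 : ℝ) ^ l) ((ix l y + 1) * (2 : ℝ) ^ l)
      = {x | ix l x = ix l y} := by
    ext x; exact mem_cell l _ x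
  unfold Ex
  rw [← h]; rfl

theorem Ex_def' (l : ℤ) (f : ℝ → ℝ) (y : ℝ) :
    Ex l f y = ((2 : ℝ) ^ l)⁻¹ * ∫ x, if ix l x = ix l y then f x else 0 := by
  rw [Ex_def]
  have hm : MeasurableSet {x | ix l x = ix l y} := measurable_ix l (measurableSet_singleton _)
  rw [← integral_indicator hm]
  congr 2 with x
  by_cases h : ix l x = ix l y
  · simp [Set.indicator, h]
  · simp [Set.indicator, h]

/-- functions constant on cells -/
def CC (l : ℤ) (g : ℝ → ℝ) : Prop := ∀ x y, ix l x = ix l y → g x = g y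

theorem CC_Ex (l : ℤ) (f : ℝ → ℝ) : CC l (Ex l f) := by
  intro x y h
  rw [Ex_def, Ex_def, h]

theorem ix_succ (l : ℤ) (x : ℝ) : ix (l + 1) x = ix l x / 2 := by
  unfold ix
  have h := Int.floor_div_natCast (x / 2 ^ l) 2
  rw [← show x / 2 ^ l / ((2 : ℕ) : ℝ) = x / 2 ^ (l + 1) by
    rw [zpow_add_one₀ (two_ne_zero), div_div]; norm_num]
  rw [h]; norm_num

theorem CC_mono {l : ℤ} {g : ℝ → ℝ} (h : CC (l + 1) g) : CC l g := by
  intro x y hxy
  apply h
  rw [ix_succ, ix_succ, hxy]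

theorem CC_sub {l : ℤ} {f g : ℝ → ℝ} (hf : CC l f) (hg : CC l g) : CC l (fun y => f y - g y) := by
  intro x y h
  simp only [hf x y h, hg x y h]

theorem CC_Dl (l : ℤ) (f : ℝ → ℝ) : CC l (Dl l f) :=
  CC_sub (CC_Ex l f) (CC_mono (CC_Ex (l + 1) f))

theorem vol_cell (l n : ℤ) : (volume {x | ix l x = n}).toReal = (2 : ℝ) ^ l := by
  have h : {x | ix l x = n} = Set.Ico ((n : ℝ) * (2 : ℝ) ^ l) ((n + 1) * (2 : ℝ) ^ l) := by
    ext x; exact (mem_cell l _ x).symm
  rw [h, Real.volume_Ico, ENNReal.toReal_ofReal]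
  · ring
  · have := two_zpow_pos l
    nlinarith

theorem Ex_of_CC {l : ℤ} {g : ℝ → ℝ} (hg : CC l g) : Ex l g = g := by
  funext y
  rw [Ex_def]
  have hm : MeasurableSet {x | ix l x = ix l y} := measurable_ix l (measurableSet_singleton _)
  have h1 : ∫ x in {x | ix l x = ix l y}, g x = ∫ x in {x | ix l x = ix l y}, g y :=
    setIntegral_congr_fun hm fun x hx => hg x y hx
  rw [h1, setIntegral_const, Measure.real, vol_cell, smul_eq_mul, ← mul_assoc,
    inv_mul_cancel₀ (two_zpow_pos l).ne', one_mul]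

theorem measurable_of_CC {l : ℤ} {g : ℝ → ℝ} (hg : CC l g) : Measurable g := by
  have h : g = (fun n : ℤ => g ((n : ℝ) * 2 ^ l)) ∘ ix l := by
    funext y
    apply hg
    rw [eq_comm]
    apply (mem_cell l _ _).1
    constructor
    · exact le_rfl
    · have := two_zpow_pos l
      nlinarith
  rw [h]
  exact (measurable_of_countable _).comp (measurable_ix l)

/-- two points of the same cell are at distance less than `2^l` -/
theorem dist_of_ix {l : ℤ} {x y : ℝ} (h : ix l x = ix l y) : |x - y| < 2 ^ l := by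
  have h1 := (mem_cell l (ix l y) x).2 h
  have h2 := (mem_cell l (ix l y) y).2 rfl
  rw [abs_sub_lt_iff]
  constructor <;> nlinarith [h1.1, h1.2, h2.1, h2.2]

theorem Nice1.Ex {f : ℝ → ℝ} (hf : Nice1 f) (l : ℤ) : Nice1 (Ex l f) := by
  obtain ⟨M, R, hM0, hR0, hM, hR⟩ := Nice1.bounds hf
  refine ⟨measurable_of_CC (CC_Ex l f), ⟨M, fun y => ?_⟩, R + 2 ^ l, fun y hy => ?_⟩
  · rw [Ex_def, abs_mul, abs_of_pos (inv_pos.2 (two_zpow_pos l))]
    have h1 : |∫ x in {x | ix l x = ix l y}, f x| ≤ M * 2 ^ l := by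
      rw [← Real.norm_eq_abs]
      have h2 := norm_setIntegral_le_of_norm_le_const (μ := volume) (f := f)
        (s := {x | ix l x = ix l y}) (C := M) ?_ (fun x _ => by simpa using hM x)
      · rw [Measure.real, vol_cell] at h2
        exact h2
      · have h3 : {x | ix l x = ix l y} = Set.Ico ((ix l y : ℝ) * (2 : ℝ) ^ l)
            ((ix l y + 1) * (2 : ℝ) ^ l) := by
          ext x; exact (mem_cell l _ x).symm
        rw [h3]; exact measure_Ico_lt_top
    calc ((2 : ℝ) ^ l)⁻¹ * |∫ x in {x | ix l x = ix l y}, f x|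
        ≤ ((2 : ℝ) ^ l)⁻¹ * (M * 2 ^ l) :=
          mul_le_mul_of_nonneg_left h1 (inv_pos.2 (two_zpow_pos l)).le
      _ = M := by field_simp
  · rw [Ex_def']
    have h1 : ∀ x, (if ix l x = ix l y then f x else 0) = 0 := by
      intro x
      split_ifs with h
      · apply hR
        have h2 := dist_of_ix h
        rw [abs_sub_comm] at h2
        have := abs_sub_abs_le_abs_sub y x
        linarith
      · rfl
    simp [h1]

theorem Nice1.Dl {f : ℝ → ℝ} (hf : Nice1 f) (l : ℤ) : Nice1 (Dl l f) :=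
  Nice1.sub (Nice1.Ex hf l) (Nice1.Ex hf (l + 1))

/-! ### self-adjointness -/

theorem Ex_symm {f g : ℝ → ℝ} (hf : Nice1 f) (hg : Nice1 g) (l : ℤ) :
    ∫ y, E2x542.Ex l f y * g y = ∫ y, f y * E2x542.Ex l g y := by
  obtain ⟨M, R, hM0, hR0, hM, hR⟩ := Nice1.bounds hf
  obtain ⟨M', R', hM0', hR0', hM', hR'⟩ := Nice1.bounds hg
  have hset : MeasurableSet {z : ℝ × ℝ | ix l z.1 = ix l z.2} :=
    measurableSet_eq_fun ((measurable_ix l).comp measurable_fst)
      ((measurable_ix l).comp measurable_snd)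
  have hint : Integrable (fun z : ℝ × ℝ => if ix l z.1 = ix l z.2 then f z.1 * g z.2 else 0)
      (volume.prod volume) := by
    refine integrable2 (M := M * M') (R := max R R') ?_ ?_ ?_
    · exact Measurable.ite hset ((hf.1.comp measurable_fst).mul (hg.1.comp measurable_snd))
        measurable_const
    · intro z
      split_ifs
      · rw [abs_mul]; exact mul_le_mul (hM _) (hM' _) (abs_nonneg _) hM0
      · simpa using mul_nonneg hM0 hM0'
    · intro z hz
      rw [Prod.norm_def, Real.norm_eq_abs, Real.norm_eq_abs] at hz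
      rcases lt_max_iff.1 hz with h | h
      · simp [hR z.1 ((le_max_left _ _).trans_lt h)]
      · simp [hR' z.2 ((le_max_right _ _).trans_lt h)]
  have hsw := integral_integral_swap (f := fun x y : ℝ =>
    if ix l x = ix l y then f x * g y else 0) (μ := volume) (ν := volume) hint
  have h1 : ∀ y, E2x542.Ex l f y * g y
      = ((2 : ℝ) ^ l)⁻¹ * ∫ x, if ix l x = ix l y then f x * g y else 0 := by
    intro y
    rw [Ex_def', mul_assoc, ← integral_mul_const]
    congr 2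
    funext x
    split_ifs <;> simp
  have h2 : ∀ x, f x * E2x542.Ex l g x
      = ((2 : ℝ) ^ l)⁻¹ * ∫ y, if ix l x = ix l y then f x * g y else 0 := by
    intro x
    rw [Ex_def', mul_left_comm, ← integral_const_mul]
    congr 2
    funext y
    by_cases h : ix l x = ix l y
    · simp [h]
    · simp [h, Ne.symm h]
  simp only [h1, h2]
  rw [integral_const_mul, integral_const_mul, hsw]

theorem Dl_symm {f g : ℝ → ℝ} (hf : Nice1 f) (hg : Nice1 g) (l : ℤ) :
    ∫ y, E2x542.Dl l f y * g y = ∫ y, f y * E2x542.Dl l g y := by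
  unfold E2x542.Dl
  have h1 : ∀ y, (E2x542.Ex l f y - E2x542.Ex (l + 1) f y) * g y
      = E2x542.Ex l f y * g y - E2x542.Ex (l + 1) f y * g y := fun y => by ring
  have h2 : ∀ y, f y * (E2x542.Ex l g y - E2x542.Ex (l + 1) g y)
      = f y * E2x542.Ex l g y - f y * E2x542.Ex (l + 1) g y := fun y => by ring
  simp only [h1, h2]
  rw [integral_sub (Nice1.integrable (Nice1.mul (Nice1.Ex hf l) hg))
    (Nice1.integrable (Nice1.mul (Nice1.Ex hf (l + 1)) hg)),
    integral_sub (Nice1.integrable (Nice1.mul hf (Nice1.Ex hg l)))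
    (Nice1.integrable (Nice1.mul hf (Nice1.Ex hg (l + 1)))), Ex_symm hf hg, Ex_symm hf hg]

theorem Ex_Ex (l : ℤ) (f : ℝ → ℝ) : Ex l (Ex l f) = Ex l f := Ex_of_CC (CC_Ex l f)

/-- the contraction property -/
theorem Ex_contr {f : ℝ → ℝ} (hf : Nice1 f) (l : ℤ) :
    ∫ y, (E2x542.Ex l f y) ^ 2 ≤ ∫ y, (f y) ^ 2 := by
  have h1 : ∫ y, (E2x542.Ex l f y) ^ 2 = ∫ y, f y * E2x542.Ex l f y := by
    have h2 := Ex_symm hf (Nice1.Ex hf l) l
    rw [Ex_Ex] at h2
    rw [← h2]
    congr 1; funext y; ring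
  have h3 : ∫ y, f y * E2x542.Ex l f y ≤ ∫ y, ((f y) ^ 2 / 2 + (E2x542.Ex l f y) ^ 2 / 2) := by
    refine integral_mono (Nice1.integrable (Nice1.mul hf (Nice1.Ex hf l))) ?_ ?_
    · exact ((Nice1.integrable (Nice1.sq hf)).div_const 2).add
        ((Nice1.integrable (Nice1.sq (Nice1.Ex hf l))).div_const 2)
    · intro y
      nlinarith [sq_nonneg (f y - E2x542.Ex l f y)]
  rw [integral_add ((Nice1.integrable (Nice1.sq hf)).div_const 2)
    ((Nice1.integrable (Nice1.sq (Nice1.Ex hf l))).div_const 2), integral_div, integral_div] at h3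
  linarith

/-- `(a + b)^2 ≤ 2 a^2 + 2 b^2`, integrated -/
theorem int_add_sq {f g : ℝ → ℝ} (hf : Nice1 f) (hg : Nice1 g) :
    ∫ y, (f y + g y) ^ 2 ≤ 2 * (∫ y, (f y) ^ 2) + 2 * ∫ y, (g y) ^ 2 := by
  rw [← integral_const_mul, ← integral_const_mul, ← integral_add
    ((Nice1.integrable (Nice1.sq hf)).const_mul 2) ((Nice1.integrable (Nice1.sq hg)).const_mul 2)]
  refine integral_mono (Nice1.integrable (Nice1.sq (Nice1.add hf hg)))
    (((Nice1.integrable (Nice1.sq hf)).const_mul 2).add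
      ((Nice1.integrable (Nice1.sq hg)).const_mul 2)) ?_
  intro y
  simp only
  nlinarith [sq_nonneg (f y - g y)]

theorem int_sub_sq {f g : ℝ → ℝ} (hf : Nice1 f) (hg : Nice1 g) :
    ∫ y, (f y - g y) ^ 2 ≤ 2 * (∫ y, (f y) ^ 2) + 2 * ∫ y, (g y) ^ 2 := by
  rw [← integral_const_mul, ← integral_const_mul, ← integral_add
    ((Nice1.integrable (Nice1.sq hf)).const_mul 2) ((Nice1.integrable (Nice1.sq hg)).const_mul 2)]
  refine integral_mono (Nice1.integrable (Nice1.sq (Nice1.sub hf hg)))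
    (((Nice1.integrable (Nice1.sq hf)).const_mul 2).add
      ((Nice1.integrable (Nice1.sq hg)).const_mul 2)) ?_
  intro y
  simp only
  nlinarith [sq_nonneg (f y + g y)]

theorem Dl_bdd {f : ℝ → ℝ} (hf : Nice1 f) (l : ℤ) :
    ∫ y, (E2x542.Dl l f y) ^ 2 ≤ 4 * ∫ y, (f y) ^ 2 := by
  have h := int_sub_sq (Nice1.Ex hf l) (Nice1.Ex hf (l + 1))
  have h1 := Ex_contr hf l
  have h2 := Ex_contr hf (l + 1)
  unfold E2x542.Dl
  linarith

/-- Cauchy-Schwarz -/
theorem cs_int {f g : ℝ → ℝ} (hf : Nice1 f) (hg : Nice1 g) :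
    (∫ y, f y * g y) ^ 2 ≤ (∫ y, (f y) ^ 2) * ∫ y, (g y) ^ 2 := by
  have hF := Nice1.integrable (Nice1.sq hf)
  have hG := Nice1.integrable (Nice1.sq hg)
  have hFG := Nice1.integrable (Nice1.mul hf hg)
  have key : ∀ t : ℝ, 0 ≤ (∫ y, (f y) ^ 2) * (t * t) + (2 * ∫ y, f y * g y) * t
      + ∫ y, (g y) ^ 2 := by
    intro t
    have h0 : 0 ≤ ∫ y, (t * f y + g y) ^ 2 := integral_nonneg fun y => sq_nonneg _
    have h1 : ∫ y, (t * f y + g y) ^ 2
        = ∫ y, ((t * t) * (f y) ^ 2 + (2 * t) * (f y * g y)) + (g y) ^ 2 := by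
      congr 1; funext y; ring
    have h3 : ∫ y, ((t * t) * (f y) ^ 2 + (2 * t) * (f y * g y)) + (g y) ^ 2
        = (∫ y, ((t * t) * (f y) ^ 2 + (2 * t) * (f y * g y))) + ∫ y, (g y) ^ 2 :=
      integral_add ((hF.const_mul _).add (hFG.const_mul _)) hG
    have h4 : ∫ y, ((t * t) * (f y) ^ 2 + (2 * t) * (f y * g y))
        = (∫ y, (t * t) * (f y) ^ 2) + ∫ y, (2 * t) * (f y * g y) :=
      integral_add (hF.const_mul _) (hFG.const_mul _)
    rw [h1, h3, h4, integral_const_mul, integral_const_mul] at h0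
    linarith
  have h2 := discrim_le_zero key
  unfold discrim at h2
  nlinarith [h2]

end Crest.Agent.R087.ExToolx297
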