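import Crest.Agent.R087.GateC_273
import Crest.Agent.R087.Red_738

/-!
Row 87 (S0115), GATING part D (helper273): **GATE**: `GDN ζ N M` implies `SBN (psE η) N M`.
-/

set_option autoImplicit false

noncomputable section

open MeasureTheory Crest.Agent.R087.Sh0x283 Crest.Agent.R087.Sh1x283
open Crest.Agent.R087.GateDefx273 Crest.Agent.R087.GateAx273 Crest.Agent.R087.GateBx273
open Crest.Agent.R087.GateCx273 Crest.Agent.R087.S11x168 Crest.Agent.R087.Redx738
open scoped ENNReal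

namespace Crest.Agent.R087.GateDx273

theorem sq3 (a b c : ℝ) : (a + b - c) ^ 2 ≤ 3 * (a ^ 2 + b ^ 2 + c ^ 2) := by
  nlinarith [sq_nonneg (a - b), sq_nonneg (a + c), sq_nonneg (b + c)]

/-- **GATE**: the gated single band estimate implies the single band estimate. -/
theorem gate {ζ : ℝ → ℝ} (h : ZetC ζ) (hc0 : c0 ζ ≠ 0) {N M : ℕ} (hNM : N ≤ M)
    (H : GDN ζ N M) {η : ℝ → ℝ} (hη : EtaC η) : SBN (psE η) N M := by
  obtain ⟨c, hc, B₀, hB₀⟩ := H
  obtain ⟨T, hT⟩ := thE_bd h hη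
  have hT0 : 0 ≤ T := (abs_nonneg _).trans (hT 0)
  set B : ℝ := max B₀ 0 with hBdef
  have hB : 0 ≤ B := le_max_right _ _
  refine ⟨min c (1 / 2), by positivity, ((c0 ζ) ^ 2)⁻¹ * (3 * (4 * B + 2 * (2 * T) ^ 2 * 4 +
    2 * (2 * T) ^ 2 * 4)), ?_⟩
  intro ω hω1 hω2 hω3 U f hU hf S
  set φ := iteratedDeriv N ω with hφdef
  have hsm : Crest.Agent.R087.Asm3x283.Sm ω := ⟨hω1, hω2⟩
  have hφs : Crest.Agent.R087.Asm3x283.Sm φ := sm_iter hsm N
  have hφ : Continuous φ := hφs.1.continuous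
  have hφ1 : ∀ r, 1 < |r| → φ r = 0 := hφs.2
  have hφc : HasCompactSupport φ := hφs.comp
  have hφb : ∀ r, |φ r| ≤ 1 := hω3 N hNM
  have hUc : Fld c U := ⟨hU.1, hU.2.1, fun x y y' => (hU.2.2 x y y').trans
    (mul_le_mul_of_nonneg_right (min_le_left _ _) (abs_nonneg _))⟩
  have hU2 : Fld (1 / 2) U := ⟨hU.1, hU.2.1, fun x y y' => (hU.2.2 x y y').trans
    (mul_le_mul_of_nonneg_right (min_le_right _ _) (abs_nonneg _))⟩
  have hg : Nice (cv φ 0 f) := ALGx390.alg.1 φ hφ hφc 0 f hf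
  have hgn : ∫ z, (cv φ 0 f z) ^ 2 ≤ 4 * ∫ z, (f z) ^ 2 := by
    have h1 := ALGx390.alg.2.1 φ hφ hφc 0 f hf
    have h2 : ∫ r, |φ r| ≤ 2 := by
      have h3 : ∫ r, |φ r| ≤ ∫ r, (Set.Icc (-1 : ℝ) 1).indicator (fun _ => (1 : ℝ)) r := by
        refine integral_mono (hφ.integrable_of_hasCompactSupport hφc).abs ?_ fun r => ?_
        · rw [integrable_indicator_iff measurableSet_Icc]
          exact integrableOn_const (by simp)
        · by_cases hr : r ∈ Set.Icc (-1 : ℝ) 1
          · rw [Set.indicator_of_mem hr]; exact hφb r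
          · rw [Set.indicator_of_notMem hr]
            rw [Set.mem_Icc, ← abs_le, not_le] at hr
            show |φ r| ≤ 0
            rw [hφ1 r hr, abs_zero]
      refine h3.trans ?_
      rw [integral_indicator_const _ measurableSet_Icc]
      simp only [Measure.real, Real.volume_Icc, smul_eq_mul, mul_one]
      rw [ENNReal.toReal_ofReal (by norm_num)]
      norm_num
    have h3 : 0 ≤ ∫ r, |φ r| := integral_nonneg fun _ => abs_nonneg _
    have h4 : 0 ≤ ∫ z, (f z) ^ 2 := integral_nonneg fun _ => sq_nonneg _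
    calc _ ≤ _ := h1
      _ ≤ 2 ^ 2 * ∫ z, (f z) ^ 2 := by gcongr
      _ = 4 * ∫ z, (f z) ^ 2 := by norm_num
  set g := cv φ 0 f with hgdef
  -- the error kernels
  set th : ℝ → ℝ := thE ζ η with hth
  set thS : ℝ → ℝ := fun t => 2 ^ S * thE ζ η (2 ^ S * t) with hthS
  have th_m : Measurable th := thE_meas h hη
  have th_z : ∀ t, 1 < |t| → th t = 0 := fun t ht => thE_zero h hη ht.le
  have h2S : (1 : ℝ) ≤ 2 ^ S := one_le_pow₀ (by norm_num)
  have h2S0 : (0 : ℝ) < 2 ^ S := by positivity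
  have thS_m : Measurable thS := (th_m.comp (measurable_const_mul _)).const_mul _
  have thS_b : ∃ M : ℝ, ∀ t, |thS t| ≤ M := by
    refine ⟨2 ^ S * T, fun t => ?_⟩
    simp only [hthS]
    rw [abs_mul, abs_of_pos h2S0]
    exact mul_le_mul_of_nonneg_left (hT _) h2S0.le
  have thS_z : ∀ t, 1 < |t| → thS t = 0 := by
    intro t ht
    simp only [hthS]
    rw [thE_zero h hη, mul_zero]
    rw [abs_mul, abs_of_pos h2S0]
    nlinarith
  have th_i : ∫ t, |th t| ≤ 2 * T := by
    have h3 : ∫ r, |th r| ≤ ∫ r, (Set.Icc (-1 : ℝ) 1).indicator (fun _ => T) r := by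
      refine integral_mono (TBx820.K_integrable th_m ⟨T, hT⟩ th_z).abs ?_ fun r => ?_
      · rw [integrable_indicator_iff measurableSet_Icc]
        exact integrableOn_const (by simp)
      · by_cases hr : r ∈ Set.Icc (-1 : ℝ) 1
        · rw [Set.indicator_of_mem hr]; exact hT r
        · rw [Set.indicator_of_notMem hr]
          rw [Set.mem_Icc, ← abs_le, not_le] at hr
          show |th r| ≤ 0
          rw [th_z r hr, abs_zero]
    refine h3.trans ?_
    rw [integral_indicator_const _ measurableSet_Icc]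
    simp only [Measure.real, Real.volume_Icc, smul_eq_mul]
    rw [ENNReal.toReal_ofReal (by norm_num)]
    linarith
  have thS_i : ∫ t, |thS t| ≤ 2 * T := by
    have e : ∫ t, |thS t| = ∫ t, |th t| := by
      have h4 := Measure.integral_comp_mul_left (fun t => |th t|) (2 ^ S)
      have h5 : ∀ t, |thS t| = 2 ^ S * |th (2 ^ S * t)| := by
        intro t
        simp only [hthS, hth]
        rw [abs_mul, abs_of_pos h2S0]
      simp only [h5]
      rw [integral_const_mul, h4, smul_eq_mul, abs_of_pos (by positivity), ← mul_assoc,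
        mul_inv_cancel₀ h2S0.ne', one_mul]
    rw [e]; exact th_i
  -- kernel KA
  have KA_eq : KA ζ S = fun t => c0 ζ * kerS (psE η) S t - th t + thS t := by
    funext t
    have := thE_eq h η S t
    simp only [hth, hthS]
    linarith
  have hker := psE_PsiC hη
  have hkc := kerS_continuous hker S
  have hkz : ∀ t, 1 < |t| → kerS (psE η) S t = 0 := fun t ht => kerS_zero hker S ht
  have hkb : ∃ M : ℝ, ∀ t, |kerS (psE η) S t| ≤ M := by
    have hcs : HasCompactSupport (kerS (psE η) S) := by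
      refine HasCompactSupport.intro (isCompact_Icc (a := (-1 : ℝ)) (b := 1)) ?_
      intro t ht
      apply hkz
      rwa [Set.mem_Icc, ← abs_le, not_le] at ht
    obtain ⟨C, hC⟩ := hkc.bounded_above_of_compact_support hcs
    exact ⟨C, hC⟩
  have KA_m : Measurable (KA ζ S) := by
    rw [KA_eq]
    exact ((hkc.measurable.const_mul _).sub th_m).add thS_m
  have KA_b : ∃ M : ℝ, ∀ t, |KA ζ S t| ≤ M := by
    obtain ⟨C1, h1⟩ := hkb
    obtain ⟨C2, h2⟩ := thS_b
    refine ⟨|c0 ζ| * C1 + T + C2, fun t => ?_⟩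
    rw [KA_eq]
    simp only
    have a1 : |c0 ζ * kerS (psE η) S t| ≤ |c0 ζ| * C1 := by
      rw [abs_mul]; exact mul_le_mul_of_nonneg_left (h1 t) (abs_nonneg _)
    have a2 := abs_add_le (c0 ζ * kerS (psE η) S t - th t) (thS t)
    have a3 := abs_sub (c0 ζ * kerS (psE η) S t) (th t)
    have a4 : |th t| ≤ T := hT t
    have a5 := h2 t
    linarith
  have KA_z : ∀ t, 1 < |t| → KA ζ S t = 0 := by
    intro t ht
    rw [KA_eq]
    simp only
    rw [hkz t ht, th_z t ht, thS_z t ht]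
    ring
  have hTn : Nice (tk (KA ζ S) U g) := TBx820.tk_nice KA_m KA_b KA_z hU.1 hU.2.1 hg
  have n1 : ∫ z, (tk (KA ζ S) U g z) ^ 2 ≤ 4 * B * ∫ z, (f z) ^ 2 := by
    refine KA_est h hφ hφ1 hφc hc.le hB S ?_ hUc hf hTn
    intro V g' hV hg'
    refine (hB₀ ω hω1 hω2 hω3 V g' hV hg' S).trans ?_
    exact mul_le_mul_of_nonneg_right (le_max_left _ _) (integral_nonneg fun _ => sq_nonneg _)
  have hf0 : 0 ≤ ∫ z, (f z) ^ 2 := integral_nonneg fun _ => sq_nonneg _
  have n2 : ∫ z, (tk th U g z) ^ 2 ≤ 2 * (2 * T) ^ 2 * 4 * ∫ z, (f z) ^ 2 := by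
    have h1 := TBx820.tk_sq_le th_m ⟨T, hT⟩ th_z (c := 1 / 2) le_rfl hU2 hg
    have h2 : 0 ≤ ∫ t, |th t| := integral_nonneg fun _ => abs_nonneg _
    calc _ ≤ _ := h1
      _ ≤ 2 * (2 * T) ^ 2 * (4 * ∫ z, (f z) ^ 2) := by gcongr
      _ = _ := by ring
  have n3 : ∫ z, (tk thS U g z) ^ 2 ≤ 2 * (2 * T) ^ 2 * 4 * ∫ z, (f z) ^ 2 := by
    have h1 := TBx820.tk_sq_le thS_m thS_b thS_z (c := 1 / 2) le_rfl hU2 hg
    have h2 : 0 ≤ ∫ t, |thS t| := integral_nonneg fun _ => abs_nonneg _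
    calc _ ≤ _ := h1
      _ ≤ 2 * (2 * T) ^ 2 * (4 * ∫ z, (f z) ^ 2) := by gcongr
      _ = _ := by ring
  -- linearity in the kernel
  have lin : ∀ z, tk (kerS (psE η) S) U g z =
      (c0 ζ)⁻¹ * (tk (KA ζ S) U g z + tk th U g z - tk thS U g z) := by
    intro z
    have i1 := TBx820.Kf_integrable (U := U) KA_m KA_b KA_z hg z
    have i2 := TBx820.Kf_integrable (U := U) th_m ⟨T, hT⟩ th_z hg z
    have i3 := TBx820.Kf_integrable (U := U) thS_m thS_b thS_z hg z
    unfold tk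
    have i12 : Integrable fun t => KA ζ S t * g (z.1 - t, z.2 - t * U z) +
        th t * g (z.1 - t, z.2 - t * U z) := i1.add i2
    rw [← integral_add i1 i2, ← integral_sub i12 i3, ← integral_const_mul]
    refine integral_congr_ae (Filter.Eventually.of_forall fun t => ?_)
    have e := congrFun KA_eq t
    have e' : kerS (psE η) S t = (c0 ζ)⁻¹ * (KA ζ S t + th t - thS t) := by
      rw [e]
      field_simp
      ring
    show kerS (psE η) S t * g (z.1 - t, z.2 - t * U z) =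
      (c0 ζ)⁻¹ * (KA ζ S t * g (z.1 - t, z.2 - t * U z) + th t * g (z.1 - t, z.2 - t * U z) -
        thS t * g (z.1 - t, z.2 - t * U z))
    rw [e']
    ring
  have hthn : Nice (tk th U g) := TBx820.tk_nice th_m ⟨T, hT⟩ th_z hU.1 hU.2.1 hg
  have hthSn : Nice (tk thS U g) := TBx820.tk_nice thS_m thS_b thS_z hU.1 hU.2.1 hg
  have j1 := TBx820.nice_integrable_sq hTn
  have j2 := TBx820.nice_integrable_sq hthn
  have j3 := TBx820.nice_integrable_sq hthSn
  have j12 : Integrable fun z => (tk (KA ζ S) U g z) ^ 2 + (tk th U g z) ^ 2 := j1.add j2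
  have j123 : Integrable fun z => (tk (KA ζ S) U g z) ^ 2 + (tk th U g z) ^ 2 +
      (tk thS U g z) ^ 2 := j12.add j3
  calc ∫ z, (tk (kerS (psE η) S) U g z) ^ 2
      ≤ ∫ z, ((c0 ζ) ^ 2)⁻¹ * (3 * ((tk (KA ζ S) U g z) ^ 2 + (tk th U g z) ^ 2 +
          (tk thS U g z) ^ 2)) := by
        refine integral_mono_of_nonneg (Filter.Eventually.of_forall fun z => sq_nonneg _)
          ((j123.const_mul 3).const_mul _) (Filter.Eventually.of_forall fun z => ?_)
        simp only
        rw [lin z, mul_pow, inv_pow]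
        exact mul_le_mul_of_nonneg_left (sq3 _ _ _) (by positivity)
    _ = ((c0 ζ) ^ 2)⁻¹ * (3 * ((∫ z, (tk (KA ζ S) U g z) ^ 2) + (∫ z, (tk th U g z) ^ 2) +
          ∫ z, (tk thS U g z) ^ 2)) := by
        rw [integral_const_mul, integral_const_mul, integral_add j12 j3, integral_add j1 j2]
    _ ≤ ((c0 ζ) ^ 2)⁻¹ * (3 * (4 * B * (∫ z, (f z) ^ 2) +
          2 * (2 * T) ^ 2 * 4 * (∫ z, (f z) ^ 2) + 2 * (2 * T) ^ 2 * 4 * (∫ z, (f z) ^ 2))) := by
        gcongr
    _ = _ := by ring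

end Crest.Agent.R087.GateDx273
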