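import Crest.Agent.R087.OP0_270
import Crest.Agent.R087.E2Kf_752

/-!
Row 87 (S0115), leaf REMSUM of `OP0_270` (helper435): the tops of one class have bounded dilation and total
mass `≤ (n+2) ‖h‖²`.
-/

set_option autoImplicit false

noncomputable section

open MeasureTheory

namespace Crest.Agent.R087.RemSumx435

open Crest.Agent.R087.Sh0x283 Crest.Agent.R087.E2x542 Crest.Agent.R087.E2Kx752
  Crest.Agent.R087.OP0x270

/-- a nice function is square integrable -/
theorem nice_sq {h : ℝ × ℝ → ℝ} (hh : Nice h) : Integrable (fun z => (h z) ^ 2) := by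
  obtain ⟨hm, ⟨M, hM⟩, ⟨R, hR⟩⟩ := hh
  have hb : Integrable (Set.indicator (Metric.closedBall (0 : ℝ × ℝ) R) (fun _ => M ^ 2 : ℝ × ℝ → ℝ)) := by
    rw [integrable_indicator_iff measurableSet_closedBall]
    exact integrableOn_const (measure_closedBall_lt_top.ne)
  refine hb.mono' (hm.pow_const 2).aestronglyMeasurable (ae_of_all _ (fun z => ?_))
  by_cases hz : z ∈ Metric.closedBall (0 : ℝ × ℝ) R
  · rw [Set.indicator_of_mem hz, Real.norm_eq_abs, abs_of_nonneg (sq_nonneg _), ← sq_abs]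
    exact pow_le_pow_left₀ (abs_nonneg _) (hM z) 2
  · rw [Set.indicator_of_notMem hz]
    have : R < ‖z‖ := by
      simpa [Metric.mem_closedBall, dist_zero_right] using hz
    rw [hR z this]
    simp

theorem fatV_vol {U : ℝ × ℝ → ℝ} {K : ℝ} (R : Tube) (hK : 0 ≤ K) {E : Set (ℝ × ℝ)}
    (hE : E ⊆ fatV U K R) : volume E ≠ ⊤ ∧ (volume E).toReal ≤ 2 * K * R.len := by
  have h1 : E ⊆ fat K R := fun z hz => (hE hz).1
  have h2 : volume E ≤ volume (fat K R) := measure_mono h1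
  have h3 : volume (fat K R) ≠ ⊤ := fat_ne_top K R
  refine ⟨ne_top_of_le_ne_top h3 h2, ?_⟩
  have h4 := ENNReal.toReal_mono h3 h2
  rw [volume_fat, ENNReal.toReal_ofReal (by have := R.len_pos; positivity)] at h4
  exact h4

theorem remsum : REMSUM := by
  intro n U h lo hi hU hh N R kk ii E B H
  have hpow : ∀ i : ℕ, (0 : ℝ) < 2 ^ i := fun i => by positivity
  have key : ∀ m, volume (E m) ≠ ⊤ ∧ (volume (E m)).toReal ≤ 2 * 2 ^ ii m * (R m).len := fun m =>
    fatV_vol (R m) (hpow _).le (fun z hz => (H.subE m hz).2)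
  have hii : ∀ m, (AA - 1) * ii m ≤ n + 1 := by
    intro m
    have h1 := H.mass m
    have h2 := (key m).2
    have hl := (R m).len_pos
    have h3 : (1 / 2 : ℝ) ^ n * 2 ^ (AA * ii m) ≤ 2 * 2 ^ ii m := by
      have : (1 / 2 : ℝ) ^ n * 2 ^ (AA * ii m) * (R m).len ≤ 2 * 2 ^ ii m * (R m).len := h1.trans h2
      exact le_of_mul_le_mul_right this hl
    have h4 : (2 : ℝ) ^ (AA * ii m) ≤ 2 ^ (n + 1 + ii m) := by
      have e : (2 : ℝ) ^ (AA * ii m) = 2 ^ n * ((1 / 2 : ℝ) ^ n * 2 ^ (AA * ii m)) := by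
        rw [← mul_assoc, ← mul_pow]; norm_num
      rw [e]
      calc (2 : ℝ) ^ n * ((1 / 2 : ℝ) ^ n * 2 ^ (AA * ii m)) ≤ 2 ^ n * (2 * 2 ^ ii m) := by gcongr
        _ = 2 ^ (n + 1 + ii m) := by rw [pow_add, pow_add]; ring
    have h5 : AA * ii m ≤ n + 1 + ii m :=
      (pow_le_pow_iff_right₀ (by norm_num : (1 : ℝ) < 2)).1 h4
    have h6 : AA * ii m = (AA - 1) * ii m + ii m := by
      have : AA = (AA - 1) + 1 := by simp [AA]
      conv_lhs => rw [this]
      ring
    omega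
  refine ⟨hii, ?_⟩
  have hint : Integrable (fun z => (h z) ^ 2) := nice_sq hh
  -- one top
  have one : ∀ m, (4 : ℝ) ^ kk m * 2 ^ (AA * ii m) * (1 / 2 : ℝ) ^ n * (R m).len ≤
      ∫ z in E m, (h z) ^ 2 := by
    intro m
    have h1 := H.mass m
    have hpos : (0 : ℝ) < (4 : ℝ) ^ kk m := zpow_pos (by norm_num) _
    have b2 : ∫ z in E m, (4 : ℝ) ^ kk m ≤ ∫ z in E m, (h z) ^ 2 := by
      refine setIntegral_mono_on (integrableOn_const (key m).1) hint.integrableOn (H.mE m) ?_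
      intro z hz
      have h2 : (2 : ℝ) ^ kk m ≤ |h z| := (H.subE m hz).1.1
      have e : (4 : ℝ) ^ kk m = ((2 : ℝ) ^ kk m) ^ 2 := by
        rw [← zpow_natCast, ← zpow_mul, mul_comm, zpow_mul]; norm_num
      rw [e, ← sq_abs (h z)]
      exact pow_le_pow_left₀ (zpow_pos (by norm_num) _).le h2 2
    rw [setIntegral_const, smul_eq_mul] at b2
    have e5 : volume.real (E m) = (volume (E m)).toReal := rfl
    rw [e5] at b2
    calc (4 : ℝ) ^ kk m * 2 ^ (AA * ii m) * (1 / 2 : ℝ) ^ n * (R m).len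
        = (4 : ℝ) ^ kk m * ((1 / 2 : ℝ) ^ n * 2 ^ (AA * ii m) * (R m).len) := by ring
      _ ≤ (4 : ℝ) ^ kk m * (volume (E m)).toReal := by gcongr
      _ = (volume (E m)).toReal * (4 : ℝ) ^ kk m := by ring
      _ ≤ ∫ z in E m, (h z) ^ 2 := b2
  have hile : ∀ m, ii m ∈ Finset.range (n + 2) := by
    intro m
    have h1 := hii m
    have : 1 ≤ AA - 1 := by simp [AA]
    rw [Finset.mem_range]
    have : ii m ≤ (AA - 1) * ii m := Nat.le_mul_of_pos_left _ (by omega)
    omega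
  calc ∑ m, (4 : ℝ) ^ kk m * 2 ^ (AA * ii m) * (1 / 2 : ℝ) ^ n * (R m).len
      ≤ ∑ m, ∫ z in E m, (h z) ^ 2 := Finset.sum_le_sum (fun m _ => one m)
    _ = ∑ i ∈ Finset.range (n + 2), ∑ m with ii m = i, ∫ z in E m, (h z) ^ 2 := by
        rw [Finset.sum_fiberwise_of_maps_to (fun m _ => hile m)]
    _ ≤ ∑ i ∈ Finset.range (n + 2), ∫ z, (h z) ^ 2 := by
        refine Finset.sum_le_sum (fun i _ => ?_)
        rw [← integral_biUnion_finset _ (fun m _ => H.mE m) ?_ (fun m _ => hint.integrableOn)]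
        · exact setIntegral_le_integral hint (ae_of_all _ (fun z => sq_nonneg _))
        · intro m hm m' hm' hne
          simp only [Finset.coe_filter, Finset.mem_univ, true_and, Set.mem_ofPred_eq] at hm hm'
          exact H.disE m m' hne (by rw [hm, hm'])
    _ = (n + 2) * ∫ z, (h z) ^ 2 := by
        rw [Finset.sum_const, Finset.card_range, nsmul_eq_mul]
        push_cast
        ring

end Crest.Agent.R087.RemSumx435
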