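import Crest.Agent.R087.SumHc_752
import Crest.Agent.R087.RemSum_435

/-!
# Row 87, leaf HNORM, literal form (helper627, shadow of 752): `hnorm : L_HNORM`
-/

set_option autoImplicit false

noncomputable section

open MeasureTheory

namespace Crest.Agent.R087.HNormx627

open Crest.Agent.R087.Sh0x283 Crest.Agent.R087.E2x542 Crest.Agent.R087.E2Kx752
  Crest.Agent.R087.GateDefx273 Crest.Agent.R087.OP0x270

/-- polynomial factors are absorbed -/
theorem absorb (n j : ℕ) (hj : 999 * j ≤ n + 1) :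
    ((n : ℝ) + 2) ^ 3 * 2 ^ (7 * j) ≤ 10 ^ 8 * (2 : ℝ) ^ ((n : ℝ) / 16) := by
  have hn : (0 : ℝ) ≤ n := Nat.cast_nonneg n
  have hl1 : (0.6931471803 : ℝ) < Real.log 2 := Real.log_two_gt_d9
  have hl2 : Real.log 2 < (0.6931471808 : ℝ) := Real.log_two_lt_d9
  have h1 : (n : ℝ) + 2 ≤ 150 * Real.exp (((n : ℝ) + 2) / 150) := by
    have := Real.add_one_le_exp (((n : ℝ) + 2) / 150)
    have h2 : ((n : ℝ) + 2) / 150 ≤ Real.exp (((n : ℝ) + 2) / 150) := by linarith
    linarith [(div_le_iff₀ (by norm_num : (0 : ℝ) < 150)).1 h2]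
  have h3 : ((n : ℝ) + 2) ^ 3 ≤ 150 ^ 3 * Real.exp (((n : ℝ) + 2) / 50) := by
    calc ((n : ℝ) + 2) ^ 3 ≤ (150 * Real.exp (((n : ℝ) + 2) / 150)) ^ 3 :=
          pow_le_pow_left₀ (by positivity) h1 3
      _ = 150 ^ 3 * Real.exp (((n : ℝ) + 2) / 50) := by
          rw [mul_pow, ← Real.exp_nat_mul]
          congr 2
          push_cast; ring
  have h4 : (2 : ℝ) ^ (7 * j) ≤ Real.exp (7 * (((n : ℝ) + 1) / 999) * 0.7) := by
    have e1 : (2 : ℝ) ^ (7 * j) = Real.exp (((7 * j : ℕ) : ℝ) * Real.log 2) := by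
      rw [Real.exp_nat_mul, Real.exp_log (by norm_num)]
    rw [e1]
    apply Real.exp_le_exp.2
    have hj' : (j : ℝ) ≤ ((n : ℝ) + 1) / 999 := by
      rw [le_div_iff₀ (by norm_num)]
      have : ((999 * j : ℕ) : ℝ) ≤ ((n + 1 : ℕ) : ℝ) := by exact_mod_cast hj
      push_cast at this
      linarith
    push_cast
    have hj0 : (0 : ℝ) ≤ j := Nat.cast_nonneg j
    have a1 : 7 * (j : ℝ) ≤ 7 * (((n : ℝ) + 1) / 999) := by linarith
    have a2 : Real.log 2 ≤ 0.7 := by linarith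
    exact mul_le_mul a1 a2 (by linarith) (by positivity)
  have h5 : (2 : ℝ) ^ ((n : ℝ) / 16) = Real.exp (Real.log 2 * ((n : ℝ) / 16)) := by
    rw [Real.rpow_def_of_pos (by norm_num)]
  calc ((n : ℝ) + 2) ^ 3 * 2 ^ (7 * j)
      ≤ (150 ^ 3 * Real.exp (((n : ℝ) + 2) / 50)) *
        Real.exp (7 * (((n : ℝ) + 1) / 999) * 0.7) :=
        mul_le_mul h3 h4 (by positivity) (by positivity)
    _ = 150 ^ 3 * Real.exp (((n : ℝ) + 2) / 50 + 7 * (((n : ℝ) + 1) / 999) * 0.7) := by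
        rw [mul_assoc, ← Real.exp_add]
    _ ≤ 150 ^ 3 * Real.exp (1 + Real.log 2 * ((n : ℝ) / 16)) := by
        apply mul_le_mul_of_nonneg_left _ (by norm_num)
        apply Real.exp_le_exp.2
        have : 0.69 * ((n : ℝ) / 16) ≤ Real.log 2 * ((n : ℝ) / 16) :=
          mul_le_mul_of_nonneg_right (by linarith) (by positivity)
        nlinarith
    _ = 150 ^ 3 * Real.exp 1 * Real.exp (Real.log 2 * ((n : ℝ) / 16)) := by
        rw [Real.exp_add]; ring
    _ ≤ 10 ^ 8 * Real.exp (Real.log 2 * ((n : ℝ) / 16)) := by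
        apply mul_le_mul_of_nonneg_right _ (Real.exp_pos _).le
        have := Real.exp_one_lt_d9
        nlinarith
    _ = _ := by rw [h5]

/-- **leaf HNORM** -/
theorem hnorm : L_HNORM := by
  intro hE
  obtain ⟨c, hc, C, hC, hcore⟩ := SumHcx752.sumh_core (e2Kf hE)
  refine ⟨c, hc, C * 32 ^ 5 * 4 * 10 ^ 8, by positivity, ?_⟩
  intro n U h lo hi hU hh N R kk ii E B hT
  classical
  have hI0 : 0 ≤ ∫ z, (h z) ^ 2 := integral_nonneg (fun z => sq_nonneg _)
  have hsq : Integrable (fun z => (h z) ^ 2) := RemSumx435.nice_sq hh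
  obtain ⟨hii, -⟩ := RemSumx435.remsum n U h lo hi hU.1 hh N R kk ii E B hT
  have hii' : ∀ m, 999 * ii m ≤ n + 1 := by
    intro m
    have := hii m
    simpa [AA] using this
  set J : Finset ℕ := Finset.univ.image ii with hJ
  have hJn : (J.card : ℝ) ≤ n + 2 := by
    have : J ⊆ Finset.range (n + 2) := by
      intro j hj
      obtain ⟨m, _, rfl⟩ := Finset.mem_image.1 hj
      rw [Finset.mem_range]
      have := hii' m
      omega
    have := Finset.card_le_card this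
    rw [Finset.card_range] at this
    exact_mod_cast this
  set X : ℕ → ℝ × ℝ → ℝ := fun j w => ∑ m with ii m = j,
    (2 : ℝ) ^ kk m * (fat (32 * 2 ^ ii m) (R m)).indicator 1 w with hX
  set d : ℕ → ℝ := fun j => 2 ^ (AA * j) * (1 / 2 : ℝ) ^ n with hd
  have hd0 : ∀ j, 0 < d j := fun j => by simp only [hd]; positivity
  have hdn : ∀ j, (1 / 2 : ℝ) ^ n ≤ d j := by
    intro j
    have : (1 : ℝ) ≤ 2 ^ (AA * j) := one_le_pow₀ (by norm_num)
    simp only [hd]
    nlinarith [show (0 : ℝ) < (1 / 2) ^ n by positivity]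
  -- one dilation
  have hone : ∀ j ∈ J, ∫ w, (X j w) ^ 2 ≤
      C * (32 * 2 ^ j) ^ 5 * ((1 + n) * (min (d j) 1)⁻¹ ^ 2) * ∫ z, (h z) ^ 2 := by
    intro j _
    have hK : (1 : ℝ) ≤ 32 * 2 ^ j := by
      have : (1 : ℝ) ≤ 2 ^ j := one_le_pow₀ (by norm_num)
      linarith
    have hK2 : (2 : ℝ) ^ j ≤ 32 * 2 ^ j := by
      have : (0 : ℝ) < 2 ^ j := by positivity
      linarith
    have key := hcore U hU (32 * 2 ^ j) (32 * 2 ^ j) (2 ^ j) hK le_rfl hK2 h hsq (Fin N)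
      (Finset.univ.filter (fun m => ii m = j)) R E (fun m => (2 : ℝ) ^ kk m) (d j)
      (fun m _ => hT.mE m) ?_ ?_ (hd0 j) ?_ (fun m _ => by positivity) ?_
    · have e : ∀ w, X j w = ∑ m with ii m = j,
          (2 : ℝ) ^ kk m * (fat (32 * 2 ^ j) (R m)).indicator 1 w := by
        intro w
        simp only [hX]
        refine Finset.sum_congr rfl (fun m hm => ?_)
        rw [(Finset.mem_filter.1 hm).2]
      simp_rw [e]
      refine key.trans ?_
      apply mul_le_mul_of_nonneg_right _ hI0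
      apply mul_le_mul_of_nonneg_left _ (by positivity)
      exact SumHcx752.ent_two_pow (hd0 j) n (hdn j)
    · intro m hm
      have hm' := (Finset.mem_filter.1 hm).2
      rw [← hm']
      exact fun z hz => (hT.subE m hz).2
    · intro m hm m' hm' hne
      have a1 := (Finset.mem_filter.1 (Finset.mem_coe.1 hm)).2
      have a2 := (Finset.mem_filter.1 (Finset.mem_coe.1 hm')).2
      exact hT.disE m m' hne (a1.trans a2.symm)
    · intro m hm
      have hm' := (Finset.mem_filter.1 hm).2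
      have := hT.mass m
      rw [hm'] at this
      simp only [hd]
      calc 2 ^ (AA * j) * (1 / 2 : ℝ) ^ n * (R m).len =
          (1 / 2 : ℝ) ^ n * 2 ^ (AA * j) * (R m).len := by ring
        _ ≤ _ := this
    · intro m _ z hz
      exact (hT.subE m hz).1.1
  -- the factor
  have hfac : ∀ j ∈ J, (n + 2 : ℝ) ^ 2 * ((d j) ^ 2 *
      (C * (32 * 2 ^ j) ^ 5 * ((1 + n) * (min (d j) 1)⁻¹ ^ 2))) ≤
      C * 32 ^ 5 * 4 * 10 ^ 8 * (2 : ℝ) ^ ((n : ℝ) / 16) := by
    intro j hj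
    obtain ⟨m, _, rfl⟩ := Finset.mem_image.1 hj
    have h999 := hii' m
    set j := ii m
    have hn0 : (0 : ℝ) ≤ n := Nat.cast_nonneg n
    have hdle : d j ≤ 2 * 2 ^ j := by
      simp only [hd]
      have e1 : AA * j = 999 * j + j := by simp only [AA]; ring
      rw [e1, pow_add]
      have e2 : (2 : ℝ) ^ (999 * j) ≤ 2 ^ (n + 1) := pow_le_pow_right₀ (by norm_num) h999
      have e3 : (2 : ℝ) ^ n * (1 / 2 : ℝ) ^ n = 1 := by rw [← mul_pow]; norm_num
      calc (2 : ℝ) ^ (999 * j) * 2 ^ j * (1 / 2 : ℝ) ^ n ≤ 2 ^ (n + 1) * 2 ^ j * (1 / 2 : ℝ) ^ n := by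
            gcongr
        _ = 2 * 2 ^ j * ((2 : ℝ) ^ n * (1 / 2 : ℝ) ^ n) := by rw [pow_succ]; ring
        _ = 2 * 2 ^ j := by rw [e3, mul_one]
    have hr : d j * (min (d j) 1)⁻¹ ≤ 2 * 2 ^ j := by
      have h1 : (1 : ℝ) ≤ 2 ^ j := one_le_pow₀ (by norm_num)
      rcases le_total (d j) 1 with h | h
      · rw [min_eq_left h, mul_inv_cancel₀ (hd0 j).ne']; linarith
      · rw [min_eq_right h, inv_one, mul_one]; exact hdle
    have hr0 : 0 ≤ d j * (min (d j) 1)⁻¹ :=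
      mul_nonneg (hd0 j).le (inv_nonneg.2 (le_min (hd0 j).le zero_le_one))
    have hr2 : (d j * (min (d j) 1)⁻¹) ^ 2 ≤ 4 * 2 ^ (2 * j) := by
      calc (d j * (min (d j) 1)⁻¹) ^ 2 ≤ (2 * 2 ^ j) ^ 2 := pow_le_pow_left₀ hr0 hr 2
        _ = 4 * 2 ^ (2 * j) := by rw [mul_pow, ← pow_mul, mul_comm j 2]; norm_num
    calc (n + 2 : ℝ) ^ 2 * ((d j) ^ 2 * (C * (32 * 2 ^ j) ^ 5 * ((1 + n) * (min (d j) 1)⁻¹ ^ 2)))
        = C * 32 ^ 5 * ((n + 2 : ℝ) ^ 2 * (1 + n)) * 2 ^ (5 * j) *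
          (d j * (min (d j) 1)⁻¹) ^ 2 := by
          rw [mul_pow 32, ← pow_mul, mul_comm j 5]; ring
      _ ≤ C * 32 ^ 5 * ((n + 2 : ℝ) ^ 2 * (n + 2)) * 2 ^ (5 * j) * (4 * 2 ^ (2 * j)) := by
          have h1n : (1 + n : ℝ) ≤ n + 2 := by linarith
          have hA : (n + 2 : ℝ) ^ 2 * (1 + n) ≤ (n + 2 : ℝ) ^ 2 * (n + 2) :=
            mul_le_mul_of_nonneg_left h1n (by positivity)
          exact mul_le_mul (mul_le_mul_of_nonneg_right (mul_le_mul_of_nonneg_left hA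
            (by positivity)) (by positivity)) hr2 (sq_nonneg _) (by positivity)
      _ = C * 32 ^ 5 * 4 * (((n : ℝ) + 2) ^ 3 * 2 ^ (7 * j)) := by
          have : (7 * j) = 5 * j + 2 * j := by ring
          rw [this, pow_add]; ring
      _ ≤ C * 32 ^ 5 * 4 * (10 ^ 8 * (2 : ℝ) ^ ((n : ℝ) / 16)) :=
          mul_le_mul_of_nonneg_left (absorb n j h999) (by positivity)
      _ = _ := by ring
  -- integrability
  have hXint : ∀ j ∈ J, Integrable (fun w => (d j * X j w) ^ 2) := by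
    intro j _
    have := int_sq_finset (Finset.univ.filter (fun m => ii m = j)) (fun m => fat (32 * 2 ^ ii m) (R m))
      (fun m => (2 : ℝ) ^ kk m) (fun m _ => measurableSet_fat _ _) (fun m _ => fat_ne_top _ _)
    have e : (fun w => (d j * X j w) ^ 2) = fun w => (d j) ^ 2 * (X j w) ^ 2 := by
      funext w; ring
    rw [e]
    exact this.const_mul _
  have hdec : ∀ w, (∑ m, (2 : ℝ) ^ kk m * 2 ^ (AA * ii m) * (1 / 2 : ℝ) ^ n *
        (fat (32 * 2 ^ ii m) (R m)).indicator 1 w) = ∑ j ∈ J, d j * X j w := by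
    intro w
    rw [← Finset.sum_fiberwise_of_maps_to (s := Finset.univ) (t := J) (g := ii)
      (fun m hm => Finset.mem_image_of_mem ii hm)]
    refine Finset.sum_congr rfl (fun j _ => ?_)
    simp only [hX, hd]
    rw [Finset.mul_sum]
    refine Finset.sum_congr rfl (fun m hm => ?_)
    rw [(Finset.mem_filter.1 hm).2]; ring
  calc ∫ w, (∑ m, (2 : ℝ) ^ kk m * 2 ^ (AA * ii m) * (1 / 2 : ℝ) ^ n *
        (fat (32 * 2 ^ ii m) (R m)).indicator 1 w) ^ 2
      = ∫ w, (∑ j ∈ J, d j * X j w) ^ 2 := by simp_rw [hdec]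
    _ ≤ ∫ w, (J.card : ℝ) * ∑ j ∈ J, (d j * X j w) ^ 2 := by
        apply integral_mono_of_nonneg (Filter.Eventually.of_forall (fun w => sq_nonneg _))
          ((integrable_finsetSum _ hXint).const_mul _)
        exact Filter.Eventually.of_forall (fun w => sq_sum_le_card_mul_sum_sq)
    _ = (J.card : ℝ) * ∑ j ∈ J, (d j) ^ 2 * ∫ w, (X j w) ^ 2 := by
        rw [integral_const_mul, integral_finsetSum _ hXint]
        congr 1
        refine Finset.sum_congr rfl (fun j _ => ?_)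
        rw [← integral_const_mul]
        congr 1; funext w; ring
    _ ≤ (J.card : ℝ) * ∑ j ∈ J, (d j) ^ 2 *
        (C * (32 * 2 ^ j) ^ 5 * ((1 + n) * (min (d j) 1)⁻¹ ^ 2) * ∫ z, (h z) ^ 2) := by
        apply mul_le_mul_of_nonneg_left _ (Nat.cast_nonneg _)
        exact Finset.sum_le_sum (fun j hj => mul_le_mul_of_nonneg_left (hone j hj) (sq_nonneg _))
    _ ≤ (n + 2 : ℝ) * ∑ j ∈ J, (d j) ^ 2 *
        (C * (32 * 2 ^ j) ^ 5 * ((1 + n) * (min (d j) 1)⁻¹ ^ 2) * ∫ z, (h z) ^ 2) := by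
        apply mul_le_mul_of_nonneg_right hJn
        apply Finset.sum_nonneg
        intro j _
        apply mul_nonneg (sq_nonneg _)
        apply mul_nonneg _ hI0
        apply mul_nonneg (by positivity)
        exact mul_nonneg (by positivity) (sq_nonneg _)
    _ = ∑ j ∈ J, ((n + 2 : ℝ) * ((d j) ^ 2 *
        (C * (32 * 2 ^ j) ^ 5 * ((1 + n) * (min (d j) 1)⁻¹ ^ 2)))) * ∫ z, (h z) ^ 2 := by
        rw [Finset.mul_sum]
        exact Finset.sum_congr rfl (fun j _ => by ring)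
    _ ≤ ∑ j ∈ J, ((C * 32 ^ 5 * 4 * 10 ^ 8 * (2 : ℝ) ^ ((n : ℝ) / 16)) / (n + 2)) *
        ∫ z, (h z) ^ 2 := by
        apply Finset.sum_le_sum
        intro j hj
        apply mul_le_mul_of_nonneg_right _ hI0
        rw [le_div_iff₀ (by positivity)]
        refine le_trans (le_of_eq (by ring)) (hfac j hj)
    _ = (J.card : ℝ) * ((C * 32 ^ 5 * 4 * 10 ^ 8 * (2 : ℝ) ^ ((n : ℝ) / 16)) / (n + 2)) *
        ∫ z, (h z) ^ 2 := by
        rw [Finset.sum_const, nsmul_eq_mul]; ring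
    _ ≤ (n + 2 : ℝ) * ((C * 32 ^ 5 * 4 * 10 ^ 8 * (2 : ℝ) ^ ((n : ℝ) / 16)) / (n + 2)) *
        ∫ z, (h z) ^ 2 := by
        apply mul_le_mul_of_nonneg_right _ hI0
        apply mul_le_mul_of_nonneg_right hJn
        positivity
    _ = _ := by
        field_simp

end Crest.Agent.R087.HNormx627
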