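import Crest.Agent.R087.LownB_772

/-!
Row 87 (S0115), leaf `L_LOWN` (helper772): the LOW chains of one class.
-/

set_option autoImplicit false

noncomputable section

open MeasureTheory

namespace Crest.Agent.R087.Lownx772

open Crest.Agent.R087.Sh0x283 Crest.Agent.R087.E2x542 Crest.Agent.R087.E2Kx752
  Crest.Agent.R087.GateDefx273 Crest.Agent.R087.OP0x270 Crest.Agent.R087.LownAx772
  Crest.Agent.R087.LownBx772
open Crest.Agent.R087.Sqx282 (PZ nice_int nice_ind nice_mul nice_bmul nice_smul nice_sum nice_sq)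

section

variable {lo hi : ℝ × ℝ → ℕ} {N : ℕ} {R : Fin N → Tube} {B E : Fin N → Set (ℝ × ℝ)}
  {U h : ℝ × ℝ → ℝ} {A n S : ℕ} {kk : Fin N → ℤ} {ii : Fin N → ℕ} {φ ζ : ℝ → ℝ} {W : ℝ}

/-- the removed points of the strip `p` -/
def Rm (lo hi : ℝ × ℝ → ℕ) {N : ℕ} (R : Fin N → Tube) (B : Fin N → Set (ℝ × ℝ))
    (st : (Σ _ : Fin N, ℤ) → ℝ → ℕ) (p : Σ _ : Fin N, ℤ) : Set (ℝ × ℝ) :=
  {z | z ∈ sp lo hi R B p ∧ lo z < hi z ∧ st p z.1 < hi z}

theorem Rm_meas (hB : ∀ m, MeasurableSet (B m)) (h1 : Measurable lo) (h2 : Measurable hi)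
    {st : (Σ _ : Fin N, ℤ) → ℝ → ℕ} {p : Σ _ : Fin N, ℤ} (hst : Measurable (st p)) :
    MeasurableSet (Rm lo hi R B st p) :=
  (sp_meas hB h1 h2 p).inter ((measurableSet_lt h1 h2).inter
    (measurableSet_lt (hst.comp measurable_fst) h2))

theorem zpow_sq4 (k : ℤ) : ((2 : ℝ) ^ (k + 1)) ^ 2 = 4 * (4 : ℝ) ^ k := by
  rw [zpow_add_one₀ (by norm_num), mul_pow]
  have : ((2 : ℝ) ^ k) ^ 2 = 4 ^ k := by
    rw [← zpow_natCast, ← zpow_mul, mul_comm k, zpow_mul]; norm_num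
  rw [this]; ring

/-- mass of the removed points -/
theorem removed (hh : Nice h) (hlo : Measurable lo) (hhi : Measurable hi)
    (hT : IsTops U h A n lo hi N R kk ii E B) {st : (Σ _ : Fin N, ℤ) → ℝ → ℕ}
    (hst : ∀ p ∈ LownAx772.PP ii, Measurable (st p)) {c : ℝ}
    (hv : ∀ p ∈ LownAx772.PP ii, (volume (Rm lo hi R B st p)).toReal ≤ c * (R p.1).len) :
    ∫ z in {z | lo z < hi z ∧ cut lo hi R B ii st z < hi z}, (h z) ^ 2 ≤
      ∑ m, 44 * 2 ^ (ii m) * ((4 : ℝ) ^ kk m * c * (R m).len) := by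
  have hTm : MeasurableSet {z | lo z < hi z ∧ cut lo hi R B ii st z < hi z} :=
    (measurableSet_lt hlo hhi).inter (measurableSet_lt (cut_meas hT.mB hlo hhi hst) hhi)
  have hfin : ∀ p, volume (Rm lo hi R B st p) ≠ ⊤ := fun p =>
    ne_top_of_le_ne_top (sp_fin hT hh p) (measure_mono fun z hz => hz.1)
  have hI : ∀ p ∈ LownAx772.PP ii, Integrable
      ((Rm lo hi R B st p).indicator (fun _ => 4 * (4 : ℝ) ^ kk p.1)) := fun p hp =>
    (integrable_indicator_iff (Rm_meas hT.mB hlo hhi (hst p hp))).2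
      (integrableOn_const (hfin p))
  have h1 : ∫ z in {z | lo z < hi z ∧ cut lo hi R B ii st z < hi z}, (h z) ^ 2 ≤
      ∫ z, ∑ p ∈ LownAx772.PP ii, (Rm lo hi R B st p).indicator (fun _ => 4 * (4 : ℝ) ^ kk p.1) z := by
    rw [← integral_indicator hTm]
    refine integral_mono_of_nonneg (Filter.Eventually.of_forall fun z => ?_)
      (integrable_finsetSum _ hI) (Filter.Eventually.of_forall fun z => ?_)
    · exact Set.indicator_nonneg (fun _ _ => sq_nonneg _) z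
    · have hnn : ∀ p ∈ LownAx772.PP ii,
          0 ≤ (Rm lo hi R B st p).indicator (fun _ => 4 * (4 : ℝ) ^ kk p.1) z := fun p _ =>
        Set.indicator_nonneg (fun _ _ => by positivity) z
      by_cases hz : z ∈ {z | lo z < hi z ∧ cut lo hi R B ii st z < hi z}
      · show Set.indicator _ (fun z => h z ^ 2) z ≤ _
        rw [Set.indicator_of_mem hz]
        by_cases hz0 : h z = 0
        · rw [hz0]
          calc (0 : ℝ) ^ 2 = 0 := by norm_num
            _ ≤ _ := Finset.sum_nonneg hnn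
        · obtain ⟨p, hp, hzp⟩ := sp_cover hT hz0 hz.1
          have h2 : z ∈ Rm lo hi R B st p := by
            refine ⟨hzp, hz.1, ?_⟩
            have := hz.2
            rw [cut_eq hT.disB st hp hzp] at this
            omega
          refine le_trans ?_ (Finset.single_le_sum (f := fun p =>
            (Rm lo hi R B st p).indicator (fun _ => 4 * (4 : ℝ) ^ kk p.1) z) hnn hp)
          show h z ^ 2 ≤ (Rm lo hi R B st p).indicator (fun _ => 4 * (4 : ℝ) ^ kk p.1) z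
          rw [Set.indicator_of_mem h2, ← zpow_sq4, ← sq_abs]
          exact pow_le_pow_left₀ (abs_nonneg _) (hT.subB p.1 hzp.1).2.le 2
      · show Set.indicator _ (fun z => h z ^ 2) z ≤ _
        rw [Set.indicator_of_notMem hz]
        exact Finset.sum_nonneg hnn
  refine h1.trans ?_
  rw [integral_finsetSum _ hI]
  have h2 : ∀ p ∈ LownAx772.PP ii,
      ∫ z, (Rm lo hi R B st p).indicator (fun _ => 4 * (4 : ℝ) ^ kk p.1) z ≤
        4 * (4 : ℝ) ^ kk p.1 * (c * (R p.1).len) := by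
    intro p hp
    rw [integral_indicator_const _ (Rm_meas hT.mB hlo hhi (hst p hp)), smul_eq_mul, mul_comm]
    exact mul_le_mul_of_nonneg_left (hv p hp) (by positivity)
  refine (Finset.sum_le_sum h2).trans ?_
  unfold LownAx772.PP
  rw [Finset.sum_sigma]
  refine Finset.sum_le_sum fun m _ => ?_
  show ∑ s ∈ jr (ii m), 4 * (4 : ℝ) ^ kk m * (c * (R m).len) ≤ _
  rw [Finset.sum_const, nsmul_eq_mul]
  have h0 : (0 : ℤ) ∈ jr (ii m) := by
    unfold jr
    rw [Finset.mem_Icc]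
    constructor
    · have : (0 : ℤ) < 2 ^ (ii m) := by positivity
      linarith
    · positivity
  have h3 : 0 ≤ c * (R m).len :=
    ENNReal.toReal_nonneg.trans (hv ⟨m, 0⟩ (by
      unfold LownAx772.PP
      exact Finset.mem_sigma.2 ⟨Finset.mem_univ _, h0⟩))
  have h4 := jr_card (ii m)
  calc ((jr (ii m)).card : ℝ) * (4 * (4 : ℝ) ^ kk m * (c * (R m).len))
      ≤ (11 * 2 ^ (ii m)) * (4 * (4 : ℝ) ^ kk m * (c * (R m).len)) :=
        mul_le_mul_of_nonneg_right h4 (by positivity)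
    _ = _ := by ring

/-- the short points seen by the tube `R0` -/
def Tp (lo hi : ℝ × ℝ → ℕ) (R0 : Tube) : Set (ℝ × ℝ) := {z | z.1 ∈ R0.I ∧ lo z < hi z ∧ R0.k < hi z}

/-- the weight of a short point -/
def wq (U h : ℝ × ℝ → ℝ) (hi : ℝ × ℝ → ℕ) (q : ℕ) (R0 : Tube) (z : ℝ × ℝ) : ℝ :=
  |h z| / (1 + |U z - R0.m| * (1 / 2 : ℝ) ^ (hi z - 1) + |z.2 - R0.line z.1|) ^ q

theorem Tp_meas (h1 : Measurable lo) (h2 : Measurable hi) (R0 : Tube) :
    MeasurableSet (Tp lo hi R0) := by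
  refine (measurable_fst R0.measurableSet_I).inter ((measurableSet_lt h1 h2).inter ?_)
  exact measurableSet_lt measurable_const h2

theorem wq_nice (hU : Measurable U) (hh : Nice h) (h2 : Measurable hi) (q : ℕ) (R0 : Tube) :
    Nice (wq U h hi q R0) := by
  have hm : Measurable fun z : ℝ × ℝ =>
      (1 + |U z - R0.m| * (1 / 2 : ℝ) ^ (hi z - 1) + |z.2 - R0.line z.1|) ^ q := by
    have h3 : Measurable fun z : ℝ × ℝ => (1 / 2 : ℝ) ^ (hi z - 1) :=
      (Measurable.of_discrete (f := fun s : ℕ => (1 / 2 : ℝ) ^ (s - 1))).comp h2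
    have h4 := R0.measurable_line
    fun_prop
  obtain ⟨hm1, ⟨M, hM⟩, r, hr⟩ := hh
  have hd : ∀ z : ℝ × ℝ, 1 ≤
      (1 + |U z - R0.m| * (1 / 2 : ℝ) ^ (hi z - 1) + |z.2 - R0.line z.1|) ^ q := by
    intro z
    apply one_le_pow₀
    have : 0 ≤ |U z - R0.m| * (1 / 2 : ℝ) ^ (hi z - 1) := by positivity
    have := abs_nonneg (z.2 - R0.line z.1)
    linarith
  refine ⟨?_, ⟨M, fun z => ?_⟩, r, fun z hz => ?_⟩
  · unfold wq
    exact hm1.abs.div hm
  · unfold wq
    rw [abs_div, abs_abs, abs_of_pos (lt_of_lt_of_le one_pos (hd z))]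
    exact (div_le_self (abs_nonneg _) (hd z)).trans (hM z)
  · unfold wq
    rw [hr z hz, abs_zero, zero_div]

/-- the pointwise bound of the integrand -/
theorem ptw (P : PZ φ ζ) (hU : Measurable U) (hW : ∀ z, |U z| ≤ W) (hC : Chain S lo hi)
    (hh : Nice h) (hT : IsTops U h A n lo hi N R kk ii E B) {st : (Σ _ : Fin N, ℤ) → ℝ → ℕ}
    (hst : ∀ p ∈ LownAx772.PP ii, Measurable (st p)) {q : ℕ} {G : (Σ _ : Fin N, ℤ) → ℝ}
    (hG : ∀ p, 0 ≤ G p)
    (hP : ∀ p ∈ LownAx772.PP ii, ∀ (z' : ℝ × ℝ) (a b : ℕ), z'.1 ∈ (up (R p.1) p.2).I → a < b →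
      b ≤ S → |Pair φ ζ U (sp lo hi R B p) lo (fun z => min (hi z) (st p z.1))
        ((sp lo hi R B p).indicator h) a b z'| ≤ G p / (1 + |U z' - (up (R p.1) p.2).m| *
          (1 / 2 : ℝ) ^ (b - 1) + |z'.2 - (up (R p.1) p.2).line z'.1|) ^ q) (z' : ℝ × ℝ) :
    |h z' * Pair φ ζ U Set.univ lo (cut lo hi R B ii st) h (lo z') (cut lo hi R B ii st z') z'| ≤
      ∑ p ∈ LownAx772.PP ii, G p *
        (Tp lo hi (up (R p.1) p.2)).indicator (wq U h hi q (up (R p.1) p.2)) z' := by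
  have hwn : ∀ R0 : Tube, 0 ≤ wq U h hi q R0 z' := by
    intro R0
    unfold wq
    positivity
  have hnn : ∀ p ∈ LownAx772.PP ii, 0 ≤ G p *
      (Tp lo hi (up (R p.1) p.2)).indicator (wq U h hi q (up (R p.1) p.2)) z' := fun p _ =>
    mul_nonneg (hG p) (Set.indicator_nonneg (fun z _ => by unfold wq; positivity) z')
  set b := cut lo hi R B ii st z' with hb
  have hbhi : b ≤ hi z' := cut_le st z'
  rcases Nat.lt_or_ge (lo z') b with hlt | hge
  · rw [pair_sum P hU hW hC hh hT hst, Finset.mul_sum]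
    refine (Finset.abs_sum_le_sum_abs _ _).trans (Finset.sum_le_sum fun p hp => ?_)
    by_cases hc : z'.1 ∈ (up (R p.1) p.2).I ∧ (up (R p.1) p.2).k < b
    · have hmem : z' ∈ Tp lo hi (up (R p.1) p.2) := ⟨hc.1, lt_of_lt_of_le hlt hbhi,
        lt_of_lt_of_le hc.2 hbhi⟩
      rw [Set.indicator_of_mem hmem, abs_mul]
      have h1 := hP p hp z' (lo z') b hc.1 hlt (hbhi.trans (hC.2.2 z'))
      have h2 : (1 / 2 : ℝ) ^ (hi z' - 1) ≤ (1 / 2 : ℝ) ^ (b - 1) :=
        pow_le_pow_of_le_one (by norm_num) (by norm_num) (by omega)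
      calc |h z'| * |Pair φ ζ U (sp lo hi R B p) lo (fun z => min (hi z) (st p z.1))
            ((sp lo hi R B p).indicator h) (lo z') b z'|
          ≤ |h z'| * (G p / (1 + |U z' - (up (R p.1) p.2).m| *
          (1 / 2 : ℝ) ^ (b - 1) + |z'.2 - (up (R p.1) p.2).line z'.1|) ^ q) :=
            mul_le_mul_of_nonneg_left h1 (abs_nonneg _)
        _ ≤ |h z'| * (G p / (1 + |U z' - (up (R p.1) p.2).m| *
          (1 / 2 : ℝ) ^ (hi z' - 1) + |z'.2 - (up (R p.1) p.2).line z'.1|) ^ q) := by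
            have := hG p
            gcongr
        _ = _ := by unfold wq; ring
    · have h0 : Pair φ ζ U (sp lo hi R B p) lo (fun z => min (hi z) (st p z.1))
          ((sp lo hi R B p).indicator h) (lo z') b z' = 0 := by
        refine pair_zero P (R := up (R p.1) p.2) (fun z hz => ?_) ?_
        · obtain ⟨h1, h2, -⟩ := hT.top p.1 z hz.1 hz.2.1
          exact ⟨h1, h2⟩
        · by_cases h1 : z'.1 ∈ (up (R p.1) p.2).I
          · right
            by_contra h2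
            exact hc ⟨h1, by omega⟩
          · exact Or.inl h1
      rw [h0, mul_zero, abs_zero]
      exact hnn p hp
  · have h0 : Pair φ ζ U Set.univ lo (cut lo hi R B ii st) h (lo z') b z' = 0 := by
      unfold Pair
      rw [Finset.Ico_eq_empty (by omega), Finset.sum_empty]
    rw [h0, mul_zero, abs_zero]
    exact Finset.sum_nonneg hnn

end

/-- exponents -/
theorem expo (n : ℕ) : Real.sqrt ((1 / 2 : ℝ) ^ n * (2 : ℝ) ^ ((n : ℝ) / 16)) ≤
    (2 : ℝ) ^ (-(n : ℝ) / 4) := by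
  rw [Real.sqrt_le_left (by positivity)]
  have h1 : (1 / 2 : ℝ) ^ n = (2 : ℝ) ^ (-(n : ℝ)) := by
    rw [Real.rpow_neg (by norm_num), Real.rpow_natCast, one_div, inv_pow]
  have h2 : ((2 : ℝ) ^ (-(n : ℝ) / 4)) ^ 2 = (2 : ℝ) ^ (-(n : ℝ) / 2) := by
    rw [← Real.rpow_natCast, ← Real.rpow_mul (by norm_num)]
    congr 1; push_cast; ring
  rw [h1, h2, ← Real.rpow_add (by norm_num)]
  apply Real.rpow_le_rpow_of_exponent_le (by norm_num)
  have : (0 : ℝ) ≤ n := Nat.cast_nonneg n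
  linarith

theorem low : L_LOWN := by
  intro ζ hζ sq tree m3 om hn rs
  obtain ⟨C1, hC1, tree⟩ := tree
  obtain ⟨C2, hC2, om⟩ := om
  obtain ⟨c, hc, C3, hC3, hn⟩ := hn
  refine ⟨c, hc, 48 * C1 * Real.sqrt (C2 * C3) + 352 * C1, by positivity, ?_⟩
  intro ω hω U h n S lo hi Λ hF hh hC hup hΛ N R kk ii E B hT hlow
  obtain ⟨hU, ⟨W, hW⟩, hL⟩ := id hF
  obtain ⟨hφ, hφs⟩ := ph_ok hω
  have P : PZ (ph ω) ζ := ⟨hφ, hζ.1.continuous, hφs, hζ.2.1⟩
  obtain ⟨hlo, hhi, hS⟩ := id hC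
  have hAA : 2 ≤ AA := by unfold AA; norm_num
  have hI0 : 0 ≤ ∫ z, (h z) ^ 2 := integral_nonneg fun _ => sq_nonneg _
  have hΛ0 : 0 < Λ := lt_of_lt_of_le one_pos hΛ
  set D : ℝ := 4 * (1 / 2 : ℝ) ^ n with hD
  have hD0 : 0 < D := by positivity
  -- stopping of the strips
  have hex : ∀ p : Σ _ : Fin N, ℤ, ∃ st : ℝ → ℕ, Measurable st ∧
      (volume {z | z ∈ sp lo hi R B p ∧ lo z < hi z ∧ st z.1 < hi z}).toReal ≤
        C1 * (1 / Λ) ^ 2 * D * (up (R p.1) p.2).len ∧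
      ∀ (z' : ℝ × ℝ) (a b : ℕ), z'.1 ∈ (up (R p.1) p.2).I → a < b → b ≤ S →
        |Pair (ph ω) ζ U (sp lo hi R B p) lo (fun z => min (hi z) (st z.1))
          ((sp lo hi R B p).indicator h) a b z'| ≤ C1 * (2 : ℝ) ^ (kk p.1 + 1) * (Λ * D) /
            (1 + |U z' - (up (R p.1) p.2).m| * (1 / 2 : ℝ) ^ (b - 1) +
              |z'.2 - (up (R p.1) p.2).line z'.1|) ^ qq := by
    intro p
    obtain ⟨st, h1, -, h2, h3⟩ := tree ω hω U ((sp lo hi R B p).indicator h) S lo hi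
      (sp lo hi R B p) (up (R p.1) p.2) ((2 : ℝ) ^ (kk p.1 + 1)) D Λ hU
      (hh.1.indicator (sp_meas hT.mB hlo hhi p)) hC (sp_meas hT.mB hlo hhi p) (sp_fin hT hh p)
      (sp_bd hT p) hD0 hΛ (fun z hz _ => sp_near hT hlow hz)
      (sp_mass m3 hAA hU hh hC hup hT hlow p)
    exact ⟨st, h1, h2, h3⟩
  choose st hst hvol hpair using hex
  refine ⟨cut lo hi R B ii st, cut_meas hT.mB hlo hhi fun p _ => hst p, fun z => cut_le st z, ?_, ?_⟩
  · -- kept part
    obtain ⟨F, hFm, hF0, hF2, hFb, hFR⟩ := om n U h S lo hi hU hh hC hup N R kk ii E B hT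
    have hV := hn n U h lo hi hF hh N R kk ii E B hT
    set V : ℝ × ℝ → ℝ := fun w => ∑ m, (2 : ℝ) ^ kk m * 2 ^ (AA * ii m) * (1 / 2 : ℝ) ^ n *
        (fat (32 * 2 ^ ii m) (R m)).indicator 1 w with hVdef
    have hVn : MemLp V 2 volume := Omegax627.mem_ind volume Finset.univ
      (fun m => fat (32 * 2 ^ ii m) (R m)) _ (fun m _ => E2Kx752.measurableSet_fat _ _)
      (fun m _ => E2Kx752.fat_ne_top _ _)
    have hFn : MemLp F 2 volume := (memLp_two_iff_integrable_sq hFm.aestronglyMeasurable).2 hF2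
    have hcC : Chain S lo (cut lo hi R B ii st) :=
      ⟨hlo, cut_meas hT.mB hlo hhi fun p _ => hst p, fun z => (cut_le st z).trans (hS z)⟩
    refine (sq (ph ω) hφ hφs U h S lo (cut lo hi R B ii st) hU ⟨W, hW⟩ hh hcC).trans ?_
    set G : (Σ _ : Fin N, ℤ) → ℝ := fun p => C1 * (2 : ℝ) ^ (kk p.1 + 1) * (Λ * D) with hG
    have hG0 : ∀ p, 0 ≤ G p := fun p => by simp only [hG]; positivity
    have hwn : ∀ p : Σ _ : Fin N, ℤ, Integrable (fun z' => G p *
        (Tp lo hi (up (R p.1) p.2)).indicator (wq U h hi qq (up (R p.1) p.2)) z') := fun p =>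
      (nice_int (nice_ind (wq_nice hU hh hhi qq _) (Tp_meas hlo hhi _))).const_mul _
    have k1 : ∫ z', h z' * Pair (ph ω) ζ U Set.univ lo (cut lo hi R B ii st) h (lo z')
        (cut lo hi R B ii st z') z' ≤ ∑ p ∈ LownAx772.PP ii, G p *
          ∫ z in Tp lo hi (up (R p.1) p.2), wq U h hi qq (up (R p.1) p.2) z := by
      refine (le_abs_self _).trans ((abs_integral_le_integral_abs).trans ?_)
      have k2 : ∫ z', |h z' * Pair (ph ω) ζ U Set.univ lo (cut lo hi R B ii st) h (lo z')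
          (cut lo hi R B ii st z') z'| ≤ ∫ z', ∑ p ∈ LownAx772.PP ii, G p *
            (Tp lo hi (up (R p.1) p.2)).indicator (wq U h hi qq (up (R p.1) p.2)) z' :=
        integral_mono_of_nonneg (Filter.Eventually.of_forall fun z => abs_nonneg _)
          (integrable_finsetSum _ fun p _ => hwn p)
          (Filter.Eventually.of_forall fun z' => ptw P hU hW hC hh hT (fun p _ => hst p) hG0
            (fun p _ => hpair p) z')
      refine k2.trans (le_of_eq ?_)
      rw [integral_finsetSum _ fun p _ => hwn p]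
      refine Finset.sum_congr rfl fun p _ => ?_
      rw [integral_const_mul, integral_indicator (Tp_meas hlo hhi _)]
    have k3 : ∀ p ∈ LownAx772.PP ii, G p *
        ∫ z in Tp lo hi (up (R p.1) p.2), wq U h hi qq (up (R p.1) p.2) z ≤
        ∫ w, G p * (fat 1 (up (R p.1) p.2)).indicator F w := by
      intro p _
      rw [integral_const_mul, integral_indicator (E2Kx752.measurableSet_fat _ _)]
      exact mul_le_mul_of_nonneg_left (hFR _ (up_int (hT.intT p.1) p.2)).2 (hG0 p)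
    have k4 : ∑ p ∈ LownAx772.PP ii, ∫ w, G p * (fat 1 (up (R p.1) p.2)).indicator F w ≤
        ∫ w, (24 * C1 * Λ) * (F w * V w) := by
      have i1 : ∀ p : Σ _ : Fin N, ℤ, Integrable
          (fun w => G p * (fat 1 (up (R p.1) p.2)).indicator F w) := by
        intro p
        exact ((integrable_indicator_iff (E2Kx752.measurableSet_fat _ _)).2
          (hFR _ (up_int (hT.intT p.1) p.2)).1).const_mul _
      rw [← integral_finsetSum _ fun p _ => i1 p]
      refine integral_mono (integrable_finsetSum _ fun p _ => i1 p)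
        ((hFn.integrable_mul hVn).const_mul _) fun w => ?_
      show ∑ p ∈ LownAx772.PP ii, G p * (fat 1 (up (R p.1) p.2)).indicator F w ≤
        (24 * C1 * Λ) * (F w * V w)
      have e1 : ∀ p ∈ LownAx772.PP ii, G p * (fat 1 (up (R p.1) p.2)).indicator F w =
          (C1 * Λ * F w) * (D * (2 : ℝ) ^ (kk p.1 + 1)) *
            (fat 1 (up (R p.1) p.2)).indicator (1 : ℝ × ℝ → ℝ) w := by
        intro p _
        by_cases hw : w ∈ fat 1 (up (R p.1) p.2)
        · rw [Set.indicator_of_mem hw, Set.indicator_of_mem hw, Pi.one_apply]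
          simp only [hG]; ring
        · rw [Set.indicator_of_notMem hw, Set.indicator_of_notMem hw]; ring
      rw [Finset.sum_congr rfl e1]
      unfold LownAx772.PP
      rw [Finset.sum_sigma]
      have e2 : ∀ m ∈ (Finset.univ : Finset (Fin N)), ∑ j ∈ jr (ii m),
          (C1 * Λ * F w) * (D * (2 : ℝ) ^ (kk m + 1)) *
            (fat 1 (up (R m) j)).indicator (1 : ℝ × ℝ → ℝ) w ≤
          (24 * C1 * Λ) * (F w * ((2 : ℝ) ^ kk m * 2 ^ (AA * ii m) * (1 / 2 : ℝ) ^ n *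
            (fat (32 * 2 ^ ii m) (R m)).indicator 1 w)) := by
        intro m _
        rw [← Finset.mul_sum]
        have h1 := strips_le (R m) (ii m) w
        have h2 : 0 ≤ (C1 * Λ * F w) * (D * (2 : ℝ) ^ (kk m + 1)) := by
          have := hF0 w
          positivity
        refine (mul_le_mul_of_nonneg_left h1 h2).trans ?_
        have h3 : (1 : ℝ) ≤ 2 ^ (AA * ii m) := one_le_pow₀ (by norm_num)
        have h4 : 0 ≤ (fat (32 * 2 ^ ii m) (R m)).indicator (1 : ℝ × ℝ → ℝ) w :=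
          Set.indicator_nonneg (fun _ _ => zero_le_one) w
        have h5 : 0 ≤ 24 * C1 * Λ * F w * ((2 : ℝ) ^ kk m * (1 / 2 : ℝ) ^ n *
            (fat (32 * 2 ^ ii m) (R m)).indicator (1 : ℝ × ℝ → ℝ) w) := by
          have := hF0 w
          positivity
        calc (C1 * Λ * F w) * (D * (2 : ℝ) ^ (kk m + 1)) *
              (3 * (fat (32 * 2 ^ ii m) (R m)).indicator 1 w)
            = 24 * C1 * Λ * F w * ((2 : ℝ) ^ kk m * (1 / 2 : ℝ) ^ n *
            (fat (32 * 2 ^ ii m) (R m)).indicator (1 : ℝ × ℝ → ℝ) w) * 1 := by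
              rw [hD, zpow_add_one₀ (by norm_num)]; ring
          _ ≤ 24 * C1 * Λ * F w * ((2 : ℝ) ^ kk m * (1 / 2 : ℝ) ^ n *
            (fat (32 * 2 ^ ii m) (R m)).indicator (1 : ℝ × ℝ → ℝ) w) * 2 ^ (AA * ii m) :=
              mul_le_mul_of_nonneg_left h3 h5
          _ = _ := by ring
      refine (Finset.sum_le_sum e2).trans (le_of_eq ?_)
      rw [← Finset.mul_sum, ← Finset.mul_sum]
    have k5 : ∫ w, F w * V w ≤ Real.sqrt (C2 * C3) * (2 : ℝ) ^ (-(n : ℝ) / 4) * ∫ z, (h z) ^ 2 := by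
      refine (Omegax627.cs_mem_sqrt hFn hVn).trans ?_
      have a1 : Real.sqrt (∫ w, (F w) ^ 2) ≤
          Real.sqrt (C2 * (1 / 2 : ℝ) ^ n * ∫ z, (h z) ^ 2) := Real.sqrt_le_sqrt hFb
      have a2 : Real.sqrt (∫ w, (V w) ^ 2) ≤
          Real.sqrt (C3 * (2 : ℝ) ^ ((n : ℝ) / 16) * ∫ z, (h z) ^ 2) := Real.sqrt_le_sqrt hV
      refine (mul_le_mul a1 a2 (Real.sqrt_nonneg _) (Real.sqrt_nonneg _)).trans ?_
      rw [← Real.sqrt_mul (by positivity)]
      have e1 : C2 * (1 / 2 : ℝ) ^ n * (∫ z, (h z) ^ 2) *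
          (C3 * (2 : ℝ) ^ ((n : ℝ) / 16) * ∫ z, (h z) ^ 2) =
          (C2 * C3) * ((1 / 2 : ℝ) ^ n * (2 : ℝ) ^ ((n : ℝ) / 16)) * (∫ z, (h z) ^ 2) ^ 2 := by
        ring
      rw [e1, Real.sqrt_mul (by positivity), Real.sqrt_mul (by positivity), Real.sqrt_sq hI0]
      exact mul_le_mul_of_nonneg_right (mul_le_mul_of_nonneg_left (expo n) (Real.sqrt_nonneg _)) hI0
    have k6 : ∫ w, (24 * C1 * Λ) * (F w * V w) ≤ (24 * C1 * Λ) *
        (Real.sqrt (C2 * C3) * (2 : ℝ) ^ (-(n : ℝ) / 4) * ∫ z, (h z) ^ 2) := by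
      rw [integral_const_mul]
      exact mul_le_mul_of_nonneg_left k5 (by positivity)
    refine (mul_le_mul_of_nonneg_left
      (k1.trans ((Finset.sum_le_sum k3).trans (k4.trans k6))) (by norm_num : (0 : ℝ) ≤ 2)).trans ?_
    calc 2 * ((24 * C1 * Λ) *
          (Real.sqrt (C2 * C3) * (2 : ℝ) ^ (-(n : ℝ) / 4) * ∫ z, (h z) ^ 2))
        = (48 * C1 * Real.sqrt (C2 * C3)) * Λ * (2 : ℝ) ^ (-(n : ℝ) / 4) * ∫ z, (h z) ^ 2 := by
          ring
      _ ≤ _ := by
          gcongr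
          have : 0 ≤ 352 * C1 := by positivity
          linarith
  · -- removed part
    have hr := removed hh hlo hhi hT (fun p _ => hst p) (c := C1 * (1 / Λ) ^ 2 * D)
      (fun p _ => hvol p)
    obtain ⟨-, hsum⟩ := rs n U h lo hi hU hh N R kk ii E B hT
    refine hr.trans ?_
    have e1 : ∀ m ∈ (Finset.univ : Finset (Fin N)),
        44 * 2 ^ (ii m) * ((4 : ℝ) ^ kk m * (C1 * (1 / Λ) ^ 2 * D) * (R m).len) ≤
        176 * C1 * (1 / Λ) ^ 2 * ((4 : ℝ) ^ kk m * 2 ^ (AA * ii m) * (1 / 2 : ℝ) ^ n * (R m).len) := by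
      intro m _
      have h1 : (2 : ℝ) ^ (ii m) ≤ 2 ^ (AA * ii m) :=
        pow_le_pow_right₀ (by norm_num) (Nat.le_mul_of_pos_left _ (by unfold AA; norm_num))
      have h2 := (R m).len_pos
      calc 44 * 2 ^ (ii m) * ((4 : ℝ) ^ kk m * (C1 * (1 / Λ) ^ 2 * D) * (R m).len)
          = 176 * C1 * (1 / Λ) ^ 2 * ((4 : ℝ) ^ kk m * 2 ^ (ii m) * (1 / 2 : ℝ) ^ n * (R m).len) := by
            rw [hD]; ring
        _ ≤ _ := by gcongr
    refine (Finset.sum_le_sum e1).trans ?_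
    rw [← Finset.mul_sum]
    calc 176 * C1 * (1 / Λ) ^ 2 *
          ∑ m, (4 : ℝ) ^ kk m * 2 ^ (AA * ii m) * (1 / 2 : ℝ) ^ n * (R m).len
        ≤ 176 * C1 * (1 / Λ) ^ 2 * ((n + 2) * ∫ z, (h z) ^ 2) :=
          mul_le_mul_of_nonneg_left hsum (by positivity)
      _ ≤ 176 * C1 * (1 / Λ) ^ 2 * ((2 * (n + 1)) * ∫ z, (h z) ^ 2) := by
          gcongr
          have : (0 : ℝ) ≤ n := Nat.cast_nonneg n
          linarith
      _ = (352 * C1) * (n + 1) * (1 / Λ) ^ 2 * ∫ z, (h z) ^ 2 := by ring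
      _ ≤ _ := by
          gcongr
          have : 0 ≤ 48 * C1 * Real.sqrt (C2 * C3) := by positivity
          linarith

end Crest.Agent.R087.Lownx772
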