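import Mathlib

/-!
Row 87 (S0115), operator part: the abstract MASS LEMMA (helper546, after 529/799/270).

Dyadic cells of scale `s` are given by `cel s x = ⌊2^s x⌋`.  `X` is a measure space with a "first
coordinate" `p : X → ℝ`; every point `z` of `Z` has a scale `κ z < S`, i.e. a cell
`J(z) = {x | cel (κ z) x = cel (κ z) (p z)}`.  If every cell of scale `r` which contains some `J(z'')`
carries at most `M 2^-r` of the points `z` with `J(z)` containing it, then
`∫_Z f ≤ 2 M ∫_{⋃ J(z)} G` whenever `f z ≤ G` on `J(z)`.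
-/

set_option autoImplicit false

noncomputable section

open MeasureTheory ENNReal

namespace Crest.Agent.R087.Massx546

/-- index of the dyadic cell of scale `2^-s` containing `x` -/
def cel (s : ℕ) (x : ℝ) : ℤ := ⌊(2 : ℝ) ^ s * x⌋

theorem measurable_cel (s : ℕ) : Measurable (cel s) := by
  unfold cel; exact Int.measurable_floor.comp (by fun_prop)

theorem cel_succ (s : ℕ) (x : ℝ) : cel s x = cel (s + 1) x / 2 := by
  unfold cel
  have h : (2 : ℝ) ^ s * x = ((2 : ℝ) ^ (s + 1) * x) / ((2 : ℕ) : ℝ) := by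
    rw [pow_succ]; push_cast; ring
  rw [h, Int.floor_div_natCast]; rfl

/-- cells are nested -/
theorem cel_mono {r s : ℕ} (h : r ≤ s) {x y : ℝ} (hxy : cel s x = cel s y) : cel r x = cel r y := by
  induction s with
  | zero => have : r = 0 := by omega
            subst this; exact hxy
  | succ s ih =>
    rcases Nat.lt_or_ge r (s + 1) with h1 | h1
    · apply ih (by omega)
      rw [cel_succ s x, cel_succ s y, hxy]
    · have : r = s + 1 := by omega
      subst this; exact hxy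

theorem volume_cel (s : ℕ) (j : ℤ) :
    volume {x : ℝ | cel s x = j} = ENNReal.ofReal ((1 / 2 : ℝ) ^ s) := by
  have h : {x : ℝ | cel s x = j} = Set.Ico ((j : ℝ) * (1 / 2) ^ s) (((j : ℝ) + 1) * (1 / 2) ^ s) := by
    ext x
    simp only [cel, Set.mem_ofPred_eq, Int.floor_eq_iff, Set.mem_Ico]
    have h2 : (0 : ℝ) < 2 ^ s := by positivity
    have e1 : (j : ℝ) * (1 / 2) ^ s = j / 2 ^ s := by rw [one_div, inv_pow]; rfl
    have e2 : ((j : ℝ) + 1) * (1 / 2) ^ s = (j + 1) / 2 ^ s := by rw [one_div, inv_pow]; rfl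
    rw [e1, e2, div_le_iff₀ h2, lt_div_iff₀ h2, mul_comm x]
  rw [h, Real.volume_Ico]
  congr 1; ring

theorem measurableSet_cel (s : ℕ) (j : ℤ) : MeasurableSet {x : ℝ | cel s x = j} :=
  measurable_cel s (MeasurableSet.singleton j)

/-- the union of the cells `J(z)`, `z ∈ Z` -/
def cover {X : Type*} (p : X → ℝ) (κ : X → ℕ) (Z : Set X) : Set ℝ :=
  {x | ∃ z ∈ Z, cel (κ z) x = cel (κ z) (p z)}

section

variable {X : Type*} (p : X → ℝ) (κ : X → ℕ) (Z : Set X)

/-- the cell `(r,j)` contains some `J(z)`, `z ∈ Z` -/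
def act (r : ℕ) (j : ℤ) : Prop := ∃ z ∈ Z, r ≤ κ z ∧ cel r (p z) = j

theorem act_succ {r : ℕ} {x : ℝ} (h : act p κ Z (r + 1) (cel (r + 1) x)) :
    act p κ Z r (cel r x) := by
  obtain ⟨z, hz, h1, h2⟩ := h
  exact ⟨z, hz, by omega, cel_mono (Nat.le_succ r) h2⟩

theorem act_mono {r s : ℕ} (hrs : r ≤ s) {x : ℝ} (h : act p κ Z s (cel s x)) :
    act p κ Z r (cel r x) := by
  obtain ⟨z, hz, h1, h2⟩ := h
  exact ⟨z, hz, by omega, cel_mono hrs h2⟩

theorem measurableSet_cover : MeasurableSet (cover p κ Z) := by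
  classical
  have : cover p κ Z = ⋃ (s : ℕ) (j : ℤ) (_ : ∃ z ∈ Z, κ z = s ∧ cel s (p z) = j),
      {x : ℝ | cel s x = j} := by
    ext x
    simp only [cover, Set.mem_ofPred_eq, Set.mem_iUnion, exists_prop]
    constructor
    · rintro ⟨z, hz, h⟩
      exact ⟨κ z, cel (κ z) (p z), ⟨z, hz, rfl, rfl⟩, h⟩
    · rintro ⟨s, j, ⟨z, hz, rfl, rfl⟩, h⟩
      exact ⟨z, hz, h⟩
  rw [this]
  exact MeasurableSet.iUnion fun s => MeasurableSet.iUnion fun j =>
    MeasurableSet.iUnion fun _ => measurableSet_cel s j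

/-- MASS LEMMA. -/
theorem mass [MeasurableSpace X] (μ : Measure X) (hp : Measurable p)
    (hZ : MeasurableSet Z) (S : ℕ) (hS : ∀ z ∈ Z, κ z < S) (M : ℝ≥0∞)
    (H : ∀ r < S, ∀ z'' ∈ Z, r ≤ κ z'' →
      μ {z | z ∈ Z ∧ κ z ≤ r ∧ cel r (p z) = cel r (p z'')} ≤ M * ENNReal.ofReal ((1 / 2 : ℝ) ^ r))
    (f : X → ℝ≥0∞) (G : ℝ → ℝ≥0∞)
    (hfG : ∀ z ∈ Z, ∀ x, cel (κ z) x = cel (κ z) (p z) → f z ≤ G x) :
    ∫⁻ z in Z, f z ∂μ ≤ 2 * M * ∫⁻ x in cover p κ Z, G x := by
  classical
  -- the maximal cells without member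
  let L : ℕ × ℤ → Prop := fun q => act p κ Z q.1 (q.2 / 2) ∧ ¬ act p κ Z (q.1 + 1) q.2
  let C : ℕ × ℤ → Set ℝ := fun q => {x | cel (q.1 + 1) x = q.2}
  let B : ℕ × ℤ → Set X := fun q => if L q then {z | z ∈ Z ∧ cel (q.1 + 1) (p z) = q.2} else ∅
  let D : ℕ × ℤ → Set ℝ := fun q => if L q ∧ (B q).Nonempty then C q else ∅
  have hlast : ∀ x : ℝ, ¬ act p κ Z S (cel S x) := by
    rintro x ⟨z, hz, h1, -⟩
    exact absurd (hS z hz) (by omega)
  have hfind : ∀ x : ℝ, act p κ Z 0 (cel 0 x) →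
      ∃ r, act p κ Z r (cel r x) ∧ ¬ act p κ Z (r + 1) (cel (r + 1) x) := by
    intro x h0
    by_contra hcon
    push Not at hcon
    have : ∀ r, act p κ Z r (cel r x) := by
      intro r
      induction r with
      | zero => exact h0
      | succ r ih => exact hcon r ih
    exact hlast x (this S)
  have hB : ∀ q, MeasurableSet (B q) := by
    intro q
    by_cases hq : L q
    · simp only [B, hq, if_true]
      exact hZ.inter ((measurable_cel (q.1 + 1)).comp hp (MeasurableSet.singleton q.2))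
    · simp only [B, hq, if_false]; exact MeasurableSet.empty
  have hC : ∀ q, MeasurableSet (C q) := fun q => measurableSet_cel _ _
  have hD : ∀ q, MeasurableSet (D q) := by
    intro q
    by_cases hq : L q ∧ (B q).Nonempty
    · simp only [D, hq, if_true, and_self]; exact hC q
    · simp only [D, if_neg hq]; exact MeasurableSet.empty
  have hcov : Z ⊆ ⋃ q, B q := by
    intro z hz
    have h0 : act p κ Z 0 (cel 0 (p z)) := ⟨z, hz, Nat.zero_le _, rfl⟩
    obtain ⟨r, hr1, hr2⟩ := hfind (p z) h0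
    refine Set.mem_iUnion.2 ⟨(r, cel (r + 1) (p z)), ?_⟩
    have hL : L (r, cel (r + 1) (p z)) := by
      refine ⟨?_, hr2⟩
      show act p κ Z r (cel (r + 1) (p z) / 2)
      rw [← cel_succ]; exact hr1
    simp only [B, hL, if_true]
    exact ⟨hz, rfl⟩
  -- in a maximal cell all points have short `κ`
  have hBκ : ∀ q, L q → ∀ z ∈ B q, z ∈ Z ∧ κ z ≤ q.1 ∧ cel (q.1 + 1) (p z) = q.2 := by
    intro q hq z hz
    simp only [B, hq, if_true] at hz
    refine ⟨hz.1, ?_, hz.2⟩
    by_contra hcon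
    exact hq.2 ⟨z, hz.1, by omega, hz.2⟩
  have hmain : ∀ q, ∫⁻ z in B q, f z ∂μ ≤ 2 * M * ∫⁻ x in D q, G x := by
    intro q
    by_cases hq : L q ∧ (B q).Nonempty
    · obtain ⟨hL, hne⟩ := hq
      have hDq : D q = C q := by simp only [D, hL, hne, and_self, if_true]
      rw [hDq]
      set m : ℝ≥0∞ := ⨅ x ∈ C q, G x with hm
      have hf : ∀ z ∈ B q, f z ≤ m := by
        intro z hz
        obtain ⟨h1, h2, h3⟩ := hBκ q hL z hz
        refine le_iInf₂ fun x hx => hfG z h1 x ?_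
        have : cel (q.1 + 1) x = cel (q.1 + 1) (p z) := by rw [h3]; exact hx
        exact cel_mono (by omega) this
      have hμ : μ (B q) ≤ M * ENNReal.ofReal ((1 / 2 : ℝ) ^ q.1) := by
        obtain ⟨z'', hz'', h1, h2⟩ := hL.1
        have hrS : q.1 < S := lt_of_le_of_lt h1 (hS z'' hz'')
        refine le_trans (measure_mono ?_) (H q.1 hrS z'' hz'' h1)
        intro z hz
        obtain ⟨h3, h4, h5⟩ := hBκ q hL z hz
        refine ⟨h3, h4, ?_⟩
        rw [h2, cel_succ, h5]
      calc ∫⁻ z in B q, f z ∂μ ≤ ∫⁻ z in B q, m ∂μ := setLIntegral_mono' (hB q) hf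
        _ = m * μ (B q) := by rw [setLIntegral_const]
        _ ≤ m * (M * ENNReal.ofReal ((1 / 2 : ℝ) ^ q.1)) := by gcongr
        _ = 2 * M * (m * ENNReal.ofReal ((1 / 2 : ℝ) ^ (q.1 + 1))) := by
          have : ENNReal.ofReal ((1 / 2 : ℝ) ^ q.1) =
              2 * ENNReal.ofReal ((1 / 2 : ℝ) ^ (q.1 + 1)) := by
            rw [← ENNReal.ofReal_ofNat 2, ← ENNReal.ofReal_mul (by norm_num)]
            congr 1; rw [pow_succ]; ring
          rw [this]; ring
        _ = 2 * M * ∫⁻ x in C q, m := by rw [setLIntegral_const, volume_cel]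
        _ ≤ 2 * M * ∫⁻ x in C q, G x := by
          refine mul_le_mul_right ?_ _
          exact setLIntegral_mono' (hC q) fun x hx => by rw [hm]; exact iInf₂_le x hx
    · have hBq : B q = ∅ := by
        by_cases hL : L q
        · exact Set.not_nonempty_iff_eq_empty.1 fun h => hq ⟨hL, h⟩
        · simp only [B, hL, if_false]
      rw [hBq]; simp
  have hDsub : ∀ q, D q ⊆ cover p κ Z := by
    intro q x hx
    by_cases hq : L q ∧ (B q).Nonempty
    · have hDq : D q = C q := by simp only [D, hq, and_self, if_true]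
      rw [hDq] at hx
      obtain ⟨z, hz⟩ := hq.2
      obtain ⟨h1, h2, h3⟩ := hBκ q hq.1 z hz
      refine ⟨z, h1, ?_⟩
      have : cel (q.1 + 1) x = cel (q.1 + 1) (p z) := by rw [h3]; exact hx
      exact cel_mono (by omega) this
    · simp only [D, if_neg hq] at hx; exact absurd hx (Set.notMem_empty x)
  have hDC : ∀ q x, x ∈ D q → L q ∧ cel (q.1 + 1) x = q.2 := by
    intro q x hx
    by_cases hq : L q ∧ (B q).Nonempty
    · have hDq : D q = C q := by simp only [D, hq, and_self, if_true]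
      rw [hDq] at hx; exact ⟨hq.1, hx⟩
    · simp only [D, if_neg hq] at hx; exact absurd hx (Set.notMem_empty x)
  have hdisj : Pairwise (Function.onFun Disjoint D) := by
    intro q q' hne
    rw [Function.onFun, Set.disjoint_left]
    intro x hx hx'
    obtain ⟨hL, h1⟩ := hDC q x hx
    obtain ⟨hL', h1'⟩ := hDC q' x hx'
    apply hne
    rcases lt_trichotomy q.1 q'.1 with h | h | h
    · exfalso
      apply hL.2
      have : act p κ Z q'.1 (cel q'.1 x) := by
        have := hL'.1; rw [← h1', ← cel_succ] at this; exact this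
      have := act_mono p κ Z (show q.1 + 1 ≤ q'.1 by omega) this
      rwa [h1] at this
    · have h2 : q.2 = q'.2 := by rw [← h1, ← h1', h]
      exact Prod.ext h h2
    · exfalso
      apply hL'.2
      have : act p κ Z q.1 (cel q.1 x) := by
        have := hL.1; rw [← h1, ← cel_succ] at this; exact this
      have := act_mono p κ Z (show q'.1 + 1 ≤ q.1 by omega) this
      rwa [h1'] at this
  calc ∫⁻ z in Z, f z ∂μ ≤ ∫⁻ z in ⋃ q, B q, f z ∂μ := lintegral_mono_set hcov
    _ ≤ ∑' q, ∫⁻ z in B q, f z ∂μ := lintegral_iUnion_le _ _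
    _ ≤ ∑' q, 2 * M * ∫⁻ x in D q, G x := ENNReal.tsum_le_tsum hmain
    _ = 2 * M * ∑' q, ∫⁻ x in D q, G x := ENNReal.tsum_mul_left
    _ = 2 * M * ∫⁻ x in ⋃ q, D q, G x := by rw [lintegral_iUnion hD hdisj]
    _ ≤ 2 * M * ∫⁻ x in cover p κ Z, G x := by
      exact mul_le_mul_right (lintegral_mono_set (Set.iUnion_subset hDsub)) _

/-- special case: the measure of `Z`. -/
theorem mass_one [MeasurableSpace X] (μ : Measure X) (hp : Measurable p)
    (hZ : MeasurableSet Z) (S : ℕ) (hS : ∀ z ∈ Z, κ z < S) (M : ℝ≥0∞)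
    (H : ∀ r < S, ∀ z'' ∈ Z, r ≤ κ z'' →
      μ {z | z ∈ Z ∧ κ z ≤ r ∧ cel r (p z) = cel r (p z'')} ≤ M * ENNReal.ofReal ((1 / 2 : ℝ) ^ r)) :
    μ Z ≤ 2 * M * volume (cover p κ Z) := by
  have := mass p κ Z μ hp hZ S hS M H (fun _ => 1) (fun _ => 1) (fun _ _ _ _ => le_refl _)
  simpa using this

end

end Crest.Agent.R087.Massx546
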