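import Crest.Agent.R087.OP0_270
import Crest.Agent.R087.Mass_546
import Crest.Agent.R087.E2Kf_752

/-!
Row 87 (S0115), operator part: the leaves `MASS3`, `MASSOM` of `OP0_270` (integer lines) (helper546).
-/

set_option autoImplicit false

noncomputable section

open MeasureTheory ENNReal

namespace Crest.Agent.R087.MassLeafx546

open Crest.Agent.R087.Sh0x283 Crest.Agent.R087.E2x542 Crest.Agent.R087.E2Kx752
  Crest.Agent.R087.OP0x270 Crest.Agent.R087.Massx546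

theorem jx_eq_cel (s : ℕ) (x : ℝ) : jx s x = cel s x := rfl

theorem near_mono {U : ℝ × ℝ → ℝ} {K b m : ℝ} {s r : ℕ} {z : ℝ × ℝ} (h : s ≤ r)
    (hn : near U K b m s z) : near U K b m r z := by
  refine ⟨hn.1, le_trans ?_ hn.2⟩
  gcongr ?_ * ?_
  exact pow_le_pow_of_le_one (by norm_num) (by norm_num) h

theorem near_K {U : ℝ × ℝ → ℝ} {K K' b m : ℝ} {s : ℕ} {z : ℝ × ℝ} (h : K ≤ K')
    (hn : near U K b m s z) : near U K' b m s z := ⟨le_trans hn.1 h, le_trans hn.2 h⟩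

/-- the dyadic interval of a tube in terms of `jx` -/
theorem mem_I_iff (R : Tube) (x : ℝ) : x ∈ R.I ↔ jx R.k x = R.j := by
  have h2 : (0 : ℝ) < 2 ^ R.k := by positivity
  unfold Tube.I Tube.len jx
  rw [Int.floor_eq_iff, Set.mem_Ico]
  have e1 : (R.j : ℝ) * (1 / 2) ^ R.k = R.j / 2 ^ R.k := by rw [one_div, inv_pow]; rfl
  have e2 : ((R.j : ℝ) + 1) * (1 / 2) ^ R.k = (R.j + 1) / 2 ^ R.k := by rw [one_div, inv_pow]; rfl
  rw [e1, e2, div_le_iff₀ h2, lt_div_iff₀ h2, mul_comm x]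

theorem jx_mono {r s : ℕ} (h : r ≤ s) {x y : ℝ} (hxy : jx s x = jx s y) : jx r x = jx r y :=
  cel_mono h hxy

theorem measurable_jx (s : ℕ) : Measurable (jx s) := measurable_cel s

theorem abs_sub_le_of_jx {s : ℕ} {x y : ℝ} (h : jx s x = jx s y) : |x - y| ≤ (1 / 2 : ℝ) ^ s := by
  have h2 : (0 : ℝ) < 2 ^ s := by positivity
  have := Int.abs_sub_lt_one_of_floor_eq_floor (show ⌊(2 : ℝ) ^ s * x⌋ = ⌊(2 : ℝ) ^ s * y⌋ from h)
  rw [← mul_sub, abs_mul, abs_of_pos h2] at this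
  rw [one_div, inv_pow, ← one_div, le_div_iff₀ h2, mul_comm]
  exact this.le

theorem measurableSet_col {h : ℝ × ℝ → ℝ} (hh : Measurable h) (k : ℤ) :
    MeasurableSet (col h k) := by
  have h1 : Measurable fun z => |h z| := hh.abs
  exact (measurableSet_le measurable_const h1).inter (measurableSet_lt h1 measurable_const)

theorem volume_fatV_ne_top (U : ℝ × ℝ → ℝ) (K : ℝ) (R : Tube) : volume (fatV U K R) ≠ ⊤ :=
  ne_top_of_le_ne_top (fat_ne_top K R) (measure_mono fun _ hz => hz.1)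

theorem line_close {U : ℝ × ℝ → ℝ} {K b m : ℝ} {z : ℝ × ℝ} {s : ℕ} (hn : near U K b m s z) {x : ℝ}
    (hx : jx s x = jx s z.1) : |(z.2 + (x - z.1) * U z) - (b + m * x)| ≤ 2 * K := by
  have h3 : (z.2 + (x - z.1) * U z) - (b + m * x) =
      (z.2 - (b + m * z.1)) + (x - z.1) * (U z - m) := by ring
  rw [h3]
  calc |z.2 - (b + m * z.1) + (x - z.1) * (U z - m)|
      ≤ |z.2 - (b + m * z.1)| + |(x - z.1) * (U z - m)| := abs_add_le _ _
    _ ≤ K + K := by
      refine add_le_add hn.1 ?_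
      rw [abs_mul, mul_comm]
      exact le_trans (mul_le_mul_of_nonneg_left (abs_sub_le_of_jx hx) (abs_nonneg _)) hn.2
    _ = 2 * K := by ring

theorem lines_close {U : ℝ × ℝ → ℝ} {K b m K' b' m' : ℝ} {z : ℝ × ℝ} {s : ℕ}
    (hn : near U K b m s z) (hn' : near U K' b' m' s z) {x : ℝ} (hx : jx s x = jx s z.1) :
    |(b + m * x) - (b' + m' * x)| ≤ 2 * K + 2 * K' := by
  have h1 := line_close hn hx
  have h2 := line_close hn' hx
  calc |(b + m * x) - (b' + m' * x)|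
      = |((z.2 + (x - z.1) * U z) - (b' + m' * x)) - ((z.2 + (x - z.1) * U z) - (b + m * x))| := by
        ring_nf
    _ ≤ |(z.2 + (x - z.1) * U z) - (b' + m' * x)| + |(z.2 + (x - z.1) * U z) - (b + m * x)| :=
        abs_sub _ _
    _ ≤ _ := by linarith

/-- density bound at all scales above `z` from `upp` -/
theorem upp_den {U h : ℝ × ℝ → ℝ} {A n : ℕ} {k : ℤ} {s : ℕ} {z : ℝ × ℝ} (hu : upp U h A n k s z)
    (i : ℕ) {b m : ℝ} (hb : ∃ q : ℤ, b = q) (hm : ∃ q : ℤ, m = q) (hn : near U (2 ^ i) b m s z)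
    {r : ℕ} (hr : r ≤ s) :
    volume {w : ℝ × ℝ | w ∈ col h k ∧ cel r w.1 = cel r z.1 ∧ near U (2 ^ i) b m r w} ≤
      ENNReal.ofReal (2 ^ (A * i) * (2 * (1 / 2 : ℝ) ^ n)) * ENNReal.ofReal ((1 / 2 : ℝ) ^ r) := by
  set R : Tube := ⟨r, cel r z.1, b, m⟩ with hR
  have h1 := hu i R ⟨hb, hm⟩ hr ((mem_I_iff R z.1).2 rfl) hn
  have hfin : volume (col h k ∩ fatV U (2 ^ i) R) ≠ ⊤ :=
    ne_top_of_le_ne_top (volume_fatV_ne_top U (2 ^ i) R) (measure_mono Set.inter_subset_right)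
  rw [← ENNReal.ofReal_mul (by positivity)]
  refine le_trans (measure_mono ?_) ((ENNReal.le_ofReal_iff_toReal_le hfin (by positivity)).2 h1)
  rintro w ⟨hw1, hw2, hw3⟩
  exact ⟨hw1, ⟨(mem_I_iff R w.1).2 hw2, hw3.1⟩, hw3.2⟩

theorem col_unique {h : ℝ × ℝ → ℝ} {k k' : ℤ} {z : ℝ × ℝ} (h1 : z ∈ col h k) (h2 : z ∈ col h k') :
    k = k' := by
  have a1 := lt_of_le_of_lt h1.1 h2.2
  have a2 := lt_of_le_of_lt h2.1 h1.2
  have b1 := (zpow_lt_zpow_iff_right₀ (by norm_num : (1 : ℝ) < 2)).1 a1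
  have b2 := (zpow_lt_zpow_iff_right₀ (by norm_num : (1 : ℝ) < 2)).1 a2
  omega

theorem ne_zero_of_col {h : ℝ × ℝ → ℝ} {k : ℤ} {z : ℝ × ℝ} (h1 : z ∈ col h k) : h z ≠ 0 := by
  intro h0
  have := h1.1
  rw [h0, abs_zero] at this
  have h2 : (0 : ℝ) < 2 ^ k := by positivity
  linarith

theorem measurableSet_near {U : ℝ × ℝ → ℝ} (hU : Measurable U) (K b m : ℝ) {κ : ℝ × ℝ → ℕ}
    (hκ : Measurable κ) : MeasurableSet {z : ℝ × ℝ | near U K b m (κ z) z} := by
  have h1 : MeasurableSet {z : ℝ × ℝ | |z.2 - (b + m * z.1)| ≤ K} := by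
    apply measurableSet_le _ measurable_const
    fun_prop
  have h2 : MeasurableSet {z : ℝ × ℝ | |U z - m| * (1 / 2 : ℝ) ^ (κ z) ≤ K} := by
    apply measurableSet_le _ measurable_const
    have h3 : Measurable fun z : ℝ × ℝ => (1 / 2 : ℝ) ^ (κ z) :=
      (measurable_of_countable fun n : ℕ => (1 / 2 : ℝ) ^ n).comp hκ
    exact ((hU.sub measurable_const).abs).mul h3
  exact h1.inter h2

theorem vol_I_ne_top (R : Tube) (P : ℝ → Prop) : volume {x : ℝ | x ∈ R.I ∧ P x} ≠ ⊤ := by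
  refine ne_top_of_le_ne_top ?_ (measure_mono (t := R.I) fun x hx => hx.1)
  unfold Tube.I
  rw [Real.volume_Ico]
  exact ENNReal.ofReal_ne_top

/-- **leaf MASSOM** -/
theorem massom : MASSOM := by
  intro A n _ U h S lo hi hU hh hch hup N R kk ii E B ht k i R0 hR0
  set Z : Set (ℝ × ℝ) := {z | z ∈ col h k ∧ z.1 ∈ R0.I ∧ lo z < hi z ∧ R0.k < hi z ∧
    near U (2 ^ i) R0.b R0.m (hi z - 1) z} with hZdef
  set κ : ℝ × ℝ → ℕ := fun z => hi z - 1 with hκdef
  have hκm : Measurable κ := (measurable_of_countable fun n : ℕ => n - 1).comp hch.2.1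
  have hI : MeasurableSet {z : ℝ × ℝ | z.1 ∈ R0.I} := measurable_fst R0.measurableSet_I
  have hZ : MeasurableSet Z :=
    (measurableSet_col hh.1 k).inter (hI.inter ((measurableSet_lt hch.1 hch.2.1).inter
      ((measurableSet_lt measurable_const hch.2.1).inter (measurableSet_near hU _ _ _ hκm))))
  have hS : ∀ z ∈ Z, κ z < S := by
    rintro z ⟨_, _, h1, _, _⟩
    have := hch.2.2 z
    simp only [hκdef]; omega
  set T : Set ℝ := {x : ℝ | x ∈ R0.I ∧ ∃ m, kk m = k ∧ x ∈ (R m).I ∧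
    |R0.line x - (R m).line x| ≤ 2 * 2 ^ i + 10 * 2 ^ ii m} with hT
  have hmass := mass_one Prod.fst κ Z volume measurable_fst hZ S hS
    (ENNReal.ofReal (2 ^ (A * i) * (2 * (1 / 2 : ℝ) ^ n))) (by
      intro r _ z hz hr
      obtain ⟨h1, _, h3, _, h5⟩ := hz
      have hu := hup z (ne_zero_of_col h1) h3 k h1
      refine le_trans (measure_mono ?_) (upp_den hu i hR0.1 hR0.2 h5 hr)
      rintro w ⟨hw1, hw2, hw3⟩
      exact ⟨hw1.1, hw3, near_mono hw2 hw1.2.2.2.2⟩)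
  have hsub : cover Prod.fst κ Z ⊆ T := by
    rintro x ⟨z, hz, hxz⟩
    obtain ⟨h1, h2, h3, h4, h5⟩ := hz
    have hk0 : R0.k ≤ κ z := by simp only [hκdef]; omega
    refine ⟨?_, ?_⟩
    · rw [mem_I_iff] at h2 ⊢
      rw [← h2]; exact jx_mono hk0 hxz
    · obtain ⟨m, hm⟩ := ht.unB z (ne_zero_of_col h1) h3
      have hkm : kk m = k := col_unique (ht.subB m hm) h1
      obtain ⟨t1, t2, t3⟩ := ht.top m z hm h3
      have hlo : lo z ≤ κ z := by simp only [hκdef]; omega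
      refine ⟨m, hkm, ?_, ?_⟩
      · rw [mem_I_iff] at t1 ⊢
        rw [← t1]; exact jx_mono (le_trans t2 hlo) hxz
      · have := lines_close h5 (near_mono hlo t3) hxz
        unfold Tube.line
        refine le_trans this (le_of_eq (by ring))
  have hTfin : volume T ≠ ⊤ := vol_I_ne_top R0 _
  have h2 : volume Z ≤ 2 * ENNReal.ofReal (2 ^ (A * i) * (2 * (1 / 2 : ℝ) ^ n)) * volume T :=
    le_trans hmass (by gcongr)
  have h3 := ENNReal.toReal_mono (ENNReal.mul_ne_top (ENNReal.mul_ne_top (by norm_num)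
    ENNReal.ofReal_ne_top) hTfin) h2
  rw [ENNReal.toReal_mul, ENNReal.toReal_mul, ENNReal.toReal_ofReal (by positivity)] at h3
  refine le_trans h3 (le_of_eq ?_)
  rw [ENNReal.toReal_ofNat]
  ring

/-- **leaf MASS3** -/
theorem mass3 : MASS3 := by
  intro A n _ U h S lo hi hU hh hch hup k i R B hR hB hBk hBR t ht j hex
  obtain ⟨z0, hz0, hz0l, hz0t, hz0j⟩ := hex
  set Z : Set (ℝ × ℝ) := {z | z ∈ B ∧ lo z < hi z ∧ jx t z.1 = j} with hZdef
  show (volume Z).toReal ≤ _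
  set κ : ℝ × ℝ → ℕ := fun z => max t (lo z) with hκdef
  have hZ : MeasurableSet Z := hB.inter ((measurableSet_lt hch.1 hch.2.1).inter
    (((measurable_jx t).comp measurable_fst) (MeasurableSet.singleton j)))
  have hS : ∀ z ∈ Z, κ z < max t S + 1 := by
    rintro z ⟨_, h1, _⟩
    have := hch.2.2 z
    simp only [hκdef]; omega
  have hnr : ∀ z ∈ B, lo z < hi z → near U (2 ^ i) R.b R.m (lo z) z := fun z hz hl =>
    (hBR z hz hl).2.2
  have hmass := mass_one Prod.fst κ Z volume measurable_fst hZ (max t S + 1) hS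
    (ENNReal.ofReal (2 ^ (A * i) * (2 * (1 / 2 : ℝ) ^ n))) (by
      intro r _ z hz hr
      have key : ∀ z1 ∈ B, lo z1 < hi z1 → r ≤ hi z1 - 1 → cel r z.1 = cel r z1.1 →
          volume {w | w ∈ Z ∧ κ w ≤ r ∧ cel r w.1 = cel r z.1} ≤
            ENNReal.ofReal (2 ^ (A * i) * (2 * (1 / 2 : ℝ) ^ n)) *
              ENNReal.ofReal ((1 / 2 : ℝ) ^ r) := by
        intro z1 g1 g2 g3 g4
        have hu := hup z1 (ne_zero_of_col (hBk g1)) g2 k (hBk g1)
        have hlo1 : lo z1 ≤ hi z1 - 1 := by omega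
        refine le_trans (measure_mono ?_)
          (upp_den hu i hR.1 hR.2 (near_mono hlo1 (hnr z1 g1 g2)) g3)
        rintro w ⟨hw1, hw2, hw3⟩
        have : lo w ≤ r := le_trans (le_max_right _ _) hw2
        exact ⟨hBk hw1.1, hw3.trans g4, near_mono this (hnr w hw1.1 hw1.2.1)⟩
      obtain ⟨hz1, hz2, hz3⟩ := hz
      by_cases hrl : r ≤ lo z
      · exact key z hz1 hz2 (by omega) rfl
      · -- then `r ≤ t`
        have hrt : r ≤ t := by
          rcases le_max_iff.1 hr with h | h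
          · exact h
          · exact absurd h hrl
        have hc : cel t z.1 = cel t z0.1 := by
          show jx t z.1 = jx t z0.1
          rw [hz3, hz0j]
        exact key z0 hz0 hz0l (by omega) (cel_mono hrt hc))
  have hsub : cover Prod.fst κ Z ⊆ {x : ℝ | cel t x = j} := by
    rintro x ⟨z, hz, hxz⟩
    show cel t x = j
    have : cel t x = cel t z.1 := cel_mono (le_max_left _ _) hxz
    rw [this]; exact hz.2.2
  have h2 : volume Z ≤ 2 * ENNReal.ofReal (2 ^ (A * i) * (2 * (1 / 2 : ℝ) ^ n)) *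
      ENNReal.ofReal ((1 / 2 : ℝ) ^ t) := by
    refine le_trans hmass ?_
    gcongr
    rw [← volume_cel t j]
    exact measure_mono hsub
  have h3 := ENNReal.toReal_mono (ENNReal.mul_ne_top (ENNReal.mul_ne_top (by norm_num)
    ENNReal.ofReal_ne_top) ENNReal.ofReal_ne_top) h2
  rw [ENNReal.toReal_mul, ENNReal.toReal_mul, ENNReal.toReal_ofReal (by positivity),
    ENNReal.toReal_ofReal (by positivity)] at h3
  refine le_trans h3 (le_of_eq ?_)
  rw [ENNReal.toReal_ofNat]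
  ring

/-! ### sub-chains -/

theorem upp_scale {U h : ℝ × ℝ → ℝ} {A n : ℕ} {k : ℤ} {s r : ℕ} {z : ℝ × ℝ} (hrs : r ≤ s)
    (hu : upp U h A n k s z) : upp U h A n k r z := fun i R hR h1 h2 h3 =>
  hu i R hR (le_trans h1 hrs) h2 (near_mono hrs h3)

/-- `UppAt` is inherited by sub-chains -/
theorem uppAt_sub {U h : ℝ × ℝ → ℝ} {A n : ℕ} {lo hi lo' hi' : ℝ × ℝ → ℕ}
    (hu : UppAt U h A n lo hi)
    (hsub : ∀ z, h z ≠ 0 → lo' z < hi' z → lo z ≤ lo' z ∧ hi' z ≤ hi z) :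
    UppAt U h A n lo' hi' := by
  intro z hz hlt k hk
  obtain ⟨h1, h2⟩ := hsub z hz hlt
  exact upp_scale (by omega) (hu z hz (by omega) k hk)

/-- chains are inherited -/
theorem chain_sub {S : ℕ} {lo hi lo' hi' : ℝ × ℝ → ℕ} (hc : Chain S lo hi) (hlo : Measurable lo')
    (hhi : Measurable hi') (h : ∀ z, hi' z ≤ hi z) : Chain S lo' hi' :=
  ⟨hlo, hhi, fun z => le_trans (h z) (hc.2.2 z)⟩

end Crest.Agent.R087.MassLeafx546
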