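import Crest.Agent.R087.OPker_799

/-!
Row 87 (S0115), operator part: OUTER ASSEMBLY (helper799).

`DEC ζ N M` (class agnostic decomposition of every interval truncation into kept pieces, removed pieces
and a small remainder) implies `GDN ζ N M` (the target), by the a priori bound and bootstrap.
-/

set_option autoImplicit false

noncomputable section

open MeasureTheory Crest.Agent.R087.Sh0x283 Crest.Agent.R087.GateDefx273
open Crest.Agent.R087.OPdefx799 Crest.Agent.R087.OPkerx799 Crest.Agent.R087.TBx820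
open scoped ENNReal

namespace Crest.Agent.R087.OPasmx799

/-- decomposition of a family of weights `H` (majorised by `h`) into kept pieces of size `κ` and
removed pieces (interval truncations) of size `δ` -/
def DecN (φ ζ : ℝ → ℝ) (U : ℝ × ℝ → ℝ) (S : ℕ) (h : ℝ × ℝ → ℝ) (H : ℕ → ℝ × ℝ → ℝ)
    (κ δ : ℝ) : Prop :=
  ∃ (ι : Type) (_ : Fintype ι) (a : ι → ℝ) (Hk Hr : ι → ℕ → ℝ × ℝ → ℝ) (hr : ι → ℝ × ℝ → ℝ),
    (∀ i, 0 < a i) ∧ ∑ i, a i ≤ 1 ∧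
    (∀ i, ∀ s < S, Nice (Hk i s)) ∧
    (∀ i, ∫ w, (TS φ ζ U S (Hk i) w) ^ 2 ≤ κ * a i ^ 2 * ∫ z, (h z) ^ 2) ∧
    (∀ i, Nice (hr i)) ∧ (∀ i z, 0 ≤ hr i z) ∧ (∀ i, Ch (hr i) (Hr i)) ∧
    (∀ i, ∫ z, (hr i z) ^ 2 ≤ δ * a i ^ 2 * ∫ z, (h z) ^ 2) ∧
    ∀ s < S, ∀ z, H s z = ∑ i, (Hk i s z + Hr i s z)

/-- the same, up to a remainder of size `ε` -/
def Dec (φ ζ : ℝ → ℝ) (U : ℝ × ℝ → ℝ) (S : ℕ) (h : ℝ × ℝ → ℝ) (H : ℕ → ℝ × ℝ → ℝ)
    (κ δ ε : ℝ) : Prop :=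
  ∃ (G : ℕ → ℝ × ℝ → ℝ) (h0 : ℝ × ℝ → ℝ) (H0 : ℕ → ℝ × ℝ → ℝ),
    DecN φ ζ U S h G κ δ ∧ Nice h0 ∧ (∀ z, 0 ≤ h0 z) ∧ Ch h0 H0 ∧ ∫ z, (h0 z) ^ 2 ≤ ε ∧
    ∀ s < S, ∀ z, H s z = G s z + H0 s z

/-- **DEC**: the class agnostic form of the operator part -/
def DEC (ζ : ℝ → ℝ) (N M : ℕ) : Prop :=
  ∃ c : ℝ, 0 < c ∧ ∀ δ : ℝ, 0 < δ → ∃ κ : ℝ, 0 ≤ κ ∧
    ∀ φ : ℝ → ℝ, Prof N M φ → ∀ U : ℝ × ℝ → ℝ, Fld c U → ∀ S : ℕ,
    ∀ (h : ℝ × ℝ → ℝ) (H : ℕ → ℝ × ℝ → ℝ), Nice h → (∀ z, 0 ≤ h z) → Ch h H →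
    ∀ ε : ℝ, 0 < ε → Dec φ ζ U S h H κ δ ε

/-! ### admissible profiles -/

theorem iterDeriv_supp {ω : ℝ → ℝ} (h : ∀ r, 1 < |r| → ω r = 0) (n : ℕ) :
    ∀ r, 1 < |r| → iteratedDeriv n ω r = 0 := by
  intro r hr
  have ho : IsOpen {r : ℝ | 1 < |r|} := isOpen_lt continuous_const continuous_abs
  have h1 : ω =ᶠ[nhds r] fun _ => (0 : ℝ) := by
    filter_upwards [ho.mem_nhds hr] with t ht using h t ht
  rw [h1.iteratedDeriv_eq n]
  simp

theorem pz_of {ζ : ℝ → ℝ} (hζ : ZetC ζ) {N M : ℕ} (hNM : N ≤ M) :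
    ∃ Cz : ℝ, ∀ φ, Prof N M φ → PZ φ ζ 1 Cz := by
  obtain ⟨h1, h2, -⟩ := hζ
  have hc : HasCompactSupport ζ := by
    refine HasCompactSupport.intro (isCompact_Icc (a := (1 / 8 : ℝ)) (b := 7 / 8)) ?_
    intro t ht
    by_contra h
    exact ht (h2 t h)
  obtain ⟨Cz, hCz⟩ := h1.continuous.bounded_above_of_compact_support hc
  refine ⟨Cz, ?_⟩
  rintro φ ⟨ω, h3, h4, h5, rfl⟩
  refine ⟨?_, h1.continuous, fun r => h5 N hNM r, fun t => hCz t, iterDeriv_supp h4 N, h2⟩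
  exact (h3.continuous_iteratedDeriv N (by exact_mod_cast le_top))

/-! ### weighted sums -/

theorem sum_sq_weight {ι : Type*} (F : Finset ι) (a : ι → ℝ) (ha : ∀ i ∈ F, 0 < a i)
    (hs : ∑ i ∈ F, a i ≤ 1) (f : ι → ℝ × ℝ → ℝ) (hf : ∀ i ∈ F, Nice (f i)) (Q : ℝ) (hQ : 0 ≤ Q)
    (h : ∀ i ∈ F, ∫ w, (f i w) ^ 2 ≤ Q * a i ^ 2) : ∫ w, (∑ i ∈ F, f i w) ^ 2 ≤ Q := by
  have h1 : ∀ w, (∑ i ∈ F, f i w) ^ 2 ≤ ∑ i ∈ F, (a i)⁻¹ * (f i w) ^ 2 := by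
    intro w
    have h2 := Finset.sum_sq_le_sum_mul_sum_of_sq_le_mul F (r := fun i => f i w) (f := a)
      (g := fun i => (a i)⁻¹ * (f i w) ^ 2) (fun i hi => (ha i hi).le)
      (fun i hi => mul_nonneg (inv_nonneg.2 (ha i hi).le) (sq_nonneg _)) (fun i hi => le_of_eq (by
        have := (ha i hi).ne'
        field_simp))
    refine h2.trans ?_
    have h3 : 0 ≤ ∑ i ∈ F, (a i)⁻¹ * (f i w) ^ 2 :=
      Finset.sum_nonneg fun i hi => mul_nonneg (inv_nonneg.2 (ha i hi).le) (sq_nonneg _)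
    calc (∑ i ∈ F, a i) * ∑ i ∈ F, (a i)⁻¹ * (f i w) ^ 2
        ≤ 1 * ∑ i ∈ F, (a i)⁻¹ * (f i w) ^ 2 := mul_le_mul_of_nonneg_right hs h3
      _ = _ := one_mul _
  have hi : ∀ i ∈ F, Integrable fun w => (a i)⁻¹ * (f i w) ^ 2 := fun i hi =>
    (nice_integrable_sq (hf i hi)).const_mul _
  calc ∫ w, (∑ i ∈ F, f i w) ^ 2 ≤ ∫ w, ∑ i ∈ F, (a i)⁻¹ * (f i w) ^ 2 :=
        integral_mono (nice_integrable_sq (nice_sum F hf)) (integrable_finsetSum _ hi) h1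
    _ = ∑ i ∈ F, (a i)⁻¹ * ∫ w, (f i w) ^ 2 := by
        rw [integral_finsetSum _ hi]
        exact Finset.sum_congr rfl fun i _ => integral_const_mul _ _
    _ ≤ ∑ i ∈ F, (a i)⁻¹ * (Q * a i ^ 2) := by
        refine Finset.sum_le_sum fun i hi => ?_
        exact mul_le_mul_of_nonneg_left (h i hi) (inv_nonneg.2 (ha i hi).le)
    _ = Q * ∑ i ∈ F, a i := by
        rw [Finset.mul_sum]
        refine Finset.sum_congr rfl fun i hi => ?_
        have := (ha i hi).ne'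
        field_simp
    _ ≤ Q := by
        calc Q * ∑ i ∈ F, a i ≤ Q * 1 := mul_le_mul_of_nonneg_left hs hQ
          _ = Q := mul_one _

theorem int_nonneg_sq (f : ℝ × ℝ → ℝ) : 0 ≤ ∫ z, (f z) ^ 2 :=
  integral_nonneg fun _ => sq_nonneg _

/-! ### the bootstrap step -/

theorem step {φ ζ : ℝ → ℝ} {Cp Cz : ℝ} (P : PZ φ ζ Cp Cz) {U : ℝ × ℝ → ℝ} {c : ℝ} (hU : Fld c U)
    (S : ℕ) {κ δ : ℝ} (hκ : 0 ≤ κ) (hδ0 : 0 ≤ δ) (hδ1 : 3 * δ ≤ 1 / 2)
    (hD : ∀ (h : ℝ × ℝ → ℝ) (H : ℕ → ℝ × ℝ → ℝ), Nice h → (∀ z, 0 ≤ h z) → Ch h H →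
      ∀ ε : ℝ, 0 < ε → Dec φ ζ U S h H κ δ ε)
    {A : ℝ} (hA0 : 0 ≤ A) (hA : NN φ ζ U S A) : NN φ ζ U S (3 * κ + A / 2) := by
  intro h H hh h0' hCh
  obtain ⟨W, hW⟩ := hU.2.1
  have key : ∀ ε : ℝ, 0 < ε → ∫ w, (TS φ ζ U S H w) ^ 2 ≤
      (3 * κ + A / 2) * (∫ z, (h z) ^ 2) + 3 * A * ε := by
    intro ε hε
    obtain ⟨G, h0, H0, ⟨ι, _, a, Hk, Hr, hr, ha, has, hkn, hkb, hrn, hr0, hrC, hrb, hsumG⟩,
      h0n, h00, h0C, h0b, hsumH⟩ := hD h H hh h0' hCh ε hε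
    have hsum : ∀ s < S, ∀ z, H s z = ∑ i, (Hk i s z + Hr i s z) + H0 s z := fun s hs z => by
      rw [hsumH s hs z, hsumG s hs z]
    have e1 : TS φ ζ U S H = TS φ ζ U S (fun s z => ∑ i, (Hk i s z + Hr i s z) + H0 s z) :=
      TS_congr S hsum
    have hrn' : ∀ i, ∀ s < S, Nice (Hr i s) := fun i s _ => ch_nice (hrn i) (hrC i) s
    have h0n' : ∀ s < S, Nice (H0 s) := fun s _ => ch_nice h0n h0C s
    have e2 : ∀ w, TS φ ζ U S H w = ∑ i, TS φ ζ U S (Hk i) w + ∑ i, TS φ ζ U S (Hr i) w +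
        TS φ ζ U S H0 w := by
      intro w
      rw [e1]
      have e3 := TS_add P hU.1 S (H := fun s z => ∑ i, (Hk i s z + Hr i s z)) (G := H0)
        (fun s hs => nice_sum _ fun i _ => nice_add (hkn i s hs) (hrn' i s hs)) h0n' w
      rw [e3]
      have e4 := TS_sum P hU.1 S (Finset.univ) (H := fun i s z => Hk i s z + Hr i s z)
        (fun i _ s hs => nice_add (hkn i s hs) (hrn' i s hs)) w
      rw [e4, ← Finset.sum_add_distrib]
      congr 1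
      refine Finset.sum_congr rfl fun i _ => ?_
      exact TS_add P hU.1 S (hkn i) (hrn' i) w
    have nK : Nice (fun w => ∑ i, TS φ ζ U S (Hk i) w) :=
      nice_sum _ fun i _ => TS_nice P hU.1 hW S (hkn i)
    have nR : Nice (fun w => ∑ i, TS φ ζ U S (Hr i) w) :=
      nice_sum _ fun i _ => TS_nice P hU.1 hW S (hrn' i)
    have n0 : Nice (TS φ ζ U S H0) := TS_nice P hU.1 hW S h0n'
    have nT : Nice (TS φ ζ U S H) := TS_nice P hU.1 hW S fun s _ => ch_nice hh hCh s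
    have b1 : ∫ w, (TS φ ζ U S H w) ^ 2 ≤ 3 * (∫ w, (∑ i, TS φ ζ U S (Hk i) w) ^ 2) +
        3 * (∫ w, (∑ i, TS φ ζ U S (Hr i) w) ^ 2) + 3 * (∫ w, (TS φ ζ U S H0 w) ^ 2) := by
      have i1 : Integrable fun w => 3 * (∑ i, TS φ ζ U S (Hk i) w) ^ 2 :=
        (nice_integrable_sq nK).const_mul _
      have i2 : Integrable fun w => 3 * (∑ i, TS φ ζ U S (Hr i) w) ^ 2 :=
        (nice_integrable_sq nR).const_mul _
      have i3 : Integrable fun w => 3 * (TS φ ζ U S H0 w) ^ 2 :=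
        (nice_integrable_sq n0).const_mul _
      have i12 : Integrable fun w => 3 * (∑ i, TS φ ζ U S (Hk i) w) ^ 2 +
        3 * (∑ i, TS φ ζ U S (Hr i) w) ^ 2 := i1.add i2
      rw [← integral_const_mul, ← integral_const_mul, ← integral_const_mul,
        ← integral_add i1 i2, ← integral_add i12 i3]
      refine integral_mono (nice_integrable_sq nT) (i12.add i3) ?_
      intro w
      simp only [e2 w]
      nlinarith [sq_nonneg (∑ i, TS φ ζ U S (Hk i) w - ∑ i, TS φ ζ U S (Hr i) w),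
        sq_nonneg (∑ i, TS φ ζ U S (Hk i) w - TS φ ζ U S H0 w),
        sq_nonneg (∑ i, TS φ ζ U S (Hr i) w - TS φ ζ U S H0 w)]
    have b2 : ∫ w, (∑ i, TS φ ζ U S (Hk i) w) ^ 2 ≤ κ * ∫ z, (h z) ^ 2 := by
      refine sum_sq_weight Finset.univ a (fun i _ => ha i) has _
        (fun i _ => TS_nice P hU.1 hW S (hkn i)) _ (mul_nonneg hκ (int_nonneg_sq h)) ?_
      intro i _
      refine (hkb i).trans (le_of_eq ?_); ring
    have b3 : ∫ w, (∑ i, TS φ ζ U S (Hr i) w) ^ 2 ≤ A * δ * ∫ z, (h z) ^ 2 := by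
      refine sum_sq_weight Finset.univ a (fun i _ => ha i) has _
        (fun i _ => TS_nice P hU.1 hW S (hrn' i)) _
        (mul_nonneg (mul_nonneg hA0 hδ0) (int_nonneg_sq h)) ?_
      intro i _
      refine (hA (hr i) (Hr i) (hrn i) (hr0 i) (hrC i)).trans ?_
      refine (mul_le_mul_of_nonneg_left (hrb i) hA0).trans (le_of_eq ?_)
      ring
    have b4 : ∫ w, (TS φ ζ U S H0 w) ^ 2 ≤ A * ε :=
      (hA h0 H0 h0n h00 h0C).trans (mul_le_mul_of_nonneg_left h0b hA0)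
    have b5 : 3 * (A * δ * ∫ z, (h z) ^ 2) ≤ A / 2 * ∫ z, (h z) ^ 2 := by
      have := int_nonneg_sq h
      have h6 : 3 * δ * (A * ∫ z, (h z) ^ 2) ≤ 1 / 2 * (A * ∫ z, (h z) ^ 2) :=
        mul_le_mul_of_nonneg_right hδ1 (mul_nonneg hA0 this)
      nlinarith
    nlinarith
  refine le_of_forall_pos_le_add fun η hη => ?_
  have h1 := key (η / (3 * A + 1)) (by positivity)
  refine h1.trans ?_
  have h2 : 3 * A * (η / (3 * A + 1)) ≤ η := by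
    rw [mul_div_assoc', div_le_iff₀ (by positivity)]
    nlinarith
  linarith

theorem boot {φ ζ : ℝ → ℝ} {U : ℝ × ℝ → ℝ} {S : ℕ} {C0 A0 : ℝ} (hC0 : 0 ≤ C0) (hA0 : 0 ≤ A0)
    (h0 : NN φ ζ U S A0)
    (hs : ∀ A : ℝ, 0 ≤ A → NN φ ζ U S A → NN φ ζ U S (C0 + A / 2)) : NN φ ζ U S (2 * C0) := by
  have h1 : ∀ n : ℕ, NN φ ζ U S (2 * C0 + A0 / 2 ^ n) := by
    intro n
    induction n with
    | zero =>
      intro h H hh h' hC
      refine (h0 h H hh h' hC).trans ?_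
      refine mul_le_mul_of_nonneg_right ?_ (int_nonneg_sq h)
      simp; linarith
    | succ n ih =>
      intro h H hh h' hC
      have h2 := hs _ (by positivity) ih h H hh h' hC
      refine h2.trans (le_of_eq ?_)
      congr 1
      rw [pow_succ]; field_simp; ring
  intro h H hh h' hC
  have h2 : Filter.Tendsto (fun n : ℕ => (2 * C0 + A0 / 2 ^ n) * ∫ z, (h z) ^ 2) Filter.atTop
      (nhds ((2 * C0 + 0) * ∫ z, (h z) ^ 2)) := by
    refine Filter.Tendsto.mul_const _ (Filter.Tendsto.const_add _ ?_)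
    exact tendsto_const_nhds.div_atTop (tendsto_pow_atTop_atTop_of_one_lt (by norm_num))
  rw [add_zero] at h2
  exact ge_of_tendsto h2 (Filter.Eventually.of_forall fun n => h1 n h H hh h' hC)

/-! ### from `NN` to the target -/

theorem tst_eq {φ ζ : ℝ → ℝ} {Cp Cz : ℝ} (P : PZ φ ζ Cp Cz) {U : ℝ × ℝ → ℝ} (hU : Measurable U)
    (S : ℕ) {h : ℝ × ℝ → ℝ} (hh : Nice h) (w : ℝ × ℝ) :
    Tst φ ζ S U h w = TS φ ζ U S (fun _ => h) w := by
  unfold Tst TS T1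
  rw [← integral_finsetSum _ fun s _ => kk_int P hU s hh w]
  refine integral_congr_ae (Filter.Eventually.of_forall fun z => ?_)
  simp only [gk, kk, ln, ix, Finset.sum_mul]

theorem of_nn {φ ζ : ℝ → ℝ} {Cp Cz : ℝ} (P : PZ φ ζ Cp Cz) {U : ℝ × ℝ → ℝ} {c : ℝ} (hU : Fld c U)
    {S : ℕ} {A : ℝ} (hA : NN φ ζ U S A) {h : ℝ × ℝ → ℝ} (hh : Nice h) :
    ∫ w, (Tst φ ζ S U h w) ^ 2 ≤ 2 * A * ∫ z, (h z) ^ 2 := by
  obtain ⟨W, hW⟩ := hU.2.1
  set hp : ℝ × ℝ → ℝ := fun z => max (h z) 0 with hhp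
  set hm : ℝ × ℝ → ℝ := fun z => max (-h z) 0 with hhm
  have np : Nice hp := nice_of_le hh (hh.1.max measurable_const) fun z => by
    rw [hhp]; simp only
    rw [abs_of_nonneg (le_max_right _ _)]
    exact max_le (le_abs_self _) (abs_nonneg _)
  have nm : Nice hm := nice_of_le hh (hh.1.neg.max measurable_const) fun z => by
    rw [hhm]; simp only
    rw [abs_of_nonneg (le_max_right _ _)]
    exact max_le (neg_le_abs _) (abs_nonneg _)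
  have hdec : ∀ z, h z = hp z + (-1) * hm z := by
    intro z
    rw [hhp, hhm]; simp only
    rcases le_total 0 (h z) with h1 | h1
    · rw [max_eq_left h1, max_eq_right (by linarith)]; ring
    · rw [max_eq_right h1, max_eq_left (by linarith)]; ring
  have hsq : ∀ z, (hp z) ^ 2 + (hm z) ^ 2 = (h z) ^ 2 := by
    intro z
    rw [hhp, hhm]; simp only
    rcases le_total 0 (h z) with h1 | h1
    · rw [max_eq_left h1, max_eq_right (by linarith)]; ring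
    · rw [max_eq_right h1, max_eq_left (by linarith)]; ring
  have hch : ∀ g : ℝ × ℝ → ℝ, Ch g (fun s z => if s < S then g z else 0) := by
    intro g
    refine ⟨fun _ => 0, fun _ => S, measurable_const, measurable_const, fun s z => ?_⟩
    by_cases hs : s < S
    · simp [hs]
    · simp [hs]
  have hts : ∀ g : ℝ × ℝ → ℝ, TS φ ζ U S (fun s z => if s < S then g z else 0) =
      TS φ ζ U S (fun _ => g) := fun g => TS_congr S fun s hs z => by simp [hs]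
  have e1 : ∀ w, Tst φ ζ S U h w = TS φ ζ U S (fun _ => hp) w - TS φ ζ U S (fun _ => hm) w := by
    intro w
    rw [tst_eq P hU.1 S hh w]
    have e2 : TS φ ζ U S (fun _ => h) = TS φ ζ U S (fun _ z => hp z + (-1) * hm z) :=
      TS_congr S fun s _ z => hdec z
    rw [e2, TS_add P hU.1 S (H := fun _ => hp) (G := fun _ z => (-1) * hm z)
      (fun _ _ => np) (fun _ _ => nice_smul _ nm) w]
    have e3 : TS φ ζ U S (fun _ z => (-1) * hm z) w = - TS φ ζ U S (fun _ => hm) w := by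
      unfold TS
      rw [← Finset.sum_neg_distrib]
      refine Finset.sum_congr rfl fun s _ => ?_
      rw [T1_smul]; ring
    rw [e3]; ring
  have n1 : Nice (TS φ ζ U S (fun _ => hp)) := TS_nice P hU.1 hW S fun _ _ => np
  have n2 : Nice (TS φ ζ U S (fun _ => hm)) := TS_nice P hU.1 hW S fun _ _ => nm
  have b1 : ∫ w, (TS φ ζ U S (fun _ => hp) w) ^ 2 ≤ A * ∫ z, (hp z) ^ 2 := by
    rw [← hts hp]
    exact hA hp _ np (fun z => le_max_right _ _) (hch hp)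
  have b2 : ∫ w, (TS φ ζ U S (fun _ => hm) w) ^ 2 ≤ A * ∫ z, (hm z) ^ 2 := by
    rw [← hts hm]
    exact hA hm _ nm (fun z => le_max_right _ _) (hch hm)
  have b3 : ∫ w, (Tst φ ζ S U h w) ^ 2 ≤ 2 * (∫ w, (TS φ ζ U S (fun _ => hp) w) ^ 2) +
      2 * (∫ w, (TS φ ζ U S (fun _ => hm) w) ^ 2) := by
    rw [← integral_const_mul, ← integral_const_mul,
      ← integral_add ((nice_integrable_sq n1).const_mul _) ((nice_integrable_sq n2).const_mul _)]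
    have hint : Integrable fun w => (Tst φ ζ S U h w) ^ 2 := by
      have : (fun w => (Tst φ ζ S U h w) ^ 2) = fun w => (TS φ ζ U S (fun _ => h) w) ^ 2 := by
        ext w; rw [tst_eq P hU.1 S hh w]
      rw [this]
      exact nice_integrable_sq (TS_nice P hU.1 hW S fun _ _ => hh)
    refine integral_mono hint (((nice_integrable_sq n1).const_mul _).add
      ((nice_integrable_sq n2).const_mul _)) fun w => ?_
    simp only [e1 w]
    nlinarith [sq_nonneg (TS φ ζ U S (fun _ => hp) w + TS φ ζ U S (fun _ => hm) w)]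
  have b4 : (∫ z, (hp z) ^ 2) + (∫ z, (hm z) ^ 2) = ∫ z, (h z) ^ 2 := by
    rw [← integral_add (nice_integrable_sq np) (nice_integrable_sq nm)]
    exact integral_congr_ae (Filter.Eventually.of_forall hsq)
  calc ∫ w, (Tst φ ζ S U h w) ^ 2 ≤ 2 * (A * ∫ z, (hp z) ^ 2) + 2 * (A * ∫ z, (hm z) ^ 2) := by
        linarith
    _ = 2 * A * ((∫ z, (hp z) ^ 2) + (∫ z, (hm z) ^ 2)) := by ring
    _ = _ := by rw [b4]

theorem fld_mono {c c' : ℝ} (h : c ≤ c') {U : ℝ × ℝ → ℝ} (hU : Fld c U) : Fld c' U :=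
  ⟨hU.1, hU.2.1, fun x y y' => (hU.2.2 x y y').trans (mul_le_mul_of_nonneg_right h (abs_nonneg _))⟩

/-- **outer assembly of the operator part** -/
theorem gdn_of_dec {ζ : ℝ → ℝ} (hζ : ZetC ζ) {N M : ℕ} (hNM : N ≤ M) (hD : DEC ζ N M) :
    GDN ζ N M := by
  rw [gdn_iff]
  obtain ⟨Cz, hPZ⟩ := pz_of hζ hNM
  obtain ⟨c, hc, hB⟩ := hD
  obtain ⟨κ, hκ, hfin⟩ := hB (1 / 6) (by norm_num)
  refine ⟨min c (1 / 2), by positivity, 2 * (2 * (3 * κ)), ?_⟩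
  intro φ hφ U h hU hh S
  have P := hPZ φ hφ
  have hUc : Fld c U := fld_mono (min_le_left _ _) hU
  have hNN : NN φ ζ U S (2 * (3 * κ)) := by
    refine boot (A0 := (S : ℝ) * S * CT 1 Cz) (by positivity) ?_
      (apriori P (min_le_right c (1 / 2)) hU S) ?_
    · unfold CT; positivity
    · intro A hA0 hA
      exact step P hUc S hκ (by norm_num : (0 : ℝ) ≤ 1 / 6) (by norm_num)
        (fun h H h1 h2 h3 ε hε => hfin φ hφ U hUc S h H h1 h2 h3 ε hε) hA0 hA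
  exact of_nn P hUc hNN hh

/-! ### calculus of decompositions -/

theorem DecN.mono {φ ζ : ℝ → ℝ} {U : ℝ × ℝ → ℝ} {S : ℕ} {h h' : ℝ × ℝ → ℝ}
    {H : ℕ → ℝ × ℝ → ℝ} {κ δ κ' δ' : ℝ} (hd : DecN φ ζ U S h H κ δ) (h1 : κ ≤ κ') (h2 : δ ≤ δ')
    (h3 : 0 ≤ κ) (h4 : 0 ≤ δ) (h5 : ∫ z, (h z) ^ 2 ≤ ∫ z, (h' z) ^ 2) :
    DecN φ ζ U S h' H κ' δ' := by
  obtain ⟨ι, _, a, Hk, Hr, hr, ha, has, hkn, hkb, hrn, hr0, hrC, hrb, hsum⟩ := hd
  refine ⟨ι, _, a, Hk, Hr, hr, ha, has, hkn, fun i => (hkb i).trans ?_, hrn, hr0, hrC,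
    fun i => (hrb i).trans ?_, hsum⟩
  · have := int_nonneg_sq h
    have h6 : 0 ≤ κ' * a i ^ 2 := mul_nonneg (h3.trans h1) (sq_nonneg _)
    exact mul_le_mul (mul_le_mul_of_nonneg_right h1 (sq_nonneg _)) h5 this h6
  · have := int_nonneg_sq h
    have h6 : 0 ≤ δ' * a i ^ 2 := mul_nonneg (h4.trans h2) (sq_nonneg _)
    exact mul_le_mul (mul_le_mul_of_nonneg_right h2 (sq_nonneg _)) h5 this h6

/-- one kept piece and one removed piece -/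
theorem DecN.single {φ ζ : ℝ → ℝ} {U : ℝ × ℝ → ℝ} {S : ℕ} {h hr : ℝ × ℝ → ℝ}
    {H Hk Hr : ℕ → ℝ × ℝ → ℝ} {κ δ : ℝ} (h1 : ∀ s < S, Nice (Hk s))
    (h2 : ∫ w, (TS φ ζ U S Hk w) ^ 2 ≤ κ * ∫ z, (h z) ^ 2)
    (h3 : Nice hr) (h4 : ∀ z, 0 ≤ hr z) (h5 : Ch hr Hr) (h6 : ∫ z, (hr z) ^ 2 ≤ δ * ∫ z, (h z) ^ 2)
    (h7 : ∀ s < S, ∀ z, H s z = Hk s z + Hr s z) : DecN φ ζ U S h H κ δ := by
  refine ⟨Unit, inferInstance, fun _ => 1, fun _ => Hk, fun _ => Hr, fun _ => hr, ?_, ?_, ?_, ?_,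
    ?_, ?_, ?_, ?_, ?_⟩
  · intro _; norm_num
  · simp
  · intro _; exact h1
  · intro _; simpa using h2
  · intro _; exact h3
  · intro _; exact h4
  · intro _; exact h5
  · intro _; simpa using h6
  · intro s hs z; simpa using h7 s hs z

/-- finite sums -/
theorem DecN.sum {φ ζ : ℝ → ℝ} {U : ℝ × ℝ → ℝ} {S : ℕ} {h : ℝ × ℝ → ℝ} {J : Type} [Fintype J]
    {H : ℕ → ℝ × ℝ → ℝ} (G : J → ℕ → ℝ × ℝ → ℝ) {κ δ : ℝ} (b : J → ℝ) (hb : ∀ j, 0 < b j)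
    (hbs : ∑ j, b j ≤ 1) (hG : ∀ j, DecN φ ζ U S h (G j) (κ * b j ^ 2) (δ * b j ^ 2))
    (hH : ∀ s < S, ∀ z, H s z = ∑ j, G j s z) : DecN φ ζ U S h H κ δ := by
  choose ι fi a Hk Hr hr ha has hkn hkb hrn hr0 hrC hrb hsum using hG
  refine ⟨Σ j, ι j, inferInstance, fun p => b p.1 * a p.1 p.2, fun p => Hk p.1 p.2,
    fun p => Hr p.1 p.2, fun p => hr p.1 p.2, ?_, ?_, ?_, ?_, ?_, ?_, ?_, ?_, ?_⟩
  · intro p; exact mul_pos (hb _) (ha _ _)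
  · rw [Fintype.sum_sigma]
    calc ∑ j, ∑ i, b j * a j i = ∑ j, b j * ∑ i, a j i := by simp only [Finset.mul_sum]
      _ ≤ ∑ j, b j * 1 := Finset.sum_le_sum fun j _ => mul_le_mul_of_nonneg_left (has j) (hb j).le
      _ ≤ 1 := by simpa using hbs
  · intro p; exact hkn _ _
  · intro p; refine (hkb p.1 p.2).trans (le_of_eq ?_); ring
  · intro p; exact hrn _ _
  · intro p; exact hr0 _ _
  · intro p; exact hrC _ _
  · intro p; refine (hrb p.1 p.2).trans (le_of_eq ?_); ring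
  · intro s hs z
    rw [hH s hs z, Fintype.sum_sigma]
    exact Finset.sum_congr rfl fun j _ => hsum j s hs z

/-- the zero family -/
theorem DecN.zero {φ ζ : ℝ → ℝ} {U : ℝ × ℝ → ℝ} {S : ℕ} {h : ℝ × ℝ → ℝ}
    {H : ℕ → ℝ × ℝ → ℝ} {κ δ : ℝ} (hH : ∀ s < S, ∀ z, H s z = 0) : DecN φ ζ U S h H κ δ := by
  refine ⟨Empty, inferInstance, fun _ => 1, fun _ _ _ => 0, fun _ _ _ => 0, fun _ _ => 0,
    fun i => i.elim, by simp, fun i => i.elim, fun i => i.elim, fun i => i.elim,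
    fun i => i.elim, fun i => i.elim, fun i => i.elim, ?_⟩
  intro s hs z
  rw [hH s hs z]; simp

end Crest.Agent.R087.OPasmx799
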