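import Crest.Agent.R087.OP0_270
import Crest.Agent.R087.OPasm_799

/-!
Row 87 (S0115), operator part (helper799): classes + one class bound ⟹ `DEC` ⟹ `GDN`.

`ONEC ζ N M` : the bound for one density class `n` (chain `[lo z, hi z)` inside the class), in the form
of a decomposition into kept and removed pieces with geometric decay in `n`.
-/

set_option autoImplicit false

noncomputable section

open MeasureTheory Crest.Agent.R087.Sh0x283 Crest.Agent.R087.GateDefx273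
open Crest.Agent.R087.OPdefx799 Crest.Agent.R087.OPkerx799 Crest.Agent.R087.TBx820
open Crest.Agent.R087.OPasmx799 Crest.Agent.R087.OP0x270
open scoped ENNReal

namespace Crest.Agent.R087.OPclsx799

/-- the weights of a chain -/
def chw (h : ℝ × ℝ → ℝ) (lo hi : ℝ × ℝ → ℕ) (s : ℕ) (z : ℝ × ℝ) : ℝ :=
  if lo z ≤ s ∧ s < hi z then h z else 0

/-- **ONE CLASS** (target of 772's assembly) -/
def ONEC (ζ : ℝ → ℝ) (N M : ℕ) : Prop :=
  ∃ c : ℝ, 0 < c ∧ ∃ ρ : ℝ, 0 < ρ ∧ ρ < 1 ∧ ∀ δ : ℝ, 0 < δ → ∃ κ : ℝ, 0 ≤ κ ∧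
    ∀ φ : ℝ → ℝ, Prof N M φ → ∀ U : ℝ × ℝ → ℝ, Fld c U →
    ∀ (S : ℕ) (h : ℝ × ℝ → ℝ) (n : ℕ) (lo hi : ℝ × ℝ → ℕ),
      Nice h → (∀ z, 0 ≤ h z) → Gap h → Chain S lo hi → UppAt U h AA n lo hi → LowAt U h AA n lo hi →
      DecN φ ζ U S h (chw h lo hi) (κ * ρ ^ n) (δ * ρ ^ n)

theorem geo_le {r : ℝ} (h0 : 0 ≤ r) (n : ℕ) :
    ∑ j : Fin n, (1 - r) * r ^ (j : ℕ) ≤ 1 := by
  rw [Fin.sum_univ_eq_sum_range (fun j => (1 - r) * r ^ j) n, ← Finset.mul_sum]
  have h2 : (1 - r) * ∑ j ∈ Finset.range n, r ^ j = 1 - r ^ n := by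
    have := mul_neg_geom_sum r n
    exact this
  rw [h2]
  have := pow_nonneg h0 n
  linarith

/-- classes + one class ⟹ DEC -/
theorem dec_of_onec {ζ : ℝ → ℝ} {N M : ℕ} (hcls : CLS) (hone : ONEC ζ N M) : DEC ζ N M := by
  obtain ⟨c, hc, ρ, hρ0, hρ1, hone⟩ := hone
  refine ⟨c, hc, ?_⟩
  set r : ℝ := Real.sqrt ρ with hr
  have hr0 : 0 < r := Real.sqrt_pos.2 hρ0
  have hr1 : r < 1 := by
    rw [hr, Real.sqrt_lt' one_pos]; simpa using hρ1
  have hr2 : r ^ 2 = ρ := Real.sq_sqrt hρ0.le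
  have hr3 : 0 < 1 - r := by linarith
  intro δ hδ
  obtain ⟨κ, hκ, hK⟩ := hone (δ * (1 - r) ^ 2) (by positivity)
  refine ⟨κ / (1 - r) ^ 2, by positivity, ?_⟩
  intro φ hφ U hU S h H hh h0 hCh ε hε
  -- small values
  obtain ⟨hm, ⟨Mb, hMb⟩, R, hR⟩ := id hh
  set V : ℝ := (volume (Metric.closedBall (0 : ℝ × ℝ) R)).toReal with hV
  have hV0 : 0 ≤ V := ENNReal.toReal_nonneg
  obtain ⟨η, hη0, hη⟩ : ∃ η : ℝ, 0 < η ∧ η ^ 2 * V ≤ ε / 2 := by
    refine ⟨min 1 (ε / 2 / (V + 1)), by positivity, ?_⟩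
    set η : ℝ := min 1 (ε / 2 / (V + 1)) with hηd
    have a1 : 0 < η := by positivity
    have a2 : η ≤ 1 := min_le_left _ _
    have a3 : η ≤ ε / 2 / (V + 1) := min_le_right _ _
    calc η ^ 2 * V ≤ η * (V + 1) := by
            have a4 : η * V ≤ 1 * V := mul_le_mul_of_nonneg_right a2 hV0
            have a5 : η * (η * V) ≤ η * (1 * V) := mul_le_mul_of_nonneg_left a4 a1.le
            nlinarith
      _ ≤ ε / 2 / (V + 1) * (V + 1) := by gcongr
      _ = ε / 2 := by field_simp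
  set h1 : ℝ × ℝ → ℝ := fun z => if η ≤ h z then h z else 0 with hh1
  have h1le : ∀ z, |h1 z| ≤ |h z| := by
    intro z; rw [hh1]; simp only
    split_ifs
    · exact le_rfl
    · simp
  have h1m : Measurable h1 := Measurable.ite (measurableSet_le measurable_const hm) hm
    measurable_const
  have h1n : Nice h1 := nice_of_le hh h1m h1le
  have h10 : ∀ z, 0 ≤ h1 z := by
    intro z; rw [hh1]; simp only
    split_ifs
    · exact h0 z
    · exact le_rfl
  have h1g : Gap h1 := by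
    refine ⟨η, hη0, fun z => ?_⟩
    rw [hh1]; simp only
    split_ifs with h2
    · right; rw [abs_of_nonneg (h0 z)]; exact h2
    · left; rfl
  obtain ⟨lo, hi, hlo, hhi, hHeq⟩ := hCh
  set hi' : ℝ × ℝ → ℕ := fun z => min (hi z) S with hhi'
  have hch1 : Chain S lo hi' := ⟨hlo, hhi.min measurable_const, fun z => min_le_right _ _⟩
  obtain ⟨n0, lc, hcc, Q, hQm, hcl, hQs, hid⟩ := hcls AA (by unfold AA; norm_num) U h1 S lo hi'
    hU.1 h1n hch1 (ε / 2) (by linarith)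
  classical
  -- the remainder
  set Bad : Set (ℝ × ℝ) := {z | h z < η} ∪ Q with hBad
  have hBm : MeasurableSet Bad := (measurableSet_lt hm measurable_const).union hQm
  set hrem : ℝ × ℝ → ℝ := Bad.indicator h with hhrem
  have hremn : Nice hrem := nice_of_le hh (hm.indicator hBm) fun z => by
    rw [hhrem]
    by_cases hz : z ∈ Bad
    · rw [Set.indicator_of_mem hz]
    · rw [Set.indicator_of_notMem hz]; simp
  have hremi : ∫ z, (hrem z) ^ 2 ≤ ε := by
    have e1 : ∀ z, (hrem z) ^ 2 ≤ (Metric.closedBall (0 : ℝ × ℝ) R).indicator (fun _ => η ^ 2) z +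
        Q.indicator (fun z => (h1 z) ^ 2) z := by
      intro z
      by_cases hz : z ∈ Bad
      · rw [hhrem, Set.indicator_of_mem hz]
        by_cases hz2 : h z < η
        · by_cases hz3 : z ∈ Metric.closedBall (0 : ℝ × ℝ) R
          · rw [Set.indicator_of_mem hz3]
            have : 0 ≤ Q.indicator (fun z => (h1 z) ^ 2) z :=
              Set.indicator_nonneg (fun _ _ => sq_nonneg _) _
            have h2 : (h z) ^ 2 ≤ η ^ 2 := pow_le_pow_left₀ (h0 z) hz2.le 2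
            linarith
          · have h3 : h z = 0 := hR z (by simpa using hz3)
            rw [h3]
            have : 0 ≤ Q.indicator (fun z => (h1 z) ^ 2) z :=
              Set.indicator_nonneg (fun _ _ => sq_nonneg _) _
            have h4 : 0 ≤ (Metric.closedBall (0 : ℝ × ℝ) R).indicator (fun _ => η ^ 2) z :=
              Set.indicator_nonneg (fun _ _ => sq_nonneg _) _
            nlinarith
        · have hz4 : z ∈ Q := by
            rcases hz with h5 | h5
            · exact absurd h5 hz2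
            · exact h5
          rw [Set.indicator_of_mem hz4]
          have h6 : h1 z = h z := by
            rw [hh1]; simp only; rw [if_pos (not_lt.1 hz2)]
          rw [h6]
          have h4 : 0 ≤ (Metric.closedBall (0 : ℝ × ℝ) R).indicator (fun _ => η ^ 2) z :=
            Set.indicator_nonneg (fun _ _ => sq_nonneg _) _
          linarith
      · rw [hhrem, Set.indicator_of_notMem hz]
        have : 0 ≤ Q.indicator (fun z => (h1 z) ^ 2) z :=
          Set.indicator_nonneg (fun _ _ => sq_nonneg _) _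
        have h4 : 0 ≤ (Metric.closedBall (0 : ℝ × ℝ) R).indicator (fun _ => η ^ 2) z :=
          Set.indicator_nonneg (fun _ _ => sq_nonneg _) _
        nlinarith
    have i1 : Integrable ((Metric.closedBall (0 : ℝ × ℝ) R).indicator (fun _ => η ^ 2)) :=
      (integrable_indicator_iff measurableSet_closedBall).2
        (integrableOn_const (measure_closedBall_lt_top).ne)
    have i2 : Integrable (Q.indicator (fun z => (h1 z) ^ 2)) :=
      (nice_integrable_sq h1n).indicator hQm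
    calc ∫ z, (hrem z) ^ 2 ≤ ∫ z, ((Metric.closedBall (0 : ℝ × ℝ) R).indicator (fun _ => η ^ 2) z +
        Q.indicator (fun z => (h1 z) ^ 2) z) :=
          integral_mono (nice_integrable_sq hremn) (i1.add i2) e1
      _ = (∫ z, (Metric.closedBall (0 : ℝ × ℝ) R).indicator (fun _ => η ^ 2) z) +
          ∫ z, Q.indicator (fun z => (h1 z) ^ 2) z := integral_add i1 i2
      _ = η ^ 2 * V + ∫ z in Q, (h1 z) ^ 2 := by
          rw [integral_indicator measurableSet_closedBall, integral_indicator hQm,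
            setIntegral_const, smul_eq_mul, mul_comm]
          rfl
      _ ≤ ε / 2 + ε / 2 := add_le_add hη hQs
      _ = ε := by ring
  -- class chains, empty on Q
  set hc2 : ℕ → ℝ × ℝ → ℕ := fun n z => if z ∈ Q then 0 else hcc n z with hhc2
  have hc2lt : ∀ n z, lc n z < hc2 n z → z ∉ Q ∧ hc2 n z = hcc n z := by
    intro n z hz
    rw [hhc2] at hz ⊢
    simp only at hz ⊢
    by_cases hq : z ∈ Q
    · rw [if_pos hq] at hz; omega
    · exact ⟨hq, if_neg hq⟩
  have hchn : ∀ n, Chain S (lc n) (hc2 n) := by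
    intro n
    obtain ⟨⟨g1, g2, g3⟩, -, -⟩ := hcl n
    refine ⟨g1, Measurable.ite hQm measurable_const g2, ?_⟩
    intro z
    rw [hhc2]; simp only
    split_ifs with hz
    · exact Nat.zero_le _
    · exact g3 z
  have hupp : ∀ n, UppAt U h1 AA n (lc n) (hc2 n) := by
    intro n z hz hlt k hk
    obtain ⟨hq, heq⟩ := hc2lt n z hlt
    rw [heq]
    rw [heq] at hlt
    exact (hcl n).2.1 z hz hlt k hk
  have hlow : ∀ n, LowAt U h1 AA n (lc n) (hc2 n) := by
    intro n z hz hlt k hk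
    obtain ⟨hq, heq⟩ := hc2lt n z hlt
    rw [heq] at hlt
    exact (hcl n).2.2 z hz hlt k hk
  refine ⟨fun s z => ∑ n : Fin n0, chw h1 (lc n) (hc2 n) s z, hrem,
    fun s z => if lo z ≤ s ∧ s < hi z then hrem z else 0, ?_, hremn, ?_,
    ⟨lo, hi, hlo, hhi, fun s z => rfl⟩, hremi, ?_⟩
  · refine DecN.sum (J := Fin n0) (fun n => chw h1 (lc n) (hc2 n))
      (fun n => (1 - r) * r ^ (n : ℕ)) (fun n => by positivity) (geo_le hr0.le n0) ?_
      (fun s _ z => rfl)
    intro n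
    have e3 := hK φ hφ U hU S h1 n (lc n) (hc2 n) h1n h10 h1g (hchn n) (hupp n) (hlow n)
    have e4 : ∫ z, (h1 z) ^ 2 ≤ ∫ z, (h z) ^ 2 :=
      integral_mono (nice_integrable_sq h1n) (nice_integrable_sq hh) fun z => sq_le_sq.2 (h1le z)
    have e5 : ρ ^ (n : ℕ) = (r ^ (n : ℕ)) ^ 2 := by
      rw [← hr2, ← pow_mul, ← pow_mul, mul_comm]
    refine e3.mono (le_of_eq ?_) (le_of_eq ?_) (by positivity) (by positivity) e4
    · rw [e5]; field_simp
    · rw [e5]; ring
  · intro z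
    rw [hhrem]
    exact Set.indicator_nonneg (fun z _ => h0 z) z
  · intro s hs z
    rw [hHeq s z]
    show (if lo z ≤ s ∧ s < hi z then h z else 0) =
      (∑ n : Fin n0, chw h1 (lc n) (hc2 n) s z) + (if lo z ≤ s ∧ s < hi z then hrem z else 0)
    by_cases hb : z ∈ Bad
    · have e1 : hrem z = h z := by rw [hhrem, Set.indicator_of_mem hb]
      have e2 : ∀ n : Fin n0, chw h1 (lc n) (hc2 n) s z = 0 := by
        intro n
        unfold chw
        rcases hb with h5 | h5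
        · have : h1 z = 0 := by
            rw [hh1]; simp only; rw [if_neg (not_le.2 h5)]
          rw [this]; simp
        · rw [if_neg]
          rintro ⟨h6, h7⟩
          exact (hc2lt n z (lt_of_le_of_lt h6 h7)).1 h5
      simp only [e1, e2]
      simp
    · have e1 : hrem z = 0 := by rw [hhrem, Set.indicator_of_notMem hb]
      have hz1 : η ≤ h z := by
        by_contra h5; exact hb (Or.inl (not_le.1 h5))
      have hz2 : z ∉ Q := fun h5 => hb (Or.inr h5)
      have e2 : h1 z = h z := by rw [hh1]; simp only; rw [if_pos hz1]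
      have e3 : h1 z ≠ 0 := by rw [e2]; exact (hη0.trans_le hz1).ne'
      have e4 := hid z e3 hz2 (fun t => if t = s then (1 : ℝ) else 0)
      simp only [Finset.sum_ite_eq', Finset.mem_Ico] at e4
      rw [e1]
      have e5 : (if lo z ≤ s ∧ s < hi z then (0 : ℝ) else 0) = 0 := by simp
      rw [e5, add_zero]
      have e6 : ∀ n : Fin n0, chw h1 (lc n) (hc2 n) s z =
          h z * (if lc n z ≤ s ∧ s < hcc n z then (1 : ℝ) else 0) := by
        intro n
        unfold chw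
        have : hc2 n z = hcc n z := by rw [hhc2]; simp only; rw [if_neg hz2]
        rw [this, e2]
        split_ifs <;> simp
      rw [Finset.sum_congr rfl fun n _ => e6 n, ← Finset.mul_sum,
        Fin.sum_univ_eq_sum_range (fun n => if lc n z ≤ s ∧ s < hcc n z then (1 : ℝ) else 0) n0,
        ← e4]
      have e7 : (lo z ≤ s ∧ s < hi' z) ↔ (lo z ≤ s ∧ s < hi z) := by
        rw [hhi']; simp only [lt_min_iff]; tauto
      rw [if_congr e7 rfl rfl]
      split_ifs <;> simp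

/-- classes + one class bound ⟹ target -/
theorem gdn_of_onec {ζ : ℝ → ℝ} (hζ : ZetC ζ) {N M : ℕ} (hNM : N ≤ M) (hcls : CLS)
    (hone : ONEC ζ N M) : GDN ζ N M :=
  gdn_of_dec hζ hNM (dec_of_onec hcls hone)

/-! ### the bridge between `Tc` and `TS` -/

theorem chw_ch {h : ℝ × ℝ → ℝ} {S : ℕ} {lo hi : ℝ × ℝ → ℕ} (hc : Chain S lo hi) :
    Ch h (chw h lo hi) := ⟨lo, hi, hc.1, hc.2.1, fun _ _ => rfl⟩

theorem tc_eq {φ ζ : ℝ → ℝ} {Cp Cz : ℝ} (P : PZ φ ζ Cp Cz) {U : ℝ × ℝ → ℝ} (hU : Measurable U)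
    {S : ℕ} {lo hi : ℝ × ℝ → ℕ} (hc : Chain S lo hi) {h : ℝ × ℝ → ℝ} (hh : Nice h) :
    Tc φ ζ U lo hi h = TS φ ζ U S (chw h lo hi) := by
  ext w
  unfold Tc TS T1
  rw [← integral_finsetSum _ fun s _ => kk_int P hU s (ch_nice hh (chw_ch hc) s) w]
  refine integral_congr_ae (Filter.Eventually.of_forall fun z => ?_)
  show (∑ s ∈ Finset.Ico (lo z) (hi z), tau φ ζ U s z w) * h z =
    ∑ s ∈ Finset.range S, kk φ ζ U s z w * chw h lo hi s z
  rw [Finset.sum_mul]
  have h1 : ∀ s ∈ Finset.range S, kk φ ζ U s z w * chw h lo hi s z =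
      if s ∈ Finset.Ico (lo z) (hi z) then tau φ ζ U s z w * h z else 0 := by
    intro s _
    unfold chw
    by_cases h2 : lo z ≤ s ∧ s < hi z
    · rw [if_pos h2, if_pos (Finset.mem_Ico.2 h2)]; rfl
    · rw [if_neg h2, if_neg (fun h3 => h2 (Finset.mem_Ico.1 h3)), mul_zero]
  rw [Finset.sum_congr rfl h1, ← Finset.sum_filter]
  refine Finset.sum_congr ?_ fun _ _ => rfl
  ext s
  simp only [Finset.mem_filter, Finset.mem_range, Finset.mem_Ico]
  constructor
  · rintro ⟨h3, h4⟩; exact ⟨h4.trans_le (hc.2.2 z), h3, h4⟩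
  · rintro ⟨-, h3⟩; exact h3

/-- polynomial times decaying exponential is bounded -/
theorem poly_exp (k : ℕ) {r : ℝ} (h0 : 0 < r) (h1 : r < 1) :
    ∃ C : ℝ, 0 < C ∧ ∀ n : ℕ, ((n : ℝ) + 8) ^ k * r ^ n ≤ C := by
  have h2 : Filter.Tendsto (fun n : ℕ => (n : ℝ) ^ k * r ^ n) Filter.atTop (nhds 0) :=
    tendsto_pow_const_mul_const_pow_of_abs_lt_one k (by rw [abs_of_pos h0]; exact h1)
  obtain ⟨C, hC⟩ := h2.bddAbove_range
  have hC' : ∀ n : ℕ, (n : ℝ) ^ k * r ^ n ≤ C := fun n => hC ⟨n, rfl⟩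
  refine ⟨(|C| + 1) / r ^ 8, by positivity, fun n => ?_⟩
  have h3 := hC' (n + 8)
  rw [le_div_iff₀ (by positivity)]
  calc ((n : ℝ) + 8) ^ k * r ^ n * r ^ 8 = ((n + 8 : ℕ) : ℝ) ^ k * r ^ (n + 8) := by
        rw [pow_add]; push_cast; ring
    _ ≤ C := h3
    _ ≤ |C| + 1 := (le_abs_self C).trans (by linarith)

/-- one class in 270's form ⟹ one class in the form of decompositions -/
theorem onec_of_classn {ζ : ℝ → ℝ} (hζ : ZetC ζ) (hcl : CLASSN ζ) :
    ONEC ζ (2 * qq + 2) (2 * qq + 8) := by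
  obtain ⟨Cz, hPZ⟩ := pz_of hζ (show 2 * qq + 2 ≤ 2 * qq + 8 by omega)
  obtain ⟨c, hc, C, hC, hcl⟩ := hcl
  set t : ℝ := (2 : ℝ) ^ (-(1 / 16 : ℝ)) with ht
  have ht0 : 0 < t := by positivity
  have ht1 : t < 1 := by
    rw [ht]; exact Real.rpow_lt_one_of_one_lt_of_neg (by norm_num) (by norm_num)
  obtain ⟨C3, hC30, hC3⟩ := poly_exp 3 ht0 ht1
  refine ⟨c, hc, t, ht0, ht1, ?_⟩
  intro δ hδ
  -- Λ = Λ0 t^-n
  set Λ0 : ℝ := 1 + C * C3 / δ with hΛ0
  have hΛ01 : 1 ≤ Λ0 := by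
    have : 0 ≤ C * C3 / δ := by positivity
    linarith
  refine ⟨C * Λ0 * C3, by positivity, ?_⟩
  rintro φ ⟨ω, hω1, hω2, hω3, rfl⟩ U hU S h n lo hi hh h0 hg hch hup hlow
  have P := hPZ _ ⟨ω, hω1, hω2, hω3, rfl⟩
  set Λ : ℝ := Λ0 * (t ^ n)⁻¹ with hΛ
  have htn : 0 < t ^ n := by positivity
  have htn1 : t ^ n ≤ 1 := pow_le_one₀ ht0.le ht1.le
  have hΛ1 : 1 ≤ Λ := by
    rw [hΛ]
    have : 1 ≤ (t ^ n)⁻¹ := (one_le_inv₀ htn).2 htn1
    nlinarith
  obtain ⟨lc, hcc, h1, h2⟩ := hcl ω ⟨hω1, hω2, hω3⟩ U h n S lo hi Λ hU hh hg hch hup hlow hΛ1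
  have hn8 : (0 : ℝ) < (n : ℝ) + 8 := by positivity
  have hquart : (2 : ℝ) ^ (-(n : ℝ) / 4) = (t ^ n) ^ 4 := by
    rw [ht, ← Real.rpow_natCast, ← Real.rpow_natCast, ← Real.rpow_mul (by positivity),
      ← Real.rpow_mul (by positivity)]
    congr 1
    push_cast
    ring
  have hB : ((n : ℝ) + 8) ^ 3 * t ^ n ≤ C3 := hC3 n
  have hI0 := int_nonneg_sq h
  refine DecN.sum (J := Fin (n + 8)) (fun i => chw h (lc i) (hcc i)) (fun _ => ((n : ℝ) + 8)⁻¹)
    (fun _ => by positivity) ?_ ?_ ?_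
  · rw [Finset.sum_const, Finset.card_univ, Fintype.card_fin, nsmul_eq_mul]
    push_cast
    rw [mul_inv_cancel₀ hn8.ne']
  · intro i
    obtain ⟨hchi, hi', g1, g2, g3, g4⟩ := h1 i
    have hch' : Chain S (lc i) hi' := ⟨hchi.1, g1, fun z => (g2 z).trans (hchi.2.2 z)⟩
    set R : Set (ℝ × ℝ) := {z | lc i z < hcc i z ∧ hi' z < hcc i z} with hR
    have hRm : MeasurableSet R :=
      (measurableSet_lt hchi.1 hchi.2.1).inter (measurableSet_lt g1 hchi.2.1)
    have hrn : Nice (R.indicator h) := nice_of_le hh (hh.1.indicator hRm) fun z => by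
      by_cases hz : z ∈ R
      · rw [Set.indicator_of_mem hz]
      · rw [Set.indicator_of_notMem hz]; simp
    refine DecN.single (Hk := chw h (lc i) hi') (hr := R.indicator h)
      (Hr := chw (R.indicator h) (fun z => max (lc i z) (hi' z)) (hcc i))
      (fun s _ => ch_nice hh (chw_ch hch') s) ?_ hrn
      (fun z => Set.indicator_nonneg (fun z _ => h0 z) z)
      (chw_ch (S := S) ⟨hchi.1.max g1, hchi.2.1, hchi.2.2⟩) ?_ ?_
    · have e1 : Tc (ph ω) ζ U (lc i) hi' h = TS (iteratedDeriv (2 * qq + 2) ω) ζ U S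
          (chw h (lc i) hi') := tc_eq P hU.1 hch' hh
      rw [← e1]
      refine g3.trans ?_
      refine mul_le_mul_of_nonneg_right ?_ hI0
      rw [hquart, hΛ]
      have e2 : ((n : ℝ) + 8) ^ 2 * (t ^ n) ^ 2 ≤ C3 := by
        have e3 : ((n : ℝ) + 8) ^ 2 ≤ ((n : ℝ) + 8) ^ 3 :=
          pow_le_pow_right₀ (by linarith [(Nat.cast_nonneg n : (0 : ℝ) ≤ n)]) (by norm_num)
        have e4 : (t ^ n) ^ 2 ≤ t ^ n := by nlinarith
        calc ((n : ℝ) + 8) ^ 2 * (t ^ n) ^ 2 ≤ ((n : ℝ) + 8) ^ 3 * t ^ n :=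
              mul_le_mul e3 e4 (by positivity) (by positivity)
          _ ≤ C3 := hB
      have e5 : C * (Λ0 * (t ^ n)⁻¹) * (t ^ n) ^ 4 =
          C * Λ0 * t ^ n * ((((n : ℝ) + 8) ^ 2 * (t ^ n) ^ 2) * (((n : ℝ) + 8)⁻¹) ^ 2) := by
        field_simp
      rw [e5]
      calc C * Λ0 * t ^ n * ((((n : ℝ) + 8) ^ 2 * (t ^ n) ^ 2) * (((n : ℝ) + 8)⁻¹) ^ 2)
          ≤ C * Λ0 * t ^ n * (C3 * (((n : ℝ) + 8)⁻¹) ^ 2) := by gcongr
        _ = _ := by ring
    · have e1 : ∫ z, (R.indicator h z) ^ 2 = ∫ z in R, (h z) ^ 2 := by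
        rw [← integral_indicator hRm]
        congr 1
        ext z
        by_cases hz : z ∈ R
        · rw [Set.indicator_of_mem hz, Set.indicator_of_mem hz]
        · rw [Set.indicator_of_notMem hz, Set.indicator_of_notMem hz]; simp
      rw [e1]
      refine g4.trans ?_
      refine mul_le_mul_of_nonneg_right ?_ hI0
      have e2 : C * ((n : ℝ) + 1) * (1 / Λ) ^ 2 ≤
          C * (((n : ℝ) + 8) ^ 3 * t ^ n) * (t ^ n * (((n : ℝ) + 8)⁻¹) ^ 2) * (1 / Λ0) ^ 2 := by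
        rw [hΛ]
        have e3 : (1 / (Λ0 * (t ^ n)⁻¹)) ^ 2 = (1 / Λ0) ^ 2 * (t ^ n) ^ 2 := by
          field_simp
        rw [e3]
        have e4 : C * (((n : ℝ) + 8) ^ 3 * t ^ n) * (t ^ n * (((n : ℝ) + 8)⁻¹) ^ 2) *
            (1 / Λ0) ^ 2 = C * ((n : ℝ) + 8) * ((1 / Λ0) ^ 2 * (t ^ n) ^ 2) := by
          field_simp
        rw [e4]
        gcongr
        norm_num
      refine e2.trans ?_
      have e5 : C * C3 * (1 / Λ0) ^ 2 ≤ δ := by
        have e6 : C * C3 ≤ δ * Λ0 := by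
          rw [hΛ0]
          have : δ * (1 + C * C3 / δ) = δ + C * C3 := by field_simp
          rw [this]; linarith
        have e7 : C * C3 * (1 / Λ0) ^ 2 ≤ δ * Λ0 * (1 / Λ0) ^ 2 := by gcongr
        refine e7.trans ?_
        have e8 : δ * Λ0 * (1 / Λ0) ^ 2 = δ / Λ0 := by field_simp
        rw [e8]
        exact div_le_self hδ.le hΛ01
      calc C * (((n : ℝ) + 8) ^ 3 * t ^ n) * (t ^ n * (((n : ℝ) + 8)⁻¹) ^ 2) * (1 / Λ0) ^ 2
          ≤ C * C3 * (t ^ n * (((n : ℝ) + 8)⁻¹) ^ 2) * (1 / Λ0) ^ 2 := by gcongr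
        _ = (C * C3 * (1 / Λ0) ^ 2) * (t ^ n * (((n : ℝ) + 8)⁻¹) ^ 2) := by ring
        _ ≤ δ * (t ^ n * (((n : ℝ) + 8)⁻¹) ^ 2) := by gcongr
        _ = _ := by ring
    · intro s hs z
      unfold chw
      by_cases a1 : lc i z ≤ s ∧ s < hcc i z
      · rw [if_pos a1]
        by_cases a2 : s < hi' z
        · rw [if_pos ⟨a1.1, a2⟩, if_neg]
          · ring
          · rintro ⟨a3, -⟩
            exact absurd (lt_of_le_of_lt (le_trans (le_max_right _ _) a3) a2) (lt_irrefl _)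
        · rw [if_neg (fun a3 => a2 a3.2), if_pos ⟨max_le a1.1 (not_lt.1 a2), a1.2⟩]
          have a4 : z ∈ R := ⟨lt_of_le_of_lt a1.1 a1.2, lt_of_le_of_lt (not_lt.1 a2) a1.2⟩
          rw [Set.indicator_of_mem a4]; ring
      · rw [if_neg a1, if_neg, if_neg]
        · ring
        · rintro ⟨a3, a4⟩; exact a1 ⟨(le_max_left _ _).trans a3, a4⟩
        · rintro ⟨a3, a4⟩; exact a1 ⟨a3, a4.trans_le (g2 z)⟩
  · intro s hs z
    by_cases hz : h z = 0
    · have e1 : chw h lo hi s z = 0 := by unfold chw; rw [hz]; simp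
      rw [e1]; symm
      refine Finset.sum_eq_zero fun i _ => ?_
      unfold chw; rw [hz]; simp
    · have e4 := h2 z hz (fun t => if t = s then h z else 0)
      simp only [Finset.sum_ite_eq', Finset.mem_Ico] at e4
      rw [Fin.sum_univ_eq_sum_range (fun i => chw h (lc i) (hcc i) s z) (n + 8)]
      exact e4

/-- **leaf `L_BOOT`** -/
theorem l_boot : L_BOOT := by
  intro ζ hζ hcls hcl
  exact gdn_of_onec hζ (by omega) hcls (onec_of_classn hζ hcl)

end Crest.Agent.R087.OPclsx799
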