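import Crest.Agent.R087.OmegaB_627

/-!
# Row 87, leaf OMEGA, literal form (helper627): `omega : MASSOM → OMEGA`
-/

set_option autoImplicit false

noncomputable section

open MeasureTheory Filter Topology

namespace Crest.Agent.R087.OmegaCx627

open Crest.Agent.R087.Sh0x283 Crest.Agent.R087.E2x542 Crest.Agent.R087.E2Kx752
  Crest.Agent.R087.GateDefx273 Crest.Agent.R087.OP0x270 Crest.Agent.R087.OmegaBx627

/-- infinite sums of nonnegative bounded functions, `L²` bound by Fatou -/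
theorem sum_fun {α : Type*} [MeasurableSpace α] (μ : Measure α) (f : ℕ → α → ℝ) (b v : ℕ → ℝ)
    (M S1 S2 : ℝ) (hb : ∀ i, 0 ≤ b i) (hbs : HasSum b S1) (hvs : HasSum (fun i => b i * v i) S2)
    (hf : ∀ i, Measurable (f i)) (hf0 : ∀ i x, 0 ≤ f i x) (hfM : ∀ i x, f i x ≤ M)
    (hf2 : ∀ i, MemLp (f i) 2 μ) (hv : ∀ i, ∫ x, (f i x) ^ 2 ∂μ ≤ v i) :
    ∃ W : α → ℝ, Measurable W ∧ (∀ x, 0 ≤ W x) ∧ (∀ x, W x ≤ S1 * M) ∧
      (∀ I x, ∑ i ∈ Finset.range I, b i * f i x ≤ W x) ∧
      Integrable (fun x => (W x) ^ 2) μ ∧ ∫ x, (W x) ^ 2 ∂μ ≤ S1 * S2 := by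
  have hsum : ∀ x, Summable fun i => b i * f i x := by
    intro x
    refine Summable.of_nonneg_of_le (fun i => mul_nonneg (hb i) (hf0 i x))
      (fun i => mul_le_mul_of_nonneg_left (hfM i x) (hb i)) (hbs.summable.mul_right M)
  have hS1 : 0 ≤ S1 := hbs.nonneg hb
  have hpart : ∀ I x, 0 ≤ ∑ i ∈ Finset.range I, b i * f i x := fun I x =>
    Finset.sum_nonneg (fun i _ => mul_nonneg (hb i) (hf0 i x))
  have hmeas : ∀ I : ℕ, Measurable fun x => ∑ i ∈ Finset.range I, b i * f i x := by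
    intro I
    apply Finset.measurable_sum
    intro i _
    exact (hf i).const_mul _
  have htend : ∀ x, Tendsto (fun I => ∑ i ∈ Finset.range I, b i * f i x) atTop
      (𝓝 (∑' i, b i * f i x)) := fun x => (hsum x).hasSum.tendsto_sum_nat
  have hWm : Measurable fun x => ∑' i, b i * f i x :=
    measurable_of_tendsto_metrizable hmeas (tendsto_pi_nhds.2 htend)
  have hle : ∀ I x, ∑ i ∈ Finset.range I, b i * f i x ≤ ∑' i, b i * f i x := fun I x =>
    (hsum x).sum_le_tsum _ (fun i _ => mul_nonneg (hb i) (hf0 i x))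
  -- uniform L2 bound
  have hQ : ∀ I : ℕ, ∫⁻ x, ENNReal.ofReal ((∑ i ∈ Finset.range I, b i * f i x) ^ 2) ∂μ ≤
      ENNReal.ofReal (S1 * S2) := by
    intro I
    have hmem : MemLp (fun x => ∑ i ∈ Finset.range I, b i * f i x) 2 μ := by
      apply memLp_finsetSum
      intro i _
      exact (hf2 i).const_mul (b i)
    rw [← ofReal_integral_eq_lintegral_ofReal hmem.integrable_sq
      (Eventually.of_forall (fun x => sq_nonneg _))]
    apply ENNReal.ofReal_le_ofReal
    have hcs : ∀ x, (∑ i ∈ Finset.range I, b i * f i x) ^ 2 ≤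
        (∑ i ∈ Finset.range I, b i) * ∑ i ∈ Finset.range I, b i * (f i x) ^ 2 := by
      intro x
      apply Finset.sum_sq_le_sum_mul_sum_of_sq_le_mul
      · intro i _; exact hb i
      · intro i _; exact mul_nonneg (hb i) (sq_nonneg _)
      · intro i _; exact le_of_eq (by ring)
    have hint : ∀ i ∈ Finset.range I, Integrable (fun x => b i * (f i x) ^ 2) μ := fun i _ =>
      (hf2 i).integrable_sq.const_mul _
    calc ∫ x, (∑ i ∈ Finset.range I, b i * f i x) ^ 2 ∂μ
        ≤ ∫ x, (∑ i ∈ Finset.range I, b i) * ∑ i ∈ Finset.range I, b i * (f i x) ^ 2 ∂μ :=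
          integral_mono_of_nonneg (Eventually.of_forall (fun x => sq_nonneg _))
            ((integrable_finsetSum _ hint).const_mul _) (Eventually.of_forall hcs)
      _ = (∑ i ∈ Finset.range I, b i) * ∑ i ∈ Finset.range I, b i * ∫ x, (f i x) ^ 2 ∂μ := by
          rw [integral_const_mul, integral_finsetSum _ hint]
          congr 1
          exact Finset.sum_congr rfl (fun i _ => integral_const_mul _ _)
      _ ≤ S1 * ∑ i ∈ Finset.range I, b i * v i := by
          apply mul_le_mul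
          · exact sum_le_hasSum _ (fun i _ => hb i) hbs
          · exact Finset.sum_le_sum (fun i _ => mul_le_mul_of_nonneg_left (hv i) (hb i))
          · exact Finset.sum_nonneg (fun i _ => mul_nonneg (hb i)
              (integral_nonneg (fun x => sq_nonneg _)))
          · exact hS1
      _ ≤ S1 * S2 := by
          apply mul_le_mul_of_nonneg_left _ hS1
          apply sum_le_hasSum _ _ hvs
          intro i _
          exact mul_nonneg (hb i) ((integral_nonneg (fun x => sq_nonneg _)).trans (hv i))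
  -- Fatou
  have hfat : ∫⁻ x, ENNReal.ofReal ((∑' i, b i * f i x) ^ 2) ∂μ ≤ ENNReal.ofReal (S1 * S2) := by
    have h1 : ∀ x, liminf (fun I => ENNReal.ofReal ((∑ i ∈ Finset.range I, b i * f i x) ^ 2))
        atTop = ENNReal.ofReal ((∑' i, b i * f i x) ^ 2) := by
      intro x
      apply Tendsto.liminf_eq
      exact (ENNReal.continuous_ofReal.tendsto _).comp ((htend x).pow 2)
    calc ∫⁻ x, ENNReal.ofReal ((∑' i, b i * f i x) ^ 2) ∂μ
        = ∫⁻ x, liminf (fun I => ENNReal.ofReal ((∑ i ∈ Finset.range I, b i * f i x) ^ 2))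
          atTop ∂μ := by simp_rw [h1]
      _ ≤ liminf (fun I => ∫⁻ x, ENNReal.ofReal ((∑ i ∈ Finset.range I, b i * f i x) ^ 2) ∂μ)
          atTop := lintegral_liminf_le (fun I => ((hmeas I).pow_const 2).ennreal_ofReal)
      _ ≤ ENNReal.ofReal (S1 * S2) := by
          apply liminf_le_of_le
          · isBoundedDefault
          · intro c hc
            obtain ⟨I, hI⟩ := hc.exists
            exact hI.trans (hQ I)
  have hW0 : ∀ x, 0 ≤ ∑' i, b i * f i x := fun x =>
    tsum_nonneg (fun i => mul_nonneg (hb i) (hf0 i x))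
  refine ⟨fun x => ∑' i, b i * f i x, hWm, hW0, ?_, hle, ?_, ?_⟩
  · intro x
    have : HasSum (fun i => b i * M) (S1 * M) := hbs.mul_right M
    exact hasSum_le (fun i => mul_le_mul_of_nonneg_left (hfM i x) (hb i)) (hsum x).hasSum this
  · refine ⟨(hWm.pow_const 2).aestronglyMeasurable, ?_⟩
    rw [hasFiniteIntegral_iff_ofReal (Eventually.of_forall (fun x => sq_nonneg _))]
    exact lt_of_le_of_lt hfat ENNReal.ofReal_lt_top
  · rw [integral_eq_lintegral_of_nonneg_ae (Eventually.of_forall (fun x => sq_nonneg _))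
      (hWm.pow_const 2).aestronglyMeasurable]
    apply ENNReal.toReal_le_of_le_ofReal _ hfat
    apply mul_nonneg hS1
    apply hvs.nonneg
    intro i
    exact mul_nonneg (hb i) ((integral_nonneg (fun x => sq_nonneg _)).trans (hv i))

/-- dyadic layers of the weight -/
theorem layer (q : ℕ) {a ρ : ℝ} (ha : 0 ≤ a) (hρ : 0 ≤ ρ) (I : ℕ) (hI : a ≤ 2 ^ I ∧ ρ ≤ 2 ^ I) :
    ∃ i ∈ Finset.range (I + 1), (a ≤ 2 ^ i ∧ ρ ≤ 2 ^ i) ∧
      1 / (1 + a + ρ) ^ q ≤ 2 ^ q * (1 / 2 : ℝ) ^ (q * i) := by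
  classical
  have hex : ∃ i : ℕ, a ≤ 2 ^ i ∧ ρ ≤ 2 ^ i := ⟨I, hI⟩
  refine ⟨Nat.find hex, ?_, Nat.find_spec hex, ?_⟩
  · rw [Finset.mem_range]
    exact Nat.lt_succ_of_le (Nat.find_min' hex hI)
  · have hpos : 0 < (1 + a + ρ) ^ q := by positivity
    have key : ((2 : ℝ) ^ Nat.find hex) ^ q ≤ 2 ^ q * (1 + a + ρ) ^ q := by
      rw [← mul_pow]
      apply pow_le_pow_left₀ (by positivity)
      rcases Nat.eq_zero_or_pos (Nat.find hex) with h0 | h0
      · rw [h0]; nlinarith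
      · have h1 := Nat.find_min hex (Nat.sub_lt h0 one_pos)
        have h2 : (2 : ℝ) ^ (Nat.find hex - 1) < 1 + a + ρ := by
          by_contra hcon
          push Not at hcon
          exact h1 ⟨by linarith, by linarith⟩
        have h3 : (2 : ℝ) ^ Nat.find hex = 2 * 2 ^ (Nat.find hex - 1) := by
          rw [← pow_succ', Nat.sub_add_cancel h0]
        rw [h3]; linarith
    have e : (2 : ℝ) ^ q * (1 / 2 : ℝ) ^ (q * Nat.find hex) =
        2 ^ q / ((2 : ℝ) ^ Nat.find hex) ^ q := by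
      rw [mul_comm q, pow_mul, one_div_pow, one_div_pow, mul_one_div]
    rw [e, div_le_div_iff₀ hpos (by positivity)]
    linarith

theorem pow_aux (A q i : ℕ) (h : A + 2 ≤ q) :
    (2 : ℝ) ^ (A * i) * (1 / 2 : ℝ) ^ (q * i) ≤ (1 / 4 : ℝ) ^ i := by
  have e : (1 / 2 : ℝ) ^ (q * i) ≤ (1 / 2 : ℝ) ^ ((A + 2) * i) :=
    pow_le_pow_of_le_one (by norm_num) (by norm_num) (Nat.mul_le_mul_right i h)
  calc (2 : ℝ) ^ (A * i) * (1 / 2 : ℝ) ^ (q * i)
      ≤ 2 ^ (A * i) * (1 / 2 : ℝ) ^ ((A + 2) * i) := mul_le_mul_of_nonneg_left e (by positivity)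
    _ = (1 / 4 : ℝ) ^ i := by
        rw [add_mul, pow_add, ← mul_assoc, ← mul_pow]
        norm_num
        rw [pow_mul]; norm_num

theorem body_sub_fat (R : Tube) : R.body ⊆ fat 1 R := by
  rintro z ⟨h1, h2⟩
  exact ⟨h1, h2.trans (by norm_num)⟩

/-- general form, variables `A`, `q` -/
theorem omega_gen (hM : MASSOM) (A q : ℕ) (hA : 2 ≤ A) (hq : A + 2 ≤ q) (n : ℕ)
    (U h : ℝ × ℝ → ℝ) (S : ℕ) (lo hi : ℝ × ℝ → ℕ) (hU : Measurable U) (hh : Nice h)
    (hch : Chain S lo hi) (hup : UppAt U h A n lo hi)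
    (N : ℕ) (R : Fin N → Tube) (kk : Fin N → ℤ) (ii : Fin N → ℕ) (E B : Fin N → Set (ℝ × ℝ))
    (hT : IsTops U h A n lo hi N R kk ii E B) :
    ∃ W : ℝ × ℝ → ℝ, Measurable W ∧ (∀ w, 0 ≤ W w) ∧ Integrable (fun w => (W w) ^ 2) ∧
      ∫ w, (W w) ^ 2 ≤ (40000 * 4 ^ q) * (1 / 2 : ℝ) ^ n * ∫ z, (h z) ^ 2 ∧
      ∀ R0 : Tube, IntT R0 →
        IntegrableOn W (fat 1 R0) ∧
        ∫ z in {z | z.1 ∈ R0.I ∧ lo z < hi z ∧ R0.k < hi z},
          |h z| / (1 + |U z - R0.m| * (1 / 2 : ℝ) ^ (hi z - 1) + |z.2 - R0.line z.1|) ^ q ≤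
          ∫ w in fat 1 R0, W w := by
  classical
  have hF := colors hT
  set F := Finset.univ.image kk
  set β : ℝ := 8 * 2 ^ q * (1 / 2 : ℝ) ^ n with hβ
  have hβ0 : 0 ≤ β := by positivity
  set V : ℝ := 200 * 2 ^ n * ∫ z, (h z) ^ 2 with hV
  have hV0 : 0 ≤ V := mul_nonneg (by positivity) (integral_nonneg (fun z => sq_nonneg _))
  have hb1 : HasSum (fun i : ℕ => β * (1 / 4 : ℝ) ^ i) (β * (4 / 3)) := by
    have := hasSum_geometric_of_lt_one (r := (1 / 4 : ℝ)) (by norm_num) (by norm_num)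
    norm_num at this
    exact this.mul_left β
  have hb2 : HasSum (fun i : ℕ => (β * (1 / 4 : ℝ) ^ i) * (V * 2 ^ i)) (β * V * 2) := by
    have := hasSum_geometric_of_lt_one (r := (1 / 2 : ℝ)) (by norm_num) (by norm_num)
    have e : (1 - (1 / 2 : ℝ))⁻¹ = 2 := by norm_num
    rw [e] at this
    have h2 := this.mul_left (β * V)
    have e3 : (fun i : ℕ => (β * (1 / 4 : ℝ) ^ i) * (V * 2 ^ i)) =
        fun i : ℕ => β * V * (1 / 2 : ℝ) ^ i := by
      funext i
      have e2 : (1 / 4 : ℝ) ^ i * 2 ^ i = (1 / 2 : ℝ) ^ i := by rw [← mul_pow]; norm_num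
      rw [← e2]; ring
    rw [e3]; exact h2
  have hWWm : ∀ i, Measurable (WW R kk ii F i) := by
    intro i
    apply Finset.measurable_sum
    intro k _
    apply Measurable.const_mul
    exact measurable_one.indicator (measurableSet_Om R kk ii k i)
  have hwM : ∀ i x, WW R kk ii F i x ≤ ∑ k ∈ F, (2 : ℝ) ^ k := by
    intro i x
    apply Finset.sum_le_sum
    intro k _
    have : (Om R kk ii k i).indicator (1 : ℝ × ℝ → ℝ) x ≤ 1 :=
      Set.indicator_le_self' (fun _ _ => zero_le_one) x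
    calc (2 : ℝ) ^ k * (Om R kk ii k i).indicator 1 x ≤ 2 ^ k * 1 :=
          mul_le_mul_of_nonneg_left this (by positivity)
      _ = 2 ^ k := mul_one _
  have hwv : ∀ i, ∫ p, (WW R kk ii F i p) ^ 2 ≤ V * 2 ^ i := by
    intro i
    refine (WW_sq hA hh hT F i).trans (le_of_eq ?_)
    rw [hV]; ring
  obtain ⟨W, hWm, hW0, hWM, hWI, hWint, hWle⟩ := sum_fun volume (fun i => WW R kk ii F i)
    (fun i => β * (1 / 4 : ℝ) ^ i) (fun i => V * 2 ^ i) (∑ k ∈ F, (2 : ℝ) ^ k) (β * (4 / 3))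
    (β * V * 2) (fun i => by positivity) hb1 hb2 hWWm (fun i x => WW_nonneg R kk ii F i x)
    hwM (fun i => WW_mem R kk ii F i) hwv
  refine ⟨W, hWm, hW0, hWint, ?_, ?_⟩
  · refine hWle.trans ?_
    have e1 : (2 : ℝ) ^ n * (1 / 2 : ℝ) ^ n = 1 := by rw [← mul_pow]; norm_num
    have e2 : (4 : ℝ) ^ q = 2 ^ q * 2 ^ q := by rw [← mul_pow]; norm_num
    have hI : 0 ≤ ∫ z, (h z) ^ 2 := integral_nonneg (fun z => sq_nonneg _)
    calc β * (4 / 3) * (β * V * 2)
        = (102400 / 3) * (2 ^ q * 2 ^ q) * (1 / 2 : ℝ) ^ n * ((2 : ℝ) ^ n * (1 / 2 : ℝ) ^ n) *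
          ∫ z, (h z) ^ 2 := by rw [hβ, hV]; ring
      _ ≤ 40000 * (2 ^ q * 2 ^ q) * (1 / 2 : ℝ) ^ n * ((2 : ℝ) ^ n * (1 / 2 : ℝ) ^ n) *
          ∫ z, (h z) ^ 2 := by gcongr; norm_num
      _ = _ := by rw [e1, e2]; ring
  intro R0 hR0
  have hfin : volume (fat 1 R0) ≠ ⊤ := fat_ne_top _ _
  have hWon : IntegrableOn W (fat 1 R0) := by
    apply Measure.integrableOn_of_bounded hfin hWm.aestronglyMeasurable
      (M := β * (4 / 3) * ∑ k ∈ F, (2 : ℝ) ^ k)
    refine Eventually.of_forall (fun x => ?_)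
    rw [Real.norm_of_nonneg (hW0 x)]
    exact hWM x
  refine ⟨hWon, ?_⟩
  -- the weight
  set aa : ℝ × ℝ → ℝ := fun z => |U z - R0.m| * (1 / 2 : ℝ) ^ (hi z - 1) with haa
  set ρρ : ℝ × ℝ → ℝ := fun z => |z.2 - R0.line z.1| with hρρ
  have haa0 : ∀ z, 0 ≤ aa z := fun z => by simp only [haa]; positivity
  have hρρ0 : ∀ z, 0 ≤ ρρ z := fun z => abs_nonneg _
  have g6 : Measurable fun z : ℝ × ℝ => (1 / 2 : ℝ) ^ (hi z - 1) :=
    (measurable_from_nat (f := fun t : ℕ => (1 / 2 : ℝ) ^ (t - 1))).comp hch.2.1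
  have haam : Measurable aa := (by fun_prop : Measurable fun z : ℝ × ℝ => |U z - R0.m|).mul g6
  have hlm := R0.measurable_line
  have hρρm : Measurable ρρ := by simp only [hρρ]; fun_prop
  set f : ℝ × ℝ → ℝ := fun z => |h z| / (1 + aa z + ρρ z) ^ q with hf
  have hhm : Measurable h := hh.1
  have hfm : Measurable f := by simp only [hf]; fun_prop
  have hint : Integrable (fun z => |h z|) := (TBx820.nice_integrable hh).abs
  have hfle : ∀ z, f z ≤ |h z| := by
    intro z
    apply div_le_self (abs_nonneg _)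
    apply one_le_pow₀
    linarith [haa0 z, hρρ0 z]
  have hf0 : ∀ z, 0 ≤ f z := fun z => div_nonneg (abs_nonneg _) (by
    have := haa0 z; have := hρρ0 z; positivity)
  have hfint : Integrable f := by
    apply hint.mono' hfm.aestronglyMeasurable
    refine Eventually.of_forall (fun z => ?_)
    rw [Real.norm_of_nonneg (hf0 z)]
    exact hfle z
  set Z : Set (ℝ × ℝ) := {z | z.1 ∈ R0.I ∧ lo z < hi z ∧ R0.k < hi z} with hZ
  set ZI : ℕ → Set (ℝ × ℝ) := fun I => Z ∩ {z | aa z ≤ 2 ^ I ∧ ρρ z ≤ 2 ^ I} with hZI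
  have hZm : MeasurableSet Z :=
    (measurable_fst R0.measurableSet_I).inter
      ((measurableSet_lt hch.1 hch.2.1).inter (measurableSet_lt measurable_const hch.2.1))
  have hZIm : ∀ I, MeasurableSet (ZI I) := fun I =>
    hZm.inter ((measurableSet_le haam measurable_const).inter
      (measurableSet_le hρρm measurable_const))
  have hZmono : Monotone ZI := by
    intro I J hIJ z hz
    have h2 : (2 : ℝ) ^ I ≤ 2 ^ J := pow_le_pow_right₀ (by norm_num) hIJ
    exact ⟨hz.1, hz.2.1.trans h2, hz.2.2.trans h2⟩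
  have hZU : (⋃ I, ZI I) = Z := by
    ext z
    simp only [hZI, Set.mem_iUnion, Set.mem_inter_iff]
    constructor
    · rintro ⟨_, h1, _⟩; exact h1
    · intro h1
      obtain ⟨I, hI⟩ := pow_unbounded_of_one_lt (max (aa z) (ρρ z)) (one_lt_two : (1 : ℝ) < 2)
      exact ⟨I, h1, (le_max_left _ _).trans hI.le, (le_max_right _ _).trans hI.le⟩
  have hlim : Tendsto (fun I => ∫ z in ZI I, f z) atTop (𝓝 (∫ z in Z, f z)) := by
    have := tendsto_setIntegral_of_monotone (μ := volume) hZIm hZmono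
      (f := f) (hfint.integrableOn)
    rwa [hZU] at this
  refine le_of_tendsto' hlim (fun I => ?_)
  -- one truncation
  have hZsm : ∀ i, MeasurableSet (Zs U h lo hi i R0) := fun i =>
    measurableSet_Zs hU hh.1 hch.1 hch.2.1 i R0
  have hpt : ∀ z ∈ ZI I, f z ≤ ∑ i ∈ Finset.range (I + 1),
      (2 ^ q * (1 / 2 : ℝ) ^ (q * i)) * (Zs U h lo hi i R0).indicator (fun z => |h z|) z := by
    intro z hz
    have hnn : ∀ i ∈ Finset.range (I + 1), 0 ≤ (2 ^ q * (1 / 2 : ℝ) ^ (q * i)) *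
        (Zs U h lo hi i R0).indicator (fun z => |h z|) z := fun i _ =>
      mul_nonneg (by positivity) (Set.indicator_nonneg (fun _ _ => abs_nonneg _) _)
    by_cases hz0 : h z = 0
    · simp only [hf, hz0, abs_zero, zero_div]
      exact Finset.sum_nonneg hnn
    obtain ⟨i, hi1, hi2, hi3⟩ := layer q (haa0 z) (hρρ0 z) I hz.2
    have hmem : z ∈ Zs U h lo hi i R0 := ⟨hz0, hz.1.1, hz.1.2.1, hz.1.2.2, hi2.2, hi2.1⟩
    refine le_trans ?_ (Finset.single_le_sum hnn hi1)
    rw [Set.indicator_of_mem hmem]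
    have : f z = 1 / (1 + aa z + ρρ z) ^ q * |h z| := by simp only [hf]; ring
    rw [this]
    exact mul_le_mul_of_nonneg_right hi3 (abs_nonneg _)
  have hinti : ∀ i ∈ Finset.range (I + 1), Integrable (fun z => (2 ^ q * (1 / 2 : ℝ) ^ (q * i)) *
      (Zs U h lo hi i R0).indicator (fun z => |h z|) z) := fun i _ =>
    (hint.indicator (hZsm i)).const_mul _
  calc ∫ z in ZI I, f z
      ≤ ∫ z in ZI I, ∑ i ∈ Finset.range (I + 1), (2 ^ q * (1 / 2 : ℝ) ^ (q * i)) *
        (Zs U h lo hi i R0).indicator (fun z => |h z|) z :=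
        setIntegral_mono_on hfint.integrableOn (integrable_finsetSum _ hinti).integrableOn
          (hZIm I) hpt
    _ ≤ ∫ z, ∑ i ∈ Finset.range (I + 1), (2 ^ q * (1 / 2 : ℝ) ^ (q * i)) *
        (Zs U h lo hi i R0).indicator (fun z => |h z|) z :=
        setIntegral_le_integral (integrable_finsetSum _ hinti)
          (Eventually.of_forall (fun z => Finset.sum_nonneg (fun i _ =>
            mul_nonneg (by positivity) (Set.indicator_nonneg (fun _ _ => abs_nonneg _) _))))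
    _ = ∑ i ∈ Finset.range (I + 1), (2 ^ q * (1 / 2 : ℝ) ^ (q * i)) *
        ∫ z in Zs U h lo hi i R0, |h z| := by
        rw [integral_finsetSum _ hinti]
        refine Finset.sum_congr rfl (fun i _ => ?_)
        rw [integral_const_mul, integral_indicator (hZsm i)]
    _ ≤ ∑ i ∈ Finset.range (I + 1), (β * (1 / 4 : ℝ) ^ i) * ∫ p in R0.body, WW R kk ii F i p := by
        apply Finset.sum_le_sum
        intro i _
        have h1 := mass_WW hM hA hU hh hch hup hT F hF i R0 hR0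
        have hnn : 0 ≤ ∫ p in R0.body, WW R kk ii F i p :=
          integral_nonneg (fun p => WW_nonneg R kk ii F i p)
        calc (2 ^ q * (1 / 2 : ℝ) ^ (q * i)) * ∫ z in Zs U h lo hi i R0, |h z|
            ≤ (2 ^ q * (1 / 2 : ℝ) ^ (q * i)) * (8 * 2 ^ (A * i) * (1 / 2 : ℝ) ^ n *
              ∫ p in R0.body, WW R kk ii F i p) := mul_le_mul_of_nonneg_left h1 (by positivity)
          _ = β * (2 ^ (A * i) * (1 / 2 : ℝ) ^ (q * i)) *
              ∫ p in R0.body, WW R kk ii F i p := by rw [hβ]; ring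
          _ ≤ _ := by
              apply mul_le_mul_of_nonneg_right _ hnn
              exact mul_le_mul_of_nonneg_left (pow_aux A q i hq) hβ0
    _ = ∫ p in R0.body, ∑ i ∈ Finset.range (I + 1), (β * (1 / 4 : ℝ) ^ i) *
          WW R kk ii F i p := by
        rw [integral_finsetSum _ (fun i _ => ((WW_integrable R kk ii F i).const_mul _).integrableOn)]
        exact Finset.sum_congr rfl (fun i _ => (integral_const_mul _ _).symm)
    _ ≤ ∫ p in R0.body, W p := by
        apply setIntegral_mono_on _ (hWon.mono_set (body_sub_fat R0)) R0.measurableSet_body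
          (fun p _ => hWI (I + 1) p)
        exact (integrable_finsetSum _
          (fun i _ => (WW_integrable R kk ii F i).const_mul _)).integrableOn
    _ ≤ ∫ p in fat 1 R0, W p :=
        setIntegral_mono_set hWon (Eventually.of_forall hW0) (body_sub_fat R0).eventuallyLE

/-- **leaf OMEGA** -/
theorem omega : L_OMEGA := by
  intro hM
  refine ⟨40000 * 4 ^ qq, by positivity, ?_⟩
  intro n U h S lo hi hU hh hch hup N R kk ii E B hT
  exact omega_gen hM AA qq (by norm_num [AA]) (by norm_num [AA, qq]) n U h S lo hi hU hh hch hup N R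
    kk ii E B hT

end Crest.Agent.R087.OmegaCx627
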