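import Crest.Agent.R087.OPdef_799

/-!
Row 87 (S0115), operator part, leaf SQ (helper282): the expansion of `‖T* g‖²` as an ordered double sum.

All definitions (`kk`, `T1`, `TS`, `ix`, `ln`) are those of `OPdef_799`.

* `GG φ ζ U s s' z z' = ∫ kk s z w * kk s' z' w dw` (Gram kernel);
* `PP φ ζ U H s' z' = ∑_{s ≤ s'} ∫ GG s s' z z' * H s z dz`;
* `sq_expand : ∫ (TS H)² ≤ 2 ∫ ∑_{s'<S} H s' z' * PP H s' z' dz'`.
-/

set_option autoImplicit false

noncomputable section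

open MeasureTheory Crest.Agent.R087.Sh0x283 Crest.Agent.R087.GateDefx273
open Crest.Agent.R087.OPdefx799 (ix ln kk T1 TS Ch nr)

namespace Crest.Agent.R087.Sqx282

/-- Gram kernel. -/
def GG (φ ζ : ℝ → ℝ) (U : ℝ × ℝ → ℝ) (s s' : ℕ) (z z' : ℝ × ℝ) : ℝ :=
  ∫ w, kk φ ζ U s z w * kk φ ζ U s' z' w

/-- standing hypotheses: continuous profiles, supports. -/
structure PZ (φ ζ : ℝ → ℝ) : Prop where
  cφ : Continuous φ
  cζ : Continuous ζ
  sφ : ∀ r, 1 < |r| → φ r = 0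
  sζ : ∀ t, ζ t ≠ 0 → 1 / 8 ≤ t ∧ t ≤ 7 / 8

theorem prof_of {φ ζ : ℝ → ℝ} (hφ : ContDiff ℝ (⊤ : ℕ∞) φ) (hs : ∀ r, 1 < |r| → φ r = 0)
    (hζ : ZetC ζ) : PZ φ ζ :=
  ⟨hφ.continuous, hζ.1.continuous, hs, hζ.2.1⟩

theorem gt_meas : Measurable gt := by
  unfold gt
  refine Measurable.ite measurableSet_Iio measurable_const ?_
  refine Measurable.ite measurableSet_Iio measurable_const ?_
  refine Measurable.ite measurableSet_Iio measurable_const ?_
  exact Measurable.ite measurableSet_Iio measurable_const measurable_const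

theorem gt_abs (t : ℝ) : |gt t| ≤ 1 := by
  unfold gt
  split_ifs <;> simp

/-- a continuous function with compact support on the line is bounded. -/
theorem bdd_of (f : ℝ → ℝ) (hf : Continuous f) (a b : ℝ) (h : ∀ t, f t ≠ 0 → a ≤ t ∧ t ≤ b) :
    ∃ M : ℝ, 0 ≤ M ∧ ∀ t, |f t| ≤ M := by
  obtain ⟨M, hM⟩ := (isCompact_Icc (a := a) (b := b)).exists_bound_of_continuousOn hf.continuousOn
  refine ⟨max M 0, le_max_right _ _, fun t => ?_⟩
  by_cases ht : f t = 0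
  · rw [ht, abs_zero]; exact le_max_right _ _
  · obtain ⟨h1, h2⟩ := h t ht
    exact le_trans (hM t ⟨h1, h2⟩) (le_max_left _ _)

theorem PZ.bdd {φ ζ : ℝ → ℝ} (P : PZ φ ζ) : ∃ M : ℝ, 0 ≤ M ∧ (∀ t, |φ t| ≤ M) ∧ ∀ t, |ζ t| ≤ M := by
  obtain ⟨M1, h1, h1'⟩ := bdd_of φ P.cφ (-1) 1 (fun t ht => by
    by_contra h
    have : 1 < |t| := by
      by_contra h'
      push Not at h'
      exact h (abs_le.1 h')
    exact ht (P.sφ t this))
  obtain ⟨M2, h2, h2'⟩ := bdd_of ζ P.cζ (1 / 8) (7 / 8) P.sζ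
  exact ⟨max M1 M2, le_max_of_le_left h1, fun t => le_trans (h1' t) (le_max_left _ _),
    fun t => le_trans (h2' t) (le_max_right _ _)⟩

/-- joint measurability of the kernel. -/
theorem kk_meas {φ ζ : ℝ → ℝ} (P : PZ φ ζ) {U : ℝ × ℝ → ℝ} (hU : Measurable U) (s : ℕ) :
    Measurable (fun p : (ℝ × ℝ) × (ℝ × ℝ) => kk φ ζ U s p.1 p.2) := by
  unfold kk ln ix
  have h1 : Measurable (fun p : (ℝ × ℝ) × (ℝ × ℝ) => gt (Int.fract ((2 : ℝ) ^ s * p.1.1))) := by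
    refine gt_meas.comp ?_
    exact measurable_fract.comp (by fun_prop)
  have h2 : Measurable (fun p : (ℝ × ℝ) × (ℝ × ℝ) => ((⌊(2 : ℝ) ^ s * p.1.1⌋ : ℤ) : ℝ)) := by
    have h3 : Measurable (fun p : (ℝ × ℝ) × (ℝ × ℝ) => ⌊(2 : ℝ) ^ s * p.1.1⌋) :=
      Int.measurable_floor.comp (by fun_prop)
    exact (measurable_from_top (f := fun n : ℤ => (n : ℝ))).comp h3
  have h4 : Measurable (fun p : (ℝ × ℝ) × (ℝ × ℝ) =>
      ζ ((2 : ℝ) ^ s * p.2.1 - ⌊(2 : ℝ) ^ s * p.1.1⌋)) := by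
    refine P.cζ.measurable.comp ?_
    exact Measurable.sub (by fun_prop) h2
  have h5 : Measurable (fun p : (ℝ × ℝ) × (ℝ × ℝ) => φ (p.1.2 + (p.2.1 - p.1.1) * U p.1 - p.2.2)) := by
    refine P.cφ.measurable.comp ?_
    have : Measurable (fun p : (ℝ × ℝ) × (ℝ × ℝ) => U p.1) := hU.comp measurable_fst
    fun_prop
  exact ((h1.const_mul _).mul h4).mul h5

theorem kk_abs {φ ζ : ℝ → ℝ} {M : ℝ} (hM : 0 ≤ M) (h1 : ∀ t, |φ t| ≤ M) (h2 : ∀ t, |ζ t| ≤ M)
    (U : ℝ × ℝ → ℝ) (s : ℕ) (z w : ℝ × ℝ) : |kk φ ζ U s z w| ≤ (2 : ℝ) ^ s * M * M := by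
  unfold kk ln ix
  rw [abs_mul, abs_mul, abs_mul, abs_of_nonneg (by positivity : (0:ℝ) ≤ (2 : ℝ) ^ s)]
  have a1 := gt_abs (Int.fract ((2 : ℝ) ^ s * z.1))
  have a2 := h2 ((2 : ℝ) ^ s * w.1 - ⌊(2 : ℝ) ^ s * z.1⌋)
  have a3 := h1 (z.2 + (w.1 - z.1) * U z - w.2)
  have h0 : (0:ℝ) ≤ (2 : ℝ) ^ s := by positivity
  calc (2 : ℝ) ^ s * |gt (Int.fract ((2 : ℝ) ^ s * z.1))| *
        |ζ ((2 : ℝ) ^ s * w.1 - ⌊(2 : ℝ) ^ s * z.1⌋)| * |φ (z.2 + (w.1 - z.1) * U z - w.2)|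
      ≤ (2 : ℝ) ^ s * 1 * M * M := by gcongr
    _ = _ := by ring

/-- localisation in `x`: same dyadic cell. -/
theorem kk_cell {φ ζ : ℝ → ℝ} (P : PZ φ ζ) {U : ℝ × ℝ → ℝ} {s : ℕ} {z w : ℝ × ℝ}
    (h : kk φ ζ U s z w ≠ 0) : ⌊(2 : ℝ) ^ s * w.1⌋ = ⌊(2 : ℝ) ^ s * z.1⌋ := by
  unfold kk ln ix at h
  have h1 : ζ ((2 : ℝ) ^ s * w.1 - ⌊(2 : ℝ) ^ s * z.1⌋) ≠ 0 := by
    intro h0; apply h; rw [h0]; ring
  obtain ⟨h2, h3⟩ := P.sζ _ h1
  rw [Int.floor_eq_iff]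
  constructor <;> linarith

theorem kk_phi {φ ζ : ℝ → ℝ} (P : PZ φ ζ) {U : ℝ × ℝ → ℝ} {s : ℕ} {z w : ℝ × ℝ}
    (h : kk φ ζ U s z w ≠ 0) : |z.2 + (w.1 - z.1) * U z - w.2| ≤ 1 := by
  unfold kk ln ix at h
  by_contra h1
  push Not at h1
  apply h
  rw [P.sφ _ h1, mul_zero]

theorem cell_dist {s : ℕ} {a b : ℝ} (h : ⌊(2 : ℝ) ^ s * a⌋ = ⌊(2 : ℝ) ^ s * b⌋) :
    |a - b| ≤ (1 / 2 : ℝ) ^ s := by
  have h1 : |(2 : ℝ) ^ s * a - (2 : ℝ) ^ s * b| ≤ 1 := (Int.abs_sub_lt_one_of_floor_eq_floor h).le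
  have h2 : (2 : ℝ) ^ s * a - (2 : ℝ) ^ s * b = (2 : ℝ) ^ s * (a - b) := by ring
  rw [h2, abs_mul, abs_of_nonneg (by positivity : (0:ℝ) ≤ (2 : ℝ) ^ s)] at h1
  have h3 : (0:ℝ) < (2 : ℝ) ^ s := by positivity
  rw [one_div, inv_pow, ← one_div, le_div_iff₀ h3]
  linarith

/-- the kernel vanishes outside a bounded set. -/
theorem kk_near {φ ζ : ℝ → ℝ} (P : PZ φ ζ) {U : ℝ × ℝ → ℝ} {W : ℝ} (hW : ∀ z, |U z| ≤ W) {s : ℕ}
    {z w : ℝ × ℝ} (h : kk φ ζ U s z w ≠ 0) : |w.1 - z.1| ≤ 1 ∧ |w.2 - z.2| ≤ 1 + W := by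
  have h1 := cell_dist (kk_cell P h)
  have h2 : (1 / 2 : ℝ) ^ s ≤ 1 := pow_le_one₀ (by norm_num) (by norm_num)
  have h3 : |w.1 - z.1| ≤ 1 := le_trans h1 h2
  refine ⟨h3, ?_⟩
  have h4 := kk_phi P h
  have h5 : |(w.1 - z.1) * U z| ≤ W := by
    rw [abs_mul]
    calc |w.1 - z.1| * |U z| ≤ 1 * W := by
          gcongr
          exact hW z
      _ = W := one_mul _
  have e : w.2 - z.2 = (w.1 - z.1) * U z - (z.2 + (w.1 - z.1) * U z - w.2) := by ring
  rw [e]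
  calc |(w.1 - z.1) * U z - (z.2 + (w.1 - z.1) * U z - w.2)|
      ≤ |(w.1 - z.1) * U z| + |z.2 + (w.1 - z.1) * U z - w.2| := abs_sub _ _
    _ ≤ 1 + W := by linarith

/-- integrability of bounded measurable functions with bounded support. -/
theorem int_of {X : Type*} [NormedAddCommGroup X] [MeasureSpace X] [BorelSpace X] [ProperSpace X]
    [IsFiniteMeasureOnCompacts (volume : Measure X)] {F : X → ℝ} (hm : Measurable F) {M R : ℝ}
    (hM : ∀ p, |F p| ≤ M) (hR : ∀ p, R < ‖p‖ → F p = 0) : Integrable F := by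
  have h1 : Integrable ((Metric.closedBall (0 : X) R).indicator (fun _ => M)) :=
    (integrable_indicator_iff Metric.isClosed_closedBall.measurableSet).2
      (integrableOn_const (measure_closedBall_lt_top).ne)
  refine h1.mono' hm.aestronglyMeasurable (Filter.Eventually.of_forall fun z => ?_)
  by_cases hz : ‖z‖ ≤ R
  · rw [Set.indicator_of_mem (by simpa using hz), Real.norm_eq_abs]
    exact hM z
  · rw [Set.indicator_of_notMem (by simpa using hz), hR z (not_le.mp hz)]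
    simp

theorem nice_int {f : ℝ × ℝ → ℝ} (hf : Nice f) : Integrable f := by
  obtain ⟨hm, ⟨M, hM⟩, ⟨R, hR⟩⟩ := hf
  exact int_of hm hM hR

theorem nice_add {f g : ℝ × ℝ → ℝ} (hf : Nice f) (hg : Nice g) : Nice (fun z => f z + g z) := by
  obtain ⟨h1, ⟨M, hM⟩, R, hR⟩ := hf
  obtain ⟨h1', ⟨M', hM'⟩, R', hR'⟩ := hg
  refine ⟨h1.add h1', ⟨M + M', fun z => (abs_add_le _ _).trans (add_le_add (hM z) (hM' z))⟩,
    max R R', fun z hz => ?_⟩
  show f z + g z = 0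
  rw [hR z ((le_max_left _ _).trans_lt hz), hR' z ((le_max_right _ _).trans_lt hz), add_zero]

theorem nice_smul {f : ℝ × ℝ → ℝ} (a : ℝ) (hf : Nice f) : Nice (fun z => a * f z) := by
  obtain ⟨h1, ⟨M, hM⟩, R, hR⟩ := hf
  refine ⟨h1.const_mul a, ⟨|a| * M, fun z => ?_⟩, R, fun z hz => by
    show a * f z = 0
    rw [hR z hz, mul_zero]⟩
  rw [abs_mul]
  exact mul_le_mul_of_nonneg_left (hM z) (abs_nonneg a)

theorem nice_zero : Nice (fun _ => 0) :=
  ⟨measurable_const, ⟨0, fun _ => by simp⟩, 0, fun _ _ => rfl⟩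

theorem nice_sum {ι : Type*} (t : Finset ι) {f : ι → ℝ × ℝ → ℝ} (hf : ∀ i ∈ t, Nice (f i)) :
    Nice (fun z => ∑ i ∈ t, f i z) := by
  classical
  induction t using Finset.induction_on with
  | empty => simpa using nice_zero
  | insert a t ha ih =>
    simp only [Finset.sum_insert ha]
    exact nice_add (hf a (Finset.mem_insert_self _ _))
      (ih fun i hi => hf i (Finset.mem_insert_of_mem hi))

theorem nice_mul {f g : ℝ × ℝ → ℝ} (hf : Nice f) (hg : Nice g) : Nice (fun z => f z * g z) := by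
  obtain ⟨h1, ⟨M, hM⟩, R, hR⟩ := hf
  obtain ⟨h1', ⟨M', hM'⟩, R', hR'⟩ := hg
  refine ⟨h1.mul h1', ⟨M * M', fun z => ?_⟩, R, fun z hz => by
    show f z * g z = 0
    rw [hR z hz, zero_mul]⟩
  rw [abs_mul]
  exact mul_le_mul (hM z) (hM' z) (abs_nonneg _) ((abs_nonneg _).trans (hM z))

theorem nice_sq {f : ℝ × ℝ → ℝ} (hf : Nice f) : Nice (fun z => (f z) ^ 2) := by
  have h := nice_mul hf hf
  have e : (fun z => (f z) ^ 2) = fun z => f z * f z := by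
    funext z; ring
  rw [e]
  exact h

/-- bounded measurable times nice is nice. -/
theorem nice_bmul {f g : ℝ × ℝ → ℝ} (hf : Nice f) (hg : Measurable g) {M : ℝ}
    (hM : ∀ z, |g z| ≤ M) : Nice (fun z => g z * f z) := by
  obtain ⟨h1, ⟨M', hM'⟩, R, hR⟩ := hf
  refine ⟨hg.mul h1, ⟨M * M', fun z => ?_⟩, R, fun z hz => by
    show g z * f z = 0
    rw [hR z hz, mul_zero]⟩
  rw [abs_mul]
  exact mul_le_mul (hM z) (hM' z) (abs_nonneg _) ((abs_nonneg _).trans (hM z))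

theorem nice_ind {f : ℝ × ℝ → ℝ} (hf : Nice f) {A : Set (ℝ × ℝ)} (hA : MeasurableSet A) :
    Nice (A.indicator f) := by
  obtain ⟨h1, ⟨M', hM'⟩, R, hR⟩ := hf
  refine ⟨h1.indicator hA, ⟨M', fun z => ?_⟩, R, fun z hz => ?_⟩
  · by_cases h : z ∈ A
    · rw [Set.indicator_of_mem h]; exact hM' z
    · rw [Set.indicator_of_notMem h, abs_zero]; exact (abs_nonneg _).trans (hM' z)
  · by_cases h : z ∈ A
    · rw [Set.indicator_of_mem h]; exact hR z hz
    · rw [Set.indicator_of_notMem h]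

/-- kernels: jointly measurable, bounded, vanishing far from the diagonal. -/
structure Ker (K : ℝ × ℝ → ℝ × ℝ → ℝ) : Prop where
  meas : Measurable (fun p : (ℝ × ℝ) × (ℝ × ℝ) => K p.1 p.2)
  bdd : ∃ M : ℝ, ∀ z w, |K z w| ≤ M
  near : ∃ R : ℝ, ∀ z w, K z w ≠ 0 → ‖w - z‖ ≤ R

theorem Ker.swap {K : ℝ × ℝ → ℝ × ℝ → ℝ} (h : Ker K) : Ker (fun z w => K w z) := by
  obtain ⟨R, hR⟩ := h.near
  refine ⟨h.meas.comp measurable_swap, ?_, R, fun z w hz => ?_⟩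
  · obtain ⟨M, hM⟩ := h.bdd
    exact ⟨M, fun z w => hM w z⟩
  · rw [norm_sub_rev]; exact hR w z hz

theorem kk_ker {φ ζ : ℝ → ℝ} (P : PZ φ ζ) {U : ℝ × ℝ → ℝ} (hU : Measurable U) {W : ℝ}
    (hW : ∀ z, |U z| ≤ W) (s : ℕ) : Ker (kk φ ζ U s) := by
  obtain ⟨M, hM, h1, h2⟩ := P.bdd
  refine ⟨kk_meas P hU s, ⟨(2 : ℝ) ^ s * M * M, fun z w => kk_abs hM h1 h2 U s z w⟩, 1 + W,
    fun z w h => ?_⟩
  have hW0 : 0 ≤ W := (abs_nonneg _).trans (hW z)
  obtain ⟨h3, h4⟩ := kk_near P hW h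
  rw [Prod.norm_def]
  refine max_le ?_ ?_
  · rw [Prod.fst_sub, Real.norm_eq_abs]; linarith
  · rw [Prod.snd_sub, Real.norm_eq_abs]; exact h4

/-- integrability on the product of `K z w * f z * g w`. -/
theorem Ker.int2 {K : ℝ × ℝ → ℝ × ℝ → ℝ} (h : Ker K) {f : ℝ × ℝ → ℝ} (hf : Nice f)
    {g : ℝ × ℝ → ℝ} (hg : Measurable g) {B : ℝ} (hB : ∀ z, |g z| ≤ B) :
    Integrable (fun p : (ℝ × ℝ) × (ℝ × ℝ) => K p.1 p.2 * f p.1 * g p.2) := by
  obtain ⟨M, hM⟩ := h.bdd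
  obtain ⟨R, hR⟩ := h.near
  obtain ⟨hf1, ⟨M', hM'⟩, R', hR'⟩ := hf
  have hM0 : 0 ≤ M := (abs_nonneg _).trans (hM 0 0)
  have hM0' : 0 ≤ M' := (abs_nonneg _).trans (hM' 0)
  refine int_of (M := M * M' * B) (R := max R' (R' + R)) ?_ (fun p => ?_) (fun p hp => ?_)
  · exact (h.meas.mul (hf1.comp measurable_fst)).mul (hg.comp measurable_snd)
  · rw [abs_mul, abs_mul]
    have a1 := hM p.1 p.2
    have a2 := hM' p.1
    have a3 := hB p.2
    exact mul_le_mul (mul_le_mul a1 a2 (abs_nonneg _) hM0) a3 (abs_nonneg _) (by positivity)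
  · by_contra h0
    have h1 : K p.1 p.2 ≠ 0 := by intro h; apply h0; rw [h]; ring
    have h2 : f p.1 ≠ 0 := by intro h; apply h0; rw [h]; ring
    have h3 := hR _ _ h1
    have h4 : ‖p.1‖ ≤ R' := by
      by_contra h5
      exact h2 (hR' _ (not_le.1 h5))
    have h5 : ‖p.2‖ ≤ R' + R := by
      calc ‖p.2‖ = ‖p.1 + (p.2 - p.1)‖ := by congr 1; abel
        _ ≤ ‖p.1‖ + ‖p.2 - p.1‖ := norm_add_le _ _
        _ ≤ R' + R := add_le_add h4 h3
    have h6 : ‖p‖ ≤ max R' (R' + R) := by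
      rw [Prod.norm_def]
      exact max_le_max h4 h5
    linarith

/-- the operator of a kernel. -/
def op (K : ℝ × ℝ → ℝ × ℝ → ℝ) (f : ℝ × ℝ → ℝ) (w : ℝ × ℝ) : ℝ := ∫ z, K z w * f z

theorem Ker.sec {K : ℝ × ℝ → ℝ × ℝ → ℝ} (h : Ker K) {f : ℝ × ℝ → ℝ} (hf : Nice f) (w : ℝ × ℝ) :
    Nice (fun z => K z w * f z) := by
  obtain ⟨M, hM⟩ := h.bdd
  exact nice_bmul hf (h.meas.comp (measurable_id.prodMk measurable_const)) (fun z => hM z w)

theorem Ker.sec' {K : ℝ × ℝ → ℝ × ℝ → ℝ} (h : Ker K) (z : ℝ × ℝ) : Nice (K z) := by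
  obtain ⟨M, hM⟩ := h.bdd
  obtain ⟨R, hR⟩ := h.near
  refine ⟨h.meas.comp (measurable_const.prodMk measurable_id), ⟨M, hM z⟩, ‖z‖ + R, fun w hw => ?_⟩
  by_contra h0
  have h1 := hR z w h0
  have h2 : ‖w‖ ≤ ‖z‖ + R := by
    calc ‖w‖ = ‖z + (w - z)‖ := by congr 1; abel
      _ ≤ ‖z‖ + ‖w - z‖ := norm_add_le _ _
      _ ≤ ‖z‖ + R := by linarith
  linarith

theorem Ker.nice {K : ℝ × ℝ → ℝ × ℝ → ℝ} (h : Ker K) {f : ℝ × ℝ → ℝ} (hf : Nice f) :
    Nice (op K f) := by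
  obtain ⟨M, hM⟩ := h.bdd
  obtain ⟨R, hR⟩ := h.near
  have hf' := hf
  obtain ⟨hf1, ⟨M', hM'⟩, R', hR'⟩ := hf'
  refine ⟨?_, ⟨M * ∫ z, |f z|, fun w => ?_⟩, R' + R, fun w hw => ?_⟩
  · have h1 : Measurable (fun p : (ℝ × ℝ) × (ℝ × ℝ) => K p.2 p.1 * f p.2) :=
      (h.meas.comp measurable_swap).mul (hf1.comp measurable_snd)
    exact (h1.stronglyMeasurable.integral_prod_right' (ν := volume)).measurable
  · unfold op
    rw [← integral_const_mul]
    refine (abs_integral_le_integral_abs).trans ?_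
    refine integral_mono (nice_int (h.sec hf w)).abs ((nice_int hf).abs.const_mul M) fun z => ?_
    show |K z w * f z| ≤ M * |f z|
    rw [abs_mul]
    exact mul_le_mul_of_nonneg_right (hM z w) (abs_nonneg _)
  · unfold op
    rw [← integral_zero (ℝ × ℝ) ℝ (μ := volume)]
    congr 1
    funext z
    by_contra h0
    have h1 : K z w ≠ 0 := by intro h; apply h0; rw [h]; ring
    have h2 : f z ≠ 0 := by intro h; apply h0; rw [h]; ring
    have h3 := hR _ _ h1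
    have h4 : ‖z‖ ≤ R' := by
      by_contra h5
      exact h2 (hR' _ (not_le.1 h5))
    have h5 : ‖w‖ ≤ R' + R := by
      calc ‖w‖ = ‖z + (w - z)‖ := by congr 1; abel
        _ ≤ ‖z‖ + ‖w - z‖ := norm_add_le _ _
        _ ≤ R' + R := add_le_add h4 h3
    linarith

/-- transposition (Fubini). -/
theorem Ker.transpose {K : ℝ × ℝ → ℝ × ℝ → ℝ} (h : Ker K) {f g : ℝ × ℝ → ℝ} (hf : Nice f)
    (hg : Nice g) : ∫ w, op K f w * g w = ∫ z, f z * ∫ w, K z w * g w := by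
  obtain ⟨B, hB⟩ := hg.2.1
  have h1 := h.int2 hf hg.1 hB
  have h2 := integral_integral_swap (f := fun z w => K z w * f z * g w) h1
  calc ∫ w, op K f w * g w = ∫ w, ∫ z, K z w * f z * g w := by
        refine integral_congr_ae (Filter.Eventually.of_forall fun w => ?_)
        show op K f w * g w = ∫ z, K z w * f z * g w
        rw [integral_mul_const]; rfl
    _ = ∫ z, ∫ w, K z w * f z * g w := h2.symm
    _ = ∫ z, f z * ∫ w, K z w * g w := by
        refine integral_congr_ae (Filter.Eventually.of_forall fun z => ?_)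
        show (∫ w, K z w * f z * g w) = f z * ∫ w, K z w * g w
        rw [← integral_const_mul]
        congr 1
        funext w
        ring

/-- Gram kernel of two kernels. -/
def gram (K L : ℝ × ℝ → ℝ × ℝ → ℝ) (z z' : ℝ × ℝ) : ℝ := ∫ w, K z w * L z' w

/-- pairing of two operators = double integral against the Gram kernel. -/
theorem pair {K L : ℝ × ℝ → ℝ × ℝ → ℝ} (hK : Ker K) (hL : Ker L) {f g : ℝ × ℝ → ℝ} (hf : Nice f)
    (hg : Nice g) :
    ∫ w, op K f w * op L g w = ∫ z', g z' * ∫ z, gram K L z z' * f z := by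
  have h1 : ∫ w, op K f w * op L g w = ∫ w, op L g w * op K f w := by
    congr 1; funext w; ring
  rw [h1, hL.transpose hg (hK.nice hf)]
  refine integral_congr_ae (Filter.Eventually.of_forall fun z' => ?_)
  show g z' * (∫ w, L z' w * op K f w) = g z' * ∫ z, gram K L z z' * f z
  congr 1
  have h2 : ∫ w, L z' w * op K f w = ∫ w, op K f w * L z' w := by
    congr 1; funext w; ring
  rw [h2, hK.transpose hf (hL.sec' z')]
  congr 1
  funext z
  rw [mul_comm]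
  rfl

/-- the Gram kernel is again a kernel. -/
theorem Ker.gram {K L : ℝ × ℝ → ℝ × ℝ → ℝ} (hK : Ker K) (hL : Ker L) :
    Ker (Sqx282.gram K L) := by
  obtain ⟨M, hM⟩ := hK.bdd
  obtain ⟨M', hM'⟩ := hL.bdd
  obtain ⟨R, hR⟩ := hK.near
  obtain ⟨R', hR'⟩ := hL.near
  have hM0 : 0 ≤ M := (abs_nonneg _).trans (hM 0 0)
  have hM0' : 0 ≤ M' := (abs_nonneg _).trans (hM' 0 0)
  refine ⟨?_, ⟨M * M' * (volume (Metric.closedBall (0 : ℝ × ℝ) R)).toReal, fun z z' => ?_⟩,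
    R + R', fun z z' h => ?_⟩
  · have h1 : Measurable (fun q : ((ℝ × ℝ) × (ℝ × ℝ)) × (ℝ × ℝ) => K q.1.1 q.2 * L q.1.2 q.2) := by
      refine Measurable.mul ?_ ?_
      · exact hK.meas.comp ((measurable_fst.comp measurable_fst).prodMk measurable_snd)
      · exact hL.meas.comp ((measurable_snd.comp measurable_fst).prodMk measurable_snd)
    exact (h1.stronglyMeasurable.integral_prod_right' (ν := volume)).measurable
  · unfold Sqx282.gram
    have h1 : ∀ w, w ∉ Metric.closedBall z R → K z w * L z' w = 0 := by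
      intro w hw
      have : K z w = 0 := by
        by_contra h0
        apply hw
        rw [Metric.mem_closedBall, dist_eq_norm]
        exact hR z w h0
      rw [this, zero_mul]
    rw [← setIntegral_eq_integral_of_forall_compl_eq_zero h1]
    have h2 : ‖∫ w in Metric.closedBall z R, K z w * L z' w‖ ≤
        M * M' * (volume (Metric.closedBall z R)).toReal := by
      refine norm_setIntegral_le_of_norm_le_const measure_closedBall_lt_top fun w _ => ?_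
      rw [Real.norm_eq_abs, abs_mul]
      exact mul_le_mul (hM z w) (hM' z' w) (abs_nonneg _) hM0
    rw [Real.norm_eq_abs] at h2
    refine h2.trans (le_of_eq ?_)
    congr 2
    have h3 := Measure.addHaar_closedBall_center (volume : Measure (ℝ × ℝ)) z R
    rw [h3]
  · have h1 : ∃ w, K z w * L z' w ≠ 0 := by
      by_contra h0
      push Not at h0
      apply h
      unfold Sqx282.gram
      simp [h0]
    obtain ⟨w, hw⟩ := h1
    have h2 : K z w ≠ 0 := left_ne_zero_of_mul hw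
    have h3 : L z' w ≠ 0 := right_ne_zero_of_mul hw
    calc ‖z' - z‖ = ‖(w - z) - (w - z')‖ := by congr 1; abel
      _ ≤ ‖w - z‖ + ‖w - z'‖ := norm_sub_le _ _
      _ ≤ R + R' := add_le_add (hR _ _ h2) (hR' _ _ h3)

theorem gram_swap (K L : ℝ × ℝ → ℝ × ℝ → ℝ) (z z' : ℝ × ℝ) : gram K L z z' = gram L K z' z := by
  unfold gram
  congr 1; funext w; ring

/-- `(∑ a)² ≤ 2 ∑_{s ≤ s'} a_s a_s'`. -/
theorem sq_sum_le (S : ℕ) (a : ℕ → ℝ) :
    (∑ s ∈ Finset.range S, a s) ^ 2 ≤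
      2 * ∑ s' ∈ Finset.range S, a s' * ∑ s ∈ Finset.range (s' + 1), a s := by
  induction S with
  | zero => simp
  | succ n ih =>
    rw [Finset.sum_range_succ, Finset.sum_range_succ (fun s' => a s' * _),
      Finset.sum_range_succ (fun s => a s) n]
    nlinarith [sq_nonneg (a n)]

theorem T1_nice {φ ζ : ℝ → ℝ} (P : PZ φ ζ) {U : ℝ × ℝ → ℝ} (hU : Measurable U) {W : ℝ}
    (hW : ∀ z, |U z| ≤ W) (s : ℕ) {H : ℝ × ℝ → ℝ} (hH : Nice H) : Nice (T1 φ ζ U s H) :=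
  (kk_ker P hU hW s).nice hH

theorem TS_nice {φ ζ : ℝ → ℝ} (P : PZ φ ζ) {U : ℝ × ℝ → ℝ} (hU : Measurable U) {W : ℝ}
    (hW : ∀ z, |U z| ≤ W) (S : ℕ) {H : ℕ → ℝ × ℝ → ℝ} (hH : ∀ s < S, Nice (H s)) :
    Nice (TS φ ζ U S H) :=
  nice_sum _ fun s hs => T1_nice P hU hW s (hH s (Finset.mem_range.1 hs))

theorem GG_ker {φ ζ : ℝ → ℝ} (P : PZ φ ζ) {U : ℝ × ℝ → ℝ} (hU : Measurable U) {W : ℝ}
    (hW : ∀ z, |U z| ≤ W) (s s' : ℕ) : Ker (GG φ ζ U s s') :=
  (kk_ker P hU hW s).gram (kk_ker P hU hW s')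

/-- pairing of two scales. -/
theorem pair_scales {φ ζ : ℝ → ℝ} (P : PZ φ ζ) {U : ℝ × ℝ → ℝ} (hU : Measurable U) {W : ℝ}
    (hW : ∀ z, |U z| ≤ W) (s s' : ℕ) {H H' : ℝ × ℝ → ℝ} (hH : Nice H) (hH' : Nice H') :
    ∫ w, T1 φ ζ U s H w * T1 φ ζ U s' H' w =
      ∫ z', H' z' * ∫ z, GG φ ζ U s s' z z' * H z :=
  pair (kk_ker P hU hW s) (kk_ker P hU hW s') hH hH'

/-- the interaction of the short point `(z', s')` with the weight `H` on the scales `s ≤ s'`. -/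
def PP (φ ζ : ℝ → ℝ) (U : ℝ × ℝ → ℝ) (H : ℕ → ℝ × ℝ → ℝ) (s' : ℕ) (z' : ℝ × ℝ) : ℝ :=
  ∑ s ∈ Finset.range (s' + 1), ∫ z, GG φ ζ U s s' z z' * H s z

theorem PP_meas {φ ζ : ℝ → ℝ} (P : PZ φ ζ) {U : ℝ × ℝ → ℝ} (hU : Measurable U) {W : ℝ}
    (hW : ∀ z, |U z| ≤ W) {S : ℕ} {H : ℕ → ℝ × ℝ → ℝ} (hH : ∀ s < S, Nice (H s)) {s' : ℕ}
    (hs : s' < S) : Nice (PP φ ζ U H s') :=
  nice_sum _ fun s h => (GG_ker P hU hW s s').nice (hH s (by
    have := Finset.mem_range.1 h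
    omega))

/-- **ordered expansion**. -/
theorem sq_expand {φ ζ : ℝ → ℝ} (P : PZ φ ζ) {U : ℝ × ℝ → ℝ} (hU : Measurable U) {W : ℝ}
    (hW : ∀ z, |U z| ≤ W) (S : ℕ) {H : ℕ → ℝ × ℝ → ℝ} (hH : ∀ s < S, Nice (H s)) :
    ∫ w, (TS φ ζ U S H w) ^ 2 ≤
      2 * ∫ z', ∑ s' ∈ Finset.range S, H s' z' * PP φ ζ U H s' z' := by
  have hT : ∀ s < S, Nice (T1 φ ζ U s (H s)) := fun s hs => T1_nice P hU hW s (hH s hs)
  have h1 : ∀ s' < S, ∀ s < S, Integrable
      (fun w => T1 φ ζ U s' (H s') w * T1 φ ζ U s (H s) w) := fun s' hs' s hs =>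
    nice_int (nice_mul (hT s' hs') (hT s hs))
  calc ∫ w, (TS φ ζ U S H w) ^ 2
      ≤ ∫ w, 2 * ∑ s' ∈ Finset.range S, T1 φ ζ U s' (H s') w *
          ∑ s ∈ Finset.range (s' + 1), T1 φ ζ U s (H s) w := by
        refine integral_mono (nice_int ?_) (nice_int ?_) fun w => sq_sum_le S _
        · exact nice_sq (TS_nice P hU hW S hH)
        · refine nice_smul 2 (nice_sum _ fun s' hs' => ?_)
          have hs'' := Finset.mem_range.1 hs'
          refine nice_mul (hT s' hs'') (nice_sum _ fun s hs => hT s ?_)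
          have := Finset.mem_range.1 hs
          omega
    _ = 2 * ∑ s' ∈ Finset.range S, ∑ s ∈ Finset.range (s' + 1),
          ∫ w, T1 φ ζ U s' (H s') w * T1 φ ζ U s (H s) w := by
        rw [integral_const_mul]
        congr 1
        rw [integral_finsetSum]
        · refine Finset.sum_congr rfl fun s' hs' => ?_
          have hs'' := Finset.mem_range.1 hs'
          rw [← integral_finsetSum]
          · congr 1
            funext w
            rw [Finset.mul_sum]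
          · intro s hs
            have := Finset.mem_range.1 hs
            exact h1 s' hs'' s (by omega)
        · intro s' hs'
          have hs'' := Finset.mem_range.1 hs'
          refine nice_int (nice_mul (hT s' hs'') (nice_sum _ fun s hs => hT s ?_))
          have := Finset.mem_range.1 hs
          omega
    _ = 2 * ∑ s' ∈ Finset.range S, ∫ z', H s' z' * PP φ ζ U H s' z' := by
        congr 1
        refine Finset.sum_congr rfl fun s' hs' => ?_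
        have hs'' := Finset.mem_range.1 hs'
        have e : ∀ s ∈ Finset.range (s' + 1), ∫ w, T1 φ ζ U s' (H s') w * T1 φ ζ U s (H s) w =
            ∫ z', H s' z' * ∫ z, GG φ ζ U s s' z z' * H s z := by
          intro s hs
          have := Finset.mem_range.1 hs
          rw [← pair_scales P hU hW s s' (hH s (by omega)) (hH s' hs'')]
          congr 1; funext w; ring
        rw [Finset.sum_congr rfl e, ← integral_finsetSum]
        · congr 1
          funext z'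
          rw [← Finset.mul_sum]
          rfl
        · intro s hs
          have := Finset.mem_range.1 hs
          exact nice_int (nice_mul (hH s' hs'') ((GG_ker P hU hW s s').nice (hH s (by omega))))
    _ = _ := by
        congr 1
        rw [integral_finsetSum]
        intro s' hs'
        have hs'' := Finset.mem_range.1 hs'
        exact nice_int (nice_mul (hH s' hs'') (PP_meas P hU hW hH hs''))

/-! ### Cells -/

theorem ix_succ (s : ℕ) (x : ℝ) : ix s x = ix (s + 1) x / 2 := by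
  unfold ix
  have h : (2 : ℝ) ^ s * x = ((2 : ℝ) ^ (s + 1) * x) / ((2 : ℕ) : ℝ) := by
    rw [pow_succ]; push_cast; ring
  rw [h, Int.floor_div_natCast]; rfl

/-- cells are nested -/
theorem ix_mono {r s : ℕ} (h : r ≤ s) {x y : ℝ} (hxy : ix s x = ix s y) : ix r x = ix r y := by
  induction s with
  | zero => have : r = 0 := by omega
            subst this; exact hxy
  | succ s ih =>
    rcases Nat.lt_or_ge r (s + 1) with h1 | h1
    · apply ih (by omega)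
      rw [ix_succ s x, ix_succ s y, hxy]
    · have : r = s + 1 := by omega
      subst this; exact hxy

/-- only nested cells interact. -/
theorem GG_cell {φ ζ : ℝ → ℝ} (P : PZ φ ζ) {U : ℝ × ℝ → ℝ} {s s' : ℕ} (hs : s ≤ s')
    {z z' : ℝ × ℝ} (h : GG φ ζ U s s' z z' ≠ 0) : ix s z.1 = ix s z'.1 := by
  have h1 : ∃ w, kk φ ζ U s z w * kk φ ζ U s' z' w ≠ 0 := by
    by_contra h0
    push Not at h0
    apply h
    unfold GG
    simp [h0]
  obtain ⟨w, hw⟩ := h1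
  have h2 : ix s w.1 = ix s z.1 := kk_cell P (left_ne_zero_of_mul hw)
  have h3 : ix s' w.1 = ix s' z'.1 := kk_cell P (right_ne_zero_of_mul hw)
  rw [← h2]
  exact ix_mono hs h3

/-- autocorrelation of the profile. -/
def ac (φ : ℝ → ℝ) (r : ℝ) : ℝ := ∫ v, φ (r + v) * φ v

theorem ac_eq (φ : ℝ → ℝ) (a b : ℝ) : ∫ v, φ (a - v) * φ (b - v) = ac φ (a - b) := by
  unfold ac
  rw [← integral_sub_left_eq_self (fun v => φ (a - b + v) * φ v) volume b]
  congr 1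
  funext v
  congr 2
  ring

/-- explicit form of the Gram kernel. -/
theorem GG_eq {φ ζ : ℝ → ℝ} (P : PZ φ ζ) {U : ℝ × ℝ → ℝ} (hU : Measurable U) {W : ℝ}
    (hW : ∀ z, |U z| ≤ W) (s s' : ℕ) (z z' : ℝ × ℝ) :
    GG φ ζ U s s' z z' = (2 : ℝ) ^ s * gt (Int.fract ((2 : ℝ) ^ s * z.1)) *
      ((2 : ℝ) ^ s' * gt (Int.fract ((2 : ℝ) ^ s' * z'.1))) *
      ∫ u, ζ ((2 : ℝ) ^ s * u - ix s z.1) * ζ ((2 : ℝ) ^ s' * u - ix s' z'.1) *
        ac φ (ln U z u - ln U z' u) := by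
  have h1 : Integrable (fun w => kk φ ζ U s z w * kk φ ζ U s' z' w) :=
    nice_int (nice_mul ((kk_ker P hU hW s).sec' z) ((kk_ker P hU hW s').sec' z'))
  unfold GG
  rw [Measure.volume_eq_prod, integral_prod _ (by rwa [Measure.volume_eq_prod] at h1)]
  rw [← integral_const_mul]
  congr 1
  funext u
  have h2 : ∀ v : ℝ, kk φ ζ U s z (u, v) * kk φ ζ U s' z' (u, v) =
      ((2 : ℝ) ^ s * gt (Int.fract ((2 : ℝ) ^ s * z.1)) *
      ((2 : ℝ) ^ s' * gt (Int.fract ((2 : ℝ) ^ s' * z'.1))) *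
      (ζ ((2 : ℝ) ^ s * u - ix s z.1) * ζ ((2 : ℝ) ^ s' * u - ix s' z'.1))) *
      (φ (ln U z u - v) * φ (ln U z' u - v)) := by
    intro v
    unfold kk
    ring
  simp only [h2]
  rw [integral_const_mul, ac_eq]
  ring

/-! ### Linearity, restriction of weights -/

theorem T1_add {φ ζ : ℝ → ℝ} (P : PZ φ ζ) {U : ℝ × ℝ → ℝ} (hU : Measurable U) {W : ℝ}
    (hW : ∀ z, |U z| ≤ W) (s : ℕ) {H H' : ℝ × ℝ → ℝ} (hH : Nice H) (hH' : Nice H') (w : ℝ × ℝ) :
    T1 φ ζ U s (fun z => H z + H' z) w = T1 φ ζ U s H w + T1 φ ζ U s H' w := by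
  have hK := kk_ker P hU hW s
  unfold T1
  rw [← integral_add (nice_int (hK.sec hH w)) (nice_int (hK.sec hH' w))]
  congr 1; funext z; ring

theorem T1_smul (φ ζ : ℝ → ℝ) (U : ℝ × ℝ → ℝ) (s : ℕ) (a : ℝ) (H : ℝ × ℝ → ℝ) (w : ℝ × ℝ) :
    T1 φ ζ U s (fun z => a * H z) w = a * T1 φ ζ U s H w := by
  unfold T1
  rw [← integral_const_mul]
  congr 1; funext z; ring

theorem T1_sum {φ ζ : ℝ → ℝ} (P : PZ φ ζ) {U : ℝ × ℝ → ℝ} (hU : Measurable U) {W : ℝ}
    (hW : ∀ z, |U z| ≤ W) (s : ℕ) {ι : Type*} (t : Finset ι) {H : ι → ℝ × ℝ → ℝ}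
    (hH : ∀ i ∈ t, Nice (H i)) (w : ℝ × ℝ) :
    T1 φ ζ U s (fun z => ∑ i ∈ t, H i z) w = ∑ i ∈ t, T1 φ ζ U s (H i) w := by
  have hK := kk_ker P hU hW s
  unfold T1
  rw [← integral_finsetSum t (fun i hi => nice_int (hK.sec (hH i hi) w))]
  congr 1; funext z; rw [Finset.mul_sum]

theorem TS_add {φ ζ : ℝ → ℝ} (P : PZ φ ζ) {U : ℝ × ℝ → ℝ} (hU : Measurable U) {W : ℝ}
    (hW : ∀ z, |U z| ≤ W) (S : ℕ) {H H' : ℕ → ℝ × ℝ → ℝ} (hH : ∀ s < S, Nice (H s))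
    (hH' : ∀ s < S, Nice (H' s)) (w : ℝ × ℝ) :
    TS φ ζ U S (fun s z => H s z + H' s z) w = TS φ ζ U S H w + TS φ ζ U S H' w := by
  unfold TS
  rw [← Finset.sum_add_distrib]
  refine Finset.sum_congr rfl fun s hs => ?_
  have := Finset.mem_range.1 hs
  exact T1_add P hU hW s (hH s this) (hH' s this) w

theorem TS_smul (φ ζ : ℝ → ℝ) (U : ℝ × ℝ → ℝ) (S : ℕ) (a : ℝ) (H : ℕ → ℝ × ℝ → ℝ) (w : ℝ × ℝ) :
    TS φ ζ U S (fun s z => a * H s z) w = a * TS φ ζ U S H w := by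
  unfold TS
  rw [Finset.mul_sum]
  exact Finset.sum_congr rfl fun s _ => T1_smul φ ζ U s a (H s) w

theorem TS_sum {φ ζ : ℝ → ℝ} (P : PZ φ ζ) {U : ℝ × ℝ → ℝ} (hU : Measurable U) {W : ℝ}
    (hW : ∀ z, |U z| ≤ W) (S : ℕ) {ι : Type*} (t : Finset ι) {H : ι → ℕ → ℝ × ℝ → ℝ}
    (hH : ∀ i ∈ t, ∀ s < S, Nice (H i s)) (w : ℝ × ℝ) :
    TS φ ζ U S (fun s z => ∑ i ∈ t, H i s z) w = ∑ i ∈ t, TS φ ζ U S (H i) w := by
  unfold TS
  rw [Finset.sum_comm]
  refine Finset.sum_congr rfl fun s hs => ?_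
  have := Finset.mem_range.1 hs
  exact T1_sum P hU hW s t (fun i hi => hH i hi s this) w

/-- `Tst` is `TS` of the constant chain. -/
theorem Tst_eq {φ ζ : ℝ → ℝ} (P : PZ φ ζ) {U : ℝ × ℝ → ℝ} (hU : Measurable U) {W : ℝ}
    (hW : ∀ z, |U z| ≤ W) (S : ℕ) {h : ℝ × ℝ → ℝ} (hh : Nice h) :
    Tst φ ζ S U h = TS φ ζ U S (fun _ => h) := by
  funext w
  unfold Tst TS T1
  rw [← integral_finsetSum _ (fun s _ => nice_int ((kk_ker P hU hW s).sec hh w))]
  congr 1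
  funext z
  unfold gk kk ln ix
  rw [Finset.sum_mul, Finset.sum_mul]

/-- chains of a nice function are nice. -/
theorem Ch_nice {h : ℝ × ℝ → ℝ} (hh : Nice h) {H : ℕ → ℝ × ℝ → ℝ} (hH : Ch h H) (s : ℕ) :
    Nice (H s) := by
  obtain ⟨lo, hi, h1, h2, h3⟩ := hH
  have e : H s = {z | lo z ≤ s ∧ s < hi z}.indicator h := by
    funext z
    rw [h3 s z]
    by_cases hz : lo z ≤ s ∧ s < hi z
    · rw [if_pos hz, Set.indicator_of_mem (show z ∈ {z | lo z ≤ s ∧ s < hi z} from hz)]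
    · rw [if_neg hz, Set.indicator_of_notMem (show z ∉ {z | lo z ≤ s ∧ s < hi z} from hz)]
  rw [e]
  exact nice_ind hh ((measurableSet_le h1 measurable_const).inter
    (measurableSet_lt measurable_const h2))

/-! ### Regrouping by trees -/

theorem PP_sum {φ ζ : ℝ → ℝ} (P : PZ φ ζ) {U : ℝ × ℝ → ℝ} (hU : Measurable U) {W : ℝ}
    (hW : ∀ z, |U z| ≤ W) {S : ℕ} {ι : Type*} (t : Finset ι) {Hm : ι → ℕ → ℝ × ℝ → ℝ}
    (hH : ∀ i ∈ t, ∀ s < S, Nice (Hm i s)) {s' : ℕ} (hs : s' < S) (z' : ℝ × ℝ) :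
    PP φ ζ U (fun s z => ∑ i ∈ t, Hm i s z) s' z' = ∑ i ∈ t, PP φ ζ U (Hm i) s' z' := by
  unfold PP
  rw [Finset.sum_comm]
  refine Finset.sum_congr rfl fun s h => ?_
  have := Finset.mem_range.1 h
  have hK := GG_ker P hU hW s s'
  rw [← integral_finsetSum t (fun i hi => nice_int (hK.sec (hH i hi s (by omega)) z'))]
  congr 1; funext z; rw [Finset.mul_sum]

/-- **ordered expansion, grouped by trees**: `H = ∑_m H_m`. -/
theorem sq_trees {φ ζ : ℝ → ℝ} (P : PZ φ ζ) {U : ℝ × ℝ → ℝ} (hU : Measurable U) {W : ℝ}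
    (hW : ∀ z, |U z| ≤ W) (S : ℕ) {ι : Type*} (t : Finset ι) {Hm : ι → ℕ → ℝ × ℝ → ℝ}
    (hm : ∀ i ∈ t, ∀ s < S, Nice (Hm i s)) {H : ℕ → ℝ × ℝ → ℝ}
    (hH : ∀ s < S, ∀ z, H s z = ∑ i ∈ t, Hm i s z) :
    ∫ w, (TS φ ζ U S H w) ^ 2 ≤
      2 * ∑ i ∈ t, ∫ z', |∑ s' ∈ Finset.range S, H s' z' * PP φ ζ U (Hm i) s' z'| := by
  have hn : ∀ s < S, Nice (H s) := fun s hs => by
    have e : H s = fun z => ∑ i ∈ t, Hm i s z := by funext z; exact hH s hs z
    rw [e]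
    exact nice_sum t fun i hi => hm i hi s hs
  have hn2 : ∀ i ∈ t, Nice (fun z' => ∑ s' ∈ Finset.range S, H s' z' * PP φ ζ U (Hm i) s' z') :=
    fun i hi => nice_sum _ fun s' hs' => nice_mul (hn s' (Finset.mem_range.1 hs'))
      (PP_meas P hU hW (hm i hi) (Finset.mem_range.1 hs'))
  refine (sq_expand P hU hW S hn).trans ?_
  refine mul_le_mul_of_nonneg_left ?_ (by norm_num)
  have e : (∫ z', ∑ s' ∈ Finset.range S, H s' z' * PP φ ζ U H s' z') =
      ∑ i ∈ t, ∫ z', ∑ s' ∈ Finset.range S, H s' z' * PP φ ζ U (Hm i) s' z' := by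
    rw [← integral_finsetSum t fun i hi => nice_int (hn2 i hi)]
    congr 1
    funext z'
    rw [Finset.sum_comm]
    refine Finset.sum_congr rfl fun s' hs' => ?_
    have hs'' := Finset.mem_range.1 hs'
    rw [← Finset.mul_sum, ← PP_sum P hU hW t hm hs'']
    congr 1
    unfold PP
    refine Finset.sum_congr rfl fun s hs => ?_
    have := Finset.mem_range.1 hs
    congr 1
    funext z
    rw [hH s (by omega)]
  rw [e]
  refine Finset.sum_le_sum fun i hi => ?_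
  exact integral_mono (nice_int (hn2 i hi)) (nice_int (hn2 i hi)).abs fun z => le_abs_self _

end Crest.Agent.R087.Sqx282
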