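import Crest.Agent.R087.OP0_270
import Crest.Agent.R087.Sq_282

/-!
Row 87 (S0115), operator part: the literal leaf `OP0x270.SQ` (helper282).
-/

set_option autoImplicit false

noncomputable section

open MeasureTheory Crest.Agent.R087.Sh0x283 Crest.Agent.R087.GateDefx273
open Crest.Agent.R087.OPdefx799 (ix ln kk T1 TS Ch)
open Crest.Agent.R087.OP0x270 Crest.Agent.R087.Sqx282

namespace Crest.Agent.R087.SqLx282

theorem tau_eq (φ ζ : ℝ → ℝ) (U : ℝ × ℝ → ℝ) (s : ℕ) (z w : ℝ × ℝ) :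
    tau φ ζ U s z w = kk φ ζ U s z w := rfl

theorem pr_eq (φ ζ : ℝ → ℝ) (U : ℝ × ℝ → ℝ) (s s' : ℕ) (z z' : ℝ × ℝ) :
    pr φ ζ U s s' z z' = GG φ ζ U s s' z z' := rfl

/-- the weights of a chain. -/
def Hc (lo hi : ℝ × ℝ → ℕ) (h : ℝ × ℝ → ℝ) (s : ℕ) (z : ℝ × ℝ) : ℝ :=
  if lo z ≤ s ∧ s < hi z then h z else 0

theorem Hc_nice {lo hi : ℝ × ℝ → ℕ} (h1 : Measurable lo) (h2 : Measurable hi) {h : ℝ × ℝ → ℝ}
    (hh : Nice h) (s : ℕ) : Nice (Hc lo hi h s) :=
  Ch_nice hh ⟨lo, hi, h1, h2, fun _ _ => rfl⟩ s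

/-- sums over a chain as sums over all scales. -/
theorem sum_chain {S : ℕ} {lo hi : ℝ × ℝ → ℕ} (hS : ∀ z, hi z ≤ S) (h : ℝ × ℝ → ℝ) (z : ℝ × ℝ)
    (f : ℕ → ℝ) : (∑ s ∈ Finset.Ico (lo z) (hi z), f s) * h z =
      ∑ s ∈ Finset.range S, f s * Hc lo hi h s z := by
  rw [Finset.sum_mul]
  have e : ∀ s ∈ Finset.range S, f s * Hc lo hi h s z =
      if s ∈ Finset.Ico (lo z) (hi z) then f s * h z else 0 := by
    intro s _
    unfold Hc
    simp only [Finset.mem_Ico]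
    split_ifs <;> simp
  rw [Finset.sum_congr rfl e, ← Finset.sum_filter]
  refine Finset.sum_congr ?_ fun _ _ => rfl
  ext s
  simp only [Finset.mem_filter, Finset.mem_range, Finset.mem_Ico]
  constructor
  · intro h1
    exact ⟨lt_of_lt_of_le h1.2 (hS z), h1⟩
  · intro h1
    exact h1.2

theorem Tc_eq {φ ζ : ℝ → ℝ} (P : PZ φ ζ) {U : ℝ × ℝ → ℝ} (hU : Measurable U) {W : ℝ}
    (hW : ∀ z, |U z| ≤ W) {S : ℕ} {lo hi : ℝ × ℝ → ℕ} (hC : Chain S lo hi) {h : ℝ × ℝ → ℝ}
    (hh : Nice h) (w : ℝ × ℝ) :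
    Tc φ ζ U lo hi h w = TS φ ζ U S (Hc lo hi h) w := by
  obtain ⟨h1, h2, hS⟩ := hC
  unfold Tc TS T1
  rw [← integral_finsetSum _
    (fun s _ => nice_int ((kk_ker P hU hW s).sec (Hc_nice h1 h2 hh s) w))]
  congr 1
  funext z
  exact sum_chain hS h z _

/-- `(∑ a)² ≤ 2 ∑ cc a a`. -/
theorem sq_sum_cc (S : ℕ) (a : ℕ → ℝ) : (∑ s ∈ Finset.range S, a s) ^ 2 ≤
    2 * ∑ s' ∈ Finset.range S, a s' * ∑ s ∈ Finset.range S, cc s s' * a s := by
  have key : ∀ s' ∈ Finset.range S, ∑ s ∈ Finset.range S, cc s s' * a s =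
      ∑ s ∈ Finset.range (s' + 1), a s := by
    intro s' hs'
    have hs := Finset.mem_range.1 hs'
    have e : ∀ s ∈ Finset.range S, cc s s' * a s = if s ∈ Finset.range (s' + 1) then a s else 0 := by
      intro s _
      unfold cc
      simp only [Finset.mem_range]
      by_cases h : s ≤ s'
      · rw [if_pos h, if_pos (by omega), one_mul]
      · rw [if_neg h, if_neg (by omega), zero_mul]
    rw [Finset.sum_congr rfl e, ← Finset.sum_filter]
    refine Finset.sum_congr ?_ fun _ _ => rfl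
    ext s
    simp only [Finset.mem_filter, Finset.mem_range]
    omega
  have e : ∑ s' ∈ Finset.range S, a s' * ∑ s ∈ Finset.range S, cc s s' * a s =
      ∑ s' ∈ Finset.range S, a s' * ∑ s ∈ Finset.range (s' + 1), a s :=
    Finset.sum_congr rfl fun s' hs' => by rw [key s' hs']
  rw [e]
  exact sq_sum_le S a

/-- **the literal leaf `SQ`**. -/
theorem sq {ζ : ℝ → ℝ} (hζ : ZetC ζ) : SQ ζ := by
  intro φ hφ hsφ U h S lo hi hU hW hh hC
  obtain ⟨W, hW⟩ := hW
  have P : PZ φ ζ := ⟨hφ, hζ.1.continuous, hsφ, hζ.2.1⟩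
  obtain ⟨h1, h2, hS⟩ := hC
  have hn : ∀ s, Nice (Hc lo hi h s) := fun s => Hc_nice h1 h2 hh s
  have hT : ∀ s, Nice (T1 φ ζ U s (Hc lo hi h s)) := fun s => T1_nice P hU hW s (hn s)
  have e1 : ∀ w, (Tc φ ζ U lo hi h w) ^ 2 ≤
      ∑ s' ∈ Finset.range S, ∑ s ∈ Finset.range S,
        2 * cc s s' * (T1 φ ζ U s (Hc lo hi h s) w * T1 φ ζ U s' (Hc lo hi h s') w) := by
    intro w
    rw [Tc_eq P hU hW ⟨h1, h2, hS⟩ hh w]
    unfold TS
    refine (sq_sum_cc S _).trans (le_of_eq ?_)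
    rw [Finset.mul_sum]
    refine Finset.sum_congr rfl fun s' _ => ?_
    rw [Finset.mul_sum, Finset.mul_sum]
    refine Finset.sum_congr rfl fun s _ => ?_
    ring
  have hI : ∀ s' s, Integrable (fun w => 2 * cc s s' *
      (T1 φ ζ U s (Hc lo hi h s) w * T1 φ ζ U s' (Hc lo hi h s') w)) := fun s' s =>
    (nice_int (nice_mul (hT s) (hT s'))).const_mul _
  have hTc : Nice (Tc φ ζ U lo hi h) := by
    have : Tc φ ζ U lo hi h = TS φ ζ U S (Hc lo hi h) := by
      funext w; exact Tc_eq P hU hW ⟨h1, h2, hS⟩ hh w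
    rw [this]
    exact TS_nice P hU hW S fun s _ => hn s
  have e2 : ∫ w, (Tc φ ζ U lo hi h w) ^ 2 ≤ ∑ s' ∈ Finset.range S, ∑ s ∈ Finset.range S,
      2 * cc s s' * ∫ z', Hc lo hi h s' z' * ∫ z, GG φ ζ U s s' z z' * Hc lo hi h s z := by
    refine (integral_mono (nice_int (nice_sq hTc))
      (integrable_finsetSum _ fun s' _ => integrable_finsetSum _ fun s _ => hI s' s) e1).trans
      (le_of_eq ?_)
    rw [integral_finsetSum _ (fun s' _ => integrable_finsetSum _ (fun s _ => hI s' s))]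
    refine Finset.sum_congr rfl fun s' _ => ?_
    rw [integral_finsetSum _ (fun s _ => hI s' s)]
    refine Finset.sum_congr rfl fun s _ => ?_
    rw [integral_const_mul, pair_scales P hU hW s s' (hn s) (hn s')]
  have hJ : ∀ s' s, Nice (fun z' => ∫ z, GG φ ζ U s s' z z' * Hc lo hi h s z) := fun s' s =>
    (GG_ker P hU hW s s').nice (hn s)
  -- the right hand side
  have e3 : ∀ s' z', (∫ z, Set.univ.indicator h z *
      ∑ s ∈ Finset.Ico (lo z) (hi z), cc s s' * pr φ ζ U s s' z z') =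
      ∑ s ∈ Finset.range S, cc s s' * ∫ z, GG φ ζ U s s' z z' * Hc lo hi h s z := by
    intro s' z'
    have e4 : ∀ z, Set.univ.indicator h z *
        ∑ s ∈ Finset.Ico (lo z) (hi z), cc s s' * pr φ ζ U s s' z z' =
        ∑ s ∈ Finset.range S, cc s s' * (GG φ ζ U s s' z z' * Hc lo hi h s z) := by
      intro z
      rw [Set.indicator_univ, mul_comm, sum_chain hS]
      refine Finset.sum_congr rfl fun s _ => ?_
      rw [pr_eq]
      ring
    simp only [e4]
    rw [integral_finsetSum _ (fun s _ =>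
      (nice_int ((GG_ker P hU hW s s').sec (hn s) z')).const_mul _)]
    refine Finset.sum_congr rfl fun s _ => ?_
    rw [integral_const_mul]
  have e5 : ∀ z', h z' * Pair φ ζ U Set.univ lo hi h (lo z') (hi z') z' =
      ∑ s' ∈ Finset.range S, ∑ s ∈ Finset.range S,
        cc s s' * (Hc lo hi h s' z' * ∫ z, GG φ ζ U s s' z z' * Hc lo hi h s z) := by
    intro z'
    unfold Pair
    rw [mul_comm, sum_chain hS]
    refine Finset.sum_congr rfl fun s' _ => ?_
    rw [e3, Finset.sum_mul]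
    refine Finset.sum_congr rfl fun s _ => ?_
    ring
  have hI2 : ∀ s' s, Integrable (fun z' => cc s s' *
      (Hc lo hi h s' z' * ∫ z, GG φ ζ U s s' z z' * Hc lo hi h s z)) := fun s' s =>
    (nice_int (nice_mul (hn s') (hJ s' s))).const_mul _
  refine e2.trans (le_of_eq ?_)
  simp only [e5]
  rw [integral_finsetSum _ (fun s' _ => integrable_finsetSum _ (fun s _ => hI2 s' s)),
    Finset.mul_sum]
  refine Finset.sum_congr rfl fun s' _ => ?_
  rw [integral_finsetSum _ (fun s _ => hI2 s' s), Finset.mul_sum]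
  refine Finset.sum_congr rfl fun s _ => ?_
  rw [integral_const_mul]
  ring

theorem l_sq : L_SQ := fun _ hζ => sq hζ

end Crest.Agent.R087.SqLx282
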