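import Crest.Agent.R087.GateDef_273

/-!
Row 87, operator part, leaf T1 (tree energy lemma; note 1723 (3) (T1), note 1649 EXP): literal Prop.

`cel s x`  : index of the dyadic cell of length `2^-s` containing `x` (the notation of `gat1`).
`ga s x`   : gate `gt (fract (2^s x))`.
`al h act s m` = `2^s ∫_{z : cel s z.1 = m, z ∈ act s} ga s z.1 * h z`.
`FF h act s0 s x` = `∑_{s0 ≤ i < s} ga i x * al h act i (cel i x)` (partial sums of the gate martingale).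

`T1` : in a tree over the cell `(s0, m0)`, with the density bound `D` on every cell which contains an
active cell, `∑ |J| al_J² ≤ C (H D)² |I|`, and the maximal partial sum is controlled in `L²`.
-/

set_option autoImplicit false

noncomputable section

open MeasureTheory Crest.Agent.R087.Sh0x283 Crest.Agent.R087.GateDefx273

namespace Crest.Agent.R087.T1x90

/-- dyadic cell index -/
def cel (s : ℕ) (x : ℝ) : ℤ := ⌊(2 : ℝ) ^ s * x⌋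

/-- gate -/
def ga (s : ℕ) (x : ℝ) : ℝ := gt (Int.fract ((2 : ℝ) ^ s * x))

/-- coefficient of the cell `(s, m)` -/
def al (h : ℝ × ℝ → ℝ) (act : ℕ → Set (ℝ × ℝ)) (s : ℕ) (m : ℤ) : ℝ :=
  (2 : ℝ) ^ s * ∫ z in {z : ℝ × ℝ | cel s z.1 = m} ∩ act s, ga s z.1 * h z

/-- partial sums of the gate martingale -/
def FF (h : ℝ × ℝ → ℝ) (act : ℕ → Set (ℝ × ℝ)) (s0 s : ℕ) (x : ℝ) : ℝ :=
  ∑ i ∈ Finset.Ico s0 s, ga i x * al h act i (cel i x)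

/-- the standing hypotheses of a tree: top cell `(s0,m0)`, population `Z`, activity `act`
(an interval of scales for every point), amplitude `H`, density `D`. -/
structure Tree (S s0 : ℕ) (m0 : ℤ) (h : ℝ × ℝ → ℝ) (act : ℕ → Set (ℝ × ℝ)) (Z : Set (ℝ × ℝ))
    (H D : ℝ) : Prop where
  nice : Nice h
  bd : ∀ z, |h z| ≤ H
  D0 : 0 ≤ D
  mZ : MeasurableSet Z
  off : ∀ z, z ∉ Z → h z = 0
  top : ∀ z ∈ Z, cel s0 z.1 = m0
  mact : ∀ s, MeasurableSet (act s)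
  lo : ∀ s, s < s0 → Disjoint (act s) Z
  hi : ∀ s, S ≤ s → Disjoint (act s) Z
  conv : ∀ z ∈ Z, ∀ s s' s'', s ≤ s' → s' ≤ s'' → z ∈ act s → z ∈ act s'' → z ∈ act s'
  dens : ∀ z ∈ Z, ∀ s, s0 ≤ s → (∃ s', s ≤ s' ∧ z ∈ act s') →
    volume (Z ∩ {w : ℝ × ℝ | cel s w.1 = cel s z.1}) ≤ ENNReal.ofReal (D * (1 / 2) ^ s)

/-- energy bound of a tree -/
def T1 : Prop := ∃ C : ℝ, 0 ≤ C ∧ ∀ (S s0 : ℕ) (m0 : ℤ) (h : ℝ × ℝ → ℝ) (act : ℕ → Set (ℝ × ℝ))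
  (Z : Set (ℝ × ℝ)) (H D : ℝ), s0 ≤ S → Tree S s0 m0 h act Z H D →
    ∑ s ∈ Finset.Ico s0 S, ∫ x, (al h act s (cel s x)) ^ 2 ≤ C * (H * D) ^ 2 * (1 / 2) ^ s0

/-- maximal partial sums (Doob) -/
def T1max : Prop := ∀ (S s0 : ℕ) (m0 : ℤ) (h : ℝ × ℝ → ℝ) (act : ℕ → Set (ℝ × ℝ))
  (Z : Set (ℝ × ℝ)) (H D : ℝ), s0 ≤ S → Tree S s0 m0 h act Z H D →
    ∃ G : ℝ → ℝ, Measurable G ∧ (∀ x s, s ≤ S → |FF h act s0 s x| ≤ G x) ∧
      (∃ R : ℝ, ∀ x, R < |x| → G x = 0) ∧ (∃ B : ℝ, ∀ x, |G x| ≤ B) ∧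
      ∫ x, (G x) ^ 2 ≤ 4 * ∑ s ∈ Finset.Ico s0 S, ∫ x, (al h act s (cel s x)) ^ 2

end Crest.Agent.R087.T1x90
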