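import Crest.Agent.R087.OPdef_799
import Crest.Agent.R087.T1def_90

/-!
Row 87 (S0115), OPERATOR PART, interface for ONE TREE (helper153, owner of T3), in the notation of
`T1def_90` (`cel`, `ga`, `al`, `Tree`).

A LOW tree: population `Z` over the top cell `(s0,m0)`, activity `act s` (interval of scales for every
point), the line `t ↦ b + m t` is `1`-near every active pair.

* `rv b m z`  : vertical coordinate of `z` relative to the line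
* `aL Ψ … s v x` : `α_s(x; v) = 2^s ∫_{z : cell_s, active} gate * h z * Ψ (v - rv z) dz`
* `FL`        : partial sums `∑_{r<s} ζ_r(x) α_r(x; v)`
* `bL`        : `β_s(x; v) = 2^s ∫_{u ∈ cell_s(x)} ζ_s(u) ∑_{r ≤ s} ζ_r(u) α_r(u; v) du`
* `eL`        : `2^s ∫_{z : cell_s, active} |h z| |U z - m| 2^-s dz`
* `kact act σ`: the kept activity (`s < σ (z.1)`)

`T3` : stopping scale `σ` with kept bounds (input of all PAIR-LOW leaves), `T3P` : the same for the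
positive Carleson sums (input of PAIR-TOP).

Sign convention for the pairing with a short point `w`: the pair kernel is
`Φ (ln U w u - ln U z u)`, and `ln U w u - (b + m u) = rv b m w + (u - w.1) (U w - m)`,
`ln U z u - (b + m u) = rv b m z + (u - z.1) (U z - m)`.
-/

set_option autoImplicit false

noncomputable section

open MeasureTheory Crest.Agent.R087.Sh0x283 Crest.Agent.R087.GateDefx273 Crest.Agent.R087.T1x90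

namespace Crest.Agent.R087.TreeIfx153

/-- vertical coordinate relative to the line `t ↦ b + m t` -/
def rv (b m : ℝ) (z : ℝ × ℝ) : ℝ := z.2 - (b + m * z.1)

/-- `α_s(x; v)` -/
def aL (Ψ : ℝ → ℝ) (b m : ℝ) (h : ℝ × ℝ → ℝ) (act : ℕ → Set (ℝ × ℝ)) (s : ℕ) (v x : ℝ) : ℝ :=
  al (fun z => h z * Ψ (v - rv b m z)) act s (cel s x)

/-- partial sums `∑_{r<s} ζ_r(x) α_r(x; v)` -/
def FL (ζ Ψ : ℝ → ℝ) (b m : ℝ) (h : ℝ × ℝ → ℝ) (act : ℕ → Set (ℝ × ℝ)) (s : ℕ) (v x : ℝ) : ℝ :=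
  ∑ r ∈ Finset.range s, ζ (Int.fract ((2 : ℝ) ^ r * x)) * aL Ψ b m h act r v x

/-- `β_s(x; v)` (scales `r ≤ s`, the scale `s` included) -/
def bL (ζ Ψ : ℝ → ℝ) (b m : ℝ) (h : ℝ × ℝ → ℝ) (act : ℕ → Set (ℝ × ℝ)) (s : ℕ) (v x : ℝ) : ℝ :=
  (2 : ℝ) ^ s * ∫ u in {u : ℝ | cel s u = cel s x},
    ζ (Int.fract ((2 : ℝ) ^ s * u)) * FL ζ Ψ b m h act (s + 1) v u

/-- positive sums with weights `w` -/
def pL (w : ℕ → ℝ × ℝ → ℝ) (h : ℝ × ℝ → ℝ) (act : ℕ → Set (ℝ × ℝ)) (s : ℕ) (x : ℝ) : ℝ :=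
  (2 : ℝ) ^ s * ∫ z in {z : ℝ × ℝ | cel s z.1 = cel s x} ∩ act s, |h z| * w s z

/-- the weight of the straightening error -/
def wU (U : ℝ × ℝ → ℝ) (m : ℝ) (s : ℕ) (z : ℝ × ℝ) : ℝ := |U z - m| * (1 / 2) ^ s

/-- error sums of a LOW tree -/
def eL (U : ℝ × ℝ → ℝ) (m : ℝ) (h : ℝ × ℝ → ℝ) (act : ℕ → Set (ℝ × ℝ)) (s : ℕ) (x : ℝ) : ℝ :=
  pL (wU U m) h act s x

/-- kept activity -/
def kact (act : ℕ → Set (ℝ × ℝ)) (σ : ℝ → ℕ) (s : ℕ) : Set (ℝ × ℝ) := act s ∩ {z | s < σ z.1}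

/-- removed points -/
def remv (act : ℕ → Set (ℝ × ℝ)) (Z : Set (ℝ × ℝ)) (σ : ℝ → ℕ) : Set (ℝ × ℝ) :=
  {z | z ∈ Z ∧ ∃ s, z ∈ act s ∧ σ z.1 ≤ s}

/-- a LOW tree -/
structure LTree (S s0 : ℕ) (m0 : ℤ) (h : ℝ × ℝ → ℝ) (act : ℕ → Set (ℝ × ℝ)) (Z : Set (ℝ × ℝ))
    (H D : ℝ) (U : ℝ × ℝ → ℝ) (b m : ℝ) : Prop extends Tree S s0 m0 h act Z H D where
  mU : Measurable U
  H0 : 0 ≤ H
  rv1 : ∀ z ∈ Z, ∀ s, z ∈ act s → |rv b m z| ≤ 1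
  sl1 : ∀ z ∈ Z, ∀ s, z ∈ act s → |U z - m| * (1 / 2) ^ s ≤ 1

/-- profiles `Ψ 0, …, Ψ (P+1)` -/
structure PF (P : ℕ) (Ψ : ℕ → ℝ → ℝ) : Prop where
  der : ∀ i ≤ P, ∀ v, HasDerivAt (Ψ i) (Ψ (i + 1) v) v
  cont : ∀ i ≤ P + 1, Continuous (Ψ i)
  supp : ∀ i ≤ P + 1, ∀ v, 2 < |v| → Ψ i v = 0
  bd : ∀ i ≤ P + 1, ∀ v, |Ψ i v| ≤ 1

/-- stopping scale: integer valued function whose level sets are unions of cells -/
structure StopS (S : ℕ) (σ : ℝ → ℕ) : Prop where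
  meas : Measurable σ
  le : ∀ x, σ x ≤ S
  cell : ∀ s x y, cel s x = cel s y → (s < σ x ↔ s < σ y)

/-- **T3**: stopping of one LOW tree. -/
def T3 (ζ : ℝ → ℝ) : Prop := ∀ P : ℕ, ∃ C : ℝ, 0 ≤ C ∧
  ∀ (Ψ : ℕ → ℝ → ℝ), PF P Ψ → ∀ (S s0 : ℕ) (m0 : ℤ) (h : ℝ × ℝ → ℝ) (act : ℕ → Set (ℝ × ℝ))
    (Z : Set (ℝ × ℝ)) (H D : ℝ) (U : ℝ × ℝ → ℝ) (b m : ℝ), s0 ≤ S →
    LTree S s0 m0 h act Z H D U b m → ∀ T : ℝ, H * D ≤ T → 0 < T →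
    ∃ σ : ℝ → ℕ, StopS S σ ∧
      volume {x | σ x < S} ≤ ENNReal.ofReal (C * (H * D / T) ^ 2 * (1 / 2) ^ s0) ∧
      volume (remv act Z σ) ≤ ENNReal.ofReal (C * D * (H * D / T) ^ 2 * (1 / 2) ^ s0) ∧
      (∀ i ≤ P, ∀ s ≤ S, ∀ v x, |FL ζ (Ψ i) b m h (kact act σ) s v x| ≤ C * T) ∧
      (∀ i ≤ P, ∀ s v x, |aL (Ψ i) b m h (kact act σ) s v x| ≤ C * T) ∧
      (∀ i ≤ P, ∀ a c, a ≤ c → c ≤ S → ∀ v x,
        |∑ s ∈ Finset.Ico a c, ga s x * bL ζ (Ψ i) b m h (kact act σ) s v x| ≤ C * T) ∧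
      (∀ x, ∑ s ∈ Finset.range S, eL U m h (kact act σ) s x ≤ C * T)

/-- **T3P**: stopping of the positive sums (TOP operators; weights `w` with `∑_s w_s(z) ≤ 1` over the
active scales of every point). -/
def T3P : Prop := ∃ C : ℝ, 0 ≤ C ∧
  ∀ (S s0 : ℕ) (m0 : ℤ) (h : ℝ × ℝ → ℝ) (act : ℕ → Set (ℝ × ℝ)) (Z : Set (ℝ × ℝ)) (H D : ℝ)
    (w : ℕ → ℝ × ℝ → ℝ), s0 ≤ S → Tree S s0 m0 h act Z H D → 0 ≤ H →
    (∀ s, Measurable (w s)) → (∀ s z, 0 ≤ w s z) →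
    (∀ z ∈ Z, ∀ A : Finset ℕ, (∀ s ∈ A, z ∈ act s) → ∑ s ∈ A, w s z ≤ 1) →
    ∀ T : ℝ, H * D ≤ T → 0 < T →
    ∃ σ : ℝ → ℕ, StopS S σ ∧
      volume {x | σ x < S} ≤ ENNReal.ofReal (C * (H * D / T) ^ 2 * (1 / 2) ^ s0) ∧
      volume (remv act Z σ) ≤ ENNReal.ofReal (C * D * (H * D / T) ^ 2 * (1 / 2) ^ s0) ∧
      (∀ x, ∑ s ∈ Finset.range S, pL w h (kact act σ) s x ≤ C * T)

end Crest.Agent.R087.TreeIfx153
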