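import Crest.Agent.R087.Carp_929
import Crest.Agent.R087.TreeIf_153

/-!
Row 87, operator part, leaf T2c (helper929): the positive sums of one tree in the notation of
`TreeIf_153` (`pL`, `eL`).

* `pL_sq`  : `∫ (∑_{s<S} pL w h act s)² ≤ 2 (H c D)² 2^-s0`, weights with sums over active scales `≤ c`
* `eL_sq`  : the same for `eL` (`c = 2`)
* `pL_cell`, `sum_pL_nonneg`, `measurable_sum_pL`, `sum_pL_bound`, `sum_pL_supp`
-/

set_option autoImplicit false

noncomputable section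

open MeasureTheory Crest.Agent.R087.Sh0x283 Crest.Agent.R087.GateDefx273 Crest.Agent.R087.T1x90
open Crest.Agent.R087.TreeIfx153 Crest.Agent.R087.Carpx929
open scoped ENNReal

namespace Crest.Agent.R087.T2cx929

variable {S s0 : ℕ} {m0 : ℤ} {h : ℝ × ℝ → ℝ} {act : ℕ → Set (ℝ × ℝ)} {Z : Set (ℝ × ℝ)} {H D : ℝ}

/-- the density of `pL` -/
def bb (w : ℕ → ℝ × ℝ → ℝ) (h : ℝ × ℝ → ℝ) (act : ℕ → Set (ℝ × ℝ)) (s : ℕ) : ℝ × ℝ → ℝ :=
  (act s).indicator fun z => |h z| * w s z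

theorem pL_eq (w : ℕ → ℝ × ℝ → ℝ) (h : ℝ × ℝ → ℝ) {act : ℕ → Set (ℝ × ℝ)}
    (hact : ∀ s, MeasurableSet (act s)) (s : ℕ) (x : ℝ) :
    pL w h act s x = rb (bb w h act s) s (cel s x) := by
  rw [pL, rb, bb, setIntegral_indicator (hact s)]

theorem bb_nonneg {w : ℕ → ℝ × ℝ → ℝ} (hw : ∀ s z, 0 ≤ w s z) (h : ℝ × ℝ → ℝ)
    (act : ℕ → Set (ℝ × ℝ)) (s : ℕ) (z : ℝ × ℝ) : 0 ≤ bb w h act s z :=
  Set.indicator_nonneg (fun z _ => mul_nonneg (abs_nonneg _) (hw s z)) z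

theorem measurable_bb {w : ℕ → ℝ × ℝ → ℝ} (hw : ∀ s, Measurable (w s)) {h : ℝ × ℝ → ℝ}
    (hh : Measurable h) {act : ℕ → Set (ℝ × ℝ)} (hact : ∀ s, MeasurableSet (act s)) (s : ℕ) :
    Measurable (bb w h act s) := by
  refine Measurable.indicator ?_ (hact s)
  exact (continuous_abs.measurable.comp hh).mul (hw s)

theorem bb_ne {w : ℕ → ℝ × ℝ → ℝ} (ht : Tree S s0 m0 h act Z H D) (s : ℕ) (z : ℝ × ℝ)
    (hz : bb w h act s z ≠ 0) : z ∈ Z ∧ z ∈ act s := by
  have h1 : z ∈ act s := by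
    by_contra hc
    exact hz (Set.indicator_of_notMem hc _)
  refine ⟨?_, h1⟩
  by_contra hc
  apply hz
  rw [bb, Set.indicator_of_mem h1, ht.off z hc]
  simp

theorem sum_bb_le {w : ℕ → ℝ × ℝ → ℝ} (ht : Tree S s0 m0 h act Z H D) (hH : 0 ≤ H)
    (hw0 : ∀ s z, 0 ≤ w s z) {c : ℝ} (hc : 0 ≤ c)
    (hw : ∀ z ∈ Z, ∀ A : Finset ℕ, (∀ s ∈ A, z ∈ act s) → ∑ s ∈ A, w s z ≤ c) (F : Finset ℕ)
    (z : ℝ × ℝ) : ∑ s ∈ F, bb w h act s z ≤ H * c := by
  classical
  by_cases hz : z ∈ Z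
  · have h1 : ∀ s ∈ F, bb w h act s z = if z ∈ act s then |h z| * w s z else 0 := by
      intro s _
      rw [bb, Set.indicator_apply]
    rw [Finset.sum_congr rfl h1, ← Finset.sum_filter, ← Finset.mul_sum]
    have h2 := hw z hz (F.filter fun s => z ∈ act s) fun s hs => (Finset.mem_filter.1 hs).2
    have h3 : 0 ≤ ∑ s ∈ F.filter (fun s => z ∈ act s), w s z := Finset.sum_nonneg fun s _ => hw0 s z
    exact mul_le_mul (ht.bd z) h2 h3 hH
  · have : ∑ s ∈ F, bb w h act s z = 0 := by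
      refine Finset.sum_eq_zero fun s _ => ?_
      by_contra hne
      exact hz (bb_ne ht s z hne).1
    rw [this]
    exact mul_nonneg hH hc

/-- below the top scale nothing happens -/
theorem pL_lo {w : ℕ → ℝ × ℝ → ℝ} (ht : Tree S s0 m0 h act Z H D) (hact : ∀ s, MeasurableSet (act s))
    {s : ℕ} (hs : s < s0) (x : ℝ) : pL w h act s x = 0 := by
  rw [pL_eq w h hact]
  have : bb w h act s = fun _ => 0 := by
    funext z
    by_contra hne
    obtain ⟨h1, h2⟩ := bb_ne ht s z hne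
    exact Set.disjoint_left.1 (ht.lo s hs) h2 h1
  rw [this, rb]
  simp

theorem sum_pL_eq {w : ℕ → ℝ × ℝ → ℝ} (ht : Tree S s0 m0 h act Z H D) (hs : s0 ≤ S) (x : ℝ) :
    ∑ s ∈ Finset.range S, pL w h act s x = RS (bb w h act) s0 S x := by
  rw [RS, Finset.range_eq_Ico, ← Finset.sum_Ico_consecutive _ (Nat.zero_le s0) hs]
  rw [Finset.sum_eq_zero fun s hs => pL_lo ht ht.mact (Finset.mem_Ico.1 hs).2 x, zero_add]
  exact Finset.sum_congr rfl fun s _ => pL_eq w h ht.mact s x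

/-- **T2c** -/
theorem pL_sq {w : ℕ → ℝ × ℝ → ℝ} (ht : Tree S s0 m0 h act Z H D) (hs : s0 ≤ S) (hH : 0 ≤ H)
    (hwm : ∀ s, Measurable (w s)) (hw0 : ∀ s z, 0 ≤ w s z) {c : ℝ} (hc : 0 ≤ c)
    (hw : ∀ z ∈ Z, ∀ A : Finset ℕ, (∀ s ∈ A, z ∈ act s) → ∑ s ∈ A, w s z ≤ c) :
    ∫ x, (∑ s ∈ Finset.range S, pL w h act s x) ^ 2 ≤ 2 * (H * c * D) ^ 2 * (1 / 2) ^ s0 := by
  simp_rw [sum_pL_eq ht hs]
  exact tree_RS ht (measurable_bb hwm ht.nice.1 ht.mact) (bb_nonneg hw0 h act) (bb_ne ht)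
    fun z => sum_bb_le ht hH hw0 hc hw _ z

theorem pL_nonneg {w : ℕ → ℝ × ℝ → ℝ} (hw0 : ∀ s z, 0 ≤ w s z) (h : ℝ × ℝ → ℝ)
    (act : ℕ → Set (ℝ × ℝ)) (s : ℕ) (x : ℝ) : 0 ≤ pL w h act s x :=
  mul_nonneg (by positivity) (integral_nonneg fun z => mul_nonneg (abs_nonneg _) (hw0 s z))

theorem sum_pL_nonneg {w : ℕ → ℝ × ℝ → ℝ} (hw0 : ∀ s z, 0 ≤ w s z) (h : ℝ × ℝ → ℝ)
    (act : ℕ → Set (ℝ × ℝ)) (F : Finset ℕ) (x : ℝ) : 0 ≤ ∑ s ∈ F, pL w h act s x :=
  Finset.sum_nonneg fun s _ => pL_nonneg hw0 h act s x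

theorem measurable_pL (w : ℕ → ℝ × ℝ → ℝ) (h : ℝ × ℝ → ℝ) (act : ℕ → Set (ℝ × ℝ)) (s : ℕ) :
    Measurable (pL w h act s) := by
  have h1 : pL w h act s = (fun j : ℤ => (2 : ℝ) ^ s *
      ∫ z in {z : ℝ × ℝ | cel s z.1 = j} ∩ act s, |h z| * w s z) ∘ cel s := rfl
  rw [h1]
  exact (measurable_of_countable _).comp (measurable_cel s)

/-- `pL` depends on the cell only -/
theorem pL_congr (w : ℕ → ℝ × ℝ → ℝ) (h : ℝ × ℝ → ℝ) (act : ℕ → Set (ℝ × ℝ)) {s : ℕ} {x y : ℝ}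
    (hxy : cel s x = cel s y) : pL w h act s x = pL w h act s y := by
  rw [pL, pL, hxy]

/-- `pL` lives over the top cell -/
theorem pL_supp {w : ℕ → ℝ × ℝ → ℝ} (ht : Tree S s0 m0 h act Z H D) (s : ℕ) {x : ℝ}
    (hx : cel s0 x ≠ m0) : pL w h act s x = 0 := by
  rcases Nat.lt_or_ge s s0 with hs | hs
  · exact pL_lo ht ht.mact hs x
  · rw [pL_eq w h ht.mact, rb, setIntegral_congr_fun (measurableSet_cel2 s _) (g := fun _ => 0)]
    · simp
    · intro z hz
      by_contra hne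
      obtain ⟨h1, h2⟩ := bb_ne ht s z hne
      apply hx
      rw [← ht.top z h1]
      exact (cel_mono hs hz).symm

/-- the mass of the population is finite as soon as something is active -/
theorem volume_pop (ht : Tree S s0 m0 h act Z H D) {z : ℝ × ℝ} (hz : z ∈ Z) {s : ℕ}
    (hs : z ∈ act s) {r : ℕ} (h0 : s0 ≤ r) (hr : r ≤ s) :
    volume (Z ∩ {w : ℝ × ℝ | cel r w.1 = cel r z.1}) ≤ ENNReal.ofReal (D * (1 / 2) ^ r) :=
  ht.dens z hz r h0 ⟨s, hr, hs⟩

/-- one scale is bounded by `H c D` -/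
theorem pL_le {w : ℕ → ℝ × ℝ → ℝ} (ht : Tree S s0 m0 h act Z H D) (hH : 0 ≤ H)
    (hwm : ∀ s, Measurable (w s)) (hw0 : ∀ s z, 0 ≤ w s z) {c : ℝ} (hc : 0 ≤ c)
    (hw : ∀ z ∈ Z, ∀ s, z ∈ act s → w s z ≤ c) (s : ℕ) (x : ℝ) :
    pL w h act s x ≤ H * c * D := by
  have hD := ht.D0
  by_cases hex : ∃ z ∈ Z, z ∈ act s ∧ cel s z.1 = cel s x
  · obtain ⟨z0, hz0, ha0, hc0⟩ := hex
    have hs0 : s0 ≤ s := by
      by_contra hcon
      exact Set.disjoint_left.1 (ht.lo s (by omega)) ha0 hz0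
    have h1 := volume_pop ht hz0 ha0 hs0 le_rfl
    have hfin : volume (Z ∩ {w : ℝ × ℝ | cel s w.1 = cel s z0.1}) ≠ ⊤ :=
      ne_top_of_le_ne_top ENNReal.ofReal_ne_top h1
    have h2 : pL w h act s x ≤ 2 ^ s * ∫ z in Z ∩ {w : ℝ × ℝ | cel s w.1 = cel s z0.1}, H * c := by
      rw [pL, ← hc0]
      gcongr
      have e1 : ∫ z in {z : ℝ × ℝ | cel s z.1 = cel s z0.1} ∩ act s, |h z| * w s z =
          ∫ z in Z ∩ {w : ℝ × ℝ | cel s w.1 = cel s z0.1},
            (act s).indicator (fun z => |h z| * w s z) z := by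
        rw [← integral_indicator ((measurableSet_cel2 s _).inter (ht.mact s)),
          ← integral_indicator (ht.mZ.inter (measurableSet_cel2 s _))]
        congr 1
        funext z
        by_cases h3 : cel s z.1 = cel s z0.1
        · by_cases h4 : z ∈ act s
          · have h34 : z ∈ {z : ℝ × ℝ | cel s z.1 = cel s z0.1} ∩ act s := ⟨h3, h4⟩
            rw [Set.indicator_of_mem h34]
            by_cases h5 : z ∈ Z
            · have h53 : z ∈ Z ∩ {w : ℝ × ℝ | cel s w.1 = cel s z0.1} := ⟨h5, h3⟩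
              rw [Set.indicator_of_mem h53, Set.indicator_of_mem h4]
            · rw [Set.indicator_of_notMem (fun h => h5 h.1), ht.off z h5]
              simp
          · rw [Set.indicator_of_notMem (fun h => h4 h.2)]
            by_cases h5 : z ∈ Z
            · have h53 : z ∈ Z ∩ {w : ℝ × ℝ | cel s w.1 = cel s z0.1} := ⟨h5, h3⟩
              rw [Set.indicator_of_mem h53, Set.indicator_of_notMem h4]
            · rw [Set.indicator_of_notMem (fun h => h5 h.1)]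
        · rw [Set.indicator_of_notMem (fun h => h3 h.1), Set.indicator_of_notMem (fun h => h3 h.2)]
      rw [e1]
      refine setIntegral_mono_on ?_ (integrableOn_const hfin)
        (ht.mZ.inter (measurableSet_cel2 s _)) (fun z hz => ?_)
      · refine Integrable.mono' (g := fun _ => H * c) (integrableOn_const hfin) ?_ ?_
        · exact (measurable_bb hwm ht.nice.1 ht.mact s).aestronglyMeasurable
        · rw [ae_restrict_iff' (ht.mZ.inter (measurableSet_cel2 s _))]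
          refine Filter.Eventually.of_forall fun z hz => ?_
          have hnn : 0 ≤ (act s).indicator (fun z => |h z| * w s z) z := bb_nonneg hw0 h act s z
          rw [Real.norm_of_nonneg hnn]
          by_cases h4 : z ∈ act s
          · rw [Set.indicator_of_mem h4]
            exact mul_le_mul (ht.bd z) (hw z hz.1 s h4) (hw0 s z) hH
          · rw [Set.indicator_of_notMem h4]
            positivity
      · by_cases h4 : z ∈ act s
        · rw [Set.indicator_of_mem h4]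
          exact mul_le_mul (ht.bd z) (hw z hz.1 s h4) (hw0 s z) hH
        · rw [Set.indicator_of_notMem h4]
          positivity
    refine h2.trans ?_
    rw [setIntegral_const, smul_eq_mul]
    have h3 : (volume (Z ∩ {w : ℝ × ℝ | cel s w.1 = cel s z0.1})).toReal ≤ D * (1 / 2) ^ s :=
      ENNReal.toReal_le_of_le_ofReal (by positivity) h1
    have h4 : volume.real (Z ∩ {w : ℝ × ℝ | cel s w.1 = cel s z0.1}) ≤ D * (1 / 2) ^ s := h3
    calc 2 ^ s * (volume.real (Z ∩ {w : ℝ × ℝ | cel s w.1 = cel s z0.1}) * (H * c))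
        ≤ 2 ^ s * (D * (1 / 2) ^ s * (H * c)) := by gcongr
      _ = H * c * D * (2 ^ s * (1 / 2) ^ s) := by ring
      _ = H * c * D := by rw [← mul_pow]; norm_num
  · have : pL w h act s x = 0 := by
      rw [pL_eq w h ht.mact, rb, setIntegral_congr_fun (measurableSet_cel2 s _) (g := fun _ => 0)]
      · simp
      · intro z hz
        by_contra hne
        obtain ⟨h1, h2⟩ := bb_ne ht s z hne
        exact hex ⟨z, h1, h2, hz⟩
    rw [this]
    positivity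

/-! ### the error sums of a LOW tree -/

theorem wU_nonneg (U : ℝ × ℝ → ℝ) (m : ℝ) (s : ℕ) (z : ℝ × ℝ) : 0 ≤ wU U m s z :=
  mul_nonneg (abs_nonneg _) (by positivity)

theorem measurable_wU {U : ℝ × ℝ → ℝ} (hU : Measurable U) (m : ℝ) (s : ℕ) :
    Measurable (wU U m s) :=
  (continuous_abs.measurable.comp (hU.sub_const m)).mul_const _

/-- the sum of `|U z - m| 2^-s` over active scales is at most two -/
theorem sum_wU_le {U : ℝ × ℝ → ℝ} {b m : ℝ} (ht : LTree S s0 m0 h act Z H D U b m) {z : ℝ × ℝ}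
    (hz : z ∈ Z) (A : Finset ℕ) (hA : ∀ s ∈ A, z ∈ act s) : ∑ s ∈ A, wU U m s z ≤ 2 := by
  rcases A.eq_empty_or_nonempty with he | hne
  · rw [he]; simp
  · set r := A.min' hne with hr
    have hrA : r ∈ A := A.min'_mem hne
    have h1 := ht.sl1 z hz r (hA r hrA)
    have h2 : ∑ s ∈ A, wU U m s z = (|U z - m| * (1 / 2) ^ r) * ∑ s ∈ A, (1 / 2 : ℝ) ^ (s - r) := by
      rw [Finset.mul_sum]
      refine Finset.sum_congr rfl fun s hs => ?_
      have h3 : r ≤ s := A.min'_le s hs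
      rw [wU, mul_assoc, ← pow_add, Nat.add_sub_cancel' h3]
    have h4 : ∑ s ∈ A, (1 / 2 : ℝ) ^ (s - r) ≤ 2 := by
      have h5 : ∑ s ∈ A, (1 / 2 : ℝ) ^ (s - r) = ∑ i ∈ A.image (fun s => s - r), (1 / 2 : ℝ) ^ i := by
        rw [Finset.sum_image]
        intro s hs t ht' hst
        have h3 : r ≤ s := A.min'_le s hs
        have h4 : r ≤ t := A.min'_le t ht'
        simp only at hst
        omega
      rw [h5]
      exact (Summable.sum_le_tsum _ (fun i _ => by positivity) summable_geometric_two).trans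
        tsum_geometric_two.le
    rw [h2]
    have h6 : 0 ≤ ∑ s ∈ A, (1 / 2 : ℝ) ^ (s - r) := Finset.sum_nonneg fun _ _ => by positivity
    calc |U z - m| * (1 / 2) ^ r * ∑ s ∈ A, (1 / 2 : ℝ) ^ (s - r)
        ≤ 1 * ∑ s ∈ A, (1 / 2 : ℝ) ^ (s - r) := by gcongr
      _ ≤ 2 := by rw [one_mul]; exact h4

/-- **T2c** for the straightening errors of a LOW tree -/
theorem eL_sq {U : ℝ × ℝ → ℝ} {b m : ℝ} (ht : LTree S s0 m0 h act Z H D U b m) (hs : s0 ≤ S) :
    ∫ x, (∑ s ∈ Finset.range S, eL U m h act s x) ^ 2 ≤ 8 * (H * D) ^ 2 * (1 / 2) ^ s0 := by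
  refine (pL_sq ht.toTree hs ht.H0 (measurable_wU ht.mU m) (wU_nonneg U m) (c := 2) (by norm_num)
    fun z hz A hA => sum_wU_le ht hz A hA).trans (le_of_eq ?_)
  ring

theorem eL_le {U : ℝ × ℝ → ℝ} {b m : ℝ} (ht : LTree S s0 m0 h act Z H D U b m) (s : ℕ) (x : ℝ) :
    eL U m h act s x ≤ H * D := by
  refine (pL_le ht.toTree ht.H0 (measurable_wU ht.mU m) (wU_nonneg U m) (c := 1) (by norm_num)
    (fun z hz s hs => ht.sl1 z hz s hs) s x).trans (le_of_eq ?_)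
  ring

end Crest.Agent.R087.T2cx929
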