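import Crest.Agent.R087.T3a_153
import Crest.Agent.R087.T2c_929

/-!
Row 87 (S0115), OPERATOR PART (helper153): leaf **T3** (stopping of one LOW tree), literally as in
`TreeIf_153`.
-/

set_option autoImplicit false

noncomputable section

open MeasureTheory Crest.Agent.R087.Sh0x283 Crest.Agent.R087.Sh1x283 Crest.Agent.R087.GateDefx273
open Crest.Agent.R087.T1x90 Crest.Agent.R087.TreeIfx153 Crest.Agent.R087.Dyax738
open Crest.Agent.R087.DyaZx738 Crest.Agent.R087.TreeAx153
open scoped ENNReal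

namespace Crest.Agent.R087.T3x153

section

variable {b m : ℝ} {h : ℝ × ℝ → ℝ} {act : ℕ → Set (ℝ × ℝ)} {S s0 : ℕ} {m0 : ℤ}
  {Z : Set (ℝ × ℝ)} {H D : ℝ} {U : ℝ × ℝ → ℝ} {ζ : ℝ → ℝ} {K : ℝ}

theorem nice_eL (T : LTree S s0 m0 h act Z H D U b m) :
    Nice1 fun x => ∑ s ∈ Finset.range S, eL U m h act s x := by
  refine nice_sum _ _ fun s _ => ⟨T2cx929.measurable_pL _ _ _ _, ⟨H * D, fun x => ?_⟩,
    ⟨|(m0 : ℝ)| + 1, fun x hx => ?_⟩⟩
  · have h0 : 0 ≤ eL U m h act s x := T2cx929.pL_nonneg (T2cx929.wU_nonneg U m) h act s x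
    rw [abs_of_nonneg h0]
    exact T2cx929.eL_le T s x
  · refine T2cx929.pL_supp T.toTree s fun hc => ?_
    have h1 := cell_dist (s := s0) (x := x) (y := (m0 : ℝ) / 2 ^ s0) (by
      rw [dx_left]; exact hc)
    have h2 := pw_le_one s0
    have h3 : |(m0 : ℝ) / 2 ^ s0| ≤ |(m0 : ℝ)| := by
      rw [abs_div, abs_of_pos (pw s0)]
      exact div_le_self (abs_nonneg _) (one_le_pow₀ (by norm_num))
    have h4 := abs_sub_abs_le_abs_sub x ((m0 : ℝ) / 2 ^ s0)
    linarith

theorem th3_int (T : LTree S s0 m0 h act Z H D U b m) (hS : s0 ≤ S) :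
    ∫⁻ x, Th3 (wU U m) h act S x ≤ ENNReal.ofReal (8 * (H * D) ^ 2 * (1 / 2) ^ s0) := by
  unfold Th3
  have h1 := T2cx929.eL_sq T hS
  have h2 := ofReal_integral_eq_lintegral_ofReal (nice_int (nice_sq (nice_eL T)))
    (Filter.Eventually.of_forall fun x => sq_nonneg _)
  have h3 : (∫⁻ x, ENNReal.ofReal ((∑ s ∈ Finset.range S, pL (wU U m) h act s x) ^ 2)) =
      ENNReal.ofReal (∫ x, (∑ s ∈ Finset.range S, eL U m h act s x) ^ 2) := h2.symm
  rw [h3]
  exact ENNReal.ofReal_le_ofReal h1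

/-- the function `Θ` of a LOW tree -/
def Th (ζ : ℝ → ℝ) (K : ℝ) (P : ℕ) (Ψ : ℕ → ℝ → ℝ) (b m : ℝ) (U h : ℝ × ℝ → ℝ)
    (act : ℕ → Set (ℝ × ℝ)) (S : ℕ) (x : ℝ) : ℝ≥0∞ :=
  (∑ i ∈ Finset.range (P + 1), (Th1 ζ K (Ψ (i + 1)) b m h act S x + Th2 ζ (Ψ (i + 1)) b m h act S x))
    + Th3 (wU U m) h act S x

theorem th1_meas (hζ : ZB ζ K) (T : Tree S s0 m0 h act Z H D) {Ψ : ℝ → ℝ} (hc : Continuous Ψ) :
    Measurable (Th1 ζ K Ψ b m h act S) := by
  have h1 := jm_GZ (a := fun r v x => aL Ψ b m h act r v x)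
      (fun r => jm_aL T.nice.1 hc.measurable (T.mact r)) hζ S
  have h2 : Measurable (Function.uncurry fun x v => ENNReal.ofReal
      (GZ ζ K (fun r => aL Ψ b m h act r v) S x)) :=
    (h1.comp measurable_swap).ennreal_ofReal
  exact h2.lintegral_prod_right

theorem th2_meas (T : Tree S s0 m0 h act Z H D) {Ψ : ℝ → ℝ} (hc : Continuous Ψ) :
    Measurable (Th2 ζ Ψ b m h act S) := by
  have h1 := (jm_Mx (jm_GS (a := fun r v x => aL Ψ b m h act r v x)
      (fun r => jm_aL (b := b) (m := m) T.nice.1 hc.measurable (T.mact r)) (ζ := ζ) S)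
      (S + 1)).pow_const 2
  have h2 : Measurable (Function.uncurry fun x v => ENNReal.ofReal
      ((Mx (GS (bz ζ fun r => aL Ψ b m h act r v) S) (S + 1) x) ^ 2)) :=
    (h1.comp measurable_swap).ennreal_ofReal
  exact h2.lintegral_prod_right

theorem th_int (hζ : ZB ζ K) {P : ℕ} {Ψ : ℕ → ℝ → ℝ} (hP : PF P Ψ)
    (T : LTree S s0 m0 h act Z H D U b m) (hS : s0 ≤ S) :
    ∫⁻ x, Th ζ K P Ψ b m U h act S x ≤ ENNReal.ofReal
      (((P + 1 : ℕ) * (16128 * K ^ 2 + 9216 * K ^ 4) + 8) * (H * D) ^ 2 * (1 / 2) ^ s0) := by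
  unfold Th
  have hc : ∀ i ∈ Finset.range (P + 1), Continuous (Ψ (i + 1)) := fun i hi =>
    hP.cont _ (by have := Finset.mem_range.1 hi; omega)
  have hb : ∀ i ∈ Finset.range (P + 1), ∀ v, |Ψ (i + 1) v| ≤ 1 := fun i hi =>
    hP.bd _ (by have := Finset.mem_range.1 hi; omega)
  have hm1 : ∀ i ∈ Finset.range (P + 1), Measurable fun x =>
      Th1 ζ K (Ψ (i + 1)) b m h act S x + Th2 ζ (Ψ (i + 1)) b m h act S x := fun i hi =>
    (th1_meas hζ T.toTree (hc i hi)).add (th2_meas T.toTree (hc i hi))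
  rw [lintegral_add_left (Finset.measurable_fun_sum _ hm1), lintegral_finsetSum' _
    (fun i hi => (hm1 i hi).aemeasurable)]
  have h1 : ∀ i ∈ Finset.range (P + 1), ∫⁻ x, (Th1 ζ K (Ψ (i + 1)) b m h act S x +
      Th2 ζ (Ψ (i + 1)) b m h act S x) ≤
      ENNReal.ofReal ((16128 * K ^ 2 + 9216 * K ^ 4) * (H * D) ^ 2 * (1 / 2) ^ s0) := by
    intro i hi
    rw [lintegral_add_left (th1_meas hζ T.toTree (hc i hi))]
    refine (add_le_add (th1_int hζ T.toTree (hc i hi) (hb i hi) hS)
      (th2_int hζ T.toTree (hc i hi) (hb i hi) hS)).trans ?_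
    rw [← ENNReal.ofReal_add (by positivity) (by positivity)]
    refine ENNReal.ofReal_le_ofReal (le_of_eq ?_)
    ring
  refine (add_le_add (Finset.sum_le_sum h1) (th3_int T hS)).trans ?_
  rw [Finset.sum_const, Finset.card_range, ← ENNReal.ofReal_nsmul,
    ← ENNReal.ofReal_add (by positivity) (by positivity)]
  refine ENNReal.ofReal_le_ofReal (le_of_eq ?_)
  rw [nsmul_eq_mul]
  ring

/-! ### pointwise bounds below the stopping scale -/

variable {P : ℕ} {Ψ : ℕ → ℝ → ℝ} {T : ℝ}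

theorem th1_le_th {i : ℕ} (hi : i ≤ P) (x : ℝ) :
    Th1 ζ K (Ψ (i + 1)) b m h act S x ≤ Th ζ K P Ψ b m U h act S x := by
  unfold Th
  refine le_trans ?_ le_self_add
  have := Finset.single_le_sum (f := fun i => Th1 ζ K (Ψ (i + 1)) b m h act S x +
    Th2 ζ (Ψ (i + 1)) b m h act S x) (fun _ _ => zero_le) (Finset.mem_range.2 (Nat.lt_succ_of_le hi))
  exact le_self_add.trans this

theorem th2_le_th {i : ℕ} (hi : i ≤ P) (x : ℝ) :
    Th2 ζ (Ψ (i + 1)) b m h act S x ≤ Th ζ K P Ψ b m U h act S x := by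
  unfold Th
  refine le_trans ?_ le_self_add
  have := Finset.single_le_sum (f := fun i => Th1 ζ K (Ψ (i + 1)) b m h act S x +
    Th2 ζ (Ψ (i + 1)) b m h act S x) (fun _ _ => zero_le) (Finset.mem_range.2 (Nat.lt_succ_of_le hi))
  exact le_add_self.trans this

theorem th3_le_th (x : ℝ) : Th3 (wU U m) h act S x ≤ Th ζ K P Ψ b m U h act S x := by
  unfold Th
  exact le_add_self

theorem far_FL (LT : LTree S s0 m0 h act Z H D U b m) (hP : PF P Ψ) {i : ℕ} (hi : i ≤ P)
    {v : ℝ} (hv : v ∉ Set.Icc (-4 : ℝ) 4) (r : ℕ) (x : ℝ) : aL (Ψ i) b m h act r v x = 0 := by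
  refine aL_far LT (hP.supp i (by omega)) r ?_ x
  rw [Set.mem_Icc, ← abs_le, not_le] at hv
  linarith

theorem jm1 {s : ℕ} (hm : Measurable h) {Ψ : ℝ → ℝ} (hΨ : Measurable Ψ)
    (hact : MeasurableSet (act s)) (x : ℝ) : Measurable fun v => aL Ψ b m h act s v x :=
  (jm_aL (b := b) (m := m) hm hΨ hact).comp (measurable_id.prodMk measurable_const)

/-- partial `ζ`-sums below the stopping scale -/
theorem fl_bound (hζ : ZB ζ K) (LT : LTree S s0 m0 h act Z H D U b m) (hP : PF P Ψ) (hT : 0 < T)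
    {i : ℕ} (hi : i ≤ P) {q : ℕ} {x : ℝ}
    (hq : q < sgE (Th ζ K P Ψ b m U h act S) (ENNReal.ofReal (T ^ 2)) S x) (v : ℝ) :
    |∑ r ∈ Finset.range (q + 1), zr ζ r x * aL (Ψ i) b m h act r v x| ≤ 3 * T := by
  by_cases hv : v ∈ Set.Icc (-4 : ℝ) 4
  swap
  · rw [Finset.sum_eq_zero fun r _ => by rw [far_FL LT hP hi hv r x, mul_zero], abs_zero]
    positivity
  have hqS := (lt_sgE.1 hq).1
  have hnh := (lt_sgE.1 hq).2 q le_rfl
  have hH := LT.H0
  have hc' := hP.cont (i + 1) (by omega)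
  have hb' := hP.bd (i + 1) (by omega)
  have hm' : ∀ r, Measurable fun t => aL (Ψ (i + 1)) b m h act r t x := fun r =>
    jm1 LT.nice.1 hc'.measurable (LT.mact r) x
  have hbd : ∀ r t, |aL (Ψ (i + 1)) b m h act r t x| ≤ H * D := fun r t =>
    abs_aL_le LT.toTree hH hc' hb' r t x
  have hHD : 0 ≤ H * D := (abs_nonneg _).trans (hbd 0 0)
  refine sup_of_int (f := fun v => ∑ r ∈ Finset.range (q + 1), zr ζ r x * aL (Ψ i) b m h act r v x)
    (f' := fun t => ∑ r ∈ Finset.range (q + 1), zr ζ r x * aL (Ψ (i + 1)) b m h act r t x)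
    (M := ∑ _r ∈ Finset.range (q + 1), K * (H * D)) ?_ ?_ ?_ hT ?_ v hv
  · exact Finset.measurable_fun_sum _ fun r _ => (hm' r).const_mul _
  · intro t
    refine (Finset.abs_sum_le_sum_abs _ _).trans (Finset.sum_le_sum fun r _ => ?_)
    rw [abs_mul]
    exact mul_le_mul (zr_bd hζ r x) (hbd r t) (abs_nonneg _) hζ.nonneg
  · intro v hv
    rw [intervalIntegral.integral_finsetSum]
    · refine Finset.sum_congr rfl fun r _ => ?_
      rw [intervalIntegral.integral_const_mul,
        aL_ftc LT (hP.der i hi) hc' (hP.supp i (by omega)) hb' r hv.1 x]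
    · intro r _
      refine IntervalIntegrable.const_mul ?_ _
      rw [intervalIntegrable_iff]
      exact Measure.integrableOn_of_bounded (M := H * D) (by simp [Set.uIoc])
        (hm' r).aestronglyMeasurable (Filter.Eventually.of_forall fun t => by
          rw [Real.norm_eq_abs]; exact hbd r t)
  · refine const_le hnh fun y hy => ?_
    refine le_trans ?_ (th1_le_th hi y)
    unfold Th1
    refine lintegral_mono fun t => ENNReal.ofReal_le_ofReal ?_
    exact z_major (a := fun r => aL (Ψ (i + 1)) b m h act r t) hζ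
      (fun r => aL_ad _ b m h act r t) (fun r => nice_aL LT.nice hc' hb' r t) hqS
      (u := x) (x := y) hy.symm

/-- partial gate sums of the `β` below the stopping scale -/
theorem gs_bound (hζ : ZB ζ K) (LT : LTree S s0 m0 h act Z H D U b m) (hP : PF P Ψ) (hT : 0 < T)
    {i : ℕ} (hi : i ≤ P) {q : ℕ} {x : ℝ}
    (hq : q < sgE (Th ζ K P Ψ b m U h act S) (ENNReal.ofReal (T ^ 2)) S x) (v : ℝ) :
    |GS (bz ζ fun r => aL (Ψ i) b m h act r v) (q + 1) x| ≤ 6 * T := by
  by_cases hv : v ∈ Set.Icc (-4 : ℝ) 4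
  swap
  · have h0 : GS (bz ζ fun r => aL (Ψ i) b m h act r v) (q + 1) x = 0 := by
      unfold GS bz
      refine Finset.sum_eq_zero fun s _ => ?_
      rw [Finset.sum_eq_zero fun r _ => by simp only [far_FL LT hP hi hv r x, zero_mul], mul_zero]
    rw [h0, abs_zero]
    positivity
  have hqS := (lt_sgE.1 hq).1
  have hnh := (lt_sgE.1 hq).2 q le_rfl
  have hH := LT.H0
  have hc' := hP.cont (i + 1) (by omega)
  have hb' := hP.bd (i + 1) (by omega)
  have hm' : ∀ r, Measurable fun t => aL (Ψ (i + 1)) b m h act r t x := fun r =>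
    jm1 LT.nice.1 hc'.measurable (LT.mact r) x
  have hbd : ∀ r t, |aL (Ψ (i + 1)) b m h act r t x| ≤ H * D := fun r t =>
    abs_aL_le LT.toTree hH hc' hb' r t x
  have hHD : 0 ≤ H * D := (abs_nonneg _).trans (hbd 0 0)
  have hii : ∀ r (v : ℝ), IntervalIntegrable (fun t => aL (Ψ (i + 1)) b m h act r t x) volume
      (-4) v := by
    intro r v
    rw [intervalIntegrable_iff]
    exact Measure.integrableOn_of_bounded (M := H * D) (by simp [Set.uIoc])
      (hm' r).aestronglyMeasurable (Filter.Eventually.of_forall fun t => by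
        rw [Real.norm_eq_abs]; exact hbd r t)
  have key := sup_of_int (f := fun v => GS (bz ζ fun r => aL (Ψ i) b m h act r v) (q + 1) x)
    (f' := fun t => GS (bz ζ fun r => aL (Ψ (i + 1)) b m h act r t) (q + 1) x)
    (M := ∑ s ∈ Finset.range (q + 1), ∑ r ∈ Finset.range (s + 1),
      (H * D) * |av s (fun u => zr ζ r u * zr ζ s u) x|) (T := 2 * T) ?_ ?_ ?_ (by positivity) ?_ v hv
  · calc _ ≤ 3 * (2 * T) := key
      _ = 6 * T := by ring
  · unfold GS bz
    exact Finset.measurable_fun_sum _ fun s _ => (Finset.measurable_fun_sum _ fun r _ =>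
      (hm' r).mul_const _).const_mul _
  · intro t
    unfold GS bz
    refine (Finset.abs_sum_le_sum_abs _ _).trans (Finset.sum_le_sum fun s _ => ?_)
    rw [abs_mul, gr_abs, one_mul]
    refine (Finset.abs_sum_le_sum_abs _ _).trans (Finset.sum_le_sum fun r _ => ?_)
    rw [abs_mul]
    exact mul_le_mul_of_nonneg_right (hbd r t) (abs_nonneg _)
  · intro v hv
    simp only [GS, bz]
    have i2 : ∀ s, IntervalIntegrable (fun t => ∑ r ∈ Finset.range (s + 1),
        aL (Ψ (i + 1)) b m h act r t x * av s (fun u => zr ζ r u * zr ζ s u) x) volume (-4) v := by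
      intro s
      have h5 := IntervalIntegrable.sum (Finset.range (s + 1))
        (f := fun r t => aL (Ψ (i + 1)) b m h act r t x * av s (fun u => zr ζ r u * zr ζ s u) x)
        (fun r _ => (hii r v).mul_const _)
      refine h5.congr fun t _ => ?_
      simp only [Finset.sum_apply]
    rw [intervalIntegral.integral_finsetSum fun s _ => (i2 s).const_mul _]
    refine Finset.sum_congr rfl fun s _ => ?_
    rw [intervalIntegral.integral_const_mul, intervalIntegral.integral_finsetSum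
      fun r _ => (hii r v).mul_const _]
    congr 1
    refine Finset.sum_congr rfl fun r _ => ?_
    rw [intervalIntegral.integral_mul_const,
      aL_ftc LT (hP.der i hi) hc' (hP.supp i (by omega)) hb' r hv.1 x]
  · have e4 : ENNReal.ofReal ((2 * T) ^ 2) = 4 * ENNReal.ofReal (T ^ 2) := by
      rw [mul_pow, ENNReal.ofReal_mul (by norm_num)]
      norm_num
    rw [e4]
    refine const_le4 hnh fun y hy => ?_
    refine le_trans ?_ (th2_le_th hi y)
    unfold Th2
    refine lintegral_mono fun t => ENNReal.ofReal_le_ofReal ?_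
    have hA : ∀ r, Ad r (bz ζ (fun r => aL (Ψ (i + 1)) b m h act r t) r) := fun r =>
      bz_ad (fun r => aL_ad _ b m h act r t) r
    have hN : ∀ r, Nice1 (bz ζ (fun r => aL (Ψ (i + 1)) b m h act r t) r) := fun r =>
      nice_bz hζ (fun r => nice_aL LT.nice hc' hb' r t) r
    have h1 := gate_partial hA hN hqS x
    have h2 : av (q + 2) (GS (bz ζ fun r => aL (Ψ (i + 1)) b m h act r t) S) x =
        av (q + 2) (GS (bz ζ fun r => aL (Ψ (i + 1)) b m h act r t) S) y :=
      av_ad _ _ x y hy.symm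
    show (GS (bz ζ fun r => aL (Ψ (i + 1)) b m h act r t) (q + 1) x) ^ 2 ≤ _
    rw [← h1, h2, ← sq_abs (av (q + 2) _ y)]
    exact pow_le_pow_left₀ (abs_nonneg _) (av_le_Mx _ (by omega) y) 2

/-- error sums below the stopping scale -/
theorem el_bound (hT : 0 < T) {q : ℕ} {x : ℝ}
    (hq : q < sgE (Th ζ K P Ψ b m U h act S) (ENNReal.ofReal (T ^ 2)) S x) :
    ∑ r ∈ Finset.range (q + 1), eL U m h act r x ≤ T := by
  have hqS := (lt_sgE.1 hq).1
  have hnh := (lt_sgE.1 hq).2 q le_rfl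
  have h0 : ∀ r y, 0 ≤ eL U m h act r y := fun r y =>
    T2cx929.pL_nonneg (T2cx929.wU_nonneg U m) h act r y
  have h1 : ENNReal.ofReal ((∑ r ∈ Finset.range (q + 1), eL U m h act r x) ^ 2) ≤
      ENNReal.ofReal (T ^ 2) := by
    refine const_le hnh fun y hy => ?_
    refine le_trans ?_ (th3_le_th y)
    unfold Th3
    refine ENNReal.ofReal_le_ofReal ?_
    refine pow_le_pow_left₀ (Finset.sum_nonneg fun r _ => h0 r x) ?_ 2
    calc ∑ r ∈ Finset.range (q + 1), eL U m h act r x =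
        ∑ r ∈ Finset.range (q + 1), eL U m h act r y := by
          refine Finset.sum_congr rfl fun r hr => ?_
          have hr' : r ≤ q := Nat.lt_succ_iff.1 (Finset.mem_range.1 hr)
          exact T2cx929.pL_congr _ _ _ (dx_mono hr' hy.symm)
      _ ≤ ∑ r ∈ Finset.range S, eL U m h act r y :=
          Finset.sum_le_sum_of_subset_of_nonneg (Finset.range_mono (Nat.succ_le_of_lt hqS))
            fun r _ _ => h0 r y
  have h2 := (ENNReal.ofReal_le_ofReal_iff (by positivity)).1 h1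
  exact (pow_le_pow_iff_left₀ (Finset.sum_nonneg fun r _ => h0 r x) hT.le two_ne_zero).1 h2

end

/-- **T3** -/
theorem t3 {ζ : ℝ → ℝ} (hz : ZetC ζ) : T3 ζ := by
  obtain ⟨K, hζ⟩ := zb_of hz
  intro P
  have hK := hζ.nonneg
  set C0 : ℝ := (P + 1 : ℕ) * (16128 * K ^ 2 + 9216 * K ^ 4) + 8 with hC0
  have hC00 : 0 ≤ C0 := by positivity
  refine ⟨2 * C0 + 12 + 4 * K ^ 2, by positivity, ?_⟩
  intro Ψ hP S s0 m0 h act Z H D U b m hS LT T hHT hT
  have hH := LT.H0
  have hD := LT.D0
  have hHD : 0 ≤ H * D := mul_nonneg hH hD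
  set Θ := Th ζ K P Ψ b m U h act S with hΘ
  set σ := sgE Θ (ENNReal.ofReal (T ^ 2)) S with hσ
  have hst : StopS S σ := sgE_stop _ _ _
  have hvol : volume {x | σ x < S} ≤ ENNReal.ofReal (C0 * (H * D / T) ^ 2 * (1 / 2) ^ s0) := by
    have h1 := (sgE_vol Θ (ENNReal.ofReal (T ^ 2)) S).trans (th_int hζ hP LT hS)
    rw [← hσ] at h1
    have hT2 : (0 : ℝ) < T ^ 2 := by positivity
    have h2 : volume {x | σ x < S} ≤ ENNReal.ofReal (C0 * (H * D) ^ 2 * (1 / 2) ^ s0) /
        ENNReal.ofReal (T ^ 2) := by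
      rw [ENNReal.le_div_iff_mul_le (Or.inl (by
        rw [Ne, ENNReal.ofReal_eq_zero, not_le]; exact hT2)) (Or.inl ENNReal.ofReal_ne_top), mul_comm]
      exact h1
    rw [← ENNReal.ofReal_div_of_pos hT2] at h2
    refine h2.trans (ENNReal.ofReal_le_ofReal (le_of_eq ?_))
    rw [div_pow]
    ring
  refine ⟨σ, hst, hvol.trans (ENNReal.ofReal_le_ofReal ?_), ?_, ?_, ?_, ?_, ?_⟩
  · have : C0 ≤ 2 * C0 + 12 + 4 * K ^ 2 := by nlinarith [sq_nonneg K]
    gcongr
  · refine (StopGx153.rem_vol LT.toTree hst).trans ?_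
    refine (mul_le_mul_right hvol _).trans ?_
    have e2 : (2 : ℝ≥0∞) = ENNReal.ofReal 2 := by norm_num
    rw [e2, ← ENNReal.ofReal_mul (by norm_num), ← ENNReal.ofReal_mul (by positivity)]
    refine ENNReal.ofReal_le_ofReal ?_
    have : 2 * D * (C0 * (H * D / T) ^ 2 * (1 / 2) ^ s0) =
        (2 * C0) * D * (H * D / T) ^ 2 * (1 / 2) ^ s0 := by ring
    rw [this]
    have : 2 * C0 ≤ 2 * C0 + 12 + 4 * K ^ 2 := by nlinarith [sq_nonneg K]
    gcongr
  · -- FL
    intro i hi s hs v x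
    rw [kept_FL hst]
    have hfin : (3 : ℝ) * T ≤ (2 * C0 + 12 + 4 * K ^ 2) * T := by
      have : (3 : ℝ) ≤ 2 * C0 + 12 + 4 * K ^ 2 := by nlinarith [sq_nonneg K]
      gcongr
    rcases Nat.eq_zero_or_pos (min s (σ x)) with h0 | h0
    · rw [h0, Finset.range_zero, Finset.sum_empty, abs_zero]
      positivity
    · obtain ⟨q, hq⟩ : ∃ q, min s (σ x) = q + 1 := ⟨min s (σ x) - 1, by omega⟩
      rw [hq]
      have hqσ : q < σ x := by omega
      exact (fl_bound hζ LT hP hT hi hqσ v).trans hfin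
  · -- aL
    intro i hi s v x
    rw [kept_aL hst]
    have h1 : |aL (Ψ i) b m h act s v x| ≤ H * D :=
      abs_aL_le LT.toTree hH (hP.cont i (by omega)) (hP.bd i (by omega)) s v x
    have h2 : T ≤ (2 * C0 + 12 + 4 * K ^ 2) * T := by
      have : (1 : ℝ) ≤ 2 * C0 + 12 + 4 * K ^ 2 := by nlinarith [sq_nonneg K]
      nlinarith
    split_ifs
    · exact (h1.trans hHT).trans h2
    · rw [abs_zero]; positivity
  · -- bL
    intro i hi a c hac hc v x
    have hbound : ∀ n ≤ S, |∑ s ∈ Finset.range n, ga s x * bL ζ (Ψ i) b m h (kact act σ) s v x| ≤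
        (6 + 2 * K ^ 2) * T := by
      intro n hn
      set k := min n (σ x) with hk
      have hkn : k ≤ n := min_le_left _ _
      rw [← Finset.sum_range_add_sum_Ico _ hkn]
      have p1 : |∑ s ∈ Finset.range k, ga s x * bL ζ (Ψ i) b m h (kact act σ) s v x| ≤ 6 * T := by
        have e : ∑ s ∈ Finset.range k, ga s x * bL ζ (Ψ i) b m h (kact act σ) s v x =
            GS (bz ζ fun r => aL (Ψ i) b m h act r v) k x := by
          unfold GS
          refine Finset.sum_congr rfl fun s hs => ?_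
          have hs' : s < σ x := lt_of_lt_of_le (Finset.mem_range.1 hs) (min_le_right _ _)
          rw [kept_bL hζ hst, bz_lt hs']
          rfl
        rw [e]
        rcases Nat.eq_zero_or_pos k with h0 | h0
        · rw [h0]
          simp only [GS, Finset.range_zero, Finset.sum_empty, abs_zero]
          positivity
        · obtain ⟨q, hq⟩ : ∃ q, k = q + 1 := ⟨k - 1, by omega⟩
          rw [hq]
          have hqσ : q < σ x := by omega
          exact gs_bound hζ LT hP hT hi hqσ v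
      have p2 : |∑ s ∈ Finset.Ico k n, ga s x * bL ζ (Ψ i) b m h (kact act σ) s v x| ≤
          2 * K ^ 2 * T := by
        rcases Nat.lt_or_ge (σ x) n with hlt | hge
        · have hkσ : k = σ x := by omega
          have h1 : ∀ s ∈ Finset.Ico k n, |ga s x * bL ζ (Ψ i) b m h (kact act σ) s v x| ≤
              K ^ 2 * (H * D) * ((2 : ℝ) ^ (σ x) / 2 ^ s) := by
            intro s hs
            rw [abs_mul, abs_ga, one_mul, kept_bL hζ hst]
            refine bz_ge hζ (fun r x => abs_aL_le LT.toTree hH (hP.cont i (by omega))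
              (hP.bd i (by omega)) r v x) ?_
            have := (Finset.mem_Ico.1 hs).1
            omega
          refine (Finset.abs_sum_le_sum_abs _ _).trans ((Finset.sum_le_sum h1).trans ?_)
          rw [← Finset.mul_sum]
          have h2 : ∑ s ∈ Finset.Ico k n, (2 : ℝ) ^ (σ x) / 2 ^ s ≤ 2 := by
            rw [hkσ, Finset.sum_Ico_eq_sum_range]
            have h3 : ∀ j ∈ Finset.range (n - σ x), (2 : ℝ) ^ (σ x) / 2 ^ (σ x + j) = (1 / 2) ^ j := by
              intro j _
              rw [pow_add, div_mul_eq_div_div, div_self (pw _).ne', one_div, one_div, inv_pow]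
            rw [Finset.sum_congr rfl h3]
            have h4 := Summable.sum_le_tsum (Finset.range (n - σ x)) (fun j _ => by positivity)
              summable_geometric_two
            rw [tsum_geometric_two] at h4
            exact h4
          calc K ^ 2 * (H * D) * ∑ s ∈ Finset.Ico k n, (2 : ℝ) ^ (σ x) / 2 ^ s ≤
              K ^ 2 * T * 2 := by gcongr
            _ = 2 * K ^ 2 * T := by ring
        · have hkn' : k = n := by omega
          rw [hkn', Finset.Ico_self, Finset.sum_empty, abs_zero]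
          positivity
      calc |(∑ s ∈ Finset.range k, ga s x * bL ζ (Ψ i) b m h (kact act σ) s v x) +
          ∑ s ∈ Finset.Ico k n, ga s x * bL ζ (Ψ i) b m h (kact act σ) s v x| ≤ 6 * T + 2 * K ^ 2 * T :=
            (abs_add_le _ _).trans (add_le_add p1 p2)
        _ = _ := by ring
    rw [Finset.sum_Ico_eq_sub _ hac]
    refine (abs_sub _ _).trans ?_
    have h1 := hbound c hc
    have h2 := hbound a (hac.trans hc)
    have h3 : (6 + 2 * K ^ 2) * T + (6 + 2 * K ^ 2) * T ≤ (2 * C0 + 12 + 4 * K ^ 2) * T := by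
      nlinarith
    linarith
  · -- eL
    intro x
    have e : ∑ s ∈ Finset.range S, eL U m h (kact act σ) s x =
        ∑ s ∈ Finset.range (min S (σ x)), eL U m h act s x := by
      rw [← sum_kept]
      refine Finset.sum_congr rfl fun s _ => ?_
      exact kept_pL _ hst s x
    rw [e]
    have h2 : T ≤ (2 * C0 + 12 + 4 * K ^ 2) * T := by
      have : (1 : ℝ) ≤ 2 * C0 + 12 + 4 * K ^ 2 := by nlinarith [sq_nonneg K]
      nlinarith
    rcases Nat.eq_zero_or_pos (min S (σ x)) with h0 | h0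
    · rw [h0, Finset.range_zero, Finset.sum_empty]
      positivity
    · obtain ⟨q, hq⟩ : ∃ q, min S (σ x) = q + 1 := ⟨min S (σ x) - 1, by omega⟩
      rw [hq]
      have hqσ : q < σ x := by omega
      exact (el_bound hT hqσ).trans h2

end Crest.Agent.R087.T3x153
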