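import Crest.Agent.R087.GateDef_273

/-!
Row 87 (S0115), operator part, leaf OP PAIR1 (helper339): one pair of points, one pair of scales.

* `cr f g t = ∫ f (t + v) g v`, `Xi ω = cr ω ω`: autocorrelation;
* `ibp`: integration by parts along an affine phase;
* `Bd n A L f`: `|f^(i)| ≤ A L^i` for `i ≤ n`, closed under products;
* `kk`: the kernel of one point at one scale, `pp`: the pairing of two of them;
* `pair_zero`, `pair_far`, `pair_near`.
-/

set_option autoImplicit false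

noncomputable section

open MeasureTheory Crest.Agent.R087.Sh0x283 Crest.Agent.R087.Sh1x283
open Crest.Agent.R087.GateDefx273

namespace Crest.Agent.R087.Pair1x339

/-! ### correlations -/

/-- cross correlation. -/
def cr (f g : ℝ → ℝ) (t : ℝ) : ℝ := ∫ v, f (t + v) * g v

theorem cr_eq_conv (f g : ℝ → ℝ) :
    cr f g = MeasureTheory.convolution (fun v => g (-v)) f (ContinuousLinearMap.mul ℝ ℝ) volume := by
  ext t
  unfold cr MeasureTheory.convolution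
  rw [← integral_neg_eq_self]
  congr 1
  ext v
  simp [mul_comm, sub_eq_add_neg]

theorem contDiff_cr {f g : ℝ → ℝ} (hf : ContDiff ℝ (⊤ : ℕ∞) f) (hfs : HasCompactSupport f)
    (hg : Continuous g) : ContDiff ℝ (⊤ : ℕ∞) (cr f g) := by
  rw [cr_eq_conv]
  apply HasCompactSupport.contDiff_convolution_right _ hfs _ hf
  exact (hg.comp continuous_neg).locallyIntegrable

theorem hasDerivAt_cr {f g : ℝ → ℝ} (hf : ContDiff ℝ (⊤ : ℕ∞) f) (hfs : HasCompactSupport f)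
    (hg : Continuous g) (t : ℝ) : HasDerivAt (cr f g) (cr (deriv f) g t) t := by
  rw [cr_eq_conv, cr_eq_conv]
  apply HasCompactSupport.hasDerivAt_convolution_right
  · exact (hg.comp continuous_neg).locallyIntegrable
  · exact hfs
  · exact hf.of_le (by exact_mod_cast le_top)

theorem smooth_deriv {f : ℝ → ℝ} (hf : ContDiff ℝ (⊤ : ℕ∞) f) : ContDiff ℝ (⊤ : ℕ∞) (deriv f) := by
  exact (contDiff_infty_iff_deriv.1 hf).2

theorem smooth_iter {f : ℝ → ℝ} (hf : ContDiff ℝ (⊤ : ℕ∞) f) (n : ℕ) :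
    ContDiff ℝ (⊤ : ℕ∞) (iteratedDeriv n f) := by
  induction n with
  | zero => simpa using hf
  | succ n ih => rw [iteratedDeriv_succ]; exact smooth_deriv ih

theorem cs_iter {f : ℝ → ℝ} (hfs : HasCompactSupport f) (n : ℕ) :
    HasCompactSupport (iteratedDeriv n f) := by
  induction n with
  | zero => simpa using hfs
  | succ n ih => rw [iteratedDeriv_succ]; exact ih.deriv

theorem zero_iter {f : ℝ → ℝ} {R : ℝ} (hf : ∀ r, R < |r| → f r = 0) (n : ℕ) :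
    ∀ r, R < |r| → iteratedDeriv n f r = 0 := by
  induction n with
  | zero => simpa using hf
  | succ n ih =>
    intro r hr
    rw [iteratedDeriv_succ]
    have : iteratedDeriv n f =ᶠ[nhds r] fun _ => 0 := by
      have ho : IsOpen {t : ℝ | R < |t|} := isOpen_lt continuous_const continuous_abs
      filter_upwards [ho.mem_nhds hr] with t ht
      exact ih t ht
    rw [this.deriv_eq]
    simp

theorem cs_of_zero {f : ℝ → ℝ} {R : ℝ} (hf : ∀ r, R < |r| → f r = 0) : HasCompactSupport f := by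
  apply HasCompactSupport.of_support_subset_isCompact (isCompact_Icc (a := -R) (b := R))
  intro r hr
  by_contra h
  apply hr
  apply hf
  by_contra h2
  push Not at h2
  exact h (abs_le.1 h2)

theorem iter_cr_left {f g : ℝ → ℝ} (hf : ContDiff ℝ (⊤ : ℕ∞) f) (hfs : HasCompactSupport f)
    (hg : Continuous g) (n : ℕ) : iteratedDeriv n (cr f g) = cr (iteratedDeriv n f) g := by
  induction n with
  | zero => simp
  | succ n ih =>
    rw [iteratedDeriv_succ, ih, iteratedDeriv_succ]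
    ext t
    exact (hasDerivAt_cr (smooth_iter hf n) (cs_iter hfs n) hg t).deriv

theorem cr_deriv_swap {f g : ℝ → ℝ} (hf : ContDiff ℝ (⊤ : ℕ∞) f)
    (hg : ContDiff ℝ (⊤ : ℕ∞) g) (hgs : HasCompactSupport g) (t : ℝ) :
    cr (deriv f) g t = - cr f (deriv g) t := by
  unfold cr
  have hf1 : Differentiable ℝ f := hf.differentiable (by simp)
  have hg1 : Differentiable ℝ g := hg.differentiable (by simp)
  have hfc : Continuous f := hf.continuous
  have hgc : Continuous g := hg.continuous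
  have hf'c : Continuous (deriv f) := (smooth_deriv hf).continuous
  have hg'c : Continuous (deriv g) := (smooth_deriv hg).continuous
  have key := integral_mul_deriv_eq_deriv_mul_of_integrable (u := g) (u' := deriv g)
    (v := fun v => f (t + v)) (v' := fun v => deriv f (t + v))
    (fun x _ => (hg1 x).hasDerivAt)
    (fun x _ => by
      have h := (hf1 (t + x)).hasDerivAt
      have h2 := h.comp_const_add t x
      exact h2)
    ?_ ?_ ?_
  · calc ∫ v, deriv f (t + v) * g v = ∫ v, g v * deriv f (t + v) := by simp [mul_comm]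
      _ = _ := key
      _ = _ := by simp [mul_comm]
  · exact (Continuous.mul (by fun_prop) (by fun_prop)).integrable_of_hasCompactSupport hgs.mul_right
  · exact (Continuous.mul (by fun_prop) (by fun_prop)).integrable_of_hasCompactSupport hgs.deriv.mul_right
  · exact (Continuous.mul (by fun_prop) (by fun_prop)).integrable_of_hasCompactSupport hgs.mul_right

theorem iter_cr {f g : ℝ → ℝ} (hf : ContDiff ℝ (⊤ : ℕ∞) f) (hfs : HasCompactSupport f)
    (hg : ContDiff ℝ (⊤ : ℕ∞) g) (hgs : HasCompactSupport g) (i j : ℕ) (t : ℝ) :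
    iteratedDeriv (i + j) (cr f g) t = (-1) ^ j * cr (iteratedDeriv i f) (iteratedDeriv j g) t := by
  induction j generalizing i with
  | zero => rw [add_zero, iter_cr_left hf hfs hg.continuous]; simp
  | succ j ih =>
    have h1 : i + (j + 1) = (i + 1) + j := by ring
    rw [h1, ih (i + 1), iteratedDeriv_succ (f := f), iteratedDeriv_succ (f := g),
      cr_deriv_swap (smooth_iter hf i) (smooth_iter hg j) (cs_iter hgs j)]
    ring


theorem cr_le {f g : ℝ → ℝ} {A B : ℝ} (hA : ∀ r, |f r| ≤ A) (hB : ∀ r, |g r| ≤ B)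
    (hg0 : ∀ r, 1 < |r| → g r = 0) (t : ℝ) : |cr f g t| ≤ 2 * A * B := by
  have hA0 : 0 ≤ A := (abs_nonneg _).trans (hA 0)
  have hB0 : 0 ≤ B := (abs_nonneg _).trans (hB 0)
  unfold cr
  have e1 : ∀ v, f (t + v) * g v = (Set.Icc (-1 : ℝ) 1).indicator (fun v => f (t + v) * g v) v := by
    intro v
    by_cases hv : v ∈ Set.Icc (-1 : ℝ) 1
    · rw [Set.indicator_of_mem hv]
    · rw [Set.indicator_of_notMem hv, hg0 v, mul_zero]
      by_contra h
      push Not at h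
      exact hv (abs_le.1 h)
  rw [integral_congr_ae (Filter.Eventually.of_forall e1), integral_indicator measurableSet_Icc]
  have h := norm_setIntegral_le_of_norm_le_const (μ := volume) (s := Set.Icc (-1 : ℝ) 1)
    (f := fun v => f (t + v) * g v) (C := A * B) (by simp) (fun v _ => by
      rw [Real.norm_eq_abs, abs_mul]
      exact mul_le_mul (hA _) (hB _) (abs_nonneg _) hA0)
  rw [Real.norm_eq_abs] at h
  refine h.trans ?_
  have : (volume : Measure ℝ).real (Set.Icc (-1 : ℝ) 1) = 2 := by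
    rw [Measure.real, Real.volume_Icc]
    norm_num
  rw [this]
  linarith

theorem cr_zero {f g : ℝ → ℝ} (hf0 : ∀ r, 1 < |r| → f r = 0) (hg0 : ∀ r, 1 < |r| → g r = 0)
    (t : ℝ) (ht : 2 < |t|) : cr f g t = 0 := by
  unfold cr
  rw [← integral_zero ℝ ℝ (μ := volume)]
  congr 1
  ext v
  by_cases hv : 1 < |v|
  · rw [hg0 v hv, mul_zero]
  · rw [hf0, zero_mul]
    push Not at hv
    by_contra h
    push Not at h
    have : |t| ≤ |t + v| + |v| := by
      calc |t| = |(t + v) - v| := by rw [add_sub_cancel_right]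
        _ ≤ _ := abs_sub _ _
    linarith

/-- autocorrelation. -/
def Xi (ω : ℝ → ℝ) : ℝ → ℝ := cr ω ω

/-- admissible profiles of `GDN`. -/
def Om (M : ℕ) (ω : ℝ → ℝ) : Prop :=
  ContDiff ℝ (⊤ : ℕ∞) ω ∧ (∀ r, 1 < |r| → ω r = 0) ∧ (∀ i ≤ M, ∀ r, |iteratedDeriv i ω r| ≤ 1)

theorem Om.smooth {M : ℕ} {ω : ℝ → ℝ} (h : Om M ω) : ContDiff ℝ (⊤ : ℕ∞) ω := h.1

theorem Om.cs {M : ℕ} {ω : ℝ → ℝ} (h : Om M ω) : HasCompactSupport ω := cs_of_zero h.2.1

theorem smooth_Xi {M : ℕ} {ω : ℝ → ℝ} (h : Om M ω) : ContDiff ℝ (⊤ : ℕ∞) (Xi ω) :=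
  contDiff_cr h.1 h.cs h.1.continuous

theorem iter_Xi {M : ℕ} {ω : ℝ → ℝ} (h : Om M ω) (i j : ℕ) (t : ℝ) :
    iteratedDeriv (i + j) (Xi ω) t = (-1) ^ j * cr (iteratedDeriv i ω) (iteratedDeriv j ω) t :=
  iter_cr h.1 h.cs h.1 h.cs i j t

theorem Xi_bd {M : ℕ} {ω : ℝ → ℝ} (h : Om M ω) {n : ℕ} (hn : n ≤ 2 * M) (t : ℝ) :
    |iteratedDeriv n (Xi ω) t| ≤ 2 := by
  obtain ⟨i, j, hi, hj, rfl⟩ : ∃ i j, i ≤ M ∧ j ≤ M ∧ i + j = n :=
    ⟨n / 2, n - n / 2, by omega, by omega, by omega⟩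
  rw [iter_Xi h, abs_mul, abs_pow, abs_neg, abs_one, one_pow, one_mul]
  have := cr_le (h.2.2 i hi) (h.2.2 j hj) (zero_iter h.2.1 j) t
  linarith

theorem Xi_zero {M : ℕ} {ω : ℝ → ℝ} (h : Om M ω) (n : ℕ) {t : ℝ} (ht : 2 < |t|) :
    iteratedDeriv n (Xi ω) t = 0 := by
  have := iter_Xi h n 0 t
  rw [add_zero] at this
  rw [this, cr_zero (zero_iter h.2.1 n) (zero_iter h.2.1 0) t ht]
  simp

/-- the autocorrelation of `φ = ω^(N)`. -/
theorem cr_phi {M : ℕ} {ω : ℝ → ℝ} (h : Om M ω) (N : ℕ) (t : ℝ) :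
    cr (iteratedDeriv N ω) (iteratedDeriv N ω) t = (-1) ^ N * iteratedDeriv (2 * N) (Xi ω) t := by
  rw [two_mul, iter_Xi h N N t, ← mul_assoc, ← mul_pow]
  simp

theorem corr_shift (f g : ℝ → ℝ) (a b : ℝ) : ∫ v, f (a - v) * g (b - v) = cr f g (a - b) := by
  unfold cr
  rw [← integral_sub_left_eq_self _ volume b]
  congr 1
  ext v
  rw [sub_sub_cancel, show a - b + v = a - (b - v) by ring]

/-! ### integration by parts along an affine phase -/

theorem ibp1 {p G : ℝ → ℝ} (hp : ContDiff ℝ (⊤ : ℕ∞) p) (hps : HasCompactSupport p)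
    (hG : ContDiff ℝ (⊤ : ℕ∞) G) (a k : ℝ) :
    k * ∫ u, p u * deriv G (a + k * u) = - ∫ u, deriv p u * G (a + k * u) := by
  have hp1 : Differentiable ℝ p := hp.differentiable (by simp)
  have hG1 : Differentiable ℝ G := hG.differentiable (by simp)
  have hpc : Continuous p := hp.continuous
  have hGc : Continuous G := hG.continuous
  have hp'c : Continuous (deriv p) := (smooth_deriv hp).continuous
  have hG'c : Continuous (deriv G) := (smooth_deriv hG).continuous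
  have key := integral_mul_deriv_eq_deriv_mul_of_integrable (u := p) (u' := deriv p)
    (v := fun u => G (a + k * u)) (v' := fun u => deriv G (a + k * u) * k)
    (fun x _ => (hp1 x).hasDerivAt)
    (fun x _ => by
      have h := (hG1 (a + k * x)).hasDerivAt
      have h2 : HasDerivAt (fun u : ℝ => a + k * u) k x := by
        simpa using ((hasDerivAt_id x).const_mul k).const_add a
      exact h.comp x h2)
    ?_ ?_ ?_
  · rw [← key, ← integral_const_mul]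
    congr 1
    ext u
    ring
  · exact (Continuous.mul (by fun_prop) (by fun_prop)).integrable_of_hasCompactSupport hps.mul_right
  · exact (Continuous.mul (by fun_prop) (by fun_prop)).integrable_of_hasCompactSupport hps.deriv.mul_right
  · exact (Continuous.mul (by fun_prop) (by fun_prop)).integrable_of_hasCompactSupport hps.mul_right

theorem ibp {p F : ℝ → ℝ} (hp : ContDiff ℝ (⊤ : ℕ∞) p) (hps : HasCompactSupport p)
    (hF : ContDiff ℝ (⊤ : ℕ∞) F) (a k : ℝ) (n : ℕ) :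
    k ^ n * ∫ u, p u * iteratedDeriv n F (a + k * u) =
      (-1) ^ n * ∫ u, iteratedDeriv n p u * F (a + k * u) := by
  induction n generalizing p with
  | zero => simp
  | succ n ih =>
    rw [iteratedDeriv_succ (f := F), iteratedDeriv_succ' (f := p), pow_succ, mul_assoc,
      ibp1 hp hps (smooth_iter hF n)]
    have := ih (smooth_deriv hp) hps.deriv
    rw [pow_succ, mul_neg, this]
    ring

/-! ### derivative bounds -/

/-- `|f^(i)| ≤ A L^i` for `i ≤ n`. -/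
def Bd (n : ℕ) (A L : ℝ) (f : ℝ → ℝ) : Prop := ∀ i ≤ n, ∀ u, |iteratedDeriv i f u| ≤ A * L ^ i

theorem Bd.mono {n : ℕ} {A B L L' : ℝ} {f : ℝ → ℝ} (h : Bd n A L f) (hA : 0 ≤ A) (hL : 0 ≤ L)
    (hAB : A ≤ B) (hLL : L ≤ L') : Bd n B L' f := by
  intro i hi u
  refine (h i hi u).trans ?_
  have : L ^ i ≤ L' ^ i := pow_le_pow_left₀ hL hLL i
  have h0 : 0 ≤ L ^ i := pow_nonneg hL i
  exact mul_le_mul hAB this h0 (hA.trans hAB)

theorem Bd.mul {n : ℕ} {A B L : ℝ} {f g : ℝ → ℝ} (hf : ContDiff ℝ (⊤ : ℕ∞) f)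
    (hg : ContDiff ℝ (⊤ : ℕ∞) g) (hA : 0 ≤ A) (hB : 0 ≤ B) (hL : 0 ≤ L) (h1 : Bd n A L f)
    (h2 : Bd n B L g) : Bd n (2 ^ n * A * B) L (fun u => f u * g u) := by
  intro i hi u
  have e := iteratedDeriv_mul (n := i) (x := u) (f := f) (g := g)
    (hf.contDiffAt.of_le (by exact_mod_cast le_top)) (hg.contDiffAt.of_le (by exact_mod_cast le_top))
  have e2 : (fun u => f u * g u) = f * g := rfl
  rw [e2, e]
  calc |∑ j ∈ Finset.range (i + 1), (i.choose j : ℝ) * iteratedDeriv j f u *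
        iteratedDeriv (i - j) g u|
      ≤ ∑ j ∈ Finset.range (i + 1), (i.choose j : ℝ) * (A * B * L ^ i) := by
        refine (Finset.abs_sum_le_sum_abs _ _).trans (Finset.sum_le_sum fun j hj => ?_)
        have hj' : j ≤ i := Nat.lt_succ_iff.1 (Finset.mem_range.1 hj)
        rw [abs_mul, abs_mul, Nat.abs_cast, mul_assoc]
        refine mul_le_mul_of_nonneg_left ?_ (Nat.cast_nonneg _)
        calc |iteratedDeriv j f u| * |iteratedDeriv (i - j) g u|
            ≤ (A * L ^ j) * (B * L ^ (i - j)) :=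
              mul_le_mul (h1 j (hj'.trans hi) u) (h2 (i - j) ((Nat.sub_le _ _).trans hi) u)
                (abs_nonneg _) (by positivity)
          _ = A * B * L ^ i := by
              rw [show L ^ i = L ^ j * L ^ (i - j) by rw [← pow_add]; congr 1; omega]
              ring
    _ = 2 ^ i * (A * B * L ^ i) := by
        rw [← Finset.sum_mul]
        congr 1
        exact_mod_cast Nat.sum_range_choose i
    _ ≤ 2 ^ n * A * B * L ^ i := by
        have : (2 : ℝ) ^ i ≤ 2 ^ n := pow_le_pow_right₀ (by norm_num) hi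
        calc (2 : ℝ) ^ i * (A * B * L ^ i) ≤ 2 ^ n * (A * B * L ^ i) :=
              mul_le_mul_of_nonneg_right this (by positivity)
          _ = _ := by ring

theorem iter_affine {f : ℝ → ℝ} (hf : ContDiff ℝ (⊤ : ℕ∞) f) (c d : ℝ) (n : ℕ) (u : ℝ) :
    iteratedDeriv n (fun u => f (c * u - d)) u = c ^ n * iteratedDeriv n f (c * u - d) := by
  induction n generalizing u with
  | zero => simp
  | succ n ih =>
    rw [iteratedDeriv_succ, iteratedDeriv_succ, funext ih]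
    have h1 : Differentiable ℝ (iteratedDeriv n f) := (smooth_iter hf n).differentiable (by simp)
    have h := (h1 (c * u - d)).hasDerivAt
    have h2 : HasDerivAt (fun u : ℝ => c * u - d) c u := by
      simpa using ((hasDerivAt_id u).const_mul c).sub_const d
    have h3 := (h.comp u h2).const_mul (c ^ n)
    rw [show (fun u => c ^ n * iteratedDeriv n f (c * u - d)) =
      fun u => c ^ n * (iteratedDeriv n f ∘ fun u => c * u - d) u from rfl, h3.deriv]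
    ring

theorem exists_bd {f : ℝ → ℝ} (hf : ContDiff ℝ (⊤ : ℕ∞) f) (hfs : HasCompactSupport f) (n : ℕ) :
    ∃ A, 0 ≤ A ∧ ∀ i ≤ n, ∀ u, |iteratedDeriv i f u| ≤ A := by
  have h : ∀ i, ∃ A, ∀ u, |iteratedDeriv i f u| ≤ A := by
    intro i
    obtain ⟨A, hA⟩ := (smooth_iter hf i).continuous.bounded_above_of_compact_support (cs_iter hfs i)
    exact ⟨A, fun u => by simpa using hA u⟩
  choose A hA using h
  refine ⟨∑ i ∈ Finset.range (n + 1), |A i|, Finset.sum_nonneg fun _ _ => abs_nonneg _, ?_⟩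
  intro i hi u
  calc |iteratedDeriv i f u| ≤ A i := hA i u
    _ ≤ |A i| := le_abs_self _
    _ ≤ _ := Finset.single_le_sum (f := fun i => |A i|) (fun _ _ => abs_nonneg _)
      (Finset.mem_range.2 (Nat.lt_succ_of_le hi))


/-! ### one point at one scale, and pairings -/

/-- kernel of the point `z` at the scale `2^-s`. -/
def kk (φ ζ : ℝ → ℝ) (U : ℝ × ℝ → ℝ) (s : ℕ) (z w : ℝ × ℝ) : ℝ :=
  (2 : ℝ) ^ s * gt (Int.fract ((2 : ℝ) ^ s * z.1)) * ζ ((2 : ℝ) ^ s * w.1 - ⌊(2 : ℝ) ^ s * z.1⌋) *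
    φ (z.2 + (w.1 - z.1) * U z - w.2)

theorem Tst_eq (φ ζ : ℝ → ℝ) (S : ℕ) (U h : ℝ × ℝ → ℝ) (w : ℝ × ℝ) :
    Tst φ ζ S U h w = ∫ z, (∑ s ∈ Finset.range S, kk φ ζ U s z w) * h z := by
  unfold Tst gk kk
  congr 1
  ext z
  rw [Finset.sum_mul]

/-- the line of `z`. -/
def ln (U : ℝ × ℝ → ℝ) (z : ℝ × ℝ) (u : ℝ) : ℝ := z.2 + (u - z.1) * U z

/-- pairing of two points, scales `2^-s`, `2^-t`, autocorrelation `Φ`. -/
def pp (Φ ζ : ℝ → ℝ) (U : ℝ × ℝ → ℝ) (s t : ℕ) (z z' : ℝ × ℝ) : ℝ :=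
  (2 : ℝ) ^ s * gt (Int.fract ((2 : ℝ) ^ s * z.1)) *
    ((2 : ℝ) ^ t * gt (Int.fract ((2 : ℝ) ^ t * z'.1))) *
    ∫ u, ζ ((2 : ℝ) ^ t * u - ⌊(2 : ℝ) ^ t * z'.1⌋) * ζ ((2 : ℝ) ^ s * u - ⌊(2 : ℝ) ^ s * z.1⌋) *
      Φ (ln U z u - ln U z' u)

theorem zet_cs {ζ : ℝ → ℝ} (hz : ZetC ζ) : HasCompactSupport ζ := by
  apply cs_of_zero (R := 1)
  intro r hr
  by_contra h
  have := hz.2.1 r h
  have h2 : |r| ≤ 1 := abs_le.2 ⟨by linarith, by linarith⟩
  linarith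

theorem zet_cell {ζ : ℝ → ℝ} (hz : ZetC ζ) {s : ℕ} {j : ℤ} {u : ℝ}
    (h : ζ ((2 : ℝ) ^ s * u - j) ≠ 0) : ⌊(2 : ℝ) ^ s * u⌋ = j := by
  have := hz.2.1 _ h
  rw [Int.floor_eq_iff]
  constructor <;> linarith

theorem affine_cs {f : ℝ → ℝ} (hf : HasCompactSupport f) {c : ℝ} (hc : 0 < c) (d : ℝ) :
    HasCompactSupport (fun u => f (c * u - d)) := by
  obtain ⟨R, hR⟩ := hf.isCompact.isBounded.subset_closedBall 0
  apply cs_of_zero (R := (R + |d|) / c)
  intro r hr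
  by_contra h
  have h1 : c * r - d ∈ tsupport f := subset_tsupport _ h
  have h2 := hR h1
  rw [Metric.mem_closedBall, dist_zero_right, Real.norm_eq_abs] at h2
  rw [div_lt_iff₀ hc] at hr
  have h3 : |c * r| ≤ |c * r - d| + |d| := by
    calc |c * r| = |(c * r - d) + d| := by rw [sub_add_cancel]
      _ ≤ _ := abs_add_le _ _
  rw [abs_mul, abs_of_pos hc] at h3
  linarith

theorem int_kk {φ ζ : ℝ → ℝ} (hφ : Continuous φ) (hφs : HasCompactSupport φ) (hz : ZetC ζ)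
    (U : ℝ × ℝ → ℝ) (s t : ℕ) (z z' : ℝ × ℝ) :
    ∫ w, kk φ ζ U s z w * kk φ ζ U t z' w = pp (cr φ φ) ζ U s t z z' := by
  have hζc : Continuous ζ := hz.1.continuous
  have hs0 : (0 : ℝ) < 2 ^ s := by positivity
  have hkc : ∀ (s : ℕ) (z : ℝ × ℝ), Continuous (kk φ ζ U s z) := by
    intro s z
    unfold kk
    fun_prop
  have hcs : HasCompactSupport (kk φ ζ U s z) := by
    obtain ⟨R, hR⟩ := (affine_cs (zet_cs hz) hs0 ⌊(2 : ℝ) ^ s * z.1⌋).isCompact.isBounded.subset_closedBall 0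
    obtain ⟨Q, hQ⟩ := hφs.isCompact.isBounded.subset_closedBall 0
    apply HasCompactSupport.of_support_subset_isCompact
      ((isCompact_Icc (a := -R) (b := R)).prod
        (isCompact_Icc (a := -(|z.2| + (R + |z.1|) * |U z| + Q)) (b := |z.2| + (R + |z.1|) * |U z| + Q)))
    intro w hw
    have hw' : kk φ ζ U s z w ≠ 0 := hw
    unfold kk at hw'
    have h1 := right_ne_zero_of_mul hw'
    have h2 := right_ne_zero_of_mul (left_ne_zero_of_mul hw')
    have h3 := hR (subset_tsupport (fun u => ζ ((2 : ℝ) ^ s * u - ⌊(2 : ℝ) ^ s * z.1⌋)) h2)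
    have h4 := hQ (subset_tsupport φ h1)
    rw [Metric.mem_closedBall, dist_zero_right, Real.norm_eq_abs] at h3 h4
    have h5 : |(w.1 - z.1) * U z| ≤ (R + |z.1|) * |U z| := by
      rw [abs_mul]
      apply mul_le_mul_of_nonneg_right _ (abs_nonneg _)
      exact (abs_sub _ _).trans (by linarith)
    refine ⟨abs_le.1 h3, ?_⟩
    have h6 : |w.2| ≤ |z.2| + (R + |z.1|) * |U z| + Q := by
      have e : w.2 = z.2 + (w.1 - z.1) * U z - (z.2 + (w.1 - z.1) * U z - w.2) := by ring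
      rw [e]
      calc _ ≤ |z.2 + (w.1 - z.1) * U z| + |(z.2 + (w.1 - z.1) * U z - w.2)| := abs_sub _ _
        _ ≤ |z.2| + |(w.1 - z.1) * U z| + |(z.2 + (w.1 - z.1) * U z - w.2)| := by
            gcongr
            exact abs_add_le _ _
        _ ≤ _ := by gcongr
    exact abs_le.1 h6
  have hint : Integrable (fun w => kk φ ζ U s z w * kk φ ζ U t z' w) :=
    ((hkc s z).mul (hkc t z')).integrable_of_hasCompactSupport hcs.mul_right
  rw [Measure.volume_eq_prod] at hint ⊢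
  rw [integral_prod _ hint]
  unfold pp
  rw [← integral_const_mul]
  congr 1
  ext u
  simp only [kk, ln]
  rw [show z.2 + (u - z.1) * U z - (z'.2 + (u - z'.1) * U z') =
    (z.2 + (u - z.1) * U z) - (z'.2 + (u - z'.1) * U z') from rfl, ← corr_shift φ φ,
    ← integral_const_mul, ← integral_const_mul]
  congr 1
  ext v
  ring


/-! ### oscillatory integrals over one cell -/

/-- the basic integral: `p` wavelet of the short cell, `r` profile of the long cell. -/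
def qq (Φ p r : ℝ → ℝ) (s t : ℕ) (j i : ℤ) (a k : ℝ) : ℝ :=
  ∫ u, p ((2 : ℝ) ^ t * u - i) * r ((2 : ℝ) ^ s * u - j) * Φ (a + k * u)

/-- profiles: smooth, support in `[0,1]`. -/
def Pr (p : ℝ → ℝ) : Prop := ContDiff ℝ (⊤ : ℕ∞) p ∧ ∀ t, p t ≠ 0 → 0 ≤ t ∧ t ≤ 1

theorem ZetC.pr {ζ : ℝ → ℝ} (hz : ZetC ζ) : Pr ζ :=
  ⟨hz.1, fun t ht => by have := hz.2.1 t ht; constructor <;> linarith⟩

theorem Pr.cs {p : ℝ → ℝ} (hp : Pr p) : HasCompactSupport p := by
  apply cs_of_zero (R := 1)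
  intro r hr
  by_contra h
  have := hp.2 r h
  have h2 : |r| ≤ 1 := abs_le.2 ⟨by linarith, by linarith⟩
  linarith

theorem Pr.iter {p : ℝ → ℝ} (hp : Pr p) (n : ℕ) : Pr (iteratedDeriv n p) := by
  refine ⟨smooth_iter hp.1 n, ?_⟩
  induction n with
  | zero => simpa using hp.2
  | succ n ih =>
    intro t ht
    by_contra h
    apply ht
    rw [iteratedDeriv_succ]
    have ho : IsOpen {t : ℝ | t < 0 ∨ 1 < t} :=
      (isOpen_lt continuous_id continuous_const).union (isOpen_lt continuous_const continuous_id)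
    have hmem : t ∈ {t : ℝ | t < 0 ∨ 1 < t} := by
      by_contra h2
      simp only [Set.mem_ofPred_eq, not_or, not_lt] at h2
      exact h h2
    have : iteratedDeriv n p =ᶠ[nhds t] fun _ => 0 := by
      filter_upwards [ho.mem_nhds hmem] with r hr
      by_contra h3
      have := ih r h3
      rcases hr with hr | hr <;> linarith
    rw [this.deriv_eq]
    simp

theorem Pr.id_mul {p : ℝ → ℝ} (hp : Pr p) : Pr (fun t => t * p t) :=
  ⟨contDiff_id.mul hp.1, fun t ht => hp.2 t (right_ne_zero_of_mul ht)⟩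

theorem cell_bd {p : ℝ → ℝ} (hp : Pr p) {n : ℕ} {A : ℝ} (hA : ∀ i ≤ n, ∀ u, |iteratedDeriv i p u| ≤ A)
    (s : ℕ) (j : ℤ) : Bd n A ((2 : ℝ) ^ s) (fun u => p ((2 : ℝ) ^ s * u - j)) := by
  intro i hi u
  rw [iter_affine hp.1, abs_mul, abs_of_nonneg (by positivity), mul_comm]
  exact mul_le_mul_of_nonneg_right (hA i hi _) (by positivity)

theorem cell_smooth {p : ℝ → ℝ} (hp : Pr p) (s : ℕ) (j : ℤ) :
    ContDiff ℝ (⊤ : ℕ∞) (fun u => p ((2 : ℝ) ^ s * u - j)) :=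
  hp.1.comp ((contDiff_const.mul contDiff_id).sub contDiff_const)

/-- integral of a bounded function supported in one cell. -/
theorem int_cell {t : ℕ} {i : ℤ} {f : ℝ → ℝ} {B : ℝ} (hB : 0 ≤ B)
    (hf : ∀ u, f u ≠ 0 → 0 ≤ (2 : ℝ) ^ t * u - i ∧ (2 : ℝ) ^ t * u - i ≤ 1) (hb : ∀ u, |f u| ≤ B) :
    |∫ u, f u| ≤ B * ((2 : ℝ) ^ t)⁻¹ := by
  have ht : (0 : ℝ) < 2 ^ t := by positivity
  have e1 : ∀ u, f u = (Set.Icc (i / (2 : ℝ) ^ t) ((i + 1) / (2 : ℝ) ^ t)).indicator f u := by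
    intro u
    by_cases hu : u ∈ Set.Icc (i / (2 : ℝ) ^ t) ((i + 1) / (2 : ℝ) ^ t)
    · rw [Set.indicator_of_mem hu]
    · rw [Set.indicator_of_notMem hu]
      by_contra h
      apply hu
      obtain ⟨h1, h2⟩ := hf u h
      constructor
      · rw [div_le_iff₀ ht]; linarith
      · rw [le_div_iff₀ ht]; linarith
  rw [integral_congr_ae (Filter.Eventually.of_forall e1), integral_indicator measurableSet_Icc]
  have h := norm_setIntegral_le_of_norm_le_const (μ := volume)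
    (s := Set.Icc (i / (2 : ℝ) ^ t) ((i + 1) / (2 : ℝ) ^ t)) (f := f) (C := B)
    (by simp) (fun u _ => by rw [Real.norm_eq_abs]; exact hb u)
  rw [Real.norm_eq_abs] at h
  refine h.trans (le_of_eq ?_)
  congr 1
  rw [Measure.real, Real.volume_Icc, ENNReal.toReal_ofReal]
  · field_simp
    ring
  · rw [sub_nonneg]
    gcongr
    linarith

/-- trivial bound. -/
theorem qq_triv {Φ p r : ℝ → ℝ} (hp : Pr p) {A A' B : ℝ} (hA : ∀ u, |p u| ≤ A)
    (hA' : ∀ u, |r u| ≤ A') (hB : ∀ u, |Φ u| ≤ B) (s t : ℕ) (j i : ℤ) (a k : ℝ) :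
    |qq Φ p r s t j i a k| ≤ A * A' * B * ((2 : ℝ) ^ t)⁻¹ := by
  have hA0 : 0 ≤ A := (abs_nonneg _).trans (hA 0)
  have hA0' : 0 ≤ A' := (abs_nonneg _).trans (hA' 0)
  have hB0 : 0 ≤ B := (abs_nonneg _).trans (hB 0)
  unfold qq
  apply int_cell (i := i) (by positivity)
  · intro u hu
    exact hp.2 _ (left_ne_zero_of_mul (left_ne_zero_of_mul hu))
  · intro u
    rw [abs_mul, abs_mul]
    exact mul_le_mul (mul_le_mul (hA _) (hA' _) (abs_nonneg _) hA0) (hB _) (abs_nonneg _)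
      (by positivity)

/-- far bound: `n` integrations by parts. -/
theorem qq_far {p r : ℝ → ℝ} (hp : Pr p) (hr : Pr r) (n : ℕ) :
    ∃ C, 0 ≤ C ∧ ∀ (F : ℝ → ℝ) (B : ℝ), ContDiff ℝ (⊤ : ℕ∞) F → (∀ u, |F u| ≤ B) →
      ∀ (s t : ℕ) (j i : ℤ) (a k : ℝ), s ≤ t →
      (|k| * ((2 : ℝ) ^ t)⁻¹) ^ n * |qq (iteratedDeriv n F) p r s t j i a k| ≤
        C * B * ((2 : ℝ) ^ t)⁻¹ := by
  obtain ⟨A, hA0, hA⟩ := exists_bd hp.1 hp.cs n
  obtain ⟨A', hA0', hA'⟩ := exists_bd hr.1 hr.cs n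
  refine ⟨2 ^ n * A * A', by positivity, ?_⟩
  intro F B hF hB s t j i a k hst
  have hB0 : 0 ≤ B := (abs_nonneg _).trans (hB 0)
  have h2 : (2 : ℝ) ^ s ≤ 2 ^ t := pow_le_pow_right₀ (by norm_num) hst
  have b1 : Bd n A ((2 : ℝ) ^ t) (fun u => p ((2 : ℝ) ^ t * u - i)) := cell_bd hp hA t i
  have b2 : Bd n A' ((2 : ℝ) ^ t) (fun u => r ((2 : ℝ) ^ s * u - j)) :=
    (cell_bd hr hA' s j).mono hA0' (by positivity) le_rfl h2
  have b3 := Bd.mul (cell_smooth hp t i) (cell_smooth hr s j) hA0 hA0' (by positivity) b1 b2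
  set P : ℝ → ℝ := fun u => p ((2 : ℝ) ^ t * u - i) * r ((2 : ℝ) ^ s * u - j) with hP
  have hPs : ContDiff ℝ (⊤ : ℕ∞) P := (cell_smooth hp t i).mul (cell_smooth hr s j)
  have hPc : HasCompactSupport P := (affine_cs hp.cs (by positivity) _).mul_right
  have key := ibp hPs hPc hF a k n
  have hqq : qq (iteratedDeriv n F) p r s t j i a k =
      ∫ u, P u * iteratedDeriv n F (a + k * u) := rfl
  have hcell : ∀ m : ℕ, ∀ u, iteratedDeriv m P u ≠ 0 →
      0 ≤ (2 : ℝ) ^ t * u - i ∧ (2 : ℝ) ^ t * u - i ≤ 1 := by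
    intro m
    induction m with
    | zero =>
      intro u hu
      rw [iteratedDeriv_zero] at hu
      exact hp.2 _ (left_ne_zero_of_mul hu)
    | succ m ih =>
      intro u hu
      by_contra h
      apply hu
      rw [iteratedDeriv_succ]
      have hc : Continuous fun u : ℝ => (2 : ℝ) ^ t * u - i := by fun_prop
      have ho : IsOpen {u : ℝ | (2 : ℝ) ^ t * u - i < 0 ∨ 1 < (2 : ℝ) ^ t * u - i} :=
        (isOpen_lt hc continuous_const).union (isOpen_lt continuous_const hc)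
      have hmem : u ∈ {u : ℝ | (2 : ℝ) ^ t * u - i < 0 ∨ 1 < (2 : ℝ) ^ t * u - i} := by
        by_contra h2
        simp only [Set.mem_ofPred_eq, not_or, not_lt] at h2
        exact h h2
      have : iteratedDeriv m P =ᶠ[nhds u] fun _ => 0 := by
        filter_upwards [ho.mem_nhds hmem] with v hv
        by_contra h3
        have := ih v h3
        rcases hv with hv | hv <;> linarith
      rw [this.deriv_eq]
      simp
  have h4 : |∫ u, iteratedDeriv n P u * F (a + k * u)| ≤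
      (2 ^ n * A * A' * ((2 : ℝ) ^ t) ^ n * B) * ((2 : ℝ) ^ t)⁻¹ := by
    apply int_cell (i := i) (by positivity)
    · intro u hu
      exact hcell n u (left_ne_zero_of_mul hu)
    · intro u
      rw [abs_mul]
      exact mul_le_mul (b3 n le_rfl u) (hB _) (abs_nonneg _) (by positivity)
  have h5 : |k| ^ n * |qq (iteratedDeriv n F) p r s t j i a k| ≤
      (2 ^ n * A * A' * ((2 : ℝ) ^ t) ^ n * B) * ((2 : ℝ) ^ t)⁻¹ := by
    rw [hqq, ← abs_pow, ← abs_mul, key, abs_mul, abs_pow, abs_neg, abs_one, one_pow, one_mul]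
    exact h4
  calc (|k| * ((2 : ℝ) ^ t)⁻¹) ^ n * |qq (iteratedDeriv n F) p r s t j i a k|
      = (((2 : ℝ) ^ t) ^ n)⁻¹ * (|k| ^ n * |qq (iteratedDeriv n F) p r s t j i a k|) := by
        rw [mul_pow, inv_pow]; ring
    _ ≤ (((2 : ℝ) ^ t) ^ n)⁻¹ * ((2 ^ n * A * A' * ((2 : ℝ) ^ t) ^ n * B) * ((2 : ℝ) ^ t)⁻¹) := by
        gcongr
    _ = _ := by field_simp

/-- mean zero of the short wavelet. -/
theorem mean_zero {p G : ℝ → ℝ} (hp : Pr p) (h0 : ∫ u, p u = 0) {A L : ℝ} (hA : ∀ u, |p u| ≤ A)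
    (hL0 : 0 ≤ L) (hG : Continuous G) (t : ℕ) (i : ℤ)
    (hL : ∀ u u', |G u - G u'| ≤ L * |u - u'|) :
    |∫ u, p ((2 : ℝ) ^ t * u - i) * G u| ≤ A * L * ((2 : ℝ) ^ t)⁻¹ * ((2 : ℝ) ^ t)⁻¹ := by
  have hA0 : 0 ≤ A := (abs_nonneg _).trans (hA 0)
  have ht : (0 : ℝ) < 2 ^ t := by positivity
  have hpc : Continuous p := hp.1.continuous
  have h1 : ∫ u, p ((2 : ℝ) ^ t * u - i) = 0 := by
    refine (Measure.integral_comp_mul_left (fun v => p (v - i)) ((2 : ℝ) ^ t)).trans ?_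
    rw [integral_sub_right_eq_self (fun v => p v), h0, smul_zero]
  set u0 : ℝ := i / (2 : ℝ) ^ t with hu0
  have h2 : ∫ u, p ((2 : ℝ) ^ t * u - i) * G u = ∫ u, p ((2 : ℝ) ^ t * u - i) * (G u - G u0) := by
    have i1 : Integrable (fun u => p ((2 : ℝ) ^ t * u - i) * G u) :=
      (Continuous.mul (by fun_prop) hG).integrable_of_hasCompactSupport
        (affine_cs hp.cs ht _).mul_right
    have i2 : Integrable (fun u => p ((2 : ℝ) ^ t * u - i) * G u0) :=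
      (Continuous.mul (by fun_prop) continuous_const).integrable_of_hasCompactSupport
        (affine_cs hp.cs ht _).mul_right
    simp_rw [mul_sub]
    rw [integral_sub i1 i2, integral_mul_const, h1, zero_mul, sub_zero]
  rw [h2]
  apply int_cell (i := i) (by positivity)
  · intro u hu
    exact hp.2 _ (left_ne_zero_of_mul hu)
  · intro u
    by_cases hu : p ((2 : ℝ) ^ t * u - i) = 0
    · rw [hu, zero_mul, abs_zero]; positivity
    · have h3 := hp.2 _ hu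
      rw [abs_mul]
      have h4 : |u - u0| ≤ ((2 : ℝ) ^ t)⁻¹ := by
        have e : u - u0 = ((2 : ℝ) ^ t * u - i) * ((2 : ℝ) ^ t)⁻¹ := by
          rw [hu0]; field_simp
        rw [e, abs_mul, abs_of_nonneg h3.1, abs_of_pos (inv_pos.2 ht)]
        exact mul_le_of_le_one_left (inv_pos.2 ht).le h3.2
      calc |p ((2 : ℝ) ^ t * u - i)| * |G u - G u0| ≤ A * (L * |u - u0|) :=
            mul_le_mul (hA _) (hL _ _) (abs_nonneg _) hA0
        _ ≤ A * (L * ((2 : ℝ) ^ t)⁻¹) := by gcongr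
        _ = _ := by ring

theorem lip_of_deriv {f : ℝ → ℝ} (hf : ContDiff ℝ (⊤ : ℕ∞) f) {B : ℝ} (hB : ∀ u, |deriv f u| ≤ B)
    (u v : ℝ) : |f u - f v| ≤ B * |u - v| := by
  have h := Convex.norm_image_sub_le_of_norm_deriv_le (f := f) (C := B) (s := Set.univ)
    (x := v) (y := u) (fun x _ => (hf.differentiable (by simp)) x)
    (fun x _ => by rw [Real.norm_eq_abs]; exact hB x) convex_univ (Set.mem_univ _) (Set.mem_univ _)
  simpa [Real.norm_eq_abs] using h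

/-- near bound: mean zero of the short wavelet. -/
theorem qq_near {p r : ℝ → ℝ} (hp : Pr p) (h0 : ∫ u, p u = 0) (hr : Pr r) :
    ∃ C, 0 ≤ C ∧ ∀ (F : ℝ → ℝ) (B : ℝ), ContDiff ℝ (⊤ : ℕ∞) F → (∀ u, |F u| ≤ B) →
      (∀ u, |deriv F u| ≤ B) → ∀ (s t : ℕ) (j i : ℤ) (a k : ℝ),
      |qq F p r s t j i a k| ≤
        C * B * ((2 : ℝ) ^ t)⁻¹ * ((2 : ℝ) ^ s * ((2 : ℝ) ^ t)⁻¹ + |k| * ((2 : ℝ) ^ t)⁻¹) := by
  obtain ⟨A, hA0, hA⟩ := exists_bd hp.1 hp.cs 0
  obtain ⟨A', hA0', hA'⟩ := exists_bd hr.1 hr.cs 1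
  have hAp : ∀ u, |p u| ≤ A := by simpa using hA 0 le_rfl
  have hAr : ∀ u, |r u| ≤ A' := by simpa using hA' 0 (by norm_num)
  have hAr' : ∀ u, |deriv r u| ≤ A' := by simpa using hA' 1 le_rfl
  refine ⟨A * A', by positivity, ?_⟩
  intro F B hF hB hB' s t j i a k
  have hB0 : 0 ≤ B := (abs_nonneg _).trans (hB 0)
  have hrc : Continuous r := hr.1.continuous
  have hFc : Continuous F := hF.continuous
  have h := mean_zero hp h0 hAp (L := A' * B * ((2 : ℝ) ^ s + |k|)) (by positivity)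
    (G := fun u => r ((2 : ℝ) ^ s * u - j) * F (a + k * u)) (by fun_prop) t i (by
      intro u v
      have e : r ((2 : ℝ) ^ s * u - j) * F (a + k * u) - r ((2 : ℝ) ^ s * v - j) * F (a + k * v) =
        (r ((2 : ℝ) ^ s * u - j) - r ((2 : ℝ) ^ s * v - j)) * F (a + k * u) +
          r ((2 : ℝ) ^ s * v - j) * (F (a + k * u) - F (a + k * v)) := by ring
      rw [e]
      have h1 : |r ((2 : ℝ) ^ s * u - j) - r ((2 : ℝ) ^ s * v - j)| ≤ A' * ((2 : ℝ) ^ s * |u - v|) := by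
        refine (lip_of_deriv hr.1 hAr' _ _).trans (le_of_eq ?_)
        rw [show (2 : ℝ) ^ s * u - j - ((2 : ℝ) ^ s * v - j) = (2 : ℝ) ^ s * (u - v) by ring, abs_mul,
          abs_of_nonneg (by positivity : (0 : ℝ) ≤ 2 ^ s)]
      have h2 : |F (a + k * u) - F (a + k * v)| ≤ B * (|k| * |u - v|) := by
        refine (lip_of_deriv hF hB' _ _).trans (le_of_eq ?_)
        rw [show a + k * u - (a + k * v) = k * (u - v) by ring, abs_mul]
      calc _ ≤ |(r ((2 : ℝ) ^ s * u - j) - r ((2 : ℝ) ^ s * v - j)) * F (a + k * u)| +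
            |r ((2 : ℝ) ^ s * v - j) * (F (a + k * u) - F (a + k * v))| := abs_add_le _ _
        _ ≤ (A' * ((2 : ℝ) ^ s * |u - v|)) * B + A' * (B * (|k| * |u - v|)) := by
            rw [abs_mul, abs_mul]
            gcongr
            · exact hB _
            · exact hAr _
        _ = _ := by ring)
  unfold qq
  simp_rw [mul_assoc]
  refine h.trans (le_of_eq ?_)
  ring


/-! ### PAIR1 -/

theorem gt_abs (r : ℝ) : |gt r| ≤ 1 := by
  unfold gt
  split_ifs <;> norm_num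

theorem cell_mono {s t : ℕ} (hst : s ≤ t) {x u : ℝ} (h : ⌊(2 : ℝ) ^ t * x⌋ = ⌊(2 : ℝ) ^ t * u⌋) :
    ⌊(2 : ℝ) ^ s * x⌋ = ⌊(2 : ℝ) ^ s * u⌋ := by
  have key : ∀ x : ℝ, ⌊(2 : ℝ) ^ s * x⌋ = ⌊(2 : ℝ) ^ t * x⌋ / ((2 : ℕ) ^ (t - s) : ℕ) := by
    intro x
    rw [← Int.floor_div_natCast]
    congr 1
    have e : (2 : ℝ) ^ t = 2 ^ s * 2 ^ (t - s) := by rw [← pow_add]; congr 1; omega
    rw [e]
    push_cast
    field_simp
  rw [key, key, h]

theorem zeta_int {ζ : ℝ → ℝ} (hz : ZetC ζ) : ∫ u, ζ u = 0 := by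
  have h1 : ∫ u, ζ (1 - u) = ∫ u, ζ u := integral_sub_left_eq_self (fun v => ζ v) volume 1
  have h2 : ∫ u, ζ (1 - u) = -∫ u, ζ u := by
    rw [← integral_neg]
    congr 1
    ext u
    exact hz.2.2 u
  linarith

/-- `pp` in terms of `qq`. -/
theorem pp_eq (Φ ζ : ℝ → ℝ) (U : ℝ × ℝ → ℝ) (s t : ℕ) (z z' : ℝ × ℝ) :
    pp Φ ζ U s t z z' = (2 : ℝ) ^ s * gt (Int.fract ((2 : ℝ) ^ s * z.1)) *
      ((2 : ℝ) ^ t * gt (Int.fract ((2 : ℝ) ^ t * z'.1))) *
      qq Φ ζ ζ s t ⌊(2 : ℝ) ^ s * z.1⌋ ⌊(2 : ℝ) ^ t * z'.1⌋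
        (z.2 - z.1 * U z - (z'.2 - z'.1 * U z')) (U z - U z') := by
  unfold pp qq ln
  congr 2
  ext u
  congr 2
  ring

theorem pp_abs (Φ ζ : ℝ → ℝ) (U : ℝ × ℝ → ℝ) (s t : ℕ) (z z' : ℝ × ℝ) :
    |pp Φ ζ U s t z z'| ≤ (2 : ℝ) ^ s * (2 : ℝ) ^ t *
      |qq Φ ζ ζ s t ⌊(2 : ℝ) ^ s * z.1⌋ ⌊(2 : ℝ) ^ t * z'.1⌋
        (z.2 - z.1 * U z - (z'.2 - z'.1 * U z')) (U z - U z')| := by
  rw [pp_eq, abs_mul, abs_mul, abs_mul, abs_mul, abs_of_nonneg (by positivity : (0 : ℝ) ≤ 2 ^ s),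
    abs_of_nonneg (by positivity : (0 : ℝ) ≤ 2 ^ t)]
  apply mul_le_mul_of_nonneg_right _ (abs_nonneg _)
  apply mul_le_mul
  · exact mul_le_of_le_one_right (by positivity) (gt_abs _)
  · exact mul_le_of_le_one_right (by positivity) (gt_abs _)
  · positivity
  · positivity

/-- only nested cells interact, and only when the two lines come close over the short cell. -/
theorem pp_ne {Φ ζ : ℝ → ℝ} (hz : ZetC ζ) {R : ℝ} (hΦ : ∀ r, R < |r| → Φ r = 0)
    {U : ℝ × ℝ → ℝ} {s t : ℕ} (hst : s ≤ t) {z z' : ℝ × ℝ} (h : pp Φ ζ U s t z z' ≠ 0) :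
    ⌊(2 : ℝ) ^ s * z.1⌋ = ⌊(2 : ℝ) ^ s * z'.1⌋ ∧
      ∃ u, ⌊(2 : ℝ) ^ t * u⌋ = ⌊(2 : ℝ) ^ t * z'.1⌋ ∧ |ln U z u - ln U z' u| ≤ R := by
  have h1 : ∃ u, ζ ((2 : ℝ) ^ t * u - ⌊(2 : ℝ) ^ t * z'.1⌋) *
      ζ ((2 : ℝ) ^ s * u - ⌊(2 : ℝ) ^ s * z.1⌋) * Φ (ln U z u - ln U z' u) ≠ 0 := by
    by_contra hc
    push Not at hc
    apply h
    unfold pp
    simp_rw [hc]
    simp
  obtain ⟨u, hu⟩ := h1
  have h2 := zet_cell hz (left_ne_zero_of_mul (left_ne_zero_of_mul hu))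
  have h3 := zet_cell hz (right_ne_zero_of_mul (left_ne_zero_of_mul hu))
  have h4 := right_ne_zero_of_mul hu
  refine ⟨?_, u, h2, ?_⟩
  · rw [← h3]
    exact cell_mono hst h2
  · by_contra h5
    push Not at h5
    exact h4 (hΦ _ h5)

theorem pp_far {ζ : ℝ → ℝ} (hz : ZetC ζ) (n : ℕ) :
    ∃ C, 0 ≤ C ∧ ∀ (F : ℝ → ℝ) (B : ℝ), ContDiff ℝ (⊤ : ℕ∞) F → (∀ u, |F u| ≤ B) →
      ∀ (U : ℝ × ℝ → ℝ) (s t : ℕ) (z z' : ℝ × ℝ), s ≤ t →
      (|U z - U z'| * ((2 : ℝ) ^ t)⁻¹) ^ n * |pp (iteratedDeriv n F) ζ U s t z z'| ≤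
        C * B * (2 : ℝ) ^ s := by
  obtain ⟨C, hC0, hC⟩ := qq_far (ZetC.pr hz) (ZetC.pr hz) n
  refine ⟨C, hC0, ?_⟩
  intro F B hF hB U s t z z' hst
  have h := hC F B hF hB s t ⌊(2 : ℝ) ^ s * z.1⌋ ⌊(2 : ℝ) ^ t * z'.1⌋
    (z.2 - z.1 * U z - (z'.2 - z'.1 * U z')) (U z - U z') hst
  calc _ ≤ (|U z - U z'| * ((2 : ℝ) ^ t)⁻¹) ^ n * ((2 : ℝ) ^ s * (2 : ℝ) ^ t *
        |qq (iteratedDeriv n F) ζ ζ s t ⌊(2 : ℝ) ^ s * z.1⌋ ⌊(2 : ℝ) ^ t * z'.1⌋
        (z.2 - z.1 * U z - (z'.2 - z'.1 * U z')) (U z - U z')|) := by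
        gcongr
        exact pp_abs _ _ _ _ _ _ _
    _ = (2 : ℝ) ^ s * (2 : ℝ) ^ t * ((|U z - U z'| * ((2 : ℝ) ^ t)⁻¹) ^ n *
        |qq (iteratedDeriv n F) ζ ζ s t ⌊(2 : ℝ) ^ s * z.1⌋ ⌊(2 : ℝ) ^ t * z'.1⌋
        (z.2 - z.1 * U z - (z'.2 - z'.1 * U z')) (U z - U z')|) := by ring
    _ ≤ (2 : ℝ) ^ s * (2 : ℝ) ^ t * (C * B * ((2 : ℝ) ^ t)⁻¹) := by gcongr
    _ = _ := by field_simp

theorem pp_near {ζ : ℝ → ℝ} (hz : ZetC ζ) :
    ∃ C, 0 ≤ C ∧ ∀ (F : ℝ → ℝ) (B : ℝ), ContDiff ℝ (⊤ : ℕ∞) F → (∀ u, |F u| ≤ B) →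
      (∀ u, |deriv F u| ≤ B) → ∀ (U : ℝ × ℝ → ℝ) (s t : ℕ) (z z' : ℝ × ℝ),
      |pp F ζ U s t z z'| ≤ C * B * (2 : ℝ) ^ s *
        ((2 : ℝ) ^ s * ((2 : ℝ) ^ t)⁻¹ + |U z - U z'| * ((2 : ℝ) ^ t)⁻¹) := by
  obtain ⟨C, hC0, hC⟩ := qq_near (ZetC.pr hz) (zeta_int hz) (ZetC.pr hz)
  refine ⟨C, hC0, ?_⟩
  intro F B hF hB hB' U s t z z'
  have h := hC F B hF hB hB' s t ⌊(2 : ℝ) ^ s * z.1⌋ ⌊(2 : ℝ) ^ t * z'.1⌋
    (z.2 - z.1 * U z - (z'.2 - z'.1 * U z')) (U z - U z')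
  refine (pp_abs _ _ _ _ _ _ _).trans ?_
  calc _ ≤ (2 : ℝ) ^ s * (2 : ℝ) ^ t * (C * B * ((2 : ℝ) ^ t)⁻¹ *
        ((2 : ℝ) ^ s * ((2 : ℝ) ^ t)⁻¹ + |U z - U z'| * ((2 : ℝ) ^ t)⁻¹)) := by gcongr
    _ = _ := by field_simp

theorem pp_const_mul (c : ℝ) (F ζ : ℝ → ℝ) (U : ℝ × ℝ → ℝ) (s t : ℕ) (z z' : ℝ × ℝ) :
    pp (fun r => c * F r) ζ U s t z z' = c * pp F ζ U s t z z' := by
  unfold pp
  rw [show ∀ a b : ℝ, c * (a * b) = a * (c * b) by intros; ring, ← integral_const_mul c]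
  congr 2
  ext u
  ring

theorem iter_add (m n : ℕ) (f : ℝ → ℝ) :
    iteratedDeriv (m + n) f = iteratedDeriv m (iteratedDeriv n f) := by
  simp only [iteratedDeriv_eq_iterate, Function.iterate_add_apply]

/-- the pairing in terms of `Xi`. -/
theorem pair_eq {ζ : ℝ → ℝ} (hz : ZetC ζ) {M : ℕ} {ω : ℝ → ℝ} (hω : Om M ω) (N : ℕ)
    (U : ℝ × ℝ → ℝ) (s t : ℕ) (z z' : ℝ × ℝ) :
    ∫ w, kk (iteratedDeriv N ω) ζ U s z w * kk (iteratedDeriv N ω) ζ U t z' w =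
      (-1 : ℝ) ^ N * pp (iteratedDeriv (2 * N) (Xi ω)) ζ U s t z z' := by
  rw [int_kk (smooth_iter hω.1 N).continuous (cs_iter hω.cs N) hz U s t z z',
    show cr (iteratedDeriv N ω) (iteratedDeriv N ω) =
      fun r => (-1 : ℝ) ^ N * iteratedDeriv (2 * N) (Xi ω) r from funext fun r => cr_phi hω N r,
    pp_const_mul]

/-- PAIR1: the pairing of the kernels of two points, scales `2^-s ≥ 2^-t`, for `φ = ω^(N)`. -/
theorem pair1 {ζ : ℝ → ℝ} (hz : ZetC ζ) {N M : ℕ} (hNM : N + 1 ≤ M) :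
    ∃ C, 0 ≤ C ∧ ∀ ω : ℝ → ℝ, Om M ω → ∀ (U : ℝ × ℝ → ℝ) (s t : ℕ) (z z' : ℝ × ℝ), s ≤ t →
      (∀ n ≤ 2 * N, (|U z - U z'| * ((2 : ℝ) ^ t)⁻¹) ^ n *
        |∫ w, kk (iteratedDeriv N ω) ζ U s z w * kk (iteratedDeriv N ω) ζ U t z' w| ≤
          C * (2 : ℝ) ^ s) ∧
      (|∫ w, kk (iteratedDeriv N ω) ζ U s z w * kk (iteratedDeriv N ω) ζ U t z' w| ≤
          C * (2 : ℝ) ^ s *
            ((2 : ℝ) ^ s * ((2 : ℝ) ^ t)⁻¹ + |U z - U z'| * ((2 : ℝ) ^ t)⁻¹)) ∧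
      (∫ w, kk (iteratedDeriv N ω) ζ U s z w * kk (iteratedDeriv N ω) ζ U t z' w ≠ 0 →
        ⌊(2 : ℝ) ^ s * z.1⌋ = ⌊(2 : ℝ) ^ s * z'.1⌋ ∧
        ∃ u, ⌊(2 : ℝ) ^ t * u⌋ = ⌊(2 : ℝ) ^ t * z'.1⌋ ∧ |ln U z u - ln U z' u| ≤ 2) := by
  choose C1 hC10 hC1 using fun n => pp_far hz n
  obtain ⟨C2, hC20, hC2⟩ := pp_near hz
  have hsum : 0 ≤ ∑ n ∈ Finset.range (2 * N + 1), C1 n := Finset.sum_nonneg fun n _ => hC10 n
  refine ⟨2 * (∑ n ∈ Finset.range (2 * N + 1), C1 n) + 2 * C2, by positivity, ?_⟩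
  intro ω hω U s t z z' hst
  rw [pair_eq hz hω]
  have eabs : |(-1 : ℝ) ^ N * pp (iteratedDeriv (2 * N) (Xi ω)) ζ U s t z z'| =
      |pp (iteratedDeriv (2 * N) (Xi ω)) ζ U s t z z'| := by
    rw [abs_mul, abs_pow, abs_neg, abs_one, one_pow, one_mul]
  rw [eabs]
  refine ⟨?_, ?_, ?_⟩
  · intro n hn
    have e : iteratedDeriv (2 * N) (Xi ω) = iteratedDeriv n (iteratedDeriv (2 * N - n) (Xi ω)) := by
      rw [← iter_add]; congr 1; omega
    rw [e]
    refine (hC1 n (iteratedDeriv (2 * N - n) (Xi ω)) 2 (smooth_iter (smooth_Xi hω) _)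
      (fun u => Xi_bd hω (by omega) u) U s t z z' hst).trans ?_
    have h1 : C1 n ≤ ∑ n ∈ Finset.range (2 * N + 1), C1 n :=
      Finset.single_le_sum (f := C1) (fun n _ => hC10 n) (Finset.mem_range.2 (by omega))
    calc C1 n * 2 * 2 ^ s ≤ (∑ n ∈ Finset.range (2 * N + 1), C1 n) * 2 * 2 ^ s := by gcongr
      _ ≤ _ := by
        apply mul_le_mul_of_nonneg_right _ (by positivity)
        linarith
  · refine (hC2 (iteratedDeriv (2 * N) (Xi ω)) 2 (smooth_iter (smooth_Xi hω) _)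
      (fun u => Xi_bd hω (by omega) u) (fun u => by
        rw [← iteratedDeriv_succ]
        exact Xi_bd hω (by omega) u) U s t z z').trans ?_
    apply mul_le_mul_of_nonneg_right _ (by positivity)
    apply mul_le_mul_of_nonneg_right _ (by positivity)
    linarith
  · intro h
    exact pp_ne hz (fun r hr => Xi_zero hω _ hr) hst (right_ne_zero_of_mul h)

end Crest.Agent.R087.Pair1x339
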