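import Crest.Agent.R087.Sq_282
import Crest.Agent.R087.Pair1_339

/-!
Row 87 (S0115), operator part, leaf OP PAIR-TOP, half TOP1 (helper339): the square function of a
family with few active scales, in absolute values.
-/

set_option autoImplicit false

noncomputable section

open MeasureTheory Crest.Agent.R087.Sh0x283 Crest.Agent.R087.GateDefx273
open Crest.Agent.R087.OPdefx799 (ix ln kk T1 TS Ch nr)
open Crest.Agent.R087.Sqx282
open Crest.Agent.R087.Pair1x339 (Om Xi pair1)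
open scoped ENNReal

namespace Crest.Agent.R087.Top1x339

/-- the points `z'` (scale `s'`) which interact with `(z, s)` at the distance `2^j`. -/
def Zs (U : ℝ × ℝ → ℝ) (j s s' : ℕ) (z : ℝ × ℝ) : Set (ℝ × ℝ) :=
  {z' | ix s z'.1 = ix s z.1 ∧ |z'.2 - ln U z z'.1| ≤ 2 ^ j ∧
    |U z - U z'| * (1 / 2 : ℝ) ^ s' ≤ 2 ^ j}

/-- the same for some active scale `s' ≥ s`. -/
def Zn (U : ℝ × ℝ → ℝ) (S : ℕ) (act : ℕ → Set (ℝ × ℝ)) (j s : ℕ) (z : ℝ × ℝ) : Set (ℝ × ℝ) :=
  {z' | ∃ s', s ≤ s' ∧ s' < S ∧ z' ∈ act s' ∧ z' ∈ Zs U j s s' z}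

theorem measurable_ix (s : ℕ) : Measurable (ix s) := by
  unfold ix
  exact Int.measurable_floor.comp (measurable_const.mul measurable_id)

theorem measurableSet_Zs {U : ℝ × ℝ → ℝ} (hU : Measurable U) (j s s' : ℕ) (z : ℝ × ℝ) :
    MeasurableSet (Zs U j s s' z) := by
  unfold Zs
  refine MeasurableSet.inter ?_ (MeasurableSet.inter ?_ ?_)
  · exact ((measurable_ix s).comp measurable_fst) (measurableSet_singleton _)
  · have h : Measurable fun z' : ℝ × ℝ => |z'.2 - ln U z z'.1| := by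
      unfold ln
      fun_prop
    exact measurableSet_le h measurable_const
  · have h : Measurable fun z' : ℝ × ℝ => |U z - U z'| * (1 / 2 : ℝ) ^ s' := by fun_prop
    exact measurableSet_le h measurable_const

theorem measurableSet_Zn {U : ℝ × ℝ → ℝ} (hU : Measurable U) {S : ℕ} {act : ℕ → Set (ℝ × ℝ)}
    (hact : ∀ s, MeasurableSet (act s)) (j s : ℕ) (z : ℝ × ℝ) :
    MeasurableSet (Zn U S act j s z) := by
  have : Zn U S act j s z = ⋃ s' : ℕ, {z' | s ≤ s' ∧ s' < S} ∩ (act s' ∩ Zs U j s s' z) := by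
    ext z'
    simp only [Zn, Set.mem_ofPred_eq, Set.mem_iUnion, Set.mem_inter_iff]
    constructor
    · rintro ⟨s', h1, h2, h3, h4⟩
      exact ⟨s', ⟨h1, h2⟩, h3, h4⟩
    · rintro ⟨s', ⟨h1, h2⟩, h3, h4⟩
      exact ⟨s', h1, h2, h3, h4⟩
  rw [this]
  refine MeasurableSet.iUnion fun s' => ?_
  exact (MeasurableSet.const _).inter ((hact s').inter (measurableSet_Zs hU j s s' z))

theorem ix_close {s : ℕ} {x u : ℝ} (h : ix s x = ix s u) : |x - u| ≤ (1 / 2 : ℝ) ^ s := by
  unfold ix at h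
  have h3 := Int.abs_sub_lt_one_of_floor_eq_floor h
  have h4 : (0 : ℝ) < 2 ^ s := by positivity
  have h5 : (2 : ℝ) ^ s * x - 2 ^ s * u = 2 ^ s * (x - u) := by ring
  rw [h5, abs_mul, abs_of_pos h4] at h3
  rw [one_div, inv_pow, ← one_div, le_div_iff₀ h4]
  linarith

/-- dyadic size of `2 + b`. -/
theorem exists_pow (b : ℝ) (hb : 0 ≤ b) : ∃ j : ℕ, 2 + b ≤ 2 ^ j ∧ (2 : ℝ) ^ j ≤ 8 * max 1 b := by
  have hex : ∃ j : ℕ, 2 + b ≤ (2 : ℝ) ^ j := by
    obtain ⟨j, hj⟩ := pow_unbounded_of_one_lt (2 + b) (by norm_num : (1 : ℝ) < 2)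
    exact ⟨j, hj.le⟩
  classical
  refine ⟨Nat.find hex, Nat.find_spec hex, ?_⟩
  have h1 : Nat.find hex ≠ 0 := by
    intro h0
    have := Nat.find_spec hex
    rw [h0, pow_zero] at this
    linarith
  obtain ⟨i, hi⟩ := Nat.exists_eq_succ_of_ne_zero h1
  have h2 : ¬ (2 + b ≤ (2 : ℝ) ^ i) := Nat.find_min hex (by omega)
  push Not at h2
  rw [hi, pow_succ]
  have h3 : b ≤ max 1 b := le_max_right _ _
  have h4 : 1 ≤ max 1 b := le_max_left _ _
  linarith

/-- pointwise bound of the Gram kernel, in dyadic shells. -/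
theorem GG_shell {ζ : ℝ → ℝ} (hz : ZetC ζ) {N M : ℕ} (hNM : N + 1 ≤ M) :
    ∃ C : ℝ, 0 ≤ C ∧ ∀ ω : ℝ → ℝ, Om M ω → ∀ (U : ℝ × ℝ → ℝ) (s s' : ℕ) (z z' : ℝ × ℝ), s ≤ s' →
      GG (iteratedDeriv N ω) ζ U s s' z z' ≠ 0 →
      ∃ j : ℕ, z' ∈ Zs U j s s' z ∧
        |GG (iteratedDeriv N ω) ζ U s s' z z'| ≤ C * 2 ^ s * (1 / 2) ^ (2 * N * j) := by
  obtain ⟨C, hC0, hC⟩ := pair1 hz hNM
  refine ⟨C * 8 ^ (2 * N), by positivity, ?_⟩
  intro ω hω U s s' z z' hss hne
  obtain ⟨h1, -, h3⟩ := hC ω hω U s s' z z' hss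
  obtain ⟨h4, u, h5, h6⟩ := h3 hne
  set b : ℝ := |U z - U z'| * ((2 : ℝ) ^ s')⁻¹ with hb
  have hb0 : 0 ≤ b := by positivity
  have e12 : (1 / 2 : ℝ) ^ s' = ((2 : ℝ) ^ s')⁻¹ := by rw [one_div, inv_pow]
  obtain ⟨j, hj1, hj2⟩ := exists_pow b hb0
  refine ⟨j, ⟨h4.symm, ?_, ?_⟩, ?_⟩
  · have h7 : |z'.1 - u| ≤ (1 / 2 : ℝ) ^ s' := ix_close (by unfold ix; exact h5.symm)
    have e : z'.2 - ln U z z'.1 = -(Pair1x339.ln U z u - Pair1x339.ln U z' u) -
        (U z - U z') * (z'.1 - u) := by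
      unfold ln Pair1x339.ln
      ring
    rw [e]
    calc _ ≤ |-(Pair1x339.ln U z u - Pair1x339.ln U z' u)| + |(U z - U z') * (z'.1 - u)| :=
          abs_sub _ _
      _ ≤ 2 + |U z - U z'| * ((2 : ℝ) ^ s')⁻¹ := by
          rw [abs_neg, abs_mul]
          rw [e12] at h7
          gcongr
      _ ≤ 2 ^ j := hj1
  · rw [e12]
    linarith
  · have hG : |GG (iteratedDeriv N ω) ζ U s s' z z'| * (max 1 b) ^ (2 * N) ≤ C * 2 ^ s := by
      rcases le_total b 1 with hb1 | hb1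
      · rw [max_eq_left hb1, one_pow, mul_one]
        have := h1 0 (Nat.zero_le _)
        rw [pow_zero, one_mul] at this
        exact this
      · rw [max_eq_right hb1, mul_comm]
        exact h1 (2 * N) le_rfl
    have hpos : (0 : ℝ) < max 1 b := lt_of_lt_of_le one_pos (le_max_left _ _)
    have hmx : (0 : ℝ) < (max 1 b) ^ (2 * N) := by positivity
    have h8 : (1 : ℝ) ≤ 8 ^ (2 * N) * (max 1 b) ^ (2 * N) * (1 / 2) ^ (2 * N * j) := by
      have e : (1 / 2 : ℝ) ^ (2 * N * j) = ((2 ^ j) ^ (2 * N))⁻¹ := by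
        rw [one_div, inv_pow, ← pow_mul]
        congr 2
        ring
      rw [e, ← mul_pow, ← div_eq_mul_inv, le_div_iff₀ (by positivity), one_mul]
      exact pow_le_pow_left₀ (by positivity) hj2 _
    have hGG0 : 0 ≤ |GG (iteratedDeriv N ω) ζ U s s' z z'| := abs_nonneg _
    calc |GG (iteratedDeriv N ω) ζ U s s' z z'|
        ≤ |GG (iteratedDeriv N ω) ζ U s s' z z'| *
          (8 ^ (2 * N) * (max 1 b) ^ (2 * N) * (1 / 2) ^ (2 * N * j)) :=
          le_mul_of_one_le_right hGG0 h8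
      _ = (|GG (iteratedDeriv N ω) ζ U s s' z z'| * (max 1 b) ^ (2 * N)) *
          (8 ^ (2 * N) * (1 / 2) ^ (2 * N * j)) := by ring
      _ ≤ (C * 2 ^ s) * (8 ^ (2 * N) * (1 / 2) ^ (2 * N * j)) := by gcongr
      _ = _ := by ring

theorem GG_enorm {ζ : ℝ → ℝ} (hz : ZetC ζ) {N M : ℕ} (hNM : N + 1 ≤ M) :
    ∃ C : ℝ, 0 ≤ C ∧ ∀ ω : ℝ → ℝ, Om M ω → ∀ (U : ℝ × ℝ → ℝ) (s s' : ℕ) (z z' : ℝ × ℝ), s ≤ s' →
      ‖GG (iteratedDeriv N ω) ζ U s s' z z'‖ₑ ≤ ENNReal.ofReal C * 2 ^ s *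
        ∑' j : ℕ, ENNReal.ofReal ((1 / 2) ^ (2 * N * j)) * (Zs U j s s' z).indicator 1 z' := by
  obtain ⟨C, hC0, hC⟩ := GG_shell hz hNM
  refine ⟨C, hC0, ?_⟩
  intro ω hω U s s' z z' hss
  by_cases h0 : GG (iteratedDeriv N ω) ζ U s s' z z' = 0
  · rw [h0]
    simp
  · obtain ⟨j, hj1, hj2⟩ := hC ω hω U s s' z z' hss h0
    calc ‖GG (iteratedDeriv N ω) ζ U s s' z z'‖ₑ
        = ENNReal.ofReal |GG (iteratedDeriv N ω) ζ U s s' z z'| := by
          rw [← Real.enorm_eq_ofReal_abs]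
      _ ≤ ENNReal.ofReal (C * 2 ^ s * (1 / 2) ^ (2 * N * j)) := ENNReal.ofReal_le_ofReal hj2
      _ = ENNReal.ofReal C * 2 ^ s *
          (ENNReal.ofReal ((1 / 2) ^ (2 * N * j)) * (Zs U j s s' z).indicator 1 z') := by
          rw [ENNReal.ofReal_mul (by positivity), ENNReal.ofReal_mul hC0, ENNReal.ofReal_pow zero_le_two,
            Set.indicator_of_mem hj1]
          simp
      _ ≤ _ := by
          gcongr
          exact ENNReal.le_tsum j

/-- the average of `W` along the line of `z` over the cell of scale `s`. -/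
def LI (U : ℝ × ℝ → ℝ) (W : ℝ × ℝ → ℝ≥0∞) (s : ℕ) (z : ℝ × ℝ) : ℝ≥0∞ :=
  ∫⁻ x in {x : ℝ | ix s x = ix s z.1}, W (x, ln U z x)

theorem measurable_LI {U : ℝ × ℝ → ℝ} (hU : Measurable U) {W : ℝ × ℝ → ℝ≥0∞} (hW : Measurable W)
    (s : ℕ) : Measurable (LI U W s) := by
  have h1 : LI U W s = fun z => ∫⁻ x, ({p : (ℝ × ℝ) × ℝ | ix s p.2 = ix s p.1.1}).indicator
      (fun p => W (p.2, ln U p.1 p.2)) (z, x) := by
    ext z
    unfold LI
    rw [← lintegral_indicator]
    · rfl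
    · exact (measurable_ix s) (measurableSet_singleton _)
  rw [h1]
  apply Measurable.lintegral_prod_right'
  apply Measurable.indicator
  · apply hW.comp
    unfold ln
    fun_prop
  · exact measurableSet_eq_fun ((measurable_ix s).comp measurable_snd)
      ((measurable_ix s).comp (measurable_fst.comp measurable_fst))

/-- pointwise summation over the short scales. -/
theorem pt_sum {ζ : ℝ → ℝ} {N : ℕ} {ω : ℝ → ℝ} {C : ℝ} {U : ℝ × ℝ → ℝ}
    (hG : ∀ (s s' : ℕ) (z z' : ℝ × ℝ), s ≤ s' →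
      ‖GG (iteratedDeriv N ω) ζ U s s' z z'‖ₑ ≤ ENNReal.ofReal C * 2 ^ s *
        ∑' j : ℕ, ENNReal.ofReal ((1 / 2) ^ (2 * N * j)) * (Zs U j s s' z).indicator 1 z')
    {S : ℕ} {act : ℕ → Set (ℝ × ℝ)} {q : ℝ≥0∞}
    (hq : ∀ z, ∑ s ∈ Finset.range S, (act s).indicator (fun _ => (1 : ℝ≥0∞)) z ≤ q)
    (h : ℝ × ℝ → ℝ) (z z' : ℝ × ℝ) :
    ∑ s' ∈ Finset.range S, ∑ s ∈ Finset.range (s' + 1), ‖(act s').indicator h z'‖ₑ *
        (‖GG (iteratedDeriv N ω) ζ U s s' z z'‖ₑ * ‖(act s).indicator h z‖ₑ) ≤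
      ∑ s ∈ Finset.range S, ‖(act s).indicator h z‖ₑ * (ENNReal.ofReal C * 2 ^ s *
        (q * ∑' j : ℕ, ENNReal.ofReal ((1 / 2) ^ (2 * N * j)) *
          (Zn U S act j s z).indicator (fun z' => ‖h z'‖ₑ) z')) := by
  classical
  have e1 : ∑ s' ∈ Finset.range S, ∑ s ∈ Finset.range (s' + 1), ‖(act s').indicator h z'‖ₑ *
        (‖GG (iteratedDeriv N ω) ζ U s s' z z'‖ₑ * ‖(act s).indicator h z‖ₑ) =
      ∑ s ∈ Finset.range S, ∑ s' ∈ (Finset.range S).filter (fun s' => s ≤ s'),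
        ‖(act s').indicator h z'‖ₑ *
        (‖GG (iteratedDeriv N ω) ζ U s s' z z'‖ₑ * ‖(act s).indicator h z‖ₑ) := by
    apply Finset.sum_comm'
    intro a b
    simp only [Finset.mem_range, Finset.mem_filter]
    omega
  rw [e1]
  refine Finset.sum_le_sum fun s hs => ?_
  set X : ℝ≥0∞ := ∑' j : ℕ, ENNReal.ofReal ((1 / 2) ^ (2 * N * j)) *
          (Zn U S act j s z).indicator (fun z' => ‖h z'‖ₑ) z' with hX
  have e2 : ∀ s' ∈ (Finset.range S).filter (fun s' => s ≤ s'), ‖(act s').indicator h z'‖ₑ *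
        (‖GG (iteratedDeriv N ω) ζ U s s' z z'‖ₑ * ‖(act s).indicator h z‖ₑ) ≤
      (act s').indicator (fun _ => (1 : ℝ≥0∞)) z' *
        (‖(act s).indicator h z‖ₑ * (ENNReal.ofReal C * 2 ^ s * X)) := by
    intro s' hs'
    rw [Finset.mem_filter, Finset.mem_range] at hs'
    by_cases hz' : z' ∈ act s'
    · rw [Set.indicator_of_mem hz', Set.indicator_of_mem hz', one_mul]
      calc ‖h z'‖ₑ * (‖GG (iteratedDeriv N ω) ζ U s s' z z'‖ₑ * ‖(act s).indicator h z‖ₑ)
          ≤ ‖h z'‖ₑ * ((ENNReal.ofReal C * 2 ^ s * ∑' j : ℕ, ENNReal.ofReal ((1 / 2) ^ (2 * N * j)) *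
            (Zs U j s s' z).indicator 1 z') * ‖(act s).indicator h z‖ₑ) := by
            gcongr
            exact hG s s' z z' hs'.2
        _ = ‖(act s).indicator h z‖ₑ * (ENNReal.ofReal C * 2 ^ s * (‖h z'‖ₑ *
            ∑' j : ℕ, ENNReal.ofReal ((1 / 2) ^ (2 * N * j)) *
            (Zs U j s s' z).indicator 1 z')) := by ring
        _ ≤ _ := by
            gcongr
            rw [← ENNReal.tsum_mul_left, hX]
            refine ENNReal.tsum_le_tsum fun j => ?_
            by_cases hj : z' ∈ Zs U j s s' z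
            · have hj2 : z' ∈ Zn U S act j s z := ⟨s', hs'.2, hs'.1, hz', hj⟩
              rw [Set.indicator_of_mem hj, Set.indicator_of_mem hj2, Pi.one_apply, mul_one, mul_comm]
            · rw [Set.indicator_of_notMem hj]
              simp
    · rw [Set.indicator_of_notMem hz']
      simp
  calc _ ≤ ∑ s' ∈ (Finset.range S).filter (fun s' => s ≤ s'),
        (act s').indicator (fun _ => (1 : ℝ≥0∞)) z' *
        (‖(act s).indicator h z‖ₑ * (ENNReal.ofReal C * 2 ^ s * X)) := Finset.sum_le_sum e2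
    _ = (∑ s' ∈ (Finset.range S).filter (fun s' => s ≤ s'),
        (act s').indicator (fun _ => (1 : ℝ≥0∞)) z') *
        (‖(act s).indicator h z‖ₑ * (ENNReal.ofReal C * 2 ^ s * X)) := by rw [Finset.sum_mul]
    _ ≤ q * (‖(act s).indicator h z‖ₑ * (ENNReal.ofReal C * 2 ^ s * X)) := by
        gcongr
        refine le_trans ?_ (hq z')
        exact Finset.sum_le_sum_of_subset (Finset.filter_subset _ _)
    _ = _ := by ring

/-- **TOP1**. -/
theorem top1 {ζ : ℝ → ℝ} (hz : ZetC ζ) {N M : ℕ} (hNM : N + 1 ≤ M) :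
    ∃ C : ℝ, 0 ≤ C ∧ ∀ ω : ℝ → ℝ, Om M ω → ∀ (U : ℝ × ℝ → ℝ), Measurable U →
      (∃ W0 : ℝ, ∀ z, |U z| ≤ W0) → ∀ (S : ℕ) (act : ℕ → Set (ℝ × ℝ)),
      (∀ s, MeasurableSet (act s)) → ∀ q : ℝ≥0∞,
      (∀ z, ∑ s ∈ Finset.range S, (act s).indicator (fun _ => (1 : ℝ≥0∞)) z ≤ q) →
      ∀ h : ℝ × ℝ → ℝ, Nice h → ∀ (Mj : ℕ → ℝ≥0∞) (W : ℕ → ℝ × ℝ → ℝ≥0∞),
      (∀ j, Measurable (W j)) →
      (∀ j s z, s < S → z ∈ act s → ∫⁻ z' in Zn U S act j s z, ‖h z'‖ₑ ≤ Mj j * LI U (W j) s z) →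
      ENNReal.ofReal (∫ w, (TS (iteratedDeriv N ω) ζ U S (fun s => (act s).indicator h) w) ^ 2) ≤
        ENNReal.ofReal C * q * ∑' j : ℕ, ENNReal.ofReal ((1 / 2) ^ (2 * N * j)) * (Mj j *
          ∫⁻ z, ∑ s ∈ Finset.range S, ‖(act s).indicator h z‖ₑ * (2 ^ s * LI U (W j) s z)) := by
  obtain ⟨C, hC0, hC⟩ := GG_enorm hz hNM
  refine ⟨2 * C, by positivity, ?_⟩
  intro ω hω U hU hUb S act hact q hq h hh Mj W hW hyp
  obtain ⟨W0, hW0⟩ := hUb
  have P : PZ (iteratedDeriv N ω) ζ :=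
    prof_of (Pair1x339.smooth_iter hω.1 N) (Pair1x339.zero_iter hω.2.1 N) hz
  set φ := iteratedDeriv N ω with hφ
  set H : ℕ → ℝ × ℝ → ℝ := fun s => (act s).indicator h with hHdef
  have hH : ∀ s, Nice (H s) := fun s => nice_ind hh (hact s)
  have hHm : ∀ s, Measurable (H s) := fun s => (hH s).1
  have hGm : ∀ s s', Measurable (fun p : (ℝ × ℝ) × (ℝ × ℝ) => GG φ ζ U s s' p.1 p.2) :=
    fun s s' => (GG_ker P hU hW0 s s').meas
  -- the two variable integrand
  set F : ℝ × ℝ → ℝ × ℝ → ℝ≥0∞ := fun z z' => ∑ s' ∈ Finset.range S,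
    ∑ s ∈ Finset.range (s' + 1), ‖H s' z'‖ₑ * (‖GG φ ζ U s s' z z'‖ₑ * ‖H s z‖ₑ) with hF
  have hFm : Measurable (fun p : (ℝ × ℝ) × (ℝ × ℝ) => F p.1 p.2) := by
    refine Finset.measurable_fun_sum _ fun s' _ => Finset.measurable_fun_sum _ fun s _ => ?_
    exact ((hHm s').comp measurable_snd).enorm.mul
      ((hGm s s').enorm.mul ((hHm s).comp measurable_fst).enorm)
  have step1 : ENNReal.ofReal (∫ w, (TS φ ζ U S H w) ^ 2) ≤
      2 * ∫⁻ z', ∫⁻ z, F z z' := by
    calc ENNReal.ofReal (∫ w, (TS φ ζ U S H w) ^ 2)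
        ≤ ENNReal.ofReal (2 * ∫ z', ∑ s' ∈ Finset.range S, H s' z' * PP φ ζ U H s' z') :=
          ENNReal.ofReal_le_ofReal (sq_expand P hU hW0 S fun s _ => hH s)
      _ = 2 * ENNReal.ofReal (∫ z', ∑ s' ∈ Finset.range S, H s' z' * PP φ ζ U H s' z') := by
          rw [ENNReal.ofReal_mul zero_le_two]
          simp
      _ ≤ 2 * ∫⁻ z', ‖∑ s' ∈ Finset.range S, H s' z' * PP φ ζ U H s' z'‖ₑ := by
          gcongr
          exact (Real.ofReal_le_enorm _).trans (enorm_integral_le_lintegral_enorm _)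
      _ ≤ 2 * ∫⁻ z', ∫⁻ z, F z z' := by
          gcongr with z'
          calc ‖∑ s' ∈ Finset.range S, H s' z' * PP φ ζ U H s' z'‖ₑ
              ≤ ∑ s' ∈ Finset.range S, ‖H s' z' * PP φ ζ U H s' z'‖ₑ := enorm_sum_le _ _
            _ ≤ ∑ s' ∈ Finset.range S, ∑ s ∈ Finset.range (s' + 1),
                ∫⁻ z, ‖H s' z'‖ₑ * (‖GG φ ζ U s s' z z'‖ₑ * ‖H s z‖ₑ) := by
                refine Finset.sum_le_sum fun s' _ => ?_
                rw [enorm_mul]
                unfold PP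
                calc _ ≤ ‖H s' z'‖ₑ * ∑ s ∈ Finset.range (s' + 1),
                      ‖∫ z, GG φ ζ U s s' z z' * H s z‖ₑ := by
                      gcongr
                      exact enorm_sum_le _ _
                  _ ≤ ‖H s' z'‖ₑ * ∑ s ∈ Finset.range (s' + 1),
                      ∫⁻ z, ‖GG φ ζ U s s' z z'‖ₑ * ‖H s z‖ₑ := by
                      gcongr with s _
                      refine (enorm_integral_le_lintegral_enorm _).trans (le_of_eq ?_)
                      congr 1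
                      ext z
                      rw [enorm_mul]
                  _ = _ := by
                      rw [Finset.mul_sum]
                      refine Finset.sum_congr rfl fun s _ => ?_
                      rw [lintegral_const_mul]
                      exact ((hGm s s').comp (measurable_id.prodMk measurable_const)).enorm.mul
                        (hHm s).enorm
            _ = ∫⁻ z, F z z' := by
                rw [hF, lintegral_finsetSum]
                · refine Finset.sum_congr rfl fun s' _ => ?_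
                  rw [lintegral_finsetSum]
                  intro s _
                  exact measurable_const.mul
                    (((hGm s s').comp (measurable_id.prodMk measurable_const)).enorm.mul
                      (hHm s).enorm)
                · intro s' _
                  refine Finset.measurable_fun_sum _ fun s _ => ?_
                  exact measurable_const.mul
                    (((hGm s s').comp (measurable_id.prodMk measurable_const)).enorm.mul
                      (hHm s).enorm)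
  have step2 : ∫⁻ z', ∫⁻ z, F z z' = ∫⁻ z, ∫⁻ z', F z z' := by
    rw [lintegral_lintegral_swap]
    exact (hFm.comp measurable_swap).aemeasurable
  have hhm : Measurable fun z' : ℝ × ℝ => ‖h z'‖ₑ := hh.1.enorm
  have step3 : ∀ z, ∫⁻ z', F z z' ≤ ∑ s ∈ Finset.range S, ‖H s z‖ₑ * (ENNReal.ofReal C * 2 ^ s *
        (q * ∑' j : ℕ, ENNReal.ofReal ((1 / 2) ^ (2 * N * j)) *
          ∫⁻ z' in Zn U S act j s z, ‖h z'‖ₑ)) := by
    intro z
    have mI : ∀ j s, Measurable fun z' => (Zn U S act j s z).indicator (fun z' => ‖h z'‖ₑ) z' :=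
      fun j s => hhm.indicator (measurableSet_Zn hU hact j s z)
    calc ∫⁻ z', F z z' ≤ ∫⁻ z', ∑ s ∈ Finset.range S, ‖H s z‖ₑ * (ENNReal.ofReal C * 2 ^ s *
          (q * ∑' j : ℕ, ENNReal.ofReal ((1 / 2) ^ (2 * N * j)) *
            (Zn U S act j s z).indicator (fun z' => ‖h z'‖ₑ) z')) := by
          refine lintegral_mono fun z' => ?_
          exact pt_sum (hC ω hω U) hq h z z'
      _ = _ := by
          have mT : ∀ s, Measurable fun z' => ∑' j : ℕ, ENNReal.ofReal ((1 / 2) ^ (2 * N * j)) *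
              (Zn U S act j s z).indicator (fun z' => ‖h z'‖ₑ) z' :=
            fun s => Measurable.tsum fun j => measurable_const.mul (mI j s)
          rw [lintegral_finsetSum]
          · refine Finset.sum_congr rfl fun s _ => ?_
            rw [lintegral_const_mul _ (((mT s).const_mul _).const_mul _),
              lintegral_const_mul _ ((mT s).const_mul _), lintegral_const_mul _ (mT s),
              lintegral_tsum fun j => ((mI j s).const_mul _).aemeasurable]
            congr 4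
            ext j
            rw [lintegral_const_mul _ (mI j s), lintegral_indicator (measurableSet_Zn hU hact j s z)]
          · intro s _
            exact (((mT s).const_mul _).const_mul _).const_mul _
  have step4 : ∀ z, ∑ s ∈ Finset.range S, ‖H s z‖ₑ * (ENNReal.ofReal C * 2 ^ s *
        (q * ∑' j : ℕ, ENNReal.ofReal ((1 / 2) ^ (2 * N * j)) *
          ∫⁻ z' in Zn U S act j s z, ‖h z'‖ₑ)) ≤
      ENNReal.ofReal C * q * ∑' j : ℕ, ENNReal.ofReal ((1 / 2) ^ (2 * N * j)) * (Mj j *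
        ∑ s ∈ Finset.range S, ‖H s z‖ₑ * (2 ^ s * LI U (W j) s z)) := by
    intro z
    calc _ ≤ ∑ s ∈ Finset.range S, ‖H s z‖ₑ * (ENNReal.ofReal C * 2 ^ s *
          (q * ∑' j : ℕ, ENNReal.ofReal ((1 / 2) ^ (2 * N * j)) * (Mj j * LI U (W j) s z))) := by
          refine Finset.sum_le_sum fun s hs => ?_
          by_cases hzs : z ∈ act s
          · gcongr with j
            exact hyp j s z (Finset.mem_range.1 hs) hzs
          · have : H s z = 0 := Set.indicator_of_notMem hzs _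
            rw [this]
            simp
      _ = _ := by
          have e3 : ∑' j : ℕ, ENNReal.ofReal ((1 / 2) ^ (2 * N * j)) * (Mj j *
              ∑ s ∈ Finset.range S, ‖H s z‖ₑ * (2 ^ s * LI U (W j) s z)) =
              ∑ s ∈ Finset.range S, ∑' j : ℕ, ENNReal.ofReal ((1 / 2) ^ (2 * N * j)) * (Mj j *
                (‖H s z‖ₑ * (2 ^ s * LI U (W j) s z))) := by
            simp_rw [Finset.mul_sum]
            exact Summable.tsum_finsetSum fun _ _ => ENNReal.summable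
          rw [e3, Finset.mul_sum]
          refine Finset.sum_congr rfl fun s _ => ?_
          have e4 : ∑' j : ℕ, ENNReal.ofReal ((1 / 2) ^ (2 * N * j)) * (Mj j *
                (‖H s z‖ₑ * (2 ^ s * LI U (W j) s z))) = ‖H s z‖ₑ * 2 ^ s *
              ∑' j : ℕ, ENNReal.ofReal ((1 / 2) ^ (2 * N * j)) * (Mj j * LI U (W j) s z) := by
            rw [← ENNReal.tsum_mul_left]
            congr 1
            ext j
            ring
          rw [e4]
          ring
  calc ENNReal.ofReal (∫ w, (TS φ ζ U S H w) ^ 2) ≤ 2 * ∫⁻ z', ∫⁻ z, F z z' := step1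
    _ = 2 * ∫⁻ z, ∫⁻ z', F z z' := by rw [step2]
    _ ≤ 2 * ∫⁻ z, ENNReal.ofReal C * q * ∑' j : ℕ, ENNReal.ofReal ((1 / 2) ^ (2 * N * j)) * (Mj j *
        ∑ s ∈ Finset.range S, ‖H s z‖ₑ * (2 ^ s * LI U (W j) s z)) := by
        gcongr with z
        exact (step3 z).trans (step4 z)
    _ = _ := by
        have mJ : ∀ j, Measurable fun z => ∑ s ∈ Finset.range S, ‖H s z‖ₑ * (2 ^ s * LI U (W j) s z) :=
          fun j => Finset.measurable_fun_sum _ fun s _ => (hHm s).enorm.mul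
            (measurable_const.mul (measurable_LI hU (hW j) s))
        rw [lintegral_const_mul _ (Measurable.tsum fun j => ((mJ j).const_mul _).const_mul _),
          lintegral_tsum fun j => (((mJ j).const_mul _).const_mul _).aemeasurable,
          ENNReal.ofReal_mul zero_le_two]
        have e2 : ENNReal.ofReal 2 = 2 := by simp
        rw [e2, mul_assoc, mul_assoc, mul_assoc]
        congr 4
        ext j
        rw [lintegral_const_mul _ ((mJ j).const_mul _), lintegral_const_mul _ (mJ j)]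

end Crest.Agent.R087.Top1x339
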