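import Crest.Agent.R087.OP0_270
import Crest.Agent.R087.Top1_339

/-!
Row 87 (S0115), operator part: absolute bound of one pairing, weight form (helper339).
-/

set_option autoImplicit false

noncomputable section

open MeasureTheory Crest.Agent.R087.Sh0x283 Crest.Agent.R087.GateDefx273

namespace Crest.Agent.R087.TopPx339

open Crest.Agent.R087.OP0x270

/-- absolute bound of one pairing, any exponent `q ≤ 2N`. -/
theorem pairq {ζ : ℝ → ℝ} (hz : ZetC ζ) {N M q : ℕ} (hNM : N + 1 ≤ M) (hq : q ≤ 2 * N) :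
    ∃ C : ℝ, 0 ≤ C ∧ ∀ ω : ℝ → ℝ, PW M ω → ∀ (U : ℝ × ℝ → ℝ) (s s' : ℕ), s ≤ s' →
      ∀ z z' : ℝ × ℝ,
      |pr (iteratedDeriv N ω) ζ U s s' z z'| ≤ C * 2 ^ s /
        (1 + |U z' - U z| * (1 / 2) ^ s' + |z'.2 - (z.2 + (z'.1 - z.1) * U z)|) ^ q ∧
      (jx s z'.1 ≠ jx s z.1 → pr (iteratedDeriv N ω) ζ U s s' z z' = 0) := by
  obtain ⟨C, hC0, hC⟩ := Pair1x339.pair1 hz hNM
  refine ⟨C * 5 ^ q, by positivity, ?_⟩
  intro ω hω U s s' hss z z'
  obtain ⟨h1, -, h3⟩ := hC ω hω U s s' z z' hss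
  have epr : pr (iteratedDeriv N ω) ζ U s s' z z' =
    ∫ w, Pair1x339.kk (iteratedDeriv N ω) ζ U s z w * Pair1x339.kk (iteratedDeriv N ω) ζ U s' z' w := rfl
  rw [← epr] at h3
  have h1' : ∀ n ≤ 2 * N, (|U z - U z'| * ((2 : ℝ) ^ s')⁻¹) ^ n *
      |pr (iteratedDeriv N ω) ζ U s s' z z'| ≤ C * 2 ^ s := h1
  set P := pr (iteratedDeriv N ω) ζ U s s' z z' with hP
  set b : ℝ := |U z - U z'| * ((2 : ℝ) ^ s')⁻¹ with hb
  have hb0 : 0 ≤ b := by positivity
  have e12 : (1 / 2 : ℝ) ^ s' = ((2 : ℝ) ^ s')⁻¹ := by rw [one_div, inv_pow]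
  have eb : |U z' - U z| * (1 / 2) ^ s' = b := by rw [e12, abs_sub_comm]
  rw [eb]
  constructor
  · by_cases h0 : P = 0
    · rw [h0, abs_zero]
      positivity
    · obtain ⟨h4, u, h5, h6⟩ := h3 h0
      have h7 : |z'.1 - u| ≤ ((2 : ℝ) ^ s')⁻¹ := by
        rw [← e12]
        exact Top1x339.ix_close (by unfold OPdefx799.ix; exact h5.symm)
      have h8 : |z'.2 - (z.2 + (z'.1 - z.1) * U z)| ≤ 2 + b := by
        have e : z'.2 - (z.2 + (z'.1 - z.1) * U z) =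
            -(Pair1x339.ln U z u - Pair1x339.ln U z' u) - (U z - U z') * (z'.1 - u) := by
          unfold Pair1x339.ln
          ring
        rw [e]
        calc _ ≤ |-(Pair1x339.ln U z u - Pair1x339.ln U z' u)| + |(U z - U z') * (z'.1 - u)| :=
              abs_sub _ _
          _ ≤ 2 + |U z - U z'| * ((2 : ℝ) ^ s')⁻¹ := by
              rw [abs_neg, abs_mul]
              gcongr
      have h9 : 1 + b + |z'.2 - (z.2 + (z'.1 - z.1) * U z)| ≤ 5 * max 1 b := by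
        have h3 : b ≤ max 1 b := le_max_right _ _
        have h4 : 1 ≤ max 1 b := le_max_left _ _
        linarith
      have hG : |P| * (max 1 b) ^ q ≤ C * 2 ^ s := by
        rcases le_total b 1 with hb1 | hb1
        · rw [max_eq_left hb1, one_pow, mul_one]
          have := h1' 0 (Nat.zero_le _)
          rw [pow_zero, one_mul] at this
          exact this
        · rw [max_eq_right hb1, mul_comm]
          exact h1' q hq
      rw [le_div_iff₀ (by positivity)]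
      calc |P| * (1 + b + |z'.2 - (z.2 + (z'.1 - z.1) * U z)|) ^ q
          ≤ |P| * (5 * max 1 b) ^ q := by gcongr
        _ = 5 ^ q * (|P| * (max 1 b) ^ q) := by rw [mul_pow]; ring
        _ ≤ 5 ^ q * (C * 2 ^ s) := by gcongr
        _ = _ := by ring
  · intro hne
    by_contra h0
    exact hne (h3 h0).1.symm

theorem pairb {ζ : ℝ → ℝ} (hz : ZetC ζ) : ∃ C : ℝ, 0 ≤ C ∧ ∀ ω : ℝ → ℝ, PW (2 * qq + 8) ω →
    ∀ U : ℝ × ℝ → ℝ, Measurable U → (∃ W, ∀ z, |U z| ≤ W) → ∀ s s' : ℕ, s ≤ s' →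
      ∀ z z' : ℝ × ℝ,
      |pr (ph ω) ζ U s s' z z'| ≤ C * 2 ^ s /
        (1 + |U z' - U z| * (1 / 2) ^ s' + |z'.2 - (z.2 + (z'.1 - z.1) * U z)|) ^ qq ∧
      (jx s z'.1 ≠ jx s z.1 → pr (ph ω) ζ U s s' z z' = 0) := by
  obtain ⟨C, hC0, hC⟩ := pairq hz (N := 2 * qq + 2) (M := 2 * qq + 8) (q := qq) (by omega) (by omega)
  exact ⟨C, hC0, fun ω hω U _ _ s s' hss z z' => hC ω hω U s s' hss z z'⟩

end Crest.Agent.R087.TopPx339
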