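import Crest.Agent.R087.TopOne_929

/-!
Row 87, operator part, leaf TOPN, part STOP (helper929): stopping of all tops of one class
(one-scale chains).
-/

set_option autoImplicit false

noncomputable section

open MeasureTheory

namespace Crest.Agent.R087.TopSx929

open Crest.Agent.R087.Sh0x283 Crest.Agent.R087.E2x542 Crest.Agent.R087.E2Kx752
open Crest.Agent.R087.GateDefx273 Crest.Agent.R087.OP0x270 Crest.Agent.R087.TopOnex929

theorem near_mono_K {U : ℝ × ℝ → ℝ} {K K' b m : ℝ} {s : ℕ} {z : ℝ × ℝ} (hK : K ≤ K')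
    (h : near U K b m s z) : near U K' b m s z := ⟨h.1.trans hK, h.2.trans hK⟩

/-- integral of `h²` over a set inside one colour -/
theorem int_col {h : ℝ × ℝ → ℝ} (hh : Nice h) {k : ℤ} {A : Set (ℝ × ℝ)} (hA : MeasurableSet A)
    (hAk : A ⊆ col h k) {c : ℝ} (hc : 0 ≤ c) (hv : volume A ≤ ENNReal.ofReal c) :
    ∫ z in A, (h z) ^ 2 ≤ 4 * 4 ^ k * c := by
  have hfin : volume A ≠ ⊤ := ne_top_of_le_ne_top ENNReal.ofReal_ne_top hv
  have h1 : ∀ z ∈ A, (h z) ^ 2 ≤ 4 * 4 ^ k := by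
    intro z hz
    have h2 := (hAk hz).2.le
    have h3 : (0 : ℝ) ≤ |h z| := abs_nonneg _
    calc (h z) ^ 2 = |h z| ^ 2 := (sq_abs _).symm
      _ ≤ ((2 : ℝ) ^ (k + 1)) ^ 2 := by gcongr
      _ = 4 * 4 ^ k := by
        rw [zpow_add₀ (by norm_num), zpow_one, mul_pow]
        have : (4 : ℝ) ^ k = ((2 : ℝ) ^ k) ^ 2 := by
          rw [← zpow_natCast, ← zpow_mul, mul_comm k, zpow_mul]
          norm_num
        rw [this]
        ring
  have h2 : ∫ z in A, (h z) ^ 2 ≤ ∫ _z in A, (4 * 4 ^ k : ℝ) := by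
    refine setIntegral_mono_on ?_ (integrableOn_const hfin) hA h1
    have h3 : Nice (A.indicator h) := nice_ind hh hA
    have h4 : Nice (fun z => (A.indicator h z) ^ 2) := by
      obtain ⟨a1, ⟨M, a2⟩, ⟨r, a3⟩⟩ := h3
      refine ⟨a1.pow_const 2, ⟨M ^ 2, fun z => ?_⟩, ⟨r, fun z hz => ?_⟩⟩
      · rw [abs_pow]
        have := a2 z
        gcongr
      · simp only [a3 z hz]; norm_num
    refine (integrable_nice h4).integrableOn.congr_fun (fun z hz => ?_) hA
    show (A.indicator h z) ^ 2 = (h z) ^ 2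
    rw [Set.indicator_of_mem hz]
  refine h2.trans ?_
  rw [setIntegral_const, smul_eq_mul, mul_comm]
  have h3 : (volume A).toReal ≤ c := ENNReal.toReal_le_of_le_ofReal hc hv
  have h4 : volume.real A ≤ c := h3
  gcongr

/-- **STOP** for the TOP chains of one class -/
theorem topstop (hM : MASS3) (hR : REMSUM) : ∃ C : ℝ, 0 ≤ C ∧ ∀ (U h : ℝ × ℝ → ℝ) (n S : ℕ)
    (lo hi : ℝ × ℝ → ℕ) (Λ : ℝ), Measurable U → Nice h → Chain S lo hi →
    UppAt U h AA n lo hi → 1 ≤ Λ →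
    ∀ (N : ℕ) (R : Fin N → Tube) (kk : Fin N → ℤ) (ii : Fin N → ℕ) (E B : Fin N → Set (ℝ × ℝ)),
      IsTops U h AA n lo hi N R kk ii E B → (∀ z, hi z ≤ lo z + 1) →
      ∃ hi' : ℝ × ℝ → ℕ, Measurable hi' ∧ (∀ z, hi' z ≤ hi z) ∧
        (∫ z in {z | lo z < hi z ∧ hi' z < hi z}, (h z) ^ 2 ≤
          C * (n + 1) * (1 / Λ) ^ 2 * ∫ z, (h z) ^ 2) ∧
        ∀ (m : Fin N) (x : ℝ), ∑ s ∈ Finset.range S, ENNReal.ofReal (2 ^ s) *
            ∫⁻ z in {z | z ∈ B m ∧ lo z = s ∧ s < hi' z ∧ jx s z.1 = jx s x},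
              ENNReal.ofReal |h z| ≤
            ENNReal.ofReal (C * Λ * (2 ^ kk m * 2 ^ (AA * ii m) * (1 / 2) ^ n)) := by
  obtain ⟨C1, hC1, hT⟩ := topone
  refine ⟨32 * C1 * 2 ^ (AA * 3), by positivity, ?_⟩
  intro U h n S lo hi Λ hU hh hc hUpp hΛ N R kk ii E B hI hone
  have hΛ0 : 0 < Λ := lt_of_lt_of_le one_pos hΛ
  set P : ℝ := 2 ^ (AA * 3) with hP
  have hP0 : 0 < P := by positivity
  have hA2 : 2 ≤ AA := by unfold AA; norm_num
  -- the density of one top
  have hD : ∀ m, (4 * 2 ^ (AA * (ii m + 3)) * (1 / 2 : ℝ) ^ n) =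
      4 * P * (2 ^ (AA * ii m) * (1 / 2 : ℝ) ^ n) := by
    intro m
    rw [Nat.mul_add, pow_add]
    ring
  have hst : ∀ m, ∃ st : ℝ → ℕ, Measurable st ∧
      volume {z | z ∈ B m ∧ lo z < hi z ∧ st z.1 < hi z} ≤
        ENNReal.ofReal (C1 * (1 / Λ) ^ 2 * (4 * 2 ^ (AA * (ii m + 3)) * (1 / 2 : ℝ) ^ n) *
          (R m).len) ∧
      ∀ x, ∑ s ∈ Finset.range S, ENNReal.ofReal (2 ^ s) *
          ∫⁻ z in {z | z ∈ B m ∧ lo z = s ∧ s < min (hi z) (st z.1) ∧ jx s z.1 = jx s x},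
            ENNReal.ofReal |h z| ≤ ENNReal.ofReal (C1 * Λ * 2 ^ kk m *
              (4 * 2 ^ (AA * (ii m + 3)) * (1 / 2 : ℝ) ^ n)) := by
    intro m
    have h1 : ∀ z ∈ B m, lo z < hi z → z.1 ∈ (R m).I ∧ (R m).k ≤ lo z ∧
        near U (2 ^ (ii m + 3)) (R m).b (R m).m (lo z) z := by
      intro z hz hlt
      obtain ⟨a1, a2, a3⟩ := hI.top m z hz hlt
      refine ⟨a1, a2, near_mono_K ?_ a3⟩
      rw [pow_add]
      have : (0 : ℝ) < 2 ^ ii m := by positivity
      linarith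
    have h2 := hM AA n hA2 U h S lo hi hU hh hc hUpp (kk m) (ii m + 3) (R m) (B m) (hI.intT m)
      (hI.mB m) (hI.subB m) h1
    exact hT h S lo hi (B m) (R m) (kk m) _ Λ hh hc (hI.mB m) (hI.subB m) (by positivity) hΛ
      (fun z hz hlt => ⟨(h1 z hz hlt).1, (h1 z hz hlt).2.1⟩) (fun z _ => hone z) h2
  choose st hstm hrem hkept using hst
  -- the new chain
  set Bu : Set (ℝ × ℝ) := ⋃ m, B m with hBu
  have hBum : MeasurableSet Bu := MeasurableSet.iUnion hI.mB
  set gg : ℝ × ℝ → ℕ := fun z =>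
    ∑ m, (B m).indicator (fun z => st m z.1) z + Buᶜ.indicator hi z with hgg
  have hggm : Measurable gg := by
    refine Measurable.add ?_ (hc.2.1.indicator hBum.compl)
    exact Finset.measurable_sum _ fun m _ => ((hstm m).comp measurable_fst).indicator (hI.mB m)
  have hggB : ∀ m, ∀ z ∈ B m, gg z = st m z.1 := by
    intro m z hz
    have h1 : ∑ m', (B m').indicator (fun z => st m' z.1) z = st m z.1 := by
      rw [Finset.sum_eq_single m]
      · exact Set.indicator_of_mem hz _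
      · intro m' _ hne
        refine Set.indicator_of_notMem (fun hz' => ?_) _
        exact Set.disjoint_left.1 (hI.disB hne) hz' hz
      · intro hm
        exact absurd (Finset.mem_univ m) hm
    have h2 : Buᶜ.indicator hi z = 0 := by
      refine Set.indicator_of_notMem ?_ _
      intro hz'
      exact hz' (Set.mem_iUnion.2 ⟨m, hz⟩)
    rw [hgg]
    simp only
    rw [h1, h2, add_zero]
  refine ⟨fun z => min (hi z) (gg z), hc.2.1.min hggm, fun z => min_le_left _ _, ?_, ?_⟩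
  · -- the removed part
    have hAm : ∀ m, MeasurableSet {z | z ∈ B m ∧ lo z < hi z ∧ st m z.1 < hi z} := fun m =>
      (hI.mB m).inter ((measurableSet_lt hc.1 hc.2.1).inter
        (measurableSet_lt ((hstm m).comp measurable_fst) hc.2.1))
    have hsq : Nice (fun z => (h z) ^ 2) := by
      obtain ⟨a1, ⟨M, a2⟩, ⟨r, a3⟩⟩ := hh
      refine ⟨a1.pow_const 2, ⟨M ^ 2, fun z => ?_⟩, ⟨r, fun z hz => ?_⟩⟩
      · rw [abs_pow]
        have := a2 z
        gcongr
      · simp only [a3 z hz]; norm_num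
    have hsqi : Integrable (fun z => (h z) ^ 2) := integrable_nice hsq
    have hrm : MeasurableSet {z | lo z < hi z ∧ min (hi z) (gg z) < hi z} :=
      (measurableSet_lt hc.1 hc.2.1).inter (measurableSet_lt (hc.2.1.min hggm) hc.2.1)
    have h1 : ∫ z in {z | lo z < hi z ∧ min (hi z) (gg z) < hi z}, (h z) ^ 2 ≤
        ∑ m, ∫ z in {z | z ∈ B m ∧ lo z < hi z ∧ st m z.1 < hi z}, (h z) ^ 2 := by
      rw [← integral_indicator hrm]
      have h2 : ∀ m, ∫ z in {z | z ∈ B m ∧ lo z < hi z ∧ st m z.1 < hi z}, (h z) ^ 2 =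
          ∫ z, {z | z ∈ B m ∧ lo z < hi z ∧ st m z.1 < hi z}.indicator (fun z => (h z) ^ 2) z :=
        fun m => (integral_indicator (hAm m)).symm
      simp_rw [h2]
      rw [← integral_finsetSum _ fun m _ => hsqi.indicator (hAm m)]
      refine integral_mono (hsqi.indicator hrm)
        (integrable_finsetSum _ fun m _ => hsqi.indicator (hAm m)) fun z => ?_
      have hnn : ∀ m, 0 ≤ {z | z ∈ B m ∧ lo z < hi z ∧ st m z.1 < hi z}.indicator
          (fun z => (h z) ^ 2) z := fun m => Set.indicator_nonneg (fun z _ => sq_nonneg _) z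
      by_cases hz : z ∈ {z | lo z < hi z ∧ min (hi z) (gg z) < hi z}
      · rw [Set.indicator_of_mem hz]
        by_cases h0 : h z = 0
        · rw [h0]
          simp only [ne_eq, OfNat.ofNat_ne_zero, not_false_eq_true, zero_pow]
          exact Finset.sum_nonneg fun m _ => hnn m
        · obtain ⟨m, hm⟩ := hI.unB z h0 hz.1
          have h3 : z ∈ {z | z ∈ B m ∧ lo z < hi z ∧ st m z.1 < hi z} := by
            refine ⟨hm, hz.1, ?_⟩
            have h4 := hz.2
            rw [hggB m z hm] at h4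
            rcases min_lt_iff.1 h4 with h5 | h5
            · exact absurd h5 (lt_irrefl _)
            · exact h5
          calc (h z) ^ 2 = {z | z ∈ B m ∧ lo z < hi z ∧ st m z.1 < hi z}.indicator
                (fun z => (h z) ^ 2) z := by rw [Set.indicator_of_mem h3]
            _ ≤ _ := Finset.single_le_sum (f := fun m =>
                {z | z ∈ B m ∧ lo z < hi z ∧ st m z.1 < hi z}.indicator (fun z => (h z) ^ 2) z)
                (fun m _ => hnn m) (Finset.mem_univ m)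
      · rw [Set.indicator_of_notMem hz]
        exact Finset.sum_nonneg fun m _ => hnn m
    have h2 : ∀ m, ∫ z in {z | z ∈ B m ∧ lo z < hi z ∧ st m z.1 < hi z}, (h z) ^ 2 ≤
        16 * C1 * P * (1 / Λ) ^ 2 *
          ((4 : ℝ) ^ kk m * 2 ^ (AA * ii m) * (1 / 2 : ℝ) ^ n * (R m).len) := by
      intro m
      have h3 := (R m).len_pos
      refine (int_col hh (hAm m) (fun z hz => hI.subB m hz.1) (by positivity) (hrem m)).trans
        (le_of_eq ?_)
      rw [hD m]
      ring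
    have h4 := (hR n U h lo hi hU hh N R kk ii E B hI).2
    have hint0 : 0 ≤ ∫ z, (h z) ^ 2 := integral_nonneg fun z => sq_nonneg _
    calc ∫ z in {z | lo z < hi z ∧ min (hi z) (gg z) < hi z}, (h z) ^ 2
        ≤ ∑ m, ∫ z in {z | z ∈ B m ∧ lo z < hi z ∧ st m z.1 < hi z}, (h z) ^ 2 := h1
      _ ≤ ∑ m, 16 * C1 * P * (1 / Λ) ^ 2 *
          ((4 : ℝ) ^ kk m * 2 ^ (AA * ii m) * (1 / 2 : ℝ) ^ n * (R m).len) :=
          Finset.sum_le_sum fun m _ => h2 m
      _ = 16 * C1 * P * (1 / Λ) ^ 2 *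
          ∑ m, (4 : ℝ) ^ kk m * 2 ^ (AA * ii m) * (1 / 2 : ℝ) ^ n * (R m).len := by
          rw [Finset.mul_sum]
      _ ≤ 16 * C1 * P * (1 / Λ) ^ 2 * ((n + 2) * ∫ z, (h z) ^ 2) := by gcongr
      _ ≤ 16 * C1 * P * (1 / Λ) ^ 2 * (2 * (n + 1) * ∫ z, (h z) ^ 2) := by
          have h5 : ((n : ℝ) + 2) ≤ 2 * (n + 1) := by
            have : (0 : ℝ) ≤ n := Nat.cast_nonneg n
            linarith
          gcongr
      _ = 32 * C1 * P * (n + 1) * (1 / Λ) ^ 2 * ∫ z, (h z) ^ 2 := by ring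
  · intro m x
    have h1 := hkept m x
    have h2 : ∀ s, {z | z ∈ B m ∧ lo z = s ∧ s < min (hi z) (gg z) ∧ jx s z.1 = jx s x} =
        {z | z ∈ B m ∧ lo z = s ∧ s < min (hi z) (st m z.1) ∧ jx s z.1 = jx s x} := by
      intro s
      ext z
      constructor
      · rintro ⟨a1, a2, a3, a4⟩
        refine ⟨a1, a2, ?_, a4⟩
        rw [← hggB m z a1]
        exact a3
      · rintro ⟨a1, a2, a3, a4⟩
        refine ⟨a1, a2, ?_, a4⟩
        rw [hggB m z a1]
        exact a3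
    simp_rw [h2]
    refine h1.trans (ENNReal.ofReal_le_ofReal ?_)
    rw [hD m]
    have h3 : 0 ≤ C1 * P * Λ * ((2 : ℝ) ^ kk m * 2 ^ (AA * ii m) * (1 / 2 : ℝ) ^ n) := by
      positivity
    nlinarith

end Crest.Agent.R087.TopSx929
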