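import Crest.Agent.R087.TopN_52
import Crest.Agent.R087.TopP_339
import Crest.Agent.R087.TopS_929

/-! Row 87 (S0115): leaf `L_TOPN` of `OP0_270` (helper52, with pairb of 339 and topstop of 929). -/

set_option autoImplicit false

noncomputable section

namespace Crest.Agent.R087.TopFinx52

open Crest.Agent.R087.OP0x270 Crest.Agent.R087.GateDefx273

theorem l_topn : L_TOPN := fun _ hζ hSQ hM hO hH hR =>
  TopNx52.main (TopPx339.pairb hζ) (TopSx929.topstop hM hR) hSQ hO hH

end Crest.Agent.R087.TopFinx52
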