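import Mathlib

/-!
Row 87 (S0115), operator part: ABSTRACT GREEDY SELECTION of tops and measurable attachment (helper603).

* `greedy`  : longest first, maximal families with disjoint `E_m` ("every index meets an earlier
  (longer or equally long) selected one");
* `sum_le`  : `∑ μ (E m) ≤ μ G` for such a family, also real valued and weighted;
* `attach`  : measurable choice of one selected index per point;
* `attach_nat` : the same for a choice among finitely many numbered conditions.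
-/

set_option autoImplicit false

noncomputable section

open MeasureTheory Set
open scoped ENNReal

namespace Crest.Agent.R087.Greedyx603

variable {α : Type*} [MeasurableSpace α]

/-- finitely many disjoint subsets of `G` -/
theorem sum_le (μ : Measure α) {ι : Type*} (M : Finset ι) (E : ι → Set α) (G : Set α)
    (hE : ∀ m ∈ M, MeasurableSet (E m)) (hEG : ∀ m ∈ M, E m ⊆ G)
    (hd : ∀ m ∈ M, ∀ m' ∈ M, m ≠ m' → Disjoint (E m) (E m')) :
    ∑ m ∈ M, μ (E m) ≤ μ G := by
  rw [← measure_biUnion_finset (fun m hm m' hm' h => hd m hm m' hm' h) hE]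
  exact measure_mono (Set.iUnion₂_subset hEG)

/-- real valued version of `sum_le` -/
theorem sum_le_real (μ : Measure α) {ι : Type*} (M : Finset ι) (E : ι → Set α) (G : Set α)
    (hE : ∀ m ∈ M, MeasurableSet (E m)) (hEG : ∀ m ∈ M, E m ⊆ G)
    (hd : ∀ m ∈ M, ∀ m' ∈ M, m ≠ m' → Disjoint (E m) (E m')) (hG : μ G ≠ ∞) :
    ∑ m ∈ M, (μ (E m)).toReal ≤ (μ G).toReal := by
  rw [← ENNReal.toReal_sum (fun m hm => ne_top_of_le_ne_top hG (measure_mono (hEG m hm)))]
  exact ENNReal.toReal_mono hG (sum_le μ M E G hE hEG hd)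

/-- if moreover `a * |I_m| ≤ |E_m|` then `a * ∑ |I_m| ≤ |G|` -/
theorem sum_len_le (μ : Measure α) {ι : Type*} (M : Finset ι) (E : ι → Set α) (G : Set α)
    (hE : ∀ m ∈ M, MeasurableSet (E m)) (hEG : ∀ m ∈ M, E m ⊆ G)
    (hd : ∀ m ∈ M, ∀ m' ∈ M, m ≠ m' → Disjoint (E m) (E m')) (hG : μ G ≠ ∞)
    (a : ℝ) (len : ι → ℝ) (hl : ∀ m ∈ M, a * len m ≤ (μ (E m)).toReal) :
    a * ∑ m ∈ M, len m ≤ (μ G).toReal := by
  rw [Finset.mul_sum]
  exact (Finset.sum_le_sum hl).trans (sum_le_real μ M E G hE hEG hd hG)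

/-- a family of disjoint sets of measure `≥ ε` in a set of finite measure has bounded cardinality -/
theorem card_le (μ : Measure α) {ι : Type*} (E : ι → Set α) (G : Set α)
    (hE : ∀ i, MeasurableSet (E i)) (hEG : ∀ i, E i ⊆ G) (hG : μ G ≠ ∞)
    {ε : ℝ≥0∞} (hε : 0 < ε) (hεE : ∀ i, ε ≤ μ (E i)) :
    ∃ N : ℕ, ∀ M : Finset ι, (∀ m ∈ M, ∀ m' ∈ M, m ≠ m' → Disjoint (E m) (E m')) →
      M.card ≤ N := by
  obtain ⟨N, hN⟩ := exists_nat_gt (μ G / ε).toReal
  refine ⟨N, fun M hM => ?_⟩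
  have h1 : (M.card : ℝ≥0∞) * ε ≤ μ G := by
    calc (M.card : ℝ≥0∞) * ε = ∑ _m ∈ M, ε := by simp
      _ ≤ ∑ m ∈ M, μ (E m) := Finset.sum_le_sum (fun m _ => hεE m)
      _ ≤ μ G := sum_le μ M E G (fun m _ => hE m) (fun m _ => hEG m) hM
  by_cases hM0 : M.card = 0
  · omega
  have hεtop : ε ≠ ∞ := by
    rintro rfl
    obtain ⟨m, hm⟩ := Finset.card_pos.mp (Nat.pos_of_ne_zero hM0)
    exact hG (top_le_iff.mp ((hεE m).trans (measure_mono (hEG m))))
  have h2 : (M.card : ℝ≥0∞) ≤ μ G / ε := by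
    rw [ENNReal.le_div_iff_mul_le (Or.inl hε.ne') (Or.inl hεtop)]
    exact h1
  have h3 : (M.card : ℝ) ≤ (μ G / ε).toReal := by
    have h4 : μ G / ε ≠ ∞ := (ENNReal.div_lt_top hG hε.ne').ne
    have := ENNReal.toReal_mono h4 h2
    simpa using this
  have h5 : (M.card : ℝ) < N := lt_of_le_of_lt h3 hN
  exact le_of_lt (by exact_mod_cast h5)

/-- extension of a disjoint family to one which is maximal among the indices with property `P` -/
theorem extend (μ : Measure α) {ι : Type*} (E : ι → Set α) (G : Set α)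
    (hE : ∀ i, MeasurableSet (E i)) (hEG : ∀ i, E i ⊆ G) (hG : μ G ≠ ∞)
    {ε : ℝ≥0∞} (hε : 0 < ε) (hεE : ∀ i, ε ≤ μ (E i)) (P : ι → Prop)
    (M₀ : Finset ι) (h0 : ∀ m ∈ M₀, ∀ m' ∈ M₀, m ≠ m' → Disjoint (E m) (E m')) :
    ∃ M : Finset ι, M₀ ⊆ M ∧ (∀ m ∈ M, m ∉ M₀ → P m) ∧
      (∀ m ∈ M, ∀ m' ∈ M, m ≠ m' → Disjoint (E m) (E m')) ∧
      ∀ i, P i → ∃ m ∈ M, (E m ∩ E i).Nonempty := by
  classical
  obtain ⟨N, hN⟩ := card_le μ E G hE hEG hG hε hεE
  let Q : ℕ → Prop := fun n => ∃ M : Finset ι, M₀ ⊆ M ∧ (∀ m ∈ M, m ∉ M₀ → P m) ∧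
      (∀ m ∈ M, ∀ m' ∈ M, m ≠ m' → Disjoint (E m) (E m')) ∧ M.card = n
  have hQ0 : Q M₀.card := ⟨M₀, Finset.Subset.refl _, fun m hm hm' => absurd hm hm', h0, rfl⟩
  have hQN : ∀ n, Q n → n ≤ N := by
    rintro n ⟨M, -, -, h, rfl⟩
    exact hN M h
  obtain ⟨M, hM1, hM2, hM3, hM4⟩ : Q (Nat.findGreatest Q N) :=
    Nat.findGreatest_spec (hQN _ hQ0) hQ0
  refine ⟨M, hM1, hM2, hM3, fun i hi => ?_⟩
  by_contra hcon
  push Not at hcon
  have hdis : ∀ m ∈ M, Disjoint (E m) (E i) := by
    intro m hm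
    rw [Set.disjoint_iff_inter_eq_empty]
    exact hcon m hm
  have hne : (E i).Nonempty := by
    rw [Set.nonempty_iff_ne_empty]
    intro h
    have := hεE i
    rw [h, measure_empty] at this
    exact absurd this (not_le.mpr hε)
  have hiM : i ∉ M := by
    intro h
    have := hdis i h
    rw [disjoint_self] at this
    exact hne.ne_empty this
  have hQ1 : Q (M.card + 1) := by
    refine ⟨insert i M, hM1.trans (Finset.subset_insert _ _), ?_, ?_, ?_⟩
    · intro m hm hm'
      rcases Finset.mem_insert.mp hm with rfl | hm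
      · exact hi
      · exact hM2 m hm hm'
    · intro m hm m' hm' hne'
      rcases Finset.mem_insert.mp hm with h1 | h1
      · rcases Finset.mem_insert.mp hm' with h2 | h2
        · exact absurd (h1.trans h2.symm) hne'
        · rw [h1]; exact (hdis m' h2).symm
      · rcases Finset.mem_insert.mp hm' with h2 | h2
        · rw [h2]; exact hdis m h1
        · exact hM3 m h1 m' h2 hne'
    · rw [Finset.card_insert_of_notMem hiM]
  have := Nat.le_findGreatest (hQN _ hQ1) hQ1
  omega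

/-- **Greedy selection**, longest (= smallest level) first. -/
theorem greedy (μ : Measure α) {ι : Type*} (lv : ι → ℕ) (S : ℕ) (hlv : ∀ i, lv i < S)
    (E : ι → Set α) (G : Set α)
    (hE : ∀ i, MeasurableSet (E i)) (hEG : ∀ i, E i ⊆ G) (hG : μ G ≠ ∞)
    {ε : ℝ≥0∞} (hε : 0 < ε) (hεE : ∀ i, ε ≤ μ (E i)) :
    ∃ M : Finset ι, (∀ m ∈ M, ∀ m' ∈ M, m ≠ m' → Disjoint (E m) (E m')) ∧
      ∀ i, ∃ m ∈ M, lv m ≤ lv i ∧ (E m ∩ E i).Nonempty := by
  classical
  have key : ∀ s : ℕ, ∃ M : Finset ι, (∀ m ∈ M, lv m < s) ∧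
      (∀ m ∈ M, ∀ m' ∈ M, m ≠ m' → Disjoint (E m) (E m')) ∧
      ∀ i, lv i < s → ∃ m ∈ M, lv m ≤ lv i ∧ (E m ∩ E i).Nonempty := by
    intro s
    induction s with
    | zero => exact ⟨∅, by simp, by simp, fun i hi => absurd hi (Nat.not_lt_zero _)⟩
    | succ s ih =>
      obtain ⟨M₀, h1, h2, h3⟩ := ih
      obtain ⟨M, g1, g2, g3, g4⟩ := extend μ E G hE hEG hG hε hεE (fun i => lv i = s) M₀ h2
      refine ⟨M, ?_, g3, ?_⟩
      · intro m hm
        by_cases hm0 : m ∈ M₀
        · exact (h1 m hm0).trans (Nat.lt_succ_self s)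
        · rw [g2 m hm hm0]; exact Nat.lt_succ_self s
      · intro i hi
        rcases Nat.lt_succ_iff_lt_or_eq.mp hi with hi | hi
        · obtain ⟨m, hm, hm1, hm2⟩ := h3 i hi
          exact ⟨m, g1 hm, hm1, hm2⟩
        · obtain ⟨m, hm, hm2⟩ := g4 i hi
          refine ⟨m, hm, ?_, hm2⟩
          by_cases hm0 : m ∈ M₀
          · have := h1 m hm0
            omega
          · have := g2 m hm hm0
            omega
  obtain ⟨M, -, h2, h3⟩ := key S
  exact ⟨M, h2, fun i => h3 i (hlv i)⟩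

/-- greedy selection inside a predicate (the admissible tiles): the index type is the whole type,
only indices with `P` are selected and only they are covered. -/
theorem greedyP (μ : Measure α) {ι : Type*} (P : ι → Prop) (lv : ι → ℕ) (S : ℕ)
    (hlv : ∀ i, P i → lv i < S) (E : ι → Set α) (G : Set α)
    (hE : ∀ i, P i → MeasurableSet (E i)) (hEG : ∀ i, P i → E i ⊆ G) (hG : μ G ≠ ∞)
    {ε : ℝ≥0∞} (hε : 0 < ε) (hεE : ∀ i, P i → ε ≤ μ (E i)) :
    ∃ M : Finset ι, (∀ m ∈ M, P m) ∧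
      (∀ m ∈ M, ∀ m' ∈ M, m ≠ m' → Disjoint (E m) (E m')) ∧
      ∀ i, P i → ∃ m ∈ M, lv m ≤ lv i ∧ (E m ∩ E i).Nonempty := by
  classical
  obtain ⟨M, h1, h2⟩ := greedy μ (ι := {i // P i}) (fun i => lv i.1) S (fun i => hlv i.1 i.2)
    (fun i => E i.1) G (fun i => hE i.1 i.2) (fun i => hEG i.1 i.2) hG hε (fun i => hεE i.1 i.2)
  refine ⟨M.map (Function.Embedding.subtype P), ?_, ?_, ?_⟩
  · intro m hm
    simp only [Finset.mem_map, Function.Embedding.subtype_apply] at hm
    obtain ⟨a, -, rfl⟩ := hm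
    exact a.2
  · intro m hm m' hm' hne
    simp only [Finset.mem_map, Function.Embedding.subtype_apply] at hm hm'
    obtain ⟨a, ha, rfl⟩ := hm
    obtain ⟨b, hb, rfl⟩ := hm'
    exact h1 a ha b hb (fun h => hne (by rw [h]))
  · intro i hi
    obtain ⟨m, hm, hm1, hm2⟩ := h2 ⟨i, hi⟩
    refine ⟨m.1, ?_, hm1, hm2⟩
    simp only [Finset.mem_map, Function.Embedding.subtype_apply]
    exact ⟨m, hm, rfl⟩

/-- measurable choice of one index per point: `A m ⊆ R m` disjoint with the same union. -/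
theorem attach {ι : Type*} (M : Finset ι) (R : ι → Set α) (hR : ∀ m ∈ M, MeasurableSet (R m)) :
    ∃ A : ι → Set α, (∀ m, MeasurableSet (A m)) ∧ (∀ m, A m ⊆ R m) ∧
      (∀ m, m ∉ M → A m = ∅) ∧
      (∀ m m', m ≠ m' → Disjoint (A m) (A m')) ∧
      (∀ z, (∃ m ∈ M, z ∈ R m) → ∃ m ∈ M, z ∈ A m) := by
  classical
  induction M using Finset.induction_on with
  | empty =>
    refine ⟨fun _ => ∅, fun _ => MeasurableSet.empty, fun _ => Set.empty_subset _,
      fun _ _ => rfl, fun _ _ _ => disjoint_bot_left, ?_⟩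
    rintro z ⟨m, hm, -⟩
    simp at hm
  | insert a M ha ih =>
    obtain ⟨A, h1, h2, h3, h4, h5⟩ := ih (fun m hm => hR m (Finset.mem_insert_of_mem hm))
    let W : Set α := ⋃ m ∈ M, A m
    have hW : MeasurableSet W := Finset.measurableSet_biUnion M (fun m _ => h1 m)
    refine ⟨fun m => if m = a then R a \ W else A m, ?_, ?_, ?_, ?_, ?_⟩
    · intro m
      by_cases h : m = a
      · simp only [h, if_true]
        exact (hR a (Finset.mem_insert_self a M)).diff hW
      · simp only [h, if_false]; exact h1 m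
    · intro m
      by_cases h : m = a
      · simp only [h, if_true]; exact Set.sdiff_subset
      · simp only [h, if_false]; exact h2 m
    · intro m hm
      have hma : m ≠ a := fun h => hm (h ▸ Finset.mem_insert_self a M)
      simp only [hma, if_false]
      exact h3 m (fun h => hm (Finset.mem_insert_of_mem h))
    · have hdis : ∀ m, m ≠ a → Disjoint (R a \ W) (A m) := by
        intro m _
        by_cases hmM : m ∈ M
        · rw [Set.disjoint_left]
          intro z hz hz'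
          exact hz.2 (Set.mem_biUnion hmM hz')
        · rw [h3 m hmM]; exact disjoint_bot_right
      intro m m' hne
      by_cases h : m = a
      · have h' : m' ≠ a := fun h' => hne (h.trans h'.symm)
        simp only [h, h', if_true, if_false]
        exact hdis m' h'
      · by_cases h' : m' = a
        · simp only [h, h', if_true, if_false]
          exact (hdis m h).symm
        · simp only [h, h', if_false]
          exact h4 m m' hne
    · rintro z ⟨m, hm, hz⟩
      by_cases hzW : z ∈ W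
      · obtain ⟨m', hm', hz'⟩ := Set.mem_iUnion₂.mp hzW
        have hne : m' ≠ a := fun h => ha (h ▸ hm')
        refine ⟨m', Finset.mem_insert_of_mem hm', ?_⟩
        simp only [hne, if_false]
        exact hz'
      · rcases Finset.mem_insert.mp hm with rfl | hm
        · refine ⟨m, Finset.mem_insert_self _ _, ?_⟩
          simp only [if_true]
          exact ⟨hz, hzW⟩
        · obtain ⟨m', hm', hz'⟩ := h5 z ⟨m, hm, hz⟩
          exact absurd (Set.mem_biUnion hm' hz') hzW

end Crest.Agent.R087.Greedyx603
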