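import Crest.Agent.R087.OP0_270
import Crest.Agent.R087.E2Kf_752
import Crest.Agent.R087.Greedy_603

/-!
# Row 87, operator part: selection of the tops and attachment of the points (leaf `TOPS`)

`tops_core` is generic in the set of admissible lines (`P : Tube → Prop`); `tops : TOPS`.
-/

set_option autoImplicit false

noncomputable section

open MeasureTheory

namespace Crest.Agent.R087.Topsx565

open Crest.Agent.R087 Sh0x283 E2x542 E2Kx752 GateDefx273 OP0x270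

/-! ### dyadic intervals -/

theorem mem_I_iff (R : Tube) (t : ℝ) : t ∈ R.I ↔ ⌊(2 : ℝ) ^ R.k * t⌋ = R.j := by
  have hp : (0 : ℝ) < 2 ^ R.k := by positivity
  have hl : (1 / 2 : ℝ) ^ R.k = ((2 : ℝ) ^ R.k)⁻¹ := by rw [one_div, inv_pow]
  rw [Int.floor_eq_iff]
  unfold Tube.I Tube.len
  rw [Set.mem_Ico, hl, ← div_eq_mul_inv, ← div_eq_mul_inv, div_le_iff₀ hp, lt_div_iff₀ hp,
    mul_comm t]

theorem floor_coarse {k k' : ℕ} (h : k ≤ k') (t : ℝ) :
    ⌊(2 : ℝ) ^ k * t⌋ = ⌊(2 : ℝ) ^ k' * t⌋ / (2 : ℤ) ^ (k' - k) := by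
  have h1 : (2 : ℝ) ^ k * t = (2 : ℝ) ^ k' * t / ((2 ^ (k' - k) : ℕ) : ℝ) := by
    have h2 : (2 : ℝ) ^ k' = 2 ^ k * 2 ^ (k' - k) := by rw [← pow_add]; congr 1; omega
    rw [h2]
    push_cast
    field_simp
  rw [h1, Int.floor_div_natCast]
  push_cast
  rfl

/-- nested dyadic intervals -/
theorem I_subset {R0 R1 : Tube} (hk : R1.k ≤ R0.k) {w : ℝ} (h0 : w ∈ R0.I) (h1 : w ∈ R1.I) :
    R0.I ⊆ R1.I := by
  intro t ht
  rw [mem_I_iff] at h0 h1 ht ⊢
  rw [floor_coarse hk] at h1 ⊢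
  rw [ht, ← h0, h1]

theorem abs_sub_le_len {R : Tube} {s t : ℝ} (hs : s ∈ R.I) (ht : t ∈ R.I) : |s - t| ≤ R.len := by
  unfold Tube.I at hs ht
  rw [Set.mem_Ico] at hs ht
  have h1 : (R.j + 1 : ℝ) * R.len = R.j * R.len + R.len := by ring
  rw [abs_le]
  constructor <;> linarith [hs.1, hs.2, ht.1, ht.2]

/-- the geometric heart: two fat tubes with a common direction point -/
theorem near_of_meet {U : ℝ × ℝ → ℝ} {K : ℝ} {R0 R1 : Tube} (hk : R1.k ≤ R0.k) {w z : ℝ × ℝ}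
    {s : ℕ} (hs : R0.k ≤ s) (hw0 : w ∈ fatV U K R0) (hw1 : w ∈ fatV U K R1) (hz : z.1 ∈ R0.I)
    (hn : near U K R0.b R0.m s z) :
    z.1 ∈ R1.I ∧ near U (5 * K) R1.b R1.m s z := by
  obtain ⟨⟨hw0I, hw0l⟩, hw0U⟩ := hw0
  obtain ⟨⟨hw1I, hw1l⟩, hw1U⟩ := hw1
  obtain ⟨hn1, hn2⟩ := hn
  have hK : 0 ≤ K := (abs_nonneg _).trans hn1
  have hlen : R0.len ≤ R1.len := by
    unfold Tube.len
    exact pow_le_pow_of_le_one (by norm_num) (by norm_num) hk
  have hl0 : 0 < R0.len := R0.len_pos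
  have hm : |R0.m - R1.m| * R0.len ≤ 2 * K := by
    have h1 : |R0.m - R1.m| ≤ |U w - R0.m| + |U w - R1.m| := by
      have : R0.m - R1.m = (U w - R1.m) - (U w - R0.m) := by ring
      rw [this]
      calc |(U w - R1.m) - (U w - R0.m)| ≤ |U w - R1.m| + |U w - R0.m| := abs_sub _ _
        _ = _ := by ring
    calc |R0.m - R1.m| * R0.len ≤ (|U w - R0.m| + |U w - R1.m|) * R0.len := by gcongr
      _ = |U w - R0.m| * R0.len + |U w - R1.m| * R0.len := by ring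
      _ ≤ K + |U w - R1.m| * R1.len := by
          gcongr
      _ ≤ 2 * K := by linarith
  refine ⟨I_subset hk hw0I hw1I hz, ?_, ?_⟩
  · -- position
    have h1 : |z.1 - w.1| ≤ R0.len := abs_sub_le_len hz hw0I
    have h2 : |(R0.m - R1.m) * (z.1 - w.1)| ≤ 2 * K := by
      rw [abs_mul]
      calc |R0.m - R1.m| * |z.1 - w.1| ≤ |R0.m - R1.m| * R0.len := by gcongr
        _ ≤ 2 * K := hm
    have h3 : z.2 - (R1.b + R1.m * z.1) =
        (z.2 - (R0.b + R0.m * z.1)) + (R0.m - R1.m) * (z.1 - w.1) +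
          ((w.2 - R1.line w.1) - (w.2 - R0.line w.1)) := by
      unfold Tube.line; ring
    rw [h3]
    calc |(z.2 - (R0.b + R0.m * z.1)) + (R0.m - R1.m) * (z.1 - w.1) +
          ((w.2 - R1.line w.1) - (w.2 - R0.line w.1))|
        ≤ |z.2 - (R0.b + R0.m * z.1)| + |(R0.m - R1.m) * (z.1 - w.1)| +
          (|w.2 - R1.line w.1| + |w.2 - R0.line w.1|) := by
            refine (abs_add_le _ _).trans (add_le_add (abs_add_le _ _) (abs_sub _ _))
      _ ≤ K + 2 * K + (K + K) := by gcongr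
      _ = 5 * K := by ring
  · have h1 : (1 / 2 : ℝ) ^ s ≤ R0.len := by
      unfold Tube.len
      exact pow_le_pow_of_le_one (by norm_num) (by norm_num) hs
    have h2 : |U z - R1.m| ≤ |U z - R0.m| + |R0.m - R1.m| := by
      have : U z - R1.m = (U z - R0.m) + (R0.m - R1.m) := by ring
      rw [this]
      exact abs_add_le _ _
    calc |U z - R1.m| * (1 / 2 : ℝ) ^ s ≤ (|U z - R0.m| + |R0.m - R1.m|) * (1 / 2 : ℝ) ^ s := by
          gcongr
      _ = |U z - R0.m| * (1 / 2 : ℝ) ^ s + |R0.m - R1.m| * (1 / 2 : ℝ) ^ s := by ring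
      _ ≤ K + |R0.m - R1.m| * R0.len := by gcongr
      _ ≤ 5 * K := by linarith

/-! ### measurability -/

theorem measurableSet_col {h : ℝ × ℝ → ℝ} (hh : Measurable h) (k : ℤ) : MeasurableSet (col h k) := by
  have h1 : MeasurableSet {z | (2 : ℝ) ^ k ≤ |h z|} := measurableSet_le measurable_const hh.abs
  have h2 : MeasurableSet {z | |h z| < (2 : ℝ) ^ (k + 1)} := measurableSet_lt hh.abs measurable_const
  exact h1.inter h2

theorem measurableSet_near {U : ℝ × ℝ → ℝ} (hU : Measurable U) {lo : ℝ × ℝ → ℕ}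
    (hlo : Measurable lo) (K b m : ℝ) : MeasurableSet {z | near U K b m (lo z) z} := by
  have h1 : MeasurableSet {z : ℝ × ℝ | |z.2 - (b + m * z.1)| ≤ K} := by
    apply measurableSet_le _ measurable_const
    fun_prop
  have h2 : MeasurableSet {z : ℝ × ℝ | |U z - m| * (1 / 2 : ℝ) ^ (lo z) ≤ K} := by
    apply measurableSet_le _ measurable_const
    have h3 : Measurable (fun z : ℝ × ℝ => (1 / 2 : ℝ) ^ (lo z)) :=
      (measurable_from_nat (f := fun n : ℕ => (1 / 2 : ℝ) ^ n)).comp hlo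
    have h4 : Measurable (fun z : ℝ × ℝ => |U z - m|) := (hU.sub_const m).abs
    exact h4.mul h3
  exact h1.inter h2

theorem measurableSet_lolt {lo hi : ℝ × ℝ → ℕ} (hlo : Measurable lo) (hhi : Measurable hi) :
    MeasurableSet {z | lo z < hi z} := measurableSet_lt hlo hhi

/-! ### colours -/

theorem exists_col {h : ℝ × ℝ → ℝ} {z : ℝ × ℝ} (hz : h z ≠ 0) : ∃ k : ℤ, z ∈ col h k := by
  obtain ⟨k, hk⟩ := exists_mem_Ico_zpow (abs_pos.mpr hz) (one_lt_two)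
  exact ⟨k, hk.1, hk.2⟩

theorem col_disjoint {h : ℝ × ℝ → ℝ} {k k' : ℤ} (hkk : k ≠ k') : Disjoint (col h k) (col h k') := by
  rw [Set.disjoint_left]
  rintro z ⟨h1, h2⟩ ⟨h3, h4⟩
  have h5 : (2 : ℝ) ^ k < 2 ^ (k' + 1) := lt_of_le_of_lt h1 h4
  have h6 : (2 : ℝ) ^ k' < 2 ^ (k + 1) := lt_of_le_of_lt h3 h2
  have h7 := (zpow_lt_zpow_iff_right₀ (one_lt_two (α := ℝ))).mp h5
  have h8 := (zpow_lt_zpow_iff_right₀ (one_lt_two (α := ℝ))).mp h6
  exact hkk (by omega)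

theorem finite_colours {h : ℝ × ℝ → ℝ} (hh : Nice h) (hg : Gap h) :
    ∃ Ks : Finset ℤ, ∀ k z, z ∈ col h k → k ∈ Ks := by
  obtain ⟨-, ⟨M, hM⟩, -⟩ := hh
  obtain ⟨ε, hε, hgap⟩ := hg
  obtain ⟨a, ha⟩ := exists_mem_Ico_zpow hε (one_lt_two (α := ℝ))
  obtain ⟨b, hb⟩ := exists_mem_Ico_zpow (lt_of_lt_of_le one_pos (le_max_right M 1)) (one_lt_two (α := ℝ))
  refine ⟨Finset.Icc (a - 1) (b + 1), ?_⟩
  rintro k z ⟨h1, h2⟩
  have hk0 : (0 : ℝ) < 2 ^ k := by positivity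
  have hz : h z ≠ 0 := by
    intro h0
    rw [h0, abs_zero] at h1
    linarith
  have h3 : ε ≤ |h z| := (hgap z).resolve_left hz
  have h4 : |h z| ≤ max M 1 := (hM z).trans (le_max_left _ _)
  have h5 : (2 : ℝ) ^ a < 2 ^ (k + 1) := lt_of_le_of_lt (ha.1.trans h3) h2
  have h6 : (2 : ℝ) ^ k < 2 ^ (b + 1) := lt_of_le_of_lt (h1.trans h4) hb.2
  have h7 := (zpow_lt_zpow_iff_right₀ (one_lt_two (α := ℝ))).mp h5
  have h8 := (zpow_lt_zpow_iff_right₀ (one_lt_two (α := ℝ))).mp h6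
  rw [Finset.mem_Icc]
  constructor <;> omega

theorem volume_col_ne_top {h : ℝ × ℝ → ℝ} (hh : Nice h) (k : ℤ) : volume (col h k) ≠ ⊤ := by
  obtain ⟨-, -, R, hR⟩ := hh
  have hsub : col h k ⊆ Metric.closedBall 0 R := by
    rintro z ⟨h1, -⟩
    rw [mem_closedBall_zero_iff]
    by_contra hcon
    push Not at hcon
    have h0 := hR z hcon
    rw [h0, abs_zero] at h1
    have hk0 : (0 : ℝ) < 2 ^ k := by positivity
    linarith
  exact ne_top_of_le_ne_top (measure_closedBall_lt_top).ne (measure_mono hsub)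

/-! ### the range of the dilations -/

theorem i_le {U h : ℝ × ℝ → ℝ} {A n i : ℕ} (hA : 2 ≤ A) {k : ℤ} {R : Tube}
    (hd : 2 ^ (A * i) * ((1 / 2 : ℝ) ^ n) * R.len < (volume (col h k ∩ fatV U (2 ^ i) R)).toReal) :
    i ≤ n := by
  have h1 : (volume (col h k ∩ fatV U (2 ^ i) R)).toReal ≤ 2 * 2 ^ i * R.len := by
    have h2 : (volume (fat (2 ^ i) R)).toReal = 2 * 2 ^ i * R.len := by
      rw [volume_fat, ENNReal.toReal_ofReal]
      have := R.len_pos
      positivity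
    rw [← h2]
    apply ENNReal.toReal_mono (fat_ne_top _ _)
    exact measure_mono (fun z hz => hz.2.1)
  have hl : 0 < R.len := R.len_pos
  have h3 : (2 : ℝ) ^ (A * i) * ((1 / 2 : ℝ) ^ n) < 2 * 2 ^ i := lt_of_mul_lt_mul_right (lt_of_lt_of_le hd h1) hl.le
  by_contra hcon
  push Not at hcon
  have h4 : (2 : ℝ) ^ (A * i) < 2 ^ (i + 1 + n) := by
    have h5 : (1 / 2 : ℝ) ^ n * 2 ^ n = 1 := by rw [← mul_pow]; norm_num
    calc (2 : ℝ) ^ (A * i) = 2 ^ (A * i) * ((1 / 2 : ℝ) ^ n * 2 ^ n) := by rw [h5, mul_one]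
      _ = (2 ^ (A * i) * (1 / 2 : ℝ) ^ n) * 2 ^ n := by ring
      _ < (2 * 2 ^ i) * 2 ^ n := by gcongr
      _ = 2 ^ (i + 1 + n) := by ring
  have h6 := (pow_lt_pow_iff_right₀ (one_lt_two (α := ℝ))).mp h4
  have h7 : 2 * i ≤ A * i := Nat.mul_le_mul_right _ hA
  omega

/-! ### the selection -/

/-- admissible candidates of the colour `k` with dilation `2^i` -/
def Cand (P : Tube → Prop) (U h : ℝ × ℝ → ℝ) (A n S : ℕ) (k : ℤ) (i : ℕ) (R : Tube) : Prop :=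
  P R ∧ R.k < S ∧
    2 ^ (A * i) * ((1 / 2 : ℝ) ^ n) * R.len < (volume (col h k ∩ fatV U (2 ^ i) R)).toReal

theorem select (P : Tube → Prop) {U h : ℝ × ℝ → ℝ} (hU : Measurable U) (hh : Nice h) (A n S : ℕ)
    (k : ℤ) (i : ℕ) :
    ∃ M : Finset Tube, (∀ R ∈ M, Cand P U h A n S k i R) ∧
      (∀ R ∈ M, ∀ R' ∈ M, R ≠ R' →
        Disjoint (col h k ∩ fatV U (2 ^ i) R) (col h k ∩ fatV U (2 ^ i) R')) ∧
      ∀ R, Cand P U h A n S k i R → ∃ R' ∈ M, R'.k ≤ R.k ∧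
        ((col h k ∩ fatV U (2 ^ i) R') ∩ (col h k ∩ fatV U (2 ^ i) R)).Nonempty := by
  have hε : (0 : ENNReal) < ENNReal.ofReal (2 ^ (A * i) * ((1 / 2 : ℝ) ^ n) * (1 / 2 : ℝ) ^ S) := by
    rw [ENNReal.ofReal_pos]; positivity
  obtain ⟨M, h1, h2, h3⟩ := Greedyx603.greedyP volume (Cand P U h A n S k i) (fun R => R.k) S
    (fun R hR => hR.2.1) (fun R => col h k ∩ fatV U (2 ^ i) R) (col h k)
    (fun R _ => (measurableSet_col hh.1 k).inter (measurableSet_fatV hU _ _))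
    (fun R _ => Set.inter_subset_left) (volume_col_ne_top hh k) hε (fun R hR => by
      have h4 : volume (col h k ∩ fatV U (2 ^ i) R) ≠ ⊤ :=
        ne_top_of_le_ne_top (volume_col_ne_top hh k) (measure_mono Set.inter_subset_left)
      rw [← ENNReal.ofReal_toReal h4]
      apply ENNReal.ofReal_le_ofReal
      refine le_trans ?_ hR.2.2.le
      have h5 : (1 / 2 : ℝ) ^ S ≤ R.len := by
        unfold Tube.len
        exact pow_le_pow_of_le_one (by norm_num) (by norm_num) hR.2.1.le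
      gcongr)
  exact ⟨M, h1, h2, h3⟩

/-- **tops, generic in the admissible lines**: for a predicate `D i k z` on points the density
hypothesis gives a candidate. -/
theorem tops_core (P : Tube → Prop) {U h : ℝ × ℝ → ℝ} (hU : Measurable U) (hh : Nice h)
    (hgap : Gap h) (A n S : ℕ) (hA : 2 ≤ A) (lo hi : ℝ × ℝ → ℕ) (hc : Chain S lo hi)
    (hlow : ∀ z, h z ≠ 0 → lo z < hi z → ∀ k, z ∈ col h k → ∃ (i : ℕ) (R : Tube), P R ∧
      R.k ≤ lo z ∧ z.1 ∈ R.I ∧ near U (2 ^ i) R.b R.m (lo z) z ∧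
      2 ^ (A * i) * ((1 / 2 : ℝ) ^ n) * R.len < (volume (col h k ∩ fatV U (2 ^ i) R)).toReal) :
    ∃ (N : ℕ) (R : Fin N → Tube) (k : Fin N → ℤ) (i : Fin N → ℕ) (E B : Fin N → Set (ℝ × ℝ)),
      (∀ m, P (R m)) ∧ (∀ m, (R m).k < S) ∧ (∀ m, i m ≤ n) ∧
      (∀ m, MeasurableSet (E m)) ∧
      (∀ m, E m = col h (k m) ∩ fatV U (2 ^ i m) (R m)) ∧
      (∀ m m', m ≠ m' → i m = i m' → Disjoint (E m) (E m')) ∧
      (∀ m, (1 / 2 : ℝ) ^ n * 2 ^ (A * i m) * (R m).len < (volume (E m)).toReal) ∧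
      (∀ m, MeasurableSet (B m)) ∧ Pairwise (Function.onFun Disjoint B) ∧
      (⋃ m, B m) = {z | h z ≠ 0 ∧ lo z < hi z} ∧
      (∀ m, B m ⊆ col h (k m)) ∧
      ∀ m, ∀ z ∈ B m, z.1 ∈ (R m).I ∧ (R m).k ≤ lo z ∧
        near U (5 * 2 ^ i m) (R m).b (R m).m (lo z) z := by
  classical
  obtain ⟨Ks, hKs⟩ := finite_colours hh hgap
  choose M hM1 hM2 hM3 using fun (k : ℤ) (i : ℕ) => select P hU hh A n S k i
  -- the finite index set
  let T : Finset (Σ _ : ℤ × ℕ, Tube) := (Ks ×ˢ Finset.range (n + 1)).sigma (fun p => M p.1 p.2)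
  let Rg : (Σ _ : ℤ × ℕ, Tube) → Set (ℝ × ℝ) := fun t =>
    {z | h z ≠ 0 ∧ lo z < hi z} ∩ (col h t.1.1 ∩ ({z | z.1 ∈ t.2.I} ∩
      ({z | t.2.k ≤ lo z} ∩ {z | near U (5 * 2 ^ t.1.2) t.2.b t.2.m (lo z) z})))
  have hRg : ∀ t, MeasurableSet (Rg t) := by
    intro t
    have g1 : MeasurableSet {z : ℝ × ℝ | h z ≠ 0 ∧ lo z < hi z} :=
      ((measurableSet_eq_fun hh.1 measurable_const).compl).inter (measurableSet_lolt hc.1 hc.2.1)
    have g2 : MeasurableSet {z : ℝ × ℝ | z.1 ∈ t.2.I} := measurable_fst t.2.measurableSet_I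
    have g3 : MeasurableSet {z : ℝ × ℝ | t.2.k ≤ lo z} := measurableSet_le measurable_const hc.1
    exact g1.inter ((measurableSet_col hh.1 _).inter (g2.inter (g3.inter
      (measurableSet_near hU hc.1 _ _ _))))
  obtain ⟨B, hB1, hB2, hB3, hB4, hB5⟩ := Greedyx603.attach T Rg (fun t _ => hRg t)
  let e := T.equivFin
  let f : Fin T.card → (Σ _ : ℤ × ℕ, Tube) := fun m => (e.symm m).1
  have hf : ∀ m, f m ∈ T := fun m => (e.symm m).2
  have hfi : Function.Injective f := fun a b hab => e.symm.injective (Subtype.ext hab)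
  have hfs : ∀ t ∈ T, ∃ m, f m = t := fun t ht => ⟨e ⟨t, ht⟩, by simp [f]⟩
  have hmem : ∀ m, f m ∈ T → (f m).1.1 ∈ Ks ∧ (f m).1.2 < n + 1 ∧ (f m).2 ∈ M (f m).1.1 (f m).1.2 := by
    intro m hm
    have h1 := Finset.mem_sigma.mp hm
    have h2 := Finset.mem_product.mp h1.1
    exact ⟨h2.1, Finset.mem_range.mp h2.2, h1.2⟩
  refine ⟨T.card, fun m => (f m).2, fun m => (f m).1.1, fun m => (f m).1.2,
    fun m => col h (f m).1.1 ∩ fatV U (2 ^ (f m).1.2) (f m).2, fun m => B (f m), ?_, ?_, ?_, ?_,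
    fun _ => rfl, ?_, ?_, ?_, ?_, ?_, ?_, ?_⟩
  · exact fun m => (hM1 _ _ _ (hmem m (hf m)).2.2).1
  · exact fun m => (hM1 _ _ _ (hmem m (hf m)).2.2).2.1
  · exact fun m => Nat.lt_succ_iff.mp (hmem m (hf m)).2.1
  · exact fun m => (measurableSet_col hh.1 _).inter (measurableSet_fatV hU _ _)
  · intro m m' hne hi0
    have hi' : (f m).1.2 = (f m').1.2 := hi0
    have hne' : f m ≠ f m' := fun h => hne (hfi h)
    by_cases hk : (f m).1.1 = (f m').1.1
    · -- same colour, same dilation: different tubes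
      have h1 : (f m).1 = (f m').1 := Prod.ext hk hi'
      have h2 : (f m).2 ≠ (f m').2 := by
        intro h3
        apply hne'
        exact Sigma.ext h1 (heq_of_eq h3)
      have h4 := hM2 (f m).1.1 (f m).1.2 (f m).2 (hmem m (hf m)).2.2 (f m').2
        (by rw [hk, hi']; exact (hmem m' (hf m')).2.2) h2
      show Disjoint (col h (f m).1.1 ∩ fatV U (2 ^ (f m).1.2) (f m).2)
        (col h (f m').1.1 ∩ fatV U (2 ^ (f m').1.2) (f m').2)
      rw [← hk, ← hi']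
      exact h4
    · exact (col_disjoint hk).mono Set.inter_subset_left Set.inter_subset_left
  · intro m
    have h1 := (hM1 _ _ _ (hmem m (hf m)).2.2).2.2
    calc (1 / 2 : ℝ) ^ n * 2 ^ (A * (f m).1.2) * (f m).2.len
        = 2 ^ (A * (f m).1.2) * (1 / 2 : ℝ) ^ n * (f m).2.len := by ring
      _ < _ := h1
  · exact fun m => hB1 _
  · intro m m' hne
    exact hB4 _ _ (fun h => hne (hfi h))
  · ext z
    simp only [Set.mem_iUnion]
    constructor
    · rintro ⟨m, hm⟩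
      exact (hB2 _ hm).1
    · intro hz
      obtain ⟨k, hk⟩ := exists_col hz.1
      obtain ⟨i, R0, hP, hR0k, hzI, hn, hd⟩ := hlow z hz.1 hz.2 k hk
      have hcand : Cand P U h A n S k i R0 :=
        ⟨hP, lt_of_le_of_lt hR0k (lt_of_lt_of_le hz.2 (hc.2.2 z)), hd⟩
      obtain ⟨R1, hR1, hR1k, w, hw1, hw0⟩ := hM3 k i R0 hcand
      obtain ⟨g1, g2⟩ := near_of_meet hR1k hR0k hw0.2 hw1.2 hzI hn
      have hT : (⟨(k, i), R1⟩ : Σ _ : ℤ × ℕ, Tube) ∈ T := by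
        refine Finset.mem_sigma.mpr ⟨Finset.mem_product.mpr ⟨hKs k z hk, ?_⟩, hR1⟩
        exact Finset.mem_range.mpr (Nat.lt_succ_of_le (i_le hA hd))
      obtain ⟨t, ht, hzt⟩ := hB5 z ⟨_, hT, hz, hk, g1, hR1k.trans hR0k, g2⟩
      obtain ⟨m, rfl⟩ := hfs t ht
      exact ⟨m, hzt⟩
  · exact fun m z hz => (hB2 _ hz).2.1
  · intro m z hz
    have h1 := hB2 _ hz
    exact ⟨h1.2.2.1, h1.2.2.2.1, h1.2.2.2.2⟩

/-- **leaf TOPS** -/
theorem tops : TOPS := by
  intro A n hA U h S lo hi hU hh hgap hc hlow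
  obtain ⟨N, R, k, i, E, B, h1, -, -, h3, h4, h5, h6, h7, h8, h9, h10, h11⟩ :=
    tops_core IntT hU hh hgap A n S hA lo hi hc (by
      intro z hz hlt k hk
      have h1 := hlow z hz hlt k hk
      unfold upp at h1
      push Not at h1
      obtain ⟨i, R, h2, h3, h4, h5, h6⟩ := h1
      refine ⟨i, R, h2, h3, h4, h5, ?_⟩
      have h7 : (2 : ℝ) * (1 / 2) ^ (n + 1) = (1 / 2) ^ n := by rw [pow_succ]; ring
      rw [h7] at h6
      exact h6)
  exact ⟨N, R, k, i, E, B,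
    { intT := h1
      mE := h3
      subE := fun m => (h4 m).le
      disE := h5
      mass := fun m => (h6 m).le
      mB := h7
      disB := h8
      subB := h10
      unB := fun z hz hlt => by
        have h12 : z ∈ (⋃ m, B m) := by rw [h9]; exact ⟨hz, hlt⟩
        exact Set.mem_iUnion.mp h12
      top := fun m z hz _ => h11 m z hz }⟩

end Crest.Agent.R087.Topsx565
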