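import Mathlib

/-!
Row 87 (S0115), operator part, leaf PAIR-LOW-ASM, combinatorial half (helper575).

`comb` : from the DEEP bound (sums over intervals of scales with `k 2^-s ≤ K0`), the SHALLOW bound (one
scale with `k 2^-s > K0`, gain `(k 2^-s)^-N`) and the support property, the sum over an interval of
scales is zero or `≤ C T 2^{-N h}` where some scale of the interval is `2^h`-near.
-/

set_option autoImplicit false

noncomputable section

namespace Crest.Agent.R087.PLcombx575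

theorem exists_pow_le {k : ℝ} (hk : 1 ≤ k) : ∃ h : ℕ, (2 : ℝ) ^ h ≤ k ∧ k < 2 ^ (h + 1) :=
  exists_nat_pow_near hk (by norm_num)

/-- geometric sum of shallow terms -/
theorem geo_shallow (P : ℕ → ℝ) (B k : ℝ) (hk : 0 < k) (N p q : ℕ) (hN : 1 ≤ N) (hB : 0 ≤ B)
    (hsh : ∀ s, p ≤ s → s < q → |P s| ≤ B * (k * (1 / 2) ^ s)⁻¹ ^ N) (hpq : p < q) :
    |∑ s ∈ Finset.Ico p q, P s| ≤ 2 * B * (k * (1 / 2) ^ (q - 1))⁻¹ ^ N := by
  obtain ⟨n, rfl⟩ : ∃ n, q = p + n + 1 := ⟨q - p - 1, by omega⟩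
  clear hpq
  have key : ∀ n, (∀ s, p ≤ s → s < p + n + 1 → |P s| ≤ B * (k * (1 / 2) ^ s)⁻¹ ^ N) →
      |∑ s ∈ Finset.Ico p (p + n + 1), P s| ≤ 2 * B * (k * (1 / 2) ^ (p + n))⁻¹ ^ N := by
    intro n
    induction n with
    | zero =>
      intro h
      have h0 := h p le_rfl (by omega)
      simp only [Nat.add_zero, Nat.Ico_succ_singleton, Finset.sum_singleton]
      have : 0 ≤ B * (k * (1 / 2) ^ p)⁻¹ ^ N := by positivity
      linarith
    | succ n ih =>
      intro h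
      have h1 := ih (fun s hs hs' => h s hs (by omega))
      have h2 := h (p + n + 1) (by omega) (by omega)
      rw [show p + (n + 1) + 1 = (p + n + 1) + 1 by ring, Finset.sum_Ico_succ_top (by omega)]
      have h3 : (k * (1 / 2) ^ (p + n))⁻¹ ^ N ≤ 1 / 2 * (k * (1 / 2) ^ (p + n + 1))⁻¹ ^ N := by
        have e : (k * (1 / 2) ^ (p + n + 1))⁻¹ = 2 * (k * (1 / 2) ^ (p + n))⁻¹ := by
          rw [pow_succ]
          field_simp
        rw [e, mul_pow]
        have h4 : (2 : ℝ) ≤ 2 ^ N := by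
          calc (2 : ℝ) = 2 ^ 1 := by norm_num
            _ ≤ 2 ^ N := pow_le_pow_right₀ (by norm_num) hN
        have h5 : 0 ≤ (k * (1 / 2) ^ (p + n))⁻¹ ^ N := by positivity
        nlinarith
      calc |∑ s ∈ Finset.Ico p (p + n + 1), P s + P (p + n + 1)|
          ≤ |∑ s ∈ Finset.Ico p (p + n + 1), P s| + |P (p + n + 1)| := abs_add_le _ _
        _ ≤ 2 * B * (1 / 2 * (k * (1 / 2) ^ (p + n + 1))⁻¹ ^ N) +
            B * (k * (1 / 2) ^ (p + n + 1))⁻¹ ^ N := by
          refine add_le_add (h1.trans ?_) h2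
          exact mul_le_mul_of_nonneg_left h3 (by positivity)
        _ = _ := by rw [show p + (n + 1) = p + n + 1 by ring]; ring
  exact key n hsh

/-- the pointwise conclusion -/
theorem comb (P : ℕ → ℝ) (A k r K0 C0 : ℝ) (N : ℕ) (hN : 1 ≤ N) (hA : 0 ≤ A) (hk : 0 ≤ k)
    (hK0 : 1 ≤ K0) (hC0 : 0 ≤ C0)
    (hdeep : ∀ p q, (∀ s, p ≤ s → s < q → k * (1 / 2) ^ s ≤ K0) → |∑ s ∈ Finset.Ico p q, P s| ≤ A)
    (hsh : ∀ s, K0 < k * (1 / 2) ^ s → |P s| ≤ A * (k * (1 / 2) ^ s)⁻¹ ^ N)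
    (hsupp : ∀ s, P s ≠ 0 → r ≤ k * (1 / 2) ^ s + C0) (p q : ℕ) :
    ∑ s ∈ Finset.Ico p q, P s = 0 ∨ ∃ h s : ℕ, p ≤ s ∧ s < q ∧ P s ≠ 0 ∧
      r ≤ (K0 + C0 + 2) * 2 ^ h ∧ k * (1 / 2) ^ s ≤ (K0 + C0 + 2) * 2 ^ h ∧
      |∑ s ∈ Finset.Ico p q, P s| ≤ 3 * A * (1 / 2) ^ (N * h) := by
  classical
  by_cases hne : ∃ s, s ∈ (Finset.Ico p q).filter (fun s => P s ≠ 0)
  swap
  · left
    refine Finset.sum_eq_zero fun s hs => ?_
    by_contra h
    exact hne ⟨s, Finset.mem_filter.2 ⟨hs, h⟩⟩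
  right
  obtain ⟨s1, hs1, hmax⟩ := Finset.exists_max_image ((Finset.Ico p q).filter (fun s => P s ≠ 0)) id hne
  rw [Finset.mem_filter, Finset.mem_Ico] at hs1
  obtain ⟨⟨hp1, hq1⟩, hP1⟩ := hs1
  have hcut : ∑ s ∈ Finset.Ico p q, P s = ∑ s ∈ Finset.Ico p (s1 + 1), P s := by
    rw [← Finset.sum_Ico_consecutive P (show p ≤ s1 + 1 by omega) (show s1 + 1 ≤ q by omega)]
    have : ∑ s ∈ Finset.Ico (s1 + 1) q, P s = 0 := by
      refine Finset.sum_eq_zero fun s hs => ?_
      by_contra h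
      rw [Finset.mem_Ico] at hs
      have := hmax s (Finset.mem_filter.2 ⟨Finset.mem_Ico.2 ⟨by omega, by omega⟩, h⟩)
      simp only [id] at this
      omega
    rw [this, add_zero]
  have hr1 := hsupp s1 hP1
  have hmono : ∀ s, s ≤ s1 → k * (1 / 2) ^ s1 ≤ k * (1 / 2) ^ s := fun s hs =>
    mul_le_mul_of_nonneg_left (pow_le_pow_of_le_one (by norm_num) (by norm_num) hs) hk
  rcases le_or_gt (k * (1 / 2) ^ s1) K0 with hc | hc
  · -- the last scale is deep
    refine ⟨0, s1, hp1, hq1, hP1, ?_, ?_, ?_⟩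
    · rw [pow_zero]; linarith
    · rw [pow_zero]; linarith
    · rw [Nat.mul_zero, pow_zero, mul_one, hcut]
      -- first deep scale
      have hex : ∃ s, p ≤ s ∧ k * (1 / 2) ^ s ≤ K0 := ⟨s1, hp1, hc⟩
      let p' := Nat.find hex
      have hp' := Nat.find_spec hex
      have hp's : p' ≤ s1 := Nat.find_min' hex ⟨hp1, hc⟩
      have hdeep' : ∀ s, p' ≤ s → s < s1 + 1 → k * (1 / 2) ^ s ≤ K0 := by
        intro s hs _
        refine le_trans ?_ hp'.2
        exact mul_le_mul_of_nonneg_left (pow_le_pow_of_le_one (by norm_num) (by norm_num) hs) hk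
      have h1 := hdeep p' (s1 + 1) hdeep'
      rw [← Finset.sum_Ico_consecutive P hp'.1 (show p' ≤ s1 + 1 by omega)]
      have h2 : |∑ s ∈ Finset.Ico p p', P s| ≤ 2 * A := by
        rcases Nat.eq_or_lt_of_le hp'.1 with he | hlt
        · have : p' = p := he.symm
          rw [this]; simp; linarith
        · have hsh' : ∀ s, p ≤ s → s < p' → |P s| ≤ A * (k * (1 / 2) ^ s)⁻¹ ^ N := by
            intro s hs hs'
            apply hsh s
            by_contra hcon
            exact Nat.find_min hex hs' ⟨hs, not_lt.1 hcon⟩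
          have hk0 : K0 < k * (1 / 2) ^ (p' - 1) := by
            by_contra hcon
            exact Nat.find_min hex (show p' - 1 < p' by omega) ⟨by omega, not_lt.1 hcon⟩
          have hkpos : 0 < k := by
            by_contra hcon
            have hk' : k = 0 := le_antisymm (not_lt.1 hcon) hk
            rw [hk', zero_mul] at hk0
            linarith
          have h3 := geo_shallow P A k hkpos N p p' hN hA hsh' hlt
          refine h3.trans ?_
          have h4 : (k * (1 / 2) ^ (p' - 1))⁻¹ ^ N ≤ 1 :=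
            pow_le_one₀ (by positivity) (inv_le_one_of_one_le₀ (by linarith))
          nlinarith
      calc |∑ s ∈ Finset.Ico p p', P s + ∑ s ∈ Finset.Ico p' (s1 + 1), P s|
          ≤ |∑ s ∈ Finset.Ico p p', P s| + |∑ s ∈ Finset.Ico p' (s1 + 1), P s| := abs_add_le _ _
        _ ≤ 3 * A := by linarith
  · -- all scales are shallow
    have hkpos : 0 < k := by
      by_contra hcon
      have hk' : k = 0 := le_antisymm (not_lt.1 hcon) hk
      rw [hk', zero_mul] at hc
      linarith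
    obtain ⟨h, hh1, hh2⟩ := exists_pow_le (hK0.trans hc.le)
    refine ⟨h, s1, hp1, hq1, hP1, ?_, ?_, ?_⟩
    · have h2 : (1 : ℝ) ≤ 2 ^ h := one_le_pow₀ (by norm_num)
      rw [pow_succ] at hh2
      nlinarith
    · have h2 : (1 : ℝ) ≤ 2 ^ h := one_le_pow₀ (by norm_num)
      rw [pow_succ] at hh2
      nlinarith
    · rw [hcut]
      have h3 := geo_shallow P A k hkpos N p (s1 + 1) hN hA
        (fun s _ hs' => hsh s (lt_of_lt_of_le hc (hmono s (by omega)))) (by omega)
      rw [Nat.add_sub_cancel] at h3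
      refine h3.trans ?_
      have h4 : (k * (1 / 2) ^ s1)⁻¹ ^ N ≤ (1 / 2) ^ (N * h) := by
        rw [mul_comm N h, pow_mul]
        refine pow_le_pow_left₀ (by positivity) ?_ N
        have e : ((1 : ℝ) / 2) ^ h = (2 ^ h)⁻¹ := by rw [one_div, inv_pow]
        rw [e]
        exact inv_anti₀ (by positivity) hh1
      have h5 : (0 : ℝ) ≤ (1 / 2) ^ (N * h) := by positivity
      nlinarith

end Crest.Agent.R087.PLcombx575
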