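import Crest.Agent.R087.GateDef_273
import Crest.Agent.R087.E2K_752

/-!
# Row 87, operator part: literal interface, part 0 = definitions + global leaves

TEXT = note 1723 (helper270) with the repair 1774 (helper52): LOW / TOP split.  All leaves are
`Prop`s; no `sorry`.  Tree-level leaves (T1, T2a, T2b, T2c, T3, PAIR-LOW) are in `OP1_270.lean`.

* `jx s x = ⌊2^s x⌋`  : index of the dyadic interval of length `2^-s` containing `x`;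
* `tau`  : gated kernel of scale `2^-s` at the point `z`;  `Tc` : adjoint operator along a chain
  (= interval of scales `[lo z, hi z)` at every point `z`);
* `near U K b m s z` : the line `t ↦ b + m t` is `K`-near `(z, J_s(z))`;
* `upp U h A n k s z` : the dilated tile density of the colour `k` above `(z, J_s(z))` is `≤ 2·2^-n`
  (if true at `s` then true at all smaller `s`);
* `UppAt`, `LowAt` : the chain lies in the density class `n`.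
-/

set_option autoImplicit false

noncomputable section

open MeasureTheory

namespace Crest.Agent.R087.OP0x270

open Crest.Agent.R087.Sh0x283 Crest.Agent.R087.E2x542 Crest.Agent.R087.E2Kx752
  Crest.Agent.R087.GateDefx273

/-! ### basic objects -/

/-- index of the dyadic interval of length `2^-s` containing `x` -/
def jx (s : ℕ) (x : ℝ) : ℤ := ⌊(2 : ℝ) ^ s * x⌋

/-- gate of the dyadic interval of scale `s` containing `x` -/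
def et (s : ℕ) (x : ℝ) : ℝ := gt (Int.fract ((2 : ℝ) ^ s * x))

/-- gated kernel of scale `2^-s` at the point `z`, as a function of `w` -/
def tau (φ ζ : ℝ → ℝ) (U : ℝ × ℝ → ℝ) (s : ℕ) (z w : ℝ × ℝ) : ℝ :=
  (2 : ℝ) ^ s * et s z.1 * ζ ((2 : ℝ) ^ s * w.1 - jx s z.1) * φ (z.2 + (w.1 - z.1) * U z - w.2)

/-- scalar product of two kernels -/
def pr (φ ζ : ℝ → ℝ) (U : ℝ × ℝ → ℝ) (s s' : ℕ) (z z' : ℝ × ℝ) : ℝ :=
  ∫ w, tau φ ζ U s z w * tau φ ζ U s' z' w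

/-- weight of an ordered pair of scales: `s` long, `s'` short (`s ≤ s'`) -/
def cc (s s' : ℕ) : ℝ := if s ≤ s' then 1 else 0

/-- chains: at every point `z` the scales `lo z ≤ s < hi z` -/
def Chain (S : ℕ) (lo hi : ℝ × ℝ → ℕ) : Prop :=
  Measurable lo ∧ Measurable hi ∧ ∀ z, hi z ≤ S

/-- the adjoint operator along a chain -/
def Tc (φ ζ : ℝ → ℝ) (U : ℝ × ℝ → ℝ) (lo hi : ℝ × ℝ → ℕ) (h : ℝ × ℝ → ℝ) (w : ℝ × ℝ) : ℝ :=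
  ∫ z, (∑ s ∈ Finset.Ico (lo z) (hi z), tau φ ζ U s z w) * h z

/-- all chain truncations are bounded by `M` (squared norms) -/
def TBd (φ ζ : ℝ → ℝ) (U : ℝ × ℝ → ℝ) (S : ℕ) (M : ℝ) : Prop :=
  ∀ (lo hi : ℝ × ℝ → ℕ) (h : ℝ × ℝ → ℝ), Chain S lo hi → Nice h →
    ∫ w, (Tc φ ζ U lo hi h w) ^ 2 ≤ M * ∫ z, (h z) ^ 2

/-- profiles: smooth, support in `[-1,1]`, `M` derivatives bounded by one -/
def PW (M : ℕ) (ω : ℝ → ℝ) : Prop :=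
  ContDiff ℝ (⊤ : ℕ∞) ω ∧ (∀ r, 1 < |r| → ω r = 0) ∧ ∀ i ≤ M, ∀ r, |iteratedDeriv i ω r| ≤ 1

/-- colours of `h` -/
def col (h : ℝ × ℝ → ℝ) (k : ℤ) : Set (ℝ × ℝ) :=
  {z | (2 : ℝ) ^ k ≤ |h z| ∧ |h z| < (2 : ℝ) ^ (k + 1)}

/-- only finitely many colours -/
def Gap (h : ℝ × ℝ → ℝ) : Prop := ∃ ε : ℝ, 0 < ε ∧ ∀ z, h z = 0 ∨ ε ≤ |h z|

/-- the line `t ↦ b + m t` is `K`-near `(z, J_s(z))` -/
def near (U : ℝ × ℝ → ℝ) (K b m : ℝ) (s : ℕ) (z : ℝ × ℝ) : Prop :=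
  |z.2 - (b + m * z.1)| ≤ K ∧ |U z - m| * (1 / 2 : ℝ) ^ s ≤ K

/-- tubes with integer lines -/
def IntT (R : Tube) : Prop := (∃ q : ℤ, R.b = q) ∧ ∃ q : ℤ, R.m = q

/-- the dilated tile density of the colour `k` above `(z, J_s(z))` is at most `2·2^-n` -/
def upp (U h : ℝ × ℝ → ℝ) (A n : ℕ) (k : ℤ) (s : ℕ) (z : ℝ × ℝ) : Prop :=
  ∀ (i : ℕ) (R : Tube), IntT R → R.k ≤ s → z.1 ∈ R.I → near U (2 ^ i) R.b R.m s z →
    (volume (col h k ∩ fatV U (2 ^ i) R)).toReal ≤ 2 ^ (A * i) * (2 * (1 / 2 : ℝ) ^ n) * R.len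

/-- density `≤ 2·2^-n` at the bottom of the chain (hence along the chain) -/
def UppAt (U h : ℝ × ℝ → ℝ) (A n : ℕ) (lo hi : ℝ × ℝ → ℕ) : Prop :=
  ∀ z, h z ≠ 0 → lo z < hi z → ∀ k, z ∈ col h k → upp U h A n k (hi z - 1) z

/-- density `> 2^-n` already at the top of the chain -/
def LowAt (U h : ℝ × ℝ → ℝ) (A n : ℕ) (lo hi : ℝ × ℝ → ℕ) : Prop :=
  ∀ z, h z ≠ 0 → lo z < hi z → ∀ k, z ∈ col h k → ¬ upp U h A (n + 1) k (lo z) z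

/-- tops `R m` (colour `k m`, dilation `2^(i m)`, dense set `E m`) and the attached points `B m`.
Inherited by sub-chains. -/
structure IsTops (U h : ℝ × ℝ → ℝ) (A n : ℕ) (lo hi : ℝ × ℝ → ℕ) (N : ℕ) (R : Fin N → Tube)
    (k : Fin N → ℤ) (i : Fin N → ℕ) (E B : Fin N → Set (ℝ × ℝ)) : Prop where
  intT : ∀ m, IntT (R m)
  mE : ∀ m, MeasurableSet (E m)
  subE : ∀ m, E m ⊆ col h (k m) ∩ fatV U (2 ^ i m) (R m)
  disE : ∀ m m', m ≠ m' → i m = i m' → Disjoint (E m) (E m')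
  mass : ∀ m, (1 / 2 : ℝ) ^ n * 2 ^ (A * i m) * (R m).len ≤ (volume (E m)).toReal
  mB : ∀ m, MeasurableSet (B m)
  disB : Pairwise (Function.onFun Disjoint B)
  subB : ∀ m, B m ⊆ col h (k m)
  unB : ∀ z, h z ≠ 0 → lo z < hi z → ∃ m, z ∈ B m
  top : ∀ m, ∀ z ∈ B m, lo z < hi z → z.1 ∈ (R m).I ∧ (R m).k ≤ lo z ∧
    near U (5 * 2 ^ i m) (R m).b (R m).m (lo z) z

theorem IsTops.sub {U h : ℝ × ℝ → ℝ} {A n : ℕ} {lo hi lo' hi' : ℝ × ℝ → ℕ} {N : ℕ}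
    {R : Fin N → Tube} {k : Fin N → ℤ} {i : Fin N → ℕ} {E B : Fin N → Set (ℝ × ℝ)}
    (H : IsTops U h A n lo hi N R k i E B)
    (hs : ∀ z, lo' z < hi' z → lo z ≤ lo' z ∧ lo z < hi z) :
    IsTops U h A n lo' hi' N R k i E B where
  intT := H.intT
  mE := H.mE
  subE := H.subE
  disE := H.disE
  mass := H.mass
  mB := H.mB
  disB := H.disB
  subB := H.subB
  unB z hz h' := H.unB z hz (hs z h').2
  top m z hz h' := by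
    obtain ⟨h1, h2, h3, h4⟩ := H.top m z hz (hs z h').2
    refine ⟨h1, h2.trans (hs z h').1, h3, ?_⟩
    refine le_trans ?_ h4
    have : (1 / 2 : ℝ) ^ lo' z ≤ (1 / 2 : ℝ) ^ lo z :=
      pow_le_pow_of_le_one (by norm_num) (by norm_num) (hs z h').1
    gcongr

/-- the mass hypothesis: density of the alive part of `B` over every dyadic interval (of scale
`t ≥ t0`) which contains a bottom interval `J_{hi z - 1}(z)`, `z ∈ B` -/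
def Mass3 (B : Set (ℝ × ℝ)) (lo hi : ℝ × ℝ → ℕ) (t0 : ℕ) (D : ℝ) : Prop :=
  ∀ t : ℕ, t0 ≤ t → ∀ j : ℤ, (∃ z ∈ B, lo z < hi z ∧ t < hi z ∧ jx t z.1 = j) →
    (volume {z | z ∈ B ∧ lo z < hi z ∧ jx t z.1 = j}).toReal ≤ D * (1 / 2 : ℝ) ^ t

/-- pairing of the short pieces `s' ∈ [a, b)` at `z'` with the tree `(B, lo, hi, g)` -/
def Pair (φ ζ : ℝ → ℝ) (U : ℝ × ℝ → ℝ) (B : Set (ℝ × ℝ)) (lo hi : ℝ × ℝ → ℕ) (g : ℝ × ℝ → ℝ)
    (a b : ℕ) (z' : ℝ × ℝ) : ℝ :=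
  ∑ s' ∈ Finset.Ico a b, ∫ z, B.indicator g z *
    ∑ s ∈ Finset.Ico (lo z) (hi z), cc s s' * pr φ ζ U s s' z z'

/-- **ONE LOW TREE** (line `R`, all points unit-near): stopping + pointwise pairing bound.  No
density classes, no colours, no Lipschitz condition. -/
def TREELOW (ζ : ℝ → ℝ) (q : ℕ) : Prop :=
  ∃ C : ℝ, 0 ≤ C ∧ ∀ ω : ℝ → ℝ, PW (2 * q + 8) ω →
    ∀ (U g : ℝ × ℝ → ℝ) (S : ℕ) (lo hi : ℝ × ℝ → ℕ) (B : Set (ℝ × ℝ)) (R : Tube) (G D Λ : ℝ),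
      Measurable U → Measurable g → Chain S lo hi → MeasurableSet B → volume B ≠ ⊤ →
      (∀ z, |g z| ≤ G) → 0 < D → 1 ≤ Λ →
      (∀ z ∈ B, lo z < hi z → z.1 ∈ R.I ∧ R.k ≤ lo z ∧ near U 1 R.b R.m (lo z) z) →
      Mass3 B lo hi R.k D →
      ∃ st : ℝ → ℕ, Measurable st ∧ (∀ x, R.k ≤ st x) ∧
        (volume {z | z ∈ B ∧ lo z < hi z ∧ st z.1 < hi z}).toReal ≤ C * (1 / Λ) ^ 2 * D * R.len ∧
        ∀ (z' : ℝ × ℝ) (a b : ℕ), z'.1 ∈ R.I → a < b → b ≤ S →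
          |Pair (iteratedDeriv (2 * q + 2) ω) ζ U B lo (fun z => min (hi z) (st z.1)) g a b z'| ≤
            C * G * (Λ * D) / (1 + |U z' - R.m| * (1 / 2 : ℝ) ^ (b - 1) +
              |z'.2 - R.line z'.1|) ^ q

/-! ### global leaves -/

/-- expansion of the square (the nonnegative diagonal is counted twice) -/
def SQ (ζ : ℝ → ℝ) : Prop :=
  ∀ (φ : ℝ → ℝ), Continuous φ → (∀ r, 1 < |r| → φ r = 0) →
    ∀ (U h : ℝ × ℝ → ℝ) (S : ℕ) (lo hi : ℝ × ℝ → ℕ), Measurable U → (∃ W, ∀ z, |U z| ≤ W) →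
      Nice h → Chain S lo hi →
      ∫ w, (Tc φ ζ U lo hi h w) ^ 2 ≤
        2 * ∫ z', h z' * Pair φ ζ U Set.univ lo hi h (lo z') (hi z') z'

/-- classification of the scales by density; `n0` classes up to a small rest -/
def CLS : Prop :=
  ∀ (A : ℕ), 2 ≤ A → ∀ (U h : ℝ × ℝ → ℝ) (S : ℕ) (lo hi : ℝ × ℝ → ℕ), Measurable U → Nice h →
    Chain S lo hi → ∀ ε : ℝ, 0 < ε →
    ∃ (n0 : ℕ) (lc hc : ℕ → ℝ × ℝ → ℕ) (Q : Set (ℝ × ℝ)), MeasurableSet Q ∧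
      (∀ n, Chain S (lc n) (hc n) ∧ UppAt U h A n (lc n) (hc n) ∧ LowAt U h A n (lc n) (hc n)) ∧
      ∫ z in Q, (h z) ^ 2 ≤ ε ∧
      ∀ z, h z ≠ 0 → z ∉ Q → ∀ f : ℕ → ℝ,
        ∑ s ∈ Finset.Ico (lo z) (hi z), f s =
          ∑ n ∈ Finset.range n0, ∑ s ∈ Finset.Ico (lc n z) (hc n z), f s

/-- selection of the tops and attachment of the points -/
def TOPS : Prop :=
  ∀ (A n : ℕ), 2 ≤ A → ∀ (U h : ℝ × ℝ → ℝ) (S : ℕ) (lo hi : ℝ × ℝ → ℕ), Measurable U → Nice h →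
    Gap h → Chain S lo hi → LowAt U h A n lo hi →
    ∃ (N : ℕ) (R : Fin N → Tube) (k : Fin N → ℤ) (i : Fin N → ℕ) (E B : Fin N → Set (ℝ × ℝ)),
      IsTops U h A n lo hi N R k i E B

/-- mass of one-coloured points which are `2^i`-near a given integer line -/
def MASS3 : Prop :=
  ∀ (A n : ℕ), 2 ≤ A → ∀ (U h : ℝ × ℝ → ℝ) (S : ℕ) (lo hi : ℝ × ℝ → ℕ), Measurable U → Nice h →
    Chain S lo hi → UppAt U h A n lo hi →
    ∀ (k : ℤ) (i : ℕ) (R : Tube) (B : Set (ℝ × ℝ)), IntT R → MeasurableSet B → B ⊆ col h k →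
      (∀ z ∈ B, lo z < hi z → z.1 ∈ R.I ∧ R.k ≤ lo z ∧ near U (2 ^ i) R.b R.m (lo z) z) →
      Mass3 B lo hi R.k (4 * 2 ^ (A * i) * (1 / 2 : ℝ) ^ n)

/-- MASS + position of the short points: the colour `k` points whose bottom interval is `2^i`-near the
integer line of `R0` inside `I_0` have mass `≤ 4·2^(A i) 2^-n |I_0 ∩ Ω|`, where `Ω` is the
part over which the line lies in the fat tops of the colour `k` -/
def MASSOM : Prop :=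
  ∀ (A n : ℕ), 2 ≤ A → ∀ (U h : ℝ × ℝ → ℝ) (S : ℕ) (lo hi : ℝ × ℝ → ℕ), Measurable U → Nice h →
    Chain S lo hi → UppAt U h A n lo hi →
    ∀ (N : ℕ) (R : Fin N → Tube) (kk : Fin N → ℤ) (ii : Fin N → ℕ) (E B : Fin N → Set (ℝ × ℝ)),
      IsTops U h A n lo hi N R kk ii E B →
    ∀ (k : ℤ) (i : ℕ) (R0 : Tube), IntT R0 →
      (volume {z | z ∈ col h k ∧ z.1 ∈ R0.I ∧ lo z < hi z ∧ R0.k < hi z ∧
          near U (2 ^ i) R0.b R0.m (hi z - 1) z}).toReal ≤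
        4 * 2 ^ (A * i) * (1 / 2 : ℝ) ^ n *
          (volume {x : ℝ | x ∈ R0.I ∧ ∃ m, kk m = k ∧ x ∈ (R m).I ∧
            |R0.line x - (R m).line x| ≤ 2 * 2 ^ i + 10 * 2 ^ ii m}).toReal

/-- the dilation exponent -/
def AA : ℕ := 1000

/-- the decay exponent -/
def qq : ℕ := 1100

/-- profile `φ = ω^(N)` -/
def ph (ω : ℝ → ℝ) : ℝ → ℝ := iteratedDeriv (2 * qq + 2) ω

/-- the short side: one function `W` with `∫ W² ≤ C 2^-n ∫ h²` dominates the mass of the short points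
near any integer tube (MASSOM + geometric sum over the colours + sum over the dilations) -/
def OMEGA : Prop :=
  ∃ C : ℝ, 0 ≤ C ∧ ∀ (n : ℕ) (U h : ℝ × ℝ → ℝ) (S : ℕ) (lo hi : ℝ × ℝ → ℕ), Measurable U →
    Nice h → Chain S lo hi → UppAt U h AA n lo hi →
    ∀ (N : ℕ) (R : Fin N → Tube) (kk : Fin N → ℤ) (ii : Fin N → ℕ) (E B : Fin N → Set (ℝ × ℝ)),
      IsTops U h AA n lo hi N R kk ii E B →
    ∃ W : ℝ × ℝ → ℝ, Measurable W ∧ (∀ w, 0 ≤ W w) ∧ Integrable (fun w => (W w) ^ 2) ∧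
      ∫ w, (W w) ^ 2 ≤ C * (1 / 2 : ℝ) ^ n * ∫ z, (h z) ^ 2 ∧
      ∀ R0 : Tube, IntT R0 →
        IntegrableOn W (fat 1 R0) ∧
        ∫ z in {z | z.1 ∈ R0.I ∧ lo z < hi z ∧ R0.k < hi z},
          |h z| / (1 + |U z - R0.m| * (1 / 2 : ℝ) ^ (hi z - 1) + |z.2 - R0.line z.1|) ^ qq ≤
          ∫ w in fat 1 R0, W w

/-- the long side: `L²` norm of the sum of the fat tops (E2K once) -/
def HNORM : Prop :=
  ∃ c : ℝ, 0 < c ∧ ∃ C : ℝ, 0 ≤ C ∧ ∀ (n : ℕ) (U h : ℝ × ℝ → ℝ) (lo hi : ℝ × ℝ → ℕ),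
    Fld c U → Nice h →
    ∀ (N : ℕ) (R : Fin N → Tube) (kk : Fin N → ℤ) (ii : Fin N → ℕ) (E B : Fin N → Set (ℝ × ℝ)),
      IsTops U h AA n lo hi N R kk ii E B →
      ∫ w, (∑ m, (2 : ℝ) ^ kk m * 2 ^ (AA * ii m) * (1 / 2 : ℝ) ^ n *
        (fat (32 * 2 ^ ii m) (R m)).indicator 1 w) ^ 2 ≤
        C * (2 : ℝ) ^ ((n : ℝ) / 16) * ∫ z, (h z) ^ 2

/-- the tops have total mass `≤ (n+2) ‖h‖²` (disjointness of the `E m` for fixed `i`) -/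
def REMSUM : Prop :=
  ∀ (n : ℕ) (U h : ℝ × ℝ → ℝ) (lo hi : ℝ × ℝ → ℕ), Measurable U → Nice h →
    ∀ (N : ℕ) (R : Fin N → Tube) (kk : Fin N → ℤ) (ii : Fin N → ℕ) (E B : Fin N → Set (ℝ × ℝ)),
      IsTops U h AA n lo hi N R kk ii E B →
      (∀ m, (AA - 1) * ii m ≤ n + 1) ∧
      ∑ m, (4 : ℝ) ^ kk m * 2 ^ (AA * ii m) * (1 / 2 : ℝ) ^ n * (R m).len ≤
        (n + 2) * ∫ z, (h z) ^ 2

/-- conclusion for one sub-chain: kept part small, removed part small -/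
def SubC (ζ ω : ℝ → ℝ) (U h : ℝ × ℝ → ℝ) (n : ℕ) (lo hi : ℝ × ℝ → ℕ) (Λ C : ℝ) : Prop :=
  ∃ hi' : ℝ × ℝ → ℕ, Measurable hi' ∧ (∀ z, hi' z ≤ hi z) ∧
    ∫ w, (Tc (ph ω) ζ U lo hi' h w) ^ 2 ≤
      C * Λ * (2 : ℝ) ^ (-(n : ℝ) / 4) * ∫ z, (h z) ^ 2 ∧
    ∫ z in {z | lo z < hi z ∧ hi' z < hi z}, (h z) ^ 2 ≤
      C * (n + 1) * (1 / Λ) ^ 2 * ∫ z, (h z) ^ 2

/-- **LOW chains of one class** -/
def LOWN (ζ : ℝ → ℝ) : Prop :=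
  ∃ c : ℝ, 0 < c ∧ ∃ C : ℝ, 0 ≤ C ∧ ∀ ω : ℝ → ℝ, PW (2 * qq + 8) ω →
    ∀ (U h : ℝ × ℝ → ℝ) (n S : ℕ) (lo hi : ℝ × ℝ → ℕ) (Λ : ℝ), Fld c U → Nice h →
      Chain S lo hi → UppAt U h AA n lo hi → 1 ≤ Λ →
      ∀ (N : ℕ) (R : Fin N → Tube) (kk : Fin N → ℤ) (ii : Fin N → ℕ) (E B : Fin N → Set (ℝ × ℝ)),
      IsTops U h AA n lo hi N R kk ii E B →
      (∀ m, ∀ z ∈ B m, lo z < hi z → |U z - (R m).m| * (1 / 2 : ℝ) ^ lo z ≤ 1) →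
      SubC ζ ω U h n lo hi Λ C

/-- **TOP chains of one class**: one scale at every point, absolute values, own lines -/
def TOPN (ζ : ℝ → ℝ) : Prop :=
  ∃ c : ℝ, 0 < c ∧ ∃ C : ℝ, 0 ≤ C ∧ ∀ ω : ℝ → ℝ, PW (2 * qq + 8) ω →
    ∀ (U h : ℝ × ℝ → ℝ) (n S : ℕ) (lo hi : ℝ × ℝ → ℕ) (Λ : ℝ), Fld c U → Nice h →
      Chain S lo hi → UppAt U h AA n lo hi → 1 ≤ Λ →
      ∀ (N : ℕ) (R : Fin N → Tube) (kk : Fin N → ℤ) (ii : Fin N → ℕ) (E B : Fin N → Set (ℝ × ℝ)),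
      IsTops U h AA n lo hi N R kk ii E B →
      (∀ z, hi z ≤ lo z + 1) →
      SubC ζ ω U h n lo hi Λ C

/-- **ONE CLASS**: the chain splits into `n + 8` sub-chains (LOW, TOP_0, TOP_1, ...) -/
def CLASSN (ζ : ℝ → ℝ) : Prop :=
  ∃ c : ℝ, 0 < c ∧ ∃ C : ℝ, 0 ≤ C ∧ ∀ ω : ℝ → ℝ, PW (2 * qq + 8) ω →
    ∀ (U h : ℝ × ℝ → ℝ) (n S : ℕ) (lo hi : ℝ × ℝ → ℕ) (Λ : ℝ), Fld c U → Nice h → Gap h →
      Chain S lo hi → UppAt U h AA n lo hi → LowAt U h AA n lo hi → 1 ≤ Λ →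
      ∃ lc hc : ℕ → ℝ × ℝ → ℕ,
        (∀ i, Chain S (lc i) (hc i) ∧ SubC ζ ω U h n (lc i) (hc i) Λ C) ∧
        ∀ z, h z ≠ 0 → ∀ f : ℕ → ℝ,
          ∑ s ∈ Finset.Ico (lo z) (hi z), f s =
            ∑ i ∈ Finset.range (n + 8), ∑ s ∈ Finset.Ico (lc i z) (hc i z), f s

/-- final bootstrap: sum over the classes and absorb -/
def BOOT (ζ : ℝ → ℝ) : Prop := CLS → CLASSN ζ → GDN ζ (2 * qq + 2) (2 * qq + 8)

/-! ### closed leaves and the final wiring -/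

def L_SQ : Prop := ∀ ζ, ZetC ζ → SQ ζ
def L_TREELOW : Prop := ∀ ζ, ZetC ζ → TREELOW ζ qq
def L_OMEGA : Prop := MASSOM → OMEGA
def L_HNORM : Prop := E2K → HNORM
def L_LOWN : Prop := ∀ ζ, ZetC ζ → SQ ζ → TREELOW ζ qq → MASS3 → OMEGA → HNORM → REMSUM → LOWN ζ
def L_TOPN : Prop := ∀ ζ, ZetC ζ → SQ ζ → MASS3 → OMEGA → HNORM → REMSUM → TOPN ζ
def L_CLASSN : Prop := ∀ ζ, ZetC ζ → TOPS → REMSUM → LOWN ζ → TOPN ζ → CLASSN ζ
def L_BOOT : Prop := ∀ ζ, ZetC ζ → BOOT ζ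

theorem operator_part (e2k : E2K) (sq : L_SQ) (cls : CLS) (tops : TOPS) (m3 : MASS3)
    (mo : MASSOM) (om : L_OMEGA) (hn : L_HNORM) (rs : REMSUM) (tl : L_TREELOW) (lw : L_LOWN)
    (tp : L_TOPN) (cl : L_CLASSN) (bo : L_BOOT) (ζ : ℝ → ℝ) (hζ : ZetC ζ) :
    GDN ζ (2 * qq + 2) (2 * qq + 8) :=
  bo ζ hζ cls (cl ζ hζ tops rs
    (lw ζ hζ (sq ζ hζ) (tl ζ hζ) m3 (om mo) (hn e2k) rs)
    (tp ζ hζ (sq ζ hζ) m3 (om mo) (hn e2k) rs))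

end Crest.Agent.R087.OP0x270
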