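import Crest.Agent.R087.T3P_630
import Crest.Agent.R087.OP0_270

/-!
Row 87, operator part, leaf TOPN, part STOP (S1) (helper929): stopping of one top, from `T3P` to the
notation of `OP0_270`.
-/

set_option autoImplicit false

noncomputable section

open MeasureTheory

namespace Crest.Agent.R087.TopOnex929

open Crest.Agent.R087.Sh0x283 Crest.Agent.R087.E2x542 Crest.Agent.R087.E2Kx752
open Crest.Agent.R087.GateDefx273 Crest.Agent.R087.OP0x270 Crest.Agent.R087.TreeIfx153
open Crest.Agent.R087.T1x90 (Tree cel ga al)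

/-- the cell of a tube -/
theorem cel_of_mem {R : Tube} {x : ℝ} (h : x ∈ R.I) : cel R.k x = R.j := by
  have h2 : (0 : ℝ) < 2 ^ R.k := by positivity
  have hl : R.len * 2 ^ R.k = 1 := by
    rw [Tube.len, ← mul_pow]; norm_num
  obtain ⟨h3, h4⟩ := h
  rw [cel, Int.floor_eq_iff]
  constructor
  · calc (R.j : ℝ) = R.j * R.len * 2 ^ R.k := by rw [mul_assoc, hl, mul_one]
      _ ≤ x * 2 ^ R.k := by gcongr
      _ = 2 ^ R.k * x := mul_comm _ _
  · calc (2 : ℝ) ^ R.k * x = x * 2 ^ R.k := mul_comm _ _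
      _ < ((R.j : ℝ) + 1) * R.len * 2 ^ R.k := by gcongr
      _ = (R.j : ℝ) + 1 := by rw [mul_assoc, hl, mul_one]

theorem measurable_jx (s : ℕ) : Measurable (jx s) :=
  Int.measurable_floor.comp (measurable_const.mul measurable_id)

/-- alive points of `B` -/
def ZB (B : Set (ℝ × ℝ)) (lo hi : ℝ × ℝ → ℕ) : Set (ℝ × ℝ) := {z | z ∈ B ∧ lo z < hi z}

/-- activity: the single scale `lo z` -/
def aB (B : Set (ℝ × ℝ)) (lo hi : ℝ × ℝ → ℕ) (s : ℕ) : Set (ℝ × ℝ) :=
  {z | z ∈ B ∧ lo z = s ∧ s < hi z}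

theorem measurableSet_ZB {B : Set (ℝ × ℝ)} {lo hi : ℝ × ℝ → ℕ} (hB : MeasurableSet B)
    (hlo : Measurable lo) (hhi : Measurable hi) : MeasurableSet (ZB B lo hi) :=
  hB.inter (measurableSet_lt hlo hhi)

theorem measurableSet_aB {B : Set (ℝ × ℝ)} {lo hi : ℝ × ℝ → ℕ} (hB : MeasurableSet B)
    (hlo : Measurable lo) (hhi : Measurable hi) (s : ℕ) : MeasurableSet (aB B lo hi s) :=
  hB.inter ((hlo (measurableSet_singleton s)).inter (measurableSet_lt measurable_const hhi))

theorem nice_ind {h : ℝ × ℝ → ℝ} (hh : Nice h) {Z : Set (ℝ × ℝ)} (hZ : MeasurableSet Z) :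
    Nice (Z.indicator h) := by
  obtain ⟨h1, ⟨M, hM⟩, ⟨R, hR⟩⟩ := hh
  refine ⟨h1.indicator hZ, ⟨M, fun z => ?_⟩, ⟨R, fun z hz => ?_⟩⟩
  · by_cases hz : z ∈ Z
    · rw [Set.indicator_of_mem hz]; exact hM z
    · rw [Set.indicator_of_notMem hz, abs_zero]; exact (abs_nonneg _).trans (hM z)
  · by_cases hz' : z ∈ Z
    · rw [Set.indicator_of_mem hz']; exact hR z hz
    · rw [Set.indicator_of_notMem hz']

/-- a set on which a nice function does not vanish has finite volume -/
theorem volume_lt_top {h : ℝ × ℝ → ℝ} (hh : Nice h) {Z : Set (ℝ × ℝ)} (hZ : ∀ z ∈ Z, h z ≠ 0) :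
    volume Z ≠ ⊤ := by
  obtain ⟨_, _, ⟨R, hR⟩⟩ := hh
  have h1 : Z ⊆ Metric.closedBall (0 : ℝ × ℝ) R := by
    intro z hz
    rw [mem_closedBall_zero_iff]
    by_contra hcon
    exact hZ z hz (hR z (not_le.1 hcon))
  exact ne_top_of_le_ne_top measure_closedBall_lt_top.ne (measure_mono h1)

theorem integrable_nice {h : ℝ × ℝ → ℝ} (hh : Nice h) : Integrable h := by
  obtain ⟨h1, ⟨M, hM⟩, ⟨R, hR⟩⟩ := hh
  have h2 : Integrable ((Metric.closedBall (0 : ℝ × ℝ) R).indicator fun _ : ℝ × ℝ => M) :=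
    (integrable_indicator_iff Metric.isClosed_closedBall.measurableSet).2
      (integrableOn_const measure_closedBall_lt_top.ne)
  refine h2.mono' h1.aestronglyMeasurable (Filter.Eventually.of_forall fun z => ?_)
  by_cases hz : z ∈ Metric.closedBall (0 : ℝ × ℝ) R
  · rw [Set.indicator_of_mem hz]; exact hM z
  · rw [Set.indicator_of_notMem hz, hR z, norm_zero]
    rw [mem_closedBall_zero_iff] at hz
    exact not_le.1 hz

theorem ne_zero_of_col {h : ℝ × ℝ → ℝ} {k : ℤ} {z : ℝ × ℝ} (hz : z ∈ col h k) : h z ≠ 0 := by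
  intro h0
  have h1 : (2 : ℝ) ^ k ≤ |h z| := hz.1
  rw [h0, abs_zero] at h1
  exact absurd h1 (not_le.2 (by positivity))

/-- the tree of one top -/
theorem tree_one {h : ℝ × ℝ → ℝ} {S : ℕ} {lo hi : ℝ × ℝ → ℕ} {B : Set (ℝ × ℝ)} {R0 : Tube}
    {k : ℤ} {D : ℝ} (hh : Nice h) (hc : Chain S lo hi) (hB : MeasurableSet B)
    (hBk : B ⊆ col h k) (hD : 0 < D)
    (htop : ∀ z ∈ B, lo z < hi z → z.1 ∈ R0.I ∧ R0.k ≤ lo z) (hm : Mass3 B lo hi R0.k D) :
    Tree S R0.k R0.j ((ZB B lo hi).indicator h) (aB B lo hi) (ZB B lo hi) (2 ^ (k + 1)) D := by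
  have hZm := measurableSet_ZB hB hc.1 hc.2.1
  refine ⟨nice_ind hh hZm, ?_, hD.le, hZm, ?_, ?_, fun s => measurableSet_aB hB hc.1 hc.2.1 s,
    ?_, ?_, ?_, ?_⟩
  · intro z
    by_cases hz : z ∈ ZB B lo hi
    · rw [Set.indicator_of_mem hz]
      exact (hBk hz.1).2.le
    · rw [Set.indicator_of_notMem hz, abs_zero]
      positivity
  · intro z hz
    exact Set.indicator_of_notMem hz _
  · intro z hz
    exact cel_of_mem (htop z hz.1 hz.2).1
  · intro s hs
    rw [Set.disjoint_left]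
    rintro z ⟨_, h2, _⟩ ⟨h4, h5⟩
    have := (htop z h4 h5).2
    omega
  · intro s hs
    rw [Set.disjoint_left]
    rintro z ⟨_, h2, h3⟩ _
    have := hc.2.2 z
    omega
  · rintro z hz s s' s'' h1 h2 ⟨_, h4, _⟩ ⟨h5, h6, h7⟩
    exact ⟨h5, by omega, by omega⟩
  · rintro z hz s hs ⟨s', hs', h1, h2, h3⟩
    have h4 := hm s hs (jx s z.1) ⟨z, hz.1, hz.2, by omega, rfl⟩
    have h5 : ZB B lo hi ∩ {w : ℝ × ℝ | cel s w.1 = cel s z.1} =
        {w | w ∈ B ∧ lo w < hi w ∧ jx s w.1 = jx s z.1} := by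
      ext w
      constructor
      · rintro ⟨⟨a, b⟩, c⟩; exact ⟨a, b, c⟩
      · rintro ⟨a, b, c⟩; exact ⟨⟨a, b⟩, c⟩
    have h6 : volume (ZB B lo hi ∩ {w : ℝ × ℝ | cel s w.1 = cel s z.1}) ≠ ⊤ :=
      volume_lt_top hh fun w hw => ne_zero_of_col (hBk hw.1.1)
    rw [← h5] at h4
    rw [← ENNReal.ofReal_toReal h6]
    exact ENNReal.ofReal_le_ofReal h4

/-- **stopping of one top** -/
theorem topone : ∃ C : ℝ, 0 ≤ C ∧ ∀ (h : ℝ × ℝ → ℝ) (S : ℕ) (lo hi : ℝ × ℝ → ℕ)
    (B : Set (ℝ × ℝ)) (R0 : Tube) (k : ℤ) (D Λ : ℝ), Nice h → Chain S lo hi →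
    MeasurableSet B → B ⊆ col h k → 0 < D → 1 ≤ Λ →
    (∀ z ∈ B, lo z < hi z → z.1 ∈ R0.I ∧ R0.k ≤ lo z) → (∀ z ∈ B, hi z ≤ lo z + 1) →
    Mass3 B lo hi R0.k D →
    ∃ st : ℝ → ℕ, Measurable st ∧
      volume {z | z ∈ B ∧ lo z < hi z ∧ st z.1 < hi z} ≤
        ENNReal.ofReal (C * (1 / Λ) ^ 2 * D * R0.len) ∧
      ∀ x, ∑ s ∈ Finset.range S, ENNReal.ofReal (2 ^ s) *
          ∫⁻ z in {z | z ∈ B ∧ lo z = s ∧ s < min (hi z) (st z.1) ∧ jx s z.1 = jx s x},
            ENNReal.ofReal |h z| ≤ ENNReal.ofReal (C * Λ * 2 ^ k * D) := by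
  obtain ⟨C, hC0, hC⟩ := T3Px630.t3p
  refine ⟨2 * C, by positivity, ?_⟩
  intro h S lo hi B R0 k D Λ hh hc hB hBk hD hΛ htop hone hm
  have hΛ0 : 0 < Λ := lt_of_lt_of_le one_pos hΛ
  have hT := tree_one hh hc hB hBk hD htop hm
  have hk : (0 : ℝ) < 2 ^ (k + 1) := by positivity
  rcases Nat.lt_or_ge S R0.k with hS | hS
  · -- nothing is alive
    have hemp : ∀ z ∈ B, ¬ lo z < hi z := by
      intro z hz hlt
      have h1 := (htop z hz hlt).2
      have h2 := hc.2.2 z
      omega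
    refine ⟨fun _ => 0, measurable_const, ?_, fun x => ?_⟩
    · have : {z | z ∈ B ∧ lo z < hi z ∧ 0 < hi z} = ∅ := by
        ext z
        simp only [Set.mem_ofPred_eq, Set.mem_empty_iff_false, iff_false]
        rintro ⟨h1, h2, _⟩
        exact hemp z h1 h2
      rw [this]
      simp
    · refine le_trans (le_of_eq ?_) bot_le
      refine Finset.sum_eq_zero fun s _ => ?_
      have : {z | z ∈ B ∧ lo z = s ∧ s < min (hi z) 0 ∧ jx s z.1 = jx s x} = ∅ := by
        ext z
        simp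
      rw [this]
      simp
  · obtain ⟨σ, hσ, _, hrem, hsum⟩ := hC S R0.k R0.j ((ZB B lo hi).indicator h) (aB B lo hi)
      (ZB B lo hi) (2 ^ (k + 1)) D (fun _ _ => 1) hS hT hk.le (fun _ => measurable_const)
      (fun _ _ => zero_le_one) (by
        intro z hz A hA
        rw [Finset.sum_const, nsmul_eq_mul, mul_one]
        have : A ⊆ {lo z} := by
          intro s hs
          rw [Finset.mem_singleton]
          exact (hA s hs).2.1.symm
        have h2 := Finset.card_le_card this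
        rw [Finset.card_singleton] at h2
        exact_mod_cast h2) (Λ * (2 ^ (k + 1) * D)) (by
        have : 0 < 2 ^ (k + 1) * D := by positivity
        nlinarith) (by positivity)
    refine ⟨σ, hσ.meas, ?_, fun x => ?_⟩
    · refine (measure_mono ?_).trans (hrem.trans (ENNReal.ofReal_le_ofReal ?_))
      · rintro z ⟨h1, h2, h3⟩
        have h4 := hone z h1
        exact ⟨⟨h1, h2⟩, lo z, ⟨h1, rfl, h2⟩, by omega⟩
      · have e1 : (2 : ℝ) ^ (k + 1) * D / (Λ * (2 ^ (k + 1) * D)) = 1 / Λ := by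
          field_simp
        rw [e1]
        have e2 : R0.len = (1 / 2 : ℝ) ^ R0.k := rfl
        rw [e2]
        have : 0 ≤ C * D * (1 / Λ) ^ 2 * (1 / 2) ^ R0.k := by positivity
        nlinarith
    · have hx := hsum x
      have key : ∀ s ∈ Finset.range S, ENNReal.ofReal (2 ^ s) *
          ∫⁻ z in {z | z ∈ B ∧ lo z = s ∧ s < min (hi z) (σ z.1) ∧ jx s z.1 = jx s x},
            ENNReal.ofReal |h z| =
          ENNReal.ofReal (pL (fun _ _ => 1) ((ZB B lo hi).indicator h)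
            (kact (aB B lo hi) σ) s x) := by
        intro s _
        have hset : {z : ℝ × ℝ | cel s z.1 = cel s x} ∩ kact (aB B lo hi) σ s =
            {z | z ∈ B ∧ lo z = s ∧ s < min (hi z) (σ z.1) ∧ jx s z.1 = jx s x} := by
          ext z
          constructor
          · rintro ⟨h1, ⟨h2, h3, h4⟩, h5⟩
            exact ⟨h2, h3, lt_min h4 h5, h1⟩
          · rintro ⟨h2, h3, h4, h1⟩
            exact ⟨h1, ⟨h2, h3, (lt_min_iff.1 h4).1⟩, (lt_min_iff.1 h4).2⟩
        have hms : MeasurableSet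
            {z | z ∈ B ∧ lo z = s ∧ s < min (hi z) (σ z.1) ∧ jx s z.1 = jx s x} := by
          refine hB.inter ((hc.1 (measurableSet_singleton s)).inter
            ((measurableSet_lt measurable_const
              (hc.2.1.min (hσ.meas.comp measurable_fst))).inter
            ((measurable_jx s).comp measurable_fst (measurableSet_singleton _))))
        have hint : Integrable (fun z => |(ZB B lo hi).indicator h z| * 1) := by
          simp only [mul_one]
          exact (integrable_nice hT.nice).abs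
        rw [pL, hset, ENNReal.ofReal_mul (by positivity),
          ofReal_integral_eq_lintegral_ofReal hint.integrableOn
            (Filter.Eventually.of_forall fun z => by positivity)]
        congr 1
        refine setLIntegral_congr_fun hms fun z hz => ?_
        have hz' : z ∈ ZB B lo hi := by
          obtain ⟨h2, h3, h4, _⟩ := hz
          exact ⟨h2, by have := (lt_min_iff.1 h4).1; omega⟩
        show ENNReal.ofReal |h z| = ENNReal.ofReal (|(ZB B lo hi).indicator h z| * 1)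
        rw [Set.indicator_of_mem hz', mul_one]
      rw [Finset.sum_congr rfl key, ← ENNReal.ofReal_sum_of_nonneg]
      · refine ENNReal.ofReal_le_ofReal (hx.trans (le_of_eq ?_))
        rw [zpow_add₀ (by norm_num)]
        ring
      · intro s _
        exact mul_nonneg (by positivity) (integral_nonneg fun z => by positivity)

end Crest.Agent.R087.TopOnex929
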