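import Crest.Agent.R087.PairLow_500
import Crest.Agent.R087.PLcomb_575
import Crest.Agent.R087.TopOne_929

/-!
Row 87 (S0115), operator part, leaf TREELOW (helper233, second typist): `OP0x270.TREELOW` from
`TreeIfx153.T3` (stopping of one LOW tree), `PairLow_500` (deep, shallow, support) and
`PLcomb_575` (combination).  No diagonal part, `U` only measurable.
-/

set_option autoImplicit false

noncomputable section

open MeasureTheory

namespace Crest.Agent.R087.TreeLowx233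

open Crest.Agent.R087.Sh0x283 Crest.Agent.R087.E2x542 Crest.Agent.R087.E2Kx752
open Crest.Agent.R087.GateDefx273 Crest.Agent.R087.OP0x270 Crest.Agent.R087.TreeIfx153
open Crest.Agent.R087.T1x90 (Tree cel ga al)
open Crest.Agent.R087.TopOnex929 (ZB measurableSet_ZB cel_of_mem measurable_jx integrable_nice)
open Crest.Agent.R087.Pair1x339 (pp cr Om Xi ln)
open Crest.Agent.R087.Kerx500 (ZM XM)
open Crest.Agent.R087.PairLowx500 (LD KB PS aR)

/-! ### profiles -/

theorem cr_even (f : ℝ → ℝ) (t : ℝ) : cr f f (-t) = cr f f t := by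
  unfold cr
  rw [← integral_add_right_eq_self (fun v => f (-t + v) * f v) t]
  congr 1
  ext v
  rw [show -t + (v + t) = v by ring, mul_comm, add_comm v t]

/-- half of the autocorrelation -/
def Xh (ω : ℝ → ℝ) : ℝ → ℝ := fun v => (1 / 2 : ℝ) * Xi ω v

theorem iter_Xh (ω : ℝ → ℝ) (n : ℕ) (v : ℝ) :
    iteratedDeriv n (Xh ω) v = (1 / 2 : ℝ) * iteratedDeriv n (Xi ω) v := by
  unfold Xh
  exact iteratedDeriv_const_mul_field (1 / 2 : ℝ) (Xi ω)

theorem smooth_Xh {M : ℕ} {ω : ℝ → ℝ} (h : Om M ω) : ContDiff ℝ (⊤ : ℕ∞) (Xh ω) :=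
  contDiff_const.mul (Pair1x339.smooth_Xi h)

theorem Xh_bd {M : ℕ} {ω : ℝ → ℝ} (h : Om M ω) {n : ℕ} (hn : n ≤ 2 * M) (t : ℝ) :
    |iteratedDeriv n (Xh ω) t| ≤ 1 := by
  rw [iter_Xh, abs_mul, abs_of_pos (by norm_num : (0 : ℝ) < 1 / 2)]
  have := Pair1x339.Xi_bd h hn t
  linarith

theorem Xh_zero {M : ℕ} {ω : ℝ → ℝ} (h : Om M ω) (n : ℕ) {t : ℝ} (ht : 2 < |t|) :
    iteratedDeriv n (Xh ω) t = 0 := by
  rw [iter_Xh, Pair1x339.Xi_zero h n ht, mul_zero]

theorem Xh_even {M : ℕ} {ω : ℝ → ℝ} (h : Om M ω) (N : ℕ) (t : ℝ) :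
    iteratedDeriv (2 * N) (Xh ω) (-t) = iteratedDeriv (2 * N) (Xh ω) t := by
  have key : ∀ t, iteratedDeriv (2 * N) (Xi ω) t =
      (-1) ^ N * cr (iteratedDeriv N ω) (iteratedDeriv N ω) t := by
    intro t
    rw [Pair1x339.cr_phi h N t, ← mul_assoc, ← mul_pow]
    simp
  rw [iter_Xh, iter_Xh, key, key, cr_even]

theorem pf_Xh {M : ℕ} {ω : ℝ → ℝ} (h : Om M ω) {P : ℕ} (hP : P + 1 ≤ 2 * M) :
    PF P (fun i => iteratedDeriv i (Xh ω)) where
  der i _ v := by
    have hs : ContDiff ℝ (⊤ : ℕ∞) (iteratedDeriv i (Xh ω)) :=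
      Pair1x339.smooth_iter (smooth_Xh h) i
    have h1 := (hs.differentiable (by simp) v).hasDerivAt
    show HasDerivAt (iteratedDeriv i (Xh ω)) (iteratedDeriv (i + 1) (Xh ω) v) v
    rw [iteratedDeriv_succ]
    exact h1
  cont i _ := (Pair1x339.smooth_iter (smooth_Xh h) i).continuous
  supp i _ v hv := Xh_zero h i hv
  bd i hi v := Xh_bd h (by omega) v

/-! ### one pairing -/

theorem pr_pp {ζ : ℝ → ℝ} (hz : ZetC ζ) {M : ℕ} {ω : ℝ → ℝ} (hω : Om M ω) {N : ℕ}
    (hN : Even N) (U : ℝ × ℝ → ℝ) (s t : ℕ) (z z' : ℝ × ℝ) :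
    pr (iteratedDeriv N ω) ζ U s t z z' =
      2 * pp (iteratedDeriv (2 * N) (Xh ω)) ζ U s t z z' := by
  have h1 : pr (iteratedDeriv N ω) ζ U s t z z' =
      (-1 : ℝ) ^ N * pp (iteratedDeriv (2 * N) (Xi ω)) ζ U s t z z' :=
    Pair1x339.pair_eq hz hω N U s t z z'
  rw [h1, hN.neg_one_pow, one_mul, show iteratedDeriv (2 * N) (Xh ω) =
    fun r => (1 / 2 : ℝ) * iteratedDeriv (2 * N) (Xi ω) r from funext fun r => iter_Xh ω _ r,
    Pair1x339.pp_const_mul]
  ring

theorem measurable_gt : Measurable gt := PairLowx500.gt_meas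

theorem pp_meas {Φ ζ : ℝ → ℝ} (hΦ : Continuous Φ) (hζ : Continuous ζ) {U : ℝ × ℝ → ℝ}
    (hU : Measurable U) (s t : ℕ) (w : ℝ × ℝ) : Measurable (fun z => pp Φ ζ U s t z w) := by
  unfold pp
  have h0 : Measurable (fun z : ℝ × ℝ => (2 : ℝ) ^ s * gt (Int.fract ((2 : ℝ) ^ s * z.1))) :=
    measurable_const.mul (measurable_gt.comp (measurable_fract.comp
      (measurable_const.mul measurable_fst)))
  have h1 : Measurable (fun p : (ℝ × ℝ) × ℝ =>
      ζ ((2 : ℝ) ^ t * p.2 - ⌊(2 : ℝ) ^ t * w.1⌋) * ζ ((2 : ℝ) ^ s * p.2 - ⌊(2 : ℝ) ^ s * p.1.1⌋) *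
      Φ (ln U p.1 p.2 - ln U w p.2)) := by
    refine Measurable.mul (Measurable.mul ?_ ?_) ?_
    · exact hζ.measurable.comp ((measurable_const.mul measurable_snd).sub measurable_const)
    · refine hζ.measurable.comp ((measurable_const.mul measurable_snd).sub ?_)
      have h2 : Measurable (fun p : (ℝ × ℝ) × ℝ => ⌊(2 : ℝ) ^ s * p.1.1⌋) :=
        Int.measurable_floor.comp (measurable_const.mul (measurable_fst.comp measurable_fst))
      exact (measurable_from_top (f := fun n : ℤ => (n : ℝ))).comp h2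
    · refine hΦ.measurable.comp ?_
      unfold ln
      have h3 : Measurable (fun p : (ℝ × ℝ) × ℝ => U p.1) := hU.comp measurable_fst
      exact ((measurable_snd.comp measurable_fst).add
        ((measurable_snd.sub (measurable_fst.comp measurable_fst)).mul h3)).sub
        (measurable_const.add ((measurable_snd.sub measurable_const).mul measurable_const))
  exact (h0.mul measurable_const).mul
    (h1.stronglyMeasurable.integral_prod_right' (ν := volume)).measurable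

/-- activity of a chain -/
def actv (B : Set (ℝ × ℝ)) (lo hi : ℝ × ℝ → ℕ) (s : ℕ) : Set (ℝ × ℝ) :=
  {z | z ∈ B ∧ lo z ≤ s ∧ s < hi z}

theorem measurableSet_actv {B : Set (ℝ × ℝ)} {lo hi : ℝ × ℝ → ℕ} (hB : MeasurableSet B)
    (hlo : Measurable lo) (hhi : Measurable hi) (s : ℕ) : MeasurableSet (actv B lo hi s) :=
  hB.inter ((measurableSet_le hlo measurable_const).inter (measurableSet_lt measurable_const hhi))

theorem measurableSet_kact {act : ℕ → Set (ℝ × ℝ)} (ha : ∀ s, MeasurableSet (act s)) {σ : ℝ → ℕ}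
    (hσ : Measurable σ) (s : ℕ) : MeasurableSet (kact act σ s) :=
  (ha s).inter (measurableSet_lt measurable_const (hσ.comp measurable_fst))

/-! ### the pairing of a stopped tree -/

theorem pair_PS {φ ζ Φ : ℝ → ℝ} {c : ℝ} (hζ : ZetC ζ) (hΦ : ContDiff ℝ (⊤ : ℕ∞) Φ)
    (hΦ1 : ∀ r, |Φ r| ≤ 1) {U g : ℝ × ℝ → ℝ} (hU : Measurable U)
    {lo hi : ℝ × ℝ → ℕ} {B : Set (ℝ × ℝ)} (hB : MeasurableSet B) (hlo : Measurable lo)
    (hhi : Measurable hi) {σ : ℝ → ℕ} (hσ : Measurable σ) {k0 : ℕ}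
    (hk : ∀ z ∈ B, lo z < hi z → k0 ≤ lo z)
    (hn : Nice ((ZB B lo hi).indicator g))
    (hpr : ∀ s s' z z', pr φ ζ U s s' z z' = c * pp Φ ζ U s s' z z') (a b : ℕ) (z' : ℝ × ℝ) :
    Pair φ ζ U B lo (fun z => min (hi z) (max (σ z.1) k0)) g a b z' =
      c * ∑ s' ∈ Finset.Ico a b,
        PS Φ ζ U ((ZB B lo hi).indicator g) (kact (actv B lo hi) σ) s' z' := by
  unfold Pair
  rw [Finset.mul_sum]
  refine Finset.sum_congr rfl fun s' _ => ?_
  unfold PS
  rw [Finset.mul_sum]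
  obtain ⟨C, hC0, hC⟩ := Pair1x339.pp_far hζ 0
  have hact := measurableSet_actv hB hlo hhi
  have hint : ∀ s ∈ Finset.range (s' + 1), Integrable
      ((kact (actv B lo hi) σ s).indicator fun z =>
        c * ((ZB B lo hi).indicator g z * pp Φ ζ U s s' z z')) := by
    intro s hs
    rw [Finset.mem_range] at hs
    refine Integrable.indicator ?_ (measurableSet_kact hact hσ s)
    refine Integrable.const_mul ?_ c
    refine ((integrable_nice hn).norm.mul_const (C * 1 * 2 ^ s)).mono'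
      (hn.1.mul (pp_meas hΦ.continuous hζ.1.continuous hU s s' z')).aestronglyMeasurable
      (Filter.Eventually.of_forall fun z => ?_)
    rw [norm_mul]
    refine mul_le_mul_of_nonneg_left ?_ (norm_nonneg _)
    have h1 := hC Φ 1 hΦ hΦ1 U s s' z z' (by omega)
    rw [pow_zero, one_mul, iteratedDeriv_zero] at h1
    exact h1
  have e1 : ∀ s ∈ Finset.range (s' + 1),
      c * ∫ z in kact (actv B lo hi) σ s, (ZB B lo hi).indicator g z * pp Φ ζ U s s' z z' =
      ∫ z, (kact (actv B lo hi) σ s).indicator (fun z =>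
        c * ((ZB B lo hi).indicator g z * pp Φ ζ U s s' z z')) z := by
    intro s _
    rw [integral_indicator (measurableSet_kact hact hσ s), integral_const_mul]
  rw [Finset.sum_congr rfl e1, ← integral_finsetSum _ hint]
  congr 1
  ext z
  by_cases hzB : z ∈ B
  swap
  · rw [Set.indicator_of_notMem hzB, zero_mul]
    symm
    refine Finset.sum_eq_zero fun s _ => ?_
    rw [Set.indicator_of_notMem]
    intro hz
    exact hzB hz.1.1
  by_cases hal : lo z < hi z
  swap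
  · rw [Finset.Ico_eq_empty_of_le (le_trans (min_le_left _ _) (not_lt.1 hal)), Finset.sum_empty,
      mul_zero]
    symm
    refine Finset.sum_eq_zero fun s _ => ?_
    rw [Set.indicator_of_notMem]
    rintro ⟨⟨_, h2, h3⟩, _⟩
    omega
  have hz1 : z ∈ ZB B lo hi := ⟨hzB, hal⟩
  have hk1 := hk z hzB hal
  rw [Set.indicator_of_mem hzB, Finset.mul_sum]
  have e2 : ∀ s ∈ Finset.range (s' + 1), (kact (actv B lo hi) σ s).indicator (fun z =>
        c * ((ZB B lo hi).indicator g z * pp Φ ζ U s s' z z')) z =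
      if lo z ≤ s ∧ s < min (hi z) (max (σ z.1) k0) then
        g z * (cc s s' * pr φ ζ U s s' z z') else 0 := by
    intro s hs
    rw [Finset.mem_range] at hs
    split_ifs with h1
    · rw [Set.indicator_of_mem, Set.indicator_of_mem hz1, hpr, cc, if_pos (by omega)]
      · ring
      · obtain ⟨h2, h3⟩ := h1
        rw [lt_min_iff, lt_max_iff] at h3
        refine ⟨⟨hzB, h2, h3.1⟩, ?_⟩
        rcases h3.2 with h4 | h4
        · exact h4
        · omega
    · rw [Set.indicator_of_notMem]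
      rintro ⟨⟨_, h2, h3⟩, h4⟩
      exact h1 ⟨h2, lt_min h3 (lt_max_of_lt_left h4)⟩
  rw [Finset.sum_congr rfl e2, ← Finset.sum_filter]
  have e3 : ∀ s ∈ Finset.Ico (lo z) (min (hi z) (max (σ z.1) k0)),
      g z * (cc s s' * pr φ ζ U s s' z z') =
      if s ∈ Finset.range (s' + 1) then g z * (cc s s' * pr φ ζ U s s' z z') else 0 := by
    intro s _
    split_ifs with h1
    · rfl
    · rw [Finset.mem_range] at h1
      rw [cc, if_neg (by omega), zero_mul, mul_zero]
  rw [Finset.sum_congr rfl e3, ← Finset.sum_filter]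
  refine Finset.sum_congr ?_ fun _ _ => rfl
  ext s
  simp only [Finset.mem_filter, Finset.mem_Ico, Finset.mem_range]
  tauto

theorem pair_triv {φ ζ : ℝ → ℝ} {U g : ℝ × ℝ → ℝ} {lo hi : ℝ × ℝ → ℕ} {B : Set (ℝ × ℝ)}
    (h0 : ∀ z ∈ B, g z = 0 ∨ hi z ≤ lo z) (a b : ℕ) (z' : ℝ × ℝ) :
    Pair φ ζ U B lo hi g a b z' = 0 := by
  unfold Pair
  refine Finset.sum_eq_zero fun s' _ => ?_
  have : ∀ z, B.indicator g z * ∑ s ∈ Finset.Ico (lo z) (hi z), cc s s' * pr φ ζ U s s' z z' = 0 := by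
    intro z
    by_cases hz : z ∈ B
    · rcases h0 z hz with h1 | h1
      · rw [Set.indicator_of_mem hz, h1, zero_mul]
      · rw [Finset.Ico_eq_empty_of_le h1, Finset.sum_empty, mul_zero]
    · rw [Set.indicator_of_notMem hz, zero_mul]
  simp_rw [this]
  simp

/-! ### the tree -/

section tree

variable {U g : ℝ × ℝ → ℝ} {S : ℕ} {lo hi : ℝ × ℝ → ℕ} {B : Set (ℝ × ℝ)} {R : Tube} {G D : ℝ}

theorem nice_ZB (hg : Measurable g) (hG : ∀ z, |g z| ≤ G) (hB : MeasurableSet B)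
    (hlo : Measurable lo) (hhi : Measurable hi)
    (hpos : ∀ z ∈ B, lo z < hi z → z.1 ∈ R.I ∧ R.k ≤ lo z ∧ near U 1 R.b R.m (lo z) z) :
    Nice ((ZB B lo hi).indicator g) := by
  have hG0 : 0 ≤ G := (abs_nonneg _).trans (hG 0)
  refine ⟨hg.indicator (measurableSet_ZB hB hlo hhi), ⟨G, fun z => ?_⟩,
    ⟨(|(R.j : ℝ)| + 1) * R.len + (1 + |R.b| + |R.m| * ((|(R.j : ℝ)| + 1) * R.len)), fun z hz => ?_⟩⟩
  · by_cases h : z ∈ ZB B lo hi
    · rw [Set.indicator_of_mem h]; exact hG z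
    · rw [Set.indicator_of_notMem h, abs_zero]; exact hG0
  · apply Set.indicator_of_notMem
    rintro ⟨h1, h2⟩
    obtain ⟨h3, -, h4, -⟩ := hpos z h1 h2
    have hl := R.len_pos
    set X : ℝ := (|(R.j : ℝ)| + 1) * R.len with hX
    have hX0 : 0 ≤ X := by positivity
    have h5 : |z.1| ≤ X := by
      obtain ⟨h6, h7⟩ := h3
      have h8 := neg_abs_le (R.j : ℝ)
      have h9 := le_abs_self (R.j : ℝ)
      rw [abs_le]
      constructor <;> nlinarith
    have h6 : |z.2| ≤ 1 + |R.b| + |R.m| * X := by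
      have e : z.2 = (z.2 - (R.b + R.m * z.1)) + R.b + R.m * z.1 := by ring
      rw [e]
      calc _ ≤ |z.2 - (R.b + R.m * z.1)| + |R.b| + |R.m * z.1| := abs_add_three _ _ _
        _ ≤ 1 + |R.b| + |R.m| * X := by
          rw [abs_mul]
          gcongr
    have h7 : ‖z‖ ≤ X + (1 + |R.b| + |R.m| * X) := by
      rw [Prod.norm_def, Real.norm_eq_abs, Real.norm_eq_abs]
      have : 0 ≤ 1 + |R.b| + |R.m| * X := by positivity
      exact max_le (by linarith) (by linarith)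
    exact absurd hz (not_lt.2 h7)

theorem tree_ZB (hg : Measurable g) (hc : Chain S lo hi) (hB : MeasurableSet B)
    (hfB : volume B ≠ ⊤) (hG : ∀ z, |g z| ≤ G) (hD : 0 < D)
    (hpos : ∀ z ∈ B, lo z < hi z → z.1 ∈ R.I ∧ R.k ≤ lo z ∧ near U 1 R.b R.m (lo z) z)
    (hm : Mass3 B lo hi R.k D) :
    Tree S R.k R.j ((ZB B lo hi).indicator g) (actv B lo hi) (ZB B lo hi) G D := by
  have hG0 : 0 ≤ G := (abs_nonneg _).trans (hG 0)
  refine ⟨nice_ZB hg hG hB hc.1 hc.2.1 hpos, ?_, hD.le, measurableSet_ZB hB hc.1 hc.2.1, ?_, ?_,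
    fun s => measurableSet_actv hB hc.1 hc.2.1 s, ?_, ?_, ?_, ?_⟩
  · intro z
    by_cases h : z ∈ ZB B lo hi
    · rw [Set.indicator_of_mem h]; exact hG z
    · rw [Set.indicator_of_notMem h, abs_zero]; exact hG0
  · intro z hz
    exact Set.indicator_of_notMem hz _
  · intro z hz
    exact cel_of_mem (hpos z hz.1 hz.2).1
  · intro s hs
    rw [Set.disjoint_left]
    rintro z ⟨_, h2, _⟩ ⟨h4, h5⟩
    have := (hpos z h4 h5).2.1
    omega
  · intro s hs
    rw [Set.disjoint_left]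
    rintro z ⟨_, h2, h3⟩ _
    have := hc.2.2 z
    omega
  · rintro z hz s s' s'' h1 h2 ⟨_, h4, _⟩ ⟨h5, h6, h7⟩
    exact ⟨h5, by omega, by omega⟩
  · rintro z hz s hs ⟨s', hs', h1, h2, h3⟩
    have h4 := hm s hs (jx s z.1) ⟨z, hz.1, hz.2, by omega, rfl⟩
    have h5 : ZB B lo hi ∩ {w : ℝ × ℝ | cel s w.1 = cel s z.1} =
        {w | w ∈ B ∧ lo w < hi w ∧ jx s w.1 = jx s z.1} := by
      ext w
      constructor
      · rintro ⟨⟨a, b⟩, c⟩; exact ⟨a, b, c⟩
      · rintro ⟨a, b, c⟩; exact ⟨⟨a, b⟩, c⟩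
    have h6 : volume (ZB B lo hi ∩ {w : ℝ × ℝ | cel s w.1 = cel s z.1}) ≠ ⊤ :=
      ne_top_of_le_ne_top hfB (measure_mono fun w hw => hw.1.1)
    rw [← h5] at h4
    rw [← ENNReal.ofReal_toReal h6]
    exact ENNReal.ofReal_le_ofReal h4

theorem ltree_ZB (hU : Measurable U) (hg : Measurable g) (hc : Chain S lo hi)
    (hB : MeasurableSet B) (hfB : volume B ≠ ⊤) (hG : ∀ z, |g z| ≤ G) (hD : 0 < D)
    (hpos : ∀ z ∈ B, lo z < hi z → z.1 ∈ R.I ∧ R.k ≤ lo z ∧ near U 1 R.b R.m (lo z) z)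
    (hm : Mass3 B lo hi R.k D) :
    LTree S R.k R.j ((ZB B lo hi).indicator g) (actv B lo hi) (ZB B lo hi) G D U R.b R.m where
  toTree := tree_ZB hg hc hB hfB hG hD hpos hm
  mU := hU
  H0 := (abs_nonneg _).trans (hG 0)
  rv1 z hz _ _ := (hpos z hz.1 hz.2).2.2.1
  sl1 z hz s hs := by
    refine le_trans ?_ (hpos z hz.1 hz.2).2.2.2
    exact mul_le_mul_of_nonneg_left
      (pow_le_pow_of_le_one (by norm_num) (by norm_num) hs.2.1) (abs_nonneg _)

end tree

/-- one positive average of a tree -/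
theorem pL_one_le {S s0 : ℕ} {m0 : ℤ} {h : ℝ × ℝ → ℝ} {act : ℕ → Set (ℝ × ℝ)}
    {Z : Set (ℝ × ℝ)} {H D : ℝ} (hT : Tree S s0 m0 h act Z H D) (hH : 0 ≤ H) {σ : ℝ → ℕ}
    (hσ : Measurable σ) (s : ℕ) (x : ℝ) :
    pL (fun _ _ => 1) h (kact act σ) s x ≤ H * D := by
  have hD := hT.D0
  have h2 : (0 : ℝ) < 2 ^ s := by positivity
  unfold pL
  set A : Set (ℝ × ℝ) := {z : ℝ × ℝ | cel s z.1 = cel s x} ∩ kact act σ s with hA
  have hAm : MeasurableSet A :=
    (PairLowx500.cell_meas s _).inter (measurableSet_kact hT.mact hσ s)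
  simp only [mul_one]
  have e1 : ∫ z in A, |h z| = ∫ z in A ∩ Z, |h z| := by
    apply setIntegral_eq_of_subset_of_forall_sdiff_eq_zero hAm Set.inter_subset_left
    intro z hz
    rw [hT.off z fun h => hz.2 ⟨hz.1, h⟩, abs_zero]
  rw [e1]
  rcases Set.eq_empty_or_nonempty (A ∩ Z) with he | ⟨z, ⟨hz1, hz2, _⟩, hzZ⟩
  · rw [he]
    simp
    positivity
  · have hs0 : s0 ≤ s := by
      by_contra hcon
      exact Set.disjoint_left.1 (hT.lo s (not_le.1 hcon)) hz2 hzZ
    have h3 := hT.dens z hzZ s hs0 ⟨s, le_rfl, hz2⟩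
    have h4 : volume (A ∩ Z) ≤ ENNReal.ofReal (D * (1 / 2) ^ s) := by
      refine le_trans (measure_mono ?_) h3
      rintro w ⟨⟨hw1, _⟩, hw3⟩
      refine ⟨hw3, ?_⟩
      have hz1' : cel s z.1 = cel s x := hz1
      have hw1' : cel s w.1 = cel s x := hw1
      show cel s w.1 = cel s z.1
      rw [hw1', hz1']
    have h5 : ∫ z in A ∩ Z, |h z| ≤ H * (D * (1 / 2) ^ s) := by
      calc ∫ z in A ∩ Z, |h z| ≤ ‖∫ z in A ∩ Z, |h z|‖ := Real.le_norm_self _
        _ ≤ H * (volume (A ∩ Z)).toReal := by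
          refine norm_setIntegral_le_of_norm_le_const (lt_of_le_of_lt h4 ENNReal.ofReal_lt_top) ?_
          intro z _
          rw [Real.norm_eq_abs, abs_abs]
          exact hT.bd z
        _ ≤ H * (D * (1 / 2) ^ s) := by
          gcongr
          exact ENNReal.toReal_le_of_le_ofReal (by positivity) h4
    calc (2 : ℝ) ^ s * ∫ z in A ∩ Z, |h z| ≤ 2 ^ s * (H * (D * (1 / 2) ^ s)) := by gcongr
      _ = H * D * (2 ^ s * (1 / 2) ^ s) := by ring
      _ = H * D := by rw [← mul_pow]; norm_num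

/-! ### the pointwise bound of a kept tree -/

theorem point {ζ : ℝ → ℝ} {q N' : ℕ} (hq : 1 ≤ q) (hN' : q ≤ N') {M : ℝ} (hM1 : 1 ≤ M)
    (hz : ZM M N' ζ) {Ξ : ℝ → ℝ} (hX : XM M (N' + 2) Ξ)
    (hX0 : ∀ r, 2 < |r| → iteratedDeriv N' Ξ r = 0)
    (hev : ∀ r, iteratedDeriv N' Ξ (-r) = iteratedDeriv N' Ξ r)
    {h : ℝ × ℝ → ℝ} {act : ℕ → Set (ℝ × ℝ)} {U : ℝ × ℝ → ℝ} {b m : ℝ} {S : ℕ} {T : ℝ}
    (ld : LD h act U b m) (kb : KB ζ Ξ N' U b m h act S T) (w : ℝ × ℝ) (p p' : ℕ) (hp : p' ≤ S) :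
    |∑ t ∈ Finset.Ico p p', PS (iteratedDeriv N' Ξ) ζ U h act t w| ≤
      3 * (((1 + 2 * 20 * M + 4 * (1 + 20) * M ^ 3) +
        (M + 3 * ((4 ^ N' + N' * 2 ^ N' + 1) * M ^ 3))) * T) * 53 ^ q /
        (1 + |U w - m| * (1 / 2) ^ (p' - 1) + |rv b m w|) ^ q := by
  have hM0 : 0 ≤ M := by linarith
  have hT : 0 ≤ T := (abs_nonneg _).trans (kb.F 0 (by omega) 0 (by omega) 0 0)
  set C1 : ℝ := 1 + 2 * 20 * M + 4 * (1 + 20) * M ^ 3 with hC1
  set C2 : ℝ := M + 3 * ((4 ^ N' + N' * 2 ^ N' + 1) * M ^ 3) with hC2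
  have hC10 : 0 ≤ C1 := by positivity
  have hC20 : 0 ≤ C2 := by positivity
  have hpos : 0 < 1 + |U w - m| * (1 / 2) ^ (p' - 1) + |rv b m w| := by positivity
  have haR : ∀ t, |aR U m t w| = |U w - m| * (1 / 2) ^ t := by
    intro t
    rw [PairLowx500.aR, abs_mul, abs_of_nonneg (by positivity : (0 : ℝ) ≤ (1 / 2) ^ t)]
  set P : ℕ → ℝ := fun t => if t < S then PS (iteratedDeriv N' Ξ) ζ U h act t w else 0 with hP
  have hsum : ∀ a c, c ≤ S → ∑ t ∈ Finset.Ico a c, P t =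
      ∑ t ∈ Finset.Ico a c, PS (iteratedDeriv N' Ξ) ζ U h act t w := by
    intro a c hc
    refine Finset.sum_congr rfl fun t ht => ?_
    rw [Finset.mem_Ico] at ht
    simp only [hP]
    rw [if_pos (by omega)]
  have hcut : ∀ a c, ∑ t ∈ Finset.Ico a c, P t = ∑ t ∈ Finset.Ico a (min c S), P t := by
    intro a c
    symm
    apply Finset.sum_subset
    · intro t ht
      rw [Finset.mem_Ico] at ht ⊢
      omega
    · intro t ht ht'
      rw [Finset.mem_Ico] at ht ht'
      simp only [hP]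
      rw [if_neg (by omega)]
  have key := PLcombx575.comb P ((C1 + C2) * T) |U w - m| |rv b m w| 20 4 q hq (by positivity)
    (abs_nonneg _) (by norm_num) (by norm_num) ?_ ?_ ?_ p p'
  · rw [hsum p p' hp] at key
    rcases key with h0 | ⟨k, t, h1, h2, -, h4, h5, h6⟩
    · rw [h0, abs_zero]
      positivity
    · refine h6.trans ?_
      have hk : (1 : ℝ) ≤ 2 ^ k := one_le_pow₀ (by norm_num)
      have h8 : |U w - m| * (1 / 2) ^ (p' - 1) ≤ (20 + 4 + 2) * 2 ^ k := by
        refine le_trans ?_ h5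
        exact mul_le_mul_of_nonneg_left
          (pow_le_pow_of_le_one (by norm_num) (by norm_num) (by omega)) (abs_nonneg _)
      have h9 : 1 + |U w - m| * (1 / 2) ^ (p' - 1) + |rv b m w| ≤ 53 * 2 ^ k := by
        linarith
      rw [le_div_iff₀ (by positivity)]
      calc 3 * ((C1 + C2) * T) * (1 / 2) ^ (q * k) *
            (1 + |U w - m| * (1 / 2) ^ (p' - 1) + |rv b m w|) ^ q
          ≤ 3 * ((C1 + C2) * T) * (1 / 2) ^ (q * k) * (53 * 2 ^ k) ^ q := by gcongr
        _ = 3 * ((C1 + C2) * T) * 53 ^ q * ((1 / 2) ^ (q * k) * 2 ^ (q * k)) := by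
            rw [mul_pow, ← pow_mul, mul_comm k q]; ring
        _ = 3 * ((C1 + C2) * T) * 53 ^ q := by
            rw [← mul_pow]; norm_num
  · intro a c hac
    rw [hcut, hsum _ _ (min_le_right _ _)]
    rcases le_total a (min c S) with hle | hle
    · refine (PairLowx500.low_deep hz (by omega) hX hev ld kb (by norm_num : (0 : ℝ) ≤ 20) hle
        (min_le_right _ _) w ?_).trans ?_
      · intro t ht
        rw [Finset.mem_Ico] at ht
        rw [haR]
        exact hac t ht.1 (lt_of_lt_of_le ht.2 (min_le_left _ _))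
      · apply mul_le_mul_of_nonneg_right _ hT
        linarith
    · rw [Finset.Ico_eq_empty_of_le hle, Finset.sum_empty, abs_zero]
      positivity
  · intro t ht
    simp only [hP]
    split_ifs with hS
    · refine (PairLowx500.low_shallow hz hX hev ld kb hS w (by rw [haR]; linarith)).trans ?_
      rw [haR]
      have h1 : ((|U w - m| * (1 / 2) ^ t)⁻¹) ^ N' ≤ ((|U w - m| * (1 / 2) ^ t)⁻¹) ^ q :=
        pow_le_pow_of_le_one (by positivity) (inv_le_one_of_one_le₀ (by linarith)) hN'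
      have h2 : 0 ≤ ((|U w - m| * (1 / 2) ^ t)⁻¹) ^ q := by positivity
      calc C2 * T * ((|U w - m| * (1 / 2) ^ t)⁻¹) ^ N' ≤ C2 * T * ((|U w - m| * (1 / 2) ^ t)⁻¹) ^ q := by
            gcongr
        _ ≤ _ := by
            apply mul_le_mul_of_nonneg_right _ h2
            apply mul_le_mul_of_nonneg_right _ hT
            linarith
    · rw [abs_zero]; positivity
  · intro t ht
    simp only [hP] at ht
    split_ifs at ht with hS
    · have := (PairLowx500.low_supp hz hX0 hev ld w ht).1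
      rw [haR] at this
      exact this
    · exact absurd rfl ht

/-! ### the leaf -/

theorem treelow_of {ζ : ℝ → ℝ} (hζ : ZetC ζ) (t3 : T3 ζ) {q : ℕ} (hq : 1 ≤ q) : TREELOW ζ q := by
  obtain ⟨C3, hC3, h3⟩ := t3 (2 * (2 * q + 2) + 1)
  obtain ⟨M0, hM0, hM0'⟩ := Pair1x339.exists_bd hζ.1 (Pair1x339.zet_cs hζ) (2 * (2 * q + 2))
  set N' : ℕ := 2 * (2 * q + 2) with hN'
  set M : ℝ := max M0 1 with hM
  have hM1 : 1 ≤ M := le_max_right _ _
  have hzm : ZM M N' ζ := ⟨hζ.1, hζ.2.1, hζ.2.2, fun i hi t => (hM0' i hi t).trans (le_max_left _ _)⟩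
  set K : ℝ := 3 * ((1 + 2 * 20 * M + 4 * (1 + 20) * M ^ 3) +
        (M + 3 * ((4 ^ N' + N' * 2 ^ N' + 1) * M ^ 3))) * 53 ^ q with hK
  have hK0 : 0 ≤ K := by positivity
  refine ⟨C3 + 2 * (K * (C3 + 1)), by positivity, ?_⟩
  intro ω hω U g S lo hi B R G D Λ hU hg hch hB hfB hG hD hΛ hpos hm
  have hG0 : 0 ≤ G := (abs_nonneg _).trans (hG 0)
  have hlen := R.len_pos
  have hΛ0 : 0 < Λ := by linarith
  have hΩ : Om (2 * q + 8) ω := hω
  by_cases htriv : G = 0 ∨ S < R.k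
  · -- trivial cases
    refine ⟨fun _ => S + R.k, measurable_const, fun _ => Nat.le_add_left _ _, ?_, ?_⟩
    · have : {z | z ∈ B ∧ lo z < hi z ∧ S + R.k < hi z} = ∅ := by
        ext z
        simp only [Set.mem_ofPred_eq, Set.mem_empty_iff_false, iff_false]
        rintro ⟨_, _, h1⟩
        have := hch.2.2 z
        omega
      rw [this]
      simp only [measure_empty, ENNReal.toReal_zero]
      positivity
    · intro z' a b _ _ _
      rw [pair_triv, abs_zero]
      · positivity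
      · intro z hz
        rcases htriv with h1 | h1
        · left
          have := hG z
          rw [h1] at this
          exact abs_eq_zero.1 (le_antisymm this (abs_nonneg _))
        · right
          by_contra hcon
          rw [not_le] at hcon
          have h2 := (hpos z hz (lt_of_lt_of_le hcon (min_le_left _ _))).2.1
          have h3 := hch.2.2 z
          have h4 := lt_of_lt_of_le hcon (min_le_left _ _)
          omega
  rw [not_or] at htriv
  obtain ⟨hGne, hS⟩ := htriv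
  have hGp : 0 < G := lt_of_le_of_ne hG0 (Ne.symm hGne)
  set h : ℝ × ℝ → ℝ := (ZB B lo hi).indicator g with hh
  have hL := ltree_ZB hU hg hch hB hfB hG hD hpos hm
  set T0 : ℝ := Λ * (G * D) with hT0
  have hGD : 0 < G * D := by positivity
  obtain ⟨σ, hσ, -, hrem, hF, hA, hBb, hE⟩ := h3 (fun i => iteratedDeriv i (Xh ω))
    (pf_Xh hΩ (by omega)) S R.k R.j h (actv B lo hi) (ZB B lo hi) G D U R.b R.m (by omega) hL T0
    (by nlinarith) (by positivity)
  refine ⟨fun x => max (σ x) R.k, hσ.meas.max measurable_const, fun x => le_max_right _ _, ?_, ?_⟩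
  · have h1 : volume {z | z ∈ B ∧ lo z < hi z ∧ max (σ z.1) R.k < hi z} ≤
        ENNReal.ofReal (C3 * (1 / Λ) ^ 2 * D * R.len) := by
      refine (measure_mono ?_).trans (hrem.trans (le_of_eq ?_))
      · rintro z ⟨h1, h2, h4⟩
        have h5 := lt_of_le_of_lt (le_max_left _ _) h4
        exact ⟨⟨h1, h2⟩, hi z - 1, ⟨h1, by omega, by omega⟩, by omega⟩
      · congr 1
        have e1 : G * D / T0 = 1 / Λ := by
          rw [hT0]
          field_simp
        rw [e1]
        show _ = C3 * (1 / Λ) ^ 2 * D * (1 / 2) ^ R.k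
        ring
    refine (ENNReal.toReal_le_of_le_ofReal (by positivity) h1).trans ?_
    have : C3 ≤ C3 + 2 * (K * (C3 + 1)) := by
      have : 0 ≤ K * (C3 + 1) := by positivity
      linarith
    gcongr
  · intro z' a b _ hab hbS
    have hsm : ContDiff ℝ (⊤ : ℕ∞) (iteratedDeriv N' (Xh ω)) :=
      Pair1x339.smooth_iter (smooth_Xh hΩ) N'
    rw [pair_PS (c := 2) (Φ := iteratedDeriv N' (Xh ω)) hζ hsm
      (fun r => Xh_bd hΩ (by omega) r) hU hB hch.1 hch.2.1 hσ.meas
      (fun z hz hal => (hpos z hz hal).2.1) hL.nice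
      (fun s s' z z' => pr_pp hζ hΩ ⟨q + 1, by ring⟩ U s s' z z')]
    have ld : LD h (kact (actv B lo hi) σ) U R.b R.m := by
      refine ⟨hL.nice, hU, fun s => measurableSet_kact hL.mact hσ.meas s, ?_, ?_⟩
      · intro s z hz hne
        have hzZ : z ∈ ZB B lo hi := by
          by_contra hcon
          exact hne (Set.indicator_of_notMem hcon _)
        exact hL.rv1 z hzZ s hz.1
      · intro s z hz hne
        have hzZ : z ∈ ZB B lo hi := by
          by_contra hcon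
          exact hne (Set.indicator_of_notMem hcon _)
        exact hL.sl1 z hzZ s hz.1
    have hT1 : C3 * T0 ≤ (C3 + 1) * T0 := by
      have : 0 < T0 := by positivity
      nlinarith
    have kb : KB ζ (Xh ω) N' U R.b R.m h (kact (actv B lo hi) σ) S ((C3 + 1) * T0) := by
      refine ⟨fun i hi s hs v x => (hF i hi s hs v x).trans hT1,
        fun p p' hpp hp' v x => (hBb N' (by omega) p p' hpp hp' v x).trans hT1,
        fun x => (hE x).trans hT1, fun s x => ?_⟩
      refine (pL_one_le hL.toTree hG0 hσ.meas s x).trans ?_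
      have h1 : G * D ≤ T0 := by nlinarith
      have h2 : 0 ≤ C3 * T0 := by positivity
      linarith
    have hX : XM M (N' + 2) (Xh ω) :=
      ⟨smooth_Xh hΩ, fun i hi t => (Xh_bd hΩ (by omega) t).trans hM1⟩
    have hpt := point hq (by omega) hM1 hzm hX (fun r hr => Xh_zero hΩ N' hr)
      (fun r => Xh_even hΩ (2 * q + 2) r) ld kb z' a b hbS
    rw [abs_mul, abs_of_pos (by norm_num : (0 : ℝ) < 2)]
    have hden : 0 < (1 + |U z' - R.m| * (1 / 2) ^ (b - 1) + |rv R.b R.m z'|) ^ q := by positivity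
    have e2 : |z'.2 - R.line z'.1| = |rv R.b R.m z'| := rfl
    rw [e2]
    calc 2 * |∑ s' ∈ Finset.Ico a b, PS (iteratedDeriv N' (Xh ω)) ζ U h
          (kact (actv B lo hi) σ) s' z'|
        ≤ 2 * (3 * (((1 + 2 * 20 * M + 4 * (1 + 20) * M ^ 3) +
        (M + 3 * ((4 ^ N' + N' * 2 ^ N' + 1) * M ^ 3))) * ((C3 + 1) * T0)) * 53 ^ q /
        (1 + |U z' - R.m| * (1 / 2) ^ (b - 1) + |rv R.b R.m z'|) ^ q) := by
          gcongr
      _ = 2 * (K * (C3 + 1)) * G * (Λ * D) /
          (1 + |U z' - R.m| * (1 / 2) ^ (b - 1) + |rv R.b R.m z'|) ^ q := by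
          rw [hK, hT0]
          ring
      _ ≤ _ := by
          gcongr
          linarith

theorem l_treelow (t3 : ∀ ζ, ZetC ζ → T3 ζ) : L_TREELOW :=
  fun ζ hζ => treelow_of hζ (t3 ζ hζ) (by unfold qq; norm_num)

end Crest.Agent.R087.TreeLowx233
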