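import Crest.Agent.R087.Fin_542
import Crest.Agent.R087.GateD_273
import Crest.Agent.R087.SqL_282
import Crest.Agent.R087.Cls_70
import Crest.Agent.R087.Tops_565
import Crest.Agent.R087.MassLeaf_546
import Crest.Agent.R087.OmegaC_627
import Crest.Agent.R087.HNorm_627
import Crest.Agent.R087.RemSum_435
import Crest.Agent.R087.T3_153
import Crest.Agent.R087.TreeLow_233
import Crest.Agent.R087.Lown_772
import Crest.Agent.R087.TopFin_52
import Crest.Agent.R087.ClassN_233
import Crest.Agent.R087.OPcls_799

/-!
Row 87 (S0115), final wiring (helper264): all leaves of the operator part and the gating reduction.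
-/

set_option autoImplicit false

namespace Crest.Agent.R087.Finx264

open Crest.Agent.R087.Sh0x283 Crest.Agent.R087.Sh1x283 Crest.Agent.R087.GateDefx273
open Crest.Agent.R087.S11x168 Crest.Agent.R087.E2Kx752 Crest.Agent.R087.OP0x270
open Crest.Agent.R087.Endx542 Crest.Agent.R087.Finx542

theorem l_gate : L_GATE := by
  obtain ⟨ζ, hζ, hc⟩ := GateBx273.exists_zet
  exact ⟨ζ, hζ, fun η hη hG => GateDx273.gate hζ (by rw [hc]; norm_num) (by norm_num [qq]) hG hη⟩

theorem l_treelow : L_TREELOW := TreeLowx233.l_treelow fun _ hζ => T3x153.t3 hζ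

theorem tgt : TGT :=
  fin_op l_gate SqLx282.l_sq Clsx70.cls Topsx565.tops MassLeafx546.mass3 MassLeafx546.massom
    OmegaCx627.omega HNormx627.hnorm RemSumx435.remsum l_treelow Lownx772.low TopFinx52.l_topn
    ClassNx233.l_classn OPclsx799.l_boot

end Crest.Agent.R087.Finx264
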