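import Crest.Agent.R087.End_542
import Crest.Agent.R087.OP0_270

/-!
Row 87 (S0115), final wiring (helper542): the global leaves of `OP0_270` and the gating
reduction for one wavelet `ζ` give the statement.
-/

set_option autoImplicit false

namespace Crest.Agent.R087.Finx542

open Crest.Agent.R087.Sh0x283 Crest.Agent.R087.Sh1x283 Crest.Agent.R087.GateDefx273
open Crest.Agent.R087.S11x168 Crest.Agent.R087.E2Kx752 Crest.Agent.R087.OP0x270
open Crest.Agent.R087.Endx542

/-- the gating reduction for one wavelet -/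
def L_GATE : Prop := ∃ ζ : ℝ → ℝ, ZetC ζ ∧ GATE ζ (2 * qq + 2) (2 * qq + 8)

theorem fin_op (ga : L_GATE) (sq : L_SQ) (cls : CLS) (tops : TOPS) (m3 : MASS3)
    (mo : MASSOM) (om : L_OMEGA) (hn : L_HNORM) (rs : REMSUM) (tl : L_TREELOW) (lw : L_LOWN)
    (tp : L_TOPN) (cl : L_CLASSN) (bo : L_BOOT) : TGT := by
  obtain ⟨ζ, hζ, hg⟩ := ga
  exact fin (by omega) hg
    (fun e2k => operator_part e2k sq cls tops m3 mo om hn rs tl lw tp cl bo ζ hζ)

end Crest.Agent.R087.Finx542
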