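import Crest.Agent.R087.Sh1_283

/-!
Row 87, OUTER SHELL, leaf S11 (helper168): from `MOD` (smooth scale profiles, field of class `C^1`)
to `MODL` (kernel `kerE`, field only Lipschitz).
-/

set_option autoImplicit false

noncomputable section

open MeasureTheory Filter Topology Crest.Agent.R087.Sh0x283 Crest.Agent.R087.Sh1x283

namespace Crest.Agent.R087.S11x168

/-- the scale profile attached to the cutoff `η`. -/
def psE (η : ℝ → ℝ) (t : ℝ) : ℝ := (η t - η (2 * t)) / t

theorem psE_zero_small {η : ℝ → ℝ} (h : EtaC η) {t : ℝ} (ht : |t| < 1 / 4) : psE η t = 0 := by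
  obtain ⟨hs, hev, h0, h1, hin, hout⟩ := h
  have h2 : |2 * t| ≤ 1 / 2 := by
    rw [abs_mul, abs_of_pos (by norm_num : (0 : ℝ) < 2)]; linarith
  unfold psE
  rw [hin t (by linarith), hin (2 * t) h2]
  simp

theorem psE_zero_large {η : ℝ → ℝ} (h : EtaC η) {t : ℝ} (ht : 1 < |t|) : psE η t = 0 := by
  obtain ⟨hs, hev, h0, h1, hin, hout⟩ := h
  have h2 : 1 ≤ |2 * t| := by
    rw [abs_mul, abs_of_pos (by norm_num : (0 : ℝ) < 2)]; linarith
  unfold psE
  rw [hout t ht.le, hout (2 * t) h2]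
  simp

theorem psE_PsiC {η : ℝ → ℝ} (h : EtaC η) : PsiC (psE η) := by
  have h' := h
  obtain ⟨hs, hev, h0, h1, hin, hout⟩ := h
  refine ⟨?_, ?_, ?_⟩
  · rw [contDiff_iff_contDiffAt]
    intro t
    by_cases ht : |t| < 1 / 4
    · have ho : IsOpen {t : ℝ | |t| < 1 / 4} := isOpen_lt continuous_abs continuous_const
      have : (psE η) =ᶠ[nhds t] fun _ => (0 : ℝ) := by
        filter_upwards [ho.mem_nhds ht] with s hs'
        exact psE_zero_small h' hs'
      exact (contDiffAt_const).congr_of_eventuallyEq this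
    · have ht0 : t ≠ 0 := by
        rintro rfl
        apply ht
        rw [abs_zero]; norm_num
      have e1 : ContDiffAt ℝ (⊤ : ℕ∞) (fun t : ℝ => η t - η (2 * t)) t :=
        (hs.contDiffAt).sub ((hs.comp (contDiff_const.mul contDiff_id)).contDiffAt)
      exact e1.div contDiffAt_id ht0
  · intro t
    unfold psE
    rw [hev t, show 2 * -t = -(2 * t) by ring, hev (2 * t), div_neg]
  · intro t ht
    constructor
    · by_contra hlt
      push Not at hlt
      exact ht (psE_zero_small h' hlt)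
    · by_contra hlt
      push Not at hlt
      exact ht (psE_zero_large h' hlt)

theorem kerS_psE (η : ℝ → ℝ) (S : ℕ) (t : ℝ) :
    kerS (psE η) S t = (η t - η (2 ^ S * t)) / t := by
  induction S with
  | zero => simp [kerS]
  | succ n ih =>
    have e : kerS (psE η) (n + 1) t = kerS (psE η) n t + (2 : ℝ) ^ n * psE η ((2 : ℝ) ^ n * t) := by
      unfold kerS; rw [Finset.sum_range_succ]
    rw [e, ih]
    by_cases ht : t = 0
    · subst ht; simp [psE]
    · have h2 : (2 : ℝ) ^ n ≠ 0 := by positivity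
      unfold psE
      rw [show 2 * ((2 : ℝ) ^ n * t) = 2 ^ (n + 1) * t by ring]
      field_simp
      ring

theorem kerS_continuous {ψ : ℝ → ℝ} (h : PsiC ψ) (S : ℕ) : Continuous (kerS ψ S) := by
  unfold kerS
  refine continuous_finsetSum _ (fun s _ => ?_)
  exact continuous_const.mul (h.1.continuous.comp (continuous_const.mul continuous_id))

theorem kerS_zero {ψ : ℝ → ℝ} (h : PsiC ψ) (S : ℕ) {t : ℝ} (ht : 1 < |t|) : kerS ψ S t = 0 := by
  unfold kerS
  refine Finset.sum_eq_zero (fun s _ => ?_)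
  by_contra hne
  have h1 : ψ ((2 : ℝ) ^ s * t) ≠ 0 := fun h0 => hne (by rw [h0, mul_zero])
  have h2 := (h.2.2 _ h1).2
  rw [abs_mul, abs_of_pos (by positivity : (0 : ℝ) < 2 ^ s)] at h2
  have h3 : (1 : ℝ) ≤ 2 ^ s := one_le_pow₀ (by norm_num)
  nlinarith [abs_nonneg t]

theorem kerE_eq (η : ℝ → ℝ) {lam : ℝ} (hl : 0 < lam) (S : ℕ) (t : ℝ) :
    kerE η lam S t = lam⁻¹ * kerS (psE η) S (t / lam) := by
  rw [kerS_psE]
  unfold kerE
  by_cases ht : t = 0
  · subst ht; simp
  · rw [show 2 ^ S * t / lam = 2 ^ S * (t / lam) by ring]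
    field_simp

theorem kerE_continuous {η : ℝ → ℝ} (h : EtaC η) {lam : ℝ} (hl : 0 < lam) (S : ℕ) :
    Continuous (kerE η lam S) := by
  have : kerE η lam S = fun t => lam⁻¹ * kerS (psE η) S (t / lam) := by
    funext t; exact kerE_eq η hl S t
  rw [this]
  exact continuous_const.mul ((kerS_continuous (psE_PsiC h) S).comp (continuous_id.div_const lam))

theorem kerE_zero {η : ℝ → ℝ} (h : EtaC η) {lam : ℝ} (hl : 0 < lam) (S : ℕ) {t : ℝ}
    (ht : lam < |t|) : kerE η lam S t = 0 := by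
  rw [kerE_eq η hl S t, kerS_zero (psE_PsiC h) S, mul_zero]
  rw [abs_div, abs_of_pos hl, lt_div_iff₀ hl]
  linarith

theorem tk_scale (η : ℝ → ℝ) {lam : ℝ} (hl : 0 < lam) (S : ℕ) (U f : ℝ × ℝ → ℝ) (z : ℝ × ℝ) :
    tk (kerE η lam S) U f (lam • z) =
      tk (kerS (psE η) S) (fun w => U (lam • w)) (fun w => f (lam • w)) z := by
  unfold tk
  have h := MeasureTheory.Measure.integral_comp_mul_left
    (fun t => kerE η lam S t * f ((lam • z).1 - t, (lam • z).2 - t * U (lam • z))) lam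
  have hl' : |lam⁻¹| = lam⁻¹ := abs_of_pos (inv_pos.mpr hl)
  rw [hl', smul_eq_mul] at h
  have h2 : (∫ t, kerE η lam S t * f ((lam • z).1 - t, (lam • z).2 - t * U (lam • z))) =
      lam * ∫ t, kerE η lam S (lam * t) *
        f ((lam • z).1 - lam * t, (lam • z).2 - lam * t * U (lam • z)) := by
    rw [h, ← mul_assoc, mul_inv_cancel₀ hl.ne', one_mul]
  rw [h2, ← integral_const_mul]
  refine integral_congr_ae (Eventually.of_forall (fun t => ?_))
  simp only
  rw [kerE_eq η hl S (lam * t), mul_div_cancel_left₀ t hl.ne']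
  have e1 : ((lam • z).1 - lam * t, (lam • z).2 - lam * t * U (lam • z)) =
      lam • (z.1 - t, z.2 - t * U (lam • z)) := by
    ext
    · simp [mul_sub]
    · simp only [Prod.smul_snd, Prod.smul_mk, smul_eq_mul]; ring
  rw [e1]
  field_simp

theorem integral_smul_sq (F : ℝ × ℝ → ℝ) {lam : ℝ} (hl : 0 < lam) :
    ∫ z : ℝ × ℝ, F (lam • z) = (lam ^ 2)⁻¹ * ∫ z, F z := by
  have h := MeasureTheory.Measure.integral_comp_smul (volume : Measure (ℝ × ℝ)) F lam
  rw [h]
  have h2 : Module.finrank ℝ (ℝ × ℝ) = 2 := by simp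
  rw [h2, abs_of_pos (by positivity), smul_eq_mul]

theorem nice_scale {f : ℝ × ℝ → ℝ} (hf : Nice f) {lam : ℝ} (hl : 0 < lam) :
    Nice (fun w => f (lam • w)) := by
  obtain ⟨h1, ⟨M, hM⟩, ⟨R, hR⟩⟩ := hf
  refine ⟨h1.comp (measurable_const_smul lam), ⟨M, fun z => hM _⟩, ⟨R / lam, fun z hz => ?_⟩⟩
  apply hR
  rw [norm_smul, Real.norm_of_nonneg hl.le]
  rw [div_lt_iff₀ hl] at hz
  linarith

theorem fld_scale {U : ℝ × ℝ → ℝ} {c : ℝ} (hU : Fld c U) {lam : ℝ} (hl : 0 < lam) :
    Fld (c * lam) (fun w => U (lam • w)) := by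
  obtain ⟨h1, ⟨W, hW⟩, h3⟩ := hU
  refine ⟨h1.comp (measurable_const_smul lam), ⟨W, fun z => hW _⟩, fun x y y' => ?_⟩
  have := h3 (lam * x) (lam * y) (lam * y')
  simp only [Prod.smul_mk, smul_eq_mul]
  calc |U (lam * x, lam * y) - U (lam * x, lam * y')| ≤ c * |lam * y - lam * y'| := this
    _ = c * lam * |y - y'| := by
      rw [← mul_sub, abs_mul, abs_of_pos hl]; ring

theorem fld_mono {U : ℝ × ℝ → ℝ} {c c' : ℝ} (hU : Fld c U) (h : c ≤ c') : Fld c' U := by
  obtain ⟨h1, h2, h3⟩ := hU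
  exact ⟨h1, h2, fun x y y' => (h3 x y y').trans (mul_le_mul_of_nonneg_right h (abs_nonneg _))⟩

/-- the `C^1` case, after scaling. -/
theorem c1_case {η : ℝ → ℝ} {c C : ℝ} (hC : ∀ U f : ℝ × ℝ → ℝ, Fld c U →
    (∀ x, ContDiff ℝ 1 (fun y => U (x, y))) → Nice f → ∀ S : ℕ,
    ∫ z, (tk (kerS (psE η) S) U f z) ^ 2 ≤ C * ∫ z, (f z) ^ 2)
    {lam : ℝ} (hl : 0 < lam) (hlc : 3 * lam ≤ c) (U f : ℝ × ℝ → ℝ) (hU : Fld 3 U)
    (hU1 : ∀ x, ContDiff ℝ 1 (fun y => U (x, y))) (hf : Nice f) (S : ℕ) :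
    ∫ z, (tk (kerE η lam S) U f z) ^ 2 ≤ C * ∫ z, (f z) ^ 2 := by
  have h := hC (fun w => U (lam • w)) (fun w => f (lam • w)) (fld_mono (fld_scale hU hl) hlc) ?_
    (nice_scale hf hl) S
  · have e1 := integral_smul_sq (fun z => (tk (kerE η lam S) U f z) ^ 2) hl
    have e2 := integral_smul_sq (fun z => (f z) ^ 2) hl
    rw [e2] at h
    have e3 : (∫ z, (tk (kerE η lam S) U f (lam • z)) ^ 2) =
        ∫ z, (tk (kerS (psE η) S) (fun w => U (lam • w)) (fun w => f (lam • w)) z) ^ 2 := by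
      refine integral_congr_ae (Eventually.of_forall (fun z => ?_))
      simp only
      rw [tk_scale η hl S U f z]
    rw [← e3, e1] at h
    have hp : 0 < (lam ^ 2)⁻¹ := by positivity
    have h' : (lam ^ 2)⁻¹ * ∫ z, (tk (kerE η lam S) U f z) ^ 2 ≤
        (lam ^ 2)⁻¹ * (C * ∫ z, (f z) ^ 2) := by
      calc _ ≤ C * ((lam ^ 2)⁻¹ * ∫ z, (f z) ^ 2) := h
        _ = _ := by ring
    exact le_of_mul_le_mul_left h' hp
  · intro x
    have := hU1 (lam * x)
    have e : (fun y => U (lam • (x, y))) = (fun y => U (lam * x, y)) ∘ (fun y => lam * y) := by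
      funext y; simp
    rw [e]
    exact this.comp (contDiff_const.mul contDiff_id)

/-! ### mollification in `y` -/

theorem fld_continuous {U : ℝ × ℝ → ℝ} {c : ℝ} (hU : Fld c U) (x : ℝ) :
    Continuous (fun y => U (x, y)) := by
  have : LipschitzWith (Real.toNNReal |c|) (fun y => U (x, y)) := by
    refine LipschitzWith.of_dist_le_mul (fun y y' => ?_)
    rw [Real.dist_eq, Real.dist_eq, Real.coe_toNNReal _ (abs_nonneg c)]
    exact (hU.2.2 x y y').trans (mul_le_mul_of_nonneg_right (le_abs_self c) (abs_nonneg _))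
  exact this.continuous

/-- average of `U` over `[y, y + 1/(n+1)]`. -/
def mol (n : ℕ) (U : ℝ × ℝ → ℝ) (z : ℝ × ℝ) : ℝ :=
  ∫ s in (0 : ℝ)..1, U (z.1, z.2 + s / ((n : ℝ) + 1))

theorem mol_measurable (n : ℕ) {U : ℝ × ℝ → ℝ} (hU : Measurable U) : Measurable (mol n U) := by
  have h1 : StronglyMeasurable (fun p : (ℝ × ℝ) × ℝ => U (p.1.1, p.1.2 + p.2 / ((n : ℝ) + 1))) := by
    apply Measurable.stronglyMeasurable
    apply hU.comp
    fun_prop
  have h2 : StronglyMeasurable (fun z : ℝ × ℝ =>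
      ∫ s, U (z.1, z.2 + s / ((n : ℝ) + 1)) ∂(volume.restrict (Set.Ioc (0 : ℝ) 1))) :=
    h1.integral_prod_right'
  have e : mol n U = fun z : ℝ × ℝ =>
      ∫ s, U (z.1, z.2 + s / ((n : ℝ) + 1)) ∂(volume.restrict (Set.Ioc (0 : ℝ) 1)) := by
    funext z
    unfold mol
    rw [intervalIntegral.integral_of_le zero_le_one]
  rw [e]
  exact h2.measurable

theorem mol_bound (n : ℕ) {U : ℝ × ℝ → ℝ} {W : ℝ} (hW : ∀ z, |U z| ≤ W) (z : ℝ × ℝ) :
    |mol n U z| ≤ W := by
  have := intervalIntegral.norm_integral_le_of_norm_le_const (a := (0 : ℝ)) (b := 1) (C := W)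
    (f := fun s => U (z.1, z.2 + s / ((n : ℝ) + 1))) (fun s _ => by
      rw [Real.norm_eq_abs]; exact hW _)
  simpa [mol] using this

theorem mol_intervalIntegrable (n : ℕ) {U : ℝ × ℝ → ℝ} {c : ℝ} (hU : Fld c U) (x y : ℝ) :
    IntervalIntegrable (fun s => U (x, y + s / ((n : ℝ) + 1))) volume 0 1 := by
  apply Continuous.intervalIntegrable
  exact (fld_continuous hU x).comp (by fun_prop)

theorem mol_lip (n : ℕ) {U : ℝ × ℝ → ℝ} {c : ℝ} (hU : Fld c U) (x y y' : ℝ) :
    |mol n U (x, y) - mol n U (x, y')| ≤ c * |y - y'| := by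
  unfold mol
  simp only
  rw [← intervalIntegral.integral_sub (mol_intervalIntegrable n hU x y)
    (mol_intervalIntegrable n hU x y')]
  have := intervalIntegral.norm_integral_le_of_norm_le_const (a := (0 : ℝ)) (b := 1)
    (C := c * |y - y'|)
    (f := fun s => U (x, y + s / ((n : ℝ) + 1)) - U (x, y' + s / ((n : ℝ) + 1))) (fun s _ => by
      rw [Real.norm_eq_abs]
      have := hU.2.2 x (y + s / ((n : ℝ) + 1)) (y' + s / ((n : ℝ) + 1))
      rwa [show y + s / ((n : ℝ) + 1) - (y' + s / ((n : ℝ) + 1)) = y - y' by ring] at this)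
  simpa using this

theorem mol_close (n : ℕ) {U : ℝ × ℝ → ℝ} {c : ℝ} (hc : 0 ≤ c) (hU : Fld c U) (z : ℝ × ℝ) :
    |mol n U z - U z| ≤ c / ((n : ℝ) + 1) := by
  obtain ⟨x, y⟩ := z
  have hn : (0 : ℝ) < (n : ℝ) + 1 := by positivity
  have e : U (x, y) = ∫ _s in (0 : ℝ)..1, U (x, y) := by simp
  unfold mol
  simp only
  rw [e, ← intervalIntegral.integral_sub (mol_intervalIntegrable n hU x y) (by simp)]
  have := intervalIntegral.norm_integral_le_of_norm_le_const (a := (0 : ℝ)) (b := 1)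
    (C := c / ((n : ℝ) + 1))
    (f := fun s => U (x, y + s / ((n : ℝ) + 1)) - U (x, y)) (fun s hs => by
      rw [Real.norm_eq_abs]
      rw [Set.uIoc_of_le zero_le_one] at hs
      have h1 := hU.2.2 x (y + s / ((n : ℝ) + 1)) y
      rw [show y + s / ((n : ℝ) + 1) - y = s / ((n : ℝ) + 1) by ring,
        abs_of_pos (div_pos hs.1 hn)] at h1
      refine h1.trans ?_
      rw [div_eq_mul_inv c]
      refine mul_le_mul_of_nonneg_left ?_ hc
      rw [div_eq_mul_inv]
      have : (0 : ℝ) ≤ ((n : ℝ) + 1)⁻¹ := by positivity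
      nlinarith [hs.2])
  simpa using this

theorem mol_contDiff (n : ℕ) {U : ℝ × ℝ → ℝ} {c : ℝ} (hU : Fld c U) (x : ℝ) :
    ContDiff ℝ 1 (fun y => mol n U (x, y)) := by
  have hn : ((n : ℝ) + 1) ≠ 0 := by positivity
  have hcont := fld_continuous hU x
  set G : ℝ → ℝ := fun y => ∫ s in (0 : ℝ)..y, U (x, s) with hG
  have hGd : ∀ y, HasDerivAt G (U (x, y)) y := fun y =>
    intervalIntegral.integral_hasDerivAt_right (hcont.intervalIntegrable _ _)
      (hcont.stronglyMeasurableAtFilter _ _) hcont.continuousAt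
  have hG1 : ContDiff ℝ 1 G := by
    rw [contDiff_one_iff_deriv]
    refine ⟨fun y => (hGd y).differentiableAt, ?_⟩
    have : deriv G = fun y => U (x, y) := funext fun y => (hGd y).deriv
    rw [this]; exact hcont
  have e : (fun y => mol n U (x, y)) =
      fun y => ((n : ℝ) + 1) * (G (y + 1 / ((n : ℝ) + 1)) - G y) := by
    funext y
    unfold mol
    simp only
    have h1 := intervalIntegral.integral_comp_add_div (a := (0 : ℝ)) (b := 1)
      (fun s => U (x, s)) hn y
    rw [h1, smul_eq_mul]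
    congr 1
    rw [hG]
    simp only
    rw [intervalIntegral.integral_interval_sub_left (hcont.intervalIntegrable _ _)
      (hcont.intervalIntegrable _ _)]
    simp
  rw [e]
  exact contDiff_const.mul ((hG1.comp (contDiff_id.add contDiff_const)).sub hG1)

theorem mol_fld (n : ℕ) {U : ℝ × ℝ → ℝ} {c : ℝ} (hU : Fld c U) : Fld c (mol n U) := by
  obtain ⟨W, hW⟩ := hU.2.1
  exact ⟨mol_measurable n hU.1, ⟨W, mol_bound n hW⟩, fun x y y' => mol_lip n hU x y y'⟩

/-! ### `tk` for continuous compactly supported kernels -/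

theorem tk_measurable {K : ℝ → ℝ} (hK : Measurable K) {U f : ℝ × ℝ → ℝ} (hU : Measurable U)
    (hf : Measurable f) : Measurable (tk K U f) := by
  have h1 : StronglyMeasurable (fun p : (ℝ × ℝ) × ℝ =>
      K p.2 * f (p.1.1 - p.2, p.1.2 - p.2 * U p.1)) := by
    apply Measurable.stronglyMeasurable
    apply Measurable.mul (hK.comp measurable_snd)
    apply hf.comp
    apply Measurable.prodMk
    · fun_prop
    · exact (measurable_snd.comp measurable_fst).sub (measurable_snd.mul (hU.comp measurable_fst))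
  exact (h1.integral_prod_right').measurable

theorem tk_bound {K : ℝ → ℝ} (hK : Integrable K) {U f : ℝ × ℝ → ℝ} {M : ℝ} (hM : ∀ z, |f z| ≤ M)
    (z : ℝ × ℝ) : |tk K U f z| ≤ (∫ t, |K t|) * M := by
  unfold tk
  calc |∫ t, K t * f (z.1 - t, z.2 - t * U z)| ≤ ∫ t, |K t * f (z.1 - t, z.2 - t * U z)| :=
        abs_integral_le_integral_abs
    _ ≤ ∫ t, |K t| * M := by
        refine integral_mono_of_nonneg (Eventually.of_forall fun t => abs_nonneg _)
          (hK.abs.mul_const M) (Eventually.of_forall fun t => ?_)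
        simp only
        rw [abs_mul]
        exact mul_le_mul_of_nonneg_left (hM _) (abs_nonneg _)
    _ = (∫ t, |K t|) * M := integral_mul_const M _

theorem tk_supp {K : ℝ → ℝ} {lam : ℝ} (hK0 : ∀ t, lam < |t| → K t = 0) (hlam : 0 ≤ lam)
    {U f : ℝ × ℝ → ℝ}
    {W R : ℝ} (hW : ∀ z, |U z| ≤ W) (hR : ∀ z, R < ‖z‖ → f z = 0) (z : ℝ × ℝ)
    (hz : R + lam * (1 + W) < ‖z‖) : tk K U f z = 0 := by
  unfold tk
  have hW0 : 0 ≤ W := (abs_nonneg _).trans (hW z)
  have : (fun t => K t * f (z.1 - t, z.2 - t * U z)) = fun _ => 0 := by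
    funext t
    by_cases ht : lam < |t|
    · rw [hK0 t ht, zero_mul]
    · push Not at ht
      rw [hR, mul_zero]
      have h1 : ‖z‖ ≤ ‖(z.1 - t, z.2 - t * U z)‖ + ‖(t, t * U z)‖ := by
        have : z = (z.1 - t, z.2 - t * U z) + (t, t * U z) := by
          ext <;> simp
        calc ‖z‖ = ‖(z.1 - t, z.2 - t * U z) + (t, t * U z)‖ := by rw [← this]
          _ ≤ _ := norm_add_le _ _
      have h2 : ‖(t, t * U z)‖ ≤ lam * (1 + W) := by
        rw [Prod.norm_mk]
        apply max_le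
        · rw [Real.norm_eq_abs]; nlinarith
        · rw [Real.norm_eq_abs, abs_mul]
          have := hW z
          calc |t| * |U z| ≤ lam * W := mul_le_mul ht this (abs_nonneg _) hlam
            _ ≤ lam * (1 + W) := by nlinarith
      linarith
  rw [this]; simp

theorem tk_tendsto {K : ℝ → ℝ} (hK : Integrable K) {f : ℝ × ℝ → ℝ} (hfc : Continuous f) {M : ℝ}
    (hM : ∀ z, |f z| ≤ M) {U : ℝ × ℝ → ℝ} {V : ℕ → ℝ × ℝ → ℝ} (z : ℝ × ℝ)
    (hV : Tendsto (fun n => V n z) atTop (nhds (U z))) :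
    Tendsto (fun n => tk K (V n) f z) atTop (nhds (tk K U f z)) := by
  unfold tk
  refine tendsto_integral_of_dominated_convergence (fun t => |K t| * M) ?_ (hK.abs.mul_const M) ?_ ?_
  · intro n
    refine hK.aestronglyMeasurable.mul ?_
    exact (hfc.comp (by fun_prop : Continuous fun t : ℝ => (z.1 - t, z.2 - t * V n z))).aestronglyMeasurable
  · intro n
    refine Eventually.of_forall (fun t => ?_)
    rw [Real.norm_eq_abs, abs_mul]
    exact mul_le_mul_of_nonneg_left (hM _) (abs_nonneg _)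
  · refine Eventually.of_forall (fun t => ?_)
    refine Tendsto.const_mul _ ?_
    refine (hfc.tendsto _).comp ?_
    exact Tendsto.prodMk_nhds tendsto_const_nhds (tendsto_const_nhds.sub (hV.const_mul t))

/-- removal of the `C^1` hypothesis. -/
theorem remove_c1 {η : ℝ → ℝ} (hη : EtaC η) {lam C : ℝ} (hl : 0 < lam)
    (h : ∀ U f : ℝ × ℝ → ℝ, Fld 3 U →
      (∀ x, ContDiff ℝ 1 (fun y => U (x, y))) → Nice f → ∀ S : ℕ,
      ∫ z, (tk (kerE η lam S) U f z) ^ 2 ≤ C * ∫ z, (f z) ^ 2)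
    (U f : ℝ × ℝ → ℝ) (hU : Fld 3 U) (hfc : Continuous f) (hf : Nice f) (S : ℕ) :
    ∫ z, (tk (kerE η lam S) U f z) ^ 2 ≤ C * ∫ z, (f z) ^ 2 := by
  set K := kerE η lam S with hKdef
  have hKc : Continuous K := kerE_continuous hη hl S
  have hK0 : ∀ t, lam < |t| → K t = 0 := fun t ht => kerE_zero hη hl S ht
  have hKs : HasCompactSupport K := by
    refine HasCompactSupport.of_support_subset_isCompact (isCompact_Icc : IsCompact (Set.Icc (-lam) lam)) ?_
    intro t ht
    rw [Set.mem_Icc, ← abs_le]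
    by_contra hlt
    push Not at hlt
    exact ht (hK0 t hlt)
  have hKi : Integrable K := hKc.integrable_of_hasCompactSupport hKs
  obtain ⟨W, hW⟩ := hU.2.1
  obtain ⟨M, hM⟩ := hf.2.1
  obtain ⟨R, hR⟩ := hf.2.2
  set B : ℝ := (∫ t, |K t|) * M with hB
  have hlim : Tendsto (fun n => ∫ z, (tk K (mol n U) f z) ^ 2) atTop
      (nhds (∫ z, (tk K U f z) ^ 2)) := by
    refine tendsto_integral_of_dominated_convergence
      (fun z => (Metric.closedBall (0 : ℝ × ℝ) (R + lam * (1 + W))).indicator (fun _ => B ^ 2) z)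
      ?_ ?_ ?_ ?_
    · intro n
      exact ((tk_measurable hKc.measurable (mol_measurable n hU.1) hf.1).pow_const 2).aestronglyMeasurable
    · rw [integrable_indicator_iff measurableSet_closedBall]
      exact integrableOn_const measure_closedBall_lt_top.ne
    · intro n
      refine Eventually.of_forall (fun z => ?_)
      rw [Real.norm_eq_abs, abs_pow]
      by_cases hz : z ∈ Metric.closedBall (0 : ℝ × ℝ) (R + lam * (1 + W))
      · rw [Set.indicator_of_mem hz]
        exact pow_le_pow_left₀ (abs_nonneg _) (tk_bound hKi hM z) 2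
      · rw [Set.indicator_of_notMem hz]
        rw [mem_closedBall_zero_iff, not_le] at hz
        rw [tk_supp hK0 hl.le (mol_bound n hW) hR z hz]
        simp
    · refine Eventually.of_forall (fun z => ?_)
      refine Tendsto.pow ?_ 2
      refine tk_tendsto hKi hfc hM z ?_
      rw [tendsto_iff_norm_sub_tendsto_zero]
      refine squeeze_zero (fun n => norm_nonneg _) (fun n => ?_)
        (g := fun n : ℕ => 3 / ((n : ℝ) + 1)) ?_
      · rw [Real.norm_eq_abs]
        exact mol_close n (by norm_num) hU z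
      · exact tendsto_const_div_atTop_nhds_zero_nat 3 |>.comp (tendsto_add_atTop_nat 1) |>.congr
          (fun n => by simp [Function.comp])
  exact le_of_tendsto' hlim (fun n => h (mol n U) f (mol_fld n hU) (fun x => mol_contDiff n hU x) hf S)

theorem s11 : S11 := by
  intro hmod η hη
  obtain ⟨c, hc, C, hC⟩ := hmod (psE η) (psE_PsiC hη)
  refine ⟨min (c / 3) (1 / 20), by positivity, ?_, max C 0, le_max_right _ _, ?_⟩
  · exact (min_le_right _ _).trans_lt (by norm_num)
  · intro U f hU hfc hf S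
    have hl : 0 < min (c / 3) (1 / 20) := by positivity
    have hlc : 3 * min (c / 3) (1 / 20) ≤ c := by
      have := min_le_left (c / 3) (1 / 20); linarith
    refine (remove_c1 hη hl (fun U f hU hU1 hf S => c1_case hC hl hlc U f hU hU1 hf S) U f hU hfc hf S).trans ?_
    exact mul_le_mul_of_nonneg_right (le_max_left _ _) (integral_nonneg fun z => sq_nonneg _)

end Crest.Agent.R087.S11x168
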