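import Crest.Agent.R087.GateA_273
import Crest.Agent.R087.S11_168
import Crest.Agent.R087.Asm1_283

/-!
Row 87 (S0115), GATING part B (helper273): one dimensional analysis of the averaged gated kernel.
-/

set_option autoImplicit false

noncomputable section

set_option linter.unusedSectionVars false

open MeasureTheory Crest.Agent.R087.Sh0x283 Crest.Agent.R087.Sh1x283
open Crest.Agent.R087.GateDefx273 Crest.Agent.R087.GateAx273 Crest.Agent.R087.S11x168

namespace Crest.Agent.R087.GateBx273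

/-- primitive of `ζ`. -/
def ZZ (ζ : ℝ → ℝ) (x : ℝ) : ℝ := ∫ t in (0 : ℝ)..x, ζ t

/-- averaged gated kernel at one scale. -/
def Q (ζ : ℝ → ℝ) (a : ℝ) : ℝ := -ZZ ζ (-a) + 2 * ZZ ζ (1 / 4 - a) - 2 * ZZ ζ (3 / 4 - a) + ZZ ζ (1 - a)

/-- primitive of `Q`. -/
def EE (ζ : ℝ → ℝ) (x : ℝ) : ℝ := ∫ t in (0 : ℝ)..x, Q ζ t

/-- the constant in front of `1/t`. -/
def c0 (ζ : ℝ → ℝ) : ℝ := EE ζ 1

section one

variable {ζ : ℝ → ℝ} (h : ZetC ζ)
include h

theorem zet_cont : Continuous ζ := h.1.continuous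

theorem zet_int (a b : ℝ) : IntervalIntegrable ζ volume a b :=
  (zet_cont h).intervalIntegrable a b

theorem ZZ_deriv (x : ℝ) : HasDerivAt (ZZ ζ) (ζ x) x := by
  unfold ZZ
  exact intervalIntegral.integral_hasDerivAt_right (zet_int h _ _)
    (zet_cont h).stronglyMeasurable.stronglyMeasurableAtFilter (zet_cont h).continuousAt

theorem ZZ_cont : Continuous (ZZ ζ) :=
  continuous_iff_continuousAt.2 fun x => (ZZ_deriv h x).continuousAt

theorem ZZ_sub (a b : ℝ) : ∫ t in a..b, ζ t = ZZ ζ b - ZZ ζ a := by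
  unfold ZZ
  rw [intervalIntegral.integral_interval_sub_left (zet_int h _ _) (zet_int h _ _)]

theorem zet_zero_left {t : ℝ} (ht : t ≤ 0) : ζ t = 0 := by
  by_contra h0
  linarith [(h.2.1 t h0).1]

theorem zet_zero_right {t : ℝ} (ht : 1 ≤ t) : ζ t = 0 := by
  by_contra h0
  linarith [(h.2.1 t h0).2]

theorem ZZ_left {x : ℝ} (hx : x ≤ 0) : ZZ ζ x = 0 := by
  unfold ZZ
  rw [intervalIntegral.integral_symm, intervalIntegral.integral_congr (g := fun _ => (0 : ℝ))]
  · simp
  · intro t ht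
    rw [Set.uIcc_of_le hx] at ht
    exact zet_zero_left h ht.2

theorem ZZ_sym (x : ℝ) : ZZ ζ (1 - x) = ZZ ζ x := by
  have h1 : ∫ t in (1 - x)..x, ζ t = 0 := by
    have h2 : ∫ t in (1 - x)..x, ζ t = ∫ t in (1 - x)..x, ζ (1 - t) := by
      rw [intervalIntegral.integral_comp_sub_left (fun t => ζ t) 1]
      simp
    have h3 : ∫ t in (1 - x)..x, ζ (1 - t) = - ∫ t in (1 - x)..x, ζ t := by
      rw [← intervalIntegral.integral_neg]
      exact intervalIntegral.integral_congr fun t _ => h.2.2 t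
    linarith
  rw [ZZ_sub h] at h1
  linarith

theorem ZZ_right {x : ℝ} (hx : 1 ≤ x) : ZZ ζ x = 0 := by
  rw [← ZZ_sym h x]
  exact ZZ_left h (by linarith)

theorem Q_cont : Continuous (Q ζ) := by
  unfold Q
  have := ZZ_cont h
  fun_prop

theorem Q_odd (a : ℝ) : Q ζ (-a) = -Q ζ a := by
  unfold Q
  have e1 := ZZ_sym h (-a)
  have e2 := ZZ_sym h (1 / 4 - a)
  have e3 := ZZ_sym h (3 / 4 - a)
  have e4 := ZZ_sym h (1 - a)
  rw [show (1 : ℝ) - -a = 1 + a by ring] at e1
  rw [show (1 : ℝ) - (1 / 4 - a) = 3 / 4 + a by ring] at e2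
  rw [show (1 : ℝ) - (3 / 4 - a) = 1 / 4 + a by ring] at e3
  rw [show (1 : ℝ) - (1 - a) = a by ring] at e4
  rw [neg_neg, show (1 : ℝ) / 4 - -a = 1 / 4 + a by ring, show (3 : ℝ) / 4 - -a = 3 / 4 + a by ring,
    show (1 : ℝ) - -a = 1 + a by ring, e1, e2, e3, e4]
  ring

theorem Q_zero {a : ℝ} (ha : 1 ≤ |a|) : Q ζ a = 0 := by
  unfold Q
  rcases le_abs'.1 ha with h1 | h1
  · rw [ZZ_right h (by linarith : (1 : ℝ) ≤ -a), ZZ_right h (by linarith : (1 : ℝ) ≤ 1 / 4 - a),
      ZZ_right h (by linarith : (1 : ℝ) ≤ 3 / 4 - a), ZZ_right h (by linarith : (1 : ℝ) ≤ 1 - a)]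
    ring
  · rw [ZZ_left h (by linarith : -a ≤ 0), ZZ_left h (by linarith : 1 / 4 - a ≤ 0),
      ZZ_left h (by linarith : 3 / 4 - a ≤ 0), ZZ_left h (by linarith : 1 - a ≤ 0)]
    ring

theorem Q_bd : ∃ M : ℝ, 0 ≤ M ∧ ∀ a, |Q ζ a| ≤ M := by
  have hc : HasCompactSupport (Q ζ) := by
    refine HasCompactSupport.intro (isCompact_Icc (a := (-1 : ℝ)) (b := 1)) ?_
    intro t ht
    apply Q_zero h
    rw [Set.mem_Icc, ← abs_le, not_le] at ht
    exact ht.le
  obtain ⟨C, hC⟩ := (Q_cont h).bounded_above_of_compact_support hc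
  exact ⟨max C 0, le_max_right _ _, fun t => (hC t).trans (le_max_left _ _)⟩

/-- the average over the gate. -/
theorem gate_avg (a : ℝ) : ∫ v in (0 : ℝ)..1, gt v * ζ (v - a) = Q ζ a := by
  have hc : Continuous fun v => ζ (v - a) := (zet_cont h).comp (continuous_id.sub continuous_const)
  have hgi : ∀ p q : ℝ, IntervalIntegrable (fun v => gt v * ζ (v - a)) volume p q := by
    intro p q
    have hi : Integrable fun v => ζ (v - a) :=
      ((zet_cont h).integrable_of_hasCompactSupport (zet_cs h)).comp_sub_right a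
    have hj : Integrable fun v => gt v * ζ (v - a) := by
      refine hi.bdd_mul (c := 1) gt_meas.aestronglyMeasurable ?_
      exact Filter.Eventually.of_forall fun v => gt_abs v
    exact hj.intervalIntegrable
  have piece : ∀ (p q e : ℝ), p ≤ q → (∀ v, p < v → v < q → gt v = e) →
      ∫ v in p..q, gt v * ζ (v - a) = e * (ZZ ζ (q - a) - ZZ ζ (p - a)) := by
    intro p q e hpq hv
    have h1 : ∫ v in p..q, gt v * ζ (v - a) = ∫ v in p..q, e * ζ (v - a) := by
      refine intervalIntegral.integral_congr_ae ?_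
      have hne : ∀ᵐ v : ℝ, v ≠ q := by
        rw [ae_iff]; simp
      filter_upwards [hne] with v hvq hvm
      rw [Set.uIoc_of_le hpq] at hvm
      rw [hv v hvm.1 (lt_of_le_of_ne hvm.2 hvq)]
    rw [h1, intervalIntegral.integral_const_mul,
      intervalIntegral.integral_comp_sub_right (fun v => ζ v) a, ZZ_sub h]
  rw [← intervalIntegral.integral_add_adjacent_intervals (hgi 0 (1 / 4)) (hgi (1 / 4) 1),
    ← intervalIntegral.integral_add_adjacent_intervals (hgi (1 / 4) (3 / 4)) (hgi (3 / 4) 1)]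
  rw [piece 0 (1 / 4) 1 (by norm_num) ?_, piece (1 / 4) (3 / 4) (-1) (by norm_num) ?_,
    piece (3 / 4) 1 1 (by norm_num) ?_]
  · unfold Q
    rw [zero_sub]
    ring
  · intro v h1 h2
    unfold gt
    rw [if_neg (by linarith), if_neg (by linarith), if_neg (by linarith), if_pos h2]
  · intro v h1 h2
    unfold gt
    rw [if_neg (by linarith), if_neg (by linarith), if_pos h2]
  · intro v h1 h2
    unfold gt
    rw [if_neg (by linarith), if_pos h2]

theorem EE_deriv (x : ℝ) : HasDerivAt (EE ζ) (Q ζ x) x := by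
  unfold EE
  exact intervalIntegral.integral_hasDerivAt_right ((Q_cont h).intervalIntegrable _ _)
    (Q_cont h).stronglyMeasurable.stronglyMeasurableAtFilter (Q_cont h).continuousAt

theorem EE_cont : Continuous (EE ζ) :=
  continuous_iff_continuousAt.2 fun x => (EE_deriv h x).continuousAt

theorem EE_even (x : ℝ) : EE ζ (-x) = EE ζ x := by
  unfold EE
  have h1 : ∫ t in (0 : ℝ)..x, Q ζ t = ∫ t in (0 : ℝ)..x, -Q ζ (-t) :=
    intervalIntegral.integral_congr fun t _ => by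
      show Q ζ t = -Q ζ (-t)
      rw [Q_odd h, neg_neg]
  rw [h1, intervalIntegral.integral_neg, intervalIntegral.integral_comp_neg (fun t => Q ζ t),
    neg_zero, intervalIntegral.integral_symm]

theorem EE_large {x : ℝ} (hx : 1 ≤ |x|) : EE ζ x = c0 ζ := by
  have key : ∀ y : ℝ, 1 ≤ y → EE ζ y = c0 ζ := by
    intro y hy
    unfold c0 EE
    have h2 : ∫ t in (1 : ℝ)..y, Q ζ t = 0 := by
      rw [intervalIntegral.integral_congr (g := fun _ => (0 : ℝ))]
      · simp
      · intro t ht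
        rw [Set.uIcc_of_le hy] at ht
        exact Q_zero h (ht.1.trans (le_abs_self t))
    rw [← intervalIntegral.integral_add_adjacent_intervals
      ((Q_cont h).intervalIntegrable 0 1) ((Q_cont h).intervalIntegrable 1 y), h2, add_zero]
  rcases le_total 0 x with h0 | h0
  · rw [abs_of_nonneg h0] at hx
    exact key x hx
  · rw [abs_of_nonpos h0] at hx
    rw [← EE_even h x]
    exact key _ hx

theorem EE_lip {M : ℝ} (hM : ∀ a, |Q ζ a| ≤ M) (x : ℝ) : |EE ζ x| ≤ M * |x| := by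
  unfold EE
  have := intervalIntegral.norm_integral_le_of_norm_le_const (a := (0 : ℝ)) (b := x) (C := M)
    (f := Q ζ) (fun t _ => hM t)
  simpa using this

/-- dilation average of one scale. -/
theorem dil_avg (s : ℕ) {t : ℝ} (ht : t ≠ 0) :
    ∫ r in (1 / 2 : ℝ)..1, (2 : ℝ) ^ s * (r ^ 2)⁻¹ * Q ζ (2 ^ s * t / r) =
      (EE ζ (2 ^ (s + 1) * t) - EE ζ (2 ^ s * t)) / t := by
  have hd : ∀ r ∈ Set.uIcc (1 / 2 : ℝ) 1,
      HasDerivAt (fun r => -EE ζ (2 ^ s * t / r) / t)
        ((2 : ℝ) ^ s * (r ^ 2)⁻¹ * Q ζ (2 ^ s * t / r)) r := by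
    intro r hr
    rw [Set.uIcc_of_le (by norm_num)] at hr
    have hr0 : r ≠ 0 := by linarith [hr.1]
    have h1 : HasDerivAt (fun r : ℝ => 2 ^ s * t / r) (-(2 ^ s * t) / r ^ 2) r := by
      have := (hasDerivAt_inv hr0).const_mul (2 ^ s * t)
      refine this.congr_deriv ?_
      field_simp
    have h2 := ((EE_deriv h (2 ^ s * t / r)).comp r h1).neg.div_const t
    refine h2.congr_deriv ?_
    field_simp
  rw [intervalIntegral.integral_eq_sub_of_hasDerivAt hd]
  · have e : (2 : ℝ) ^ s * t / (1 / 2) = 2 ^ (s + 1) * t := by rw [pow_succ]; ring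
    rw [e, div_one]
    ring
  · apply ContinuousOn.intervalIntegrable
    have hQ := Q_cont h
    intro r hr
    rw [Set.uIcc_of_le (by norm_num)] at hr
    have hr0 : r ≠ 0 := by linarith [hr.1]
    apply ContinuousAt.continuousWithinAt
    have h1 : ContinuousAt (fun r : ℝ => 2 ^ s * t / r) r := continuousAt_const.div continuousAt_id hr0
    exact (continuousAt_const.mul ((continuousAt_id.pow 2).inv₀ (pow_ne_zero 2 hr0))).mul
      (ContinuousAt.comp (f := fun r : ℝ => 2 ^ s * t / r) hQ.continuousAt h1)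

/-- the averaged kernel. -/
def KA (ζ : ℝ → ℝ) (S : ℕ) (t : ℝ) : ℝ := (EE ζ (2 ^ S * t) - EE ζ t) / t

theorem KA_sum (S : ℕ) {t : ℝ} (ht : t ≠ 0) :
    ∑ s ∈ Finset.range S, ∫ r in (1 / 2 : ℝ)..1, (2 : ℝ) ^ s * (r ^ 2)⁻¹ * Q ζ (2 ^ s * t / r) =
      KA ζ S t := by
  unfold KA
  have : ∀ s ∈ Finset.range S,
      ∫ r in (1 / 2 : ℝ)..1, (2 : ℝ) ^ s * (r ^ 2)⁻¹ * Q ζ (2 ^ s * t / r) =
      EE ζ (2 ^ (s + 1) * t) / t - EE ζ (2 ^ s * t) / t := fun s _ => by
    rw [dil_avg h s ht]; ring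
  rw [Finset.sum_congr rfl this, Finset.sum_range_sub (fun s => EE ζ (2 ^ s * t) / t)]
  simp only [pow_zero, one_mul]
  ring

/-- the error profile. -/
def thE (ζ η : ℝ → ℝ) (v : ℝ) : ℝ := (c0 ζ * η v + EE ζ v - c0 ζ) / v

theorem thE_eq (η : ℝ → ℝ) (S : ℕ) (t : ℝ) :
    c0 ζ * kerS (psE η) S t = KA ζ S t + thE ζ η t - 2 ^ S * thE ζ η (2 ^ S * t) := by
  rw [kerS_psE]
  unfold KA thE
  by_cases ht : t = 0
  · subst ht; simp
  · have h2 : (2 : ℝ) ^ S ≠ 0 := by positivity
    field_simp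
    ring

theorem thE_bd {η : ℝ → ℝ} (hη : EtaC η) : ∃ M : ℝ, ∀ v, |thE ζ η v| ≤ M := by
  obtain ⟨M, hM0, hM⟩ := Q_bd h
  obtain ⟨hs, hev, hη0, hη1, hin, hout⟩ := hη
  refine ⟨M + 2 * |c0 ζ|, fun v => ?_⟩
  unfold thE
  by_cases hv0 : v = 0
  · subst hv0; simp; positivity
  have hvp : 0 < |v| := abs_pos.2 hv0
  rw [abs_div, div_le_iff₀ hvp]
  by_cases hv : |v| ≤ 1 / 2
  · rw [hin v hv]
    have e : c0 ζ * 1 + EE ζ v - c0 ζ = EE ζ v := by ring
    rw [e]
    have := EE_lip h hM v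
    have h3 : 0 ≤ 2 * |c0 ζ| * |v| := by positivity
    nlinarith
  · rw [not_le] at hv
    have h1 := EE_lip h hM v
    have h2 : |c0 ζ * η v - c0 ζ| ≤ |c0 ζ| := by
      have e : c0 ζ * η v - c0 ζ = c0 ζ * (η v - 1) := by ring
      rw [e, abs_mul]
      have h3 : |η v - 1| ≤ 1 := by
        rw [abs_le]; constructor <;> linarith [hη0 v, hη1 v]
      calc |c0 ζ| * |η v - 1| ≤ |c0 ζ| * 1 := by gcongr
        _ = |c0 ζ| := mul_one _
    have e : c0 ζ * η v + EE ζ v - c0 ζ = EE ζ v + (c0 ζ * η v - c0 ζ) := by ring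
    rw [e]
    refine (abs_add_le _ _).trans ?_
    have h4 : |c0 ζ| ≤ 2 * |c0 ζ| * |v| := by nlinarith [abs_nonneg (c0 ζ)]
    nlinarith

theorem thE_zero {η : ℝ → ℝ} (hη : EtaC η) {v : ℝ} (hv : 1 ≤ |v|) : thE ζ η v = 0 := by
  obtain ⟨hs, hev, hη0, hη1, hin, hout⟩ := hη
  unfold thE
  rw [hout v hv, EE_large h hv]
  simp

theorem thE_meas {η : ℝ → ℝ} (hη : EtaC η) : Measurable (thE ζ η) := by
  unfold thE
  have h1 := (EE_cont h).measurable
  have h2 := hη.1.continuous.measurable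
  fun_prop

end one

/-- averaging a function of the fractional part over a period. -/
theorem avg_fract {P : ℝ → ℝ} (hPm : Measurable P) {M : ℝ} (hP : ∀ v, |P v| ≤ M) (s : ℕ) (X : ℝ) :
    ∫ σ in (0 : ℝ)..1, P (Int.fract ((2 : ℝ) ^ s * (X - σ))) = ∫ v in (0 : ℝ)..1, P v := by
  set P1 : ℝ → ℝ := fun w => P (Int.fract w) with hP1
  have hper : Function.Periodic P1 1 := by
    intro w
    simp only [hP1, Int.fract_add_one]
  have hm : Measurable P1 := hPm.comp measurable_fract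
  have hii : ∀ t₁ t₂, IntervalIntegrable P1 volume t₁ t₂ := by
    intro t₁ t₂
    have h1 : IntervalIntegrable (fun _ : ℝ => M) volume t₁ t₂ :=
      continuous_const.intervalIntegrable _ _
    exact h1.mono_fun' hm.aestronglyMeasurable (Filter.Eventually.of_forall fun w => hP _)
  have h2s : (2 : ℝ) ^ s ≠ 0 := by positivity
  have e1 : ∫ σ in (0 : ℝ)..1, P (Int.fract ((2 : ℝ) ^ s * (X - σ))) =
      ∫ σ in (0 : ℝ)..1, P1 (2 ^ s * X - 2 ^ s * σ) := by
    refine intervalIntegral.integral_congr fun σ _ => ?_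
    simp only [hP1, mul_sub]
  rw [e1, intervalIntegral.integral_comp_sub_mul P1 h2s]
  have e2 : (2 : ℝ) ^ s * X - 2 ^ s * 0 = (2 ^ s * X - 2 ^ s * 1) + (((2 : ℕ) ^ s : ℕ) : ℤ) • (1 : ℝ) := by
    simp
  rw [e2, hper.intervalIntegral_add_zsmul_eq _ _ hii, hper.intervalIntegral_add_eq _ 0, zero_add]
  have e3 : ∫ x in (0 : ℝ)..1, P1 x = ∫ v in (0 : ℝ)..1, P v := by
    refine intervalIntegral.integral_congr_ae ?_
    have hne : ∀ᵐ v : ℝ, v ≠ 1 := by
      rw [ae_iff]; simp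
    filter_upwards [hne] with v hv1 hvm
    rw [Set.uIoc_of_le zero_le_one] at hvm
    simp only [hP1]
    rw [Int.fract_eq_self.2 ⟨hvm.1.le, lt_of_le_of_ne hvm.2 hv1⟩]
  rw [e3]
  simp

/-- an explicit wavelet: `ζ v = χ' (v - 1/2)`. -/
theorem exists_zet : ∃ ζ : ℝ → ℝ, ZetC ζ ∧ c0 ζ = -1 := by
  obtain ⟨χ, hχ1, hχ2, hχ3, hχ4, hχ5⟩ := Crest.Agent.R087.Asm1x283.exists_chi
  have hχd : Differentiable ℝ χ := hχ1.differentiable (by simp)
  set ζ : ℝ → ℝ := fun v => deriv χ (v - 1 / 2) with hζ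
  have hdc : ContDiff ℝ (⊤ : ℕ∞) (deriv χ) := by
    have := (contDiff_infty_iff_deriv (𝕜 := ℝ) (f := χ)).1 hχ1
    exact this.2
  have hdodd : ∀ t, deriv χ (-t) = -deriv χ t := by
    intro t
    have h1 : deriv (fun r => χ (-r)) t = -deriv χ (-t) := deriv_comp_neg χ t
    have h2 : (fun r => χ (-r)) = χ := funext hχ2
    rw [h2] at h1
    linarith
  have hdz : ∀ t, 1 / 8 < |t| → deriv χ t = 0 := by
    intro t ht
    have h1 : χ =ᶠ[nhds t] fun _ => (0 : ℝ) := by
      have ho : IsOpen {r : ℝ | 1 / 8 < |r|} := isOpen_lt continuous_const continuous_abs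
      filter_upwards [ho.mem_nhds ht] with r hr
      exact hχ4 r hr
    rw [h1.deriv_eq]
    simp
  have hZ : ZetC ζ := by
    refine ⟨hdc.comp (contDiff_id.sub contDiff_const), ?_, ?_⟩
    · intro t ht
      by_contra hcon
      apply ht
      apply hdz
      rw [not_and_or, not_le, not_le] at hcon
      rcases hcon with h1 | h1
      · rw [abs_of_neg (by linarith)]; linarith
      · rw [abs_of_pos (by linarith)]; linarith
    · intro t
      simp only [hζ]
      rw [← hdodd]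
      congr 1
      ring
  refine ⟨ζ, hZ, ?_⟩
  have hZZ : ∀ x, ZZ ζ x = χ (x - 1 / 2) := by
    intro x
    unfold ZZ
    have h1 : ∀ r ∈ Set.uIcc (0 : ℝ) x, HasDerivAt (fun v => χ (v - 1 / 2)) (ζ r) r := by
      intro r _
      have := (hχd (r - 1 / 2)).hasDerivAt
      exact this.comp_sub_const r (1 / 2)
    rw [intervalIntegral.integral_eq_sub_of_hasDerivAt h1 (zet_int hZ _ _)]
    rw [hχ4 (0 - 1 / 2) (by rw [zero_sub, abs_neg, abs_of_pos] <;> norm_num)]
    ring
  have hχc : Continuous χ := hχ1.continuous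
  have hχi : Integrable χ := by
    refine hχc.integrable_of_hasCompactSupport ?_
    refine HasCompactSupport.intro (isCompact_Icc (a := (-1 : ℝ)) (b := 1)) ?_
    intro t ht
    apply hχ4
    rw [Set.mem_Icc, ← abs_le, not_le] at ht
    linarith
  have full : ∀ p q : ℝ, p ≤ -1 / 8 → 1 / 8 ≤ q → ∫ t in p..q, χ t = 1 := by
    intro p q hp hq
    rw [intervalIntegral.integral_eq_integral_of_support_subset, hχ5]
    intro t ht
    have h1 : |t| ≤ 1 / 8 := by
      by_contra hcon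
      exact ht (hχ4 t (not_le.1 hcon))
    have h2 := abs_le.1 h1
    have hne : t ≠ -1 / 8 ∨ p < -1 / 8 := by
      rcases hp.lt_or_eq with h3 | h3
      · right; exact h3
      · left
        intro h4
        -- χ (-1/8) = 0 by continuity
        have h5 : χ (-1 / 8) = 0 := by
          have h6 : Filter.Tendsto χ (nhdsWithin (-1 / 8) (Set.Iio (-1 / 8))) (nhds (χ (-1 / 8))) :=
            hχc.continuousAt.tendsto.mono_left nhdsWithin_le_nhds
          have h7 : Filter.Tendsto χ (nhdsWithin (-1 / 8) (Set.Iio (-1 / 8))) (nhds 0) := by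
            refine (tendsto_const_nhds (x := (0 : ℝ))).congr' ?_
            filter_upwards [self_mem_nhdsWithin] with r hr
            rw [hχ4 r]
            rw [Set.mem_Iio] at hr
            rw [abs_of_neg (by linarith)]; linarith
          exact tendsto_nhds_unique h6 h7
        rw [h4] at ht
        exact ht h5
    rcases hne with h3 | h3
    · exact ⟨lt_of_le_of_lt hp (lt_of_le_of_ne (by linarith [h2.1]) (Ne.symm h3)), h2.2.trans hq⟩
    · exact ⟨by linarith [h2.1], h2.2.trans hq⟩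
  have none1 : ∀ p q : ℝ, p ≤ q → q ≤ -1 / 8 → ∫ t in p..q, χ t = 0 := by
    intro p q hpq hq
    rw [intervalIntegral.integral_congr_ae (g := fun _ => (0 : ℝ))]
    · simp
    · have hne : ∀ᵐ v : ℝ, v ≠ -1 / 8 := by
        rw [ae_iff]; simp
      filter_upwards [hne] with v hv hvm
      rw [Set.uIoc_of_le hpq] at hvm
      apply hχ4
      have : v < -1 / 8 := lt_of_le_of_ne (hvm.2.trans hq) hv
      rw [abs_of_neg (by linarith)]; linarith
  unfold c0 EE
  have hQ : ∀ a, Q ζ a = -χ (-1 / 2 - a) + 2 * χ (-1 / 4 - a) - 2 * χ (1 / 4 - a) + χ (1 / 2 - a) := by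
    intro a
    unfold Q
    rw [hZZ, hZZ, hZZ, hZZ]
    congr 1
    · congr 1
      · congr 1
        · congr 2; ring
        · congr 2; ring
      · congr 2; ring
    · congr 1; ring
  have hci : ∀ c : ℝ, IntervalIntegrable (fun a => χ (c - a)) volume 0 1 := fun c =>
    (hχc.comp (continuous_const.sub continuous_id)).intervalIntegrable _ _
  have hint : ∀ c : ℝ, ∫ a in (0 : ℝ)..1, χ (c - a) = ∫ t in (c - 1)..c, χ t := by
    intro c
    rw [intervalIntegral.integral_comp_sub_left (fun t => χ t) c]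
    simp
  have e1 : ∫ a in (0 : ℝ)..1, Q ζ a =
      -(∫ a in (0 : ℝ)..1, χ (-1 / 2 - a)) + 2 * (∫ a in (0 : ℝ)..1, χ (-1 / 4 - a)) -
        2 * (∫ a in (0 : ℝ)..1, χ (1 / 4 - a)) + ∫ a in (0 : ℝ)..1, χ (1 / 2 - a) := by
    rw [intervalIntegral.integral_congr fun a _ => hQ a]
    have i1 : IntervalIntegrable (fun a => -χ (-1 / 2 - a)) volume 0 1 := (hci _).neg
    have i2 : IntervalIntegrable (fun a => 2 * χ (-1 / 4 - a)) volume 0 1 := (hci _).const_mul 2
    have i3 : IntervalIntegrable (fun a => 2 * χ (1 / 4 - a)) volume 0 1 := (hci _).const_mul 2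
    rw [intervalIntegral.integral_add ((i1.add i2).sub i3) (hci _),
      intervalIntegral.integral_sub (i1.add i2) i3, intervalIntegral.integral_add i1 i2,
      intervalIntegral.integral_neg, intervalIntegral.integral_const_mul,
      intervalIntegral.integral_const_mul]
  rw [e1, hint, hint, hint, hint]
  rw [none1 _ _ (by norm_num) (by norm_num : (-1 / 2 : ℝ) ≤ -1 / 8),
    none1 _ _ (by norm_num) (by norm_num : (-1 / 4 : ℝ) ≤ -1 / 8),
    full _ _ (by norm_num) (by norm_num : (1 / 8 : ℝ) ≤ 1 / 4),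
    full _ _ (by norm_num) (by norm_num : (1 / 8 : ℝ) ≤ 1 / 2)]
  norm_num

end Crest.Agent.R087.GateBx273
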