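import Crest.Agent.R087.GateB_273

/-!
Row 87 (S0115), GATING part C (helper273): averaging over translations and dilations of the dyadic
grid.
-/

set_option autoImplicit false
set_option linter.unusedSectionVars false

noncomputable section

open MeasureTheory Crest.Agent.R087.Sh0x283 Crest.Agent.R087.Sh1x283
open Crest.Agent.R087.GateDefx273 Crest.Agent.R087.GateAx273 Crest.Agent.R087.GateBx273
open Crest.Agent.R087.S11x168
open scoped ENNReal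

namespace Crest.Agent.R087.GateCx273

/-- unfolded kernel, `p = (r, σ)`. -/
def kk (ζ : ℝ → ℝ) (S : ℕ) (p : ℝ × ℝ) (x t : ℝ) : ℝ :=
  ∑ s ∈ Finset.range S, (2 : ℝ) ^ s * (p.1 ^ 2)⁻¹ *
    (gt (Int.fract ((2 : ℝ) ^ s * (x / p.1 - p.2))) *
      ζ (Int.fract ((2 : ℝ) ^ s * (x / p.1 - p.2)) - 2 ^ s * t / p.1))

/-- unfolded gated operator for the grid with parameters `p = (r, σ)`. -/
def FF (ζ : ℝ → ℝ) (S : ℕ) (U g : ℝ × ℝ → ℝ) (p z : ℝ × ℝ) : ℝ :=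
  ∫ t, kk ζ S p z.1 t * g (z.1 - t, z.2 - t * U z)

/-- rescaled field -/
def VV (p : ℝ × ℝ) (U : ℝ × ℝ → ℝ) (w : ℝ × ℝ) : ℝ := p.1 * U (p.1 * (w.1 + p.2), w.2)

/-- rescaled function -/
def gg (p : ℝ × ℝ) (g : ℝ × ℝ → ℝ) (w : ℝ × ℝ) : ℝ := g (p.1 * (w.1 + p.2), w.2)

/-- the parameter space. -/
def mu : Measure (ℝ × ℝ) :=
  (volume.restrict (Set.Ioc (1 / 2 : ℝ) 1)).prod (volume.restrict (Set.Ioc (0 : ℝ) 1))

instance : IsFiniteMeasure mu := by unfold mu; infer_instance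

theorem mu_univ : mu Set.univ ≤ 1 := by
  unfold mu
  rw [← Set.univ_prod_univ, Measure.prod_prod]
  simp only [Measure.restrict_apply_univ, Real.volume_Ioc]
  rw [← ENNReal.ofReal_mul (by norm_num)]
  rw [ENNReal.ofReal_le_one]
  norm_num

theorem mu_ae : ∀ᵐ p ∂mu, p.1 ∈ Set.Ioc (1 / 2 : ℝ) 1 ∧ p.2 ∈ Set.Ioc (0 : ℝ) 1 := by
  unfold mu
  have h1 : ∀ᵐ r ∂(volume.restrict (Set.Ioc (1 / 2 : ℝ) 1)), r ∈ Set.Ioc (1 / 2 : ℝ) 1 :=
    ae_restrict_mem measurableSet_Ioc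
  have h2 : ∀ᵐ r ∂(volume.restrict (Set.Ioc (0 : ℝ) 1)), r ∈ Set.Ioc (0 : ℝ) 1 :=
    ae_restrict_mem measurableSet_Ioc
  exact (Measure.quasiMeasurePreserving_fst.ae h1).and (Measure.quasiMeasurePreserving_snd.ae h2)

section one

variable {ζ : ℝ → ℝ} (h : ZetC ζ)
include h

theorem kk_meas (S : ℕ) : Measurable fun q : (ℝ × ℝ) × ℝ × ℝ => kk ζ S q.1 q.2.1 q.2.2 := by
  unfold kk
  refine Finset.measurable_fun_sum _ fun s _ => ?_
  have h1 : Measurable fun q : (ℝ × ℝ) × ℝ × ℝ =>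
      Int.fract ((2 : ℝ) ^ s * (q.2.1 / q.1.1 - q.1.2)) := by
    refine measurable_fract.comp ?_
    fun_prop
  have h2 : Measurable fun q : (ℝ × ℝ) × ℝ × ℝ =>
      Int.fract ((2 : ℝ) ^ s * (q.2.1 / q.1.1 - q.1.2)) - 2 ^ s * q.2.2 / q.1.1 := by
    refine h1.sub ?_
    fun_prop
  have h3 := (gt_meas.comp h1).mul (h.1.continuous.measurable.comp h2)
  have h4 : Measurable fun q : (ℝ × ℝ) × ℝ × ℝ => (2 : ℝ) ^ s * (q.1.1 ^ 2)⁻¹ := by fun_prop
  exact h4.mul h3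

theorem kk_bd (S : ℕ) : ∃ M : ℝ, 0 ≤ M ∧ ∀ p : ℝ × ℝ, p.1 ∈ Set.Ioc (1 / 2 : ℝ) 1 →
    ∀ x t, |kk ζ S p x t| ≤ M * (Set.Icc (-1 : ℝ) 1).indicator (fun _ => (1 : ℝ)) t := by
  obtain ⟨M, hM0, hM⟩ := zet_bd h
  refine ⟨∑ s ∈ Finset.range S, (2 : ℝ) ^ s * 4 * M,
    Finset.sum_nonneg fun s _ => by positivity, ?_⟩
  intro p hp x t
  have hp0 : (0 : ℝ) < p.1 := by linarith [hp.1]
  have hinv : (p.1 ^ 2)⁻¹ ≤ 4 := by
    rw [inv_le_comm₀ (by positivity) (by norm_num)]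
    nlinarith [hp.1]
  by_cases ht : t ∈ Set.Icc (-1 : ℝ) 1
  · rw [Set.indicator_of_mem ht, mul_one]
    unfold kk
    refine (Finset.abs_sum_le_sum_abs _ _).trans (Finset.sum_le_sum fun s _ => ?_)
    rw [abs_mul, abs_mul, abs_mul, abs_of_nonneg (by positivity : (0 : ℝ) ≤ 2 ^ s),
      abs_of_nonneg (by positivity : (0 : ℝ) ≤ (p.1 ^ 2)⁻¹)]
    have h1 := gt_abs (Int.fract ((2 : ℝ) ^ s * (x / p.1 - p.2)))
    have h2 := hM (Int.fract ((2 : ℝ) ^ s * (x / p.1 - p.2)) - 2 ^ s * t / p.1)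
    calc (2 : ℝ) ^ s * (p.1 ^ 2)⁻¹ * (|gt (Int.fract ((2 : ℝ) ^ s * (x / p.1 - p.2)))| *
          |ζ (Int.fract ((2 : ℝ) ^ s * (x / p.1 - p.2)) - 2 ^ s * t / p.1)|)
        ≤ 2 ^ s * 4 * (1 * M) := by gcongr
      _ = 2 ^ s * 4 * M := by ring
  · rw [Set.indicator_of_notMem ht, mul_zero]
    have hz : kk ζ S p x t = 0 := by
      unfold kk
      refine Finset.sum_eq_zero fun s _ => ?_
      have : ζ (Int.fract ((2 : ℝ) ^ s * (x / p.1 - p.2)) - 2 ^ s * t / p.1) = 0 := by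
        by_contra hne
        have h1 := h.2.1 _ hne
        have h2 := Int.fract_nonneg ((2 : ℝ) ^ s * (x / p.1 - p.2))
        have h3 := Int.fract_lt_one ((2 : ℝ) ^ s * (x / p.1 - p.2))
        apply ht
        have h4 : |2 ^ s * t / p.1| ≤ 1 := by
          rw [abs_le]; constructor <;> linarith [h1.1, h1.2]
        rw [abs_div, abs_mul, abs_of_pos hp0, abs_of_nonneg (by positivity : (0 : ℝ) ≤ 2 ^ s),
          div_le_one hp0] at h4
        have h5 : (1 : ℝ) ≤ 2 ^ s := one_le_pow₀ (by norm_num)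
        rw [Set.mem_Icc, ← abs_le]
        nlinarith [abs_nonneg t, hp.2]
      rw [this, mul_zero, mul_zero]
    rw [hz, abs_zero]

/-- the unfolded operator is the gated operator of the rescaled field. -/
theorem FF_eq (S : ℕ) {U g : ℝ × ℝ → ℝ} (hg : Measurable g) {Mg : ℝ} (hgb : ∀ z, |g z| ≤ Mg)
    {p : ℝ × ℝ} (hp : 0 < p.1) (z : ℝ × ℝ) :
    FF ζ S U g p z = p.1⁻¹ * gat ζ S (VV p U) (gg p g) (z.1 / p.1 - p.2, z.2) := by
  have hp0 : p.1 ≠ 0 := hp.ne'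
  have hG : Measurable fun t : ℝ => g (z.1 - t, z.2 - t * U z) := by fun_prop
  have hzi : ∀ (s : ℕ) (a : ℝ), Integrable fun t : ℝ => ζ (a - 2 ^ s * t / p.1) := by
    intro s a
    have h1 : Integrable ζ := h.1.continuous.integrable_of_hasCompactSupport (zet_cs h)
    have h2 : Integrable fun u => ζ (a - u) := h1.comp_sub_left a
    have h3 := h2.comp_mul_left' (R := 2 ^ s / p.1) (by positivity)
    refine h3.congr (Filter.Eventually.of_forall fun t => ?_)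
    simp only
    congr 2
    ring
  have e1 : FF ζ S U g p z = ∑ s ∈ Finset.range S, (2 : ℝ) ^ s * (p.1 ^ 2)⁻¹ *
      (gt (Int.fract ((2 : ℝ) ^ s * (z.1 / p.1 - p.2))) *
        ∫ t, ζ (Int.fract ((2 : ℝ) ^ s * (z.1 / p.1 - p.2)) - 2 ^ s * t / p.1) *
          g (z.1 - t, z.2 - t * U z)) := by
    unfold FF kk
    have h2 : ∀ t, (∑ s ∈ Finset.range S, (2 : ℝ) ^ s * (p.1 ^ 2)⁻¹ *
        (gt (Int.fract ((2 : ℝ) ^ s * (z.1 / p.1 - p.2))) *
          ζ (Int.fract ((2 : ℝ) ^ s * (z.1 / p.1 - p.2)) - 2 ^ s * t / p.1))) *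
          g (z.1 - t, z.2 - t * U z) =
        ∑ s ∈ Finset.range S, (2 : ℝ) ^ s * (p.1 ^ 2)⁻¹ *
          (gt (Int.fract ((2 : ℝ) ^ s * (z.1 / p.1 - p.2))) *
          (ζ (Int.fract ((2 : ℝ) ^ s * (z.1 / p.1 - p.2)) - 2 ^ s * t / p.1) *
          g (z.1 - t, z.2 - t * U z))) := by
      intro t
      rw [Finset.sum_mul]
      exact Finset.sum_congr rfl fun s _ => by ring
    simp only [h2]
    rw [integral_finsetSum]
    · refine Finset.sum_congr rfl fun s _ => ?_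
      rw [integral_const_mul, integral_const_mul]
    · intro s _
      refine Integrable.const_mul (Integrable.const_mul ?_ _) _
      refine (hzi s _).mul_bdd (c := Mg) hG.aestronglyMeasurable ?_
      exact Filter.Eventually.of_forall fun u => hgb _
  rw [e1]
  unfold gat gat1
  rw [Finset.mul_sum]
  refine Finset.sum_congr rfl fun s _ => ?_
  simp only
  set x' := z.1 / p.1 - p.2 with hx'
  have e2 : ∫ u, ζ ((2 : ℝ) ^ s * u - ⌊(2 : ℝ) ^ s * x'⌋) *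
      gg p g (u, z.2 + (u - x') * VV p U (x', z.2)) =
      p.1⁻¹ * ∫ t, ζ (Int.fract ((2 : ℝ) ^ s * x') - 2 ^ s * t / p.1) *
          g (z.1 - t, z.2 - t * U z) := by
    set H : ℝ → ℝ := fun u => ζ ((2 : ℝ) ^ s * u - ⌊(2 : ℝ) ^ s * x'⌋) *
      gg p g (u, z.2 + (u - x') * VV p U (x', z.2)) with hH
    have h3 : ∫ t, H (x' - p.1⁻¹ * t) = p.1 * ∫ u, H u := by
      have h4 := Measure.integral_comp_mul_left (fun t => H (x' - t)) p.1⁻¹
      simp only [inv_inv, smul_eq_mul] at h4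
      rw [h4, abs_of_pos hp, integral_sub_left_eq_self H volume x']
    have h5 : ∀ t, H (x' - p.1⁻¹ * t) =
        ζ (Int.fract ((2 : ℝ) ^ s * x') - 2 ^ s * t / p.1) * g (z.1 - t, z.2 - t * U z) := by
      intro t
      simp only [hH, gg, VV]
      have a1 : (2 : ℝ) ^ s * (x' - p.1⁻¹ * t) - ⌊(2 : ℝ) ^ s * x'⌋ =
          Int.fract ((2 : ℝ) ^ s * x') - 2 ^ s * t / p.1 := by
        unfold Int.fract
        field_simp
        ring
      have a2 : p.1 * (x' + p.2) = z.1 := by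
        rw [hx']; field_simp; ring
      have a3 : p.1 * (x' - p.1⁻¹ * t + p.2) = z.1 - t := by
        rw [hx']; field_simp; ring
      have a4 : z.2 + (x' - p.1⁻¹ * t - x') * (p.1 * U (z.1, z.2)) = z.2 - t * U z := by
        field_simp
        ring
      rw [a1, a2, a3, a4]
    have h6 : ∫ t, H (x' - p.1⁻¹ * t) = ∫ t, ζ (Int.fract ((2 : ℝ) ^ s * x') - 2 ^ s * t / p.1) *
        g (z.1 - t, z.2 - t * U z) := integral_congr_ae (Filter.Eventually.of_forall h5)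
    rw [← h6, h3, ← mul_assoc, inv_mul_cancel₀ hp0, one_mul]
  rw [e2, pow_two, mul_inv]
  ring

/-- integrating the kernel over the parameters. -/
theorem kk_int (S : ℕ) (x : ℝ) {t : ℝ} (ht : t ≠ 0) : ∫ p, kk ζ S p x t ∂mu = KA ζ S t := by
  obtain ⟨M, hM0, hM⟩ := zet_bd h
  rw [← KA_sum h S ht]
  unfold kk
  have hii : ∀ s ∈ Finset.range S, Integrable (fun p : ℝ × ℝ => (2 : ℝ) ^ s * (p.1 ^ 2)⁻¹ *
      (gt (Int.fract ((2 : ℝ) ^ s * (x / p.1 - p.2))) *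
        ζ (Int.fract ((2 : ℝ) ^ s * (x / p.1 - p.2)) - 2 ^ s * t / p.1))) mu := by
    intro s _
    refine Integrable.mono' (integrable_const ((2 : ℝ) ^ s * 4 * M)) ?_ ?_
    · have h1 : Measurable fun p : ℝ × ℝ => Int.fract ((2 : ℝ) ^ s * (x / p.1 - p.2)) := by
        refine measurable_fract.comp ?_
        fun_prop
      have h2 : Measurable fun p : ℝ × ℝ =>
          Int.fract ((2 : ℝ) ^ s * (x / p.1 - p.2)) - 2 ^ s * t / p.1 := by
        refine h1.sub ?_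
        fun_prop
      have h3 := (gt_meas.comp h1).mul (h.1.continuous.measurable.comp h2)
      have h4 : Measurable fun p : ℝ × ℝ => (2 : ℝ) ^ s * (p.1 ^ 2)⁻¹ := by fun_prop
      exact (h4.mul h3).aestronglyMeasurable
    · filter_upwards [mu_ae] with p hp
      have hp0 : (0 : ℝ) < p.1 := by linarith [hp.1.1]
      have hinv : (p.1 ^ 2)⁻¹ ≤ 4 := by
        rw [inv_le_comm₀ (by positivity) (by norm_num)]
        nlinarith [hp.1.1]
      rw [Real.norm_eq_abs, abs_mul, abs_mul, abs_mul,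
        abs_of_nonneg (by positivity : (0 : ℝ) ≤ 2 ^ s),
        abs_of_nonneg (by positivity : (0 : ℝ) ≤ (p.1 ^ 2)⁻¹)]
      have h1 := gt_abs (Int.fract ((2 : ℝ) ^ s * (x / p.1 - p.2)))
      have h2 := hM (Int.fract ((2 : ℝ) ^ s * (x / p.1 - p.2)) - 2 ^ s * t / p.1)
      calc (2 : ℝ) ^ s * (p.1 ^ 2)⁻¹ * (|gt (Int.fract ((2 : ℝ) ^ s * (x / p.1 - p.2)))| *
            |ζ (Int.fract ((2 : ℝ) ^ s * (x / p.1 - p.2)) - 2 ^ s * t / p.1)|)
          ≤ 2 ^ s * 4 * (1 * M) := by gcongr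
        _ = 2 ^ s * 4 * M := by ring
  rw [integral_finsetSum _ hii]
  refine Finset.sum_congr rfl fun s hs => ?_
  have h1 := hii s hs
  unfold mu at h1 ⊢
  rw [integral_prod _ h1, intervalIntegral.integral_of_le (by norm_num)]
  refine integral_congr_ae (Filter.Eventually.of_forall fun r => ?_)
  show ∫ σ in Set.Ioc (0 : ℝ) 1, (2 : ℝ) ^ s * (r ^ 2)⁻¹ *
      (gt (Int.fract ((2 : ℝ) ^ s * (x / r - σ))) *
        ζ (Int.fract ((2 : ℝ) ^ s * (x / r - σ)) - 2 ^ s * t / r)) =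
      (2 : ℝ) ^ s * (r ^ 2)⁻¹ * Q ζ (2 ^ s * t / r)
  rw [integral_const_mul]
  congr 1
  rw [← gate_avg h, ← intervalIntegral.integral_of_le (by norm_num : (0 : ℝ) ≤ 1)]
  exact avg_fract (P := fun v => gt v * ζ (v - 2 ^ s * t / r))
    (gt_meas.mul (h.1.continuous.measurable.comp (measurable_id.sub_const _))) (M := M)
    (fun v => by
      rw [abs_mul]
      calc |gt v| * |ζ (v - 2 ^ s * t / r)| ≤ 1 * M := by
            have h1 := gt_abs v
            have h2 := hM (v - 2 ^ s * t / r)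
            gcongr
        _ = M := one_mul M) s (x / r)

attribute [local irreducible] kk

/-- averaging gives the kernel `KA`. -/
theorem FF_int (S : ℕ) {U g : ℝ × ℝ → ℝ} (hg : Measurable g) {Mg : ℝ} (hgb : ∀ z, |g z| ≤ Mg)
    (z : ℝ × ℝ) : ∫ p, FF ζ S U g p z ∂mu = tk (KA ζ S) U g z := by
  obtain ⟨M, hM0, hM⟩ := kk_bd h S
  unfold FF
  have hG : Measurable fun t : ℝ => g (z.1 - t, z.2 - t * U z) := by fun_prop
  have hI : Integrable (Function.uncurry fun (p : ℝ × ℝ) (t : ℝ) =>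
      kk ζ S p z.1 t * g (z.1 - t, z.2 - t * U z)) (mu.prod volume) := by
    have hMg : 0 ≤ Mg := (abs_nonneg _).trans (hgb (0, 0))
    have hb : Integrable (fun q : (ℝ × ℝ) × ℝ => (M * Mg) *
        (Set.Icc (-1 : ℝ) 1).indicator (fun _ => (1 : ℝ)) q.2) (mu.prod volume) := by
      refine Integrable.mul_prod (integrable_const (M * Mg)) ?_
      rw [integrable_indicator_iff measurableSet_Icc]
      exact integrableOn_const (by simp)
    refine Integrable.mono' hb ?_ ?_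
    · have hpm : Measurable fun q : (ℝ × ℝ) × ℝ => ((q.1, z.1, q.2) : (ℝ × ℝ) × ℝ × ℝ) :=
        measurable_fst.prodMk (measurable_const.prodMk measurable_snd)
      have h1 : Measurable fun q : (ℝ × ℝ) × ℝ => kk ζ S q.1 z.1 q.2 := (kk_meas h S).comp hpm
      exact (h1.mul (hG.comp measurable_snd)).aestronglyMeasurable
    · have h2 : ∀ᵐ q ∂(mu.prod (volume : Measure ℝ)), q.1.1 ∈ Set.Ioc (1 / 2 : ℝ) 1 ∧
          q.1.2 ∈ Set.Ioc (0 : ℝ) 1 := Measure.quasiMeasurePreserving_fst.ae mu_ae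
      filter_upwards [h2] with q hq
      simp only [Function.uncurry]
      rw [Real.norm_eq_abs, abs_mul]
      have h3 := hM q.1 hq.1 z.1 q.2
      have h4 : 0 ≤ (Set.Icc (-1 : ℝ) 1).indicator (fun _ => (1 : ℝ)) q.2 :=
        Set.indicator_nonneg (fun _ _ => zero_le_one) _
      calc |kk ζ S q.1 z.1 q.2| * |g (z.1 - q.2, z.2 - q.2 * U z)|
          ≤ (M * (Set.Icc (-1 : ℝ) 1).indicator (fun _ => (1 : ℝ)) q.2) * Mg :=
            mul_le_mul h3 (hgb _) (abs_nonneg _) (by positivity)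
        _ = _ := by ring
  rw [integral_integral_swap hI]
  unfold tk
  refine integral_congr_ae ?_
  have hne : ∀ᵐ v : ℝ, v ≠ 0 := by
    rw [ae_iff]; simp
  filter_upwards [hne] with t ht
  rw [integral_mul_const, kk_int h S z.1 ht]

end one

attribute [local irreducible] kk

/-- scaling of the first variable. -/
theorem lint_scale {r : ℝ} (hr : 0 < r) (σ : ℝ) {F : ℝ × ℝ → ℝ≥0∞} (hF : Measurable F) :
    ∫⁻ z : ℝ × ℝ, F (r * (z.1 + σ), z.2) = ENNReal.ofReal r⁻¹ * ∫⁻ z, F z := by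
  have hm : Measurable fun z : ℝ × ℝ => F (r * (z.1 + σ), z.2) := by fun_prop
  rw [Measure.volume_eq_prod, lintegral_prod _ hm.aemeasurable, lintegral_prod _ hF.aemeasurable]
  have h1 : Measurable fun x => ∫⁻ y, F (x, y) := hF.lintegral_prod_right'
  have e1 := lintegral_add_right_eq_self (μ := (volume : Measure ℝ))
    (fun x => ∫⁻ y, F (r * x, y)) σ
  rw [e1]
  have e2 := lintegral_map (μ := (volume : Measure ℝ)) h1 (measurable_const_mul r)
  rw [← e2, Real.map_volume_mul_left hr.ne', lintegral_smul_measure, smul_eq_mul,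
    abs_of_pos (inv_pos.2 hr)]

theorem VV_fld {c : ℝ} (hc : 0 ≤ c) {U : ℝ × ℝ → ℝ} (hU : Fld c U) {p : ℝ × ℝ}
    (hp : p.1 ∈ Set.Ioc (1 / 2 : ℝ) 1) : Fld c (VV p U) := by
  obtain ⟨hUm, ⟨W, hW⟩, hUl⟩ := hU
  have hp0 : (0 : ℝ) < p.1 := by linarith [hp.1]
  refine ⟨?_, ⟨W, fun z => ?_⟩, fun x y y' => ?_⟩
  · unfold VV
    have : Measurable fun w : ℝ × ℝ => (p.1 * (w.1 + p.2), w.2) := by fun_prop
    exact (hUm.comp this).const_mul _
  · unfold VV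
    rw [abs_mul, abs_of_pos hp0]
    calc p.1 * |U (p.1 * (z.1 + p.2), z.2)| ≤ 1 * W :=
          mul_le_mul hp.2 (hW _) (abs_nonneg _) zero_le_one
      _ = W := one_mul W
  · unfold VV
    rw [← mul_sub, abs_mul, abs_of_pos hp0]
    calc p.1 * |U (p.1 * (x + p.2), y) - U (p.1 * (x + p.2), y')| ≤ 1 * (c * |y - y'|) :=
          mul_le_mul hp.2 (hUl _ _ _) (abs_nonneg _) zero_le_one
      _ = c * |y - y'| := one_mul _

theorem gg_nice {f : ℝ × ℝ → ℝ} (hf : Nice f) {p : ℝ × ℝ}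
    (hp : p.1 ∈ Set.Ioc (1 / 2 : ℝ) 1) (hp2 : p.2 ∈ Set.Ioc (0 : ℝ) 1) : Nice (gg p f) := by
  obtain ⟨hm, ⟨M, hM⟩, R, hR⟩ := hf
  have hp0 : (0 : ℝ) < p.1 := by linarith [hp.1]
  refine ⟨?_, ⟨M, fun z => hM _⟩, 2 * |R| + 1, fun z hz => ?_⟩
  · unfold gg
    have : Measurable fun w : ℝ × ℝ => (p.1 * (w.1 + p.2), w.2) := by fun_prop
    exact hm.comp this
  · unfold gg
    apply hR
    rw [Prod.norm_def, lt_max_iff] at hz ⊢
    simp only [Real.norm_eq_abs] at hz ⊢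
    have hRa := le_abs_self R
    have hRn := abs_nonneg R
    rcases hz with hz | hz
    · left
      have h1 : |z.1| - 1 ≤ |z.1 + p.2| := by
        have e : z.1 = (z.1 + p.2) - p.2 := by ring
        have h2 := abs_sub (z.1 + p.2) p.2
        rw [← e, abs_of_pos hp2.1] at h2
        linarith [hp2.2]
      rw [abs_mul, abs_of_pos hp0]
      have h3 : 2 * |R| < |z.1 + p.2| := by linarith
      nlinarith [hp.1, abs_nonneg (z.1 + p.2)]
    · right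
      linarith

/-- the averaging estimate: from the gated bound (all fields) to the kernel `KA`. -/
theorem KA_est {ζ : ℝ → ℝ} (h : ZetC ζ) {φ : ℝ → ℝ} (hφ : Continuous φ)
    (hφ1 : ∀ r, 1 < |r| → φ r = 0) (hφc : HasCompactSupport φ) {c B : ℝ} (hc : 0 ≤ c) (hB : 0 ≤ B)
    (S : ℕ)
    (H : ∀ V g : ℝ × ℝ → ℝ, Fld c V → Nice g → ∫ w, (Tst φ ζ S V g w) ^ 2 ≤ B * ∫ z, (g z) ^ 2)
    {U f : ℝ × ℝ → ℝ} (hU : Fld c U) (hf : Nice f)
    (hT : Nice (tk (KA ζ S) U (cv φ 0 f))) :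
    ∫ z, (tk (KA ζ S) U (cv φ 0 f) z) ^ 2 ≤ 4 * B * ∫ z, (f z) ^ 2 := by
  have hg : Nice (cv φ 0 f) := ALGx390.alg.1 φ hφ hφc 0 f hf
  obtain ⟨Mg, hMg⟩ := hg.2.1
  have hUm := hU.1
  set g := cv φ 0 f with hgdef
  have hfm := hf.1
  have hgm := hg.1
  -- pointwise Jensen
  have h1 : ∀ z, ‖tk (KA ζ S) U g z‖ₑ ^ 2 ≤ ∫⁻ p, ‖FF ζ S U g p z‖ₑ ^ 2 ∂mu := by
    intro z
    rw [← FF_int h S hgm hMg z]
    have h2 : ‖∫ p, FF ζ S U g p z ∂mu‖ₑ ≤ ∫⁻ p, 1 * ‖FF ζ S U g p z‖ₑ ∂mu := by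
      refine (enorm_integral_le_lintegral_enorm _).trans (le_of_eq ?_)
      exact lintegral_congr fun t => by rw [one_mul]
    refine (pow_le_pow_left' h2 2).trans ?_
    have hm : Measurable fun p : ℝ × ℝ => ‖FF ζ S U g p z‖ₑ := by
      unfold FF
      have h3 : Measurable fun q : (ℝ × ℝ) × ℝ => kk ζ S q.1 z.1 q.2 *
          g (z.1 - q.2, z.2 - q.2 * U z) := by
        have hpm : Measurable fun q : (ℝ × ℝ) × ℝ => ((q.1, z.1, q.2) : (ℝ × ℝ) × ℝ × ℝ) :=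
          measurable_fst.prodMk (measurable_const.prodMk measurable_snd)
        have h4 : Measurable fun q : (ℝ × ℝ) × ℝ => kk ζ S q.1 z.1 q.2 := (kk_meas h S).comp hpm
        have h5 : Measurable fun q : (ℝ × ℝ) × ℝ => g (z.1 - q.2, z.2 - q.2 * U z) := by fun_prop
        exact h4.mul h5
      exact (h3.stronglyMeasurable.integral_prod_right').measurable.enorm
    refine (TBx820.cs mu (fun _ => 1) _ measurable_const hm).trans ?_
    rw [lintegral_one]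
    calc mu Set.univ * ∫⁻ p, 1 * ‖FF ζ S U g p z‖ₑ ^ 2 ∂mu
        ≤ 1 * ∫⁻ p, 1 * ‖FF ζ S U g p z‖ₑ ^ 2 ∂mu := by gcongr; exact mu_univ
      _ = ∫⁻ p, ‖FF ζ S U g p z‖ₑ ^ 2 ∂mu := by
          rw [one_mul]
          exact lintegral_congr fun p => by rw [one_mul]
  -- one parameter
  have h2 : ∀ p : ℝ × ℝ, p.1 ∈ Set.Ioc (1 / 2 : ℝ) 1 → p.2 ∈ Set.Ioc (0 : ℝ) 1 →
      ∫⁻ z, ‖FF ζ S U g p z‖ₑ ^ 2 ≤ ENNReal.ofReal (4 * B * ∫ z, (f z) ^ 2) := by
    intro p hp hp2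
    have hp0 : (0 : ℝ) < p.1 := by linarith [hp.1]
    have hV := VV_fld hc hU hp
    have hff := gg_nice hf hp hp2
    have e0 : gg p g = cv φ 0 (gg p f) := by
      funext w
      rfl
    have hG : Nice (gat ζ S (VV p U) (gg p g)) := by
      rw [e0]
      exact gat_nice hφ hφ1 hφc h S hV.1 hV.2.1 hff
    have hdir : ∫ z, (gat ζ S (VV p U) (gg p g) z) ^ 2 ≤ B * ∫ z, (gg p f z) ^ 2 := by
      rw [e0]
      exact direct hφ hφ1 hφc h S hV.1 hV.2.1 (fun g' hg' => H _ g' hV hg') hff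
    have e1 : ∀ z, ‖FF ζ S U g p z‖ₑ ^ 2 = ENNReal.ofReal (p.1⁻¹ ^ 2) *
        (fun w : ℝ × ℝ => ‖gat ζ S (VV p U) (gg p g) w‖ₑ ^ 2) (p.1⁻¹ * (z.1 + -(p.1 * p.2)), z.2) := by
      intro z
      rw [FF_eq h S hgm hMg hp0 z, enorm_mul, mul_pow]
      have a1 : z.1 / p.1 - p.2 = p.1⁻¹ * (z.1 + -(p.1 * p.2)) := by
        field_simp
        ring
      rw [a1]
      congr 1
      rw [← TBx820.ofReal_sq]
    have hGm : Measurable fun w : ℝ × ℝ => ‖gat ζ S (VV p U) (gg p g) w‖ₑ ^ 2 :=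
      hG.1.enorm.pow_const 2
    have hscm : Measurable fun z : ℝ × ℝ =>
        (fun w : ℝ × ℝ => ‖gat ζ S (VV p U) (gg p g) w‖ₑ ^ 2) (p.1⁻¹ * (z.1 + -(p.1 * p.2)), z.2) := by
      have : Measurable fun w : ℝ × ℝ => (p.1⁻¹ * (w.1 + -(p.1 * p.2)), w.2) := by fun_prop
      exact hGm.comp this
    rw [lintegral_congr e1, lintegral_const_mul _ hscm, lint_scale (inv_pos.2 hp0) _ hGm,
      ← TBx820.nice_ofReal hG, inv_inv]
    have e2 : ENNReal.ofReal (∫ z, (gg p f z) ^ 2) = ENNReal.ofReal (p.1⁻¹ * ∫ z, (f z) ^ 2) := by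
      rw [TBx820.nice_ofReal hff, ENNReal.ofReal_mul (inv_pos.2 hp0).le, TBx820.nice_ofReal hf]
      unfold gg
      exact lint_scale hp0 p.2 (F := fun z => ‖f z‖ₑ ^ 2) (hfm.enorm.pow_const 2)
    have hf0 : 0 ≤ ∫ z, (f z) ^ 2 := integral_nonneg fun z => sq_nonneg _
    have hff0 : 0 ≤ ∫ z, (gg p f z) ^ 2 := integral_nonneg fun z => sq_nonneg _
    have e3 : ∫ z, (gg p f z) ^ 2 = p.1⁻¹ * ∫ z, (f z) ^ 2 :=
      (ENNReal.ofReal_eq_ofReal_iff hff0 (by positivity)).1 e2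
    rw [e3] at hdir
    rw [← ENNReal.ofReal_mul hp0.le, ← ENNReal.ofReal_mul (by positivity)]
    apply ENNReal.ofReal_le_ofReal
    have h3 : p.1 * ∫ z, (gat ζ S (VV p U) (gg p g) z) ^ 2 ≤ B * ∫ z, (f z) ^ 2 := by
      calc p.1 * ∫ z, (gat ζ S (VV p U) (gg p g) z) ^ 2
          ≤ p.1 * (B * (p.1⁻¹ * ∫ z, (f z) ^ 2)) := mul_le_mul_of_nonneg_left hdir hp0.le
        _ = B * ∫ z, (f z) ^ 2 := by field_simp
    have h4 : p.1⁻¹ ^ 2 ≤ 4 := by
      rw [inv_pow, inv_le_comm₀ (by positivity) (by norm_num)]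
      nlinarith [hp.1]
    calc p.1⁻¹ ^ 2 * (p.1 * ∫ z, (gat ζ S (VV p U) (gg p g) z) ^ 2)
        ≤ 4 * (B * ∫ z, (f z) ^ 2) := by
          have : 0 ≤ p.1 * ∫ z, (gat ζ S (VV p U) (gg p g) z) ^ 2 :=
            mul_nonneg hp0.le (integral_nonneg fun z => sq_nonneg _)
          gcongr
      _ = 4 * B * ∫ z, (f z) ^ 2 := by ring
  -- swap
  have hjm : Measurable fun q : (ℝ × ℝ) × (ℝ × ℝ) => ‖FF ζ S U g q.2 q.1‖ₑ ^ 2 := by
    unfold FF
    have h3 : Measurable fun q : ((ℝ × ℝ) × (ℝ × ℝ)) × ℝ => kk ζ S q.1.2 q.1.1.1 q.2 *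
        g (q.1.1.1 - q.2, q.1.1.2 - q.2 * U q.1.1) := by
      have hpm : Measurable fun q : ((ℝ × ℝ) × (ℝ × ℝ)) × ℝ =>
          ((q.1.2, q.1.1.1, q.2) : (ℝ × ℝ) × ℝ × ℝ) := by fun_prop
      have h4 : Measurable fun q : ((ℝ × ℝ) × (ℝ × ℝ)) × ℝ => kk ζ S q.1.2 q.1.1.1 q.2 :=
        (kk_meas h S).comp hpm
      have h5 : Measurable fun q : ((ℝ × ℝ) × (ℝ × ℝ)) × ℝ =>
          g (q.1.1.1 - q.2, q.1.1.2 - q.2 * U q.1.1) := by fun_prop
      exact h4.mul h5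
    exact ((h3.stronglyMeasurable.integral_prod_right').measurable.enorm).pow_const 2
  have h3 : ∫⁻ z, ‖tk (KA ζ S) U g z‖ₑ ^ 2 ≤ ENNReal.ofReal (4 * B * ∫ z, (f z) ^ 2) := by
    refine (lintegral_mono h1).trans ?_
    rw [lintegral_lintegral_swap hjm.aemeasurable]
    calc ∫⁻ p, (∫⁻ z, ‖FF ζ S U g p z‖ₑ ^ 2) ∂mu
        ≤ ∫⁻ _, ENNReal.ofReal (4 * B * ∫ z, (f z) ^ 2) ∂mu := by
          refine lintegral_mono_ae ?_
          filter_upwards [mu_ae] with p hp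
          exact h2 p hp.1 hp.2
      _ = ENNReal.ofReal (4 * B * ∫ z, (f z) ^ 2) * mu Set.univ := lintegral_const _
      _ ≤ ENNReal.ofReal (4 * B * ∫ z, (f z) ^ 2) * 1 := by gcongr; exact mu_univ
      _ = _ := mul_one _
  rw [← TBx820.nice_ofReal hT] at h3
  have hf0 : 0 ≤ ∫ z, (f z) ^ 2 := integral_nonneg fun z => sq_nonneg _
  exact (ENNReal.ofReal_le_ofReal_iff (by positivity)).1 h3

end Crest.Agent.R087.GateCx273
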