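import Crest.Agent.R087.GateDef_273
import Crest.Agent.R087.ShellOne_168

/-!
Row 87, GATE, kernel half (helper168): the average over translations `τ ∈ [0,1]` and dilations
`r ∈ [1,2]` of the gated kernel is `c/t` with smooth cut-offs.

`kid`: `kerS (psE η) S t = c⁻¹ ∫_1^2 ∫_0^1 gk ζ S (r x + τ) (r (x-t) + τ) dτ dr + k t - 2^S k (2^S t)`.
-/

set_option autoImplicit false

noncomputable section

open MeasureTheory Crest.Agent.R087.Sh0x283 Crest.Agent.R087.Sh1x283
  Crest.Agent.R087.GateDefx273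
open scoped Interval

namespace Crest.Agent.R087.GateKerx168

/-- averaged profile. -/
def Psi (ζ : ℝ → ℝ) (t : ℝ) : ℝ := ∫ θ in (0 : ℝ)..1, gt θ * ζ (θ - t)

/-- primitive. -/
def GG (ζ : ℝ → ℝ) (v : ℝ) : ℝ := ∫ t in (0 : ℝ)..v, Psi ζ t

/-- the constant. -/
def cc (ζ : ℝ → ℝ) : ℝ := GG ζ 1

/-- one-scale correction kernel. -/
def kk (η ζ : ℝ → ℝ) (t : ℝ) : ℝ := (η t - 1 + (cc ζ)⁻¹ * GG ζ t) / t

theorem gt_measurable : Measurable gt := by
  unfold gt
  refine Measurable.ite (measurableSet_lt measurable_id measurable_const) measurable_const ?_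
  refine Measurable.ite (measurableSet_lt measurable_id measurable_const) measurable_const ?_
  refine Measurable.ite (measurableSet_lt measurable_id measurable_const) measurable_const ?_
  exact Measurable.ite (measurableSet_lt measurable_id measurable_const) measurable_const
    measurable_const

theorem gt_abs (t : ℝ) : |gt t| ≤ 1 := by
  unfold gt
  split_ifs <;> simp

theorem gt_symm {t : ℝ} (h0 : t ≠ 1 / 4) (h1 : t ≠ 3 / 4) (h2 : t ≠ 0) (h3 : t ≠ 1) :
    gt (1 - t) = gt t := by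
  unfold gt
  rcases lt_or_gt_of_ne h2 with h | h
  · rw [if_neg (by linarith), if_neg (by linarith), if_neg (by linarith), if_neg (by linarith),
      if_pos h]
  · rw [if_neg (not_lt.2 h.le : ¬ t < 0)]
    rcases lt_or_gt_of_ne h0 with h' | h'
    · rw [if_neg (by linarith), if_neg (by linarith), if_neg (by linarith), if_pos (by linarith),
        if_pos h']
    · rw [if_neg (not_lt.2 h'.le : ¬ t < 1 / 4)]
      rcases lt_or_gt_of_ne h1 with h'' | h''
      · rw [if_neg (by linarith), if_neg (by linarith), if_pos (by linarith), if_pos h'']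
      · rw [if_neg (not_lt.2 h''.le : ¬ t < 3 / 4)]
        rcases lt_or_gt_of_ne h3 with h4 | h4
        · rw [if_neg (by linarith), if_pos (by linarith), if_pos h4]
        · rw [if_pos (by linarith), if_neg (by linarith)]

section
variable {ζ : ℝ → ℝ}

theorem zet_cont (h : ZetC ζ) : Continuous ζ := h.1.continuous

theorem zet_supp (h : ZetC ζ) : HasCompactSupport ζ := by
  refine HasCompactSupport.of_support_subset_isCompact (isCompact_Icc : IsCompact (Set.Icc (1/8 : ℝ) (7/8))) ?_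
  intro t ht
  exact h.2.1 t ht

theorem zet_bdd (h : ZetC ζ) : ∃ M : ℝ, 0 ≤ M ∧ ∀ t, |ζ t| ≤ M := by
  obtain ⟨M, hM⟩ := (zet_cont h).bounded_above_of_compact_support (zet_supp h)
  exact ⟨|M|, abs_nonneg _, fun t => by
    have := hM t
    rw [Real.norm_eq_abs] at this
    exact this.trans (le_abs_self _)⟩

theorem integrand_int (h : ZetC ζ) (t a b : ℝ) :
    IntervalIntegrable (fun θ => gt θ * ζ (θ - t)) volume a b := by
  obtain ⟨M, hM0, hM⟩ := zet_bdd h
  refine (intervalIntegrable_const (c := M)).mono_fun ?_ ?_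
  · exact (gt_measurable.mul ((zet_cont h).measurable.comp (measurable_id.sub_const t))).aestronglyMeasurable
  · refine Filter.Eventually.of_forall fun θ => ?_
    show ‖gt θ * ζ (θ - t)‖ ≤ ‖M‖
    rw [Real.norm_eq_abs, Real.norm_eq_abs, abs_mul, abs_of_nonneg hM0]
    calc |gt θ| * |ζ (θ - t)| ≤ 1 * M := mul_le_mul (gt_abs _) (hM _) (abs_nonneg _) zero_le_one
      _ = M := one_mul _

theorem psi_cont (h : ZetC ζ) : Continuous (Psi ζ) := by
  obtain ⟨M, hM0, hM⟩ := zet_bdd h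
  unfold Psi
  refine intervalIntegral.continuous_of_dominated_interval (bound := fun _ => M) ?_ ?_ ?_ ?_
  · intro t
    exact (gt_measurable.mul ((zet_cont h).measurable.comp (measurable_id.sub_const t))).aestronglyMeasurable
  · intro t
    refine Filter.Eventually.of_forall fun θ _ => ?_
    rw [Real.norm_eq_abs, abs_mul]
    calc |gt θ| * |ζ (θ - t)| ≤ 1 * M := mul_le_mul (gt_abs _) (hM _) (abs_nonneg _) zero_le_one
      _ = M := one_mul _
  · exact intervalIntegrable_const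
  · refine Filter.Eventually.of_forall fun θ _ => ?_
    exact continuous_const.mul ((zet_cont h).comp (continuous_const.sub continuous_id))

theorem psi_odd (h : ZetC ζ) (t : ℝ) : Psi ζ (-t) = - Psi ζ t := by
  unfold Psi
  have h1 : ∫ θ in (0 : ℝ)..1, gt θ * ζ (θ - -t) = ∫ θ in (0 : ℝ)..1, gt (1 - θ) * ζ (1 - θ - -t) := by
    rw [intervalIntegral.integral_comp_sub_left (fun θ => gt θ * ζ (θ - -t)) 1]
    simp
  rw [h1, ← intervalIntegral.integral_neg]
  refine intervalIntegral.integral_congr_ae ?_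
  have hc : ∀ a : ℝ, ∀ᵐ θ : ℝ, θ ≠ a := fun a => by
    have : volume ({a} : Set ℝ) = 0 := measure_singleton a
    exact (measure_eq_zero_iff_ae_notMem.1 this)
  filter_upwards [hc (1/4), hc (3/4), hc 0, hc 1] with θ h1 h2 h3 h4 _
  rw [gt_symm h1 h2 h3 h4]
  have : ζ (1 - θ - -t) = - ζ (θ - t) := by
    rw [← h.2.2 (θ - t)]
    congr 1
    ring
  rw [this]
  ring

theorem psi_zero (h : ZetC ζ) : Psi ζ 0 = 0 := by
  have := psi_odd h 0
  rw [neg_zero] at this
  linarith

theorem psi_supp (h : ZetC ζ) {t : ℝ} (ht : 1 ≤ |t|) : Psi ζ t = 0 := by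
  unfold Psi
  rw [intervalIntegral.integral_of_le zero_le_one]
  refine setIntegral_eq_zero_of_forall_eq_zero ?_
  intro θ hθ
  have : ζ (θ - t) = 0 := by
    by_contra hne
    have h2 := h.2.1 _ hne
    rcases le_abs.1 ht with h3 | h3
    · linarith [hθ.1, hθ.2, h2.1, h2.2]
    · linarith [hθ.1, hθ.2, h2.1, h2.2]
  rw [this, mul_zero]

theorem gg_even (h : ZetC ζ) (v : ℝ) : GG ζ (-v) = GG ζ v := by
  unfold GG
  have h1 : ∫ t in (0 : ℝ)..v, Psi ζ t = - ∫ t in (0 : ℝ)..v, Psi ζ (-t) := by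
    rw [← intervalIntegral.integral_neg]
    refine intervalIntegral.integral_congr fun t _ => ?_
    simp only [psi_odd h, neg_neg]
  rw [h1, intervalIntegral.integral_comp_neg (fun t => Psi ζ t), neg_zero,
    intervalIntegral.integral_symm]

theorem gg_large_pos (h : ZetC ζ) {v : ℝ} (hv : 1 ≤ v) : GG ζ v = cc ζ := by
  unfold cc GG
  rw [← intervalIntegral.integral_add_adjacent_intervals
    ((psi_cont h).intervalIntegrable 0 1) ((psi_cont h).intervalIntegrable 1 v)]
  have : ∫ t in (1 : ℝ)..v, Psi ζ t = 0 := by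
    rw [intervalIntegral.integral_of_le hv]
    refine setIntegral_eq_zero_of_forall_eq_zero ?_
    intro t ht
    refine psi_supp h ?_
    rw [abs_of_pos (by linarith [ht.1])]
    exact ht.1.le
  rw [this, add_zero]

theorem gg_large (h : ZetC ζ) {v : ℝ} (hv : 1 ≤ |v|) : GG ζ v = cc ζ := by
  rcases le_abs.1 hv with h1 | h1
  · exact gg_large_pos h h1
  · rw [← gg_even h]
    exact gg_large_pos h h1

theorem psi_bdd (h : ZetC ζ) : ∃ M : ℝ, 0 ≤ M ∧ ∀ t, |Psi ζ t| ≤ M := by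
  obtain ⟨M, hM0, hM⟩ := zet_bdd h
  refine ⟨M, hM0, fun t => ?_⟩
  unfold Psi
  have := intervalIntegral.norm_integral_le_of_norm_le_const (a := (0 : ℝ)) (b := 1) (C := M)
    (f := fun θ => gt θ * ζ (θ - t)) (fun θ _ => by
      rw [Real.norm_eq_abs, abs_mul]
      calc |gt θ| * |ζ (θ - t)| ≤ 1 * M := mul_le_mul (gt_abs _) (hM _) (abs_nonneg _) zero_le_one
        _ = M := one_mul _)
  simpa using this

theorem gg_cont (h : ZetC ζ) : Continuous (GG ζ) := by
  unfold GG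
  exact intervalIntegral.continuous_primitive
    (fun a b => (psi_cont h).intervalIntegrable a b) 0

theorem gg_lip (h : ZetC ζ) : ∃ M : ℝ, 0 ≤ M ∧ ∀ t, |GG ζ t| ≤ M * |t| := by
  obtain ⟨M, hM0, hM⟩ := psi_bdd h
  refine ⟨M, hM0, fun t => ?_⟩
  unfold GG
  have := intervalIntegral.norm_integral_le_of_norm_le_const (a := (0 : ℝ)) (b := t) (C := M)
    (f := Psi ζ) (fun θ _ => hM θ)
  simpa using this

theorem kk_props {η : ℝ → ℝ} (h : ZetC ζ) (hη : EtaC η) (hc : cc ζ ≠ 0) :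
    Measurable (kk η ζ) ∧ (∃ M : ℝ, ∀ t, |kk η ζ t| ≤ M) ∧ (∀ t, 1 ≤ |t| → kk η ζ t = 0) := by
  refine ⟨?_, ?_, ?_⟩
  · unfold kk
    have h1 := hη.1.continuous.measurable
    have h2 := (gg_cont h).measurable
    fun_prop
  · obtain ⟨M, hM0, hM⟩ := gg_lip h
    refine ⟨2 + |(cc ζ)⁻¹| * M, fun t => ?_⟩
    unfold kk
    rw [abs_div]
    rcases eq_or_ne t 0 with rfl | ht
    · simp; positivity
    have ht' : 0 < |t| := abs_pos.2 ht
    rw [div_le_iff₀ ht']
    have e1 : |η t - 1| ≤ 2 * |t| := by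
      rcases le_or_gt |t| (1 / 2) with h1 | h1
      · rw [hη.2.2.2.2.1 t h1, sub_self, abs_zero]; positivity
      · rw [abs_le]
        constructor
        · linarith [hη.2.2.1 t]
        · linarith [hη.2.2.2.1 t]
    calc |η t - 1 + (cc ζ)⁻¹ * GG ζ t| ≤ |η t - 1| + |(cc ζ)⁻¹ * GG ζ t| := abs_add_le _ _
      _ ≤ 2 * |t| + |(cc ζ)⁻¹| * (M * |t|) := by
          rw [abs_mul]
          gcongr
          exact hM t
      _ = (2 + |(cc ζ)⁻¹| * M) * |t| := by ring
  · intro t ht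
    unfold kk
    rw [hη.2.2.2.2.2 t ht, gg_large h ht, inv_mul_cancel₀ hc]
    simp

/-- average of one scale over the translations. -/
theorem avg_tr (h : ZetC ζ) (s : ℕ) (w t : ℝ) :
    ∫ τ in (0 : ℝ)..1, gt (Int.fract ((2 : ℝ) ^ s * (w + τ))) *
      ζ ((2 : ℝ) ^ s * (w - t + τ) - ⌊(2 : ℝ) ^ s * (w + τ)⌋) = Psi ζ ((2 : ℝ) ^ s * t) := by
  set H : ℝ → ℝ := fun v => gt (Int.fract v) * ζ (Int.fract v - (2 : ℝ) ^ s * t) with hH
  have hper : Function.Periodic H 1 := by
    intro v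
    simp only [hH, Int.fract_add_one]
  have e1 : ∀ τ : ℝ, gt (Int.fract ((2 : ℝ) ^ s * (w + τ))) *
      ζ ((2 : ℝ) ^ s * (w - t + τ) - ⌊(2 : ℝ) ^ s * (w + τ)⌋) = H ((2 : ℝ) ^ s * τ + (2 : ℝ) ^ s * w) := by
    intro τ
    have e2 : (2 : ℝ) ^ s * τ + (2 : ℝ) ^ s * w = (2 : ℝ) ^ s * (w + τ) := by ring
    rw [hH, e2]
    show _ = gt (Int.fract ((2 : ℝ) ^ s * (w + τ))) *
      ζ (Int.fract ((2 : ℝ) ^ s * (w + τ)) - (2 : ℝ) ^ s * t)
    congr 2
    rw [← Int.self_sub_floor]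
    ring
  simp_rw [e1]
  have h2 : (2 : ℝ) ^ s ≠ 0 := by positivity
  rw [intervalIntegral.integral_comp_mul_add H h2]
  have e3 : (2 : ℝ) ^ s * 1 + (2 : ℝ) ^ s * w = (2 : ℝ) ^ s * w + ((2 : ℤ) ^ s) • (1 : ℝ) := by
    simp; ring
  rw [mul_zero, zero_add, e3]
  have hHm : Measurable H := (gt_measurable.comp measurable_fract).mul
    ((zet_cont h).measurable.comp (measurable_fract.sub_const _))
  have hHi : ∀ t₁ t₂, IntervalIntegrable H volume t₁ t₂ := by
    intro a b
    obtain ⟨M, hM0, hM⟩ := zet_bdd h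
    refine (intervalIntegrable_const (c := M)).mono_fun hHm.aestronglyMeasurable ?_
    refine Filter.Eventually.of_forall fun θ => ?_
    show ‖gt (Int.fract θ) * ζ (Int.fract θ - 2 ^ s * t)‖ ≤ ‖M‖
    rw [Real.norm_eq_abs, Real.norm_eq_abs, abs_mul, abs_of_nonneg hM0]
    calc |gt (Int.fract θ)| * |ζ (Int.fract θ - 2 ^ s * t)| ≤ 1 * M :=
          mul_le_mul (gt_abs _) (hM _) (abs_nonneg _) zero_le_one
      _ = M := one_mul _
  have e5 : ∫ v in (0 : ℝ)..1, H v = Psi ζ ((2 : ℝ) ^ s * t) := by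
    unfold Psi
    rw [intervalIntegral.integral_of_le zero_le_one, intervalIntegral.integral_of_le zero_le_one,
      ← integral_Ico_eq_integral_Ioc, ← integral_Ico_eq_integral_Ioc]
    refine setIntegral_congr_fun measurableSet_Ico fun v hv => ?_
    simp only [hH, Int.fract_eq_self.2 ⟨hv.1, hv.2⟩]
  rw [hper.intervalIntegral_add_zsmul_eq ((2 : ℤ) ^ s) ((2 : ℝ) ^ s * w) hHi,
    hper.intervalIntegral_add_eq _ (0 : ℝ), zero_add, e5, zsmul_eq_mul, smul_eq_mul]
  push_cast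
  field_simp

/-- average of the gated kernel over the translations. -/
theorem avg_gk (h : ZetC ζ) (S : ℕ) (w t : ℝ) :
    ∫ τ in (0 : ℝ)..1, gk ζ S (w + τ) (w - t + τ) =
      ∑ s ∈ Finset.range S, (2 : ℝ) ^ s * Psi ζ ((2 : ℝ) ^ s * t) := by
  unfold gk
  obtain ⟨M, hM0, hM⟩ := zet_bdd h
  rw [intervalIntegral.integral_finsetSum]
  · refine Finset.sum_congr rfl fun s _ => ?_
    simp_rw [mul_assoc]
    rw [intervalIntegral.integral_const_mul, avg_tr h]
  · intro s _
    refine (intervalIntegrable_const (c := (2 : ℝ) ^ s * M)).mono_fun ?_ ?_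
    · refine Measurable.aestronglyMeasurable ?_
      have h1 := gt_measurable
      have h2 := (zet_cont h).measurable
      fun_prop
    · refine Filter.Eventually.of_forall fun τ => ?_
      show ‖(2 : ℝ) ^ s * gt (Int.fract ((2 : ℝ) ^ s * (w + τ))) *
        ζ ((2 : ℝ) ^ s * (w - t + τ) - ⌊(2 : ℝ) ^ s * (w + τ)⌋)‖ ≤ ‖(2 : ℝ) ^ s * M‖
      have h2 : (0 : ℝ) ≤ 2 ^ s := by positivity
      rw [Real.norm_eq_abs, Real.norm_eq_abs, abs_mul, abs_mul, abs_mul, abs_of_nonneg hM0,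
        abs_of_nonneg h2, mul_assoc]
      refine mul_le_mul_of_nonneg_left ?_ h2
      exact (mul_le_mul (gt_abs _) (hM _) (abs_nonneg _) zero_le_one).trans (one_mul _).le

theorem scale_int (h : ZetC ζ) (S : ℕ) {t : ℝ} (ht : t ≠ 0) :
    ∫ r in (1 : ℝ)..2, ∑ s ∈ Finset.range S, (2 : ℝ) ^ s * Psi ζ ((2 : ℝ) ^ s * (r * t)) =
      (GG ζ (2 ^ S * t) - GG ζ t) / t := by
  rw [intervalIntegral.integral_finsetSum]
  · have hs : ∀ s : ℕ, ∫ r in (1 : ℝ)..2, (2 : ℝ) ^ s * Psi ζ ((2 : ℝ) ^ s * (r * t)) =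
        (GG ζ (2 ^ (s + 1) * t) - GG ζ (2 ^ s * t)) / t := by
      intro s
      rw [intervalIntegral.integral_const_mul]
      have h2 : (2 : ℝ) ^ s * t ≠ 0 := mul_ne_zero (by positivity) ht
      have e : ∀ r : ℝ, Psi ζ ((2 : ℝ) ^ s * (r * t)) = Psi ζ (r * ((2 : ℝ) ^ s * t)) := by
        intro r; congr 1; ring
      simp_rw [e]
      rw [intervalIntegral.integral_comp_mul_right (fun v => Psi ζ v) h2, one_mul]
      have e2 : ∫ v in (2 : ℝ) ^ s * t..2 * ((2 : ℝ) ^ s * t), Psi ζ v =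
          GG ζ (2 ^ (s + 1) * t) - GG ζ (2 ^ s * t) := by
        unfold GG
        rw [intervalIntegral.integral_interval_sub_left
          ((psi_cont h).intervalIntegrable _ _) ((psi_cont h).intervalIntegrable _ _)]
        congr 1
        ring
      rw [e2, smul_eq_mul]
      field_simp
    simp_rw [hs]
    rw [← Finset.sum_div, Finset.sum_range_sub (fun s => GG ζ (2 ^ s * t)) S]
    simp
  · intro s _
    refine Continuous.intervalIntegrable ?_ _ _
    have := psi_cont h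
    fun_prop

/-- **kernel identity.** -/
theorem kid {η : ℝ → ℝ} (h : ZetC ζ) (_hη : EtaC η) (hc : cc ζ ≠ 0) (S : ℕ) (x t : ℝ) :
    kerS (S11x168.psE η) S t =
      (cc ζ)⁻¹ * (∫ r in (1 : ℝ)..2, ∫ τ in (0 : ℝ)..1, gk ζ S (r * x + τ) (r * (x - t) + τ)) +
        kk η ζ t - 2 ^ S * kk η ζ (2 ^ S * t) := by
  have e1 : ∀ r : ℝ, ∫ τ in (0 : ℝ)..1, gk ζ S (r * x + τ) (r * (x - t) + τ) =
      ∑ s ∈ Finset.range S, (2 : ℝ) ^ s * Psi ζ ((2 : ℝ) ^ s * (r * t)) := by
    intro r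
    have := avg_gk h S (r * x) (r * t)
    rw [← mul_sub] at this
    exact this
  simp_rw [e1]
  rw [ShellOnex168.kerS_psE]
  rcases eq_or_ne t 0 with rfl | ht
  · simp [kk, psi_zero h]
  rw [scale_int h S ht]
  have h2 : (2 : ℝ) ^ S ≠ 0 := by positivity
  unfold kk
  field_simp
  ring

end

end Crest.Agent.R087.GateKerx168
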