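import Mathlib

/-! Row 87: geometric sums over finite sets of integers (used in the final summation). -/

set_option autoImplicit false

noncomputable section

open MeasureTheory

namespace Crest.Agent.R087.Geox752

theorem geo_lt (s : Finset ℤ) : ∀ m : ℤ, (∀ k ∈ s, k < m) → ∑ k ∈ s, (2 : ℝ) ^ k ≤ 2 ^ m := by
  induction s using Finset.induction_on_max with
  | empty => intro m _; simp; positivity
  | insert a s hs ih =>
    intro m hm
    have ha : a ∉ s := fun h => lt_irrefl a (hs a h)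
    rw [Finset.sum_insert ha]
    have h1 := ih a hs
    have h2 : a + 1 ≤ m := hm a (Finset.mem_insert_self a s)
    calc (2 : ℝ) ^ a + ∑ k ∈ s, (2 : ℝ) ^ k ≤ 2 ^ a + 2 ^ a := by linarith
      _ = 2 ^ (a + 1) := by rw [zpow_add_one₀ (by norm_num)]; ring
      _ ≤ 2 ^ m := zpow_le_zpow_right₀ (by norm_num) h2

/-- `(∑ 2^k)² ≤ 4 ∑ 4^k` -/
theorem geo_sq (s : Finset ℤ) : (∑ k ∈ s, (2 : ℝ) ^ k) ^ 2 ≤ 4 * ∑ k ∈ s, (4 : ℝ) ^ k := by
  rcases s.eq_empty_or_nonempty with rfl | hs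
  · simp
  · have hm := s.max'_mem hs
    set m := s.max' hs with hmdef
    have h1 : ∑ k ∈ s, (2 : ℝ) ^ k ≤ 2 ^ (m + 1) :=
      geo_lt s (m + 1) (fun k hk => Int.lt_add_one_of_le (s.le_max' k hk))
    have h0 : 0 ≤ ∑ k ∈ s, (2 : ℝ) ^ k := Finset.sum_nonneg (fun k _ => by positivity)
    have h2 : (4 : ℝ) ^ m ≤ ∑ k ∈ s, (4 : ℝ) ^ k :=
      Finset.single_le_sum (f := fun k : ℤ => (4 : ℝ) ^ k) (fun k _ => by positivity) hm
    calc (∑ k ∈ s, (2 : ℝ) ^ k) ^ 2 ≤ ((2 : ℝ) ^ (m + 1)) ^ 2 := pow_le_pow_left₀ h0 h1 2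
      _ = 4 * 4 ^ m := by
        rw [zpow_add_one₀ (by norm_num), mul_pow]
        have : ((2 : ℝ) ^ m) ^ 2 = 4 ^ m := by
          rw [← zpow_natCast, ← zpow_mul, mul_comm m, zpow_mul]; norm_num
        rw [this]; ring
      _ ≤ 4 * ∑ k ∈ s, (4 : ℝ) ^ k := by linarith

/-- pointwise: `(∑ 2^k 1_{Ω_k})² ≤ 4 ∑ 4^k 1_{Ω_k}` -/
theorem geo_ind {α : Type*} (s : Finset ℤ) (Ω : ℤ → Set α) (z : α) :
    (∑ k ∈ s, (2 : ℝ) ^ k * (Ω k).indicator 1 z) ^ 2 ≤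
      4 * ∑ k ∈ s, (4 : ℝ) ^ k * (Ω k).indicator 1 z := by
  classical
  have e1 : ∀ b : ℝ, ∑ k ∈ s, b ^ k * (Ω k).indicator 1 z = ∑ k ∈ s with z ∈ Ω k, b ^ k := by
    intro b
    rw [Finset.sum_filter]
    apply Finset.sum_congr rfl
    intro k _
    by_cases h : z ∈ Ω k <;> simp [h]
  rw [e1, e1]
  exact geo_sq _

/-- integrated: `∫ (∑ 2^k 1_{Ω_k})² ≤ 4 ∑ 4^k |Ω_k|` -/
theorem geo_int {α : Type*} [MeasurableSpace α] (μ : Measure α) (s : Finset ℤ) (Ω : ℤ → Set α)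
    (hm : ∀ k ∈ s, MeasurableSet (Ω k)) (hf : ∀ k ∈ s, μ (Ω k) ≠ ⊤) :
    ∫ z, (∑ k ∈ s, (2 : ℝ) ^ k * (Ω k).indicator 1 z) ^ 2 ∂μ ≤
      4 * ∑ k ∈ s, (4 : ℝ) ^ k * (μ (Ω k)).toReal := by
  have hi : ∀ k ∈ s, Integrable (fun z => (4 : ℝ) ^ k * (Ω k).indicator (1 : α → ℝ) z) μ := by
    intro k hk
    apply Integrable.const_mul
    exact (integrable_indicator_iff (hm k hk)).2 (integrableOn_const (hf k hk) (by simp))
  calc ∫ z, (∑ k ∈ s, (2 : ℝ) ^ k * (Ω k).indicator 1 z) ^ 2 ∂μ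
      ≤ ∫ z, 4 * ∑ k ∈ s, (4 : ℝ) ^ k * (Ω k).indicator (1 : α → ℝ) z ∂μ := by
        apply integral_mono_of_nonneg (Filter.Eventually.of_forall (fun z => sq_nonneg _))
          ((integrable_finsetSum _ hi).const_mul 4)
        exact Filter.Eventually.of_forall (fun z => geo_ind s Ω z)
    _ = 4 * ∑ k ∈ s, (4 : ℝ) ^ k * (μ (Ω k)).toReal := by
        rw [integral_const_mul, integral_finsetSum _ hi]
        congr 1
        apply Finset.sum_congr rfl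
        intro k hk
        rw [integral_const_mul, integral_indicator_one (hm k hk)]
        rfl

end Crest.Agent.R087.Geox752
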