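import Mathlib

/-!
# Row 87: abstract greedy selection (tops, Vitali)

Candidates `i` with a scale `s i < S` and measurable sets `E i` of measure `≥ c > 0` inside a set of
finite measure.  There is a finite family `T` of candidates with pairwise disjoint sets such that
every candidate meets a selected one of at most the same scale index (coarser or equal).
-/

set_option autoImplicit false

open MeasureTheory
open scoped ENNReal

namespace Crest.Agent.R087.Greedyx565

/-- pairwise disjoint families of sets of measure `≥ c` inside a set of finite measure have bounded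
cardinality. -/
theorem card_le {X ι : Type*} [MeasurableSpace X] (μ : Measure X) (E : ι → Set X)
    (hE : ∀ i, MeasurableSet (E i)) {c : ℝ≥0∞} (hc : c ≠ 0) (h : ∀ i, c ≤ μ (E i))
    {Y : Set X} (hY : ∀ i, E i ⊆ Y) (hμY : μ Y ≠ ∞) :
    ∃ N : ℕ, ∀ T : Finset ι, (T : Set ι).PairwiseDisjoint E → T.card ≤ N := by
  have hfin : μ Y / c ≠ ∞ := (ENNReal.div_lt_top hμY hc).ne
  refine ⟨⌊(μ Y / c).toReal⌋₊, fun T hT => Nat.le_floor ?_⟩
  have h1 : (T.card : ℝ≥0∞) * c ≤ μ Y := by
    calc (T.card : ℝ≥0∞) * c = ∑ i ∈ T, c := by simp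
      _ ≤ ∑ i ∈ T, μ (E i) := Finset.sum_le_sum (fun i _ => h i)
      _ = μ (⋃ i ∈ T, E i) := (measure_biUnion_finset hT (fun i _ => hE i)).symm
      _ ≤ μ Y := measure_mono (Set.iUnion₂_subset (fun i _ => hY i))
  rcases eq_or_ne c ∞ with hct | hct
  · have hT0 : T.card = 0 := by
      by_contra hne
      have h2 : (T.card : ℝ≥0∞) * c = ∞ := by
        rw [hct]
        exact ENNReal.mul_top (by exact_mod_cast hne)
      exact hμY (top_le_iff.mp (h2 ▸ h1))
    rw [hT0]
    simp only [Nat.cast_zero]
    positivity
  · have h2 : (T.card : ℝ≥0∞) ≤ μ Y / c := by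
      rw [ENNReal.le_div_iff_mul_le (Or.inl hc) (Or.inl hct)]
      exact h1
    have h3 := (ENNReal.toReal_le_toReal (ENNReal.natCast_ne_top _) hfin).mpr h2
    simpa using h3

/-- **greedy selection**. -/
theorem greedy {X ι : Type*} [MeasurableSpace X] (μ : Measure X) (E : ι → Set X) (s : ι → ℕ)
    (S : ℕ) (hs : ∀ i, s i < S) (hE : ∀ i, MeasurableSet (E i)) {c : ℝ≥0∞} (hc : c ≠ 0)
    (h : ∀ i, c ≤ μ (E i)) {Y : Set X} (hY : ∀ i, E i ⊆ Y) (hμY : μ Y ≠ ∞) :
    ∃ T : Finset ι, (T : Set ι).PairwiseDisjoint E ∧
      ∀ i, ∃ t ∈ T, s t ≤ s i ∧ (E t ∩ E i).Nonempty := by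
  classical
  obtain ⟨N, hN⟩ := card_le μ E hE hc h hY hμY
  have hne : ∀ i, (E i).Nonempty := by
    intro i
    by_contra hi
    rw [Set.not_nonempty_iff_eq_empty] at hi
    have h0 := h i
    rw [hi, measure_empty] at h0
    exact hc (le_antisymm h0 zero_le)
  have key : ∀ k : ℕ, ∃ T : Finset ι, (T : Set ι).PairwiseDisjoint E ∧ (∀ t ∈ T, s t < k) ∧
      ∀ i, s i < k → ∃ t ∈ T, s t ≤ s i ∧ (E t ∩ E i).Nonempty := by
    intro k
    induction k with
    | zero => exact ⟨∅, by simp, by simp, fun i hi => absurd hi (Nat.not_lt_zero _)⟩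
    | succ k ih =>
      obtain ⟨T, hT1, hT2, hT3⟩ := ih
      -- maximal extension by candidates of scale `k`
      let P : ℕ → Prop := fun n => ∃ T' : Finset ι, T ⊆ T' ∧ (T' : Set ι).PairwiseDisjoint E ∧
        (∀ t ∈ T', t ∈ T ∨ s t = k) ∧ T'.card = n
      have hP0 : P T.card := ⟨T, subset_rfl, hT1, fun t ht => Or.inl ht, rfl⟩
      have hPN : ∀ n, P n → n ≤ N := by
        rintro n ⟨T', -, h2, -, rfl⟩
        exact hN T' h2
      have hmax := Nat.findGreatest_spec (P := P) (hPN _ hP0) hP0
      obtain ⟨T', h1, h2, h3, h4⟩ := hmax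
      refine ⟨T', h2, ?_, ?_⟩
      · intro t ht
        rcases h3 t ht with h5 | h5
        · exact lt_trans (hT2 t h5) (Nat.lt_succ_self k)
        · omega
      · intro i hi
        rcases Nat.lt_succ_iff_lt_or_eq.mp hi with h5 | h5
        · obtain ⟨t, ht, h6, h7⟩ := hT3 i h5
          exact ⟨t, h1 ht, h6, h7⟩
        · by_contra hcon
          push Not at hcon
          have hall : ∀ t ∈ T', s t ≤ s i := by
            intro t ht
            rcases h3 t ht with h6 | h6
            · have := hT2 t h6
              omega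
            · omega
          have hdis : ∀ t ∈ T', Disjoint (E t) (E i) := by
            intro t ht
            rw [Set.disjoint_iff_inter_eq_empty]
            have := hcon t ht (hall t ht)
            exact this
          have hiT : i ∉ T' := by
            intro hi'
            have h6 := hdis i hi'
            rw [disjoint_self] at h6
            exact (hne i).ne_empty h6
          have hP1 : P (T'.card + 1) := by
            refine ⟨insert i T', h1.trans (Finset.subset_insert _ _), ?_, ?_, ?_⟩
            · rw [Finset.coe_insert]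
              refine Set.PairwiseDisjoint.insert h2 ?_
              intro t ht _
              exact (hdis t ht).symm
            · intro t ht
              rcases Finset.mem_insert.mp ht with h6 | h6
              · right; rw [h6]; exact h5
              · exact h3 t h6
            · exact Finset.card_insert_of_notMem hiT
          have h8 := Nat.le_findGreatest (hPN _ hP1) hP1
          omega
  obtain ⟨T, h1, -, h3⟩ := key S
  exact ⟨T, h1, fun i => h3 i (hs i)⟩

end Crest.Agent.R087.Greedyx565
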