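import Crest.Agent.R087.E2Kf_752
import Crest.Agent.R087.Geo_752

/-! Row 87: definition-free core of the leaf SUMH. -/

set_option autoImplicit false

noncomputable section

open MeasureTheory

namespace Crest.Agent.R087.SumHcx752

open Crest.Agent.R087.Sh0x283 Crest.Agent.R087.E2x542 Crest.Agent.R087.E2Kx752

/-- disjoint sets on which `a_i ≤ |h|` : `∑ a_i² |E_i| ≤ ∫ h²` -/
theorem sum_sq_le {α : Type*} [MeasurableSpace α] {μ : Measure α} {ι : Type*} (s : Finset ι)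
    (E : ι → Set α) (a : ι → ℝ) (h : α → ℝ) (hint : Integrable (fun z => h z ^ 2) μ)
    (hm : ∀ i ∈ s, MeasurableSet (E i)) (hf : ∀ i ∈ s, μ (E i) ≠ ⊤)
    (hd : (s : Set ι).PairwiseDisjoint E) (ha : ∀ i ∈ s, 0 ≤ a i)
    (hle : ∀ i ∈ s, ∀ z ∈ E i, a i ≤ |h z|) :
    ∑ i ∈ s, a i ^ 2 * (μ (E i)).toReal ≤ ∫ z, h z ^ 2 ∂μ := by
  have h1 : ∑ i ∈ s, a i ^ 2 * (μ (E i)).toReal ≤ ∑ i ∈ s, ∫ z in E i, h z ^ 2 ∂μ := by
    apply Finset.sum_le_sum
    intro i hi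
    have e1 : a i ^ 2 * (μ (E i)).toReal = ∫ _ in E i, a i ^ 2 ∂μ := by
      rw [setIntegral_const, smul_eq_mul, mul_comm]; rfl
    rw [e1]
    apply setIntegral_mono_on (integrableOn_const (hf i hi) (by simp)) hint.integrableOn (hm i hi)
    intro z hz
    have := hle i hi z hz
    rw [← sq_abs (h z)]
    exact pow_le_pow_left₀ (ha i hi) this 2
  refine h1.trans ?_
  rw [← integral_biUnion_finset s hm hd (fun i _ => hint.integrableOn)]
  exact setIntegral_le_integral hint (Filter.Eventually.of_forall (fun z => sq_nonneg _))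

/-- entropy factor with a density that may exceed `1` -/
def ent (d : ℝ) : ℝ := (1 + Real.log (1 / min d 1)) / (min d 1) ^ 2

theorem ent_nonneg {d : ℝ} (hd : 0 < d) : 0 ≤ ent d := by
  unfold ent
  have h1 : 0 < min d 1 := lt_min hd one_pos
  have h2 : 0 ≤ Real.log (1 / min d 1) :=
    Real.log_nonneg (by rw [le_div_iff₀ h1]; linarith [min_le_right d 1])
  positivity

/-- `ent (K^A 2^-n) ≤ (1 + n) * max ...` in the form used for the tops -/
theorem ent_two_pow {d : ℝ} (hd : 0 < d) (n : ℕ) (hn : (1 / 2 : ℝ) ^ n ≤ d) :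
    ent d ≤ (1 + n) * (min d 1)⁻¹ ^ 2 := by
  unfold ent
  have h1 : 0 < min d 1 := lt_min hd one_pos
  have h3 : (1 / 2 : ℝ) ^ n ≤ min d 1 := le_min hn (pow_le_one₀ (by norm_num) (by norm_num))
  have h4 : 1 / min d 1 ≤ 2 ^ n := by
    rw [div_le_iff₀ h1]
    have : (2 : ℝ) ^ n * (1 / 2) ^ n = 1 := by rw [← mul_pow]; norm_num
    nlinarith [mul_le_mul_of_nonneg_left h3 (show (0 : ℝ) ≤ 2 ^ n by positivity)]
  have h5 : Real.log (1 / min d 1) ≤ n := by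
    calc Real.log (1 / min d 1) ≤ Real.log (2 ^ n) := Real.log_le_log (by positivity) h4
      _ = n * Real.log 2 := by rw [Real.log_pow]
      _ ≤ n * 1 := by
        apply mul_le_mul_of_nonneg_left _ (Nat.cast_nonneg n)
        have := Real.log_two_lt_d9; linarith
      _ = n := mul_one _
  rw [div_eq_mul_inv, inv_pow]
  apply mul_le_mul_of_nonneg_right _ (by positivity)
  linarith

/-- **core of SUMH**: tops with disjoint alive sets `E i ⊆ {a_i ≤ |h|}` of density `≥ d` -/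
theorem sumh_core (h : E2Kf) : ∃ c : ℝ, 0 < c ∧ ∃ C : ℝ, 0 ≤ C ∧ ∀ U : ℝ × ℝ → ℝ, Fld c U →
    ∀ K K₁ K₂ : ℝ, 1 ≤ K → K₁ ≤ K → K₂ ≤ K →
    ∀ (g : ℝ × ℝ → ℝ), Integrable (fun z => g z ^ 2) →
    ∀ (ι : Type) (s : Finset ι) (R : ι → Tube) (E : ι → Set (ℝ × ℝ)) (a : ι → ℝ) (d : ℝ),
      (∀ i ∈ s, MeasurableSet (E i)) → (∀ i ∈ s, E i ⊆ fatV U K₂ (R i)) →
      ((s : Set ι).PairwiseDisjoint E) → 0 < d →
      (∀ i ∈ s, d * (R i).len ≤ (volume (E i)).toReal) → (∀ i ∈ s, 0 ≤ a i) →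
      (∀ i ∈ s, ∀ z ∈ E i, a i ≤ |g z|) →
      ∫ z, (∑ i ∈ s, a i * (fat K₁ (R i)).indicator 1 z) ^ 2 ≤
        C * K ^ 5 * ent d * ∫ z, g z ^ 2 := by
  obtain ⟨c, hc, C, hC, hE⟩ := e2K_unif h
  refine ⟨c, hc, C, hC, ?_⟩
  intro U hU K K₁ K₂ hK hK₁ hK₂ g hg ι s R E a d hEm hEV hd hd0 hdE ha hag
  have h1 : 0 < min d 1 := lt_min hd0 one_pos
  have key := hE U hU K K₁ K₂ hK hK₁ hK₂ ι s R E a (min d 1) hEm hEV hd h1 (min_le_right _ _)
    (fun i hi => (mul_le_mul_of_nonneg_right (min_le_left d 1) (R i).len_pos.le).trans (hdE i hi)) ha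
  refine key.trans ?_
  have hfin : ∀ i ∈ s, volume (E i) ≠ ⊤ := fun i hi =>
    ne_top_of_le_ne_top (fat_ne_top K₂ (R i)) (measure_mono (fun z hz => (hEV i hi hz).1))
  have h2 := sum_sq_le s E a g hg hEm hfin hd ha hag
  have h3 := ent_nonneg hd0
  unfold ent at h3 ⊢
  exact mul_le_mul_of_nonneg_left h2 (by positivity)

end Crest.Agent.R087.SumHcx752
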