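import Crest.Agent.R087.OP0_270
import Crest.Agent.R087.SumHc_752
import Crest.Agent.R087.RemSum_435

/-! Row 87: the leaf `L_HNORM : E2K → HNORM` of `OP0_270`. -/

set_option autoImplicit false

noncomputable section

open MeasureTheory

namespace Crest.Agent.R087.HNormx752

open Crest.Agent.R087.Sh0x283 Crest.Agent.R087.E2x542 Crest.Agent.R087.E2Kx752
  Crest.Agent.R087.OP0x270 Crest.Agent.R087.SumHcx752

/-- the numerical inequality -/
theorem num (n i : ℕ) (hi : 999 * i ≤ n + 1) :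
    ((n : ℝ) + 2) ^ 3 * 2 ^ (7 * i) ≤ 3 * 10 ^ 6 * (2 : ℝ) ^ ((n : ℝ) / 16) := by
  have hi' : 999 * (i : ℝ) ≤ n + 1 := by exact_mod_cast hi
  have hn0 : (0 : ℝ) ≤ n := Nat.cast_nonneg n
  set L : ℝ := Real.log 2 with hL
  have hL1 : 0.6931 ≤ L := by have := Real.log_two_gt_d9; linarith
  have hL2 : L ≤ 0.6932 := by have := Real.log_two_lt_d9; linarith
  have e1 : (2 : ℝ) ^ (7 * i) = Real.exp (L * (7 * i)) := by
    rw [hL, ← Real.rpow_def_of_pos (by norm_num), ← Real.rpow_natCast]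
    push_cast
    rfl
  have e2 : (2 : ℝ) ^ ((n : ℝ) / 16) = Real.exp (L * (n / 16)) := by
    rw [hL, ← Real.rpow_def_of_pos (by norm_num)]
  have h1 : ((n : ℝ) + 2) / 100 ≤ Real.exp (((n : ℝ) + 2) / 100) := by
    have := Real.add_one_le_exp (((n : ℝ) + 2) / 100)
    linarith
  have h2 : (((n : ℝ) + 2) / 100) ^ 3 ≤ Real.exp (3 * (((n : ℝ) + 2) / 100)) := by
    have h3 := pow_le_pow_left₀ (by positivity) h1 3
    rw [← Real.exp_nat_mul] at h3
    exact_mod_cast h3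
  have h4 : ((n : ℝ) + 2) ^ 3 ≤ 10 ^ 6 * Real.exp (3 * (((n : ℝ) + 2) / 100)) := by
    have : ((n : ℝ) + 2) ^ 3 = 10 ^ 6 * (((n : ℝ) + 2) / 100) ^ 3 := by ring
    rw [this]
    exact mul_le_mul_of_nonneg_left h2 (by norm_num)
  have h5 : 3 * (((n : ℝ) + 2) / 100) + L * (7 * i) ≤ L * (n / 16) + 1 := by
    have a1 : L * (7 * (i : ℝ)) ≤ L * (7 * ((n + 1) / 999)) := by
      apply mul_le_mul_of_nonneg_left _ (by linarith)
      have : (i : ℝ) ≤ (n + 1) / 999 := by rw [le_div_iff₀ (by norm_num)]; linarith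
      linarith
    have a2 : 0 ≤ (L - 0.6931) * n := mul_nonneg (by linarith) hn0
    nlinarith
  rw [e1, e2]
  calc ((n : ℝ) + 2) ^ 3 * Real.exp (L * (7 * i))
      ≤ 10 ^ 6 * Real.exp (3 * (((n : ℝ) + 2) / 100)) * Real.exp (L * (7 * i)) :=
        mul_le_mul_of_nonneg_right h4 (Real.exp_pos _).le
    _ = 10 ^ 6 * Real.exp (3 * (((n : ℝ) + 2) / 100) + L * (7 * i)) := by
        rw [Real.exp_add]; ring
    _ ≤ 10 ^ 6 * Real.exp (L * (n / 16) + 1) := by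
        apply mul_le_mul_of_nonneg_left _ (by norm_num)
        exact Real.exp_le_exp.2 h5
    _ ≤ 3 * 10 ^ 6 * Real.exp (L * (n / 16)) := by
        rw [Real.exp_add]
        have h6 := Real.exp_one_lt_d9
        have h7 := Real.exp_pos (L * ((n : ℝ) / 16))
        nlinarith

/-- density of the tops: `d * max(1,·)` bookkeeping -/
theorem dens (n i : ℕ) (hi : 999 * i ≤ n + 1) (d : ℝ) (hd : d = (1 / 2 : ℝ) ^ n * 2 ^ (AA * i)) :
    0 < d ∧ (1 / 2 : ℝ) ^ n ≤ d ∧ d ^ 2 * ((min d 1)⁻¹ ^ 2) ≤ 4 * 4 ^ i := by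
  have hd0 : 0 < d := by rw [hd]; positivity
  have h1 : (1 : ℝ) ≤ 2 ^ (AA * i) := one_le_pow₀ (by norm_num)
  have h2 : (1 / 2 : ℝ) ^ n ≤ d := by
    rw [hd]
    have : (0 : ℝ) < (1 / 2) ^ n := by positivity
    nlinarith
  have h3 : d ≤ 2 * 2 ^ i := by
    have hle : AA * i ≤ n + (i + 1) := by unfold AA; omega
    rw [hd]
    calc (1 / 2 : ℝ) ^ n * 2 ^ (AA * i) ≤ (1 / 2 : ℝ) ^ n * 2 ^ (n + (i + 1)) := by
          gcongr
          norm_num
      _ = ((1 / 2 : ℝ) ^ n * 2 ^ n) * (2 * 2 ^ i) := by rw [pow_add, pow_succ]; ring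
      _ = 2 * 2 ^ i := by rw [← mul_pow]; norm_num
  refine ⟨hd0, h2, ?_⟩
  rcases le_total d 1 with h | h
  · rw [min_eq_left h]
    have : d ^ 2 * (d⁻¹ ^ 2) = 1 := by
      rw [← mul_pow, mul_inv_cancel₀ hd0.ne']; norm_num
    rw [this]
    have : (1 : ℝ) ≤ 4 ^ i := one_le_pow₀ (by norm_num)
    linarith
  · rw [min_eq_right h]
    have h4 : d ^ 2 ≤ (2 * 2 ^ i) ^ 2 := pow_le_pow_left₀ hd0.le h3 2
    have h5 : ((2 : ℝ) * 2 ^ i) ^ 2 = 4 * 4 ^ i := by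
      rw [mul_pow, ← pow_mul, mul_comm i 2, pow_mul]; norm_num
    rw [h5] at h4
    simpa using h4

theorem l_hnorm : L_HNORM := by
  intro hE
  obtain ⟨c, hc, C, hC, key⟩ := sumh_core (e2Kf hE)
  refine ⟨c, hc, 3 * 10 ^ 6 * (C * 32 ^ 5 * 4), by positivity, ?_⟩
  intro n U h lo hi hU hh N R kk ii E B hT
  have hsq : Integrable (fun z => (h z) ^ 2) := RemSumx435.nice_sq hh
  have hI0 : 0 ≤ ∫ z, (h z) ^ 2 := integral_nonneg (fun z => sq_nonneg _)
  have hii : ∀ m, 999 * ii m ≤ n + 1 := by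
    have := (RemSumx435.remsum n U h lo hi hU.1 hh N R kk ii E B hT).1
    intro m
    have h1 := this m
    unfold AA at h1
    exact h1
  -- the sum for a fixed dilation
  set F : ℕ → ℝ × ℝ → ℝ := fun i w => ∑ m with ii m = i,
    (2 : ℝ) ^ kk m * 2 ^ (AA * ii m) * (1 / 2 : ℝ) ^ n * (fat (32 * 2 ^ ii m) (R m)).indicator 1 w with hF
  have hFi : ∀ i, ∫ w, F i w ^ 2 ≤
      C * 32 ^ 5 * 4 * ((n + 1) * 2 ^ (7 * i)) * (∫ z, (h z) ^ 2) ∧ Integrable (fun w => F i w ^ 2) := by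
    intro i
    refine ⟨?_, int_sq_finset _ _ _ (fun m _ => measurableSet_fat _ _) (fun m _ => fat_ne_top _ _)⟩
    set s : Finset (Fin N) := Finset.univ.filter (fun m => ii m = i) with hs
    rcases s.eq_empty_or_nonempty with hse | ⟨m0, hm0⟩
    · have : ∀ w, F i w = 0 := by
        intro w
        simp only [hF]
        rw [← hs, hse, Finset.sum_empty]
      simp only [this]
      norm_num
      positivity
    · have hi0 : ii m0 = i := (Finset.mem_filter.1 hm0).2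
      have hi : 999 * i ≤ n + 1 := by rw [← hi0]; exact hii m0
      set d : ℝ := (1 / 2 : ℝ) ^ n * 2 ^ (AA * i) with hd
      obtain ⟨hd0, hd1, hd2⟩ := dens n i hi d hd
      have hK1 : (1 : ℝ) ≤ 32 * 2 ^ i := by
        have : (1 : ℝ) ≤ 2 ^ i := one_le_pow₀ (by norm_num)
        linarith
      have hK2 : (2 : ℝ) ^ i ≤ 32 * 2 ^ i := by
        have : (0 : ℝ) ≤ 2 ^ i := by positivity
        linarith
      have h1 := key U hU (32 * 2 ^ i) (32 * 2 ^ i) (2 ^ i) hK1 le_rfl hK2 h hsq (Fin N) s R E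
        (fun m => (2 : ℝ) ^ kk m) d (fun m _ => hT.mE m)
        (fun m hm => by
          have := (Finset.mem_filter.1 hm).2
          intro z hz
          have h2 := (hT.subE m hz).2
          rw [this] at h2
          exact h2)
        (fun m hm m' hm' hne => hT.disE m m' hne
          (by rw [(Finset.mem_filter.1 hm).2, (Finset.mem_filter.1 hm').2]))
        hd0
        (fun m hm => by
          have h2 := hT.mass m
          rw [(Finset.mem_filter.1 hm).2] at h2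
          exact h2)
        (fun m _ => by positivity)
        (fun m _ z hz => (hT.subE m hz).1.1)
      have e1 : ∀ w, F i w = d * ∑ m ∈ s, (2 : ℝ) ^ kk m * (fat (32 * 2 ^ i) (R m)).indicator 1 w := by
        intro w
        simp only [hF]
        rw [Finset.mul_sum]
        apply Finset.sum_congr rfl
        intro m hm
        rw [(Finset.mem_filter.1 hm).2, hd]
        ring
      have e2 : ∫ w, F i w ^ 2 =
          d ^ 2 * ∫ w, (∑ m ∈ s, (2 : ℝ) ^ kk m * (fat (32 * 2 ^ i) (R m)).indicator 1 w) ^ 2 := by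
        rw [← integral_const_mul]
        congr 1
        ext w
        rw [e1 w]
        ring
      rw [e2]
      have h3 := ent_two_pow hd0 n hd1
      have h4 : d ^ 2 * ent d ≤ (1 + n) * (4 * 4 ^ i) := by
        calc d ^ 2 * ent d ≤ d ^ 2 * ((1 + n) * (min d 1)⁻¹ ^ 2) :=
              mul_le_mul_of_nonneg_left h3 (sq_nonneg _)
          _ = (1 + n) * (d ^ 2 * (min d 1)⁻¹ ^ 2) := by ring
          _ ≤ (1 + n) * (4 * 4 ^ i) := mul_le_mul_of_nonneg_left hd2 (by positivity)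
      have e3 : ((32 : ℝ) * 2 ^ i) ^ 5 * (4 * 4 ^ i) = 32 ^ 5 * 4 * 2 ^ (7 * i) := by
        have : (4 : ℝ) ^ i = 2 ^ (2 * i) := by rw [pow_mul]; norm_num
        rw [this, mul_pow, ← pow_mul]
        have : (2 : ℝ) ^ (7 * i) = 2 ^ (i * 5) * 2 ^ (2 * i) := by rw [← pow_add]; congr 1; ring
        rw [this]; ring
      calc d ^ 2 * ∫ w, (∑ m ∈ s, (2 : ℝ) ^ kk m * (fat (32 * 2 ^ i) (R m)).indicator 1 w) ^ 2
          ≤ d ^ 2 * (C * (32 * 2 ^ i) ^ 5 * ent d * ∫ z, (h z) ^ 2) :=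
            mul_le_mul_of_nonneg_left h1 (sq_nonneg _)
        _ = C * (32 * 2 ^ i) ^ 5 * (d ^ 2 * ent d) * ∫ z, (h z) ^ 2 := by ring
        _ ≤ C * (32 * 2 ^ i) ^ 5 * ((1 + n) * (4 * 4 ^ i)) * ∫ z, (h z) ^ 2 := by gcongr
        _ = C * (1 + n) * (((32 : ℝ) * 2 ^ i) ^ 5 * (4 * 4 ^ i)) * ∫ z, (h z) ^ 2 := by ring
        _ = C * 32 ^ 5 * 4 * ((n + 1) * 2 ^ (7 * i)) * ∫ z, (h z) ^ 2 := by rw [e3]; ring
  -- the full sum
  set T : Finset ℕ := (Finset.range (n + 2)).filter (fun i => 999 * i ≤ n + 1) with hTd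
  have hTc : (T.card : ℝ) ≤ n + 2 := by
    have : T.card ≤ n + 2 := by
      calc T.card ≤ (Finset.range (n + 2)).card := Finset.card_filter_le _ _
        _ = n + 2 := Finset.card_range _
    exact_mod_cast this
  have hmaps : ∀ m ∈ (Finset.univ : Finset (Fin N)), ii m ∈ T := by
    intro m _
    rw [hTd, Finset.mem_filter, Finset.mem_range]
    have := hii m
    exact ⟨by omega, this⟩
  have hsum : ∀ w, ∑ m, (2 : ℝ) ^ kk m * 2 ^ (AA * ii m) * (1 / 2 : ℝ) ^ n *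
      (fat (32 * 2 ^ ii m) (R m)).indicator 1 w = ∑ i ∈ T, F i w := by
    intro w
    rw [← Finset.sum_fiberwise_of_maps_to hmaps]
  have hpt : ∀ w, (∑ m, (2 : ℝ) ^ kk m * 2 ^ (AA * ii m) * (1 / 2 : ℝ) ^ n *
      (fat (32 * 2 ^ ii m) (R m)).indicator 1 w) ^ 2 ≤ (n + 2) * ∑ i ∈ T, F i w ^ 2 := by
    intro w
    rw [hsum w]
    calc (∑ i ∈ T, F i w) ^ 2 ≤ T.card * ∑ i ∈ T, F i w ^ 2 := sq_sum_le_card_mul_sum_sq
      _ ≤ (n + 2) * ∑ i ∈ T, F i w ^ 2 :=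
        mul_le_mul_of_nonneg_right hTc (Finset.sum_nonneg (fun i _ => sq_nonneg _))
  have hintR : Integrable (fun w => ((n : ℝ) + 2) * ∑ i ∈ T, F i w ^ 2) :=
    (integrable_finsetSum _ (fun i _ => (hFi i).2)).const_mul _
  calc ∫ w, (∑ m, (2 : ℝ) ^ kk m * 2 ^ (AA * ii m) * (1 / 2 : ℝ) ^ n *
        (fat (32 * 2 ^ ii m) (R m)).indicator 1 w) ^ 2
      ≤ ∫ w, ((n : ℝ) + 2) * ∑ i ∈ T, F i w ^ 2 :=
        integral_mono_of_nonneg (Filter.Eventually.of_forall (fun w => sq_nonneg _)) hintR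
          (Filter.Eventually.of_forall hpt)
    _ = ((n : ℝ) + 2) * ∑ i ∈ T, ∫ w, F i w ^ 2 := by
        rw [integral_const_mul, integral_finsetSum _ (fun i _ => (hFi i).2)]
    _ ≤ ((n : ℝ) + 2) * ∑ i ∈ T, ((C * 32 ^ 5 * 4) * (((n : ℝ) + 2) * 2 ^ (7 * i)) * ∫ z, (h z) ^ 2) := by
        apply mul_le_mul_of_nonneg_left _ (by positivity)
        apply Finset.sum_le_sum
        intro i _
        refine (hFi i).1.trans ?_
        have : (n : ℝ) + 1 ≤ n + 2 := by linarith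
        gcongr
    _ ≤ ((n : ℝ) + 2) * ∑ i ∈ T, ((C * 32 ^ 5 * 4) *
          (3 * 10 ^ 6 * (2 : ℝ) ^ ((n : ℝ) / 16) / ((n : ℝ) + 2) ^ 2) * ∫ z, (h z) ^ 2) := by
        apply mul_le_mul_of_nonneg_left _ (by positivity)
        apply Finset.sum_le_sum
        intro i hi
        have h1 := num n i (Finset.mem_filter.1 hi).2
        have h2 : ((n : ℝ) + 2) * 2 ^ (7 * i) ≤
            3 * 10 ^ 6 * (2 : ℝ) ^ ((n : ℝ) / 16) / ((n : ℝ) + 2) ^ 2 := by
          rw [le_div_iff₀ (by positivity)]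
          calc ((n : ℝ) + 2) * 2 ^ (7 * i) * ((n : ℝ) + 2) ^ 2 = ((n : ℝ) + 2) ^ 3 * 2 ^ (7 * i) := by ring
            _ ≤ _ := h1
        gcongr
    _ = ((n : ℝ) + 2) * (T.card * ((C * 32 ^ 5 * 4) *
          (3 * 10 ^ 6 * (2 : ℝ) ^ ((n : ℝ) / 16) / ((n : ℝ) + 2) ^ 2) * ∫ z, (h z) ^ 2)) := by
        rw [Finset.sum_const, nsmul_eq_mul]
    _ ≤ ((n : ℝ) + 2) * (((n : ℝ) + 2) * ((C * 32 ^ 5 * 4) *
          (3 * 10 ^ 6 * (2 : ℝ) ^ ((n : ℝ) / 16) / ((n : ℝ) + 2) ^ 2) * ∫ z, (h z) ^ 2)) := by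
        gcongr
    _ = 3 * 10 ^ 6 * (C * 32 ^ 5 * 4) * (2 : ℝ) ^ ((n : ℝ) / 16) * ∫ z, (h z) ^ 2 := by
        have : ((n : ℝ) + 2) ≠ 0 := by positivity
        field_simp

end Crest.Agent.R087.HNormx752
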