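import Mathlib

/-!
Row 87 (S0115), operator part: one-dimensional kernel lemmas for PAIR (helper500).

* `ibp`  : `N` integrations by parts against a linear phase.
* `deep` : replacement of `Φ(q + (a+e) t)` by `Φ(p + a t)` against a mean zero wavelet.
* `shal` : the same with `N` integrations by parts, `4 ≤ |a|`.
-/

set_option autoImplicit false

noncomputable section

open MeasureTheory

namespace Crest.Agent.R087.Kerx500

theorem smooth_iter {f : ℝ → ℝ} (hf : ContDiff ℝ (⊤ : ℕ∞) f) (n : ℕ) :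
    ContDiff ℝ (⊤ : ℕ∞) (iteratedDeriv n f) := by
  induction n with
  | zero => simpa using hf
  | succ n ih =>
    rw [iteratedDeriv_succ]
    exact (contDiff_infty_iff_deriv.1 ih).2

theorem cs_iter {f : ℝ → ℝ} (hf : HasCompactSupport f) (n : ℕ) :
    HasCompactSupport (iteratedDeriv n f) := by
  induction n with
  | zero => simpa using hf
  | succ n ih =>
    rw [iteratedDeriv_succ]
    exact ih.deriv

theorem hasDeriv_iter {f : ℝ → ℝ} (hf : ContDiff ℝ (⊤ : ℕ∞) f) (n : ℕ) (x : ℝ) :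
    HasDerivAt (iteratedDeriv n f) (iteratedDeriv (n + 1) f x) x := by
  rw [iteratedDeriv_succ]
  exact ((smooth_iter hf n).differentiable (by simp) x).hasDerivAt

/-- `N` integrations by parts against a linear phase. -/
theorem ibp {f g : ℝ → ℝ} (hf : ContDiff ℝ (⊤ : ℕ∞) f) (hfc : HasCompactSupport f)
    (hg : ContDiff ℝ (⊤ : ℕ∞) g) (N : ℕ) (p a : ℝ) (ha : a ≠ 0) :
    ∫ t, f t * iteratedDeriv N g (p + a * t) =
      (-1 / a) ^ N * ∫ t, iteratedDeriv N f t * g (p + a * t) := by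
  induction N generalizing f with
  | zero => simp
  | succ N ih =>
    have h1 : ∀ x, HasDerivAt (fun t => iteratedDeriv N g (p + a * t) / a)
        (iteratedDeriv (N + 1) g (p + a * x)) x := by
      intro x
      have h2 := hasDeriv_iter hg N (p + a * x)
      have h3 : HasDerivAt (fun t : ℝ => p + a * t) a x := by
        simpa using ((hasDerivAt_id x).const_mul a).const_add p
      have h4 := (h2.comp x h3).div_const a
      have h5 : iteratedDeriv (N + 1) g (p + a * x) * a / a = iteratedDeriv (N + 1) g (p + a * x) := by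
        field_simp
      rw [h5] at h4
      exact h4
    have cg : ∀ n, Continuous (fun t => iteratedDeriv n g (p + a * t)) := fun n =>
      (smooth_iter hg n).continuous.comp (by fun_prop)
    have i1 : Integrable (f * fun t => iteratedDeriv (N + 1) g (p + a * t)) :=
      (hf.continuous.mul (cg _)).integrable_of_hasCompactSupport hfc.mul_right
    have i2 : Integrable (deriv f * fun t => iteratedDeriv N g (p + a * t) / a) := by
      have c1 : Continuous (deriv f) := (contDiff_infty_iff_deriv.1 hf).2.continuous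
      exact (c1.mul ((cg N).div_const a)).integrable_of_hasCompactSupport hfc.deriv.mul_right
    have i3 : Integrable (f * fun t => iteratedDeriv N g (p + a * t) / a) :=
      (hf.continuous.mul ((cg N).div_const a)).integrable_of_hasCompactSupport hfc.mul_right
    have key := integral_mul_deriv_eq_deriv_mul_of_integrable (u := f) (u' := deriv f)
      (v := fun t => iteratedDeriv N g (p + a * t) / a)
      (v' := fun t => iteratedDeriv (N + 1) g (p + a * t))
      (fun x _ => (hf.differentiable (by simp) x).hasDerivAt) (fun x _ => h1 x) i1 i2 i3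
    rw [key]
    have h6 : ∫ t, deriv f t * (iteratedDeriv N g (p + a * t) / a) =
        (1 / a) * ∫ t, deriv f t * iteratedDeriv N g (p + a * t) := by
      rw [← integral_const_mul]
      congr 1
      ext t
      ring
    rw [h6, ih (contDiff_infty_iff_deriv.1 hf).2 hfc.deriv]
    have h7 : ∀ t, iteratedDeriv N (deriv f) t = iteratedDeriv (N + 1) f t := fun t => by
      rw [iteratedDeriv_succ']
    simp_rw [h7]
    rw [pow_succ]
    ring

/-- integral of a function supported in `[0,1]`. -/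
theorem int01 {F : ℝ → ℝ} {B : ℝ} (hB : ∀ t ∈ Set.Icc (0:ℝ) 1, |F t| ≤ B)
    (h0 : ∀ t, t ∉ Set.Icc (0:ℝ) 1 → F t = 0) : |∫ t, F t| ≤ B := by
  rw [← setIntegral_eq_integral_of_forall_compl_eq_zero h0]
  have h1 := norm_setIntegral_le_of_norm_le_const (μ := volume) (s := Set.Icc (0:ℝ) 1) (f := F)
    (C := B) (by simp) (fun t ht => by simpa using hB t ht)
  simpa using h1

/-- wavelet profiles with derivative bounds -/
structure ZM (M : ℝ) (N : ℕ) (ζ : ℝ → ℝ) : Prop where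
  sm : ContDiff ℝ (⊤ : ℕ∞) ζ
  supp : ∀ t, ζ t ≠ 0 → 1 / 8 ≤ t ∧ t ≤ 7 / 8
  odd : ∀ t, ζ (1 - t) = -ζ t
  bd : ∀ i ≤ N, ∀ t, |iteratedDeriv i ζ t| ≤ M

/-- band profiles with derivative bounds -/
structure XM (M : ℝ) (N : ℕ) (Ξ : ℝ → ℝ) : Prop where
  sm : ContDiff ℝ (⊤ : ℕ∞) Ξ
  bd : ∀ i ≤ N, ∀ t, |iteratedDeriv i Ξ t| ≤ M

section zeta

variable {M : ℝ} {N : ℕ} {ζ : ℝ → ℝ}

theorem ZM.M0 (h : ZM M N ζ) : 0 ≤ M := (abs_nonneg _).trans (h.bd 0 (Nat.zero_le _) 0)

theorem ZM.le (h : ZM M N ζ) (t : ℝ) : |ζ t| ≤ M := by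
  have := h.bd 0 (Nat.zero_le _) t
  simpa using this

theorem ZM.cs (h : ZM M N ζ) : HasCompactSupport ζ := by
  apply HasCompactSupport.of_support_subset_isCompact (isCompact_Icc (a := (1/8 : ℝ)) (b := 7/8))
  intro t ht
  exact h.supp t ht

theorem ZM.off (h : ZM M N ζ) {t : ℝ} (ht : t ∉ Set.Icc (0:ℝ) 1) : ζ t = 0 := by
  by_contra hne
  have := h.supp t hne
  exact ht ⟨by linarith [this.1], by linarith [this.2]⟩

theorem ZM.offd (h : ZM M N ζ) (i : ℕ) {t : ℝ} (ht : t ∉ Set.Icc (0:ℝ) 1) :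
    iteratedDeriv i ζ t = 0 := by
  have h1 : ζ =ᶠ[nhds t] fun _ => 0 := by
    have h2 : (Set.Icc (1/8 : ℝ) (7/8))ᶜ ∈ nhds t := by
      apply isClosed_Icc.isOpen_compl.mem_nhds
      intro h3
      exact ht ⟨by linarith [h3.1], by linarith [h3.2]⟩
    filter_upwards [h2] with r hr
    by_contra hne
    exact hr (h.supp r hne)
  rw [h1.iteratedDeriv_eq i]
  rcases i with _ | i
  · simp
  · simp

theorem ZM.int0 (h : ZM M N ζ) : ∫ t, ζ t = 0 := by
  have h1 : ∫ t, ζ t = ∫ t, ζ (1 - t) := (integral_sub_left_eq_self ζ volume 1).symm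
  have h2 : ∫ t, ζ (1 - t) = - ∫ t, ζ t := by
    rw [← integral_neg]
    congr 1
    ext t
    exact h.odd t
  linarith

end zeta

/-- mean zero against a Lipschitz function -/
theorem mz {M : ℝ} {N : ℕ} {ζ : ℝ → ℝ} (h : ZM M N ζ) {D D' : ℝ → ℝ} {B : ℝ}
    (hD : ∀ t, HasDerivAt D (D' t) t) (hB : ∀ t ∈ Set.Icc (0:ℝ) 1, |D' t| ≤ B) :
    |∫ t, ζ t * D t| ≤ M * B := by
  have hc : Continuous D := continuous_iff_continuousAt.2 fun t => (hD t).continuousAt
  have h1 : ∫ t, ζ t * D t = ∫ t, ζ t * (D t - D 0) := by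
    have e1 : ∀ t, ζ t * (D t - D 0) = ζ t * D t - ζ t * D 0 := fun t => by ring
    simp_rw [e1]
    rw [integral_sub, integral_mul_const, h.int0]
    · simp
    · exact (h.sm.continuous.mul hc).integrable_of_hasCompactSupport h.cs.mul_right
    · exact (h.sm.continuous.integrable_of_hasCompactSupport h.cs).mul_const _
  rw [h1]
  have hB0 : 0 ≤ B := (abs_nonneg _).trans (hB 0 (by simp))
  apply int01
  · intro t ht
    rw [abs_mul]
    apply mul_le_mul (h.le t) _ (abs_nonneg _) h.M0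
    have h2 := (convex_Icc (0:ℝ) 1).norm_image_sub_le_of_norm_hasDerivWithin_le (f := D) (f' := D')
      (C := B) (fun x _ => (hD x).hasDerivWithinAt) (fun x hx => by simpa using hB x hx)
      (x := 0) (y := t) (by simp) ht
    have h3 : |D t - D 0| ≤ B * |t| := by simpa using h2
    calc |D t - D 0| ≤ B * |t| := h3
      _ ≤ B * 1 := by
        apply mul_le_mul_of_nonneg_left _ hB0
        rw [abs_of_nonneg ht.1]; exact ht.2
      _ = B := mul_one B
  · intro t ht
    rw [h.off ht, zero_mul]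

theorem lip1 {M : ℝ} {N : ℕ} {Ξ : ℝ → ℝ} (h : XM M N Ξ) (i : ℕ) (hi : i + 1 ≤ N) (x y : ℝ) :
    |iteratedDeriv i Ξ x - iteratedDeriv i Ξ y| ≤ M * |x - y| := by
  have h2 := convex_univ.norm_image_sub_le_of_norm_hasDerivWithin_le (f := iteratedDeriv i Ξ)
      (f' := iteratedDeriv (i+1) Ξ) (s := Set.univ)
      (C := M) (fun x _ => (hasDeriv_iter h.sm i x).hasDerivWithinAt)
      (fun x _ => by simpa using h.bd (i+1) hi x)
      (x := y) (y := x) (by simp) (by simp)
  simpa using h2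

/-- **DEEP kernel lemma** -/
theorem deep {M : ℝ} {N : ℕ} {ζ Ξ : ℝ → ℝ} (hz : ZM M N ζ) (hN : 1 ≤ N) (n : ℕ)
    (hx : XM M (n + 2) Ξ) {τ ε a e p q ν : ℝ} (hε : 0 ≤ ε) (hν : 0 ≤ ν)
    (he : |e| ≤ ε * ν) (hpq : ∀ t ∈ Set.Icc (0:ℝ) 1, |(q + (a + e) * t) - (p + a * t)| ≤ ν) :
    |∫ t, ζ t * (ζ (τ + ε * t) * (iteratedDeriv n Ξ (q + (a + e) * t)
        - iteratedDeriv n Ξ (p + a * t)))| ≤ 2 * M ^ 3 * (ν * (ε + |a|)) := by
  have hM := hz.M0
  have hD : ∀ t, HasDerivAt (fun t => ζ (τ + ε * t) * (iteratedDeriv n Ξ (q + (a + e) * t)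
        - iteratedDeriv n Ξ (p + a * t)))
      (iteratedDeriv 1 ζ (τ + ε * t) * ε * (iteratedDeriv n Ξ (q + (a + e) * t)
        - iteratedDeriv n Ξ (p + a * t)) +
       ζ (τ + ε * t) * (iteratedDeriv (n + 1) Ξ (q + (a + e) * t) * (a + e)
        - iteratedDeriv (n + 1) Ξ (p + a * t) * a)) t := by
    intro t
    have l1 : HasDerivAt (fun t : ℝ => τ + ε * t) ε t := by
      simpa using ((hasDerivAt_id t).const_mul ε).const_add τ
    have l2 : HasDerivAt (fun t : ℝ => q + (a + e) * t) (a + e) t := by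
      simpa using ((hasDerivAt_id t).const_mul (a + e)).const_add q
    have l3 : HasDerivAt (fun t : ℝ => p + a * t) a t := by
      simpa using ((hasDerivAt_id t).const_mul a).const_add p
    have z1 := hasDeriv_iter hz.sm 0 (τ + ε * t)
    simp only [iteratedDeriv_zero, zero_add] at z1
    exact (z1.comp t l1).mul (((hasDeriv_iter hx.sm n _).comp t l2).sub
      ((hasDeriv_iter hx.sm n _).comp t l3))
  have key := mz hz (B := M * ε * (M * ν) + M * (M * ν * |a| + M * (ε * ν))) hD ?_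
  · refine key.trans ?_
    have h1 : 0 ≤ |a| := abs_nonneg a
    have : M * (M * ε * (M * ν) + M * (M * ν * |a| + M * (ε * ν))) =
      2 * M ^ 3 * (ν * (ε + |a|)) - M ^ 3 * (ν * |a|) := by ring
    rw [this]
    have : 0 ≤ M ^ 3 * (ν * |a|) := by positivity
    linarith
  · intro t ht
    have b1 : |iteratedDeriv 1 ζ (τ + ε * t)| ≤ M := hz.bd 1 hN _
    have b2 : |iteratedDeriv n Ξ (q + (a + e) * t) - iteratedDeriv n Ξ (p + a * t)| ≤ M * ν :=
      (lip1 hx n (by omega) _ _).trans (mul_le_mul_of_nonneg_left (hpq t ht) hM)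
    have b3 : |ζ (τ + ε * t)| ≤ M := hz.le _
    have b4 : |iteratedDeriv (n + 1) Ξ (q + (a + e) * t) * (a + e)
        - iteratedDeriv (n + 1) Ξ (p + a * t) * a| ≤ M * ν * |a| + M * (ε * ν) := by
      have e1 : iteratedDeriv (n + 1) Ξ (q + (a + e) * t) * (a + e)
        - iteratedDeriv (n + 1) Ξ (p + a * t) * a =
        (iteratedDeriv (n + 1) Ξ (q + (a + e) * t) - iteratedDeriv (n + 1) Ξ (p + a * t)) * a
        + iteratedDeriv (n + 1) Ξ (q + (a + e) * t) * e := by ring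
      rw [e1]
      refine (abs_add_le _ _).trans (add_le_add ?_ ?_)
      · rw [abs_mul]
        exact mul_le_mul_of_nonneg_right ((lip1 hx (n + 1) (by omega) _ _).trans
          (mul_le_mul_of_nonneg_left (hpq t ht) hM)) (abs_nonneg _)
      · rw [abs_mul]
        exact mul_le_mul (hx.bd (n + 1) (by omega) _) he (abs_nonneg _) hM
    refine (abs_add_le _ _).trans (add_le_add ?_ ?_)
    · rw [abs_mul, abs_mul, abs_of_nonneg hε]
      exact mul_le_mul (mul_le_mul_of_nonneg_right b1 hε) b2 (abs_nonneg _) (by positivity)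
    · rw [abs_mul]
      exact mul_le_mul b3 b4 (abs_nonneg _) hM

/-- Leibniz: all derivatives on the first factor, up to `ε`. -/
theorem leib {M : ℝ} {N : ℕ} {ζ : ℝ → ℝ} (hz : ZM M N ζ) {τ ε : ℝ} (hε : 0 ≤ ε) (hε1 : ε ≤ 1)
    (t : ℝ) :
    |iteratedDeriv N (fun t => ζ t * ζ (τ + ε * t)) t - iteratedDeriv N ζ t * ζ (τ + ε * t)| ≤
      2 ^ N * M ^ 2 * ε := by
  have hM := hz.M0
  have s2 : ContDiff ℝ (⊤ : ℕ∞) (fun t : ℝ => ζ (τ + ε * t)) := hz.sm.comp (by fun_prop)
  have d2 : ∀ i t, iteratedDeriv i (fun t : ℝ => ζ (τ + ε * t)) t =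
      ε ^ i * iteratedDeriv i ζ (τ + ε * t) := by
    intro i t
    have h1 := iteratedDeriv_comp_const_mul (n := i) (f := fun w : ℝ => ζ (τ + w))
      ((hz.sm.comp (by fun_prop : ContDiff ℝ (⊤ : ℕ∞) (fun w : ℝ => τ + w))).of_le (by
        exact_mod_cast le_top)) ε
    rw [congrFun h1 t, iteratedDeriv_comp_const_add]
  have key : iteratedDeriv N (fun t => ζ t * ζ (τ + ε * t)) t =
      ∑ i ∈ Finset.range (N + 1), N.choose i * iteratedDeriv i ζ t *
        (ε ^ (N - i) * iteratedDeriv (N - i) ζ (τ + ε * t)) := by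
    rw [iteratedDeriv_fun_mul (n := N) (f := ζ) (g := fun t : ℝ => ζ (τ + ε * t))
      ((hz.sm.of_le (by exact_mod_cast le_top)).contDiffAt)
      ((s2.of_le (by exact_mod_cast le_top)).contDiffAt)]
    apply Finset.sum_congr rfl
    intro i _
    rw [d2]
  rw [key, Finset.sum_range_succ]
  simp only [Nat.choose_self, Nat.cast_one, one_mul, Nat.sub_self, pow_zero, iteratedDeriv_zero,
    add_sub_cancel_right]
  refine (Finset.abs_sum_le_sum_abs _ _).trans ?_
  have h2 : ∀ i ∈ Finset.range N, |(N.choose i : ℝ) * iteratedDeriv i ζ t *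
        (ε ^ (N - i) * iteratedDeriv (N - i) ζ (τ + ε * t))| ≤ (N.choose i : ℝ) * (M ^ 2 * ε) := by
    intro i hi
    rw [Finset.mem_range] at hi
    rw [abs_mul, abs_mul, abs_mul, abs_of_nonneg (by positivity : (0:ℝ) ≤ (N.choose i : ℝ)),
      abs_of_nonneg (by positivity : (0:ℝ) ≤ ε ^ (N - i)), mul_assoc]
    apply mul_le_mul_of_nonneg_left _ (by positivity)
    have h3 : ε ^ (N - i) ≤ ε := by
      calc ε ^ (N - i) ≤ ε ^ 1 := pow_le_pow_of_le_one hε hε1 (by omega)
        _ = ε := pow_one ε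
    calc |iteratedDeriv i ζ t| * (ε ^ (N - i) * |iteratedDeriv (N - i) ζ (τ + ε * t)|)
        ≤ M * (ε * M) := by
          apply mul_le_mul (hz.bd i (by omega) t) _ (by positivity) hM
          exact mul_le_mul h3 (hz.bd (N - i) (by omega) _) (abs_nonneg _) hε
      _ = M ^ 2 * ε := by ring
  refine (Finset.sum_le_sum h2).trans ?_
  rw [← Finset.sum_mul]
  have h3 : ∑ i ∈ Finset.range N, (N.choose i : ℝ) ≤ 2 ^ N := by
    have h4 : ∑ i ∈ Finset.range (N + 1), (N.choose i : ℝ) = 2 ^ N := by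
      exact_mod_cast Nat.sum_range_choose N
    rw [Finset.sum_range_succ] at h4
    have : (0:ℝ) ≤ (N.choose N : ℝ) := by positivity
    linarith
  calc (∑ i ∈ Finset.range N, (N.choose i : ℝ)) * (M ^ 2 * ε) ≤ 2 ^ N * (M ^ 2 * ε) :=
        mul_le_mul_of_nonneg_right h3 (by positivity)
    _ = 2 ^ N * M ^ 2 * ε := by ring

/-- inverse powers of nearby slopes -/
theorem invpow {a e : ℝ} (ha : 4 ≤ |a|) (he : |e| ≤ 1) (N : ℕ) :
    |(-1 / (a + e)) ^ N - (-1 / a) ^ N| ≤ (|a|⁻¹) ^ N * (N * 2 ^ N * |e|) ∧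
    |(-1 / (a + e)) ^ N| ≤ (|a|⁻¹) ^ N * 2 ^ N ∧ a ≠ 0 ∧ a + e ≠ 0 := by
  have ha0 : a ≠ 0 := by
    rintro rfl
    norm_num at ha
  have hae : 3 ≤ |a + e| := by
    have := abs_sub_abs_le_abs_add a e
    linarith
  have hae0 : a + e ≠ 0 := by
    intro h
    rw [h] at hae
    norm_num at hae
  have ha' : 0 < |a| := by linarith
  have hae' : 0 < |a + e| := by linarith
  have ratio : |a| / |a + e| ≤ 2 := by
    rw [div_le_iff₀ hae']
    have := abs_sub_abs_le_abs_add a e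
    linarith
  set w : ℝ := a / (a + e) with hw
  have hw2 : |w| ≤ 2 := by rw [hw, abs_div]; exact ratio
  have hw1 : |w - 1| ≤ |e| := by
    have : w - 1 = -e / (a + e) := by rw [hw]; field_simp; ring
    rw [this, abs_div, abs_neg, div_le_iff₀ hae']
    nlinarith [abs_nonneg e]
  have f1 : (-1 / (a + e)) = (-1 / a) * w := by rw [hw]; field_simp
  have f2 : |(-1 / a)| = |a|⁻¹ := by rw [abs_div, abs_neg, abs_one, one_div]
  have hpow : ∀ n : ℕ, |w ^ n - 1| ≤ n * 2 ^ n * |e| := by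
    intro n
    induction n with
    | zero => simp
    | succ n ih =>
      have : w ^ (n + 1) - 1 = w * (w ^ n - 1) + (w - 1) := by ring
      rw [this]
      have h1 : |w * (w ^ n - 1)| ≤ 2 * (n * 2 ^ n * |e|) := by
        rw [abs_mul]
        exact mul_le_mul hw2 ih (abs_nonneg _) (by norm_num)
      have h2 : (1:ℝ) ≤ 2 ^ (n + 1) := one_le_pow₀ (by norm_num)
      calc |w * (w ^ n - 1) + (w - 1)| ≤ |w * (w ^ n - 1)| + |w - 1| := abs_add_le _ _
        _ ≤ 2 * (n * 2 ^ n * |e|) + |e| := add_le_add h1 hw1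
        _ = n * 2 ^ (n + 1) * |e| + 1 * |e| := by ring
        _ ≤ n * 2 ^ (n + 1) * |e| + 2 ^ (n + 1) * |e| := by
          have := mul_le_mul_of_nonneg_right h2 (abs_nonneg e)
          linarith
        _ = ((n + 1 : ℕ) : ℝ) * 2 ^ (n + 1) * |e| := by push_cast; ring
  refine ⟨?_, ?_, ha0, hae0⟩
  · rw [f1, mul_pow]
    have : (-1 / a) ^ N * w ^ N - (-1 / a) ^ N = (-1 / a) ^ N * (w ^ N - 1) := by ring
    rw [this, abs_mul, abs_pow, f2]
    exact mul_le_mul_of_nonneg_left (hpow N) (by positivity)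
  · rw [f1, mul_pow, abs_mul, abs_pow, f2, abs_pow]
    exact mul_le_mul_of_nonneg_left (pow_le_pow_left₀ (abs_nonneg _) hw2 N) (by positivity)

set_option maxHeartbeats 1000000 in
/-- **SHALLOW kernel lemma** -/
theorem shal {M : ℝ} {N : ℕ} {ζ Ξ : ℝ → ℝ} (hz : ZM M N ζ)
    (hx : XM M (N + 2) Ξ) {τ ε a e p q ν : ℝ} (hε : 0 ≤ ε) (hε1 : ε ≤ 1) (hν : 0 ≤ ν)
    (hν1 : ν ≤ 1) (ha : 4 ≤ |a|)
    (he : |e| ≤ ε * ν) (hpq : ∀ t ∈ Set.Icc (0:ℝ) 1, |(q + (a + e) * t) - (p + a * t)| ≤ ν) :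
    |(∫ t, ζ t * (ζ (τ + ε * t) * iteratedDeriv N Ξ (q + (a + e) * t)))
        - (-1 / a) ^ N * ∫ t, iteratedDeriv N ζ t * (ζ (τ + ε * t) * Ξ (p + a * t))| ≤
      (|a|⁻¹) ^ N * ((4 ^ N + N * 2 ^ N + 1) * M ^ 3 * (ε + ν)) := by
  have hM := hz.M0
  have he1 : |e| ≤ 1 := he.trans (by nlinarith)
  obtain ⟨i1, i2, ha0, hae0⟩ := invpow ha he1 N
  set f : ℝ → ℝ := fun t => ζ t * ζ (τ + ε * t) with hf
  have s2 : ContDiff ℝ (⊤ : ℕ∞) (fun t : ℝ => ζ (τ + ε * t)) := hz.sm.comp (by fun_prop)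
  have sf : ContDiff ℝ (⊤ : ℕ∞) f := hz.sm.mul s2
  have cf : HasCompactSupport f := hz.cs.mul_right
  have e0 : ∫ t, ζ t * (ζ (τ + ε * t) * iteratedDeriv N Ξ (q + (a + e) * t)) =
      (-1 / (a + e)) ^ N * ∫ t, iteratedDeriv N f t * Ξ (q + (a + e) * t) := by
    rw [← ibp sf cf hx.sm N q (a + e) hae0]
    congr 1
    ext t
    simp only [hf]
    ring
  rw [e0]
  have cX : ∀ p a : ℝ, Continuous (fun t : ℝ => Ξ (p + a * t)) := fun p a =>
    hx.sm.continuous.comp (by fun_prop)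
  have cN : Continuous (iteratedDeriv N ζ) := (smooth_iter hz.sm N).continuous
  have csN : HasCompactSupport (iteratedDeriv N ζ) := cs_iter hz.cs N
  set g : ℝ → ℝ := fun t => iteratedDeriv N ζ t * ζ (τ + ε * t) with hg
  have cg : Continuous g := cN.mul s2.continuous
  have csg : HasCompactSupport g := csN.mul_right
  have e1 : ∫ t, iteratedDeriv N ζ t * (ζ (τ + ε * t) * Ξ (p + a * t)) = ∫ t, g t * Ξ (p + a * t) := by
    congr 1
    ext t
    simp only [hg]
    ring
  rw [e1]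
  have cfN : Continuous (iteratedDeriv N f) := (smooth_iter sf N).continuous
  have csfN : HasCompactSupport (iteratedDeriv N f) := cs_iter cf N
  have I1 : Integrable (fun t => iteratedDeriv N f t * Ξ (q + (a + e) * t)) :=
    (cfN.mul (cX _ _)).integrable_of_hasCompactSupport csfN.mul_right
  have I2 : Integrable (fun t => g t * Ξ (q + (a + e) * t)) :=
    (cg.mul (cX _ _)).integrable_of_hasCompactSupport csg.mul_right
  have I3 : Integrable (fun t => g t * Ξ (p + a * t)) :=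
    (cg.mul (cX _ _)).integrable_of_hasCompactSupport csg.mul_right
  have dec : (-1 / (a + e)) ^ N * ∫ t, iteratedDeriv N f t * Ξ (q + (a + e) * t) =
      (-1 / (a + e)) ^ N * (∫ t, (iteratedDeriv N f t - g t) * Ξ (q + (a + e) * t))
      + (-1 / (a + e)) ^ N * (∫ t, g t * (Ξ (q + (a + e) * t) - Ξ (p + a * t)))
      + (-1 / (a + e)) ^ N * ∫ t, g t * Ξ (p + a * t) := by
    have h1 : ∫ t, (iteratedDeriv N f t - g t) * Ξ (q + (a + e) * t) =
        (∫ t, iteratedDeriv N f t * Ξ (q + (a + e) * t)) - ∫ t, g t * Ξ (q + (a + e) * t) := by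
      rw [← integral_sub I1 I2]
      congr 1
      ext t
      ring
    have h2 : ∫ t, g t * (Ξ (q + (a + e) * t) - Ξ (p + a * t)) =
        (∫ t, g t * Ξ (q + (a + e) * t)) - ∫ t, g t * Ξ (p + a * t) := by
      rw [← integral_sub I2 I3]
      congr 1
      ext t
      ring
    rw [h1, h2]
    ring
  rw [dec]
  have x0 : ∀ r, |Ξ r| ≤ M := fun r => by simpa using hx.bd 0 (by omega) r
  have gb : ∀ t, |g t| ≤ M * M := fun t => by
    simp only [hg, abs_mul]
    exact mul_le_mul (hz.bd N le_rfl t) (hz.le _) (abs_nonneg _) hM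
  have goff : ∀ t, t ∉ Set.Icc (0:ℝ) 1 → g t = 0 := fun t ht => by
    simp only [hg]
    rw [hz.offd N ht, zero_mul]
  have foff : ∀ t, t ∉ Set.Icc (0:ℝ) 1 → iteratedDeriv N f t = 0 := by
    intro t ht
    have h1 : f =ᶠ[nhds t] fun _ => 0 := by
      have h2 : (Set.Icc (1/8 : ℝ) (7/8))ᶜ ∈ nhds t := by
        apply isClosed_Icc.isOpen_compl.mem_nhds
        intro h3
        exact ht ⟨by linarith [h3.1], by linarith [h3.2]⟩
      filter_upwards [h2] with r hr
      have : ζ r = 0 := by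
        by_contra hne
        exact hr (hz.supp r hne)
      simp [hf, this]
    rw [h1.iteratedDeriv_eq N]
    rcases N with _ | N
    · simp
    · simp
  have B1 : |∫ t, (iteratedDeriv N f t - g t) * Ξ (q + (a + e) * t)| ≤ 2 ^ N * M ^ 2 * ε * M := by
    apply int01
    · intro t _
      rw [abs_mul]
      exact mul_le_mul (leib hz hε hε1 t) (x0 _) (abs_nonneg _) (by positivity)
    · intro t ht
      rw [foff t ht, goff t ht]
      simp
  have B2 : |∫ t, g t * (Ξ (q + (a + e) * t) - Ξ (p + a * t))| ≤ M * M * (M * ν) := by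
    apply int01
    · intro t ht
      rw [abs_mul]
      apply mul_le_mul (gb t) _ (abs_nonneg _) (by positivity)
      have := lip1 hx 0 (by omega) (q + (a + e) * t) (p + a * t)
      simp only [iteratedDeriv_zero] at this
      exact this.trans (mul_le_mul_of_nonneg_left (hpq t ht) hM)
    · intro t ht
      rw [goff t ht, zero_mul]
  have B3 : |∫ t, g t * Ξ (p + a * t)| ≤ M * M * M := by
    apply int01
    · intro t _
      rw [abs_mul]
      exact mul_le_mul (gb t) (x0 _) (abs_nonneg _) (by positivity)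
    · intro t ht
      rw [goff t ht, zero_mul]
  set T1 := ∫ t, (iteratedDeriv N f t - g t) * Ξ (q + (a + e) * t) with hT1
  set T2 := ∫ t, g t * (Ξ (q + (a + e) * t) - Ξ (p + a * t)) with hT2
  set T3 := ∫ t, g t * Ξ (p + a * t) with hT3
  set A := (|a|⁻¹) ^ N with hA
  have hA0 : 0 ≤ A := by positivity
  have e2 : (-1 / (a + e)) ^ N * T1 + (-1 / (a + e)) ^ N * T2 + (-1 / (a + e)) ^ N * T3
      - (-1 / a) ^ N * T3 = (-1 / (a + e)) ^ N * T1 + (-1 / (a + e)) ^ N * T2 +
      ((-1 / (a + e)) ^ N - (-1 / a) ^ N) * T3 := by ring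
  rw [e2]
  have c1 : |(-1 / (a + e)) ^ N * T1| ≤ A * 2 ^ N * (2 ^ N * M ^ 2 * ε * M) := by
    rw [abs_mul]
    exact mul_le_mul i2 B1 (abs_nonneg _) (by positivity)
  have c2 : |(-1 / (a + e)) ^ N * T2| ≤ A * 2 ^ N * (M * M * (M * ν)) := by
    rw [abs_mul]
    exact mul_le_mul i2 B2 (abs_nonneg _) (by positivity)
  have c3 : |((-1 / (a + e)) ^ N - (-1 / a) ^ N) * T3| ≤ A * (N * 2 ^ N * (ε * ν)) * (M * M * M) := by
    rw [abs_mul]
    apply mul_le_mul (i1.trans _) B3 (abs_nonneg _) (by positivity)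
    exact mul_le_mul_of_nonneg_left (mul_le_mul_of_nonneg_left he (by positivity)) hA0
  have tri : |(-1 / (a + e)) ^ N * T1 + (-1 / (a + e)) ^ N * T2 +
      ((-1 / (a + e)) ^ N - (-1 / a) ^ N) * T3| ≤ _ := (abs_add_le _ _).trans
        (add_le_add ((abs_add_le _ _).trans (add_le_add c1 c2)) c3)
  refine tri.trans ?_
  have p4 : (4:ℝ) ^ N = 2 ^ N * 2 ^ N := by rw [← mul_pow]; norm_num
  have q1 : (1:ℝ) ≤ 2 ^ N := one_le_pow₀ (by norm_num)
  have q2 : ε * ν ≤ ε := by nlinarith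
  have hM3 : 0 ≤ M ^ 3 := by positivity
  have e3 : A * 2 ^ N * (2 ^ N * M ^ 2 * ε * M) + A * 2 ^ N * (M * M * (M * ν)) +
      A * (N * 2 ^ N * (ε * ν)) * (M * M * M) =
      A * (M ^ 3 * (4 ^ N * ε + 2 ^ N * ν + N * 2 ^ N * (ε * ν))) := by rw [p4]; ring
  rw [e3]
  apply mul_le_mul_of_nonneg_left _ hA0
  have e4 : (4 ^ N + N * 2 ^ N + 1) * M ^ 3 * (ε + ν) =
      M ^ 3 * ((4 ^ N + N * 2 ^ N + 1) * (ε + ν)) := by ring
  rw [e4]
  apply mul_le_mul_of_nonneg_left _ hM3
  have q3 : (2:ℝ) ^ N ≤ 4 ^ N := pow_le_pow_left₀ (by norm_num) (by norm_num) N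
  have q4 : (0:ℝ) ≤ N * 2 ^ N := by positivity
  nlinarith [mul_le_mul_of_nonneg_left q2 q4, mul_nonneg q4 hν,
    mul_le_mul_of_nonneg_right q3 hν]

end Crest.Agent.R087.Kerx500
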