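import Crest.Agent.R087.Sh1_283

/-!
Row 87, outer shell, leaf S1: one dimensional Littlewood-Paley upper bound `LPup` (helper565).
1D calculus of `cv1` + Cotlar summation, no Fourier transform.
-/

set_option autoImplicit false

noncomputable section

open MeasureTheory Crest.Agent.R087.Sh0x283 Crest.Agent.R087.Sh1x283

namespace Crest.Agent.R087.LPupx565

/-- bounded measurable functions vanishing off a set of finite measure are integrable. -/
theorem integrable_of {α : Type*} [MeasurableSpace α] {μ : Measure α} {f : α → ℝ} {S : Set α} {M : ℝ}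
    (hm : Measurable f) (hb : ∀ x, |f x| ≤ M) (hs : ∀ x, x ∉ S → f x = 0)
    (hS : μ S ≠ ⊤) : Integrable f μ := by
  have h1 : IntegrableOn f S μ :=
    Measure.integrableOn_of_bounded hS hm.aestronglyMeasurable (M := M)
      (Filter.Eventually.of_forall (fun x => by simpa [Real.norm_eq_abs] using hb x))
  refine (integrableOn_iff_integrable_of_support_subset ?_).1 h1
  intro x hx
  by_contra hxS
  exact hx (hs x hxS)

theorem nice1_integrable {g : ℝ → ℝ} (hg : Nice1 g) : Integrable g := by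
  obtain ⟨hm, ⟨M, hM⟩, ⟨R, hR⟩⟩ := hg
  refine integrable_of (S := Set.Icc (-R) R) hm hM ?_ (by simp)
  intro x hx
  apply hR
  by_contra h
  exact hx (by rw [not_lt] at h; exact abs_le.1 h)

theorem nice1_mul {f g : ℝ → ℝ} (hf : Nice1 f) (hg : Nice1 g) : Nice1 (fun y => f y * g y) := by
  obtain ⟨hm, ⟨M, hM⟩, ⟨R, hR⟩⟩ := hf
  obtain ⟨hm', ⟨M', hM'⟩, ⟨R', hR'⟩⟩ := hg
  refine ⟨hm.mul hm', ⟨M * M', fun y => ?_⟩, ⟨R, fun y hy => by simp [hR y hy]⟩⟩
  rw [abs_mul]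
  exact mul_le_mul (hM y) (hM' y) (abs_nonneg _) ((abs_nonneg _).trans (hM y))

theorem nice1_add {f g : ℝ → ℝ} (hf : Nice1 f) (hg : Nice1 g) : Nice1 (fun y => f y + g y) := by
  obtain ⟨hm, ⟨M, hM⟩, ⟨R, hR⟩⟩ := hf
  obtain ⟨hm', ⟨M', hM'⟩, ⟨R', hR'⟩⟩ := hg
  refine ⟨hm.add hm', ⟨M + M', fun y => ?_⟩, ⟨max R R', fun y hy => ?_⟩⟩
  · exact (abs_add_le _ _).trans (add_le_add (hM y) (hM' y))
  · simp [hR y (lt_of_le_of_lt (le_max_left _ _) hy), hR' y (lt_of_le_of_lt (le_max_right _ _) hy)]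

theorem nice1_smul {f : ℝ → ℝ} (c : ℝ) (hf : Nice1 f) : Nice1 (fun y => c * f y) := by
  obtain ⟨hm, ⟨M, hM⟩, ⟨R, hR⟩⟩ := hf
  refine ⟨hm.const_mul c, ⟨|c| * M, fun y => ?_⟩, ⟨R, fun y hy => by simp [hR y hy]⟩⟩
  rw [abs_mul]
  exact mul_le_mul_of_nonneg_left (hM y) (abs_nonneg _)

theorem nice1_zero : Nice1 (fun _ => (0 : ℝ)) :=
  ⟨measurable_const, ⟨0, by simp⟩, ⟨0, by simp⟩⟩

theorem nice1_sum {ι : Type*} (F : Finset ι) (f : ι → ℝ → ℝ) (hf : ∀ i ∈ F, Nice1 (f i)) :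
    Nice1 (fun y => ∑ i ∈ F, f i y) := by
  classical
  induction F using Finset.induction_on with
  | empty => simpa using nice1_zero
  | insert a s ha ih =>
    have h1 := nice1_add (hf a (Finset.mem_insert_self a s))
      (ih (fun i hi => hf i (Finset.mem_insert_of_mem hi)))
    simpa [Finset.sum_insert ha] using h1

/-- a profile of radius `ρ`: continuous, vanishing outside `[-ρ,ρ]`. -/
def Prof (ρ : ℝ) (φ : ℝ → ℝ) : Prop := Continuous φ ∧ ∀ r, ρ < |r| → φ r = 0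

theorem prof_bdd {ρ : ℝ} {φ : ℝ → ℝ} (h : Prof ρ φ) : ∃ M : ℝ, 0 ≤ M ∧ ∀ r, |φ r| ≤ M := by
  obtain ⟨C, hC⟩ := (isCompact_Icc (a := -ρ) (b := ρ)).exists_bound_of_continuousOn h.1.continuousOn
  refine ⟨max C 0, le_max_right _ _, fun r => ?_⟩
  by_cases hr : ρ < |r|
  · rw [h.2 r hr, abs_zero]; exact le_max_right _ _
  · rw [not_lt] at hr
    have := hC r (abs_le.1 hr)
    rw [Real.norm_eq_abs] at this
    exact this.trans (le_max_left _ _)

theorem prof_nice1 {ρ : ℝ} {φ : ℝ → ℝ} (h : Prof ρ φ) : Nice1 φ := by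
  obtain ⟨M, _, hM⟩ := prof_bdd h
  exact ⟨h.1.measurable, ⟨M, hM⟩, ⟨ρ, h.2⟩⟩

theorem prof_neg {ρ : ℝ} {φ : ℝ → ℝ} (h : Prof ρ φ) : Prof ρ (fun r => φ (-r)) :=
  ⟨h.1.comp continuous_neg, fun r hr => h.2 _ (by rwa [abs_neg])⟩

/-- 2D integrability of a measurable bounded function with bounded support. -/
theorem intg2 {F : ℝ × ℝ → ℝ} {M R R' : ℝ} (hm : Measurable F) (hb : ∀ z, |F z| ≤ M)
    (h1 : ∀ z : ℝ × ℝ, R < |z.1| → F z = 0) (h2 : ∀ z : ℝ × ℝ, R' < |z.2| → F z = 0) :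
    Integrable F ((volume : Measure ℝ).prod volume) := by
  refine integrable_of (S := (Set.Icc (-R) R) ×ˢ (Set.Icc (-R') R')) hm hb ?_ ?_
  · intro z hz
    by_contra hne
    apply hz
    refine ⟨?_, ?_⟩
    · by_contra h
      apply hne
      apply h1
      by_contra h'
      exact h (abs_le.1 (not_lt.1 h'))
    · by_contra h
      apply hne
      apply h2
      by_contra h'
      exact h (abs_le.1 (not_lt.1 h'))
  · rw [Measure.prod_prod]
    exact ENNReal.mul_ne_top (by simp) (by simp)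

theorem meas_shift {g : ℝ → ℝ} (hg : Measurable g) (k : ℤ) :
    Measurable (fun p : ℝ × ℝ => g (p.1 - (2 : ℝ) ^ k * p.2)) :=
  hg.comp (measurable_fst.sub (measurable_snd.const_mul _))

theorem two_zpow_pos (k : ℤ) : (0 : ℝ) < (2 : ℝ) ^ k := zpow_pos (by norm_num) k

theorem cv1_nice {ρ : ℝ} {φ : ℝ → ℝ} (hφ : Prof ρ φ) (k : ℤ) {g : ℝ → ℝ} (hg : Nice1 g) :
    Nice1 (cv1 φ k g) := by
  have hφi : Integrable φ := nice1_integrable (prof_nice1 hφ)
  obtain ⟨hm, ⟨M, hM⟩, ⟨R, hR⟩⟩ := hg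
  refine ⟨?_, ⟨∫ r, |φ r| * M, fun y => ?_⟩, ⟨R + (2 : ℝ) ^ k * ρ, fun y hy => ?_⟩⟩
  · have h1 : Measurable (fun p : ℝ × ℝ => φ p.2 * g (p.1 - (2 : ℝ) ^ k * p.2)) :=
      (hφ.1.measurable.comp measurable_snd).mul (meas_shift hm k)
    exact (h1.stronglyMeasurable.integral_prod_right (ν := volume)).measurable
  · have := norm_integral_le_of_norm_le (μ := (volume : Measure ℝ))
      (f := fun r => φ r * g (y - (2 : ℝ) ^ k * r)) (g := fun r => |φ r| * M)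
      (hφi.abs.mul_const M) (Filter.Eventually.of_forall (fun r => by
        rw [Real.norm_eq_abs, abs_mul]
        exact mul_le_mul_of_nonneg_left (hM _) (abs_nonneg _)))
    simpa [cv1, Real.norm_eq_abs] using this
  · unfold cv1
    have h0 : ∀ r, φ r * g (y - (2 : ℝ) ^ k * r) = 0 := by
      intro r
      by_cases hr : ρ < |r|
      · rw [hφ.2 r hr, zero_mul]
      · rw [not_lt] at hr
        rw [hR, mul_zero]
        have h2 : |(2 : ℝ) ^ k * r| ≤ (2 : ℝ) ^ k * ρ := by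
          rw [abs_mul, abs_of_pos (two_zpow_pos k)]
          exact mul_le_mul_of_nonneg_left hr (two_zpow_pos k).le
        have h3 : |y| ≤ |y - (2 : ℝ) ^ k * r| + |(2 : ℝ) ^ k * r| := by
          have := abs_add_le (y - (2 : ℝ) ^ k * r) ((2 : ℝ) ^ k * r)
          simpa using this
        linarith
    simp [h0]

theorem nice1_shift_integral {g : ℝ → ℝ} (a : ℝ) : ∫ y, g (y - a) = ∫ y, g y :=
  integral_sub_right_eq_self g a

/-- weighted Cauchy-Schwarz. -/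
theorem wcs {w h : ℝ → ℝ} (hw : Nice1 w) (hw0 : ∀ r, 0 ≤ w r) (hh : Measurable h)
    (hb : ∃ M : ℝ, ∀ r, |h r| ≤ M) :
    (∫ r, w r * h r) ^ 2 ≤ (∫ r, w r) * ∫ r, w r * (h r) ^ 2 := by
  obtain ⟨M, hM⟩ := hb
  have hwh : Nice1 (fun r => w r * h r) := by
    obtain ⟨hm', ⟨M', hM'⟩, ⟨R', hR'⟩⟩ := hw
    refine ⟨hm'.mul hh, ⟨M' * M, fun y => ?_⟩, ⟨R', fun y hy => by simp [hR' y hy]⟩⟩
    rw [abs_mul]
    exact mul_le_mul (hM' y) (hM y) (abs_nonneg _) ((abs_nonneg _).trans (hM' y))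
  have hwhh : Nice1 (fun r => w r * (h r) ^ 2) := by
    obtain ⟨hm', ⟨M', hM'⟩, ⟨R', hR'⟩⟩ := hwh
    refine ⟨?_, ⟨M' * M, fun y => ?_⟩, ⟨R', fun y hy => ?_⟩⟩
    · exact hw.1.mul (hh.pow_const 2)
    · show |w y * (h y) ^ 2| ≤ _
      rw [show w y * (h y) ^ 2 = (w y * h y) * h y by ring, abs_mul]
      exact mul_le_mul (hM' y) (hM y) (abs_nonneg _) ((abs_nonneg _).trans (hM' y))
    · show w y * (h y) ^ 2 = 0
      have := hR' y hy
      simp only at this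
      rw [show w y * (h y) ^ 2 = (w y * h y) * h y by ring, this, zero_mul]
  have iw := nice1_integrable hw
  have iwh := nice1_integrable hwh
  have iwhh := nice1_integrable hwhh
  have key : ∀ t : ℝ, 0 ≤ (∫ r, w r) * (t * t) + (-2 * ∫ r, w r * h r) * t + ∫ r, w r * (h r) ^ 2 := by
    intro t
    have h1 : 0 ≤ ∫ r, w r * (h r - t) ^ 2 :=
      integral_nonneg (fun r => mul_nonneg (hw0 r) (sq_nonneg _))
    have h2 : ∫ r, w r * (h r - t) ^ 2 =
        (∫ r, w r * (h r) ^ 2) - (2 * t) * (∫ r, w r * h r) + (t * t) * ∫ r, w r := by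
      rw [← integral_const_mul, ← integral_const_mul, ← integral_sub iwhh (iwh.const_mul (2 * t)),
        ← integral_add (f := fun r => w r * (h r) ^ 2 - 2 * t * (w r * h r))
          (g := fun r => t * t * w r) (iwhh.sub (iwh.const_mul (2 * t))) (iw.const_mul (t * t))]
      refine integral_congr_ae (Filter.Eventually.of_forall (fun r => ?_))
      simp only
      ring
    rw [h2] at h1
    linarith
  have := discrim_le_zero key
  unfold discrim at this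
  nlinarith [this]

theorem prof_abs {ρ : ℝ} {φ : ℝ → ℝ} (h : Prof ρ φ) : Prof ρ (fun r => |φ r|) :=
  ⟨h.1.abs, fun r hr => by simp [h.2 r hr]⟩

/-- Young/Minkowski: `L²` bound of `cv1`. -/
theorem cv1_sq {ρ : ℝ} {φ : ℝ → ℝ} (hφ : Prof ρ φ) (k : ℤ) {g : ℝ → ℝ} (hg : Nice1 g) :
    ∫ y, (cv1 φ k g y) ^ 2 ≤ (∫ r, |φ r|) ^ 2 * ∫ y, (g y) ^ 2 := by
  have hA : Nice1 (fun r => |φ r|) := prof_nice1 (prof_abs hφ)
  have hg2 : Nice1 (fun y => (g y) ^ 2) := by simpa [sq] using nice1_mul hg hg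
  -- pointwise
  have hp : ∀ y, (cv1 φ k g y) ^ 2 ≤ (∫ r, |φ r|) * ∫ r, |φ r| * (g (y - (2 : ℝ) ^ k * r)) ^ 2 := by
    intro y
    obtain ⟨M, hM⟩ := hg.2.1
    have h1 : |cv1 φ k g y| ≤ ∫ r, |φ r| * |g (y - (2 : ℝ) ^ k * r)| := by
      have := norm_integral_le_integral_norm (μ := (volume : Measure ℝ))
        (fun r => φ r * g (y - (2 : ℝ) ^ k * r))
      simpa [cv1, Real.norm_eq_abs, abs_mul] using this
    have h2 := wcs (w := fun r => |φ r|) (h := fun r => |g (y - (2 : ℝ) ^ k * r)|) hA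
      (fun r => abs_nonneg _) ((hg.1.comp (measurable_const.sub (measurable_id.const_mul _))).abs)
      ⟨M, fun r => by rw [abs_abs]; exact hM _⟩
    calc (cv1 φ k g y) ^ 2 = |cv1 φ k g y| ^ 2 := (sq_abs _).symm
      _ ≤ (∫ r, |φ r| * |g (y - (2 : ℝ) ^ k * r)|) ^ 2 := by gcongr
      _ ≤ _ := by simpa [sq_abs] using h2
  obtain ⟨M2, hM2⟩ := hg2.2.1
  obtain ⟨R2, hR2⟩ := hg2.2.2
  obtain ⟨MA, hMA⟩ := hA.2.1
  -- Fubini
  have hint : Integrable (fun p : ℝ × ℝ => |φ p.2| * (g (p.1 - (2 : ℝ) ^ k * p.2)) ^ 2)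
      ((volume : Measure ℝ).prod volume) := by
    refine intg2 (M := MA * M2) (R := R2 + (2 : ℝ) ^ k * ρ) (R' := ρ) ?_ ?_ ?_ ?_
    · exact (hA.1.comp measurable_snd).mul ((meas_shift hg.1 k).pow_const 2)
    · intro z
      rw [abs_mul]
      exact mul_le_mul (hMA _) (hM2 _) (abs_nonneg _) ((abs_nonneg _).trans (hMA z.2))
    · intro z hz
      by_cases hr : ρ < |z.2|
      · simp [hφ.2 _ hr]
      · rw [not_lt] at hr
        have h2 : |(2 : ℝ) ^ k * z.2| ≤ (2 : ℝ) ^ k * ρ := by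
          rw [abs_mul, abs_of_pos (two_zpow_pos k)]
          exact mul_le_mul_of_nonneg_left hr (two_zpow_pos k).le
        have h3 : |z.1| ≤ |z.1 - (2 : ℝ) ^ k * z.2| + |(2 : ℝ) ^ k * z.2| := by
          have := abs_add_le (z.1 - (2 : ℝ) ^ k * z.2) ((2 : ℝ) ^ k * z.2)
          simpa using this
        have h4 := hR2 (z.1 - (2 : ℝ) ^ k * z.2) (by linarith)
        simp only at h4
        rw [h4, mul_zero]
    · intro z hz
      simp [hφ.2 _ hz]
  have hsw : ∫ y, ∫ r, |φ r| * (g (y - (2 : ℝ) ^ k * r)) ^ 2 = (∫ r, |φ r|) * ∫ y, (g y) ^ 2 := by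
    rw [integral_integral_swap hint]
    have : ∀ r, ∫ y, |φ r| * (g (y - (2 : ℝ) ^ k * r)) ^ 2 = |φ r| * ∫ y, (g y) ^ 2 := by
      intro r
      rw [integral_const_mul]
      congr 1
      exact integral_sub_right_eq_self (fun y => (g y) ^ 2) _
    simp_rw [this]
    rw [integral_mul_const]
  have hI : Integrable (fun y => ∫ r, |φ r| * (g (y - (2 : ℝ) ^ k * r)) ^ 2) := hint.integral_prod_left
  have hL : Integrable (fun y => (cv1 φ k g y) ^ 2) := by
    have := nice1_mul (cv1_nice hφ k hg) (cv1_nice hφ k hg)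
    simpa [sq] using nice1_integrable this
  calc ∫ y, (cv1 φ k g y) ^ 2
      ≤ ∫ y, (∫ r, |φ r|) * ∫ r, |φ r| * (g (y - (2 : ℝ) ^ k * r)) ^ 2 :=
        integral_mono hL (hI.const_mul _) hp
    _ = (∫ r, |φ r|) * ((∫ r, |φ r|) * ∫ y, (g y) ^ 2) := by
        rw [integral_const_mul, hsw]
    _ = _ := by ring

/-- adjoint. -/
theorem cv1_adj {ρ : ℝ} {φ : ℝ → ℝ} (hφ : Prof ρ φ) (k : ℤ) {f g : ℝ → ℝ} (hf : Nice1 f)
    (hg : Nice1 g) :
    ∫ y, cv1 φ k f y * g y = ∫ y, f y * cv1 (fun r => φ (-r)) k g y := by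
  obtain ⟨Mf, hMf⟩ := hf.2.1
  obtain ⟨Mg, hMg⟩ := hg.2.1
  obtain ⟨Rf, hRf⟩ := hf.2.2
  obtain ⟨Rg, hRg⟩ := hg.2.2
  obtain ⟨MA, hMA0, hMA⟩ := prof_bdd hφ
  have hint : Integrable (fun p : ℝ × ℝ => φ p.2 * f (p.1 - (2 : ℝ) ^ k * p.2) * g p.1)
      ((volume : Measure ℝ).prod volume) := by
    refine intg2 (M := MA * Mf * Mg) (R := Rg) (R' := ρ) ?_ ?_ ?_ ?_
    · exact ((hφ.1.measurable.comp measurable_snd).mul (meas_shift hf.1 k)).mul
        (hg.1.comp measurable_fst)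
    · intro z
      rw [abs_mul, abs_mul]
      have h1 : |φ z.2| * |f (z.1 - (2 : ℝ) ^ k * z.2)| ≤ MA * Mf :=
        mul_le_mul (hMA _) (hMf _) (abs_nonneg _) hMA0
      exact mul_le_mul h1 (hMg _) (abs_nonneg _) (le_trans (by positivity) h1)
    · intro z hz
      rw [hRg _ hz, mul_zero]
    · intro z hz
      simp [hφ.2 _ hz]
  have h1 : ∫ y, cv1 φ k f y * g y = ∫ y, ∫ r, φ r * f (y - (2 : ℝ) ^ k * r) * g y := by
    refine integral_congr_ae (Filter.Eventually.of_forall (fun y => ?_))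
    simp only [cv1]
    rw [integral_mul_const]
  have hint2 : Integrable (fun p : ℝ × ℝ => f p.1 * (φ (-p.2) * g (p.1 - (2 : ℝ) ^ k * p.2)))
      ((volume : Measure ℝ).prod volume) := by
    refine intg2 (M := Mf * (MA * Mg)) (R := Rf) (R' := ρ) ?_ ?_ ?_ ?_
    · exact (hf.1.comp measurable_fst).mul
        ((hφ.1.measurable.comp measurable_snd.neg).mul (meas_shift hg.1 k))
    · intro z
      rw [abs_mul, abs_mul]
      have h1 : |φ (-z.2)| * |g (z.1 - (2 : ℝ) ^ k * z.2)| ≤ MA * Mg :=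
        mul_le_mul (hMA _) (hMg _) (abs_nonneg _) hMA0
      exact mul_le_mul (hMf _) h1 (by positivity) ((abs_nonneg _).trans (hMf z.1))
    · intro z hz
      rw [hRf _ hz, zero_mul]
    · intro z hz
      rw [hφ.2 (-z.2) (by rwa [abs_neg])]; ring
  have h2 : ∫ y, f y * cv1 (fun r => φ (-r)) k g y =
      ∫ y, ∫ r, f y * (φ (-r) * g (y - (2 : ℝ) ^ k * r)) := by
    refine integral_congr_ae (Filter.Eventually.of_forall (fun y => ?_))
    simp only [cv1]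
    rw [integral_const_mul]
  have e1 : ∫ y, ∫ r, φ r * f (y - (2 : ℝ) ^ k * r) * g y =
      ∫ r, ∫ y, φ r * f (y - (2 : ℝ) ^ k * r) * g y := integral_integral_swap hint
  have e2 : ∫ y, ∫ r, f y * (φ (-r) * g (y - (2 : ℝ) ^ k * r)) =
      ∫ r, ∫ y, f y * (φ (-r) * g (y - (2 : ℝ) ^ k * r)) := integral_integral_swap hint2
  rw [h1, h2, e1, e2]
  rw [← integral_neg_eq_self (fun r => ∫ y, f y * (φ (-r) * g (y - (2 : ℝ) ^ k * r)))]
  refine integral_congr_ae (Filter.Eventually.of_forall (fun r => ?_))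
  simp only [neg_neg]
  rw [← integral_sub_right_eq_self (fun y => f y * (φ r * g (y - (2 : ℝ) ^ k * -r))) ((2 : ℝ) ^ k * r)]
  refine integral_congr_ae (Filter.Eventually.of_forall (fun y => ?_))
  simp only
  rw [show y - (2 : ℝ) ^ k * r - (2 : ℝ) ^ k * -r = y by ring]
  ring

/-- the double kernel. -/
def AK (φ ψ : ℝ → ℝ) (k l : ℤ) (u : ℝ) : ℝ :=
  ∫ r, φ r * ψ ((u - (2 : ℝ) ^ k * r) / (2 : ℝ) ^ l)

/-- composition of two `cv1` in kernel form. -/
theorem cv1_cv1 {ρ σ : ℝ} {φ ψ : ℝ → ℝ} (hφ : Prof ρ φ) (hψ : Prof σ ψ) (k l : ℤ) {f : ℝ → ℝ}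
    (hf : Nice1 f) (y : ℝ) :
    cv1 φ k (cv1 ψ l f) y = ((2 : ℝ) ^ l)⁻¹ * ∫ u, f (y - u) * AK φ ψ k l u := by
  obtain ⟨Mf, hMf⟩ := hf.2.1
  obtain ⟨Rf, hRf⟩ := hf.2.2
  obtain ⟨MA, hMA0, hMA⟩ := prof_bdd hφ
  obtain ⟨MB, hMB0, hMB⟩ := prof_bdd hψ
  have hl := two_zpow_pos l
  have hin : ∀ r, cv1 ψ l f (y - (2 : ℝ) ^ k * r) =
      ((2 : ℝ) ^ l)⁻¹ * ∫ u, ψ ((u - (2 : ℝ) ^ k * r) / (2 : ℝ) ^ l) * f (y - u) := by
    intro r
    have h1 := integral_sub_right_eq_self (μ := (volume : Measure ℝ))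
      (fun u : ℝ => ψ (u / (2 : ℝ) ^ l) * f (y - (2 : ℝ) ^ k * r - u)) ((2 : ℝ) ^ k * r)
    have h2 := MeasureTheory.Measure.integral_comp_div
      (fun s => ψ s * f (y - (2 : ℝ) ^ k * r - (2 : ℝ) ^ l * s)) ((2 : ℝ) ^ l)
    unfold cv1
    have h3 : ∫ u, ψ ((u - (2 : ℝ) ^ k * r) / (2 : ℝ) ^ l) * f (y - u) =
        ∫ u, ψ (u / (2 : ℝ) ^ l) * f (y - (2 : ℝ) ^ k * r - u) := by
      rw [← h1]
      refine integral_congr_ae (Filter.Eventually.of_forall (fun u => ?_))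
      simp only
      congr 2
      ring
    have h4 : ∫ u, ψ (u / (2 : ℝ) ^ l) * f (y - (2 : ℝ) ^ k * r - u) =
        (2 : ℝ) ^ l * ∫ s, ψ s * f (y - (2 : ℝ) ^ k * r - (2 : ℝ) ^ l * s) := by
      rw [abs_of_pos hl, smul_eq_mul] at h2
      rw [← h2]
      refine integral_congr_ae (Filter.Eventually.of_forall (fun u => ?_))
      simp only
      rw [mul_div_cancel₀ _ hl.ne']
    rw [h3, h4, ← mul_assoc, inv_mul_cancel₀ hl.ne', one_mul]
  have hint : Integrable (fun p : ℝ × ℝ =>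
      φ p.1 * (ψ ((p.2 - (2 : ℝ) ^ k * p.1) / (2 : ℝ) ^ l) * f (y - p.2)))
      ((volume : Measure ℝ).prod volume) := by
    refine intg2 (M := MA * (MB * Mf)) (R := ρ) (R' := |y| + Rf) ?_ ?_ ?_ ?_
    · refine (hφ.1.measurable.comp measurable_fst).mul ((hψ.1.measurable.comp ?_).mul (hf.1.comp ?_))
      · exact (measurable_snd.sub (measurable_fst.const_mul _)).div_const _
      · exact measurable_const.sub measurable_snd
    · intro z
      rw [abs_mul, abs_mul]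
      have h1 := mul_le_mul (hMB ((z.2 - (2 : ℝ) ^ k * z.1) / (2 : ℝ) ^ l)) (hMf (y - z.2))
        (abs_nonneg _) hMB0
      exact mul_le_mul (hMA _) h1 (by positivity) hMA0
    · intro z hz
      rw [hφ.2 _ hz, zero_mul]
    · intro z hz
      rw [hRf (y - z.2), mul_zero, mul_zero]
      have h3 : |z.2| ≤ |y - z.2| + |y| := by
        have := abs_sub_le z.2 y 0
        rw [sub_zero, sub_zero, abs_sub_comm] at this
        linarith
      linarith
  have h5 : cv1 φ k (cv1 ψ l f) y = ∫ r, φ r * cv1 ψ l f (y - (2 : ℝ) ^ k * r) := rfl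
  rw [h5]
  simp_rw [hin]
  have h6 : ∀ r, φ r * (((2 : ℝ) ^ l)⁻¹ * ∫ u, ψ ((u - (2 : ℝ) ^ k * r) / (2 : ℝ) ^ l) * f (y - u)) =
      ((2 : ℝ) ^ l)⁻¹ * ∫ u, φ r * (ψ ((u - (2 : ℝ) ^ k * r) / (2 : ℝ) ^ l) * f (y - u)) := by
    intro r
    rw [integral_const_mul]; ring
  simp_rw [h6]
  rw [integral_const_mul, integral_integral_swap hint]
  congr 1
  refine integral_congr_ae (Filter.Eventually.of_forall (fun u => ?_))
  simp only [AK]
  rw [← integral_const_mul]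
  refine integral_congr_ae (Filter.Eventually.of_forall (fun r => ?_))
  simp only
  ring

/-- smooth profile pair: `ω` is `C¹`, both `ω` and `deriv ω` vanish off `[-ρ,ρ]`. -/
theorem prof_deriv {ρ : ℝ} {ω : ℝ → ℝ} (h : ContDiff ℝ 1 ω) (hs : ∀ r, ρ < |r| → ω r = 0) :
    Prof ρ ω ∧ Prof ρ (deriv ω) := by
  refine ⟨⟨h.continuous, hs⟩, ⟨h.continuous_deriv le_rfl, fun r hr => ?_⟩⟩
  have hev : ω =ᶠ[nhds r] fun _ => 0 := by
    have ho : IsOpen {r : ℝ | ρ < |r|} := isOpen_lt continuous_const continuous_abs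
    filter_upwards [ho.mem_nhds hr] with s hs'
    exact hs s hs'
  rw [hev.deriv_eq]
  simp

/-- integration by parts in the double kernel. -/
theorem AK_ibp {ρ σ : ℝ} {ω ψ : ℝ → ℝ} (hω : ContDiff ℝ 1 ω) (hωs : ∀ r, ρ < |r| → ω r = 0)
    (hψ : ContDiff ℝ 1 ψ) (hψs : ∀ r, σ < |r| → ψ r = 0) (k l : ℤ) (u : ℝ) :
    AK (deriv ω) ψ k l u = (2 : ℝ) ^ (k - l) * AK ω (deriv ψ) k l u := by
  obtain ⟨pω, pω'⟩ := prof_deriv hω hωs
  obtain ⟨pψ, pψ'⟩ := prof_deriv hψ hψs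
  have hl := two_zpow_pos l
  set v : ℝ → ℝ := fun r => ψ ((u - (2 : ℝ) ^ k * r) / (2 : ℝ) ^ l) with hv
  set v' : ℝ → ℝ := fun r => deriv ψ ((u - (2 : ℝ) ^ k * r) / (2 : ℝ) ^ l) * (-(2 : ℝ) ^ (k - l)) with hv'
  have hder : ∀ r, HasDerivAt v (v' r) r := by
    intro r
    have h1 : HasDerivAt (fun r : ℝ => (u - (2 : ℝ) ^ k * r) / (2 : ℝ) ^ l) (-(2 : ℝ) ^ (k - l)) r := by
      have h0 : HasDerivAt (fun r : ℝ => (u - (2 : ℝ) ^ k * r) / (2 : ℝ) ^ l)
          ((0 - (2 : ℝ) ^ k * 1) / (2 : ℝ) ^ l) r :=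
        ((hasDerivAt_const r u).sub ((hasDerivAt_id r).const_mul _)).div_const _
      convert h0 using 1
      rw [zpow_sub₀ (by norm_num : (2 : ℝ) ≠ 0)]
      ring
    have h2 : HasDerivAt ψ (deriv ψ ((u - (2 : ℝ) ^ k * r) / (2 : ℝ) ^ l))
        ((u - (2 : ℝ) ^ k * r) / (2 : ℝ) ^ l) :=
      ((hψ.differentiable one_ne_zero) _).hasDerivAt
    exact h2.comp r h1
  have cv : Continuous v := pψ.1.comp (by fun_prop)
  have cv' : Continuous v' := (pψ'.1.comp (by fun_prop)).mul continuous_const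
  have iprod : ∀ (a b : ℝ → ℝ), Prof ρ a → Continuous b → Integrable (a * b) := by
    intro a b ha hb
    have hp : Prof ρ (a * b) := ⟨ha.1.mul hb, fun r hr => by simp [ha.2 r hr]⟩
    exact nice1_integrable (prof_nice1 hp)
  have ibp := integral_mul_deriv_eq_deriv_mul_of_integrable (A := ℝ) (u := ω) (u' := deriv ω) (v := v) (v' := v')
    (fun x _ => ((hω.differentiable one_ne_zero) x).hasDerivAt) (fun x _ => hder x)
    (iprod _ _ pω cv') (iprod _ _ pω' cv) (iprod _ _ pω cv)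
  have h3 : AK (deriv ω) ψ k l u = ∫ r, deriv ω r * v r := rfl
  have h4 : ∫ r, deriv ω r * v r = - ∫ r, ω r * v' r := by rw [ibp, neg_neg]
  rw [h3, h4]
  unfold AK
  rw [← integral_neg, ← integral_const_mul]
  refine integral_congr_ae (Filter.Eventually.of_forall (fun r => ?_))
  simp only [hv']
  ring

/-- the exchange of a derivative between two scales. -/
theorem cv1_exch {ρ σ : ℝ} {ω ψ : ℝ → ℝ} (hω : ContDiff ℝ 1 ω) (hωs : ∀ r, ρ < |r| → ω r = 0)
    (hψ : ContDiff ℝ 1 ψ) (hψs : ∀ r, σ < |r| → ψ r = 0) (k l : ℤ) {f : ℝ → ℝ} (hf : Nice1 f) (y : ℝ) :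
    cv1 (deriv ω) k (cv1 ψ l f) y = (2 : ℝ) ^ (k - l) * cv1 ω k (cv1 (deriv ψ) l f) y := by
  obtain ⟨pω, pω'⟩ := prof_deriv hω hωs
  obtain ⟨pψ, pψ'⟩ := prof_deriv hψ hψs
  rw [cv1_cv1 pω' pψ k l hf, cv1_cv1 pω pψ' k l hf]
  have h1 : ∫ u, f (y - u) * AK (deriv ω) ψ k l u =
      (2 : ℝ) ^ (k - l) * ∫ u, f (y - u) * AK ω (deriv ψ) k l u := by
    rw [← integral_const_mul]
    refine integral_congr_ae (Filter.Eventually.of_forall (fun u => ?_))
    simp only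
    rw [AK_ibp hω hωs hψ hψs k l]
    ring
  rw [h1]
  ring

/-- geometric sums over `ℤ`. -/
theorem geom_sum (F : Finset ℤ) (k : ℤ) : ∑ l ∈ F, (2 : ℝ) ^ (-|k - l|) ≤ 4 := by
  classical
  have hh : ∀ n : ℤ, (2 : ℝ) ^ (-|n|) = (1 / 2 : ℝ) ^ n.natAbs := by
    intro n
    rw [← Int.natCast_natAbs, zpow_neg, zpow_natCast, one_div, inv_pow]
  have hsplit : ∑ l ∈ F, (2 : ℝ) ^ (-|k - l|) =
      ∑ l ∈ F.filter (fun l => l ≤ k), (2 : ℝ) ^ (-|k - l|) +
      ∑ l ∈ F.filter (fun l => ¬ l ≤ k), (2 : ℝ) ^ (-|k - l|) :=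
    (Finset.sum_filter_add_sum_filter_not F (fun l => l ≤ k) _).symm
  have hbd : ∀ (G : Finset ℤ), (∀ a ∈ G, ∀ b ∈ G, (k - a).natAbs = (k - b).natAbs → a = b) →
      ∑ l ∈ G, (2 : ℝ) ^ (-|k - l|) ≤ 2 := by
    intro G hG
    have h1 : ∑ l ∈ G, (2 : ℝ) ^ (-|k - l|) =
        ∑ n ∈ G.image (fun l => (k - l).natAbs), (1 / 2 : ℝ) ^ n := by
      rw [Finset.sum_image (fun a ha b hb h => hG a ha b hb h)]
      exact Finset.sum_congr rfl (fun l _ => hh _)
    rw [h1]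
    obtain ⟨N, hN⟩ : ∃ N, G.image (fun l => (k - l).natAbs) ⊆ Finset.range N := by
      refine ⟨(G.image (fun l => (k - l).natAbs)).sup id + 1, fun n hn => ?_⟩
      rw [Finset.mem_range, Nat.lt_succ_iff]
      exact Finset.le_sup (f := id) hn
    refine (Finset.sum_le_sum_of_subset_of_nonneg hN (fun i _ _ => by positivity)).trans ?_
    exact sum_geometric_two_le N
  rw [hsplit]
  have h1 := hbd (F.filter (fun l => l ≤ k)) (by
    intro a ha b hb h
    have ha' := (Finset.mem_filter.1 ha).2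
    have hb' := (Finset.mem_filter.1 hb).2
    omega)
  have h2 := hbd (F.filter (fun l => ¬ l ≤ k)) (by
    intro a ha b hb h
    have ha' := (Finset.mem_filter.1 ha).2
    have hb' := (Finset.mem_filter.1 hb).2
    omega)
  linarith

/-- the primitive of a band profile. -/
theorem primitive {φ : ℝ → ℝ} (hφ : PhiC φ) : ∃ ω : ℝ → ℝ, ContDiff ℝ 1 ω ∧
    (∀ r, 1 < |r| → ω r = 0) ∧ deriv ω = φ := by
  obtain ⟨hs, hv, hz⟩ := hφ
  have hc : Continuous φ := hs.continuous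
  have hp : Prof 1 φ := ⟨hc, hv⟩
  have hi : Integrable φ := nice1_integrable (prof_nice1 hp)
  set ω : ℝ → ℝ := fun x => ∫ t in (-1 : ℝ)..x, φ t with hω
  have hd : ∀ x, HasDerivAt ω (φ x) x := fun x =>
    intervalIntegral.integral_hasDerivAt_right (hc.intervalIntegrable _ _)
      hc.stronglyMeasurable.stronglyMeasurableAtFilter hc.continuousAt
  have hde : deriv ω = φ := funext fun x => (hd x).deriv
  refine ⟨ω, ?_, ?_, hde⟩
  · rw [contDiff_one_iff_deriv]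
    exact ⟨fun x => (hd x).differentiableAt, by rw [hde]; exact hc⟩
  · intro r hr
    rw [hω]
    simp only
    rcases lt_abs.1 hr with h | h
    · -- r > 1
      have h1 : ∫ t in (-1 : ℝ)..r, φ t = ∫ t in Set.Ioc (-1 : ℝ) r, φ t := by
        rw [intervalIntegral.integral_of_le (by linarith)]
      rw [h1, ← hz]
      refine setIntegral_eq_integral_of_ae_compl_eq_zero ?_
      have hne : ∀ᵐ x : ℝ, x ≠ -1 := by
        simp [ae_iff, measure_singleton]
      filter_upwards [hne] with x hx hxs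
      apply hv
      by_contra hc'
      rw [not_lt, abs_le] at hc'
      apply hxs
      exact ⟨lt_of_le_of_ne hc'.1 (Ne.symm hx), by linarith [hc'.2]⟩
    · have h1 : r < -1 := by linarith
      rw [intervalIntegral.integral_symm, intervalIntegral.integral_of_le h1.le]
      rw [neg_eq_zero]
      have hne : ∀ᵐ x : ℝ, x ≠ -1 := by
        simp [ae_iff, measure_singleton]
      rw [← integral_zero ℝ ℝ (μ := volume.restrict (Set.Ioc r (-1)))]
      refine integral_congr_ae ?_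
      rw [Filter.EventuallyEq, ae_restrict_iff' measurableSet_Ioc]
      filter_upwards [hne] with x hx hxs
      apply hv
      have h2 := lt_of_le_of_ne hxs.2 hx
      rw [lt_abs]
      right
      linarith

theorem cv1_smul_profile (c : ℝ) (φ : ℝ → ℝ) (k : ℤ) (g : ℝ → ℝ) (y : ℝ) :
    cv1 (fun r => c * φ r) k g y = c * cv1 φ k g y := by
  unfold cv1
  rw [← integral_const_mul]
  refine integral_congr_ae (Filter.Eventually.of_forall (fun r => ?_))
  simp only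
  ring

/-- almost orthogonality of `P_l P_k^*`. -/
theorem almost_orth {φ : ℝ → ℝ} (hφ : PhiC φ) : ∃ C : ℝ, 0 < C ∧ ∀ (k l : ℤ) (h : ℝ → ℝ), Nice1 h →
    ∫ y, (cv1 φ l (cv1 (fun r => φ (-r)) k h) y) ^ 2 ≤ (C * (2 : ℝ) ^ (-|k - l|)) ^ 2 * ∫ y, (h y) ^ 2 := by
  obtain ⟨ω, hω1, hωs, hωd⟩ := primitive hφ
  have hφ1 : ContDiff ℝ 1 φ := hφ.1.of_le (by exact_mod_cast le_top)
  have hφs := hφ.2.1
  set φt : ℝ → ℝ := fun r => φ (-r) with hφt
  have hφt1 : ContDiff ℝ 1 φt := hφ1.comp contDiff_neg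
  have hφts : ∀ r, 1 < |r| → φt r = 0 := fun r hr => hφs _ (by rwa [abs_neg])
  set ωt : ℝ → ℝ := fun r => -ω (-r) with hωt
  have hωt1 : ContDiff ℝ 1 ωt := (hω1.comp contDiff_neg).neg
  have hωts : ∀ r, 1 < |r| → ωt r = 0 := fun r hr => by
    simp only [hωt]
    rw [hωs _ (by rwa [abs_neg]), neg_zero]
  have hωtd : deriv ωt = φt := by
    funext r
    have h1 : HasDerivAt ω (φ (-r)) (-r) := by
      have := ((hω1.differentiable one_ne_zero) (-r)).hasDerivAt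
      rwa [hωd] at this
    have h2 : HasDerivAt (fun r : ℝ => ω (-r)) (φ (-r) * (-1)) r :=
      h1.comp r (hasDerivAt_neg r)
    have h3 : HasDerivAt ωt (-(φ (-r) * (-1))) r := h2.neg
    rw [h3.deriv]
    simp only [hφt]
    ring
  obtain ⟨pω, pω'⟩ := prof_deriv hω1 hωs
  obtain ⟨pφ, pφ'⟩ := prof_deriv hφ1 hφs
  obtain ⟨pφt, pφt'⟩ := prof_deriv hφt1 hφts
  obtain ⟨pωt, pωt'⟩ := prof_deriv hωt1 hωts
  set C1 := (∫ r, |ω r|) * ∫ r, |deriv φt r| with hC1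
  set C2 := (∫ r, |deriv φ r|) * ∫ r, |ωt r| with hC2
  have hC1n : 0 ≤ C1 := mul_nonneg (integral_nonneg fun _ => abs_nonneg _)
    (integral_nonneg fun _ => abs_nonneg _)
  have hC2n : 0 ≤ C2 := mul_nonneg (integral_nonneg fun _ => abs_nonneg _)
    (integral_nonneg fun _ => abs_nonneg _)
  refine ⟨C1 + C2 + 1, by linarith, fun k l h hh => ?_⟩
  have hh0 : 0 ≤ ∫ y, (h y) ^ 2 := integral_nonneg fun _ => sq_nonneg _
  have two : ∀ {a b : ℝ → ℝ} (_ : Prof 1 a) (_ : Prof 1 b) (m n : ℤ),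
      ∫ y, (cv1 a m (cv1 b n h) y) ^ 2 ≤ ((∫ r, |a r|) * ∫ r, |b r|) ^ 2 * ∫ y, (h y) ^ 2 := by
    intro a b ha hb m n
    have h1 := cv1_sq ha m (cv1_nice hb n hh)
    have h2 := cv1_sq hb n hh
    calc _ ≤ _ := h1
      _ ≤ (∫ r, |a r|) ^ 2 * ((∫ r, |b r|) ^ 2 * ∫ y, (h y) ^ 2) := by gcongr
      _ = _ := by ring
  rcases le_total l k with hlk | hlk
  · have e1 : ∀ y, cv1 φ l (cv1 φt k h) y = (2 : ℝ) ^ (l - k) * cv1 ω l (cv1 (deriv φt) k h) y := by
      intro y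
      have := cv1_exch hω1 hωs hφt1 hφts l k hh y
      rwa [hωd] at this
    simp_rw [e1, mul_pow]
    rw [integral_const_mul]
    have e2 : -|k - l| = l - k := by rw [abs_of_nonneg (by omega)]; ring
    rw [e2]
    have h3 := two pω pφt' l k
    calc ((2 : ℝ) ^ (l - k)) ^ 2 * ∫ y, (cv1 ω l (cv1 (deriv φt) k h) y) ^ 2
        ≤ ((2 : ℝ) ^ (l - k)) ^ 2 * (C1 ^ 2 * ∫ y, (h y) ^ 2) := by gcongr
      _ ≤ ((2 : ℝ) ^ (l - k)) ^ 2 * ((C1 + C2 + 1) ^ 2 * ∫ y, (h y) ^ 2) := by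
          gcongr
          linarith
      _ = _ := by ring
  · have e1 : ∀ y, cv1 φ l (cv1 φt k h) y = (2 : ℝ) ^ (k - l) * cv1 (deriv φ) l (cv1 ωt k h) y := by
      intro y
      have h5 := cv1_exch hφ1 hφs hωt1 hωts l k hh y
      rw [hωtd] at h5
      rw [h5, ← mul_assoc, ← zpow_add₀ (by norm_num : (2 : ℝ) ≠ 0)]
      simp
    simp_rw [e1, mul_pow]
    rw [integral_const_mul]
    have e2 : -|k - l| = k - l := by rw [abs_of_nonpos (by omega)]; ring
    rw [e2]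
    have h3 := two pφ' pωt l k
    calc ((2 : ℝ) ^ (k - l)) ^ 2 * ∫ y, (cv1 (deriv φ) l (cv1 ωt k h) y) ^ 2
        ≤ ((2 : ℝ) ^ (k - l)) ^ 2 * (C2 ^ 2 * ∫ y, (h y) ^ 2) := by gcongr
      _ ≤ ((2 : ℝ) ^ (k - l)) ^ 2 * ((C1 + C2 + 1) ^ 2 * ∫ y, (h y) ^ 2) := by
          gcongr
          linarith
      _ = _ := by ring

/-- AM-GM for integrals. -/
theorem amgm {f g : ℝ → ℝ} (hf : Nice1 f) (hg : Nice1 g) {lam : ℝ} (hl : 0 < lam) :
    ∫ y, f y * g y ≤ (1 / (2 * lam)) * (∫ y, (f y) ^ 2) + (lam / 2) * ∫ y, (g y) ^ 2 := by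
  have hff : Integrable (fun y => (f y) ^ 2) := by
    simpa [sq] using nice1_integrable (nice1_mul hf hf)
  have hgg : Integrable (fun y => (g y) ^ 2) := by
    simpa [sq] using nice1_integrable (nice1_mul hg hg)
  have hfg := nice1_integrable (nice1_mul hf hg)
  rw [← integral_const_mul, ← integral_const_mul, ← integral_add (hff.const_mul _) (hgg.const_mul _)]
  refine integral_mono hfg ((hff.const_mul _).add (hgg.const_mul _)) (fun y => ?_)
  simp only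
  have h1 : 0 ≤ (1 / (2 * lam)) * (f y - lam * g y) ^ 2 := by positivity
  have h2 : (1 / (2 * lam)) * (f y - lam * g y) ^ 2 =
      (1 / (2 * lam)) * (f y) ^ 2 - f y * g y + (lam / 2) * (g y) ^ 2 := by
    field_simp
    ring
  linarith

/-- S1. -/
theorem lpup : LPup := by
  classical
  intro φ hφ
  obtain ⟨C, hC, hao⟩ := almost_orth hφ
  have hφc : Prof 1 φ := ⟨hφ.1.continuous, hφ.2.1⟩
  have hφt : Prof 1 (fun r => φ (-r)) := prof_neg hφc
  refine ⟨16 * C, by linarith, fun g hg F => ?_⟩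
  set P : ℤ → ℝ → ℝ := fun k => cv1 φ k g with hP
  set Q : ℤ → ℝ → ℝ := fun k => cv1 (fun r => φ (-r)) k (P k) with hQ
  have nP : ∀ k, Nice1 (P k) := fun k => cv1_nice hφc k hg
  have nQ : ∀ k, Nice1 (Q k) := fun k => cv1_nice hφt k (nP k)
  set s : ℤ → ℝ := fun k => ∫ y, (P k y) ^ 2 with hs
  have hs0 : ∀ k, 0 ≤ s k := fun k => integral_nonneg fun _ => sq_nonneg _
  set H : ℝ → ℝ := fun y => ∑ k ∈ F, Q k y with hH
  have nH : Nice1 H := nice1_sum F Q (fun k _ => nQ k)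
  -- S = ∫ g H
  have hS : ∑ k ∈ F, s k = ∫ y, H y * g y := by
    have h1 : ∀ k, s k = ∫ y, Q k y * g y := by
      intro k
      have h2 := cv1_adj hφc k hg (nP k)
      simp only [hs]
      have h3 : ∫ y, (P k y) ^ 2 = ∫ y, cv1 φ k g y * P k y := by
        refine integral_congr_ae (Filter.Eventually.of_forall (fun y => ?_))
        simp only [hP]
        ring
      rw [h3, h2]
      refine integral_congr_ae (Filter.Eventually.of_forall (fun y => ?_))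
      simp only [hQ]
      ring
    simp_rw [h1, hH, Finset.sum_mul]
    rw [integral_finset_sum F (fun k _ => nice1_integrable (nice1_mul (nQ k) hg))]
  -- the double sum
  have hHH : ∫ y, (H y) ^ 2 ≤ 4 * C * ∑ k ∈ F, s k := by
    have h1 : ∫ y, (H y) ^ 2 = ∑ k ∈ F, ∑ l ∈ F, ∫ y, Q k y * Q l y := by
      have h2 : ∀ y, (H y) ^ 2 = ∑ k ∈ F, ∑ l ∈ F, Q k y * Q l y := by
        intro y
        rw [sq, hH]
        simp only
        rw [Finset.sum_mul_sum]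
      simp_rw [h2]
      rw [integral_finset_sum F (fun k _ => nice1_integrable
        (nice1_sum F (fun l y => Q k y * Q l y) (fun l _ => nice1_mul (nQ k) (nQ l))))]
      refine Finset.sum_congr rfl (fun k _ => ?_)
      rw [integral_finset_sum F (fun l _ => nice1_integrable (nice1_mul (nQ k) (nQ l)))]
    have h3 : ∀ k l, ∫ y, Q k y * Q l y ≤ (C * (2 : ℝ) ^ (-|k - l|)) / 2 * (s k + s l) := by
      intro k l
      have hlam : 0 < C * (2 : ℝ) ^ (-|k - l|) := mul_pos hC (two_zpow_pos _)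
      have h4 := cv1_adj hφc l (nQ k) (nP l)
      have h5 : ∫ y, Q k y * Q l y = ∫ y, cv1 φ l (Q k) y * P l y := by
        rw [h4]
      rw [h5]
      refine (amgm (cv1_nice hφc l (nQ k)) (nP l) hlam).trans ?_
      have h6 := hao k l (P k) (nP k)
      have h7 : (1 / (2 * (C * (2 : ℝ) ^ (-|k - l|)))) * ∫ y, (cv1 φ l (Q k) y) ^ 2 ≤
          (1 / (2 * (C * (2 : ℝ) ^ (-|k - l|)))) * ((C * (2 : ℝ) ^ (-|k - l|)) ^ 2 * s k) := by
        apply mul_le_mul_of_nonneg_left h6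
        positivity
      have h8 : (1 / (2 * (C * (2 : ℝ) ^ (-|k - l|)))) * ((C * (2 : ℝ) ^ (-|k - l|)) ^ 2 * s k) =
          (C * (2 : ℝ) ^ (-|k - l|)) / 2 * s k := by
        field_simp
      rw [h8] at h7
      have h9 : (C * (2 : ℝ) ^ (-|k - l|)) / 2 * (s k + s l) =
        (C * (2 : ℝ) ^ (-|k - l|)) / 2 * s k + (C * (2 : ℝ) ^ (-|k - l|)) / 2 * s l := by ring
      rw [h9]
      exact add_le_add h7 le_rfl
    rw [h1]
    have h10 : ∑ k ∈ F, ∑ l ∈ F, ∫ y, Q k y * Q l y ≤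
        ∑ k ∈ F, ∑ l ∈ F, ((C * (2 : ℝ) ^ (-|k - l|)) / 2 * s k + (C * (2 : ℝ) ^ (-|k - l|)) / 2 * s l) := by
      refine Finset.sum_le_sum (fun k _ => Finset.sum_le_sum (fun l _ => ?_))
      refine (h3 k l).trans (le_of_eq (by ring))
    refine h10.trans ?_
    simp_rw [Finset.sum_add_distrib]
    have h11 : ∑ k ∈ F, ∑ l ∈ F, (C * (2 : ℝ) ^ (-|k - l|)) / 2 * s l =
        ∑ k ∈ F, ∑ l ∈ F, (C * (2 : ℝ) ^ (-|k - l|)) / 2 * s k := by
      rw [Finset.sum_comm]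
      refine Finset.sum_congr rfl (fun k _ => Finset.sum_congr rfl (fun l _ => ?_))
      rw [abs_sub_comm]
    rw [h11]
    have h12 : ∑ k ∈ F, ∑ l ∈ F, (C * (2 : ℝ) ^ (-|k - l|)) / 2 * s k ≤ ∑ k ∈ F, (C / 2 * 4) * s k := by
      refine Finset.sum_le_sum (fun k _ => ?_)
      rw [← Finset.sum_mul]
      have h13 : ∑ l ∈ F, (C * (2 : ℝ) ^ (-|k - l|)) / 2 = C / 2 * ∑ l ∈ F, (2 : ℝ) ^ (-|k - l|) := by
        rw [Finset.mul_sum]
        exact Finset.sum_congr rfl (fun l _ => by ring)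
      rw [h13]
      have h14 := geom_sum F k
      have := hs0 k
      gcongr
    rw [← Finset.mul_sum] at h12
    linarith
  have hfin := amgm nH hg (lam := 4 * C) (by linarith)
  rw [← hS] at hfin
  have hgo : ∑ k ∈ F, ∫ y, (cv1 φ k g y) ^ 2 = ∑ k ∈ F, s k := rfl
  rw [hgo]
  have h20 : (1 / (2 * (4 * C))) * (∫ y, (H y) ^ 2) ≤ (1 / (2 * (4 * C))) * (4 * C * ∑ k ∈ F, s k) := by
    apply mul_le_mul_of_nonneg_left hHH
    positivity
  have h21 : (1 / (2 * (4 * C))) * (4 * C * ∑ k ∈ F, s k) = (∑ k ∈ F, s k) / 2 := by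
    field_simp
  rw [h21] at h20
  have hg0 : 0 ≤ ∫ y, (g y) ^ 2 := integral_nonneg fun _ => sq_nonneg _
  nlinarith [hfin, h20, mul_nonneg hC.le hg0]

end Crest.Agent.R087.LPupx565
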