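import Crest.Agent.R087.SqL_282

/-!
Row 87 (S0115), operator part: the leaf `L_LOWN` of `OP0_270` (helper282): assembly of the LOW part
of one class from `SQ`, `TREELOW`, `MASS3`, `OMEGA`, `HNORM`, `REMSUM`.
-/

set_option autoImplicit false

noncomputable section

open MeasureTheory Crest.Agent.R087.Sh0x283 Crest.Agent.R087.GateDefx273
open Crest.Agent.R087.OPdefx799 (ix ln kk T1 TS Ch)
open Crest.Agent.R087.OP0x270 Crest.Agent.R087.Sqx282 Crest.Agent.R087.SqLx282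
open Crest.Agent.R087.E2x542 Crest.Agent.R087.E2Kx752

namespace Crest.Agent.R087.LowNx282

/-! ### geometry of the dyadic intervals -/

theorem mem_I_iff (R : Tube) (x : ℝ) : x ∈ R.I ↔ jx R.k x = R.j := by
  unfold Tube.I jx Tube.len
  rw [Set.mem_Ico, Int.floor_eq_iff]
  have h2 : (0 : ℝ) < 2 ^ R.k := by positivity
  have e1 : (R.j : ℝ) * (1 / 2) ^ R.k = R.j / 2 ^ R.k := by rw [one_div, inv_pow]; rfl
  have e2 : ((R.j : ℝ) + 1) * (1 / 2) ^ R.k = (R.j + 1) / 2 ^ R.k := by rw [one_div, inv_pow]; rfl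
  rw [e1, e2, div_le_iff₀ h2, lt_div_iff₀ h2, mul_comm x]

/-- nested: a point in the cell of scale `s ≥ R.k` of a point of `R.I` is in `R.I`. -/
theorem mem_I_of {R : Tube} {x y : ℝ} {s : ℕ} (hs : R.k ≤ s) (hx : x ∈ R.I)
    (h : jx s x = jx s y) : y ∈ R.I := by
  rw [mem_I_iff] at hx ⊢
  rw [← hx]
  exact (ix_mono (r := R.k) (s := s) hs h).symm

/-- vertical translate of a tube. -/
def shiftT (R : Tube) (j : ℤ) : Tube := ⟨R.k, R.j, R.b + j, R.m⟩

@[simp] theorem shiftT_k (R : Tube) (j : ℤ) : (shiftT R j).k = R.k := rfl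
@[simp] theorem shiftT_b (R : Tube) (j : ℤ) : (shiftT R j).b = R.b + j := rfl
@[simp] theorem shiftT_m (R : Tube) (j : ℤ) : (shiftT R j).m = R.m := rfl
@[simp] theorem shiftT_len (R : Tube) (j : ℤ) : (shiftT R j).len = R.len := rfl
@[simp] theorem shiftT_I (R : Tube) (j : ℤ) : (shiftT R j).I = R.I := rfl

theorem shiftT_line (R : Tube) (j : ℤ) (t : ℝ) : (shiftT R j).line t = R.line t + j := by
  unfold Tube.line shiftT; ring

theorem shiftT_int {R : Tube} (h : IntT R) (j : ℤ) : IntT (shiftT R j) := by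
  obtain ⟨⟨q, hq⟩, h2⟩ := h
  refine ⟨⟨q + j, ?_⟩, h2⟩
  rw [shiftT_b, hq]
  push_cast
  ring

/-! ### vanishing of pairings -/

/-- the pairing vanishes if `z'` is off the top interval or its chain ends above it. -/
theorem Pair_zero {φ ζ : ℝ → ℝ} (P : PZ φ ζ) {U : ℝ × ℝ → ℝ} {B : Set (ℝ × ℝ)}
    {lo hi : ℝ × ℝ → ℕ} {g : ℝ × ℝ → ℝ} {R : Tube}
    (hB : ∀ z ∈ B, lo z < hi z → z.1 ∈ R.I ∧ R.k ≤ lo z) {a b : ℕ} {z' : ℝ × ℝ}
    (h : z'.1 ∉ R.I ∨ b ≤ R.k) : Pair φ ζ U B lo hi g a b z' = 0 := by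
  unfold Pair
  refine Finset.sum_eq_zero fun s' hs' => ?_
  rw [← integral_zero (ℝ × ℝ) ℝ (μ := volume)]
  congr 1
  funext z
  by_cases hz : z ∈ B
  · have : ∑ s ∈ Finset.Ico (lo z) (hi z), cc s s' * pr φ ζ U s s' z z' = 0 := by
      refine Finset.sum_eq_zero fun s hs => ?_
      obtain ⟨h1, h2⟩ := Finset.mem_Ico.1 hs
      obtain ⟨h3, h4⟩ := hB z hz (lt_of_le_of_lt h1 h2)
      by_cases hss : s ≤ s'
      · rcases h with h | h
        · have : pr φ ζ U s s' z z' = 0 := by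
            by_contra h0
            apply h
            exact mem_I_of (h4.trans h1) h3 (GG_cell P hss h0)
          rw [this, mul_zero]
        · exfalso
          have := (Finset.mem_Ico.1 hs').2
          omega
      · unfold cc
        rw [if_neg hss, zero_mul]
    rw [this, mul_zero]
  · rw [Set.indicator_of_notMem hz, zero_mul]

theorem Pair_empty {φ ζ : ℝ → ℝ} {U : ℝ × ℝ → ℝ} {B : Set (ℝ × ℝ)}
    {lo hi : ℝ × ℝ → ℕ} {g : ℝ × ℝ → ℝ} {a b : ℕ} (h : b ≤ a) (z' : ℝ × ℝ) :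
    Pair φ ζ U B lo hi g a b z' = 0 := by
  unfold Pair
  rw [Finset.Ico_eq_empty (by omega), Finset.sum_empty]

/-- integrability of the inner integrand of `Pair`. -/
theorem pair_int {φ ζ : ℝ → ℝ} (P : PZ φ ζ) {U : ℝ × ℝ → ℝ} (hU : Measurable U) {W : ℝ}
    (hW : ∀ z, |U z| ≤ W) {S : ℕ} {lo hi : ℝ × ℝ → ℕ} (hC : Chain S lo hi) {g : ℝ × ℝ → ℝ}
    (hg : Nice g) (s' : ℕ) (z' : ℝ × ℝ) :
    Integrable (fun z => g z * ∑ s ∈ Finset.Ico (lo z) (hi z), cc s s' * pr φ ζ U s s' z z') := by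
  obtain ⟨h1, h2, hS⟩ := hC
  have e : ∀ z, g z * ∑ s ∈ Finset.Ico (lo z) (hi z), cc s s' * pr φ ζ U s s' z z' =
      ∑ s ∈ Finset.range S, cc s s' * (GG φ ζ U s s' z z' * Hc lo hi g s z) := by
    intro z
    rw [mul_comm, sum_chain hS]
    refine Finset.sum_congr rfl fun s _ => ?_
    rw [pr_eq]
    ring
  simp only [e]
  exact integrable_finsetSum _ fun s _ =>
    (nice_int ((GG_ker P hU hW s s').sec (Hc_nice h1 h2 hg s) z')).const_mul _

/-- splitting of the pairing into trees. -/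
theorem Pair_split {φ ζ : ℝ → ℝ} (P : PZ φ ζ) {U : ℝ × ℝ → ℝ} (hU : Measurable U) {W : ℝ}
    (hW : ∀ z, |U z| ≤ W) {S : ℕ} {lo hi : ℝ × ℝ → ℕ} {h : ℝ × ℝ → ℝ} {ι : Type*} (t : Finset ι)
    (B : ι → Set (ℝ × ℝ)) (hp : ι → ℝ × ℝ → ℕ)
    (hC : ∀ p ∈ t, Chain S lo (hp p)) (hn : ∀ p ∈ t, Nice ((B p).indicator h))
    (hB : ∀ z, h z ≠ 0 → lo z < hi z → ∃ p ∈ t, z ∈ B p)
    (hd : ∀ p ∈ t, ∀ p' ∈ t, p ≠ p' → Disjoint (B p) (B p'))
    (hh : ∀ p ∈ t, ∀ z ∈ B p, hi z = hp p z) (a b : ℕ) (z' : ℝ × ℝ) :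
    Pair φ ζ U Set.univ lo hi h a b z' =
      ∑ p ∈ t, Pair φ ζ U (B p) lo (hp p) ((B p).indicator h) a b z' := by
  classical
  unfold Pair
  rw [Finset.sum_comm]
  refine Finset.sum_congr rfl fun s' _ => ?_
  have e : ∀ p, (B p).indicator ((B p).indicator h) = (B p).indicator h := fun p => by
    rw [Set.indicator_indicator, Set.inter_self]
  simp only [e]
  rw [← integral_finsetSum t fun p hp' => pair_int P hU hW (hC p hp') (hn p hp') s' z']
  congr 1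
  funext z
  rw [Set.indicator_univ]
  by_cases hz : h z ≠ 0 ∧ lo z < hi z
  · obtain ⟨p, hp1, hp2⟩ := hB z hz.1 hz.2
    rw [Finset.sum_eq_single_of_mem p hp1, Set.indicator_of_mem hp2, hh p hp1 z hp2]
    intro p' hp' hne
    have : z ∉ B p' := fun h' => (Set.disjoint_left.1 (hd p hp1 p' hp' (Ne.symm hne))) hp2 h'
    rw [Set.indicator_of_notMem this, zero_mul]
  · have h1 : h z * ∑ s ∈ Finset.Ico (lo z) (hi z), cc s s' * pr φ ζ U s s' z z' = 0 := by
      by_cases h0 : h z = 0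
      · rw [h0, zero_mul]
      · have : hi z ≤ lo z := by
          by_contra h2
          exact hz ⟨h0, by omega⟩
        rw [Finset.Ico_eq_empty (by omega), Finset.sum_empty, mul_zero]
    rw [h1]
    symm
    refine Finset.sum_eq_zero fun p hp1 => ?_
    by_cases hp2 : z ∈ B p
    · rw [Set.indicator_of_mem hp2, ← hh p hp1 z hp2]
      exact h1
    · rw [Set.indicator_of_notMem hp2, zero_mul]

/-! ### strips -/

/-- at most three unit strips through a point, all inside the fat tube. -/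
theorem strip_count (R : Tube) (M : ℕ) (w : ℝ × ℝ) :
    ∑ j ∈ Finset.Icc (-(M : ℤ)) M, (fat 1 (shiftT R j)).indicator (1 : ℝ × ℝ → ℝ) w ≤
      3 * (fat (M + 1) R).indicator (1 : ℝ × ℝ → ℝ) w := by
  classical
  by_cases hw : w ∈ fat ((M : ℝ) + 1) R
  · rw [Set.indicator_of_mem hw]
    have h1 : ∀ j ∈ Finset.Icc (-(M : ℤ)) M, (fat 1 (shiftT R j)).indicator (1 : ℝ × ℝ → ℝ) w ≤
        if j ∈ ({⌊w.2 - R.line w.1⌋ - 1, ⌊w.2 - R.line w.1⌋, ⌊w.2 - R.line w.1⌋ + 1} : Finset ℤ)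
          then 1 else 0 := by
      intro j _
      by_cases hj : w ∈ fat 1 (shiftT R j)
      · rw [Set.indicator_of_mem hj]
        have h2 := hj.2
        rw [shiftT_line, abs_le] at h2
        have h3 := Int.floor_le (w.2 - R.line w.1)
        have h4 := Int.lt_floor_add_one (w.2 - R.line w.1)
        have h5 : (j : ℝ) ≤ ((⌊w.2 - R.line w.1⌋ + 1 : ℤ) : ℝ) + 1 := by push_cast; linarith [h2.1]
        have h6 : (j : ℝ) < ((⌊w.2 - R.line w.1⌋ + 2 : ℤ) : ℝ) := by push_cast; linarith [h2.1]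
        have h7 : ((⌊w.2 - R.line w.1⌋ - 1 : ℤ) : ℝ) ≤ j := by push_cast; linarith [h2.2]
        have h8 : j < ⌊w.2 - R.line w.1⌋ + 2 := by exact_mod_cast h6
        have h9 : ⌊w.2 - R.line w.1⌋ - 1 ≤ j := by exact_mod_cast h7
        rw [if_pos]
        · rfl
        · simp only [Finset.mem_insert, Finset.mem_singleton]
          omega
      · rw [Set.indicator_of_notMem hj]
        split_ifs <;> norm_num
    refine (Finset.sum_le_sum h1).trans ?_
    rw [← Finset.sum_filter, Finset.sum_const, nsmul_eq_mul, mul_one]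
    have h2 : (Finset.filter (fun j => j ∈ ({⌊w.2 - R.line w.1⌋ - 1, ⌊w.2 - R.line w.1⌋,
        ⌊w.2 - R.line w.1⌋ + 1} : Finset ℤ)) (Finset.Icc (-(M : ℤ)) M)).card ≤ 3 := by
      refine (Finset.card_le_card ?_).trans (Finset.card_le_three
        (a := ⌊w.2 - R.line w.1⌋ - 1) (b := ⌊w.2 - R.line w.1⌋) (c := ⌊w.2 - R.line w.1⌋ + 1))
      intro j hj
      exact (Finset.mem_filter.1 hj).2
    have h3 : ((Finset.filter (fun j => j ∈ ({⌊w.2 - R.line w.1⌋ - 1, ⌊w.2 - R.line w.1⌋,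
        ⌊w.2 - R.line w.1⌋ + 1} : Finset ℤ)) (Finset.Icc (-(M : ℤ)) M)).card : ℝ) ≤ 3 := by
      exact_mod_cast h2
    simpa using h3
  · rw [Set.indicator_of_notMem hw, mul_zero]
    refine le_of_eq (Finset.sum_eq_zero fun j hj => ?_)
    apply Set.indicator_of_notMem
    intro h1
    apply hw
    refine ⟨h1.1, ?_⟩
    have h2 := h1.2
    rw [shiftT_line, abs_le] at h2
    obtain ⟨h3, h4⟩ := Finset.mem_Icc.1 hj
    have h5 : (-(M : ℝ)) ≤ j := by exact_mod_cast h3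
    have h6 : (j : ℝ) ≤ M := by exact_mod_cast h4
    rw [abs_le]
    constructor <;> linarith [h2.1, h2.2]

/-! ### small analytic lemmas -/

theorem iter_supp {ω : ℝ → ℝ} (h : ∀ r, 1 < |r| → ω r = 0) (n : ℕ) :
    ∀ r, 1 < |r| → iteratedDeriv n ω r = 0 := by
  intro r hr
  have h1 : ω =ᶠ[nhds r] (fun _ => (0 : ℝ)) := by
    have h2 : IsOpen {r : ℝ | 1 < |r|} := isOpen_lt continuous_const continuous_abs
    filter_upwards [h2.mem_nhds hr] with x hx
    exact h x hx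
  rw [h1.iteratedDeriv_eq n]
  cases n with
  | zero => simp
  | succ n => simp

theorem ph_pz {ω : ℝ → ℝ} {M : ℕ} (hω : PW M ω) {ζ : ℝ → ℝ} (hζ : ZetC ζ) : PZ (ph ω) ζ := by
  obtain ⟨h1, h2, _⟩ := hω
  refine ⟨?_, hζ.1.continuous, iter_supp h2 _, hζ.2.1⟩
  have h3 : ∀ N : ℕ, Continuous (iteratedDeriv N ω) := fun N =>
    h1.continuous_iteratedDeriv N (by exact_mod_cast le_top)
  exact h3 _

/-- comparison of integrals without integrability of the smaller function. -/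
theorem int_le_of {f g : ℝ × ℝ → ℝ} (hg : Integrable g) (h0 : ∀ z, 0 ≤ g z) (h : ∀ z, f z ≤ g z) :
    ∫ z, f z ≤ ∫ z, g z := by
  by_cases hf : Integrable f
  · exact integral_mono hf hg h
  · rw [integral_undef hf]
    exact integral_nonneg h0

theorem measurableSet_fat (K : ℝ) (R : Tube) : MeasurableSet (fat K R) := by
  have h1 : MeasurableSet {z : ℝ × ℝ | z.1 ∈ R.I} := measurable_fst R.measurableSet_I
  have h2 : MeasurableSet {z : ℝ × ℝ | |z.2 - R.line z.1| ≤ K} := by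
    apply measurableSet_le _ measurable_const
    have := R.measurable_line
    fun_prop
  exact h1.inter h2

/-- fat tubes are bounded. -/
theorem fat_bdd (K : ℝ) (R : Tube) : ∃ r : ℝ, ∀ z ∈ fat K R, ‖z‖ ≤ r := by
  set a : ℝ := |R.j * R.len| + |(R.j + 1) * R.len| with ha
  refine ⟨max a (|K| + (|R.b| + |R.m| * a)), fun z hz => ?_⟩
  obtain ⟨⟨h1, h2⟩, h3⟩ := hz
  have h4 : |z.1| ≤ a := by
    rw [abs_le]
    constructor
    · have := neg_abs_le (R.j * R.len)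
      have := abs_nonneg ((R.j + 1) * R.len)
      linarith
    · have := le_abs_self ((R.j + 1) * R.len)
      have := abs_nonneg (R.j * R.len)
      linarith
  have h5 : |R.line z.1| ≤ |R.b| + |R.m| * a := by
    unfold Tube.line
    refine (abs_add_le _ _).trans ?_
    rw [abs_mul]
    gcongr
  have h6 : |z.2| ≤ |K| + (|R.b| + |R.m| * a) := by
    have e : z.2 = (z.2 - R.line z.1) + R.line z.1 := by ring
    rw [e]
    refine (abs_add_le _ _).trans (add_le_add (h3.trans (le_abs_self K)) h5)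
  rw [Prod.norm_def]
  exact max_le_max h4 h6

theorem fat_nice (K : ℝ) (R : Tube) : Nice ((fat K R).indicator (1 : ℝ × ℝ → ℝ)) := by
  obtain ⟨r, hr⟩ := fat_bdd K R
  refine ⟨measurable_one.indicator (measurableSet_fat K R), ⟨1, fun z => ?_⟩, r, fun z hz => ?_⟩
  · by_cases h : z ∈ fat K R
    · rw [Set.indicator_of_mem h]; simp
    · rw [Set.indicator_of_notMem h]; simp
  · apply Set.indicator_of_notMem
    intro h
    exact absurd (hr z h) (not_le.2 hz)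

/-- `W` is integrable against indicators of fat tubes. -/
theorem W_fat {W : ℝ × ℝ → ℝ} (hm : Measurable W) (h0 : ∀ w, 0 ≤ W w)
    (hi : Integrable (fun w => (W w) ^ 2)) (K : ℝ) (R : Tube) :
    Integrable (fun w => W w * (fat K R).indicator (1 : ℝ × ℝ → ℝ) w) := by
  have hn := fat_nice K R
  have h1 : Integrable (fun w => (W w) ^ 2 + (fat K R).indicator (1 : ℝ × ℝ → ℝ) w) :=
    hi.add (nice_int hn)
  refine h1.mono' (hm.mul hn.1).aestronglyMeasurable (Filter.Eventually.of_forall fun w => ?_)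
  rw [Real.norm_eq_abs, abs_mul, abs_of_nonneg (h0 w)]
  by_cases h : w ∈ fat K R
  · rw [Set.indicator_of_mem h]
    simp only [Pi.one_apply, abs_one, mul_one]
    nlinarith [sq_nonneg (W w - 1), h0 w]
  · rw [Set.indicator_of_notMem h]
    simp only [abs_zero, mul_zero, add_zero]
    exact sq_nonneg _

theorem int_fat {W : ℝ × ℝ → ℝ} (K : ℝ) (R : Tube) :
    ∫ w in fat K R, W w = ∫ w, W w * (fat K R).indicator (1 : ℝ × ℝ → ℝ) w := by
  rw [← integral_indicator (measurableSet_fat K R)]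
  congr 1
  funext w
  by_cases h : w ∈ fat K R
  · rw [Set.indicator_of_mem h, Set.indicator_of_mem h]; simp
  · rw [Set.indicator_of_notMem h, Set.indicator_of_notMem h]; simp

theorem fat_mono {K K' : ℝ} (h : K ≤ K') (R : Tube) (w : ℝ × ℝ) :
    (fat K R).indicator (1 : ℝ × ℝ → ℝ) w ≤ (fat K' R).indicator (1 : ℝ × ℝ → ℝ) w := by
  refine Set.indicator_le_indicator_of_subset ?_ (fun _ => zero_le_one) w
  intro z hz
  exact ⟨hz.1, hz.2.trans h⟩

/-- sum over the strips of one top. -/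
theorem strip_int {W : ℝ × ℝ → ℝ} (hm : Measurable W) (h0 : ∀ w, 0 ≤ W w)
    (hi : Integrable (fun w => (W w) ^ 2)) (R : Tube) (M : ℕ) {K : ℝ} (hK : (M : ℝ) + 1 ≤ K) :
    ∑ j ∈ Finset.Icc (-(M : ℤ)) M, ∫ w in fat 1 (shiftT R j), W w ≤
      3 * ∫ w, W w * (fat K R).indicator (1 : ℝ × ℝ → ℝ) w := by
  simp only [int_fat]
  rw [← integral_finsetSum _ fun j _ => W_fat hm h0 hi 1 (shiftT R j), ← integral_const_mul]
  refine integral_mono (integrable_finsetSum _ fun j _ => W_fat hm h0 hi 1 (shiftT R j))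
    ((W_fat hm h0 hi K R).const_mul 3) fun w => ?_
  show ∑ j ∈ Finset.Icc (-(M : ℤ)) M, W w * (fat 1 (shiftT R j)).indicator (1 : ℝ × ℝ → ℝ) w ≤
    3 * (W w * (fat K R).indicator (1 : ℝ × ℝ → ℝ) w)
  rw [← Finset.mul_sum]
  calc W w * ∑ j ∈ Finset.Icc (-(M : ℤ)) M, (fat 1 (shiftT R j)).indicator (1 : ℝ × ℝ → ℝ) w
      ≤ W w * (3 * (fat (M + 1) R).indicator (1 : ℝ × ℝ → ℝ) w) :=
        mul_le_mul_of_nonneg_left (strip_count R M w) (h0 w)
    _ ≤ W w * (3 * (fat K R).indicator (1 : ℝ × ℝ → ℝ) w) := by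
        refine mul_le_mul_of_nonneg_left ?_ (h0 w)
        exact mul_le_mul_of_nonneg_left (fat_mono hK R w) (by norm_num)
    _ = _ := by ring

/-- the final Cauchy-Schwarz step: `∫ W H ≤ (Co + Ch)/2 · 2^{-n/4} Q`. -/
theorem final_cs {W H : ℝ × ℝ → ℝ} {Q Co Ch : ℝ} {n : ℕ} (hQ : 0 ≤ Q) (hCo : 0 ≤ Co) (hCh : 0 ≤ Ch)
    (hWi : Integrable (fun w => (W w) ^ 2)) (hHi : Integrable (fun w => (H w) ^ 2))
    (hWH : Integrable (fun w => W w * H w))
    (h1 : ∫ w, (W w) ^ 2 ≤ Co * (1 / 2 : ℝ) ^ n * Q)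
    (h2 : ∫ w, (H w) ^ 2 ≤ Ch * (2 : ℝ) ^ ((n : ℝ) / 16) * Q) :
    ∫ w, W w * H w ≤ (Co + Ch) / 2 * (2 : ℝ) ^ (-(n : ℝ) / 4) * Q := by
  set t : ℝ := (2 : ℝ) ^ ((n : ℝ) / 2) with ht
  have ht0 : 0 < t := Real.rpow_pos_of_pos (by norm_num) _
  have key : ∀ w, W w * H w ≤ t / 2 * (W w) ^ 2 + t⁻¹ / 2 * (H w) ^ 2 := by
    intro w
    have h3 : 0 ≤ t⁻¹ / 2 * (t * W w - H w) ^ 2 := by positivity
    have h4 : t⁻¹ / 2 * (t * W w - H w) ^ 2 = t / 2 * (W w) ^ 2 - W w * H w +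
        t⁻¹ / 2 * (H w) ^ 2 := by
      field_simp
      ring
    linarith
  have e1 : t * (1 / 2 : ℝ) ^ n ≤ (2 : ℝ) ^ (-(n : ℝ) / 4) := by
    have : (1 / 2 : ℝ) ^ n = (2 : ℝ) ^ (-(n : ℝ)) := by
      rw [Real.rpow_neg (by norm_num), Real.rpow_natCast, one_div, inv_pow]
    rw [this, ht, ← Real.rpow_add (by norm_num)]
    apply Real.rpow_le_rpow_of_exponent_le (by norm_num)
    have : (0 : ℝ) ≤ n := Nat.cast_nonneg n
    linarith
  have e2 : t⁻¹ * (2 : ℝ) ^ ((n : ℝ) / 16) ≤ (2 : ℝ) ^ (-(n : ℝ) / 4) := by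
    rw [ht, ← Real.rpow_neg (by norm_num), ← Real.rpow_add (by norm_num)]
    apply Real.rpow_le_rpow_of_exponent_le (by norm_num)
    have : (0 : ℝ) ≤ n := Nat.cast_nonneg n
    linarith
  calc ∫ w, W w * H w ≤ ∫ w, (t / 2 * (W w) ^ 2 + t⁻¹ / 2 * (H w) ^ 2) :=
        integral_mono hWH ((hWi.const_mul _).add (hHi.const_mul _)) key
    _ = t / 2 * (∫ w, (W w) ^ 2) + t⁻¹ / 2 * (∫ w, (H w) ^ 2) := by
        rw [integral_add (hWi.const_mul _) (hHi.const_mul _), integral_const_mul,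
          integral_const_mul]
    _ ≤ t / 2 * (Co * (1 / 2 : ℝ) ^ n * Q) + t⁻¹ / 2 * (Ch * (2 : ℝ) ^ ((n : ℝ) / 16) * Q) := by
        gcongr
    _ = Co * Q / 2 * (t * (1 / 2 : ℝ) ^ n) + Ch * Q / 2 * (t⁻¹ * (2 : ℝ) ^ ((n : ℝ) / 16)) := by
        ring
    _ ≤ Co * Q / 2 * (2 : ℝ) ^ (-(n : ℝ) / 4) + Ch * Q / 2 * (2 : ℝ) ^ (-(n : ℝ) / 4) := by
        gcongr
    _ = _ := by ring

/-! ### the pieces of the attached sets -/

/-- attached points of the top `m` in the unit strip `j`. -/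
def Bp {N : ℕ} (R : Fin N → Tube) (B : Fin N → Set (ℝ × ℝ)) (lo hi : ℝ × ℝ → ℕ)
    (p : Σ _ : Fin N, ℤ) : Set (ℝ × ℝ) :=
  {z | z ∈ B p.1 ∧ lo z < hi z ∧ ⌊z.2 - (R p.1).line z.1⌋ = p.2}

theorem Bp_meas {N : ℕ} (R : Fin N → Tube) {B : Fin N → Set (ℝ × ℝ)} {lo hi : ℝ × ℝ → ℕ}
    (hB : ∀ m, MeasurableSet (B m)) (h1 : Measurable lo) (h2 : Measurable hi)
    (p : Σ _ : Fin N, ℤ) : MeasurableSet (Bp R B lo hi p) := by
  have e : Bp R B lo hi p = B p.1 ∩ ({z | lo z < hi z} ∩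
      (fun z : ℝ × ℝ => ⌊z.2 - (R p.1).line z.1⌋) ⁻¹' {p.2}) := by
    ext z; rfl
  rw [e]
  refine (hB p.1).inter ((measurableSet_lt h1 h2).inter ?_)
  have h3 : Measurable (fun z : ℝ × ℝ => z.2 - (R p.1).line z.1) := by
    have := (R p.1).measurable_line
    fun_prop
  exact (Int.measurable_floor.comp h3) (MeasurableSet.singleton _)

theorem Bp_disj {N : ℕ} (R : Fin N → Tube) {B : Fin N → Set (ℝ × ℝ)} (lo hi : ℝ × ℝ → ℕ)
    (hd : Pairwise (Function.onFun Disjoint B)) (p p' : Σ _ : Fin N, ℤ) (h : p ≠ p') :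
    Disjoint (Bp R B lo hi p) (Bp R B lo hi p') := by
  rw [Set.disjoint_left]
  intro z hz hz'
  by_cases h1 : p.1 = p'.1
  · apply h
    obtain ⟨m, j⟩ := p
    obtain ⟨m', j'⟩ := p'
    simp only at h1
    subst h1
    have h2 : j = j' := by
      have a := hz.2.2
      have b := hz'.2.2
      simp only at a b
      rw [← a, ← b]
    rw [h2]
  · exact (Set.disjoint_left.1 (hd h1)) hz.1 hz'.1

/-- the half width of the strips, as a natural number. -/
def Mw {N : ℕ} (ii : Fin N → ℕ) (m : Fin N) : ℕ := 5 * 2 ^ ii m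

/-- the finite index set. -/
def Ix {N : ℕ} (ii : Fin N → ℕ) : Finset (Σ _ : Fin N, ℤ) :=
  Finset.univ.sigma fun m => Finset.Icc (-(Mw ii m : ℤ)) (Mw ii m)

theorem sum_Ix {N : ℕ} (ii : Fin N → ℕ) (f : Fin N → ℤ → ℝ) :
    ∑ p ∈ Ix ii, f p.1 p.2 = ∑ m, ∑ j ∈ Finset.Icc (-(Mw ii m : ℤ)) (Mw ii m), f m j := by
  unfold Ix
  rw [Finset.sum_sigma]

theorem card_strips {N : ℕ} (ii : Fin N → ℕ) (m : Fin N) :
    ((Finset.Icc (-(Mw ii m : ℤ)) (Mw ii m)).card : ℝ) ≤ 11 * 2 ^ (AA * ii m) := by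
  rw [Int.card_Icc]
  have h1 : ((Mw ii m : ℤ) + 1 - -(Mw ii m : ℤ)).toNat = 2 * Mw ii m + 1 := by omega
  rw [h1]
  unfold Mw
  push_cast
  have h2 : (2 : ℝ) ^ ii m ≤ 2 ^ (AA * ii m) := by
    apply pow_le_pow_right₀ (by norm_num)
    unfold AA
    omega
  have h3 : (1 : ℝ) ≤ 2 ^ ii m := one_le_pow₀ (by norm_num)
  linarith

theorem Bp_top {U h : ℝ × ℝ → ℝ} {A n : ℕ} {lo hi : ℝ × ℝ → ℕ} {N : ℕ} {R : Fin N → Tube}
    {kk : Fin N → ℤ} {ii : Fin N → ℕ} {E B : Fin N → Set (ℝ × ℝ)}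
    (hT : IsTops U h A n lo hi N R kk ii E B)
    (hlow : ∀ m, ∀ z ∈ B m, lo z < hi z → |U z - (R m).m| * (1 / 2 : ℝ) ^ lo z ≤ 1)
    (p : Σ _ : Fin N, ℤ) (z : ℝ × ℝ) (hz : z ∈ Bp R B lo hi p) :
    z.1 ∈ (shiftT (R p.1) p.2).I ∧ (shiftT (R p.1) p.2).k ≤ lo z ∧
      near U 1 (shiftT (R p.1) p.2).b (shiftT (R p.1) p.2).m (lo z) z := by
  obtain ⟨h1, h2, h3⟩ := hz
  obtain ⟨h4, h5, h6, h7⟩ := hT.top p.1 z h1 h2
  refine ⟨h4, h5, ?_, hlow p.1 z h1 h2⟩
  have h8 := Int.floor_le (z.2 - (R p.1).line z.1)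
  have h9 := Int.lt_floor_add_one (z.2 - (R p.1).line z.1)
  rw [h3] at h8 h9
  unfold Tube.line at h8 h9
  simp only [shiftT_b, shiftT_m]
  rw [abs_le]
  constructor <;> linarith

theorem Bp_cover {U h : ℝ × ℝ → ℝ} {A n : ℕ} {lo hi : ℝ × ℝ → ℕ} {N : ℕ} {R : Fin N → Tube}
    {kk : Fin N → ℤ} {ii : Fin N → ℕ} {E B : Fin N → Set (ℝ × ℝ)}
    (hT : IsTops U h A n lo hi N R kk ii E B) (z : ℝ × ℝ) (h0 : h z ≠ 0) (h1 : lo z < hi z) :
    ∃ p ∈ Ix ii, z ∈ Bp R B lo hi p := by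
  obtain ⟨m, hm⟩ := hT.unB z h0 h1
  obtain ⟨h4, h5, h6, h7⟩ := hT.top m z hm h1
  refine ⟨⟨m, ⌊z.2 - (R m).line z.1⌋⟩, ?_, hm, h1, rfl⟩
  unfold Ix Mw
  simp only [Finset.mem_sigma, Finset.mem_univ, true_and, Finset.mem_Icc]
  have h8 : |z.2 - (R m).line z.1| ≤ 5 * 2 ^ ii m := h6
  rw [abs_le] at h8
  constructor
  · rw [Int.le_floor]
    push_cast
    exact h8.1
  · have h9 := (Int.floor_le (z.2 - (R m).line z.1)).trans h8.2
    exact_mod_cast h9

/-- bound of `h` on the attached set. -/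
theorem col_bd {h : ℝ × ℝ → ℝ} {k : ℤ} {B : Set (ℝ × ℝ)} (hB : B ⊆ col h k) (z : ℝ × ℝ) :
    |B.indicator h z| ≤ (2 : ℝ) ^ (k + 1) := by
  by_cases hz : z ∈ B
  · rw [Set.indicator_of_mem hz]
    exact (hB hz).2.le
  · rw [Set.indicator_of_notMem hz, abs_zero]
    positivity

/-- a coloured set has finite measure. -/
theorem col_fin {h : ℝ × ℝ → ℝ} (hh : Nice h) {k : ℤ} {B : Set (ℝ × ℝ)} (hB : B ⊆ col h k) :
    volume B ≠ ⊤ := by
  obtain ⟨_, _, r, hr⟩ := hh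
  have h1 : B ⊆ Metric.closedBall (0 : ℝ × ℝ) r := by
    intro z hz
    rw [mem_closedBall_zero_iff]
    by_contra h2
    have h3 := (hB hz).1
    rw [hr z (not_le.1 h2), abs_zero] at h3
    have : (0 : ℝ) < 2 ^ k := by positivity
    linarith
  exact ne_top_of_le_ne_top (measure_closedBall_lt_top).ne (measure_mono h1)

/-- the cut chain. -/
def cut {N : ℕ} (t : Finset (Σ _ : Fin N, ℤ)) (Bs : (Σ _ : Fin N, ℤ) → Set (ℝ × ℝ))
    (st : (Σ _ : Fin N, ℤ) → ℝ → ℕ) (hi : ℝ × ℝ → ℕ) (z : ℝ × ℝ) : ℕ :=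
  min (hi z) ((∑ p ∈ t, (Bs p).indicator (fun z => st p z.1) z) +
    (⋃ p ∈ t, Bs p)ᶜ.indicator hi z)

theorem cut_mem {N : ℕ} {t : Finset (Σ _ : Fin N, ℤ)} {Bs : (Σ _ : Fin N, ℤ) → Set (ℝ × ℝ)}
    (hd : ∀ p p', p ≠ p' → Disjoint (Bs p) (Bs p')) (st : (Σ _ : Fin N, ℤ) → ℝ → ℕ)
    (hi : ℝ × ℝ → ℕ) {p : Σ _ : Fin N, ℤ} (hp : p ∈ t) {z : ℝ × ℝ} (hz : z ∈ Bs p) :
    cut t Bs st hi z = min (hi z) (st p z.1) := by
  unfold cut
  congr 1
  have h1 : z ∉ (⋃ p ∈ t, Bs p)ᶜ := by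
    simp only [Set.mem_compl_iff, Set.mem_iUnion, not_not]
    exact ⟨p, hp, hz⟩
  rw [Set.indicator_of_notMem h1, add_zero, Finset.sum_eq_single_of_mem p hp]
  · rw [Set.indicator_of_mem hz]
  · intro p' _ hne
    apply Set.indicator_of_notMem
    intro h2
    exact (Set.disjoint_left.1 (hd p p' (Ne.symm hne))) hz h2

theorem cut_not {N : ℕ} {t : Finset (Σ _ : Fin N, ℤ)} {Bs : (Σ _ : Fin N, ℤ) → Set (ℝ × ℝ)}
    (st : (Σ _ : Fin N, ℤ) → ℝ → ℕ) (hi : ℝ × ℝ → ℕ) {z : ℝ × ℝ} (hz : ∀ p ∈ t, z ∉ Bs p) :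
    cut t Bs st hi z = hi z := by
  unfold cut
  have h1 : z ∈ (⋃ p ∈ t, Bs p)ᶜ := by
    simp only [Set.mem_compl_iff, Set.mem_iUnion, not_exists]
    exact hz
  rw [Set.indicator_of_mem h1, Finset.sum_eq_zero]
  · simp
  · intro p hp
    exact Set.indicator_of_notMem (hz p hp) _

theorem cut_le {N : ℕ} (t : Finset (Σ _ : Fin N, ℤ)) (Bs : (Σ _ : Fin N, ℤ) → Set (ℝ × ℝ))
    (st : (Σ _ : Fin N, ℤ) → ℝ → ℕ) (hi : ℝ × ℝ → ℕ) (z : ℝ × ℝ) :
    cut t Bs st hi z ≤ hi z := min_le_left _ _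

theorem cut_meas {N : ℕ} (t : Finset (Σ _ : Fin N, ℤ)) {Bs : (Σ _ : Fin N, ℤ) → Set (ℝ × ℝ)}
    (hB : ∀ p, MeasurableSet (Bs p)) {st : (Σ _ : Fin N, ℤ) → ℝ → ℕ} (hst : ∀ p, Measurable (st p))
    {hi : ℝ × ℝ → ℕ} (hhi : Measurable hi) : Measurable (cut t Bs st hi) := by
  unfold cut
  refine hhi.min (Measurable.add ?_ ?_)
  · exact Finset.measurable_fun_sum t fun p _ => ((hst p).comp measurable_fst).indicator (hB p)
  · refine hhi.indicator (MeasurableSet.compl ?_)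
    exact t.measurableSet_biUnion fun p _ => hB p

/-- the weight of a short point. -/
def wt (U h : ℝ × ℝ → ℝ) (lo hi : ℝ × ℝ → ℕ) (R0 : Tube) : ℝ × ℝ → ℝ :=
  {z : ℝ × ℝ | z.1 ∈ R0.I ∧ lo z < hi z ∧ R0.k < hi z}.indicator
    (fun z => |h z| / (1 + |U z - R0.m| * (1 / 2 : ℝ) ^ (hi z - 1) + |z.2 - R0.line z.1|) ^ qq)

theorem wt_set_meas {lo hi : ℝ × ℝ → ℕ} (h1 : Measurable lo) (h2 : Measurable hi) (R0 : Tube) :
    MeasurableSet {z : ℝ × ℝ | z.1 ∈ R0.I ∧ lo z < hi z ∧ R0.k < hi z} :=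
  (measurable_fst R0.measurableSet_I).inter ((measurableSet_lt h1 h2).inter
    (measurableSet_lt measurable_const h2))

theorem wt_den (U : ℝ × ℝ → ℝ) (R0 : Tube) (z : ℝ × ℝ) (s : ℕ) :
    1 ≤ (1 + |U z - R0.m| * (1 / 2 : ℝ) ^ s + |z.2 - R0.line z.1|) ^ qq := by
  apply one_le_pow₀
  have h1 : 0 ≤ |U z - R0.m| * (1 / 2 : ℝ) ^ s := by positivity
  have h2 := abs_nonneg (z.2 - R0.line z.1)
  linarith

theorem wt_nonneg (U h : ℝ × ℝ → ℝ) (lo hi : ℝ × ℝ → ℕ) (R0 : Tube) (z : ℝ × ℝ) :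
    0 ≤ wt U h lo hi R0 z := by
  unfold wt
  refine Set.indicator_nonneg (fun z _ => ?_) z
  have := wt_den U R0 z (hi z - 1)
  positivity

theorem wt_nice {U h : ℝ × ℝ → ℝ} {lo hi : ℝ × ℝ → ℕ} (hU : Measurable U) (hh : Nice h)
    (h1 : Measurable lo) (h2 : Measurable hi) (R0 : Tube) : Nice (wt U h lo hi R0) := by
  obtain ⟨hm, ⟨M, hM⟩, r, hr⟩ := hh
  refine nice_ind ⟨?_, ⟨M, fun z => ?_⟩, r, fun z hz => ?_⟩ (wt_set_meas h1 h2 R0)
  · have h3 : Measurable (fun z : ℝ × ℝ => (1 / 2 : ℝ) ^ (hi z - 1)) :=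
      (measurable_from_top (f := fun n : ℕ => (1 / 2 : ℝ) ^ (n - 1))).comp h2
    have h4 : Measurable (fun z : ℝ × ℝ => R0.line z.1) := R0.measurable_line.comp measurable_fst
    have h5 : Measurable (fun z : ℝ × ℝ => |U z - R0.m|) := by fun_prop
    have h6 : Measurable (fun z : ℝ × ℝ => |z.2 - R0.line z.1|) := by fun_prop
    have h7 : Measurable (fun z : ℝ × ℝ => |h z|) := by fun_prop
    exact h7.div (((measurable_const.add (h5.mul h3)).add h6).pow_const _)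
  · have h3 := wt_den U R0 z (hi z - 1)
    have h4 : |(1 + |U z - R0.m| * (1 / 2 : ℝ) ^ (hi z - 1) + |z.2 - R0.line z.1|) ^ qq| =
        (1 + |U z - R0.m| * (1 / 2 : ℝ) ^ (hi z - 1) + |z.2 - R0.line z.1|) ^ qq :=
      abs_of_nonneg (by linarith)
    rw [abs_div, abs_abs, h4]
    exact (div_le_self (abs_nonneg _) h3).trans (hM z)
  · rw [hr z hz]; simp

/-- **the leaf `L_LOWN`**. -/
theorem lown {ζ : ℝ → ℝ} (hζ : ZetC ζ) (hsq : SQ ζ) (htr : TREELOW ζ qq) (hm3 : MASS3)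
    (hom : OMEGA) (hhn : HNORM) (hrs : REMSUM) : LOWN ζ := by
  obtain ⟨Ct, hCt, htr⟩ := htr
  obtain ⟨Co, hCo, hom⟩ := hom
  obtain ⟨c, hc, Ch, hCh, hhn⟩ := hhn
  refine ⟨c, hc, 24 * Ct * (Co + Ch) + 352 * Ct, by positivity, ?_⟩
  intro ω hω U h n S lo hi Λ hU hh hCn hUp hΛ N R kk ii E B hT hlow
  obtain ⟨hUm, ⟨W0, hW0⟩, hUl⟩ := id hU
  obtain ⟨hlm, hhm, hS⟩ := id hCn
  have hPZ : PZ (ph ω) ζ := ph_pz hω hζ
  have hΛ0 : 0 < Λ := lt_of_lt_of_le one_pos hΛ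
  set t : Finset (Σ _ : Fin N, ℤ) := Ix ii with ht
  set Bs : (Σ _ : Fin N, ℤ) → Set (ℝ × ℝ) := Bp R B lo hi with hBs
  set Rs : (Σ _ : Fin N, ℤ) → Tube := fun p => shiftT (R p.1) p.2 with hRs
  set D : ℝ := 4 * (1 / 2 : ℝ) ^ n with hD
  have hD0 : 0 < D := by positivity
  have hBm : ∀ p, MeasurableSet (Bs p) := fun p => Bp_meas R hT.mB hlm hhm p
  have hBc : ∀ p, Bs p ⊆ col h (kk p.1) := fun p z hz => hT.subB p.1 hz.1
  have hBd : ∀ p p', p ≠ p' → Disjoint (Bs p) (Bs p') := Bp_disj R lo hi hT.disB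
  have hBt : ∀ p, ∀ z ∈ Bs p, z.1 ∈ (Rs p).I ∧ (Rs p).k ≤ lo z ∧
      near U 1 (Rs p).b (Rs p).m (lo z) z := fun p z hz => Bp_top hT hlow p z hz
  have hInt : ∀ p, IntT (Rs p) := fun p => shiftT_int (hT.intT p.1) p.2
  -- one tree
  have key : ∀ p, ∃ st : ℝ → ℕ, Measurable st ∧ (∀ x, (Rs p).k ≤ st x) ∧
        (volume {z | z ∈ Bs p ∧ lo z < hi z ∧ st z.1 < hi z}).toReal ≤
          Ct * (1 / Λ) ^ 2 * D * (Rs p).len ∧
        ∀ (z' : ℝ × ℝ) (a b : ℕ), z'.1 ∈ (Rs p).I → a < b → b ≤ S →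
          |Pair (ph ω) ζ U (Bs p) lo (fun z => min (hi z) (st z.1)) ((Bs p).indicator h) a b z'| ≤
            Ct * (2 : ℝ) ^ (kk p.1 + 1) * (Λ * D) / (1 + |U z' - (Rs p).m| *
              (1 / 2 : ℝ) ^ (b - 1) + |z'.2 - (Rs p).line z'.1|) ^ qq := by
    intro p
    refine htr ω hω U ((Bs p).indicator h) S lo hi (Bs p) (Rs p) ((2 : ℝ) ^ (kk p.1 + 1)) D Λ hUm
      (hh.1.indicator (hBm p)) hCn (hBm p) (col_fin hh (hBc p)) (col_bd (hBc p)) hD0 hΛ
      (fun z hz _ => hBt p z hz) ?_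
    have h3 := hm3 AA n (by unfold AA; norm_num) U h S lo hi hUm hh hCn hUp (kk p.1) 0 (Rs p)
      (Bs p) (hInt p) (hBm p) (hBc p) (fun z hz _ => by
        obtain ⟨a1, a2, a3⟩ := hBt p z hz
        refine ⟨a1, a2, ?_⟩
        rw [pow_zero]
        exact a3)
    rw [Nat.mul_zero, pow_zero, mul_one] at h3
    exact h3
  choose st hst1 hst2 hst3 hst4 using key
  set hi' : ℝ × ℝ → ℕ := cut t Bs st hi with hhi'
  have hi'm : Measurable hi' := cut_meas t hBm hst1 hhm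
  have hi'le : ∀ z, hi' z ≤ hi z := cut_le t Bs st hi
  have hi'p : ∀ p ∈ t, ∀ z ∈ Bs p, hi' z = min (hi z) (st p z.1) := fun p hp z hz =>
    cut_mem hBd st hi hp hz
  set Q : ℝ := ∫ z, (h z) ^ 2 with hQ
  have hQ0 : 0 ≤ Q := integral_nonneg fun z => sq_nonneg _
  refine ⟨hi', hi'm, hi'le, ?_, ?_⟩
  · -- kept part
    obtain ⟨W, hWm, hW1, hW2, hW3, hW4⟩ := hom n U h S lo hi hUm hh hCn hUp N R kk ii E B hT
    have hH := hhn n U h lo hi hU hh N R kk ii E B hT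
    set Hf : ℝ × ℝ → ℝ := fun w => ∑ m, (2 : ℝ) ^ kk m * 2 ^ (AA * ii m) * (1 / 2 : ℝ) ^ n *
        (fat (32 * 2 ^ ii m) (R m)).indicator 1 w with hHf
    have hHn : Nice Hf := nice_sum _ fun m _ => nice_smul _ (fat_nice _ _)
    have hWH : Integrable (fun w => W w * Hf w) := by
      have e : (fun w => W w * Hf w) = fun w => ∑ m, (2 : ℝ) ^ kk m * 2 ^ (AA * ii m) *
          (1 / 2 : ℝ) ^ n * (W w * (fat (32 * 2 ^ ii m) (R m)).indicator 1 w) := by
        funext w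
        rw [hHf, Finset.mul_sum]
        refine Finset.sum_congr rfl fun m _ => ?_
        ring
      rw [e]
      exact integrable_finsetSum _ fun m _ => (W_fat hWm hW1 hW2 _ _).const_mul _
    have hcs := final_cs hQ0 hCo hCh hW2 (nice_int (nice_sq hHn)) hWH hW3 hH
    have hC' : ∀ p ∈ t, Chain S lo (fun z => min (hi z) (st p z.1)) := fun p _ =>
      ⟨hlm, hhm.min ((hst1 p).comp measurable_fst), fun z => (min_le_left _ _).trans (hS z)⟩
    have hsplit := fun (a b : ℕ) (z' : ℝ × ℝ) =>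
      Pair_split hPZ hUm hW0 (S := S) (lo := lo) (hi := hi') (h := h) t Bs
      (fun p z => min (hi z) (st p z.1)) hC' (fun p _ => nice_ind hh (hBm p))
      (fun z h0 h1 => Bp_cover hT z h0 (lt_of_lt_of_le h1 (hi'le z)))
      (fun p _ p' _ hne => hBd p p' hne) hi'p a b z'
    -- pointwise bound
    have hpt : ∀ z', h z' * Pair (ph ω) ζ U Set.univ lo hi' h (lo z') (hi' z') z' ≤
        ∑ p ∈ t, Ct * (2 : ℝ) ^ (kk p.1 + 1) * (Λ * D) * wt U h lo hi (Rs p) z' := by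
      intro z'
      rw [hsplit, Finset.mul_sum]
      refine Finset.sum_le_sum fun p hp => ?_
      refine (le_abs_self _).trans ?_
      rw [abs_mul]
      by_cases h1 : z'.1 ∈ (Rs p).I ∧ lo z' < hi' z' ∧ (Rs p).k < hi z'
      · obtain ⟨h2, h3, h4⟩ := h1
        have h5 := hst4 p z' (lo z') (hi' z') h2 h3 ((hi'le z').trans (hS z'))
        have h6 : z' ∈ {z : ℝ × ℝ | z.1 ∈ (Rs p).I ∧ lo z < hi z ∧ (Rs p).k < hi z} :=
          ⟨h2, lt_of_lt_of_le h3 (hi'le z'), h4⟩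
        unfold wt
        rw [Set.indicator_of_mem h6]
        have h7 : (1 + |U z' - (Rs p).m| * (1 / 2 : ℝ) ^ (hi z' - 1) +
            |z'.2 - (Rs p).line z'.1|) ^ qq ≤ (1 + |U z' - (Rs p).m| *
              (1 / 2 : ℝ) ^ (hi' z' - 1) + |z'.2 - (Rs p).line z'.1|) ^ qq := by
          have h8 : (1 / 2 : ℝ) ^ (hi z' - 1) ≤ (1 / 2 : ℝ) ^ (hi' z' - 1) := by
            apply pow_le_pow_of_le_one (by norm_num) (by norm_num)
            have := hi'le z'
            omega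
          have h9 : |U z' - (Rs p).m| * (1 / 2 : ℝ) ^ (hi z' - 1) ≤
              |U z' - (Rs p).m| * (1 / 2 : ℝ) ^ (hi' z' - 1) :=
            mul_le_mul_of_nonneg_left h8 (abs_nonneg _)
          have h10 : 0 ≤ |U z' - (Rs p).m| * (1 / 2 : ℝ) ^ (hi z' - 1) := by positivity
          have h11 := abs_nonneg (z'.2 - (Rs p).line z'.1)
          apply pow_le_pow_left₀ (by linarith)
          linarith
        have h12 := wt_den U (Rs p) z' (hi z' - 1)
        calc |h z'| * |Pair (ph ω) ζ U (Bs p) lo (fun z => min (hi z) (st p z.1))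
              ((Bs p).indicator h) (lo z') (hi' z') z'|
            ≤ |h z'| * (Ct * (2 : ℝ) ^ (kk p.1 + 1) * (Λ * D) / (1 + |U z' - (Rs p).m| *
              (1 / 2 : ℝ) ^ (hi' z' - 1) + |z'.2 - (Rs p).line z'.1|) ^ qq) :=
              mul_le_mul_of_nonneg_left h5 (abs_nonneg _)
          _ ≤ |h z'| * (Ct * (2 : ℝ) ^ (kk p.1 + 1) * (Λ * D) / (1 + |U z' - (Rs p).m| *
              (1 / 2 : ℝ) ^ (hi z' - 1) + |z'.2 - (Rs p).line z'.1|) ^ qq) := by
              refine mul_le_mul_of_nonneg_left ?_ (abs_nonneg _)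
              exact div_le_div_of_nonneg_left (by positivity) (by linarith) h7
          _ = _ := by ring
      · have h2 : Pair (ph ω) ζ U (Bs p) lo (fun z => min (hi z) (st p z.1))
            ((Bs p).indicator h) (lo z') (hi' z') z' = 0 := by
          by_cases h3 : lo z' < hi' z'
          · refine Pair_zero hPZ (R := Rs p) (fun z hz _ => ⟨(hBt p z hz).1, (hBt p z hz).2.1⟩) ?_
            by_cases h4 : z'.1 ∈ (Rs p).I
            · right
              by_contra h5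
              exact h1 ⟨h4, h3, lt_of_lt_of_le (by omega) (hi'le z')⟩
            · left; exact h4
          · exact Pair_empty (by omega) z'
        rw [h2, abs_zero, mul_zero]
        have := wt_nonneg U h lo hi (Rs p) z'
        positivity
    have hwn : ∀ p, Nice (wt U h lo hi (Rs p)) := fun p => wt_nice hUm hh hlm hhm (Rs p)
    have hwi : ∀ p, ∫ z, wt U h lo hi (Rs p) z ≤ ∫ w in fat 1 (Rs p), W w := by
      intro p
      unfold wt
      rw [integral_indicator (wt_set_meas hlm hhm (Rs p))]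
      exact (hW4 (Rs p) (hInt p)).2
    have hW10 : ∀ m, 0 ≤ ∫ w, W w * (fat (32 * 2 ^ ii m) (R m)).indicator (1 : ℝ × ℝ → ℝ) w :=
      fun m => integral_nonneg fun w => mul_nonneg (hW1 w)
        (Set.indicator_nonneg (fun _ _ => zero_le_one) w)
    calc ∫ w, (Tc (ph ω) ζ U lo hi' h w) ^ 2
        ≤ 2 * ∫ z', h z' * Pair (ph ω) ζ U Set.univ lo hi' h (lo z') (hi' z') z' :=
          hsq (ph ω) hPZ.cφ hPZ.sφ U h S lo hi' hUm ⟨W0, hW0⟩ hh
            ⟨hlm, hi'm, fun z => (hi'le z).trans (hS z)⟩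
      _ ≤ 2 * ∫ z', ∑ p ∈ t, Ct * (2 : ℝ) ^ (kk p.1 + 1) * (Λ * D) * wt U h lo hi (Rs p) z' := by
          refine mul_le_mul_of_nonneg_left ?_ (by norm_num)
          refine int_le_of (integrable_finsetSum _ fun p _ => (nice_int (hwn p)).const_mul _)
            (fun z => Finset.sum_nonneg fun p _ => ?_) hpt
          have := wt_nonneg U h lo hi (Rs p) z
          positivity
      _ = 2 * ∑ p ∈ t, Ct * (2 : ℝ) ^ (kk p.1 + 1) * (Λ * D) * ∫ z', wt U h lo hi (Rs p) z' := by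
          rw [integral_finsetSum _ fun p _ => (nice_int (hwn p)).const_mul _]
          simp only [integral_const_mul]
      _ ≤ 2 * ∑ p ∈ t, Ct * (2 : ℝ) ^ (kk p.1 + 1) * (Λ * D) * ∫ w in fat 1 (Rs p), W w := by
          refine mul_le_mul_of_nonneg_left (Finset.sum_le_sum fun p _ => ?_) (by norm_num)
          exact mul_le_mul_of_nonneg_left (hwi p) (by positivity)
      _ = 2 * ∑ m, ∑ j ∈ Finset.Icc (-(Mw ii m : ℤ)) (Mw ii m),
            Ct * (2 : ℝ) ^ (kk m + 1) * (Λ * D) * ∫ w in fat 1 (shiftT (R m) j), W w := by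
          rw [ht, ← sum_Ix ii fun m j =>
            Ct * (2 : ℝ) ^ (kk m + 1) * (Λ * D) * ∫ w in fat 1 (shiftT (R m) j), W w]
      _ ≤ 2 * ∑ m, Ct * (2 : ℝ) ^ (kk m + 1) * (Λ * D) *
            (3 * ∫ w, W w * (fat (32 * 2 ^ ii m) (R m)).indicator (1 : ℝ × ℝ → ℝ) w) := by
          refine mul_le_mul_of_nonneg_left (Finset.sum_le_sum fun m _ => ?_) (by norm_num)
          rw [← Finset.mul_sum]
          refine mul_le_mul_of_nonneg_left ?_ (by positivity)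
          refine strip_int hWm hW1 hW2 (R m) (Mw ii m) ?_
          unfold Mw
          push_cast
          have : (1 : ℝ) ≤ 2 ^ ii m := one_le_pow₀ (by norm_num)
          linarith
      _ ≤ 2 * (24 * Ct * Λ * ∫ w, W w * Hf w) := by
          refine mul_le_mul_of_nonneg_left ?_ (by norm_num)
          have e : ∫ w, W w * Hf w = ∑ m, (2 : ℝ) ^ kk m * 2 ^ (AA * ii m) * (1 / 2 : ℝ) ^ n *
              ∫ w, W w * (fat (32 * 2 ^ ii m) (R m)).indicator (1 : ℝ × ℝ → ℝ) w := by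
            simp only [← integral_const_mul]
            rw [← integral_finsetSum _ fun m _ => (W_fat hWm hW1 hW2 _ _).const_mul _]
            congr 1
            funext w
            rw [hHf, Finset.mul_sum]
            refine Finset.sum_congr rfl fun m _ => ?_
            ring
          rw [e, Finset.mul_sum]
          refine Finset.sum_le_sum fun m _ => ?_
          have h1 : (1 : ℝ) ≤ 2 ^ (AA * ii m) := one_le_pow₀ (by norm_num)
          have h2 : (2 : ℝ) ^ (kk m + 1) = 2 * 2 ^ kk m := by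
            rw [zpow_add₀ (by norm_num), zpow_one]; ring
          rw [h2, hD]
          have h3 : 0 ≤ Ct * Λ * (2 : ℝ) ^ kk m * (1 / 2 : ℝ) ^ n *
              ∫ w, W w * (fat (32 * 2 ^ ii m) (R m)).indicator (1 : ℝ × ℝ → ℝ) w :=
            mul_nonneg (by positivity) (hW10 m)
          nlinarith [mul_le_mul_of_nonneg_left h1 h3]
      _ ≤ 2 * (24 * Ct * Λ * ((Co + Ch) / 2 * (2 : ℝ) ^ (-(n : ℝ) / 4) * Q)) := by
          refine mul_le_mul_of_nonneg_left ?_ (by norm_num)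
          exact mul_le_mul_of_nonneg_left hcs (by positivity)
      _ = 24 * Ct * (Co + Ch) * Λ * (2 : ℝ) ^ (-(n : ℝ) / 4) * Q := by ring
      _ ≤ (24 * Ct * (Co + Ch) + 352 * Ct) * Λ * (2 : ℝ) ^ (-(n : ℝ) / 4) * Q := by
          have h1 : (0 : ℝ) < (2 : ℝ) ^ (-(n : ℝ) / 4) := Real.rpow_pos_of_pos (by norm_num) _
          have h2 : 0 ≤ 352 * Ct * Λ * (2 : ℝ) ^ (-(n : ℝ) / 4) * Q := by positivity
          linarith
  · -- removed part
    set rem : (Σ _ : Fin N, ℤ) → Set (ℝ × ℝ) := fun p =>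
      {z | z ∈ Bs p ∧ lo z < hi z ∧ st p z.1 < hi z} with hrem
    have hrm : ∀ p, MeasurableSet (rem p) := fun p =>
      (hBm p).inter ((measurableSet_lt hlm hhm).inter
        (measurableSet_lt ((hst1 p).comp measurable_fst) hhm))
    have hRm : MeasurableSet {z | lo z < hi z ∧ hi' z < hi z} :=
      (measurableSet_lt hlm hhm).inter (measurableSet_lt hi'm hhm)
    have hrf : ∀ p, volume (rem p) ≠ ⊤ := fun p =>
      ne_top_of_le_ne_top (col_fin hh (hBc p)) (measure_mono fun z hz => hz.1)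
    have hpt : ∀ z, {z | lo z < hi z ∧ hi' z < hi z}.indicator (fun z => (h z) ^ 2) z ≤
        ∑ p ∈ t, (rem p).indicator (fun z => (h z) ^ 2) z := by
      intro z
      have h0 : ∀ p ∈ t, 0 ≤ (rem p).indicator (fun z => (h z) ^ 2) z := fun p _ =>
        Set.indicator_nonneg (fun _ _ => sq_nonneg _) z
      by_cases hz : z ∈ {z | lo z < hi z ∧ hi' z < hi z}
      · by_cases hz2 : ∃ p ∈ t, z ∈ Bs p
        · obtain ⟨p, hp, hzp⟩ := hz2
          have h1 := hz.2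
          rw [hi'p p hp z hzp] at h1
          have h2 : z ∈ rem p := ⟨hzp, hz.1, by
            rcases min_lt_iff.1 h1 with h3 | h3
            · exact absurd h3 (lt_irrefl _)
            · exact h3⟩
          rw [Set.indicator_of_mem hz]
          refine le_trans (le_of_eq ?_) (Finset.single_le_sum h0 hp)
          rw [Set.indicator_of_mem h2]
        · exfalso
          push Not at hz2
          have h1 := hz.2
          rw [hhi', cut_not st hi hz2] at h1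
          exact lt_irrefl _ h1
      · rw [Set.indicator_of_notMem hz]
        exact Finset.sum_nonneg h0
    have hbd : ∀ p, ∫ z in rem p, (h z) ^ 2 ≤
        ((2 : ℝ) ^ (kk p.1 + 1)) ^ 2 * (Ct * (1 / Λ) ^ 2 * D * (Rs p).len) := by
      intro p
      have h1 : ‖∫ z in rem p, (h z) ^ 2‖ ≤
          ((2 : ℝ) ^ (kk p.1 + 1)) ^ 2 * (volume (rem p)).toReal := by
        refine norm_setIntegral_le_of_norm_le_const (lt_top_iff_ne_top.2 (hrf p)) fun z hz => ?_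
        rw [Real.norm_eq_abs, abs_of_nonneg (sq_nonneg _), ← sq_abs]
        exact pow_le_pow_left₀ (abs_nonneg _) (hBc p hz.1).2.le 2
      refine (le_abs_self _).trans (h1.trans ?_)
      exact mul_le_mul_of_nonneg_left (hst3 p) (by positivity)
    have hsqi : Integrable (fun z => (h z) ^ 2) := nice_int (nice_sq hh)
    have hrs' := (hrs n U h lo hi hUm hh N R kk ii E B hT).2
    calc ∫ z in {z | lo z < hi z ∧ hi' z < hi z}, (h z) ^ 2
        = ∫ z, {z | lo z < hi z ∧ hi' z < hi z}.indicator (fun z => (h z) ^ 2) z :=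
          (integral_indicator hRm).symm
      _ ≤ ∫ z, ∑ p ∈ t, (rem p).indicator (fun z => (h z) ^ 2) z :=
          integral_mono (hsqi.indicator hRm)
            (integrable_finsetSum _ fun p _ => hsqi.indicator (hrm p)) hpt
      _ = ∑ p ∈ t, ∫ z in rem p, (h z) ^ 2 := by
          rw [integral_finsetSum _ fun p _ => hsqi.indicator (hrm p)]
          exact Finset.sum_congr rfl fun p _ => integral_indicator (hrm p)
      _ ≤ ∑ p ∈ t, ((2 : ℝ) ^ (kk p.1 + 1)) ^ 2 * (Ct * (1 / Λ) ^ 2 * D * (Rs p).len) :=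
          Finset.sum_le_sum fun p _ => hbd p
      _ = ∑ m, ∑ j ∈ Finset.Icc (-(Mw ii m : ℤ)) (Mw ii m),
            ((2 : ℝ) ^ (kk m + 1)) ^ 2 * (Ct * (1 / Λ) ^ 2 * D * (R m).len) := by
          rw [ht, ← sum_Ix ii fun m _ =>
            ((2 : ℝ) ^ (kk m + 1)) ^ 2 * (Ct * (1 / Λ) ^ 2 * D * (R m).len)]
          rfl
      _ ≤ ∑ m, 176 * Ct * (1 / Λ) ^ 2 *
            ((4 : ℝ) ^ kk m * 2 ^ (AA * ii m) * (1 / 2 : ℝ) ^ n * (R m).len) := by
          refine Finset.sum_le_sum fun m _ => ?_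
          rw [Finset.sum_const, nsmul_eq_mul]
          have h1 := card_strips ii m
          have h2 : ((2 : ℝ) ^ (kk m + 1)) ^ 2 = 4 * (4 : ℝ) ^ kk m := by
            have h3 : (4 : ℝ) = 2 ^ (2 : ℤ) := by norm_num
            have h4 : (4 : ℝ) ^ kk m = ((2 : ℝ) ^ kk m) ^ 2 := by
              rw [h3, ← zpow_mul, ← zpow_natCast, ← zpow_mul]
              congr 1
              push_cast
              ring
            rw [h4, zpow_add₀ (by norm_num), zpow_one]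
            ring
          rw [h2, hD]
          have h3 : 0 ≤ 4 * (4 : ℝ) ^ kk m * (Ct * (1 / Λ) ^ 2 * (4 * (1 / 2 : ℝ) ^ n) * (R m).len) := by
            have := (R m).len_pos
            positivity
          calc _ ≤ 11 * 2 ^ (AA * ii m) * (4 * (4 : ℝ) ^ kk m *
                (Ct * (1 / Λ) ^ 2 * (4 * (1 / 2 : ℝ) ^ n) * (R m).len)) :=
                mul_le_mul_of_nonneg_right h1 h3
            _ = _ := by ring
      _ = 176 * Ct * (1 / Λ) ^ 2 * ∑ m, (4 : ℝ) ^ kk m * 2 ^ (AA * ii m) * (1 / 2 : ℝ) ^ n *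
            (R m).len := by rw [Finset.mul_sum]
      _ ≤ 176 * Ct * (1 / Λ) ^ 2 * ((n + 2) * Q) :=
          mul_le_mul_of_nonneg_left hrs' (by positivity)
      _ ≤ (24 * Ct * (Co + Ch) + 352 * Ct) * (n + 1) * (1 / Λ) ^ 2 * Q := by
          have hn : (0 : ℝ) ≤ n := Nat.cast_nonneg n
          have h1 : 0 ≤ Ct * (1 / Λ) ^ 2 * Q := by positivity
          have h2 : 0 ≤ 24 * Ct * (Co + Ch) * (n + 1) * (1 / Λ) ^ 2 * Q := by positivity
          nlinarith [mul_nonneg hn h1]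

theorem l_lown : L_LOWN := fun _ hζ hsq htr hm3 hom hhn hrs => lown hζ hsq htr hm3 hom hhn hrs

end Crest.Agent.R087.LowNx282
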