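import Crest.Agent.R087.PLow_575
import Crest.Agent.R087.T3_153
import Crest.Agent.R087.OP0_270

/-!
Row 87 (S0115), operator part, leaf **TREELOW** (helper575): one LOW tree, stopping + pointwise pairing
bound, from `T3` (helper153) and `PAIR-LOW` (`PLow_575`).
-/

set_option autoImplicit false

noncomputable section

open MeasureTheory Crest.Agent.R087.Sh0x283 Crest.Agent.R087.GateDefx273 Crest.Agent.R087.E2x542
open Crest.Agent.R087.T1x90 Crest.Agent.R087.TreeIfx153 Crest.Agent.R087.PLdefx575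
open Crest.Agent.R087.OP0x270

namespace Crest.Agent.R087.TreeLowx575

/-! ### the profile -/

/-- half of the autocorrelation -/
def Xh (ω : ℝ → ℝ) (r : ℝ) : ℝ := 1 / 2 * Pair1x339.Xi ω r

theorem iter_Xh {M : ℕ} {ω : ℝ → ℝ} (h : Pair1x339.Om M ω) (n : ℕ) (r : ℝ) :
    iteratedDeriv n (Xh ω) r = 1 / 2 * iteratedDeriv n (Pair1x339.Xi ω) r := by
  induction n generalizing r with
  | zero => simp [Xh]
  | succ n ih =>
    rw [iteratedDeriv_succ, iteratedDeriv_succ, funext ih]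
    have : Differentiable ℝ (iteratedDeriv n (Pair1x339.Xi ω)) :=
      (Pair1x339.smooth_iter (Pair1x339.smooth_Xi h) n).differentiable (by simp)
    exact deriv_const_mul _ (this r)

theorem prf {q : ℕ} {ω : ℝ → ℝ} (hω : PW (2 * q + 8) ω) : Prf (4 * q + 4) (Xh ω) := by
  have h : Pair1x339.Om (2 * q + 8) ω := hω
  refine ⟨contDiff_const.mul (Pair1x339.smooth_Xi h), fun r hr => ?_, fun i hi r => ?_⟩
  · have := Pair1x339.Xi_zero h 0 hr
    rw [iteratedDeriv_zero] at this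
    simp only [Xh]
    rw [this, mul_zero]
  · rw [iter_Xh h, abs_mul, abs_of_pos (by norm_num : (0 : ℝ) < 1 / 2)]
    have := Pair1x339.Xi_bd h (n := i) (by omega) r
    linarith

theorem pr_eq {ζ : ℝ → ℝ} (hζ : ZetC ζ) {q : ℕ} {ω : ℝ → ℝ} (hω : PW (2 * q + 8) ω)
    (U : ℝ × ℝ → ℝ) (s s' : ℕ) (z z' : ℝ × ℝ) :
    pr (iteratedDeriv (2 * q + 2) ω) ζ U s s' z z' =
      2 * Pair1x339.pp (iteratedDeriv (4 * q + 4) (Xh ω)) ζ U s' s z' z := by
  have h : Pair1x339.Om (2 * q + 8) ω := hω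
  have e1 : pr (iteratedDeriv (2 * q + 2) ω) ζ U s s' z z' =
      ∫ w, Pair1x339.kk (iteratedDeriv (2 * q + 2) ω) ζ U s' z' w *
        Pair1x339.kk (iteratedDeriv (2 * q + 2) ω) ζ U s z w := by
    unfold pr
    congr 1
    ext w
    exact mul_comm _ _
  rw [e1, Pair1x339.pair_eq hζ h]
  have e2 : (-1 : ℝ) ^ (2 * q + 2) = 1 := Even.neg_one_pow ⟨q + 1, by ring⟩
  have e3 : iteratedDeriv (2 * (2 * q + 2)) (Pair1x339.Xi ω) =
      fun r => 2 * iteratedDeriv (4 * q + 4) (Xh ω) r := by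
    funext r
    rw [iter_Xh h, show 2 * (2 * q + 2) = 4 * q + 4 by ring]
    ring
  rw [e2, e3, Pair1x339.pp_const_mul, one_mul]

/-! ### measurability and integrability of the pairing -/

theorem pp_meas {Φ ζ : ℝ → ℝ} (hΦ : Continuous Φ) (hζ : Continuous ζ) {U : ℝ × ℝ → ℝ}
    (hU : Measurable U) (s' s : ℕ) (w : ℝ × ℝ) :
    Measurable (fun z => Pair1x339.pp Φ ζ U s' s w z) := by
  unfold Pair1x339.pp Pair1x339.ln
  have h1 : Measurable fun z : ℝ × ℝ => gt (Int.fract ((2 : ℝ) ^ s * z.1)) :=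
    GateAx273.gt_meas.comp (measurable_fract.comp (measurable_const.mul measurable_fst))
  have h2 : Measurable fun z : ℝ × ℝ => (2 : ℝ) ^ s' * gt (Int.fract ((2 : ℝ) ^ s' * w.1)) *
      ((2 : ℝ) ^ s * gt (Int.fract ((2 : ℝ) ^ s * z.1))) :=
    measurable_const.mul (measurable_const.mul h1)
  refine h2.mul ?_
  refine PairDeepAx975.measurable_par (F := fun p : (ℝ × ℝ) × ℝ =>
    ζ ((2 : ℝ) ^ s * p.2 - ⌊(2 : ℝ) ^ s * p.1.1⌋) * ζ ((2 : ℝ) ^ s' * p.2 - ⌊(2 : ℝ) ^ s' * w.1⌋) *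
      Φ (w.2 + (p.2 - w.1) * U w - (p.1.2 + (p.2 - p.1.1) * U p.1))) ?_
  have h3 : Measurable fun p : (ℝ × ℝ) × ℝ => ((⌊(2 : ℝ) ^ s * p.1.1⌋ : ℤ) : ℝ) :=
    (measurable_from_top (f := fun n : ℤ => (n : ℝ))).comp
      (Int.measurable_floor.comp (measurable_const.mul (measurable_fst.comp measurable_fst)))
  have h4 : Measurable fun p : (ℝ × ℝ) × ℝ => U p.1 := hU.comp measurable_fst
  refine ((hζ.measurable.comp ?_).mul (hζ.measurable.comp ?_)).mul (hΦ.measurable.comp ?_)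
  · fun_prop
  · fun_prop
  · fun_prop

theorem pp_bdd {Φ ζ : ℝ → ℝ} (hζ : ZetC ζ) (hΦ : ∀ u, |Φ u| ≤ 1) (U : ℝ × ℝ → ℝ) (s' s : ℕ)
    (w : ℝ × ℝ) : ∃ M : ℝ, ∀ z, |Pair1x339.pp Φ ζ U s' s w z| ≤ M := by
  obtain ⟨A, hA0, hA⟩ := Pair1x339.exists_bd hζ.1 (Pair1x339.zet_cs hζ) 0
  have hA' : ∀ u, |ζ u| ≤ A := by simpa using hA 0 le_rfl
  refine ⟨(2 : ℝ) ^ s' * 2 ^ s * (A * A * 1 * ((2 : ℝ) ^ s)⁻¹), fun z => ?_⟩
  refine (Pair1x339.pp_abs _ _ _ _ _ _ _).trans ?_
  exact mul_le_mul_of_nonneg_left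
    (Pair1x339.qq_triv (Pair1x339.ZetC.pr hζ) hA' hA' hΦ _ _ _ _ _ _) (by positivity)

theorem pp_int {Φ ζ : ℝ → ℝ} (hζ : ZetC ζ) (hΦc : Continuous Φ) (hΦ : ∀ u, |Φ u| ≤ 1)
    {U : ℝ × ℝ → ℝ} (hU : Measurable U) {h : ℝ × ℝ → ℝ} (hh : Nice h) (s' s : ℕ) (w : ℝ × ℝ) :
    Integrable (fun z => h z * Pair1x339.pp Φ ζ U s' s w z) := by
  obtain ⟨M, hM⟩ := pp_bdd hζ hΦ U s' s w
  exact (PairDeepAx975.nice_int hh).mul_bdd (c := M)
    (pp_meas hΦc hζ.1.continuous hU s' s w).aestronglyMeasurable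
    (Filter.Eventually.of_forall fun z => by rw [Real.norm_eq_abs]; exact hM z)

/-! ### the tree -/

/-- alive points -/
def ZZ (B : Set (ℝ × ℝ)) (lo hi : ℝ × ℝ → ℕ) : Set (ℝ × ℝ) := {z | z ∈ B ∧ lo z < hi z}

/-- activity -/
def ac (lo hi : ℝ × ℝ → ℕ) (s : ℕ) : Set (ℝ × ℝ) := {z | lo z ≤ s ∧ s < hi z}

theorem mZZ {B : Set (ℝ × ℝ)} {lo hi : ℝ × ℝ → ℕ} (hB : MeasurableSet B) (h1 : Measurable lo)
    (h2 : Measurable hi) : MeasurableSet (ZZ B lo hi) :=
  hB.inter (measurableSet_lt h1 h2)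

theorem mac {lo hi : ℝ × ℝ → ℕ} (h1 : Measurable lo) (h2 : Measurable hi) (s : ℕ) :
    MeasurableSet (ac lo hi s) :=
  (measurableSet_le h1 measurable_const).inter (measurableSet_lt measurable_const h2)

theorem cel_of_mem {R : Tube} {x : ℝ} (h : x ∈ R.I) : cel R.k x = R.j := by
  have h2 : (0 : ℝ) < 2 ^ R.k := by positivity
  have hl : R.len * 2 ^ R.k = 1 := by
    rw [Tube.len, ← mul_pow]; norm_num
  obtain ⟨h3, h4⟩ := h
  rw [cel, Int.floor_eq_iff]
  constructor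
  · calc (R.j : ℝ) = R.j * R.len * 2 ^ R.k := by rw [mul_assoc, hl, mul_one]
      _ ≤ x * 2 ^ R.k := by gcongr
      _ = 2 ^ R.k * x := mul_comm _ _
  · calc (2 : ℝ) ^ R.k * x = x * 2 ^ R.k := mul_comm _ _
      _ < ((R.j : ℝ) + 1) * R.len * 2 ^ R.k := by gcongr
      _ = (R.j : ℝ) + 1 := by rw [mul_assoc, hl, mul_one]

theorem near_mono {U : ℝ × ℝ → ℝ} {K b m : ℝ} {s t : ℕ} {z : ℝ × ℝ} (h : near U K b m s z)
    (hst : s ≤ t) : |U z - m| * (1 / 2) ^ t ≤ K :=
  le_trans (mul_le_mul_of_nonneg_left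
    (pow_le_pow_of_le_one (by norm_num) (by norm_num) hst) (abs_nonneg _)) h.2

theorem nice_h {U g : ℝ × ℝ → ℝ} {S : ℕ} {lo hi : ℝ × ℝ → ℕ} {B : Set (ℝ × ℝ)} {R : Tube} {G : ℝ}
    (hg : Measurable g) (hch : Chain S lo hi) (hB : MeasurableSet B) (hbg : ∀ z, |g z| ≤ G)
    (hpos : ∀ z ∈ B, lo z < hi z → z.1 ∈ R.I ∧ R.k ≤ lo z ∧ near U 1 R.b R.m (lo z) z) :
    Nice ((ZZ B lo hi).indicator g) := by
  have hG : 0 ≤ G := (abs_nonneg _).trans (hbg 0)
  refine ⟨hg.indicator (mZZ hB hch.1 hch.2.1), ⟨G, fun z => ?_⟩,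
    ⟨(|(R.j : ℝ)| + 1) + (1 + |R.b| + |R.m| * (|(R.j : ℝ)| + 1)), fun z hz => ?_⟩⟩
  · by_cases h : z ∈ ZZ B lo hi
    · rw [Set.indicator_of_mem h]; exact hbg z
    · rw [Set.indicator_of_notMem h, abs_zero]; exact hG
  · apply Set.indicator_of_notMem
    intro h
    obtain ⟨h1, -, h3⟩ := hpos z h.1 h.2
    have hl := R.len_pos
    have hl1 := R.len_le_one
    have hx : |z.1| ≤ |(R.j : ℝ)| + 1 := by
      obtain ⟨h4, h5⟩ := h1
      have ha := abs_le.1 (le_refl |(R.j : ℝ)|)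
      have hb : 0 ≤ |(R.j : ℝ)| := abs_nonneg _
      rw [abs_le]
      constructor
      · nlinarith
      · nlinarith
    have hy : |z.2| ≤ 1 + |R.b| + |R.m| * (|(R.j : ℝ)| + 1) := by
      have e : z.2 = (z.2 - (R.b + R.m * z.1)) + (R.b + R.m * z.1) := by ring
      calc |z.2| = |(z.2 - (R.b + R.m * z.1)) + (R.b + R.m * z.1)| := by rw [← e]
        _ ≤ |z.2 - (R.b + R.m * z.1)| + |R.b + R.m * z.1| := abs_add_le _ _
        _ ≤ 1 + (|R.b| + |R.m * z.1|) := add_le_add h3.1 (abs_add_le _ _)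
        _ = 1 + |R.b| + |R.m| * |z.1| := by rw [abs_mul]; ring
        _ ≤ _ := by gcongr
    have hn : ‖z‖ ≤ (|(R.j : ℝ)| + 1) + (1 + |R.b| + |R.m| * (|(R.j : ℝ)| + 1)) := by
      rw [Prod.norm_def, Real.norm_eq_abs, Real.norm_eq_abs]
      refine max_le ?_ ?_
      · have : 0 ≤ 1 + |R.b| + |R.m| * (|(R.j : ℝ)| + 1) := by positivity
        linarith
      · have : 0 ≤ |(R.j : ℝ)| + 1 := by positivity
        linarith
    linarith

theorem ltree {U g : ℝ × ℝ → ℝ} {S : ℕ} {lo hi : ℝ × ℝ → ℕ} {B : Set (ℝ × ℝ)} {R : Tube}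
    {G D : ℝ} (hU : Measurable U) (hg : Measurable g) (hch : Chain S lo hi) (hB : MeasurableSet B)
    (hfB : volume B ≠ ⊤) (hbg : ∀ z, |g z| ≤ G) (hD : 0 < D)
    (hpos : ∀ z ∈ B, lo z < hi z → z.1 ∈ R.I ∧ R.k ≤ lo z ∧ near U 1 R.b R.m (lo z) z)
    (hm : Mass3 B lo hi R.k D) :
    LTree S R.k R.j ((ZZ B lo hi).indicator g) (ac lo hi) (ZZ B lo hi) G D U R.b R.m := by
  have hG : 0 ≤ G := (abs_nonneg _).trans (hbg 0)
  refine ⟨⟨nice_h hg hch hB hbg hpos, fun z => ?_, hD.le, mZZ hB hch.1 hch.2.1, fun z hz => ?_,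
    fun z hz => ?_, fun s => mac hch.1 hch.2.1 s, fun s hs => ?_, fun s hs => ?_,
    fun z _ s s' s'' h1 h2 h3 h4 => ?_, fun z hz s hs hex => ?_⟩, hU, hG, fun z hz s hs => ?_,
    fun z hz s hs => ?_⟩
  · by_cases h : z ∈ ZZ B lo hi
    · rw [Set.indicator_of_mem h]; exact hbg z
    · rw [Set.indicator_of_notMem h, abs_zero]; exact hG
  · exact Set.indicator_of_notMem hz _
  · exact cel_of_mem (hpos z hz.1 hz.2).1
  · rw [Set.disjoint_left]
    intro z hz hz'
    have := (hpos z hz'.1 hz'.2).2.1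
    have h2 : lo z ≤ s := hz.1
    omega
  · rw [Set.disjoint_left]
    intro z hz hz'
    have := hch.2.2 z
    have h2 : s < hi z := hz.2
    omega
  · exact ⟨h3.1.trans h1, lt_of_le_of_lt h2 h4.2⟩
  · obtain ⟨s', hs', hz'⟩ := hex
    have h1 := hm s hs (jx s z.1) ⟨z, hz.1, hz.2, lt_of_le_of_lt hs' hz'.2, rfl⟩
    have h2 : ZZ B lo hi ∩ {w : ℝ × ℝ | cel s w.1 = cel s z.1} =
        {w | w ∈ B ∧ lo w < hi w ∧ jx s w.1 = jx s z.1} := by
      ext w
      constructor
      · rintro ⟨⟨a1, a2⟩, a3⟩; exact ⟨a1, a2, a3⟩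
      · rintro ⟨a1, a2, a3⟩; exact ⟨⟨a1, a2⟩, a3⟩
    rw [h2]
    have h3 : volume {w | w ∈ B ∧ lo w < hi w ∧ jx s w.1 = jx s z.1} ≠ ⊤ :=
      ne_top_of_le_ne_top hfB (measure_mono fun w hw => hw.1)
    rw [← ENNReal.ofReal_toReal h3]
    exact ENNReal.ofReal_le_ofReal h1
  · exact (hpos z hz.1 hz.2).2.2.1
  · exact near_mono (hpos z hz.1 hz.2).2.2 hs.1

/-! ### the pairing -/

theorem pair_PS {ζ : ℝ → ℝ} (hζ : ZetC ζ) {q : ℕ} {ω : ℝ → ℝ} (hω : PW (2 * q + 8) ω)
    {U g : ℝ × ℝ → ℝ} {S : ℕ} {lo hi : ℝ × ℝ → ℕ} {B : Set (ℝ × ℝ)} {R : Tube} {G : ℝ}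
    (hU : Measurable U) (hg : Measurable g) (hch : Chain S lo hi) (hB : MeasurableSet B)
    (hbg : ∀ z, |g z| ≤ G)
    (hpos : ∀ z ∈ B, lo z < hi z → z.1 ∈ R.I ∧ R.k ≤ lo z ∧ near U 1 R.b R.m (lo z) z)
    {σ : ℝ → ℕ} (hσ : Measurable σ) (a b : ℕ) (w : ℝ × ℝ) :
    Pair (iteratedDeriv (2 * q + 2) ω) ζ U B lo (fun z => min (hi z) (max R.k (σ z.1))) g a b w =
      2 * ∑ t ∈ Finset.Ico a b, PS (iteratedDeriv (4 * q + 4) (Xh ω)) ζ U
        ((ZZ B lo hi).indicator g) (kact (ac lo hi) σ) t w := by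
  set φ := iteratedDeriv (2 * q + 2) ω with hφ
  set Φ := iteratedDeriv (4 * q + 4) (Xh ω) with hΦ
  set h := (ZZ B lo hi).indicator g with hh
  have hn : Nice h := nice_h hg hch hB hbg hpos
  have hP := prf hω
  have hΦc : Continuous Φ := (Pair1x339.smooth_iter hP.sm _).continuous
  have hΦb : ∀ u, |Φ u| ≤ 1 := fun u => hP.bd _ (by omega) u
  have hA : ∀ s, MeasurableSet (kact (ac lo hi) σ s) := fun s =>
    (mac hch.1 hch.2.1 s).inter (measurableSet_lt measurable_const (hσ.comp measurable_fst))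
  unfold Pair
  rw [Finset.mul_sum]
  refine Finset.sum_congr rfl fun t _ => ?_
  have key : ∀ z, B.indicator g z *
      ∑ s ∈ Finset.Ico (lo z) (min (hi z) (max R.k (σ z.1))), cc s t * pr φ ζ U s t z w =
      ∑ s ∈ Finset.range (t + 1), (kact (ac lo hi) σ s).indicator
        (fun z => h z * (2 * Pair1x339.pp Φ ζ U t s w z)) z := by
    intro z
    by_cases hz : z ∈ ZZ B lo hi
    · have hzB : z ∈ B := hz.1
      have hk := (hpos z hz.1 hz.2).2.1
      have hhz : h z = g z := Set.indicator_of_mem hz _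
      rw [Set.indicator_of_mem hzB, Finset.mul_sum]
      have e1 : ∀ s ∈ Finset.Ico (lo z) (min (hi z) (max R.k (σ z.1))),
          g z * (cc s t * pr φ ζ U s t z w) =
          if s ≤ t then g z * (2 * Pair1x339.pp Φ ζ U t s w z) else 0 := by
        intro s _
        rw [cc, hφ, pr_eq hζ hω]
        split_ifs
        · rw [one_mul]
        · rw [zero_mul, mul_zero]
      have e2 : ∀ s ∈ Finset.range (t + 1), (kact (ac lo hi) σ s).indicator
          (fun z => h z * (2 * Pair1x339.pp Φ ζ U t s w z)) z =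
          if (lo z ≤ s ∧ s < hi z) ∧ s < σ z.1 then g z * (2 * Pair1x339.pp Φ ζ U t s w z)
            else 0 := by
        intro s _
        by_cases hs : (lo z ≤ s ∧ s < hi z) ∧ s < σ z.1
        · rw [if_pos hs, Set.indicator_of_mem (show z ∈ kact (ac lo hi) σ s from hs), hhz]
        · rw [if_neg hs, Set.indicator_of_notMem (show z ∉ kact (ac lo hi) σ s from hs)]
      rw [Finset.sum_congr rfl e1, Finset.sum_congr rfl e2, ← Finset.sum_filter,
        ← Finset.sum_filter]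
      refine Finset.sum_congr ?_ fun _ _ => rfl
      ext s
      simp only [Finset.mem_filter, Finset.mem_Ico, Finset.mem_range, lt_min_iff, lt_max_iff]
      omega
    · have hhz : h z = 0 := Set.indicator_of_notMem hz _
      have e2 : ∑ s ∈ Finset.range (t + 1), (kact (ac lo hi) σ s).indicator
          (fun z => h z * (2 * Pair1x339.pp Φ ζ U t s w z)) z = 0 := by
        refine Finset.sum_eq_zero fun s _ => ?_
        by_cases hs : z ∈ kact (ac lo hi) σ s
        · rw [Set.indicator_of_mem hs, hhz, zero_mul]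
        · rw [Set.indicator_of_notMem hs]
      rw [e2]
      by_cases hzB : z ∈ B
      · have : ¬ lo z < hi z := fun hc => hz ⟨hzB, hc⟩
        rw [Finset.Ico_eq_empty (by omega), Finset.sum_empty, mul_zero]
      · rw [Set.indicator_of_notMem hzB, zero_mul]
  rw [integral_congr_ae (Filter.Eventually.of_forall key)]
  have hi2 : ∀ s, Integrable (fun z => h z * (2 * Pair1x339.pp Φ ζ U t s w z)) := fun s => by
    have := (pp_int hζ hΦc hΦb hU hn t s w).const_mul 2
    refine this.congr (Filter.Eventually.of_forall fun z => ?_)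
    show 2 * (h z * Pair1x339.pp Φ ζ U t s w z) = h z * (2 * Pair1x339.pp Φ ζ U t s w z)
    ring
  rw [integral_finsetSum _ fun s _ => (hi2 s).indicator (hA s)]
  unfold PS
  rw [Finset.mul_sum]
  refine Finset.sum_congr rfl fun s _ => ?_
  rw [integral_indicator (hA s), ← integral_const_mul]
  congr 1
  ext z
  ring

/-! ### TREELOW -/

theorem treelow {ζ : ℝ → ℝ} (hζ : ZetC ζ) (h3 : T3 ζ) (q : ℕ) : TREELOW ζ q := by
  obtain ⟨C1, hC1, H1⟩ := h3 (4 * q + 4 + 1)
  obtain ⟨C2, hC2, H2⟩ := PLowx575.plowp hζ (q + 1) (4 * q + 4) (by omega) (by omega)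
  refine ⟨C1 + 2 * C2 * C1, by positivity, ?_⟩
  intro ω hω U g S lo hi B R G D Λ hU hg hch hB hfB hbg hD hΛ hpos hm
  have hG : 0 ≤ G := (abs_nonneg _).trans (hbg 0)
  have hlen := R.len_pos
  by_cases htriv : G = 0 ∨ S < R.k
  · refine ⟨fun _ => max R.k S, measurable_const, fun _ => le_max_left _ _, ?_, ?_⟩
    · have : {z | z ∈ B ∧ lo z < hi z ∧ max R.k S < hi z} = (∅ : Set (ℝ × ℝ)) := by
        ext z
        simp only [Set.mem_ofPred_eq, Set.mem_empty_iff_false, iff_false, not_and]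
        intro _ _ hc
        have := hch.2.2 z
        have h2 : S ≤ max R.k S := le_max_right _ _
        omega
      rw [this, measure_empty, ENNReal.toReal_zero]
      positivity
    · intro z' a b _ _ _
      have : Pair (iteratedDeriv (2 * q + 2) ω) ζ U B lo (fun z => min (hi z) (max R.k S)) g a b z'
          = 0 := by
        unfold Pair
        refine Finset.sum_eq_zero fun t _ => ?_
        rw [← integral_zero (ℝ × ℝ) ℝ (μ := volume)]
        congr 1
        ext z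
        rcases htriv with h0 | hS
        · have hg0 : g z = 0 := by
            have := hbg z
            rw [h0] at this
            exact abs_nonpos_iff.1 this
          have : B.indicator g z = 0 := by
            by_cases hz : z ∈ B
            · rw [Set.indicator_of_mem hz, hg0]
            · rw [Set.indicator_of_notMem hz]
          rw [this, zero_mul]
        · by_cases hz : z ∈ B
          · have h1 : ¬ lo z < hi z := fun hc => by
              have h2 := (hpos z hz hc).2.1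
              have h3 := hch.2.2 z
              omega
            rw [Finset.Ico_eq_empty (by show ¬ lo z < min (hi z) (max R.k S); omega),
              Finset.sum_empty, mul_zero]
          · rw [Set.indicator_of_notMem hz, zero_mul]
      rw [this, abs_zero]
      positivity
  · push Not at htriv
    obtain ⟨hG0, hkS⟩ := htriv
    have hGp : 0 < G := lt_of_le_of_ne hG (Ne.symm hG0)
    have hΛ0 : 0 < Λ := by linarith
    set T : ℝ := G * (Λ * D) with hT
    have hTp : 0 < T := by positivity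
    have hHD : G * D ≤ T := by
      rw [hT]
      have : D ≤ Λ * D := by nlinarith
      exact mul_le_mul_of_nonneg_left this hG
    have hLT := ltree hU hg hch hB hfB hbg hD hpos hm
    obtain ⟨σ, hσ, -, hrem, k1, k2, k3, k4⟩ := H1 (fun i => iteratedDeriv i (Xh ω))
      (PLowx575.pf_of (prf hω)) S R.k R.j _ _ _ G D U R.b R.m hkS hLT T hHD hTp
    refine ⟨fun x => max R.k (σ x), measurable_const.max hσ.meas, fun _ => le_max_left _ _, ?_, ?_⟩
    · have hsub : {z | z ∈ B ∧ lo z < hi z ∧ max R.k (σ z.1) < hi z} ⊆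
          remv (ac lo hi) (ZZ B lo hi) σ := by
        rintro z ⟨a1, a2, a3⟩
        refine ⟨⟨a1, a2⟩, max (lo z) (σ z.1), ⟨le_max_left _ _, ?_⟩, le_max_right _ _⟩
        exact max_lt a2 (lt_of_le_of_lt (le_max_right _ _) a3)
      have h1 := (measure_mono hsub).trans hrem
      have h2 : (volume {z | z ∈ B ∧ lo z < hi z ∧ max R.k (σ z.1) < hi z}).toReal ≤
          C1 * D * (G * D / T) ^ 2 * (1 / 2) ^ R.k :=
        ENNReal.toReal_le_of_le_ofReal (by positivity) h1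
      refine h2.trans ?_
      have e : G * D / T = 1 / Λ := by
        rw [hT]; field_simp
      rw [e]
      have el : (1 / 2 : ℝ) ^ R.k = R.len := rfl
      rw [el]
      have h3 : C1 * D * (1 / Λ) ^ 2 * R.len = C1 * ((1 / Λ) ^ 2 * D * R.len) := by ring
      have h4 : (C1 + 2 * C2 * C1) * (1 / Λ) ^ 2 * D * R.len =
          (C1 + 2 * C2 * C1) * ((1 / Λ) ^ 2 * D * R.len) := by ring
      rw [h3, h4]
      refine mul_le_mul_of_nonneg_right ?_ (by positivity)
      have : 0 ≤ 2 * C2 * C1 := by positivity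
      linarith
    · intro z' a b _ _ hbS
      have hA : ∀ s, MeasurableSet (kact (ac lo hi) σ s) := fun s =>
        (mac hch.1 hch.2.1 s).inter
          (measurableSet_lt measurable_const (hσ.meas.comp measurable_fst))
      have hK : Kept ζ (Xh ω) (4 * q + 4) S R.k R.j U ((ZZ B lo hi).indicator g)
          (kact (ac lo hi) σ) R.b R.m (C1 * T) := by
        refine ⟨hLT.nice, hA, hU, by positivity, ?_, k1, k2, fun a c hac hc v x =>
          k3 (4 * q + 4) (by omega) a c hac hc v x, k4⟩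
        intro s z hz hz0
        have hZ : z ∈ ZZ B lo hi := by
          by_contra hc
          exact hz0 (Set.indicator_of_notMem hc _)
        have h1 := hpos z hZ.1 hZ.2
        exact ⟨h1.2.1.trans hz.1.1, cel_of_mem h1.1, h1.2.2.1, near_mono h1.2.2 hz.1.1⟩
      have h1 := (H2 (Xh ω) (prf hω) S R.k R.j U _ _ R.b R.m (C1 * T) hK z' a b hbS).1
      rw [pair_PS hζ hω hU hg hch hB hbg hpos hσ.meas a b z', abs_mul, abs_of_pos (by norm_num :
        (0 : ℝ) < 2)]
      have erv : rv R.b R.m z' = z'.2 - R.line z'.1 := rfl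
      rw [erv] at h1
      set X : ℝ := 1 + |U z' - R.m| * (1 / 2) ^ (b - 1) + |z'.2 - R.line z'.1| with hX
      have hX1 : 1 ≤ X := by
        have e1 : 0 ≤ |U z' - R.m| * (1 / 2 : ℝ) ^ (b - 1) := by positivity
        have e2 : 0 ≤ |z'.2 - R.line z'.1| := abs_nonneg _
        rw [hX]; linarith
      have hX0 : 0 < X := by linarith
      calc 2 * |∑ t ∈ Finset.Ico a b, PS (iteratedDeriv (4 * q + 4) (Xh ω)) ζ U
            ((ZZ B lo hi).indicator g) (kact (ac lo hi) σ) t z'|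
          ≤ 2 * (C2 * (C1 * T) / X ^ (q + 1)) := by linarith
        _ ≤ 2 * (C2 * (C1 * T) / X ^ q) := by
            have : X ^ q ≤ X ^ (q + 1) := pow_le_pow_right₀ hX1 (by omega)
            gcongr
        _ = (2 * C2 * C1 * T) / X ^ q := by ring
        _ ≤ (C1 + 2 * C2 * C1) * G * (Λ * D) / X ^ q := by
            have e1 : (C1 + 2 * C2 * C1) * G * (Λ * D) = (C1 + 2 * C2 * C1) * T := by
              rw [hT]; ring
            rw [e1]
            have : 2 * C2 * C1 * T ≤ (C1 + 2 * C2 * C1) * T := by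
              refine mul_le_mul_of_nonneg_right ?_ hTp.le
              linarith
            gcongr

theorem l_treelow : L_TREELOW := fun _ hζ => treelow hζ (T3x153.t3 hζ) qq

end Crest.Agent.R087.TreeLowx575
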