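import Crest.Agent.R087.Plug_542
import Crest.Agent.R087.TreeLow_575
import Crest.Agent.R087.HNorm_752
import Crest.Agent.R087.LowN_282

/-! Row 87 (S0115), helper542: all leaves inserted. -/

set_option autoImplicit false

namespace Crest.Agent.R087.Lastx542

open Crest.Agent.R087.Sh1x283

theorem tgt : TGT :=
  Plugx542.fin3 HNormx752.l_hnorm TreeLowx575.l_treelow LowNx282.l_lown

end Crest.Agent.R087.Lastx542
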