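import Crest.Agent.R087.Sh1_283

/-!
Row 87, SHELL S3 (helper118): Lemma L from `SQT1` and `LPup`.
-/

set_option autoImplicit false

noncomputable section

open MeasureTheory Crest.Agent.R087.Sh0x283 Crest.Agent.R087.Sh1x283

namespace Crest.Agent.R087.LemLx118

/-! ### Nice functions of one variable -/

theorem nice_integrable {g : ℝ → ℝ} (hg : Nice1 g) : Integrable g := by
  obtain ⟨hm, ⟨M, hM⟩, R, hR⟩ := hg
  have hs : Function.support g ⊆ Set.Icc (-R) R := by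
    intro y hy
    rw [Set.mem_Icc, ← abs_le]
    by_contra h
    exact hy (hR y (not_le.mp h))
  rw [← integrableOn_iff_integrable_of_support_subset hs]
  exact Measure.integrableOn_of_bounded (by simp) hm.aestronglyMeasurable (M := M)
    (ae_of_all _ fun y => by simpa using hM y)

theorem nice_mul {b g : ℝ → ℝ} (hb : Measurable b) {B : ℝ} (hB : ∀ y, |b y| ≤ B) (hg : Nice1 g) :
    Nice1 (fun y => b y * g y) := by
  obtain ⟨hm, ⟨M, hM⟩, R, hR⟩ := hg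
  refine ⟨hb.mul hm, ⟨B * M, fun y => ?_⟩, R, fun y hy => by simp [hR y hy]⟩
  rw [abs_mul]
  exact mul_le_mul (hB y) (hM y) (abs_nonneg _) ((abs_nonneg _).trans (hB y))

theorem nice_sq {g : ℝ → ℝ} (hg : Nice1 g) : Nice1 (fun y => g y ^ 2) := by
  obtain ⟨hm, ⟨M, hM⟩, R, hR⟩ := hg
  refine ⟨hm.pow_const 2, ⟨M ^ 2, fun y => ?_⟩, R, fun y hy => by simp [hR y hy]⟩
  rw [abs_pow]
  exact pow_le_pow_left₀ (abs_nonneg _) (hM y) 2

theorem nice_sub {f g : ℝ → ℝ} (hf : Nice1 f) (hg : Nice1 g) : Nice1 (fun y => f y - g y) := by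
  obtain ⟨hm, ⟨M, hM⟩, R, hR⟩ := hg
  obtain ⟨hm', ⟨M', hM'⟩, R', hR'⟩ := hf
  refine ⟨hm'.sub hm, ⟨M' + M, fun y => ?_⟩, max R' R, fun y hy => ?_⟩
  · exact (abs_sub _ _).trans (add_le_add (hM' y) (hM y))
  · simp [hR y ((le_max_right _ _).trans_lt hy), hR' y ((le_max_left _ _).trans_lt hy)]

theorem nice_sq_integrable {g : ℝ → ℝ} (hg : Nice1 g) : Integrable (fun y => g y ^ 2) :=
  nice_integrable (nice_sq hg)

/-- profiles: measurable, bounded, support in `[-1,1]`. -/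
theorem cv1_nice {φ : ℝ → ℝ} (hφ : Measurable φ) {B : ℝ} (hB : ∀ r, |φ r| ≤ B)
    (hs : ∀ r, 1 < |r| → φ r = 0) (k : ℤ) {g : ℝ → ℝ} (hg : Nice1 g) : Nice1 (cv1 φ k g) := by
  have hφn : Nice1 φ := ⟨hφ, ⟨B, hB⟩, 1, hs⟩
  obtain ⟨hm, ⟨M, hM⟩, R, hR⟩ := hg
  refine ⟨?_, ⟨∫ r, |φ r| * M, fun y => ?_⟩, R + 2 ^ k, fun y hy => ?_⟩
  · have : StronglyMeasurable (Function.uncurry fun (y r : ℝ) => φ r * g (y - (2 : ℝ) ^ k * r)) := by
      apply Measurable.stronglyMeasurable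
      exact (hφ.comp measurable_snd).mul
        (hm.comp (measurable_fst.sub (measurable_const.mul measurable_snd)))
    exact (this.integral_prod_right).measurable
  · have h1 : |cv1 φ k g y| ≤ ∫ r, |φ r * g (y - (2 : ℝ) ^ k * r)| := by
      simpa [cv1] using norm_integral_le_integral_norm (μ := volume)
        (fun r => φ r * g (y - (2 : ℝ) ^ k * r))
    refine h1.trans (integral_mono_of_nonneg (ae_of_all _ fun r => abs_nonneg _)
      ((nice_integrable hφn).abs.mul_const M) (ae_of_all _ fun r => ?_))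
    simp only [abs_mul]
    exact mul_le_mul_of_nonneg_left (hM _) (abs_nonneg _)
  · have h2 : ∀ r, φ r * g (y - (2 : ℝ) ^ k * r) = 0 := by
      intro r
      by_cases hr : 1 < |r|
      · simp [hs r hr]
      · have hk : (0 : ℝ) < 2 ^ k := by positivity
        have : R < |y - (2 : ℝ) ^ k * r| := by
          have h3 : |(2 : ℝ) ^ k * r| ≤ 2 ^ k := by
            rw [abs_mul, abs_of_pos hk]
            nlinarith [not_lt.mp hr]
          have h4 := abs_sub_abs_le_abs_sub y ((2 : ℝ) ^ k * r)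
          linarith
        simp [hR _ this]
    simp [cv1, h2]

/-- substitution in `cv1`. -/
theorem cv1_eq (φ : ℝ → ℝ) (k : ℤ) (g : ℝ → ℝ) (y : ℝ) :
    cv1 φ k g y = ∫ s, ((2 : ℝ) ^ k)⁻¹ * φ ((y - s) / 2 ^ k) * g s := by
  have hk : (0 : ℝ) < 2 ^ k := by positivity
  unfold cv1
  have h1 : ∫ s, ((2 : ℝ) ^ k)⁻¹ * φ ((y - s) / 2 ^ k) * g s =
      ∫ s, ((2 : ℝ) ^ k)⁻¹ * φ (s / 2 ^ k) * g (y - s) := by
    rw [← integral_sub_left_eq_self (fun s => ((2 : ℝ) ^ k)⁻¹ * φ (s / 2 ^ k) * g (y - s)) volume y]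
    congr 1; ext s; simp
  rw [h1]
  have h2 := Measure.integral_comp_div (fun r => φ r * g (y - (2 : ℝ) ^ k * r)) ((2 : ℝ) ^ k)
  simp only [smul_eq_mul, abs_of_pos hk] at h2
  have h3 : ∫ r, φ r * g (y - (2 : ℝ) ^ k * r) =
      ((2 : ℝ) ^ k)⁻¹ * ∫ x, φ (x / 2 ^ k) * g (y - (2 : ℝ) ^ k * (x / 2 ^ k)) := by
    rw [h2, ← mul_assoc, inv_mul_cancel₀ hk.ne', one_mul]
  rw [h3, ← integral_const_mul]
  congr 1; ext s
  rw [mul_div_cancel₀ s hk.ne']
  ring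

/-! ### The map `y ↦ y - w y` -/

/-- the map -/
def Ph (w : ℝ → ℝ) (y : ℝ) : ℝ := y - w y

section
variable {δ : ℝ} {w : ℝ → ℝ}

theorem ph_anti (h2 : δ ≤ 1 / 2) (hw : ∀ y y', |w y - w y'| ≤ δ * |y - y'|) (y y' : ℝ) :
    |y - y'| ≤ 2 * |Ph w y - Ph w y'| := by
  have h := hw y y'
  have h3 : |y - y'| - |w y - w y'| ≤ |(y - y') - (w y - w y')| := abs_sub_abs_le_abs_sub _ _
  have h4 : Ph w y - Ph w y' = (y - y') - (w y - w y') := by simp [Ph]; ring
  rw [h4]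
  nlinarith [abs_nonneg (y - y')]

theorem ph_lip (h2 : δ ≤ 1 / 2) (hw : ∀ y y', |w y - w y'| ≤ δ * |y - y'|) (y y' : ℝ) :
    |Ph w y - Ph w y'| ≤ 3 / 2 * |y - y'| := by
  have h := hw y y'
  have h3 : |(y - y') - (w y - w y')| ≤ |y - y'| + |w y - w y'| := abs_sub _ _
  have h4 : Ph w y - Ph w y' = (y - y') - (w y - w y') := by simp [Ph]; ring
  rw [h4]
  nlinarith [abs_nonneg (y - y')]

theorem dw_le (h0 : 0 ≤ δ) (hw : ∀ y y', |w y - w y'| ≤ δ * |y - y'|) (y : ℝ) :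
    |deriv w y| ≤ δ := by
  have hL : LipschitzWith (Real.toNNReal δ) w := LipschitzWith.of_dist_le_mul fun a b => by
    rw [Real.coe_toNNReal δ h0, Real.dist_eq, Real.dist_eq]; exact hw a b
  have h := norm_deriv_le_of_lipschitz (x₀ := y) hL
  rwa [Real.coe_toNNReal δ h0, Real.norm_eq_abs] at h

theorem ph_strictMono (h2 : δ ≤ 1 / 2) (hw : ∀ y y', |w y - w y'| ≤ δ * |y - y'|) :
    StrictMono (Ph w) := by
  intro a b hab
  have h := hw b a
  have h1 : |b - a| = b - a := abs_of_pos (by linarith)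
  have h3 := le_abs_self (w b - w a)
  rw [h1] at h
  simp only [Ph]
  nlinarith

theorem ph_surj (h2 : δ ≤ 1 / 2) (hc : Continuous w)
    (hw : ∀ y y', |w y - w y'| ≤ δ * |y - y'|) : Function.Surjective (Ph w) := by
  have hcont : Continuous (Ph w) := continuous_id.sub hc
  refine hcont.surjective ?_ ?_
  · -- atTop
    have hb : ∀ᶠ y in Filter.atTop, y / 2 - w 0 ≤ Ph w y := by
      filter_upwards [Filter.eventually_ge_atTop (0 : ℝ)] with y hy
      have h := hw y 0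
      have h3 := le_abs_self (w y - w 0)
      rw [sub_zero, abs_of_nonneg hy] at h
      simp only [Ph]; nlinarith
    refine Filter.tendsto_atTop_mono' _ hb ?_
    exact Filter.tendsto_atTop_add_const_right _ _ (Filter.tendsto_id.atTop_div_const (by norm_num))
  · have hb : ∀ᶠ y in Filter.atBot, Ph w y ≤ y / 2 - w 0 := by
      filter_upwards [Filter.eventually_le_atBot (0 : ℝ)] with y hy
      have h := hw y 0
      have h3 := neg_abs_le (w y - w 0)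
      rw [sub_zero, abs_of_nonpos hy] at h
      simp only [Ph]; nlinarith
    refine Filter.tendsto_atBot_mono' _ hb ?_
    exact Filter.tendsto_atBot_add_const_right _ _ (Filter.tendsto_id.atBot_div_const (by norm_num))

theorem ph_deriv (hc : ContDiff ℝ 1 w) (y : ℝ) : HasDerivAt (Ph w) (1 - deriv w y) y := by
  have h1 : HasDerivAt w (deriv w y) y := ((hc.differentiable (by norm_num)) y).hasDerivAt
  exact (hasDerivAt_id y).sub h1

/-- change of variables `s = y - w y`. -/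
theorem cov (h0 : 0 ≤ δ) (h2 : δ ≤ 1 / 2) (hc : ContDiff ℝ 1 w)
    (hw : ∀ y y', |w y - w y'| ≤ δ * |y - y'|) (F : ℝ → ℝ) :
    ∫ s, F s = ∫ y, (1 - deriv w y) * F (Ph w y) := by
  have h := integral_image_eq_integral_abs_deriv_smul (s := Set.univ) (f := Ph w)
    (f' := fun y => 1 - deriv w y) MeasurableSet.univ
    (fun y _ => (ph_deriv hc y).hasDerivWithinAt) ((ph_strictMono h2 hw).injective.injOn) F
  rw [Set.image_univ, (ph_surj h2 hc.continuous hw).range_eq] at h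
  simp only [setIntegral_univ, smul_eq_mul] at h
  rw [h]
  congr 1; ext y
  have := (abs_le.mp (dw_le h0 hw y)).2
  rw [abs_of_nonneg (by linarith)]

theorem cov_int (h0 : 0 ≤ δ) (h2 : δ ≤ 1 / 2) (hc : ContDiff ℝ 1 w)
    (hw : ∀ y y', |w y - w y'| ≤ δ * |y - y'|) {F : ℝ → ℝ} (hF : Integrable F) :
    Integrable (fun y => (1 - deriv w y) * F (Ph w y)) := by
  have h := (integrableOn_image_iff_integrableOn_abs_deriv_smul (s := Set.univ) (f := Ph w)
    (f' := fun y => 1 - deriv w y) MeasurableSet.univ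
    (fun y _ => (ph_deriv hc y).hasDerivWithinAt) ((ph_strictMono h2 hw).injective.injOn) F).1
    (by rw [Set.image_univ, (ph_surj h2 hc.continuous hw).range_eq]; exact hF.integrableOn)
  rw [integrableOn_univ] at h
  refine h.congr (ae_of_all _ fun y => ?_)
  have := (abs_le.mp (dw_le h0 hw y)).2
  simp only [smul_eq_mul]
  rw [abs_of_nonneg (by linarith)]

/-- `∫ F (y - w y) dy ≤ 2 ∫ F` for `F ≥ 0`. -/
theorem cov_le (h0 : 0 ≤ δ) (h2 : δ ≤ 1 / 2) (hc : ContDiff ℝ 1 w)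
    (hw : ∀ y y', |w y - w y'| ≤ δ * |y - y'|) {F : ℝ → ℝ} (hF : Integrable F)
    (hp : ∀ s, 0 ≤ F s) : ∫ y, F (Ph w y) ≤ 2 * ∫ s, F s := by
  rw [cov h0 h2 hc hw F, ← integral_const_mul]
  refine integral_mono_of_nonneg (ae_of_all _ fun y => hp _)
    ((cov_int h0 h2 hc hw hF).const_mul 2) (ae_of_all _ fun y => ?_)
  have h3 := (abs_le.mp (dw_le h0 hw y)).2
  have h4 := hp (Ph w y)
  simp only
  nlinarith

theorem nice_comp (h2 : δ ≤ 1 / 2) (hc : Continuous w)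
    (hw : ∀ y y', |w y - w y'| ≤ δ * |y - y'|) {g : ℝ → ℝ} (hg : Nice1 g) :
    Nice1 (fun y => g (Ph w y)) := by
  obtain ⟨hm, ⟨M, hM⟩, R, hR⟩ := hg
  refine ⟨hm.comp (continuous_id.sub hc).measurable, ⟨M, fun y => hM _⟩, 2 * (R + |Ph w 0|),
    fun y hy => hR _ ?_⟩
  have h3 := ph_anti h2 hw y 0
  rw [sub_zero] at h3
  have h4 : |Ph w y - Ph w 0| ≤ |Ph w y| + |Ph w 0| := abs_sub _ _
  linarith

/-- the derivative of `w` in the variable `s = y - w y`. -/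
theorem exists_u (h0 : 0 ≤ δ) (h2 : δ ≤ 1 / 2) (hc : ContDiff ℝ 1 w)
    (hw : ∀ y y', |w y - w y'| ≤ δ * |y - y'|) :
    ∃ u : ℝ → ℝ, Measurable u ∧ (∀ s, |u s| ≤ δ) ∧ ∀ y, u (Ph w y) = deriv w y := by
  let e := (ph_strictMono h2 hw).orderIsoOfSurjective (Ph w) (ph_surj h2 hc.continuous hw)
  have hcont : Continuous (fun s => deriv w (e.symm s)) :=
    (hc.continuous_deriv le_rfl).comp e.symm.continuous
  refine ⟨fun s => deriv w (e.symm s), hcont.measurable, fun s => dw_le h0 hw _, fun y => ?_⟩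
  have : e.symm (Ph w y) = y := e.symm_apply_apply y
  simp only [this]

end

/-! ### The kernel -/

/-- constants of a profile -/
theorem prof_consts {φ : ℝ → ℝ} (hφ : PhiC φ) : ∃ B₀ B₁ B₂ : ℝ, 0 ≤ B₀ ∧ 0 ≤ B₁ ∧ 0 ≤ B₂ ∧
    (∀ a, |φ a| ≤ B₀) ∧ (∀ a b, |φ a - φ b| ≤ B₁ * |a - b|) ∧
    (∀ a b, |deriv φ a - deriv φ b| ≤ B₂ * |a - b|) := by
  obtain ⟨hs, hsupp, -⟩ := hφ
  have hcs : HasCompactSupport φ := HasCompactSupport.intro (K := Set.Icc (-1) 1) isCompact_Icc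
    fun x hx => hsupp x (by
      by_contra h
      exact hx (abs_le.mp (not_lt.mp h)))
  obtain ⟨B₀, hB₀⟩ := hcs.exists_bound_of_continuous hs.continuous
  obtain ⟨B₁, hB₁⟩ := hs.lipschitzWith_of_hasCompactSupport hcs (by simp)
  have hd : ContDiff ℝ (⊤ : ℕ∞) (deriv φ) := (contDiff_infty_iff_deriv.mp hs).2
  obtain ⟨B₂, hB₂⟩ := hd.lipschitzWith_of_hasCompactSupport hcs.deriv (by simp)
  refine ⟨B₀, B₁, B₂, (norm_nonneg _).trans (hB₀ 0), B₁.2, B₂.2, fun a => by simpa using hB₀ a,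
    fun a b => by simpa [Real.dist_eq] using hB₁.dist_le_mul a b,
    fun a b => by simpa [Real.dist_eq] using hB₂.dist_le_mul a b⟩

section
variable {φ : ℝ → ℝ} {B₁ B₂ δ : ℝ}

theorem dd (hd : Differentiable ℝ φ) (hB₁ : ∀ a b, |φ a - φ b| ≤ B₁ * |a - b|)
    (hB₂ : ∀ a b, |deriv φ a - deriv φ b| ≤ B₂ * |a - b|) (a a' p p' : ℝ) :
    |(φ a - φ (a - p)) - (φ a' - φ (a' - p'))| ≤ B₁ * |p - p'| + B₂ * |p'| * |a - a'| := by
  have h1 : |φ (a - p') - φ (a - p)| ≤ B₁ * |p - p'| := by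
    have := hB₁ (a - p') (a - p)
    rwa [show a - p' - (a - p) = p - p' by ring] at this
  have h2 : |(φ a - φ (a - p')) - (φ a' - φ (a' - p'))| ≤ B₂ * |p'| * |a - a'| := by
    have hdiff : ∀ x, HasDerivAt (fun x => φ x - φ (x - p')) (deriv φ x - deriv φ (x - p')) x := by
      intro x
      have h3 := (hd x).hasDerivAt
      have h4 : HasDerivAt (fun x => φ (x - p')) (deriv φ (x - p')) x := by
        exact (hd (x - p')).hasDerivAt.comp_sub_const x p'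
      exact h3.sub h4
    have h6 := Convex.norm_image_sub_le_of_norm_deriv_le (f := fun x => φ x - φ (x - p'))
      (C := B₂ * |p'|) (s := Set.univ) (x := a') (y := a) (fun x _ => (hdiff x).differentiableAt)
      (fun x _ => by
        rw [(hdiff x).deriv]
        have := hB₂ x (x - p')
        simpa using this) convex_univ trivial trivial
    simpa using h6
  have h7 : (φ a - φ (a - p)) - (φ a' - φ (a' - p')) =
      (φ (a - p') - φ (a - p)) + ((φ a - φ (a - p')) - (φ a' - φ (a' - p'))) := by ring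
  rw [h7]
  exact (abs_add_le _ _).trans (add_le_add h1 h2)

theorem far_zero (hsupp : ∀ r, 1 < |r| → φ r = 0) (h2 : δ ≤ 1 / 2) {a p : ℝ} (hp : |p| ≤ δ * |a|)
    (ha : 2 < |a|) : φ a - φ (a - p) = 0 := by
  have h1 : 1 < |a - p| := by
    have := abs_sub_abs_le_abs_sub a p
    nlinarith
  rw [hsupp a (by linarith), hsupp _ h1, sub_zero]

theorem dd2_aux (hd : Differentiable ℝ φ) (hB₁ : ∀ a b, |φ a - φ b| ≤ B₁ * |a - b|)
    (hB₂ : ∀ a b, |deriv φ a - deriv φ b| ≤ B₂ * |a - b|) (hsupp : ∀ r, 1 < |r| → φ r = 0)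
    (b1 : 0 ≤ B₁) (b2 : 0 ≤ B₂) (h0 : 0 ≤ δ) (h2 : δ ≤ 1 / 2) {a a' p p' : ℝ} (hp : |p| ≤ δ * |a|)
    (hp' : |p'| ≤ δ * |a'|) (hpp : |p - p'| ≤ δ * |a - a'|) (hle : |a'| ≤ |a|) :
    |(φ a - φ (a - p)) - (φ a' - φ (a' - p'))| ≤ (B₁ + 2 * B₂) * δ * |a - a'| := by
  by_cases h : 2 < |a'|
  · rw [far_zero hsupp h2 hp (by linarith), far_zero hsupp h2 hp' h]
    simp only [sub_self, abs_zero]
    positivity
  · have h3 := dd hd hB₁ hB₂ a a' p p'
    have h4 : B₁ * |p - p'| ≤ B₁ * (δ * |a - a'|) := mul_le_mul_of_nonneg_left hpp b1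
    have h5 : |p'| ≤ 2 * δ := by
      have := mul_le_mul_of_nonneg_left (not_lt.mp h) h0
      linarith
    have h6 : B₂ * |p'| * |a - a'| ≤ B₂ * (2 * δ) * |a - a'| :=
      mul_le_mul_of_nonneg_right (mul_le_mul_of_nonneg_left h5 b2) (abs_nonneg _)
    calc _ ≤ B₁ * |p - p'| + B₂ * |p'| * |a - a'| := h3
      _ ≤ B₁ * (δ * |a - a'|) + B₂ * (2 * δ) * |a - a'| := add_le_add h4 h6
      _ = _ := by ring

theorem dd2 (hd : Differentiable ℝ φ) (hB₁ : ∀ a b, |φ a - φ b| ≤ B₁ * |a - b|)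
    (hB₂ : ∀ a b, |deriv φ a - deriv φ b| ≤ B₂ * |a - b|) (hsupp : ∀ r, 1 < |r| → φ r = 0)
    (b1 : 0 ≤ B₁) (b2 : 0 ≤ B₂) (h0 : 0 ≤ δ) (h2 : δ ≤ 1 / 2) {a a' p p' : ℝ} (hp : |p| ≤ δ * |a|)
    (hp' : |p'| ≤ δ * |a'|) (hpp : |p - p'| ≤ δ * |a - a'|) :
    |(φ a - φ (a - p)) - (φ a' - φ (a' - p'))| ≤ (B₁ + 2 * B₂) * δ * |a - a'| := by
  rcases le_total |a'| |a| with h | h
  · exact dd2_aux hd hB₁ hB₂ hsupp b1 b2 h0 h2 hp hp' hpp h
  · rw [abs_sub_comm, abs_sub_comm a a']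
    exact dd2_aux hd hB₁ hB₂ hsupp b1 b2 h0 h2 hp' hp
      (by rw [abs_sub_comm, abs_sub_comm a' a]; exact hpp) h

/-- the kernel of the first part of the commutator -/
def KK (φ w : ℝ → ℝ) (k : ℤ) (y r : ℝ) : ℝ :=
  ((2 : ℝ) ^ k)⁻¹ * (φ ((y - r) / 2 ^ k) - φ ((Ph w y - Ph w r) / 2 ^ k))

variable {w : ℝ → ℝ}

theorem ph_div (k : ℤ) (y r : ℝ) : (Ph w y - Ph w r) / (2 : ℝ) ^ k =
    (y - r) / 2 ^ k - (w y - w r) / 2 ^ k := by
  simp only [Ph]; ring

theorem p_le (hw : ∀ y y', |w y - w y'| ≤ δ * |y - y'|) (k : ℤ) (y r : ℝ) :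
    |(w y - w r) / (2 : ℝ) ^ k| ≤ δ * |(y - r) / 2 ^ k| := by
  have hk : (0 : ℝ) < 2 ^ k := by positivity
  rw [abs_div, abs_div, abs_of_pos hk, ← mul_div_assoc]
  exact div_le_div_of_nonneg_right (hw y r) hk.le

theorem KK_meas (hφ : Continuous φ) (hc : Continuous w) (k : ℤ) :
    Measurable (Function.uncurry (KK φ w k)) := by
  apply Continuous.measurable
  unfold Function.uncurry KK Ph
  fun_prop

theorem KK_size (hB₁ : ∀ a b, |φ a - φ b| ≤ B₁ * |a - b|) (hsupp : ∀ r, 1 < |r| → φ r = 0)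
    (b1 : 0 ≤ B₁) (h0 : 0 ≤ δ) (h2 : δ ≤ 1 / 2) (hw : ∀ y y', |w y - w y'| ≤ δ * |y - y'|)
    (k : ℤ) (y r : ℝ) : |KK φ w k y r| ≤ 2 * B₁ * δ * ((2 : ℝ) ^ k)⁻¹ := by
  have hk : (0 : ℝ) < 2 ^ k := by positivity
  unfold KK
  rw [abs_mul, abs_of_pos (inv_pos.mpr hk), ph_div, mul_comm]
  refine mul_le_mul_of_nonneg_right ?_ (inv_pos.mpr hk).le
  have hp := p_le hw k y r
  by_cases h : 2 < |(y - r) / (2 : ℝ) ^ k|
  · rw [far_zero hsupp h2 hp h, abs_zero]; positivity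
  · have h1 := hB₁ ((y - r) / 2 ^ k) ((y - r) / 2 ^ k - (w y - w r) / 2 ^ k)
    rw [sub_sub_cancel] at h1
    refine h1.trans ?_
    have h3 : |(w y - w r) / (2 : ℝ) ^ k| ≤ δ * 2 :=
      hp.trans (mul_le_mul_of_nonneg_left (not_lt.mp h) h0)
    calc B₁ * |(w y - w r) / (2 : ℝ) ^ k| ≤ B₁ * (δ * 2) := mul_le_mul_of_nonneg_left h3 b1
      _ = _ := by ring

theorem KK_supp (hsupp : ∀ r, 1 < |r| → φ r = 0) (h2 : δ ≤ 1 / 2)
    (hw : ∀ y y', |w y - w y'| ≤ δ * |y - y'|) (k : ℤ) (y r : ℝ)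
    (h : 2 * (2 : ℝ) ^ k < |y - r|) : KK φ w k y r = 0 := by
  have hk : (0 : ℝ) < 2 ^ k := by positivity
  unfold KK
  rw [ph_div, far_zero hsupp h2 (p_le hw k y r), mul_zero]
  rw [abs_div, abs_of_pos hk, lt_div_iff₀ hk]
  exact h

theorem KK_lip (hd : Differentiable ℝ φ) (hB₁ : ∀ a b, |φ a - φ b| ≤ B₁ * |a - b|)
    (hB₂ : ∀ a b, |deriv φ a - deriv φ b| ≤ B₂ * |a - b|) (hsupp : ∀ r, 1 < |r| → φ r = 0)
    (b1 : 0 ≤ B₁) (b2 : 0 ≤ B₂) (h0 : 0 ≤ δ) (h2 : δ ≤ 1 / 2)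
    (hw : ∀ y y', |w y - w y'| ≤ δ * |y - y'|) (k : ℤ) (y r r' : ℝ) :
    |KK φ w k y r - KK φ w k y r'| ≤
      (B₁ + 2 * B₂) * δ * ((2 : ℝ) ^ k)⁻¹ * ((2 : ℝ) ^ k)⁻¹ * |r - r'| := by
  have hk : (0 : ℝ) < 2 ^ k := by positivity
  unfold KK
  rw [← mul_sub, abs_mul, abs_of_pos (inv_pos.mpr hk), ph_div, ph_div]
  have hpp : |(w y - w r) / (2 : ℝ) ^ k - (w y - w r') / 2 ^ k| ≤
      δ * |(y - r) / 2 ^ k - (y - r') / 2 ^ k| := by
    rw [← sub_div, ← sub_div, abs_div, abs_div, abs_of_pos hk, ← mul_div_assoc]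
    refine div_le_div_of_nonneg_right ?_ hk.le
    rw [show w y - w r - (w y - w r') = w r' - w r by ring,
      show y - r - (y - r') = r' - r by ring]
    exact hw r' r
  have h3 := dd2 hd hB₁ hB₂ hsupp b1 b2 h0 h2 (p_le hw k y r) (p_le hw k y r') hpp
  have h4 : |(y - r) / (2 : ℝ) ^ k - (y - r') / 2 ^ k| = ((2 : ℝ) ^ k)⁻¹ * |r - r'| := by
    rw [← sub_div, show y - r - (y - r') = r' - r by ring, abs_div, abs_of_pos hk, abs_sub_comm,
      div_eq_inv_mul]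
  rw [h4] at h3
  calc _ ≤ ((2 : ℝ) ^ k)⁻¹ * ((B₁ + 2 * B₂) * δ * (((2 : ℝ) ^ k)⁻¹ * |r - r'|)) :=
        mul_le_mul_of_nonneg_left h3 (inv_pos.mpr hk).le
    _ = _ := by ring

/-- the profile centred at `c`. -/
theorem prof_nice (hφ : Measurable φ) {B₀ : ℝ} (hB₀ : ∀ a, |φ a| ≤ B₀)
    (hsupp : ∀ r, 1 < |r| → φ r = 0) (k : ℤ) (c : ℝ) :
    Nice1 (fun s => ((2 : ℝ) ^ k)⁻¹ * φ ((c - s) / 2 ^ k)) := by
  have hk : (0 : ℝ) < 2 ^ k := by positivity
  refine ⟨by fun_prop, ⟨((2 : ℝ) ^ k)⁻¹ * B₀, fun s => ?_⟩, |c| + 2 ^ k, fun s hs => ?_⟩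
  · rw [abs_mul, abs_of_pos (inv_pos.mpr hk)]
    exact mul_le_mul_of_nonneg_left (hB₀ _) (inv_pos.mpr hk).le
  · have h1 : 1 < |(c - s) / (2 : ℝ) ^ k| := by
      rw [abs_div, abs_of_pos hk, lt_div_iff₀ hk, one_mul]
      have := abs_sub_abs_le_abs_sub s c
      rw [abs_sub_comm s c] at this
      linarith
    simp only [hsupp _ h1, mul_zero]

theorem prof_int (hφ0 : ∫ r, φ r = 0) (k : ℤ) (c : ℝ) :
    ∫ s, ((2 : ℝ) ^ k)⁻¹ * φ ((c - s) / 2 ^ k) = 0 := by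
  rw [integral_const_mul]
  have h1 := integral_sub_left_eq_self (fun s => φ (s / 2 ^ k)) volume c
  rw [h1, Measure.integral_comp_div, hφ0]
  simp

/-- the integral of the kernel over `r`, for `y` in a dyadic interval of length `2^n ≥ 2^k`. -/
theorem KK_int (hφc : Continuous φ) {B₀ : ℝ} (hB₀ : ∀ a, |φ a| ≤ B₀)
    (hsupp : ∀ r, 1 < |r| → φ r = 0) (hφ0 : ∫ r, φ r = 0) (h0 : 0 ≤ δ) (h2 : δ ≤ 1 / 2)
    (hc : ContDiff ℝ 1 w) (hw : ∀ y y', |w y - w y'| ≤ δ * |y - y'|) {u : ℝ → ℝ}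
    (hu : Measurable u) (hub : ∀ s, |u s| ≤ δ) (huw : ∀ y, u (Ph w y) = deriv w y)
    (k : ℤ) {n : ℤ} (hkn : k ≤ n) (y₀ y : ℝ) (hy : |y - y₀| ≤ 2 ^ n) :
    ∫ r, KK φ w k y r = - cv1 φ k
      (fun s => if |s - Ph w y₀| ≤ 3 * 2 ^ n then u s / (1 - u s) else 0) (Ph w y) := by
  have hk : (0 : ℝ) < 2 ^ k := by positivity
  have hkn' : (2 : ℝ) ^ k ≤ 2 ^ n := zpow_le_zpow_right₀ (by norm_num) hkn
  have hpos : ∀ s, 1 / 2 ≤ 1 - u s := fun s => by
    have := (abs_le.mp (hub s)).2; linarith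
  -- first profile
  have n1 := prof_nice hφc.measurable hB₀ hsupp k y
  have n2 := prof_nice hφc.measurable hB₀ hsupp k (Ph w y)
  have hb : Measurable (fun s => 1 / (1 - u s)) := measurable_const.div (measurable_const.sub hu)
  have hbb : ∀ s, |1 / (1 - u s)| ≤ 2 := fun s => by
    rw [abs_of_nonneg (by have := hpos s; positivity), div_le_iff₀ (by linarith [hpos s])]
    linarith [hpos s]
  have n3 : Nice1 (fun s => (1 / (1 - u s)) * (((2 : ℝ) ^ k)⁻¹ * φ ((Ph w y - s) / 2 ^ k))) :=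
    nice_mul hb hbb n2
  have e1 : ∫ s, (1 / (1 - u s)) * (((2 : ℝ) ^ k)⁻¹ * φ ((Ph w y - s) / 2 ^ k)) =
      ∫ r, ((2 : ℝ) ^ k)⁻¹ * φ ((Ph w y - Ph w r) / 2 ^ k) := by
    rw [cov h0 h2 hc hw]
    congr 1; ext r
    rw [huw]
    have h3 := (abs_le.mp (dw_le h0 hw r)).2
    have : (1 - deriv w r) ≠ 0 := by linarith
    field_simp
  have i1 : Integrable (fun r => ((2 : ℝ) ^ k)⁻¹ * φ ((Ph w y - Ph w r) / 2 ^ k)) :=
    nice_integrable (nice_comp h2 hc.continuous hw n2)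
  have e2 : ∫ r, KK φ w k y r = 0 - ∫ r, ((2 : ℝ) ^ k)⁻¹ * φ ((Ph w y - Ph w r) / 2 ^ k) := by
    rw [← prof_int hφ0 k y, ← integral_sub (nice_integrable n1) i1]
    congr 1; ext r; simp only [KK]; ring
  rw [e2, ← e1, cv1_eq, zero_sub, neg_inj]
  rw [← sub_eq_zero, ← integral_sub (nice_integrable n3)]
  · rw [← prof_int hφ0 k (Ph w y)]
    congr 1; ext s
    by_cases hs : |s - Ph w y₀| ≤ 3 * 2 ^ n
    · rw [if_pos hs]
      have := hpos s
      have h5 : 1 - u s ≠ 0 := by linarith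
      field_simp
    · rw [if_neg hs]
      have h6 : 1 < |(Ph w y - s) / (2 : ℝ) ^ k| := by
        rw [abs_div, abs_of_pos hk, lt_div_iff₀ hk, one_mul]
        have h7 := ph_lip h2 hw y y₀
        have h8 : |s - Ph w y₀| ≤ |Ph w y - s| + |Ph w y - Ph w y₀| := by
          have := abs_sub_le s (Ph w y) (Ph w y₀)
          rwa [abs_sub_comm s (Ph w y)] at this
        have h9 := not_le.mp hs
        nlinarith
      rw [hsupp _ h6]
      simp
  · have hJ : Measurable (fun s => if |s - Ph w y₀| ≤ 3 * 2 ^ n then u s / (1 - u s) else 0) := by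
      refine Measurable.ite ?_ (hu.div (measurable_const.sub hu)) measurable_const
      exact measurableSet_le (by fun_prop) measurable_const
    have hJb : ∀ s, |if |s - Ph w y₀| ≤ 3 * 2 ^ n then u s / (1 - u s) else 0| ≤ 1 := by
      intro s
      split_ifs
      · rw [abs_div, abs_of_nonneg (by linarith [hpos s] : 0 ≤ 1 - u s),
          div_le_iff₀ (by linarith [hpos s])]
        linarith [hpos s, hub s]
      · simp
    refine (nice_integrable (nice_mul hJ hJb n2)).congr (ae_of_all _ fun s => ?_)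
    simp only
    ring

/-- the localised Jacobian defect -/
def JJ (u : ℝ → ℝ) (c L s : ℝ) : ℝ := if |s - c| ≤ 3 * L then u s / (1 - u s) else 0

theorem JJ_nice {u : ℝ → ℝ} (hu : Measurable u) (hub : ∀ s, |u s| ≤ δ) (h2 : δ ≤ 1 / 2)
    (c L : ℝ) : Nice1 (JJ u c L) := by
  have hpos : ∀ s, 1 / 2 ≤ 1 - u s := fun s => by
    have := (abs_le.mp (hub s)).2; linarith
  refine ⟨?_, ⟨1, fun s => ?_⟩, |c| + 3 * L, fun s hs => ?_⟩
  · unfold JJ
    refine Measurable.ite ?_ (hu.div (measurable_const.sub hu)) measurable_const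
    exact measurableSet_le (by fun_prop) measurable_const
  · unfold JJ
    split_ifs
    · rw [abs_div, abs_of_nonneg (by linarith [hpos s] : 0 ≤ 1 - u s),
        div_le_iff₀ (by linarith [hpos s])]
      linarith [hpos s, hub s]
    · simp
  · unfold JJ
    rw [if_neg]
    have := abs_sub_abs_le_abs_sub s c
    linarith

theorem JJ_sq {u : ℝ → ℝ} (hu : Measurable u) (hub : ∀ s, |u s| ≤ δ) (h0 : 0 ≤ δ)
    (h2 : δ ≤ 1 / 2) (c : ℝ) {L : ℝ} (hL : 0 ≤ L) : ∫ s, (JJ u c L s) ^ 2 ≤ 24 * δ ^ 2 * L := by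
  have hpos : ∀ s, 1 / 2 ≤ 1 - u s := fun s => by
    have := (abs_le.mp (hub s)).2; linarith
  have h1 : ∀ s, (JJ u c L s) ^ 2 ≤ (Set.Icc (c - 3 * L) (c + 3 * L)).indicator
      (fun _ => 4 * δ ^ 2) s := by
    intro s
    unfold JJ
    split_ifs with h
    · rw [Set.indicator_of_mem (by rw [Set.mem_Icc]; constructor <;> linarith [(abs_le.mp h).1, (abs_le.mp h).2])]
      have h3 : |u s / (1 - u s)| ≤ 2 * δ := by
        rw [abs_div, abs_of_nonneg (by linarith [hpos s] : 0 ≤ 1 - u s),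
          div_le_iff₀ (by linarith [hpos s])]
        nlinarith [hpos s, hub s]
      calc (u s / (1 - u s)) ^ 2 = |u s / (1 - u s)| ^ 2 := (sq_abs _).symm
        _ ≤ (2 * δ) ^ 2 := pow_le_pow_left₀ (abs_nonneg _) h3 2
        _ = _ := by ring
    · simp only [ne_eq, OfNat.ofNat_ne_zero, not_false_eq_true, zero_pow]
      exact Set.indicator_nonneg (fun _ _ => by positivity) s
  have h4 : Integrable ((Set.Icc (c - 3 * L) (c + 3 * L)).indicator
      (fun _ : ℝ => 4 * δ ^ 2)) := by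
    rw [integrable_indicator_iff measurableSet_Icc]
    exact integrableOn_const (by simp)
  refine (integral_mono (nice_sq_integrable (JJ_nice hu hub h2 c L)) h4 h1).trans (le_of_eq ?_)
  rw [integral_indicator measurableSet_Icc, setIntegral_const]
  simp only [measureReal_def, Real.volume_Icc, smul_eq_mul]
  rw [ENNReal.toReal_ofReal (by linarith)]
  ring

end

theorem lemL (hSQ : SQT1) (hLP : LPup) : LemL := by
  intro φ hφ
  obtain ⟨Cs, hCs0, hCs⟩ := hSQ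
  obtain ⟨Cl, hCl0, hCl⟩ := hLP φ hφ
  obtain ⟨B₀, B₁, B₂, b0, b1, b2, hB₀, hB₁, hB₂⟩ := prof_consts hφ
  obtain ⟨hs, hsupp, hφ0⟩ := hφ
  have hφc : Continuous φ := hs.continuous
  have hd : Differentiable ℝ φ := hs.differentiable (by simp)
  set C₁ : ℝ := 2 * B₁ + 2 * B₂ + (48 * Cl + 1) with hC₁
  have hC₁0 : 0 ≤ C₁ := by positivity
  have hC₁sq : 48 * Cl ≤ C₁ ^ 2 := by
    have : 48 * Cl + 1 ≤ C₁ := by rw [hC₁]; linarith
    nlinarith
  refine ⟨4 * Cs * C₁ ^ 2 + 16 * Cl, by positivity, ?_⟩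
  intro δ w h0 h2 hc hw g hg F
  obtain ⟨u, hu, hub, huw⟩ := exists_u h0 h2 hc hw
  have hpos : ∀ s, 1 / 2 ≤ 1 - u s := fun s => by
    have := (abs_le.mp (hub s)).2; linarith
  have hgi := nice_sq_integrable hg
  set G : ℝ → ℝ := fun y => g (Ph w y) with hG
  have hGn : Nice1 G := nice_comp h2 hc.continuous hw hg
  -- the square function part
  have hA : 0 ≤ C₁ * δ := mul_nonneg hC₁0 h0
  have part1 : ∑ k ∈ F, ∫ y, (∫ r, KK φ w k y r * G r) ^ 2 ≤
      Cs * (C₁ * δ) ^ 2 * ∫ y, (G y) ^ 2 := by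
    refine hCs (C₁ * δ) (KK φ w) F hA (fun k _ => KK_meas hφc hc.continuous k)
      (fun k _ y r => ?_) (fun k _ y r h => KK_supp hsupp h2 hw k y r h)
      (fun k _ y r r' => ?_) (fun n m => ?_) G hGn
    · refine (KK_size hB₁ hsupp b1 h0 h2 hw k y r).trans ?_
      refine mul_le_mul_of_nonneg_right ?_ (by positivity)
      refine mul_le_mul_of_nonneg_right ?_ h0
      rw [hC₁]; linarith
    · refine (KK_lip hd hB₁ hB₂ hsupp b1 b2 h0 h2 hw k y r r').trans ?_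
      refine mul_le_mul_of_nonneg_right ?_ (abs_nonneg _)
      refine mul_le_mul_of_nonneg_right ?_ (by positivity)
      refine mul_le_mul_of_nonneg_right ?_ (by positivity)
      refine mul_le_mul_of_nonneg_right ?_ h0
      rw [hC₁]; linarith
    · -- Carleson condition
      have hn : (0 : ℝ) < 2 ^ n := by positivity
      set y₀ : ℝ := (m : ℝ) * 2 ^ n with hy₀
      set J : ℝ → ℝ := JJ u (Ph w y₀) (2 ^ n) with hJ
      have hJn : Nice1 J := JJ_nice hu hub h2 _ _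
      have step : ∀ k ∈ F.filter (· ≤ n),
          ∫ y in Set.Ico ((m : ℝ) * 2 ^ n) ((m + 1 : ℝ) * 2 ^ n), (∫ r, KK φ w k y r) ^ 2 ≤
            2 * ∫ s, (cv1 φ k J s) ^ 2 := by
        intro k hk
        have hkn : k ≤ n := (Finset.mem_filter.mp hk).2
        have hcvn : Nice1 (cv1 φ k J) := cv1_nice hφc.measurable hB₀ hsupp k hJn
        have e1 : ∫ y in Set.Ico ((m : ℝ) * 2 ^ n) ((m + 1 : ℝ) * 2 ^ n),
            (∫ r, KK φ w k y r) ^ 2 =
            ∫ y in Set.Ico ((m : ℝ) * 2 ^ n) ((m + 1 : ℝ) * 2 ^ n), (cv1 φ k J (Ph w y)) ^ 2 := by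
          refine setIntegral_congr_fun measurableSet_Ico fun y hy => ?_
          have hy' : |y - y₀| ≤ 2 ^ n := by
            rw [abs_le]
            constructor <;> nlinarith [hy.1, hy.2]
          have := KK_int hφc hB₀ hsupp hφ0 h0 h2 hc hw hu hub huw k hkn y₀ y hy'
          simp only [this, neg_sq]
          rfl
        rw [e1]
        refine (setIntegral_le_integral (nice_sq_integrable (nice_comp h2 hc.continuous hw hcvn))
          (ae_of_all _ fun y => sq_nonneg _)).trans ?_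
        exact cov_le h0 h2 hc hw (nice_sq_integrable hcvn) (fun s => sq_nonneg _)
      refine (Finset.sum_le_sum step).trans ?_
      rw [← Finset.mul_sum]
      have h5 := hCl J hJn (F.filter (· ≤ n))
      have h6 := JJ_sq hu hub h0 h2 (Ph w y₀) hn.le
      have h7 : Cl * ∫ y, (J y) ^ 2 ≤ Cl * (24 * δ ^ 2 * 2 ^ n) :=
        mul_le_mul_of_nonneg_left h6 hCl0
      have h8 : 48 * Cl * (δ ^ 2 * 2 ^ n) ≤ C₁ ^ 2 * (δ ^ 2 * 2 ^ n) :=
        mul_le_mul_of_nonneg_right hC₁sq (by positivity)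
      nlinarith
  -- the second part
  set h : ℝ → ℝ := fun s => (u s / (1 - u s)) * g s with hh
  have hbm : Measurable (fun s => u s / (1 - u s)) := hu.div (measurable_const.sub hu)
  have hbb : ∀ s, |u s / (1 - u s)| ≤ 2 * δ := fun s => by
    rw [abs_div, abs_of_nonneg (by linarith [hpos s] : 0 ≤ 1 - u s),
      div_le_iff₀ (by linarith [hpos s])]
    nlinarith [hpos s, hub s]
  have hhn : Nice1 h := nice_mul hbm hbb hg
  have hhsq : ∫ s, (h s) ^ 2 ≤ 4 * δ ^ 2 * ∫ s, (g s) ^ 2 := by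
    rw [← integral_const_mul]
    refine integral_mono (nice_sq_integrable hhn) (hgi.const_mul _) fun s => ?_
    simp only [hh, mul_pow]
    refine mul_le_mul_of_nonneg_right ?_ (sq_nonneg _)
    calc (u s / (1 - u s)) ^ 2 = |u s / (1 - u s)| ^ 2 := (sq_abs _).symm
      _ ≤ (2 * δ) ^ 2 := pow_le_pow_left₀ (abs_nonneg _) (hbb s) 2
      _ = _ := by ring
  have hcvh : ∀ k, Nice1 (cv1 φ k h) := fun k => cv1_nice hφc.measurable hB₀ hsupp k hhn
  have part2 : ∑ k ∈ F, ∫ y, (cv1 φ k h (Ph w y)) ^ 2 ≤ 2 * (Cl * ∫ s, (h s) ^ 2) := by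
    refine (Finset.sum_le_sum fun k _ => cov_le h0 h2 hc hw (nice_sq_integrable (hcvh k))
      (fun s => sq_nonneg _)).trans ?_
    rw [← Finset.mul_sum]
    exact mul_le_mul_of_nonneg_left (hCl h hhn F) (by norm_num)
  -- the decomposition
  have dec : ∀ k y, cv1 φ k G y - cv1 φ k g (Ph w y) =
      (∫ r, KK φ w k y r * G r) + cv1 φ k h (Ph w y) := by
    intro k y
    have hk : (0 : ℝ) < 2 ^ k := by positivity
    rw [cv1_eq φ k G, cv1_eq φ k g, cv1_eq φ k h,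
      cov h0 h2 hc hw (fun s => ((2 : ℝ) ^ k)⁻¹ * φ ((Ph w y - s) / 2 ^ k) * g s),
      cov h0 h2 hc hw (fun s => ((2 : ℝ) ^ k)⁻¹ * φ ((Ph w y - s) / 2 ^ k) * h s)]
    have m1 : Measurable (fun t => ((2 : ℝ) ^ k)⁻¹ * φ ((y - t) / 2 ^ k)) := by fun_prop
    have m2 : Measurable (fun t => ((2 : ℝ) ^ k)⁻¹ * φ ((Ph w y - Ph w t) / 2 ^ k)) := by
      apply Continuous.measurable
      have := hc.continuous
      unfold Ph
      fun_prop
    have bb : ∀ a, |((2 : ℝ) ^ k)⁻¹ * φ a| ≤ ((2 : ℝ) ^ k)⁻¹ * B₀ := fun a => by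
      rw [abs_mul, abs_of_pos (inv_pos.mpr hk)]
      exact mul_le_mul_of_nonneg_left (hB₀ _) (inv_pos.mpr hk).le
    have mw : Measurable (fun t => deriv w t) := (hc.continuous_deriv le_rfl).measurable
    have n1 : Nice1 (fun t => (((2 : ℝ) ^ k)⁻¹ * φ ((y - t) / 2 ^ k)) * G t) :=
      nice_mul m1 (fun t => bb _) hGn
    have n2 : Nice1 (fun t => (((2 : ℝ) ^ k)⁻¹ * φ ((Ph w y - Ph w t) / 2 ^ k)) * G t) :=
      nice_mul m2 (fun t => bb _) hGn
    have n3 : Nice1 (fun t => deriv w t *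
        ((((2 : ℝ) ^ k)⁻¹ * φ ((Ph w y - Ph w t) / 2 ^ k)) * G t)) :=
      nice_mul mw (fun t => dw_le h0 hw t) n2
    have e1 : ∫ t, (1 - deriv w t) *
        (((2 : ℝ) ^ k)⁻¹ * φ ((Ph w y - Ph w t) / 2 ^ k) * g (Ph w t)) =
        (∫ t, (((2 : ℝ) ^ k)⁻¹ * φ ((Ph w y - Ph w t) / 2 ^ k)) * G t) -
        ∫ t, deriv w t * ((((2 : ℝ) ^ k)⁻¹ * φ ((Ph w y - Ph w t) / 2 ^ k)) * G t) := by
      rw [← integral_sub (nice_integrable n2) (nice_integrable n3)]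
      congr 1; ext t; simp only [hG]; ring
    have e2 : ∫ t, (1 - deriv w t) *
        (((2 : ℝ) ^ k)⁻¹ * φ ((Ph w y - Ph w t) / 2 ^ k) * h (Ph w t)) =
        ∫ t, deriv w t * ((((2 : ℝ) ^ k)⁻¹ * φ ((Ph w y - Ph w t) / 2 ^ k)) * G t) := by
      congr 1; ext t
      simp only [hh, hG, huw]
      have h3 := (abs_le.mp (dw_le h0 hw t)).2
      have : (1 - deriv w t) ≠ 0 := by linarith
      field_simp
    have e3 : ∫ r, KK φ w k y r * G r =
        (∫ t, (((2 : ℝ) ^ k)⁻¹ * φ ((y - t) / 2 ^ k)) * G t) -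
        ∫ t, (((2 : ℝ) ^ k)⁻¹ * φ ((Ph w y - Ph w t) / 2 ^ k)) * G t := by
      rw [← integral_sub (nice_integrable n1) (nice_integrable n2)]
      congr 1; ext t; simp only [KK]; ring
    rw [e1, e2, e3]
    ring
  have hD : ∀ k, Nice1 (fun y => cv1 φ k G y - cv1 φ k g (Ph w y)) := fun k =>
    nice_sub (cv1_nice hφc.measurable hB₀ hsupp k hGn)
      (nice_comp h2 hc.continuous hw (cv1_nice hφc.measurable hB₀ hsupp k hg))
  have hS : ∀ k, Nice1 (fun y => ∫ r, KK φ w k y r * G r) := fun k => by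
    have := nice_sub (hD k) (nice_comp h2 hc.continuous hw (hcvh k))
    convert this using 2 with y
    rw [dec]; ring
  have key : ∀ k ∈ F, ∫ y, (cv1 φ k (fun y => g (y - w y)) y - cv1 φ k g (y - w y)) ^ 2 ≤
      2 * (∫ y, (∫ r, KK φ w k y r * G r) ^ 2) + 2 * ∫ y, (cv1 φ k h (Ph w y)) ^ 2 := by
    intro k _
    have i1 := nice_sq_integrable (hS k)
    have i2 := nice_sq_integrable (nice_comp h2 hc.continuous hw (hcvh k))
    rw [← integral_const_mul, ← integral_const_mul,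
      ← integral_add (i1.const_mul 2) (i2.const_mul 2)]
    refine integral_mono (nice_sq_integrable (hD k)) ((i1.const_mul 2).add (i2.const_mul 2))
      fun y => ?_
    have := dec k y
    show (cv1 φ k G y - cv1 φ k g (Ph w y)) ^ 2 ≤ _
    rw [this]
    nlinarith [sq_nonneg ((∫ r, KK φ w k y r * G r) - cv1 φ k h (Ph w y))]
  have hG2 : ∫ y, (G y) ^ 2 ≤ 2 * ∫ s, (g s) ^ 2 :=
    cov_le h0 h2 hc hw hgi (fun s => sq_nonneg _)
  have hg0 : 0 ≤ ∫ s, (g s) ^ 2 := integral_nonneg fun s => sq_nonneg _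
  calc ∑ k ∈ F, ∫ y, (cv1 φ k (fun y => g (y - w y)) y - cv1 φ k g (y - w y)) ^ 2
      ≤ ∑ k ∈ F, (2 * (∫ y, (∫ r, KK φ w k y r * G r) ^ 2) +
          2 * ∫ y, (cv1 φ k h (Ph w y)) ^ 2) := Finset.sum_le_sum key
    _ = 2 * ∑ k ∈ F, (∫ y, (∫ r, KK φ w k y r * G r) ^ 2) +
          2 * ∑ k ∈ F, ∫ y, (cv1 φ k h (Ph w y)) ^ 2 := by
        rw [Finset.sum_add_distrib, Finset.mul_sum, Finset.mul_sum]
    _ ≤ 2 * (Cs * (C₁ * δ) ^ 2 * (2 * ∫ s, (g s) ^ 2)) +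
          2 * (2 * (Cl * (4 * δ ^ 2 * ∫ s, (g s) ^ 2))) := by
        refine add_le_add (mul_le_mul_of_nonneg_left (part1.trans ?_) (by norm_num))
          (mul_le_mul_of_nonneg_left (part2.trans ?_) (by norm_num))
        · exact mul_le_mul_of_nonneg_left hG2 (by positivity)
        · exact mul_le_mul_of_nonneg_left (mul_le_mul_of_nonneg_left hhsq hCl0) (by norm_num)
    _ = (4 * Cs * C₁ ^ 2 + 16 * Cl) * δ ^ 2 * ∫ s, (g s) ^ 2 := by ring

end Crest.Agent.R087.LemLx118
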