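import Mathlib

/-!
Row 87, (E2) MAIN, abstract almost orthogonality of one level (helper575).
-/

set_option autoImplicit false

noncomputable section

open Filter Topology

namespace Crest.Agent.R087.LevAbsx575

/-- Cauchy-Schwarz with weights -/
theorem cs_w {ι : Type*} (s : Finset ι) (u x : ι → ℝ) (hu : ∀ i ∈ s, 0 ≤ u i) :
    (∑ i ∈ s, u i * x i) ^ 2 ≤ (∑ i ∈ s, u i) * ∑ i ∈ s, u i * x i ^ 2 := by
  refine Finset.sum_sq_le_sum_mul_sum_of_sq_le_mul s (fun i hi => hu i hi)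
    (fun i hi => mul_nonneg (hu i hi) (sq_nonneg _)) fun i _ => le_of_eq (by ring)

section

variable {V : Type*} [SeminormedAddCommGroup V] {σ : Type*} [Fintype σ]
  (Δ : ℤ → V →+ V) (S : ℕ → σ → V →+ V) (f : ℕ → σ → V) (jj : σ → ℤ) (K : ℕ) (N A D : ℝ)
  (B : ℕ → σ → ℝ) (F : σ → ℝ) (w : ℤ → ℝ)

/-- truncated sum -/
def gL (L k : ℕ) : V := ∑ s, S k s (∑ l ∈ Finset.Icc (-(L : ℤ)) L, Δ l (f k s))

variable (hw0 : ∀ n, 0 ≤ w n) (hwD : ∀ G : Finset ℤ, ∑ n ∈ G, w n ≤ D)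

include hwD in
theorem D_nonneg : 0 ≤ D := by simpa using hwD ∅

include hw0 hwD in
/-- sum over all classes at one scale -/
theorem sum_cls [DecidableEq ℤ] (hN : 0 ≤ N)
    (h5 : ∀ j : ℤ, ((Finset.univ.filter (fun s => jj s = j)).card : ℝ) ≤ N) (m k : ℤ) :
    ∑ s, w (m - (jj s - k)) ≤ N * D := by
  classical
  rw [← Finset.sum_fiberwise_of_maps_to (t := Finset.univ.image jj)
    (fun s _ => Finset.mem_image_of_mem jj (Finset.mem_univ s))]
  calc ∑ j ∈ Finset.univ.image jj, ∑ s with jj s = j, w (m - (jj s - k))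
      ≤ ∑ j ∈ Finset.univ.image jj, N * w (m - (j - k)) := by
        refine Finset.sum_le_sum fun j _ => ?_
        calc ∑ s with jj s = j, w (m - (jj s - k)) = ∑ s with jj s = j, w (m - (j - k)) := by
              refine Finset.sum_congr rfl fun s hs => ?_
              rw [(Finset.mem_filter.1 hs).2]
          _ = ((Finset.univ.filter (fun s => jj s = j)).card : ℝ) * w (m - (j - k)) := by
              rw [Finset.sum_const, nsmul_eq_mul]
          _ ≤ N * w (m - (j - k)) := mul_le_mul_of_nonneg_right (h5 j) (hw0 _)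
    _ = N * ∑ j ∈ Finset.univ.image jj, w (m - (j - k)) := by rw [Finset.mul_sum]
    _ = N * ∑ n ∈ (Finset.univ.image jj).image (fun j => m - (j - k)), w n := by
        congr 1
        refine (Finset.sum_image ?_).symm
        intro a _ b _ hab
        simpa using hab
    _ ≤ N * D := mul_le_mul_of_nonneg_left (hwD _) hN

variable (h4 : ∀ k s m l v, ‖Δ m (S k s (Δ l v))‖ ≤
  A * (w (m - (jj s - k)) * w (l - (jj s - k))) * ‖Δ l v‖)

include hw0 hwD h4 in
theorem step_A (hN : 0 ≤ N)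
    (h5 : ∀ j : ℤ, ((Finset.univ.filter (fun s => jj s = j)).card : ℝ) ≤ N) (L k : ℕ) (m : ℤ) :
    ‖Δ m (gL Δ S f L k)‖ ^ 2 ≤ A ^ 2 * (N * D * D) *
      ∑ s, ∑ l ∈ Finset.Icc (-(L : ℤ)) L,
        w (m - (jj s - k)) * w (l - (jj s - k)) * ‖Δ l (f k s)‖ ^ 2 := by
  classical
  have hD := D_nonneg D w hwD
  set I := Finset.Icc (-(L : ℤ)) L with hI
  have h1 : ‖Δ m (gL Δ S f L k)‖ ≤ A * ∑ p ∈ (Finset.univ : Finset σ) ×ˢ I,
      (w (m - (jj p.1 - k)) * w (p.2 - (jj p.1 - k))) * ‖Δ p.2 (f k p.1)‖ := by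
    unfold gL
    rw [map_sum, Finset.mul_sum, Finset.sum_product]
    refine (norm_sum_le _ _).trans (Finset.sum_le_sum fun s _ => ?_)
    rw [map_sum, map_sum]
    refine (norm_sum_le _ _).trans (Finset.sum_le_sum fun l _ => ?_)
    refine (h4 k s m l _).trans (le_of_eq ?_)
    ring
  have h2 : ∑ p ∈ (Finset.univ : Finset σ) ×ˢ I,
      (w (m - (jj p.1 - k)) * w (p.2 - (jj p.1 - k))) ≤ N * D * D := by
    rw [Finset.sum_product]
    calc ∑ s, ∑ l ∈ I, w (m - (jj s - k)) * w (l - (jj s - k))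
        ≤ ∑ s, w (m - (jj s - k)) * D := by
          refine Finset.sum_le_sum fun s _ => ?_
          rw [← Finset.mul_sum]
          refine mul_le_mul_of_nonneg_left ?_ (hw0 _)
          have : ∑ l ∈ I, w (l - (jj s - k)) =
              ∑ n ∈ I.image (fun l => l - (jj s - k)), w n := by
            rw [Finset.sum_image]
            intro a _ b _ hab
            simpa using hab
          rw [this]
          exact hwD _
      _ = (∑ s, w (m - (jj s - k))) * D := by rw [Finset.sum_mul]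
      _ ≤ (N * D) * D :=
          mul_le_mul_of_nonneg_right (sum_cls jj N D w hw0 hwD hN h5 m k) hD
  calc ‖Δ m (gL Δ S f L k)‖ ^ 2
      ≤ (A * ∑ p ∈ (Finset.univ : Finset σ) ×ˢ I,
          (w (m - (jj p.1 - k)) * w (p.2 - (jj p.1 - k))) * ‖Δ p.2 (f k p.1)‖) ^ 2 :=
        pow_le_pow_left₀ (norm_nonneg _) h1 2
    _ = A ^ 2 * (∑ p ∈ (Finset.univ : Finset σ) ×ˢ I,
          (w (m - (jj p.1 - k)) * w (p.2 - (jj p.1 - k))) * ‖Δ p.2 (f k p.1)‖) ^ 2 := by
        rw [mul_pow]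
    _ ≤ A ^ 2 * ((∑ p ∈ (Finset.univ : Finset σ) ×ˢ I,
          (w (m - (jj p.1 - k)) * w (p.2 - (jj p.1 - k)))) *
          ∑ p ∈ (Finset.univ : Finset σ) ×ˢ I,
          (w (m - (jj p.1 - k)) * w (p.2 - (jj p.1 - k))) * ‖Δ p.2 (f k p.1)‖ ^ 2) := by
        refine mul_le_mul_of_nonneg_left ?_ (sq_nonneg _)
        exact cs_w _ _ _ fun p _ => mul_nonneg (hw0 _) (hw0 _)
    _ ≤ A ^ 2 * ((N * D * D) *
          ∑ p ∈ (Finset.univ : Finset σ) ×ˢ I,
          (w (m - (jj p.1 - k)) * w (p.2 - (jj p.1 - k))) * ‖Δ p.2 (f k p.1)‖ ^ 2) := by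
        refine mul_le_mul_of_nonneg_left ?_ (sq_nonneg _)
        refine mul_le_mul_of_nonneg_right h2 (Finset.sum_nonneg fun p _ => ?_)
        exact mul_nonneg (mul_nonneg (hw0 _) (hw0 _)) (sq_nonneg _)
    _ = _ := by rw [Finset.sum_product]; ring

variable (h1 : ∀ v, HasSum (fun m => ‖Δ m v‖ ^ 2) (‖v‖ ^ 2))

include hw0 hwD h4 h1 in
theorem step_B (hN : 0 ≤ N)
    (h5 : ∀ j : ℤ, ((Finset.univ.filter (fun s => jj s = j)).card : ℝ) ≤ N) (L k : ℕ) :
    ‖gL Δ S f L k‖ ^ 2 ≤ A ^ 2 * (N * D * D) * D *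
      ∑ s, ∑ l ∈ Finset.Icc (-(L : ℤ)) L, w (l - (jj s - k)) * ‖Δ l (f k s)‖ ^ 2 := by
  classical
  have hD := D_nonneg D w hwD
  refine hasSum_le_of_sum_le (h1 _) fun G => ?_
  calc ∑ m ∈ G, ‖Δ m (gL Δ S f L k)‖ ^ 2
      ≤ ∑ m ∈ G, A ^ 2 * (N * D * D) * ∑ s, ∑ l ∈ Finset.Icc (-(L : ℤ)) L,
        w (m - (jj s - k)) * w (l - (jj s - k)) * ‖Δ l (f k s)‖ ^ 2 :=
        Finset.sum_le_sum fun m _ => step_A Δ S f jj N A D w hw0 hwD h4 hN h5 L k m
    _ = A ^ 2 * (N * D * D) * ∑ s, ∑ l ∈ Finset.Icc (-(L : ℤ)) L,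
        (∑ m ∈ G, w (m - (jj s - k))) * (w (l - (jj s - k)) * ‖Δ l (f k s)‖ ^ 2) := by
        rw [← Finset.mul_sum, Finset.sum_comm]
        congr 1
        refine Finset.sum_congr rfl fun s _ => ?_
        rw [Finset.sum_comm]
        refine Finset.sum_congr rfl fun l _ => ?_
        rw [Finset.sum_mul]
        refine Finset.sum_congr rfl fun m _ => by ring
    _ ≤ A ^ 2 * (N * D * D) * ∑ s, ∑ l ∈ Finset.Icc (-(L : ℤ)) L,
        D * (w (l - (jj s - k)) * ‖Δ l (f k s)‖ ^ 2) := by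
        refine mul_le_mul_of_nonneg_left ?_ (by positivity)
        refine Finset.sum_le_sum fun s _ => Finset.sum_le_sum fun l _ => ?_
        refine mul_le_mul_of_nonneg_right ?_ (mul_nonneg (hw0 _) (sq_nonneg _))
        have : ∑ m ∈ G, w (m - (jj s - k)) =
            ∑ n ∈ G.image (fun l => l - (jj s - k)), w n := by
          rw [Finset.sum_image]
          intro a _ b _ hab
          simpa using hab
        rw [this]
        exact hwD _
    _ = _ := by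
        simp_rw [← Finset.mul_sum]
        ring

variable (h6 : ∀ s (n : ℤ), ∑ k ∈ Finset.range K, ‖Δ (jj s - k + n) (f k s)‖ ^ 2 ≤ F s)

include hw0 hwD h6 in
theorem step_C (L : ℕ) :
    ∑ k ∈ Finset.range K, ∑ s, ∑ l ∈ Finset.Icc (-(L : ℤ)) L,
      w (l - (jj s - k)) * ‖Δ l (f k s)‖ ^ 2 ≤ D * ∑ s, F s := by
  classical
  rw [Finset.sum_comm, Finset.mul_sum]
  refine Finset.sum_le_sum fun s _ => ?_
  set G : Finset ℤ := Finset.Icc (-(L : ℤ) - |jj s|) (L + |jj s| + K) with hG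
  have hF : 0 ≤ F s := le_trans (Finset.sum_nonneg fun k _ => sq_nonneg _) (h6 s 0)
  calc ∑ k ∈ Finset.range K, ∑ l ∈ Finset.Icc (-(L : ℤ)) L,
        w (l - (jj s - k)) * ‖Δ l (f k s)‖ ^ 2
      ≤ ∑ k ∈ Finset.range K, ∑ n ∈ G, w n * ‖Δ (jj s - k + n) (f k s)‖ ^ 2 := by
        refine Finset.sum_le_sum fun k hk => ?_
        have hk' := Finset.mem_range.1 hk
        have e1 : ∑ l ∈ Finset.Icc (-(L : ℤ)) L, w (l - (jj s - k)) * ‖Δ l (f k s)‖ ^ 2 =
            ∑ n ∈ (Finset.Icc (-(L : ℤ)) L).image (fun l => l - (jj s - k)),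
              w n * ‖Δ (jj s - k + n) (f k s)‖ ^ 2 := by
          rw [Finset.sum_image]
          · refine Finset.sum_congr rfl fun l _ => ?_
            rw [add_sub_cancel]
          · intro a _ b _ hab
            simpa using hab
        rw [e1]
        refine Finset.sum_le_sum_of_subset_of_nonneg ?_ fun n _ _ =>
          mul_nonneg (hw0 _) (sq_nonneg _)
        intro n hn
        obtain ⟨l, hl, rfl⟩ := Finset.mem_image.1 hn
        rw [Finset.mem_Icc] at hl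
        rw [hG, Finset.mem_Icc]
        have h7 := le_abs_self (jj s)
        have h8 := neg_abs_le (jj s)
        have h9 : (k : ℤ) < K := by exact_mod_cast hk'
        constructor <;> omega
    _ = ∑ n ∈ G, w n * ∑ k ∈ Finset.range K, ‖Δ (jj s - k + n) (f k s)‖ ^ 2 := by
        rw [Finset.sum_comm]
        refine Finset.sum_congr rfl fun n _ => ?_
        rw [Finset.mul_sum]
    _ ≤ ∑ n ∈ G, w n * F s :=
        Finset.sum_le_sum fun n _ => mul_le_mul_of_nonneg_left (h6 s n) (hw0 _)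
    _ = (∑ n ∈ G, w n) * F s := by rw [Finset.sum_mul]
    _ ≤ D * F s := mul_le_mul_of_nonneg_right (hwD _) hF

include hw0 hwD h4 h1 h6 in
/-- one level: abstract bound -/
theorem levabs (hN : 0 ≤ N)
    (h5 : ∀ j : ℤ, ((Finset.univ.filter (fun s => jj s = j)).card : ℝ) ≤ N)
    (h2 : ∀ v, Tendsto (fun L : ℕ => ‖v - ∑ l ∈ Finset.Icc (-(L : ℤ)) L, Δ l v‖) atTop (𝓝 0))
    (h3 : ∀ k s v, ‖S k s v‖ ≤ B k s * ‖v‖) :
    ∑ k ∈ Finset.range K, ‖∑ s, S k s (f k s)‖ ^ 2 ≤ A ^ 2 * N * D ^ 4 * ∑ s, F s := by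
  classical
  have hD := D_nonneg D w hwD
  have hbd : ∀ L : ℕ, ∑ k ∈ Finset.range K, ‖gL Δ S f L k‖ ^ 2 ≤
      A ^ 2 * N * D ^ 4 * ∑ s, F s := by
    intro L
    calc ∑ k ∈ Finset.range K, ‖gL Δ S f L k‖ ^ 2
        ≤ ∑ k ∈ Finset.range K, A ^ 2 * (N * D * D) * D *
          ∑ s, ∑ l ∈ Finset.Icc (-(L : ℤ)) L, w (l - (jj s - k)) * ‖Δ l (f k s)‖ ^ 2 :=
          Finset.sum_le_sum fun k _ => step_B Δ S f jj N A D w hw0 hwD h4 h1 hN h5 L k
      _ = A ^ 2 * (N * D * D) * D * ∑ k ∈ Finset.range K,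
          ∑ s, ∑ l ∈ Finset.Icc (-(L : ℤ)) L, w (l - (jj s - k)) * ‖Δ l (f k s)‖ ^ 2 := by
          rw [Finset.mul_sum]
      _ ≤ A ^ 2 * (N * D * D) * D * (D * ∑ s, F s) :=
          mul_le_mul_of_nonneg_left (step_C Δ f jj K D F w hw0 hwD h6 L) (by positivity)
      _ = _ := by ring
  have hlim : Tendsto (fun L : ℕ => ∑ k ∈ Finset.range K, ‖gL Δ S f L k‖ ^ 2) atTop
      (𝓝 (∑ k ∈ Finset.range K, ‖∑ s, S k s (f k s)‖ ^ 2)) := by
    refine tendsto_finsetSum _ fun k _ => ?_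
    refine Tendsto.pow ?_ 2
    have hz : Tendsto (fun L : ℕ => ∑ s, B k s *
        ‖f k s - ∑ l ∈ Finset.Icc (-(L : ℤ)) L, Δ l (f k s)‖) atTop (𝓝 0) := by
      have := tendsto_finsetSum (Finset.univ : Finset σ)
        (fun s _ => (h2 (f k s)).const_mul (B k s))
      simpa using this
    rw [tendsto_iff_norm_sub_tendsto_zero]
    refine squeeze_zero (fun _ => norm_nonneg _) (fun L => ?_) hz
    rw [Real.norm_eq_abs]
    refine (abs_norm_sub_norm_le _ _).trans ?_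
    rw [← norm_neg, neg_sub]
    unfold gL
    rw [← Finset.sum_sub_distrib]
    refine (norm_sum_le _ _).trans (Finset.sum_le_sum fun s _ => ?_)
    rw [← map_sub]
    exact h3 k s _
  exact le_of_tendsto' hlim hbd

end

end Crest.Agent.R087.LevAbsx575
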