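import Crest.Agent.R087.LowPair_232
import Crest.Agent.R087.E2Kf_752

/-!
Row 87 (S0115), operator part: the literal leaf `OP0x270.L_LOWN` (helper232, second typing).

Kept part: `SQ` + decomposition over the strips (`LowPairx232.pair_sum`) + `TREELOW` + `OMEGA` + `HNORM`.
Removed part: `TREELOW` + `REMSUM`.
-/

set_option autoImplicit false

noncomputable section

open MeasureTheory

namespace Crest.Agent.R087.LowNx232

open Crest.Agent.R087.Sh0x283 Crest.Agent.R087.E2x542 Crest.Agent.R087.E2Kx752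
  Crest.Agent.R087.GateDefx273 Crest.Agent.R087.OP0x270 Crest.Agent.R087.LowTreex232
  Crest.Agent.R087.LowPairx232
open Crest.Agent.R087.Sqx282 (PZ nice_int nice_ind nice_sum nice_smul)

theorem iterDeriv_supp {ω : ℝ → ℝ} (h : ∀ r, 1 < |r| → ω r = 0) (n : ℕ) :
    ∀ r, 1 < |r| → iteratedDeriv n ω r = 0 := by
  intro r hr
  have ho : IsOpen {r : ℝ | 1 < |r|} := isOpen_lt continuous_const continuous_abs
  have h1 : ω =ᶠ[nhds r] fun _ => (0 : ℝ) := by
    filter_upwards [ho.mem_nhds hr] with t ht using h t ht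
  rw [h1.iteratedDeriv_eq n]
  simp

theorem cont_iter {ω : ℝ → ℝ} (h : ContDiff ℝ (⊤ : ℕ∞) ω) (N : ℕ) :
    Continuous (iteratedDeriv N ω) :=
  h.continuous_iteratedDeriv N (by exact_mod_cast le_top)

theorem pz_ph {ω ζ : ℝ → ℝ} {M : ℕ} (hω : PW M ω) (hζ : ZetC ζ) : PZ (ph ω) ζ where
  cφ := cont_iter hω.1 _
  cζ := hζ.1.continuous
  sφ := iterDeriv_supp hω.2.1 _
  sζ := hζ.2.1

theorem upp_sub {U h : ℝ × ℝ → ℝ} {A n : ℕ} {lo hi hi' : ℝ × ℝ → ℕ} (H : UppAt U h A n lo hi)
    (h' : ∀ z, hi' z ≤ hi z) : UppAt U h A n lo hi' := by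
  intro z hz hlt k hk i R hI hRk hzI hn
  have h1 := h' z
  refine H z hz (lt_of_lt_of_le hlt h1) k hk i R hI (by omega) hzI ⟨hn.1, ?_⟩
  refine le_trans ?_ hn.2
  apply mul_le_mul_of_nonneg_left _ (abs_nonneg _)
  exact pow_le_pow_of_le_one (by norm_num) (by norm_num) (by omega)

/-- the long side function -/
def Hf (n : ℕ) {N : ℕ} (R : Fin N → Tube) (kk : Fin N → ℤ) (ii : Fin N → ℕ) (w : ℝ × ℝ) : ℝ :=
  ∑ m, (2 : ℝ) ^ kk m * 2 ^ (AA * ii m) * (1 / 2 : ℝ) ^ n *
    (fat (32 * 2 ^ ii m) (R m)).indicator 1 w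

theorem Hf_meas (n : ℕ) {N : ℕ} (R : Fin N → Tube) (kk : Fin N → ℤ) (ii : Fin N → ℕ) :
    Measurable (Hf n R kk ii) := by
  unfold Hf
  apply Finset.measurable_fun_sum
  intro m _
  exact (measurable_one.indicator (measurableSet_fat _ _)).const_mul _

theorem Hf_nonneg (n : ℕ) {N : ℕ} (R : Fin N → Tube) (kk : Fin N → ℤ) (ii : Fin N → ℕ)
    (w : ℝ × ℝ) : 0 ≤ Hf n R kk ii w := by
  unfold Hf
  apply Finset.sum_nonneg
  intro m _
  apply mul_nonneg (by positivity)
  exact Set.indicator_nonneg (fun _ _ => zero_le_one) _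

theorem Hf_sq (n : ℕ) {N : ℕ} (R : Fin N → Tube) (kk : Fin N → ℤ) (ii : Fin N → ℕ) :
    Integrable (fun w => (Hf n R kk ii w) ^ 2) := by
  unfold Hf
  exact int_sq_sum _ _ (fun m => measurableSet_fat _ _) (fun m => fat_ne_top _ _)

/-- sum over the strips of all tops of the strip integrals of `W` -/
theorem strip_sum {N : ℕ} (n : ℕ) (R : Fin N → Tube) (kk : Fin N → ℤ) (ii : Fin N → ℕ)
    {W : ℝ × ℝ → ℝ} (hW : Measurable W) (hW0 : ∀ w, 0 ≤ W w)
    (hW2 : Integrable (fun w => (W w) ^ 2))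
    (hWi : ∀ m, ∀ j ∈ jr (ii m), IntegrableOn W (fat 1 (shT (R m) j))) {a : ℝ} (ha : 0 ≤ a) :
    ∑ m, ∑ j ∈ jr (ii m), (a * ((2 : ℝ) ^ kk m * (1 / 2 : ℝ) ^ n)) *
      ∫ w in fat 1 (shT (R m) j), W w ≤ 3 * a * ∫ w, W w * Hf n R kk ii w := by
  have hmf : ∀ (K : ℝ) (R : Tube), MeasurableSet (fat K R) := measurableSet_fat
  have hint : ∀ m, ∀ j ∈ jr (ii m),
      Integrable (fun w => (a * ((2 : ℝ) ^ kk m * (1 / 2 : ℝ) ^ n)) *
        (fat 1 (shT (R m) j)).indicator W w) := by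
    intro m j hj
    exact ((integrable_indicator_iff (hmf _ _)).2 (hWi m j hj)).const_mul _
  have hWH : Integrable (fun w => W w * Hf n R kk ii w) := by
    apply Integrable.mono' (hW2.add (Hf_sq n R kk ii))
      ((hW.mul (Hf_meas n R kk ii)).aestronglyMeasurable)
    apply Filter.Eventually.of_forall
    intro w
    have h1 := hW0 w
    have h2 := Hf_nonneg n R kk ii w
    show |W w * Hf n R kk ii w| ≤ (W w) ^ 2 + (Hf n R kk ii w) ^ 2
    rw [abs_of_nonneg (mul_nonneg h1 h2)]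
    nlinarith [sq_nonneg (W w - Hf n R kk ii w)]
  have e1 : ∑ m, ∑ j ∈ jr (ii m), (a * ((2 : ℝ) ^ kk m * (1 / 2 : ℝ) ^ n)) *
      ∫ w in fat 1 (shT (R m) j), W w =
      ∫ w, ∑ m, ∑ j ∈ jr (ii m), (a * ((2 : ℝ) ^ kk m * (1 / 2 : ℝ) ^ n)) *
        (fat 1 (shT (R m) j)).indicator W w := by
    rw [integral_finsetSum _ (fun m _ => integrable_finsetSum _ (fun j hj => hint m j hj))]
    apply Finset.sum_congr rfl
    intro m _
    rw [integral_finsetSum _ (fun j hj => hint m j hj)]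
    apply Finset.sum_congr rfl
    intro j _
    rw [integral_const_mul, integral_indicator (hmf _ _)]
  rw [e1, ← integral_const_mul]
  apply integral_mono
  · exact integrable_finsetSum _ (fun m _ => integrable_finsetSum _ (fun j hj => hint m j hj))
  · exact hWH.const_mul _
  · intro w
    show ∑ m, ∑ j ∈ jr (ii m), (a * ((2 : ℝ) ^ kk m * (1 / 2 : ℝ) ^ n)) *
        (fat 1 (shT (R m) j)).indicator W w ≤ 3 * a * (W w * Hf n R kk ii w)
    have h1 : ∀ m, ∑ j ∈ jr (ii m), (a * ((2 : ℝ) ^ kk m * (1 / 2 : ℝ) ^ n)) *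
        (fat 1 (shT (R m) j)).indicator W w ≤
        3 * a * (W w * ((2 : ℝ) ^ kk m * 2 ^ (AA * ii m) * (1 / 2 : ℝ) ^ n *
          (fat (32 * 2 ^ ii m) (R m)).indicator 1 w)) := by
      intro m
      have e2 : ∀ j, (fat 1 (shT (R m) j)).indicator W w =
          W w * (fat 1 (shT (R m) j)).indicator (1 : ℝ × ℝ → ℝ) w := by
        intro j
        by_cases hw : w ∈ fat 1 (shT (R m) j)
        · rw [Set.indicator_of_mem hw, Set.indicator_of_mem hw, Pi.one_apply, mul_one]
        · rw [Set.indicator_of_notMem hw, Set.indicator_of_notMem hw, mul_zero]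
      have h2 := overlap (R m) (ii m) w
      have h3 : (1 : ℝ) ≤ 2 ^ (AA * ii m) := one_le_pow₀ (by norm_num)
      have h4 : 0 ≤ (fat (32 * 2 ^ ii m) (R m)).indicator (1 : ℝ × ℝ → ℝ) w :=
        Set.indicator_nonneg (fun _ _ => zero_le_one) _
      have h5 : (0 : ℝ) ≤ (2 : ℝ) ^ kk m * (1 / 2 : ℝ) ^ n := by positivity
      calc ∑ j ∈ jr (ii m), (a * ((2 : ℝ) ^ kk m * (1 / 2 : ℝ) ^ n)) *
            (fat 1 (shT (R m) j)).indicator W w
          = (a * ((2 : ℝ) ^ kk m * (1 / 2 : ℝ) ^ n) * W w) *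
            ∑ j ∈ jr (ii m), (fat 1 (shT (R m) j)).indicator (1 : ℝ × ℝ → ℝ) w := by
            rw [Finset.mul_sum]
            apply Finset.sum_congr rfl
            intro j _
            rw [e2 j]; ring
        _ ≤ (a * ((2 : ℝ) ^ kk m * (1 / 2 : ℝ) ^ n) * W w) *
            (3 * (fat (32 * 2 ^ ii m) (R m)).indicator 1 w) :=
            mul_le_mul_of_nonneg_left h2 (mul_nonneg (mul_nonneg ha h5) (hW0 w))
        _ = 3 * a * (W w * (((2 : ℝ) ^ kk m * (1 / 2 : ℝ) ^ n) * 1 *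
              (fat (32 * 2 ^ ii m) (R m)).indicator 1 w)) := by ring
        _ ≤ 3 * a * (W w * (((2 : ℝ) ^ kk m * (1 / 2 : ℝ) ^ n) * 2 ^ (AA * ii m) *
              (fat (32 * 2 ^ ii m) (R m)).indicator 1 w)) := by
            apply mul_le_mul_of_nonneg_left _ (by positivity)
            apply mul_le_mul_of_nonneg_left _ (hW0 w)
            apply mul_le_mul_of_nonneg_right _ h4
            exact mul_le_mul_of_nonneg_left h3 h5
        _ = _ := by ring
    calc ∑ m, ∑ j ∈ jr (ii m), (a * ((2 : ℝ) ^ kk m * (1 / 2 : ℝ) ^ n)) *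
          (fat 1 (shT (R m) j)).indicator W w
        ≤ ∑ m, 3 * a * (W w * ((2 : ℝ) ^ kk m * 2 ^ (AA * ii m) * (1 / 2 : ℝ) ^ n *
          (fat (32 * 2 ^ ii m) (R m)).indicator 1 w)) := Finset.sum_le_sum (fun m _ => h1 m)
      _ = 3 * a * (W w * Hf n R kk ii w) := by
          unfold Hf
          rw [Finset.mul_sum, Finset.mul_sum]

/-- weighted Cauchy-Schwarz -/
theorem int_mul_le {W H : ℝ × ℝ → ℝ} (hW : Integrable (fun w => (W w) ^ 2))
    (hH : Integrable (fun w => (H w) ^ 2)) {t : ℝ} (ht : 0 < t)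
    (hW0 : ∀ w, 0 ≤ W w) (hH0 : ∀ w, 0 ≤ H w) :
    ∫ w, W w * H w ≤ t / 2 * (∫ w, (W w) ^ 2) + 1 / (2 * t) * ∫ w, (H w) ^ 2 := by
  rw [← integral_const_mul, ← integral_const_mul, ← integral_add (hW.const_mul _) (hH.const_mul _)]
  apply integral_mono_of_nonneg
  · exact Filter.Eventually.of_forall (fun w => mul_nonneg (hW0 w) (hH0 w))
  · exact (hW.const_mul _).add (hH.const_mul _)
  · apply Filter.Eventually.of_forall
    intro w
    show W w * H w ≤ t / 2 * (W w) ^ 2 + 1 / (2 * t) * (H w) ^ 2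
    have h1 : 0 ≤ (t * W w - H w) ^ 2 / (2 * t) := by positivity
    have h2 : (t * W w - H w) ^ 2 / (2 * t) =
        t / 2 * (W w) ^ 2 + 1 / (2 * t) * (H w) ^ 2 - W w * H w := by
      field_simp
      ring
    linarith

theorem pow_balance (n : ℕ) :
    ((2 : ℝ) ^ ((17 / 32 : ℝ) * n)) * (1 / 2 : ℝ) ^ n ≤ (2 : ℝ) ^ (-(n : ℝ) / 4) ∧
    (1 / (2 : ℝ) ^ ((17 / 32 : ℝ) * n)) * (2 : ℝ) ^ ((n : ℝ) / 16) ≤ (2 : ℝ) ^ (-(n : ℝ) / 4) := by
  have hn : (0 : ℝ) ≤ n := Nat.cast_nonneg n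
  have e1 : (1 / 2 : ℝ) ^ n = (2 : ℝ) ^ (-(n : ℝ)) := by
    rw [Real.rpow_neg (by norm_num), Real.rpow_natCast, one_div, inv_pow]
  constructor
  · rw [e1, ← Real.rpow_add (by norm_num)]
    apply Real.rpow_le_rpow_of_exponent_le (by norm_num)
    linarith
  · rw [one_div, ← Real.rpow_neg (by norm_num), ← Real.rpow_add (by norm_num)]
    apply Real.rpow_le_rpow_of_exponent_le (by norm_num)
    linarith

/-- the weight function of one strip -/
def Fw (U h : ℝ × ℝ → ℝ) (lo hi : ℝ × ℝ → ℕ) (R : Tube) (q : ℕ) (z : ℝ × ℝ) : ℝ :=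
  {z : ℝ × ℝ | z.1 ∈ R.I ∧ lo z < hi z ∧ R.k < hi z}.indicator
    (fun z => |h z| / (1 + |U z - R.m| * (1 / 2 : ℝ) ^ (hi z - 1) + |z.2 - R.line z.1|) ^ q) z

theorem Fset_meas {lo hi : ℝ × ℝ → ℕ} (h1 : Measurable lo) (h2 : Measurable hi) (R : Tube) :
    MeasurableSet {z : ℝ × ℝ | z.1 ∈ R.I ∧ lo z < hi z ∧ R.k < hi z} :=
  (measurable_fst R.measurableSet_I).inter
    ((measurableSet_lt h1 h2).inter (measurableSet_lt measurable_const h2))

theorem Fw_nonneg (U h : ℝ × ℝ → ℝ) (lo hi : ℝ × ℝ → ℕ) (R : Tube) (q : ℕ) (z : ℝ × ℝ) :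
    0 ≤ Fw U h lo hi R q z := by
  unfold Fw
  apply Set.indicator_nonneg
  intro w _
  positivity

theorem Fw_int {U h : ℝ × ℝ → ℝ} {lo hi : ℝ × ℝ → ℕ} (hU : Measurable U) (hh : Nice h)
    (h1 : Measurable lo) (h2 : Measurable hi) (R : Tube) (q : ℕ) :
    Integrable (Fw U h lo hi R q) := by
  have hm := hh.1
  have hl := R.measurable_line
  have hp : Measurable (fun z : ℝ × ℝ => (1 / 2 : ℝ) ^ (hi z - 1)) :=
    (Measurable.of_discrete (f := fun k : ℕ => (1 / 2 : ℝ) ^ (k - 1))).comp h2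
  have hmeas : Measurable (Fw U h lo hi R q) := by
    apply Measurable.indicator _ (Fset_meas h1 h2 R)
    fun_prop
  apply Integrable.mono' (nice_int hh).abs hmeas.aestronglyMeasurable
  apply Filter.Eventually.of_forall
  intro z
  rw [Real.norm_eq_abs, abs_of_nonneg (Fw_nonneg U h lo hi R q z)]
  unfold Fw
  by_cases hz : z ∈ {z : ℝ × ℝ | z.1 ∈ R.I ∧ lo z < hi z ∧ R.k < hi z}
  · rw [Set.indicator_of_mem hz]
    apply div_le_self (abs_nonneg _)
    apply one_le_pow₀
    have h3 : 0 ≤ |U z - R.m| * (1 / 2 : ℝ) ^ (hi z - 1) := by positivity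
    have h4 := abs_nonneg (z.2 - R.line z.1)
    linarith
  · rw [Set.indicator_of_notMem hz]
    exact abs_nonneg _

/-- **`LOWN`** -/
theorem lown {ζ : ℝ → ℝ} (hζ : ZetC ζ) (sq : SQ ζ) (tl : TREELOW ζ qq) (m3 : MASS3) (om : OMEGA)
    (hn : HNORM) (rs : REMSUM) : LOWN ζ := by
  obtain ⟨Ct, hCt, tl⟩ := tl
  obtain ⟨Co, hCo, om⟩ := om
  obtain ⟨c, hc, Ch, hCh, hn⟩ := hn
  refine ⟨c, hc, 24 * Ct * (Co + Ch) + 416 * Ct, by positivity, ?_⟩
  intro ω hω U h n S lo hi Λ hU hh hC hup hΛ N R kk ii E B HT hsl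
  have hUm : Measurable U := hU.1
  obtain ⟨W, hW⟩ := hU.2.1
  have hlom : Measurable lo := hC.1
  have hhim : Measurable hi := hC.2.1
  have hiS : ∀ z, hi z ≤ S := hC.2.2
  have hA : 2 ≤ AA := by unfold AA; norm_num
  have P : PZ (ph ω) ζ := pz_ph hω hζ
  have htop : ∀ m, ∀ z ∈ B m, lo z < hi z → z.1 ∈ (R m).I ∧ (R m).k ≤ lo z := fun m z hz hlt =>
    ⟨(HT.top m z hz hlt).1, (HT.top m z hz hlt).2.1⟩
  set Q : ℝ := ∫ z, (h z) ^ 2 with hQ
  have hQ0 : 0 ≤ Q := integral_nonneg (fun z => sq_nonneg _)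
  have hD0 : (0 : ℝ) < 4 * (1 / 2 : ℝ) ^ n := by positivity
  -- the trees
  have hG : ∀ m z, |(B m).indicator h z| ≤ (2 : ℝ) ^ (kk m + 1) := by
    intro m z
    by_cases hz : z ∈ B m
    · rw [Set.indicator_of_mem hz]; exact (HT.subB m hz).2.le
    · rw [Set.indicator_of_notMem hz, abs_zero]; positivity
  have htree := fun m j => tl ω hω U ((B m).indicator h) S lo hi (strp (B m) (R m) j)
    (shT (R m) j) ((2 : ℝ) ^ (kk m + 1)) (4 * (1 / 2 : ℝ) ^ n) Λ hUm (hh.1.indicator (HT.mB m)) hC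
    (measurableSet_strp (HT.mB m) (R m) j)
    (volume_col_ne_top hh ((strp_sub _ _ _).trans (HT.subB m))) (hG m) hD0 hΛ
    (strp_tree (htop m) (hsl m) j)
    (strp_mass m3 hA hUm hh hC hup (HT.intT m) (HT.mB m) (HT.subB m) (htop m) (hsl m) j)
  choose st hst1 hst2 hst3 hst4 using htree
  set hi' : ℝ × ℝ → ℕ := cutf B R ii hi st with hhi'
  have hm' : Measurable hi' := cutf_meas HT.mB hhim hst1
  have hle' : ∀ z, hi' z ≤ hi z := cutf_le
  have hC' : Chain S lo hi' := ⟨hlom, hm', fun z => (hle' z).trans (hiS z)⟩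
  have hup' : UppAt U h AA n lo hi' := upp_sub hup hle'
  have HT' : IsTops U h AA n lo hi' N R kk ii E B :=
    HT.sub (fun z hz => ⟨le_rfl, lt_of_lt_of_le hz (hle' z)⟩)
  obtain ⟨Wf, hWm, hW0, hW2, hWn, hWR⟩ := om n U h S lo hi' hUm hh hC' hup' N R kk ii E B HT'
  refine ⟨hi', hm', hle', ?_, ?_⟩
  · -- kept part
    have hkey : ∫ z', h z' * Pair (ph ω) ζ U Set.univ lo hi' h (lo z') (hi' z') z' ≤
        ∑ m, ∑ j ∈ jr (ii m), (8 * Ct * Λ * ((2 : ℝ) ^ kk m * (1 / 2 : ℝ) ^ n)) *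
          ∫ w in fat 1 (shT (R m) j), Wf w := by
      have hFi : ∀ m j, Integrable (fun z => (8 * Ct * Λ * ((2 : ℝ) ^ kk m * (1 / 2 : ℝ) ^ n)) *
          Fw U h lo hi' (shT (R m) j) qq z) := fun m j =>
        (Fw_int hUm hh hlom hm' (shT (R m) j) qq).const_mul _
      have hpt : ∀ z', ‖h z' * Pair (ph ω) ζ U Set.univ lo hi' h (lo z') (hi' z') z'‖ ≤
          ∑ m, ∑ j ∈ jr (ii m), (8 * Ct * Λ * ((2 : ℝ) ^ kk m * (1 / 2 : ℝ) ^ n)) *
            Fw U h lo hi' (shT (R m) j) qq z' := by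
        intro z'
        have hnn : 0 ≤ ∑ m, ∑ j ∈ jr (ii m), (8 * Ct * Λ * ((2 : ℝ) ^ kk m * (1 / 2 : ℝ) ^ n)) *
            Fw U h lo hi' (shT (R m) j) qq z' := by
          apply Finset.sum_nonneg
          intro m _
          apply Finset.sum_nonneg
          intro j _
          exact mul_nonneg (by positivity) (Fw_nonneg _ _ _ _ _ _ _)
        rw [Real.norm_eq_abs, abs_mul]
        by_cases hlt : lo z' < hi' z'
        · rw [hhi', pair_sum P hUm hW hh hC HT.mB HT.disB hst1 HT.unB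
            (fun m z hz hl => (HT.top m z hz hl).2.2.1) (lo z') (cutf B R ii hi st z') z', ← hhi']
          refine (mul_le_mul_of_nonneg_left (Finset.abs_sum_le_sum_abs _ _) (abs_nonneg _)).trans ?_
          rw [Finset.mul_sum]
          apply Finset.sum_le_sum
          intro m _
          refine (mul_le_mul_of_nonneg_left (Finset.abs_sum_le_sum_abs _ _) (abs_nonneg _)).trans ?_
          rw [Finset.mul_sum]
          apply Finset.sum_le_sum
          intro j _
          by_cases hmem : z'.1 ∈ (shT (R m) j).I ∧ lo z' < hi' z' ∧ (shT (R m) j).k < hi' z'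
          · have h4 := hst4 m j z' (lo z') (hi' z') hmem.1 hlt ((hle' z').trans (hiS z'))
            unfold Fw
            rw [Set.indicator_of_mem (show z' ∈ {z : ℝ × ℝ | z.1 ∈ (shT (R m) j).I ∧
              lo z < hi' z ∧ (shT (R m) j).k < hi' z} from hmem)]
            have h5 := mul_le_mul_of_nonneg_left h4 (abs_nonneg (h z'))
            refine h5.trans (le_of_eq ?_)
            rw [zpow_add_one₀ (by norm_num : (2 : ℝ) ≠ 0)]
            ring
          · have h6 : z'.1 ∉ (R m).I ∨ hi' z' ≤ (R m).k := by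
              by_contra hcon
              push Not at hcon
              exact hmem ⟨hcon.1, hlt, hcon.2⟩
            have h7 : Pair (ph ω) ζ U (strp (B m) (R m) j) lo
                (fun z => min (hi z) (st m j z.1)) ((B m).indicator h) (lo z') (hi' z') z' = 0 :=
              pair_zero P (hi := hi) (fun z => min_le_left _ _)
                (fun z hz hl => htop m z hz.1 hl) h6
            rw [h7, abs_zero, mul_zero]
            exact mul_nonneg (by positivity) (Fw_nonneg _ _ _ _ _ _ _)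
        · have h0 : Pair (ph ω) ζ U Set.univ lo hi' h (lo z') (hi' z') z' = 0 := by
            unfold Pair
            rw [Finset.Ico_eq_empty (fun hx => hlt hx), Finset.sum_empty]
          rw [h0, abs_zero, mul_zero]
          exact hnn
      have hI := norm_integral_le_of_norm_le
        (integrable_finsetSum _ (fun m _ => integrable_finsetSum _ (fun j _ => hFi m j)))
        (Filter.Eventually.of_forall hpt)
      refine ((Real.norm_eq_abs _ ▸ le_abs_self _).trans hI).trans ?_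
      rw [integral_finsetSum _ (fun m _ => integrable_finsetSum _ (fun j _ => hFi m j))]
      apply Finset.sum_le_sum
      intro m _
      rw [integral_finsetSum _ (fun j _ => hFi m j)]
      apply Finset.sum_le_sum
      intro j _
      rw [integral_const_mul]
      apply mul_le_mul_of_nonneg_left _ (by positivity)
      unfold Fw
      rw [integral_indicator (Fset_meas hlom hm' _)]
      exact (hWR (shT (R m) j) (shT_int (HT.intT m) j)).2
    have h1 := sq (ph ω) P.cφ P.sφ U h S lo hi' hUm ⟨W, hW⟩ hh hC'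
    have h2 := strip_sum n R kk ii hWm hW0 hW2
      (fun m j _ => (hWR (shT (R m) j) (shT_int (HT.intT m) j)).1)
      (show (0 : ℝ) ≤ 8 * Ct * Λ by positivity)
    set t : ℝ := (2 : ℝ) ^ ((17 / 32 : ℝ) * n) with ht
    have ht0 : 0 < t := Real.rpow_pos_of_pos (by norm_num) _
    have h3 := int_mul_le hW2 (Hf_sq n R kk ii) ht0 hW0 (Hf_nonneg n R kk ii)
    have h4 : ∫ w, (Hf n R kk ii w) ^ 2 ≤ Ch * (2 : ℝ) ^ ((n : ℝ) / 16) * Q :=
      hn n U h lo hi hU hh N R kk ii E B HT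
    obtain ⟨hb1, hb2⟩ := pow_balance n
    rw [← ht] at hb1 hb2
    set X : ℝ := (2 : ℝ) ^ (-(n : ℝ) / 4) with hX
    have hX0 : 0 < X := Real.rpow_pos_of_pos (by norm_num) _
    have h5 : ∫ w, Wf w * Hf n R kk ii w ≤ (Co + Ch) / 2 * X * Q := by
      have h6 : t / 2 * (∫ w, (Wf w) ^ 2) ≤ Co / 2 * X * Q := by
        calc t / 2 * (∫ w, (Wf w) ^ 2) ≤ t / 2 * (Co * (1 / 2 : ℝ) ^ n * Q) :=
              mul_le_mul_of_nonneg_left hWn (by positivity)
          _ = Co / 2 * (t * (1 / 2 : ℝ) ^ n) * Q := by ring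
          _ ≤ Co / 2 * X * Q := by
              apply mul_le_mul_of_nonneg_right _ hQ0
              exact mul_le_mul_of_nonneg_left hb1 (by positivity)
      have h7 : 1 / (2 * t) * (∫ w, (Hf n R kk ii w) ^ 2) ≤ Ch / 2 * X * Q := by
        calc 1 / (2 * t) * (∫ w, (Hf n R kk ii w) ^ 2)
            ≤ 1 / (2 * t) * (Ch * (2 : ℝ) ^ ((n : ℝ) / 16) * Q) :=
              mul_le_mul_of_nonneg_left h4 (by positivity)
          _ = Ch / 2 * (1 / t * (2 : ℝ) ^ ((n : ℝ) / 16)) * Q := by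
              field_simp
          _ ≤ Ch / 2 * X * Q := by
              apply mul_le_mul_of_nonneg_right _ hQ0
              exact mul_le_mul_of_nonneg_left hb2 (by positivity)
      calc ∫ w, Wf w * Hf n R kk ii w
          ≤ t / 2 * (∫ w, (Wf w) ^ 2) + 1 / (2 * t) * ∫ w, (Hf n R kk ii w) ^ 2 := h3
        _ ≤ Co / 2 * X * Q + Ch / 2 * X * Q := add_le_add h6 h7
        _ = _ := by ring
    calc ∫ w, (Tc (ph ω) ζ U lo hi' h w) ^ 2
        ≤ 2 * ∫ z', h z' * Pair (ph ω) ζ U Set.univ lo hi' h (lo z') (hi' z') z' := h1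
      _ ≤ 2 * (3 * (8 * Ct * Λ) * ((Co + Ch) / 2 * X * Q)) := by
          apply mul_le_mul_of_nonneg_left _ (by norm_num)
          refine (hkey.trans h2).trans ?_
          exact mul_le_mul_of_nonneg_left h5 (by positivity)
      _ = (24 * Ct * (Co + Ch)) * Λ * X * Q := by ring
      _ ≤ (24 * Ct * (Co + Ch) + 416 * Ct) * Λ * X * Q := by
          have : 0 ≤ 416 * Ct * Λ * X * Q := by positivity
          nlinarith
  · -- removed part
    have hrm : ∀ m j, MeasurableSet {z : ℝ × ℝ | z ∈ strp (B m) (R m) j ∧ lo z < hi z ∧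
        st m j z.1 < hi z} := fun m j =>
      (measurableSet_strp (HT.mB m) (R m) j).inter
        ((measurableSet_lt hlom hhim).inter
          (measurableSet_lt ((hst1 m j).comp measurable_fst) hhim))
    have hh2 : Integrable (fun z => (h z) ^ 2) := nice_int (Crest.Agent.R087.Sqx282.nice_sq hh)
    have hrmI : ∀ m j, Integrable ({z : ℝ × ℝ | z ∈ strp (B m) (R m) j ∧ lo z < hi z ∧
        st m j z.1 < hi z}.indicator (fun z => (h z) ^ 2)) := fun m j => hh2.indicator (hrm m j)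
    have hset : MeasurableSet {z | lo z < hi z ∧ hi' z < hi z} :=
      (measurableSet_lt hlom hhim).inter (measurableSet_lt hm' hhim)
    rw [← integral_indicator hset]
    have hb : ∫ z, {z | lo z < hi z ∧ hi' z < hi z}.indicator (fun z => (h z) ^ 2) z ≤
        ∫ z, ∑ m, ∑ j ∈ jr (ii m), {z : ℝ × ℝ | z ∈ strp (B m) (R m) j ∧ lo z < hi z ∧
          st m j z.1 < hi z}.indicator (fun z => (h z) ^ 2) z := by
      apply integral_mono (hh2.indicator hset)
        (integrable_finsetSum _ (fun m _ => integrable_finsetSum _ (fun j _ => hrmI m j)))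
      intro z
      have hnn : ∀ m j, 0 ≤ {z : ℝ × ℝ | z ∈ strp (B m) (R m) j ∧ lo z < hi z ∧
          st m j z.1 < hi z}.indicator (fun z => (h z) ^ 2) z := fun m j =>
        Set.indicator_nonneg (fun _ _ => sq_nonneg _) _
      by_cases hz : lo z < hi z ∧ hi' z < hi z
      · obtain ⟨m, j, hj, hmem, hl, hs⟩ := cutf_rem HT.disB hz.1 hz.2
        show {z | lo z < hi z ∧ hi' z < hi z}.indicator (fun z => (h z) ^ 2) z ≤ _
        rw [Set.indicator_of_mem (show z ∈ {z | lo z < hi z ∧ hi' z < hi z} from hz)]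
        calc (h z) ^ 2 = {z : ℝ × ℝ | z ∈ strp (B m) (R m) j ∧ lo z < hi z ∧
              st m j z.1 < hi z}.indicator (fun z => (h z) ^ 2) z := by
              rw [Set.indicator_of_mem]
              exact ⟨hmem, hl, hs⟩
          _ ≤ ∑ j ∈ jr (ii m), {z : ℝ × ℝ | z ∈ strp (B m) (R m) j ∧ lo z < hi z ∧
              st m j z.1 < hi z}.indicator (fun z => (h z) ^ 2) z :=
              Finset.single_le_sum (f := fun j => {z : ℝ × ℝ | z ∈ strp (B m) (R m) j ∧
                lo z < hi z ∧ st m j z.1 < hi z}.indicator (fun z => (h z) ^ 2) z)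
                (fun j _ => hnn m j) hj
          _ ≤ _ :=
              Finset.single_le_sum (f := fun m => ∑ j ∈ jr (ii m), {z : ℝ × ℝ |
                z ∈ strp (B m) (R m) j ∧ lo z < hi z ∧ st m j z.1 < hi z}.indicator
                (fun z => (h z) ^ 2) z)
                (fun m _ => Finset.sum_nonneg (fun j _ => hnn m j)) (Finset.mem_univ m)
      · show {z | lo z < hi z ∧ hi' z < hi z}.indicator (fun z => (h z) ^ 2) z ≤ _
        rw [Set.indicator_of_notMem (show z ∉ {z | lo z < hi z ∧ hi' z < hi z} from hz)]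
        exact Finset.sum_nonneg (fun m _ => Finset.sum_nonneg (fun j _ => hnn m j))
    refine hb.trans ?_
    rw [integral_finsetSum _ (fun m _ => integrable_finsetSum _ (fun j _ => hrmI m j))]
    -- one strip
    have hone : ∀ m j, ∫ z, {z : ℝ × ℝ | z ∈ strp (B m) (R m) j ∧ lo z < hi z ∧
        st m j z.1 < hi z}.indicator (fun z => (h z) ^ 2) z ≤
        16 * Ct * (1 / Λ) ^ 2 * ((4 : ℝ) ^ kk m * (1 / 2 : ℝ) ^ n * (R m).len) := by
      intro m j
      set A : Set (ℝ × ℝ) := {z : ℝ × ℝ | z ∈ strp (B m) (R m) j ∧ lo z < hi z ∧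
        st m j z.1 < hi z} with hA'
      have hAf : volume A ≠ ⊤ :=
        volume_col_ne_top hh (fun z hz => HT.subB m hz.1.1)
      have h4k : ((2 : ℝ) ^ (kk m + 1)) ^ 2 = 4 * 4 ^ kk m := by
        rw [zpow_add_one₀ (by norm_num), mul_pow]
        have : ((2 : ℝ) ^ kk m) ^ 2 = 4 ^ kk m := by
          rw [← zpow_natCast, ← zpow_mul, mul_comm (kk m), zpow_mul]; norm_num
        rw [this]; ring
      calc ∫ z, A.indicator (fun z => (h z) ^ 2) z
          ≤ ∫ z, A.indicator (fun _ => 4 * (4 : ℝ) ^ kk m) z := by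
            apply integral_mono (hrmI m j)
              ((integrable_indicator_iff (hrm m j)).2 (integrableOn_const hAf enorm_ne_top))
            intro z
            by_cases hz : z ∈ A
            · rw [Set.indicator_of_mem hz, Set.indicator_of_mem hz, ← h4k, ← sq_abs (h z)]
              exact pow_le_pow_left₀ (abs_nonneg _) (HT.subB m hz.1.1).2.le 2
            · rw [Set.indicator_of_notMem hz, Set.indicator_of_notMem hz]
        _ = (volume A).toReal * (4 * (4 : ℝ) ^ kk m) := by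
            rw [integral_indicator (hrm m j), setIntegral_const, smul_eq_mul]
            rfl
        _ ≤ (Ct * (1 / Λ) ^ 2 * (4 * (1 / 2 : ℝ) ^ n) * (R m).len) * (4 * (4 : ℝ) ^ kk m) :=
            mul_le_mul_of_nonneg_right (hst3 m j) (by positivity)
        _ = _ := by ring
    obtain ⟨-, hrs⟩ := rs n U h lo hi hUm hh N R kk ii E B HT
    calc ∑ m, ∫ z, ∑ j ∈ jr (ii m), {z : ℝ × ℝ | z ∈ strp (B m) (R m) j ∧ lo z < hi z ∧
          st m j z.1 < hi z}.indicator (fun z => (h z) ^ 2) z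
        ≤ ∑ m, (208 * Ct * (1 / Λ) ^ 2) *
            ((4 : ℝ) ^ kk m * 2 ^ (AA * ii m) * (1 / 2 : ℝ) ^ n * (R m).len) := by
          apply Finset.sum_le_sum
          intro m _
          rw [integral_finsetSum _ (fun j _ => hrmI m j)]
          have hl := (R m).len_pos
          have h2 : (2 : ℝ) ^ ii m ≤ 2 ^ (AA * ii m) := by
            apply pow_le_pow_right₀ (by norm_num)
            have : 1 ≤ AA := by omega
            nlinarith [Nat.zero_le (ii m)]
          calc ∑ j ∈ jr (ii m), ∫ z, {z : ℝ × ℝ | z ∈ strp (B m) (R m) j ∧ lo z < hi z ∧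
                st m j z.1 < hi z}.indicator (fun z => (h z) ^ 2) z
              ≤ ∑ j ∈ jr (ii m), 16 * Ct * (1 / Λ) ^ 2 *
                ((4 : ℝ) ^ kk m * (1 / 2 : ℝ) ^ n * (R m).len) :=
                Finset.sum_le_sum (fun j _ => hone m j)
            _ = ((jr (ii m)).card : ℝ) * (16 * Ct * (1 / Λ) ^ 2 *
                ((4 : ℝ) ^ kk m * (1 / 2 : ℝ) ^ n * (R m).len)) := by
                rw [Finset.sum_const, nsmul_eq_mul]
            _ ≤ (13 * 2 ^ (AA * ii m)) * (16 * Ct * (1 / Λ) ^ 2 *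
                ((4 : ℝ) ^ kk m * (1 / 2 : ℝ) ^ n * (R m).len)) := by
                apply mul_le_mul_of_nonneg_right _ (by positivity)
                have := card_jr (ii m)
                linarith
            _ = _ := by ring
      _ = (208 * Ct * (1 / Λ) ^ 2) *
            ∑ m, (4 : ℝ) ^ kk m * 2 ^ (AA * ii m) * (1 / 2 : ℝ) ^ n * (R m).len := by
          rw [Finset.mul_sum]
      _ ≤ (208 * Ct * (1 / Λ) ^ 2) * ((n + 2) * Q) :=
          mul_le_mul_of_nonneg_left hrs (by positivity)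
      _ ≤ (24 * Ct * (Co + Ch) + 416 * Ct) * (n + 1) * (1 / Λ) ^ 2 * Q := by
          have hn0 : (0 : ℝ) ≤ n := Nat.cast_nonneg n
          have h1 : (208 * Ct * (1 / Λ) ^ 2) * ((n + 2) * Q) ≤
              416 * Ct * (n + 1) * (1 / Λ) ^ 2 * Q := by
            have h2 : (n : ℝ) + 2 ≤ 2 * (n + 1) := by linarith
            calc (208 * Ct * (1 / Λ) ^ 2) * ((n + 2) * Q)
                ≤ (208 * Ct * (1 / Λ) ^ 2) * ((2 * (n + 1)) * Q) := by
                  apply mul_le_mul_of_nonneg_left _ (by positivity)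
                  exact mul_le_mul_of_nonneg_right h2 hQ0
              _ = _ := by ring
          have h3 : 0 ≤ 24 * Ct * (Co + Ch) * (n + 1) * (1 / Λ) ^ 2 * Q := by positivity
          nlinarith

/-- the literal leaf -/
theorem l_lown : L_LOWN := fun _ hζ sq tl m3 om hn rs => lown hζ sq tl m3 om hn rs

end Crest.Agent.R087.LowNx232
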