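import Crest.Agent.R087.LowTree_232
import Crest.Agent.R087.RemSum_435

/-!
Row 87 (S0115), operator part, leaf LOWN, part (R) (helper90): the removed mass.
-/

set_option autoImplicit false

noncomputable section

open MeasureTheory

namespace Crest.Agent.R087.LowRemx90

open Crest.Agent.R087.Sh0x283 Crest.Agent.R087.E2x542 Crest.Agent.R087.E2Kx752
  Crest.Agent.R087.GateDefx273 Crest.Agent.R087.OP0x270 Crest.Agent.R087.LowTreex232

/-- removed points of the strip `j` of a top -/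
def RmS (B : Set (ℝ × ℝ)) (R : Tube) (lo hi : ℝ × ℝ → ℕ) (st : ℝ → ℕ) (j : ℤ) : Set (ℝ × ℝ) :=
  {z | z ∈ strp B R j ∧ lo z < hi z ∧ st z.1 < hi z}

theorem measurableSet_RmS {B : Set (ℝ × ℝ)} (hB : MeasurableSet B) (R : Tube)
    {lo hi : ℝ × ℝ → ℕ} (hlo : Measurable lo) (hhi : Measurable hi) {st : ℝ → ℕ}
    (hst : Measurable st) (j : ℤ) : MeasurableSet (RmS B R lo hi st j) :=
  (measurableSet_strp hB R j).inter ((measurableSet_lt hlo hhi).inter
    (measurableSet_lt (hst.comp measurable_fst) hhi))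

/-- `∫_{⋃ A i} f ≤ ∑ ∫_{A i} f` for nonnegative integrable `f`. -/
theorem setIntegral_biUnion_le {ι α : Type*} [MeasurableSpace α] (μ : Measure α) (s : Finset ι)
    {f : α → ℝ} (hf : Integrable f μ) (h0 : ∀ z, 0 ≤ f z) (A : ι → Set α)
    (hA : ∀ i ∈ s, MeasurableSet (A i)) :
    ∫ z in ⋃ i ∈ s, A i, f z ∂μ ≤ ∑ i ∈ s, ∫ z in A i, f z ∂μ := by
  classical
  induction s using Finset.induction_on with
  | empty => simp
  | insert a t ha ih =>
    rw [Finset.set_biUnion_insert, Finset.sum_insert ha]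
    have hm1 : MeasurableSet (A a) := hA a (Finset.mem_insert_self _ _)
    have hm2 : MeasurableSet (⋃ i ∈ t, A i) :=
      Finset.measurableSet_biUnion _ (fun i hi => hA i (Finset.mem_insert_of_mem hi))
    have e2 : A a ∪ (⋃ i ∈ t, A i) = A a ∪ ((⋃ i ∈ t, A i) \ A a) := by
      rw [Set.union_sdiff_self]
    rw [e2, setIntegral_union Set.disjoint_sdiff_right (hm2.diff hm1) hf.integrableOn
      hf.integrableOn]
    have h1 : ∫ z in (⋃ i ∈ t, A i) \ A a, f z ∂μ ≤ ∫ z in ⋃ i ∈ t, A i, f z ∂μ :=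
      setIntegral_mono_set hf.integrableOn (ae_of_all _ h0) Set.sdiff_subset.eventuallyLE
    have h2 := ih fun i hi => hA i (Finset.mem_insert_of_mem hi)
    linarith

/-- removed mass of all strips of all tops -/
theorem low_rem {U h : ℝ × ℝ → ℝ} {n : ℕ} {lo hi : ℝ × ℝ → ℕ} {N : ℕ} {R : Fin N → Tube}
    {kk : Fin N → ℤ} {ii : Fin N → ℕ} {E B : Fin N → Set (ℝ × ℝ)} (hU : Measurable U)
    (hh : Nice h) (hlo : Measurable lo) (hhi : Measurable hi)
    (T : IsTops U h AA n lo hi N R kk ii E B) (rs : REMSUM) {C Λ : ℝ} (hC : 0 ≤ C)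
    (st : Fin N → ℤ → ℝ → ℕ) (hst : ∀ m j, Measurable (st m j))
    (hvol : ∀ m, ∀ j ∈ jr (ii m), (volume (RmS (B m) (R m) lo hi (st m j) j)).toReal ≤
      C * (1 / Λ) ^ 2 * (4 * (1 / 2 : ℝ) ^ n) * (R m).len) :
    ∫ z in ⋃ m, ⋃ j ∈ jr (ii m), RmS (B m) (R m) lo hi (st m j) j, (h z) ^ 2 ≤
      2000 * C * (n + 1) * (1 / Λ) ^ 2 * ∫ z, (h z) ^ 2 := by
  classical
  have hI : Integrable (fun z => (h z) ^ 2) := RemSumx435.nice_sq hh
  have h0 : ∀ z, 0 ≤ (h z) ^ 2 := fun z => sq_nonneg _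
  have hm : ∀ m j, MeasurableSet (RmS (B m) (R m) lo hi (st m j) j) := fun m j =>
    measurableSet_RmS (T.mB m) (R m) hlo hhi (hst m j) j
  -- one strip
  have one : ∀ m, ∀ j ∈ jr (ii m), ∫ z in RmS (B m) (R m) lo hi (st m j) j, (h z) ^ 2 ≤
      16 * ((4 : ℝ) ^ kk m * (1 / 2 : ℝ) ^ n * (R m).len) * (C * (1 / Λ) ^ 2) := by
    intro m j hj
    have hsub : RmS (B m) (R m) lo hi (st m j) j ⊆ col h (kk m) := fun z hz => T.subB m hz.1.1
    have hfin : volume (RmS (B m) (R m) lo hi (st m j) j) ≠ ⊤ := volume_col_ne_top hh hsub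
    have hpos : (0 : ℝ) < (2 : ℝ) ^ (kk m) := zpow_pos (by norm_num) _
    have e4 : ((2 : ℝ) ^ (kk m + 1)) ^ 2 = 4 * (4 : ℝ) ^ kk m := by
      rw [zpow_add₀ (by norm_num), mul_pow, zpow_one]
      have : ((2 : ℝ) ^ kk m) ^ 2 = (4 : ℝ) ^ kk m := by
        rw [← zpow_natCast, ← zpow_mul, mul_comm, zpow_mul]; norm_num
      rw [this]; ring
    have b1 : ∫ z in RmS (B m) (R m) lo hi (st m j) j, (h z) ^ 2 ≤
        ∫ z in RmS (B m) (R m) lo hi (st m j) j, ((2 : ℝ) ^ (kk m + 1)) ^ 2 := by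
      refine setIntegral_mono_on hI.integrableOn (integrableOn_const hfin) (hm m j) ?_
      intro z hz
      rw [← sq_abs]
      exact pow_le_pow_left₀ (abs_nonneg _) (hsub hz).2.le 2
    rw [setIntegral_const, smul_eq_mul, e4] at b1
    have h4 : (0 : ℝ) < (4 : ℝ) ^ kk m := zpow_pos (by norm_num) _
    refine b1.trans ?_
    have hv := hvol m j hj
    calc volume.real (RmS (B m) (R m) lo hi (st m j) j) * (4 * (4 : ℝ) ^ kk m) ≤
        (C * (1 / Λ) ^ 2 * (4 * (1 / 2 : ℝ) ^ n) * (R m).len) * (4 * (4 : ℝ) ^ kk m) := by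
          gcongr; exact hv
      _ = 16 * ((4 : ℝ) ^ kk m * (1 / 2 : ℝ) ^ n * (R m).len) * (C * (1 / Λ) ^ 2) := by ring
  -- all strips of one top
  have two : ∀ m, ∫ z in ⋃ j ∈ jr (ii m), RmS (B m) (R m) lo hi (st m j) j, (h z) ^ 2 ≤
      208 * ((4 : ℝ) ^ kk m * 2 ^ (AA * ii m) * (1 / 2 : ℝ) ^ n * (R m).len) *
        (C * (1 / Λ) ^ 2) := by
    intro m
    have h4 : (0 : ℝ) < (4 : ℝ) ^ kk m := zpow_pos (by norm_num) _
    have hlen := (R m).len_pos
    have hpow : (2 : ℝ) ^ ii m ≤ 2 ^ (AA * ii m) := by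
      refine pow_le_pow_right₀ (by norm_num) ?_
      have : 1 * ii m ≤ AA * ii m := Nat.mul_le_mul_right _ (by unfold AA; norm_num)
      omega
    refine (setIntegral_biUnion_le volume (jr (ii m)) hI h0 _ fun j _ => hm m j).trans ?_
    refine (Finset.sum_le_sum fun j hj => one m j hj).trans ?_
    rw [Finset.sum_const, nsmul_eq_mul]
    have hX : 0 ≤ (4 : ℝ) ^ kk m * (1 / 2 : ℝ) ^ n * (R m).len * (C * (1 / Λ) ^ 2) := by positivity
    calc ((jr (ii m)).card : ℝ) * (16 * ((4 : ℝ) ^ kk m * (1 / 2 : ℝ) ^ n * (R m).len) *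
          (C * (1 / Λ) ^ 2)) =
        16 * ((jr (ii m)).card : ℝ) *
          ((4 : ℝ) ^ kk m * (1 / 2 : ℝ) ^ n * (R m).len * (C * (1 / Λ) ^ 2)) := by ring
      _ ≤ 16 * (13 * 2 ^ (AA * ii m)) *
          ((4 : ℝ) ^ kk m * (1 / 2 : ℝ) ^ n * (R m).len * (C * (1 / Λ) ^ 2)) := by
          gcongr
          exact (card_jr (ii m)).trans (by gcongr)
      _ = _ := by ring
  have hU' : (⋃ m, ⋃ j ∈ jr (ii m), RmS (B m) (R m) lo hi (st m j) j) =
      ⋃ m ∈ (Finset.univ : Finset (Fin N)), ⋃ j ∈ jr (ii m), RmS (B m) (R m) lo hi (st m j) j := by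
    simp
  rw [hU']
  refine (setIntegral_biUnion_le volume Finset.univ hI h0 _ fun m _ =>
    Finset.measurableSet_biUnion _ fun j _ => hm m j).trans ?_
  refine (Finset.sum_le_sum fun m _ => two m).trans ?_
  rw [← Finset.sum_mul, ← Finset.mul_sum]
  have hrs := (rs n U h lo hi hU hh N R kk ii E B T).2
  have hX : 0 ≤ C * (1 / Λ) ^ 2 := by positivity
  have hJ : 0 ≤ ∫ z, (h z) ^ 2 := integral_nonneg h0
  have hn : (0 : ℝ) ≤ n := Nat.cast_nonneg n
  calc 208 * (∑ m, (4 : ℝ) ^ kk m * 2 ^ (AA * ii m) * (1 / 2 : ℝ) ^ n * (R m).len) *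
        (C * (1 / Λ) ^ 2) ≤ 208 * ((n + 2) * ∫ z, (h z) ^ 2) * (C * (1 / Λ) ^ 2) := by gcongr
    _ = 208 * (n + 2) * ((∫ z, (h z) ^ 2) * (C * (1 / Λ) ^ 2)) := by ring
    _ ≤ (2000 * (n + 1)) * ((∫ z, (h z) ^ 2) * (C * (1 / Λ) ^ 2)) :=
        mul_le_mul_of_nonneg_right (by linarith) (mul_nonneg hJ hX)
    _ = _ := by ring

/-- the removed part of `SubC` -/
theorem low_removed {U h : ℝ × ℝ → ℝ} {n : ℕ} {lo hi hi' : ℝ × ℝ → ℕ} {N : ℕ} {R : Fin N → Tube}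
    {kk : Fin N → ℤ} {ii : Fin N → ℕ} {E B : Fin N → Set (ℝ × ℝ)} (hU : Measurable U)
    (hh : Nice h) (hlo : Measurable lo) (hhi : Measurable hi) (hhi' : Measurable hi')
    (T : IsTops U h AA n lo hi N R kk ii E B) (rs : REMSUM) {C Λ : ℝ} (hC : 0 ≤ C)
    (st : Fin N → ℤ → ℝ → ℕ) (hst : ∀ m j, Measurable (st m j))
    (hvol : ∀ m, ∀ j ∈ jr (ii m), (volume (RmS (B m) (R m) lo hi (st m j) j)).toReal ≤
      C * (1 / Λ) ^ 2 * (4 * (1 / 2 : ℝ) ^ n) * (R m).len)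
    (hcut : ∀ m, ∀ z ∈ B m, h z ≠ 0 → lo z < hi z → hi' z < hi z →
      st m (sj (R m) z) z.1 < hi z) :
    ∫ z in {z | lo z < hi z ∧ hi' z < hi z}, (h z) ^ 2 ≤
      2000 * C * (n + 1) * (1 / Λ) ^ 2 * ∫ z, (h z) ^ 2 := by
  classical
  refine le_trans ?_ (low_rem hU hh hlo hhi T rs hC st hst hvol)
  have hI : Integrable (fun z => (h z) ^ 2) := RemSumx435.nice_sq hh
  have hm : ∀ m j, MeasurableSet (RmS (B m) (R m) lo hi (st m j) j) := fun m j =>
    measurableSet_RmS (T.mB m) (R m) hlo hhi (hst m j) j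
  have hmU : MeasurableSet (⋃ m, ⋃ j ∈ jr (ii m), RmS (B m) (R m) lo hi (st m j) j) :=
    MeasurableSet.iUnion fun m => Finset.measurableSet_biUnion _ fun j _ => hm m j
  have hmA : MeasurableSet {z | lo z < hi z ∧ hi' z < hi z} :=
    (measurableSet_lt hlo hhi).inter (measurableSet_lt hhi' hhi)
  rw [← integral_indicator hmA, ← integral_indicator hmU]
  refine integral_mono (hI.indicator hmA) (hI.indicator hmU) fun z => ?_
  by_cases hz : z ∈ {z | lo z < hi z ∧ hi' z < hi z}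
  · rw [Set.indicator_of_mem hz]
    by_cases hz0 : h z = 0
    · rw [hz0]
      simp only [ne_eq, OfNat.ofNat_ne_zero, not_false_eq_true, zero_pow]
      exact Set.indicator_nonneg (fun _ _ => sq_nonneg _) _
    · obtain ⟨m, hzm⟩ := T.unB z hz0 hz.1
      have hj : sj (R m) z ∈ jr (ii m) := by
        have h1 := (T.top m z hzm hz.1).2.2.1
        exact sj_mem h1
      have hmem : z ∈ ⋃ m, ⋃ j ∈ jr (ii m), RmS (B m) (R m) lo hi (st m j) j := by
        simp only [Set.mem_iUnion]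
        exact ⟨m, sj (R m) z, hj, ⟨hzm, rfl⟩, hz.1, hcut m z hzm hz0 hz.1 hz.2⟩
      rw [Set.indicator_of_mem hmem]
  · rw [Set.indicator_of_notMem hz]
    exact Set.indicator_nonneg (fun _ _ => sq_nonneg _) _

end Crest.Agent.R087.LowRemx90
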