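import Crest.Agent.R087.LowPair_232
import Crest.Agent.R087.LowRem_90
import Crest.Agent.R087.E2Kf_752
import Crest.Agent.R087.Pair1_339
import Crest.Agent.R087.ClassN_233

/-!
Row 87 (S0115), operator part: **leaf LOWN** (helper70).

Built on `LowTree_232`, `LowPair_232` (strips, cut chain, decomposition of the pairing) and
`LowRem_90` (removed mass).  Here: the kept part (SQ + TREELOW + OMEGA + HNORM) and the assembly
`l_lown : L_LOWN`.
-/

set_option autoImplicit false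

noncomputable section

open MeasureTheory

namespace Crest.Agent.R087.LowNx70

open Crest.Agent.R087.Sh0x283 Crest.Agent.R087.E2x542 Crest.Agent.R087.E2Kx752
  Crest.Agent.R087.GateDefx273 Crest.Agent.R087.OP0x270 Crest.Agent.R087.LowTreex232
  Crest.Agent.R087.LowPairx232
open Crest.Agent.R087.Sqx282 (PZ nice_int nice_sq)

theorem ph_cont {M : ℕ} {ω : ℝ → ℝ} (h : PW M ω) : Continuous (ph ω) :=
  (Pair1x339.smooth_iter h.1 _).continuous

theorem ph_supp {M : ℕ} {ω : ℝ → ℝ} (h : PW M ω) : ∀ r, 1 < |r| → ph ω r = 0 :=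
  Pair1x339.zero_iter h.2.1 _

theorem ph_PZ {M : ℕ} {ζ ω : ℝ → ℝ} (hζ : ZetC ζ) (h : PW M ω) : PZ (ph ω) ζ :=
  ⟨ph_cont h, hζ.1.continuous, ph_supp h, hζ.2.1⟩

/-- the decaying denominator -/
def den (U : ℝ × ℝ → ℝ) (hi : ℝ × ℝ → ℕ) (R : Tube) (z : ℝ × ℝ) : ℝ :=
  1 + |U z - R.m| * (1 / 2 : ℝ) ^ (hi z - 1) + |z.2 - R.line z.1|

theorem den_ge (U : ℝ × ℝ → ℝ) (hi : ℝ × ℝ → ℕ) (R : Tube) (z : ℝ × ℝ) : 1 ≤ den U hi R z := by
  unfold den
  have h1 : 0 ≤ |U z - R.m| * (1 / 2 : ℝ) ^ (hi z - 1) := by positivity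
  have h2 : 0 ≤ |z.2 - R.line z.1| := abs_nonneg _
  linarith

theorem den_meas {U : ℝ × ℝ → ℝ} (hU : Measurable U) {hi : ℝ × ℝ → ℕ} (hhi : Measurable hi)
    (R : Tube) : Measurable (den U hi R) := by
  unfold den
  have h1 : Measurable fun z : ℝ × ℝ => (1 / 2 : ℝ) ^ (hi z - 1) :=
    (measurable_from_top (f := fun k : ℕ => (1 / 2 : ℝ) ^ (k - 1))).comp hhi
  have h2 : Measurable fun z : ℝ × ℝ => |z.2 - R.line z.1| := by
    have := R.measurable_line
    fun_prop
  have h3 : Measurable fun z : ℝ × ℝ => |U z - R.m| := (hU.sub_const _).abs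
  exact ((h3.mul h1).const_add 1).add h2

/-- the short points seen by a tube -/
def sht (lo hi : ℝ × ℝ → ℕ) (R : Tube) : Set (ℝ × ℝ) := {z | z.1 ∈ R.I ∧ lo z < hi z ∧ R.k < hi z}

theorem sht_meas {lo hi : ℝ × ℝ → ℕ} (hlo : Measurable lo) (hhi : Measurable hi) (R : Tube) :
    MeasurableSet (sht lo hi R) :=
  (measurable_fst R.measurableSet_I).inter ((measurableSet_lt hlo hhi).inter
    (measurableSet_lt measurable_const hhi))

/-- the function integrated in OMEGA -/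
def fq (U h : ℝ × ℝ → ℝ) (hi : ℝ × ℝ → ℕ) (R : Tube) (q : ℕ) (z : ℝ × ℝ) : ℝ :=
  |h z| / (den U hi R z) ^ q

theorem fq_nonneg (U h : ℝ × ℝ → ℝ) (hi : ℝ × ℝ → ℕ) (R : Tube) (q : ℕ) (z : ℝ × ℝ) :
    0 ≤ fq U h hi R q z := by
  unfold fq
  have := den_ge U hi R z
  positivity

theorem fq_int {U h : ℝ × ℝ → ℝ} (hU : Measurable U) (hh : Nice h) {hi : ℝ × ℝ → ℕ}
    (hhi : Measurable hi) (R : Tube) (q : ℕ) : Integrable (fq U h hi R q) := by
  have h1 : Integrable h := nice_int hh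
  refine h1.abs.mono' ?_ (Filter.Eventually.of_forall fun z => ?_)
  · exact (hh.1.abs.div ((den_meas hU hhi R).pow_const q)).aestronglyMeasurable
  · rw [Real.norm_of_nonneg (fq_nonneg U h hi R q z)]
    unfold fq
    exact div_le_self (abs_nonneg _) (one_le_pow₀ (den_ge U hi R z))

/-- AM-GM with weight. -/
theorem amgm {t a b : ℝ} (ht : 0 < t) : a * b ≤ (t * a ^ 2 + t⁻¹ * b ^ 2) / 2 := by
  have h1 : 0 ≤ (t * a - b) ^ 2 := sq_nonneg _
  have h2 : 0 ≤ t⁻¹ * (t * a - b) ^ 2 := mul_nonneg (inv_nonneg.2 ht.le) h1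
  have h3 : t⁻¹ * (t * a - b) ^ 2 = t * a ^ 2 - 2 * (a * b) + t⁻¹ * b ^ 2 := by
    field_simp
    ring
  linarith

/-- `∫ W 1_A` makes sense for `W² ∈ L¹` and `A` of finite measure -/
theorem int_W_ind {W : ℝ × ℝ → ℝ} (hW : Measurable W) (hW2 : Integrable fun w => (W w) ^ 2)
    {A : Set (ℝ × ℝ)} (hA : MeasurableSet A) (hf : volume A ≠ ⊤) :
    Integrable (fun w => W w * A.indicator 1 w) := by
  have h1 : Integrable (A.indicator (1 : ℝ × ℝ → ℝ)) := by
    rw [integrable_indicator_iff hA]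
    exact integrableOn_const hf
  refine (hW2.add h1).mono' ?_ (Filter.Eventually.of_forall fun w => ?_)
  · exact (hW.mul (measurable_one.indicator hA)).aestronglyMeasurable
  · rw [Real.norm_eq_abs, Pi.add_apply]
    by_cases hw : w ∈ A
    · rw [Set.indicator_of_mem hw, Pi.one_apply, mul_one]
      rcases le_total |W w| 1 with h | h
      · nlinarith [sq_nonneg (W w)]
      · rw [← sq_abs]; nlinarith
    · rw [Set.indicator_of_notMem hw, mul_zero, abs_zero]
      have := sq_nonneg (W w)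
      linarith

/-- the strips of one top -/
theorem strips_le {W : ℝ × ℝ → ℝ} (hW : Measurable W) (h0 : ∀ w, 0 ≤ W w)
    (hW2 : Integrable fun w => (W w) ^ 2) (R : Tube) (i : ℕ) :
    ∑ j ∈ jr i, ∫ w in fat 1 (shT R j), W w ≤
      3 * ∫ w, W w * (fat (32 * 2 ^ i) R).indicator 1 w := by
  have e1 : ∀ j, ∫ w in fat 1 (shT R j), W w =
      ∫ w, W w * (fat 1 (shT R j)).indicator 1 w := by
    intro j
    rw [← integral_indicator (measurableSet_fat _ _)]
    refine integral_congr_ae (Filter.Eventually.of_forall fun w => ?_)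
    by_cases hw : w ∈ fat 1 (shT R j)
    · simp [Set.indicator_of_mem hw]
    · simp [Set.indicator_of_notMem hw]
  rw [Finset.sum_congr rfl fun j _ => e1 j, ← integral_finsetSum, ← integral_const_mul]
  · refine integral_mono (integrable_finsetSum _ fun j _ =>
      int_W_ind hW hW2 (measurableSet_fat _ _) (fat_ne_top _ _))
      ((int_W_ind hW hW2 (measurableSet_fat _ _) (fat_ne_top _ _)).const_mul 3) fun w => ?_
    show ∑ j ∈ jr i, W w * (fat 1 (shT R j)).indicator 1 w ≤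
      3 * (W w * (fat (32 * 2 ^ i) R).indicator 1 w)
    rw [← Finset.mul_sum]
    have := mul_le_mul_of_nonneg_left (overlap R i w) (h0 w)
    linarith
  · intro j _
    exact int_W_ind hW hW2 (measurableSet_fat _ _) (fat_ne_top _ _)

/-- the two powers of two -/
theorem pow_a (n : ℕ) : (2 : ℝ) ^ ((n : ℝ) / 2) * (1 / 2 : ℝ) ^ n ≤ (2 : ℝ) ^ (-(n : ℝ) / 4) := by
  have e : (1 / 2 : ℝ) ^ n = (2 : ℝ) ^ (-(n : ℝ)) := by
    rw [Real.rpow_neg (by norm_num), Real.rpow_natCast, one_div, inv_pow]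
  rw [e, ← Real.rpow_add (by norm_num)]
  apply Real.rpow_le_rpow_of_exponent_le (by norm_num)
  have : (0 : ℝ) ≤ n := Nat.cast_nonneg n
  linarith

theorem pow_b (n : ℕ) : ((2 : ℝ) ^ ((n : ℝ) / 2))⁻¹ * (2 : ℝ) ^ ((n : ℝ) / 16) ≤
    (2 : ℝ) ^ (-(n : ℝ) / 4) := by
  rw [← Real.rpow_neg (by norm_num), ← Real.rpow_add (by norm_num)]
  apply Real.rpow_le_rpow_of_exponent_le (by norm_num)
  have : (0 : ℝ) ≤ n := Nat.cast_nonneg n
  linarith

theorem l_lown : L_LOWN := by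
  intro ζ hζ hsq tl m3 om hn rs
  obtain ⟨CT, hCT, tl⟩ := tl
  obtain ⟨CO, hCO, om⟩ := om
  obtain ⟨c, hc, CH, hCH, hn⟩ := hn
  refine ⟨c, hc, 24 * CT * (CO + CH) + 2000 * CT, by positivity, ?_⟩
  intro ω hω U h n S lo hi Λ hF hh hC hup hΛ N R kk ii E B T hsl
  have hU : Measurable U := hF.1
  obtain ⟨W0, hW0⟩ := hF.2.1
  obtain ⟨hlo, hhi, hS⟩ := hC
  have P : PZ (ph ω) ζ := ph_PZ hζ hω
  have hB : ∀ m, ∀ z ∈ B m, lo z < hi z → z.1 ∈ (R m).I ∧ (R m).k ≤ lo z :=
    fun m z hz hlt => ⟨(T.top m z hz hlt).1, (T.top m z hz hlt).2.1⟩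
  have hA2 : 2 ≤ AA := by unfold AA; norm_num
  have hbd : ∀ m z, |(B m).indicator h z| ≤ (2 : ℝ) ^ (kk m + 1) := by
    intro m z
    by_cases hz : z ∈ B m
    · rw [Set.indicator_of_mem hz]; exact (T.subB m hz).2.le
    · rw [Set.indicator_of_notMem hz, abs_zero]; positivity
  have main : ∀ m : Fin N, ∀ j : ℤ, ∃ st : ℝ → ℕ, Measurable st ∧
      (volume {z | z ∈ strp (B m) (R m) j ∧ lo z < hi z ∧ st z.1 < hi z}).toReal ≤
        CT * (1 / Λ) ^ 2 * (4 * (1 / 2 : ℝ) ^ n) * (R m).len ∧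
      ∀ (z' : ℝ × ℝ) (a b : ℕ), z'.1 ∈ (R m).I → a < b → b ≤ S →
        |Pair (ph ω) ζ U (strp (B m) (R m) j) lo (fun z => min (hi z) (st z.1))
          ((B m).indicator h) a b z'| ≤
        CT * (2 : ℝ) ^ (kk m + 1) * (Λ * (4 * (1 / 2 : ℝ) ^ n)) /
          (1 + |U z' - (shT (R m) j).m| * (1 / 2 : ℝ) ^ (b - 1) +
            |z'.2 - (shT (R m) j).line z'.1|) ^ qq := by
    intro m j
    obtain ⟨st, h1, -, h3, h4⟩ := tl ω hω U ((B m).indicator h) S lo hi
      (strp (B m) (R m) j) (shT (R m) j) ((2 : ℝ) ^ (kk m + 1)) (4 * (1 / 2 : ℝ) ^ n) Λ hU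
      (hh.1.indicator (T.mB m)) ⟨hlo, hhi, hS⟩ (measurableSet_strp (T.mB m) (R m) j)
      (volume_col_ne_top hh fun z hz => T.subB m hz.1) (hbd m) (by positivity) hΛ
      (strp_tree (hB m) (hsl m) j)
      (strp_mass m3 hA2 hU hh ⟨hlo, hhi, hS⟩ hup (T.intT m) (T.mB m) (T.subB m) (hB m)
        (hsl m) j)
    exact ⟨st, h1, h3, h4⟩
  choose st hst hvol hpair using main
  have hcm : Measurable (cutf B R ii hi st) := cutf_meas T.mB hhi hst
  have hcl : ∀ z, cutf B R ii hi st z ≤ hi z := cutf_le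
  have hC' : Chain S lo (cutf B R ii hi st) := ⟨hlo, hcm, fun z => (hcl z).trans (hS z)⟩
  have H0 : 0 ≤ ∫ z, (h z) ^ 2 := integral_nonneg fun z => sq_nonneg _
  refine ⟨cutf B R ii hi st, hcm, hcl, ?_, ?_⟩
  · -- kept part
    have sqb := hsq (ph ω) (ph_cont hω) (ph_supp hω) U h S lo (cutf B R ii hi st) hU ⟨W0, hW0⟩
      hh hC'
    obtain ⟨W, hWm, hWp, hWi, hWn, hWR⟩ := om n U h S lo (cutf B R ii hi st) hU hh hC'
      (ClassNx233.uppAt_sub hup fun z hz => ⟨lt_of_lt_of_le hz (hcl z), hcl z⟩) N R kk ii E B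
      (T.sub fun z hz => ⟨le_rfl, lt_of_lt_of_le hz (hcl z)⟩)
    have hG := hn n U h lo hi hF hh N R kk ii E B T
    set hi' := cutf B R ii hi st with hhi'
    -- pointwise bound of the integrand
    have hpt : ∀ z', ‖h z' * Pair (ph ω) ζ U Set.univ lo hi' h (lo z') (hi' z') z'‖ ≤
        ∑ m, ∑ j ∈ jr (ii m), CT * (2 : ℝ) ^ (kk m + 1) * (Λ * (4 * (1 / 2 : ℝ) ^ n)) *
          (sht lo hi' (shT (R m) j)).indicator (fq U h hi' (shT (R m) j) qq) z' := by
      intro z'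
      have hnn : ∀ m, ∀ j ∈ jr (ii m), 0 ≤ CT * (2 : ℝ) ^ (kk m + 1) *
          (Λ * (4 * (1 / 2 : ℝ) ^ n)) *
          (sht lo hi' (shT (R m) j)).indicator (fq U h hi' (shT (R m) j) qq) z' := by
        intro m j _
        refine mul_nonneg (by positivity) (Set.indicator_nonneg (fun z _ => ?_) _)
        exact fq_nonneg _ _ _ _ _ z
      have hnn2 : 0 ≤ ∑ m, ∑ j ∈ jr (ii m), CT * (2 : ℝ) ^ (kk m + 1) *
          (Λ * (4 * (1 / 2 : ℝ) ^ n)) *
          (sht lo hi' (shT (R m) j)).indicator (fq U h hi' (shT (R m) j) qq) z' :=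
        Finset.sum_nonneg fun m _ => Finset.sum_nonneg fun j hj => hnn m j hj
      by_cases hlt : lo z' < hi' z'
      · rw [hhi', pair_sum P hU hW0 hh ⟨hlo, hhi, hS⟩ T.mB T.disB hst T.unB
          (fun m z hz hl => (T.top m z hz hl).2.2.1), ← hhi', norm_mul, Real.norm_eq_abs,
          Real.norm_eq_abs]
        refine (mul_le_mul_of_nonneg_left (Finset.abs_sum_le_sum_abs _ _)
          (abs_nonneg _)).trans ?_
        rw [Finset.mul_sum]
        refine Finset.sum_le_sum fun m _ => ?_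
        refine (mul_le_mul_of_nonneg_left (Finset.abs_sum_le_sum_abs _ _)
          (abs_nonneg _)).trans ?_
        rw [Finset.mul_sum]
        refine Finset.sum_le_sum fun j hj => ?_
        by_cases hin : z'.1 ∈ (R m).I ∧ (R m).k < hi' z'
        · have hmem : z' ∈ sht lo hi' (shT (R m) j) := ⟨hin.1, hlt, hin.2⟩
          rw [Set.indicator_of_mem hmem]
          have hb := hpair m j z' (lo z') (hi' z') hin.1 hlt (hC'.2.2 z')
          refine (mul_le_mul_of_nonneg_left hb (abs_nonneg _)).trans (le_of_eq ?_)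
          unfold fq den
          ring
        · have hz0 : z'.1 ∉ (R m).I ∨ hi' z' ≤ (R m).k := by
            by_contra hcon
            push Not at hcon
            exact hin hcon
          rw [pair_zero P (hi := hi) (R := R m) (fun z => min_le_left _ _)
            (fun z hz hl => hB m z hz.1 hl) hz0, abs_zero, mul_zero]
          exact hnn m j hj
      · have : Pair (ph ω) ζ U Set.univ lo hi' h (lo z') (hi' z') z' = 0 := by
          unfold Pair
          rw [Finset.Ico_eq_empty hlt, Finset.sum_empty]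
        rw [this, mul_zero, norm_zero]
        exact hnn2
    have hFi : ∀ m, ∀ j ∈ jr (ii m), Integrable (fun z' =>
        CT * (2 : ℝ) ^ (kk m + 1) * (Λ * (4 * (1 / 2 : ℝ) ^ n)) *
          (sht lo hi' (shT (R m) j)).indicator (fq U h hi' (shT (R m) j) qq) z') := by
      intro m j _
      exact ((fq_int hU hh hcm _ _).indicator (sht_meas hlo hcm _)).const_mul _
    have hint : ∫ z', h z' * Pair (ph ω) ζ U Set.univ lo hi' h (lo z') (hi' z') z' ≤
        ∑ m, ∑ j ∈ jr (ii m), CT * (2 : ℝ) ^ (kk m + 1) * (Λ * (4 * (1 / 2 : ℝ) ^ n)) *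
          ∫ w in fat 1 (shT (R m) j), W w := by
      refine (le_abs_self _).trans ?_
      rw [← Real.norm_eq_abs]
      refine (norm_integral_le_of_norm_le (integrable_finsetSum _ fun m _ =>
        integrable_finsetSum _ fun j hj => hFi m j hj)
        (Filter.Eventually.of_forall hpt)).trans ?_
      rw [integral_finsetSum _ (fun m _ => integrable_finsetSum _ fun j hj => hFi m j hj)]
      refine Finset.sum_le_sum fun m _ => ?_
      rw [integral_finsetSum _ (fun j hj => hFi m j hj)]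
      refine Finset.sum_le_sum fun j _ => ?_
      rw [integral_const_mul, integral_indicator (sht_meas hlo hcm _)]
      refine mul_le_mul_of_nonneg_left ?_ (by positivity)
      exact (hWR (shT (R m) j) (shT_int (T.intT m) j)).2
    -- the long side
    set G : ℝ × ℝ → ℝ := fun w => ∑ m, (2 : ℝ) ^ kk m * 2 ^ (AA * ii m) * (1 / 2 : ℝ) ^ n *
        (fat (32 * 2 ^ ii m) (R m)).indicator 1 w with hGdef
    have hWG : ∀ m, Integrable (fun w => W w * (fat (32 * 2 ^ ii m) (R m)).indicator 1 w) :=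
      fun m => int_W_ind hWm hWi (measurableSet_fat _ _) (fat_ne_top _ _)
    have hWGn : ∀ m, 0 ≤ ∫ w, W w * (fat (32 * 2 ^ ii m) (R m)).indicator 1 w := by
      intro m
      refine integral_nonneg fun w => mul_nonneg (hWp w) (Set.indicator_nonneg ?_ _)
      intro _ _; exact zero_le_one
    have hlong : ∑ m, ∑ j ∈ jr (ii m), CT * (2 : ℝ) ^ (kk m + 1) * (Λ * (4 * (1 / 2 : ℝ) ^ n)) *
          ∫ w in fat 1 (shT (R m) j), W w ≤ 24 * CT * Λ * ∫ w, W w * G w := by
      have e1 : ∫ w, W w * G w = ∑ m, (2 : ℝ) ^ kk m * 2 ^ (AA * ii m) * (1 / 2 : ℝ) ^ n *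
          ∫ w, W w * (fat (32 * 2 ^ ii m) (R m)).indicator 1 w := by
        have e2 : ∀ w, W w * G w = ∑ m, (2 : ℝ) ^ kk m * 2 ^ (AA * ii m) * (1 / 2 : ℝ) ^ n *
            (W w * (fat (32 * 2 ^ ii m) (R m)).indicator 1 w) := by
          intro w
          rw [hGdef, Finset.mul_sum]
          refine Finset.sum_congr rfl fun m _ => ?_
          ring
        simp only [e2]
        rw [integral_finsetSum _ (fun m _ => (hWG m).const_mul _)]
        refine Finset.sum_congr rfl fun m _ => ?_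
        rw [integral_const_mul]
      rw [e1, Finset.mul_sum]
      refine Finset.sum_le_sum fun m _ => ?_
      rw [← Finset.mul_sum]
      have hs := strips_le hWm hWp hWi (R m) (ii m)
      have h1 : (1 : ℝ) ≤ 2 ^ (AA * ii m) := one_le_pow₀ (by norm_num)
      have hz : (2 : ℝ) ^ (kk m + 1) = 2 * (2 : ℝ) ^ kk m := by
        rw [zpow_add₀ (by norm_num), zpow_one]; ring
      have h2k : (0 : ℝ) < (2 : ℝ) ^ kk m := zpow_pos (by norm_num) _
      calc CT * (2 : ℝ) ^ (kk m + 1) * (Λ * (4 * (1 / 2 : ℝ) ^ n)) *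
            ∑ j ∈ jr (ii m), ∫ w in fat 1 (shT (R m) j), W w ≤
          CT * (2 : ℝ) ^ (kk m + 1) * (Λ * (4 * (1 / 2 : ℝ) ^ n)) *
            (3 * ∫ w, W w * (fat (32 * 2 ^ ii m) (R m)).indicator 1 w) :=
            mul_le_mul_of_nonneg_left hs (by positivity)
        _ = (24 * CT * Λ * ((2 : ℝ) ^ kk m * (1 / 2 : ℝ) ^ n *
            ∫ w, W w * (fat (32 * 2 ^ ii m) (R m)).indicator 1 w)) * 1 := by
            rw [hz]; ring
        _ ≤ (24 * CT * Λ * ((2 : ℝ) ^ kk m * (1 / 2 : ℝ) ^ n *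
            ∫ w, W w * (fat (32 * 2 ^ ii m) (R m)).indicator 1 w)) * 2 ^ (AA * ii m) := by
            refine mul_le_mul_of_nonneg_left h1 ?_
            have := hWGn m
            positivity
        _ = _ := by ring
    -- AM-GM
    have hGm : Measurable G := by
      rw [hGdef]
      refine Finset.measurable_fun_sum _ fun m _ => ?_
      exact (measurable_one.indicator (measurableSet_fat _ _)).const_mul _
    have hG2 : Integrable (fun w => (G w) ^ 2) := by
      have hGi : Integrable G := by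
        rw [hGdef]
        refine integrable_finsetSum _ fun m _ => Integrable.const_mul ?_ _
        rw [integrable_indicator_iff (measurableSet_fat _ _)]
        exact integrableOn_const (fat_ne_top _ _)
      set K : ℝ := ∑ m, (2 : ℝ) ^ kk m * 2 ^ (AA * ii m) * (1 / 2 : ℝ) ^ n with hK
      have hGK : ∀ w, 0 ≤ G w ∧ G w ≤ K := by
        intro w
        constructor
        · refine Finset.sum_nonneg fun m _ => mul_nonneg (by positivity) ?_
          exact Set.indicator_nonneg (fun _ _ => zero_le_one) _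
        · refine Finset.sum_le_sum fun m _ => ?_
          refine mul_le_of_le_one_right (by positivity) ?_
          exact Set.indicator_le_self' (f := (1 : ℝ × ℝ → ℝ)) (fun _ _ => zero_le_one) w
      refine (hGi.const_mul K).mono' (hGm.pow_const 2).aestronglyMeasurable
        (Filter.Eventually.of_forall fun w => ?_)
      rw [Real.norm_of_nonneg (sq_nonneg _), sq]
      exact mul_le_mul_of_nonneg_right (hGK w).2 (hGK w).1
    have ht : (0 : ℝ) < (2 : ℝ) ^ ((n : ℝ) / 2) := Real.rpow_pos_of_pos (by norm_num) _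
    have hcs : ∫ w, W w * G w ≤ ((2 : ℝ) ^ ((n : ℝ) / 2) * ∫ w, (W w) ^ 2) / 2 +
        (((2 : ℝ) ^ ((n : ℝ) / 2))⁻¹ * ∫ w, (G w) ^ 2) / 2 := by
      have hWGi : Integrable (fun w => W w * G w) := by
        refine (hWi.add hG2).mono' (hWm.mul hGm).aestronglyMeasurable
          (Filter.Eventually.of_forall fun w => ?_)
        rw [Real.norm_eq_abs, Pi.add_apply, abs_mul]
        have h1 := sq_nonneg (|W w| - |G w|)
        have h2 : |W w| ^ 2 = (W w) ^ 2 := sq_abs _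
        have h3 : |G w| ^ 2 = (G w) ^ 2 := sq_abs _
        have h4 := mul_nonneg (abs_nonneg (W w)) (abs_nonneg (G w))
        nlinarith
      have e : ((2 : ℝ) ^ ((n : ℝ) / 2) * ∫ w, (W w) ^ 2) / 2 +
          (((2 : ℝ) ^ ((n : ℝ) / 2))⁻¹ * ∫ w, (G w) ^ 2) / 2 =
          ∫ w, ((2 : ℝ) ^ ((n : ℝ) / 2) * (W w) ^ 2 +
            ((2 : ℝ) ^ ((n : ℝ) / 2))⁻¹ * (G w) ^ 2) / 2 := by
        rw [integral_div, integral_add (hWi.const_mul _) (hG2.const_mul _), integral_const_mul,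
          integral_const_mul]
        ring
      rw [e]
      refine integral_mono hWGi (((hWi.const_mul _).add (hG2.const_mul _)).div_const 2)
        fun w => ?_
      exact amgm ht
    have hp : (0 : ℝ) < (2 : ℝ) ^ (-(n : ℝ) / 4) := Real.rpow_pos_of_pos (by norm_num) _
    have hfin : ∫ w, W w * G w ≤ (CO + CH) / 2 * ((2 : ℝ) ^ (-(n : ℝ) / 4) * ∫ z, (h z) ^ 2) := by
      refine hcs.trans ?_
      have a1 : (2 : ℝ) ^ ((n : ℝ) / 2) * ∫ w, (W w) ^ 2 ≤
          CO * ((2 : ℝ) ^ (-(n : ℝ) / 4) * ∫ z, (h z) ^ 2) := by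
        calc (2 : ℝ) ^ ((n : ℝ) / 2) * ∫ w, (W w) ^ 2 ≤
            (2 : ℝ) ^ ((n : ℝ) / 2) * (CO * (1 / 2 : ℝ) ^ n * ∫ z, (h z) ^ 2) :=
              mul_le_mul_of_nonneg_left hWn ht.le
          _ = ((2 : ℝ) ^ ((n : ℝ) / 2) * (1 / 2 : ℝ) ^ n) * (CO * ∫ z, (h z) ^ 2) := by ring
          _ ≤ (2 : ℝ) ^ (-(n : ℝ) / 4) * (CO * ∫ z, (h z) ^ 2) :=
              mul_le_mul_of_nonneg_right (pow_a n) (mul_nonneg hCO H0)
          _ = _ := by ring
      have a2 : ((2 : ℝ) ^ ((n : ℝ) / 2))⁻¹ * ∫ w, (G w) ^ 2 ≤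
          CH * ((2 : ℝ) ^ (-(n : ℝ) / 4) * ∫ z, (h z) ^ 2) := by
        calc ((2 : ℝ) ^ ((n : ℝ) / 2))⁻¹ * ∫ w, (G w) ^ 2 ≤
            ((2 : ℝ) ^ ((n : ℝ) / 2))⁻¹ * (CH * (2 : ℝ) ^ ((n : ℝ) / 16) * ∫ z, (h z) ^ 2) :=
              mul_le_mul_of_nonneg_left hG (inv_nonneg.2 ht.le)
          _ = (((2 : ℝ) ^ ((n : ℝ) / 2))⁻¹ * (2 : ℝ) ^ ((n : ℝ) / 16)) *
              (CH * ∫ z, (h z) ^ 2) := by ring
          _ ≤ (2 : ℝ) ^ (-(n : ℝ) / 4) * (CH * ∫ z, (h z) ^ 2) :=
              mul_le_mul_of_nonneg_right (pow_b n) (mul_nonneg hCH H0)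
          _ = _ := by ring
      linarith
    have hΛ0 : 0 ≤ Λ := by linarith
    calc ∫ w, (Tc (ph ω) ζ U lo hi' h w) ^ 2 ≤
        2 * ∫ z', h z' * Pair (ph ω) ζ U Set.univ lo hi' h (lo z') (hi' z') z' := sqb
      _ ≤ 2 * (24 * CT * Λ * ∫ w, W w * G w) := by linarith [hint.trans hlong]
      _ ≤ 2 * (24 * CT * Λ *
          ((CO + CH) / 2 * ((2 : ℝ) ^ (-(n : ℝ) / 4) * ∫ z, (h z) ^ 2))) := by
          have : 0 ≤ 24 * CT * Λ := by positivity
          linarith [mul_le_mul_of_nonneg_left hfin this]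
      _ = (24 * CT * (CO + CH)) * (Λ * (2 : ℝ) ^ (-(n : ℝ) / 4) * ∫ z, (h z) ^ 2) := by ring
      _ ≤ (24 * CT * (CO + CH) + 2000 * CT) *
          (Λ * (2 : ℝ) ^ (-(n : ℝ) / 4) * ∫ z, (h z) ^ 2) := by
          refine mul_le_mul_of_nonneg_right ?_ (by positivity)
          linarith
      _ = _ := by ring
  · -- removed part
    have hcut : ∀ m, ∀ z ∈ B m, h z ≠ 0 → lo z < hi z → cutf B R ii hi st z < hi z →
        st m (sj (R m) z) z.1 < hi z := by
      intro m z hz _ hlt hlt'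
      have hj : sj (R m) z ∈ jr (ii m) := sj_mem (T.top m z hz hlt).2.2.1
      rw [cutf_of_mem T.disB hj ⟨hz, rfl⟩] at hlt'
      exact (min_lt_iff.1 hlt').resolve_left (lt_irrefl _)
    refine (LowRemx90.low_removed hU hh hlo hhi hcm T rs hCT st hst
      (fun m j _ => hvol m j) hcut).trans ?_
    have hx : 0 ≤ ((n : ℝ) + 1) * (1 / Λ) ^ 2 * ∫ z, (h z) ^ 2 := by positivity
    have hy : 0 ≤ 24 * CT * (CO + CH) := by positivity
    calc 2000 * CT * (n + 1) * (1 / Λ) ^ 2 * ∫ z, (h z) ^ 2 =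
        (2000 * CT) * (((n : ℝ) + 1) * (1 / Λ) ^ 2 * ∫ z, (h z) ^ 2) := by ring
      _ ≤ (24 * CT * (CO + CH) + 2000 * CT) *
          (((n : ℝ) + 1) * (1 / Λ) ^ 2 * ∫ z, (h z) ^ 2) :=
          mul_le_mul_of_nonneg_right (by linarith) hx
      _ = _ := by ring

end Crest.Agent.R087.LowNx70
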