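import Crest.Agent.R087.OP0_270

/-!
Row 87 (S0115), operator part, leaf LOWN (`OP0x270.LOWN`), part L1 (helper232): the strips of a LOW top.

* `shT R j`   : the tube `R` shifted by the integer `j` (line `R.line + j`);
* `sj R z`    : `⌊z.2 - R.line z.1⌋`;  `strp B R j = {z ∈ B | sj R z = j}`;
* `jr i`      : the integers `|j| ≤ 5 * 2^i + 1`;
* `strp_tree` : the point hypothesis of `TREELOW` for a strip (line `shT R j`, `1`-near);
* `strp_mass` : `Mass3` of a strip with density `4 * 2^-n` (`MASS3` with `i = 0`);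
* `overlap`   : `∑_{j ∈ jr i} 1_{fat 1 (shT R j)} ≤ 3 * 1_{fat (32 * 2^i) R}`.
-/

set_option autoImplicit false

noncomputable section

open MeasureTheory

namespace Crest.Agent.R087.LowTreex232

open Crest.Agent.R087.Sh0x283 Crest.Agent.R087.E2x542 Crest.Agent.R087.E2Kx752
  Crest.Agent.R087.GateDefx273 Crest.Agent.R087.OP0x270

/-- shifted tube -/
def shT (R : Tube) (j : ℤ) : Tube := ⟨R.k, R.j, R.b + j, R.m⟩

theorem shT_len (R : Tube) (j : ℤ) : (shT R j).len = R.len := rfl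

theorem shT_I (R : Tube) (j : ℤ) : (shT R j).I = R.I := rfl

theorem shT_line (R : Tube) (j : ℤ) (t : ℝ) : (shT R j).line t = R.line t + j := by
  simp only [shT, Tube.line]; ring

theorem shT_int {R : Tube} (h : IntT R) (j : ℤ) : IntT (shT R j) := by
  obtain ⟨⟨q, hq⟩, hm⟩ := h
  refine ⟨⟨q + j, ?_⟩, hm⟩
  show R.b + (j : ℝ) = ((q + j : ℤ) : ℝ)
  rw [hq]; push_cast; ring

/-- strip number -/
def sj (R : Tube) (z : ℝ × ℝ) : ℤ := ⌊z.2 - R.line z.1⌋

theorem measurable_sj (R : Tube) : Measurable (sj R) := by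
  apply Int.measurable_floor.comp
  have := R.measurable_line
  fun_prop

/-- points of the strip `j` -/
def strp (B : Set (ℝ × ℝ)) (R : Tube) (j : ℤ) : Set (ℝ × ℝ) := {z | z ∈ B ∧ sj R z = j}

theorem strp_sub (B : Set (ℝ × ℝ)) (R : Tube) (j : ℤ) : strp B R j ⊆ B := fun _ h => h.1

theorem measurableSet_strp {B : Set (ℝ × ℝ)} (hB : MeasurableSet B) (R : Tube) (j : ℤ) :
    MeasurableSet (strp B R j) :=
  hB.inter (measurable_sj R (measurableSet_singleton j))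

theorem strp_near {R : Tube} {j : ℤ} {z : ℝ × ℝ} (hz : sj R z = j) :
    |z.2 - ((shT R j).b + (shT R j).m * z.1)| ≤ 1 := by
  unfold sj at hz
  rw [Int.floor_eq_iff] at hz
  simp only [shT, Tube.line] at hz ⊢
  rw [abs_le]
  constructor <;> linarith [hz.1, hz.2]

/-- range of the strip numbers -/
def jr (i : ℕ) : Finset ℤ := Finset.Icc (-(5 * 2 ^ i + 1)) (5 * 2 ^ i + 1)

theorem sj_mem {R : Tube} {i : ℕ} {z : ℝ × ℝ} (h : |z.2 - (R.b + R.m * z.1)| ≤ 5 * 2 ^ i) :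
    sj R z ∈ jr i := by
  rw [abs_le] at h
  unfold jr sj
  rw [Finset.mem_Icc, Tube.line]
  constructor
  · rw [Int.le_floor]; push_cast; linarith [h.1]
  · have : ⌊z.2 - (R.b + R.m * z.1)⌋ ≤ ⌊((5 * 2 ^ i + 1 : ℤ) : ℝ)⌋ :=
      Int.floor_le_floor (by push_cast; linarith [h.2])
    rwa [Int.floor_intCast] at this

theorem card_jr (i : ℕ) : ((jr i).card : ℝ) ≤ 13 * 2 ^ i := by
  unfold jr
  rw [Int.card_Icc]
  have h1 : ((5 * 2 ^ i + 1 + 1 - -(5 * 2 ^ i + 1) : ℤ)).toNat = 10 * 2 ^ i + 3 := by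
    have : (5 * 2 ^ i + 1 + 1 - -(5 * 2 ^ i + 1) : ℤ) = ((10 * 2 ^ i + 3 : ℕ) : ℤ) := by
      push_cast; ring
    rw [this, Int.toNat_natCast]
  rw [h1]
  push_cast
  have : (1 : ℝ) ≤ 2 ^ i := one_le_pow₀ (by norm_num)
  linarith

/-- the points of a strip satisfy the point hypothesis of `TREELOW` -/
theorem strp_tree {U : ℝ × ℝ → ℝ} {lo hi : ℝ × ℝ → ℕ} {R : Tube} {B : Set (ℝ × ℝ)}
    (hB : ∀ z ∈ B, lo z < hi z → z.1 ∈ R.I ∧ R.k ≤ lo z)
    (hsl : ∀ z ∈ B, lo z < hi z → |U z - R.m| * (1 / 2 : ℝ) ^ lo z ≤ 1) (j : ℤ) :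
    ∀ z ∈ strp B R j, lo z < hi z → z.1 ∈ (shT R j).I ∧ (shT R j).k ≤ lo z ∧
      near U 1 (shT R j).b (shT R j).m (lo z) z := by
  intro z hz hlt
  obtain ⟨h1, h2⟩ := hB z hz.1 hlt
  exact ⟨h1, h2, strp_near hz.2, hsl z hz.1 hlt⟩

/-- the mass hypothesis of `TREELOW` for a strip -/
theorem strp_mass (h3 : MASS3) {A n : ℕ} (hA : 2 ≤ A) {U h : ℝ × ℝ → ℝ} {S : ℕ}
    {lo hi : ℝ × ℝ → ℕ} (hU : Measurable U) (hh : Nice h) (hC : Chain S lo hi)
    (hup : UppAt U h A n lo hi) {k : ℤ} {R : Tube} {B : Set (ℝ × ℝ)} (hR : IntT R)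
    (hBm : MeasurableSet B) (hBk : B ⊆ col h k)
    (hB : ∀ z ∈ B, lo z < hi z → z.1 ∈ R.I ∧ R.k ≤ lo z)
    (hsl : ∀ z ∈ B, lo z < hi z → |U z - R.m| * (1 / 2 : ℝ) ^ lo z ≤ 1) (j : ℤ) :
    Mass3 (strp B R j) lo hi (shT R j).k (4 * (1 / 2 : ℝ) ^ n) := by
  have h := h3 A n hA U h S lo hi hU hh hC hup k 0 (shT R j) (strp B R j) (shT_int hR j)
    (measurableSet_strp hBm R j) (fun z hz => hBk hz.1)
    (fun z hz hlt => by
      obtain ⟨h1, h2, h4⟩ := strp_tree hB hsl j z hz hlt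
      refine ⟨h1, h2, ?_⟩
      simpa using h4)
  simpa using h

/-- points of a set of one colour have finite volume -/
theorem volume_col_ne_top {h : ℝ × ℝ → ℝ} (hh : Nice h) {k : ℤ} {B : Set (ℝ × ℝ)}
    (hBk : B ⊆ col h k) : volume B ≠ ⊤ := by
  obtain ⟨_, _, ⟨r, hr⟩⟩ := hh
  have hsub : B ⊆ Metric.closedBall 0 r := by
    intro w hw
    rw [mem_closedBall_zero_iff]
    by_contra hcon
    have h1 := (hBk hw).1
    rw [hr w (not_le.1 hcon), abs_zero] at h1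
    have h2 : (0 : ℝ) < 2 ^ k := by positivity
    linarith
  exact ne_top_of_le_ne_top (measure_closedBall_lt_top).ne (measure_mono hsub)

/-- the unit strips of one top overlap at most three times and stay in the fat tube -/
theorem overlap (R : Tube) (i : ℕ) (w : ℝ × ℝ) :
    ∑ j ∈ jr i, (fat 1 (shT R j)).indicator (1 : ℝ × ℝ → ℝ) w ≤
      3 * (fat (32 * 2 ^ i) R).indicator 1 w := by
  classical
  have h2i : (1 : ℝ) ≤ 2 ^ i := one_le_pow₀ (by norm_num)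
  by_cases hw : w ∈ fat (32 * 2 ^ i) R
  · rw [Set.indicator_of_mem hw, Pi.one_apply, mul_one]
    -- only `j ∈ {c, c+1, c+2}` with `c = ⌈v - 1⌉`
    set v : ℝ := w.2 - R.line w.1 with hv
    have hsub : ∀ j ∈ jr i, w ∈ fat 1 (shT R j) → j ∈ Finset.Icc ⌈v - 1⌉ (⌈v - 1⌉ + 2) := by
      intro j _ hj
      have h1 : |w.2 - (shT R j).line w.1| ≤ 1 := hj.2
      rw [shT_line, abs_le] at h1
      rw [Finset.mem_Icc]
      constructor
      · rw [Int.ceil_le]; linarith [h1.1, h1.2]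
      · have h3 : (j : ℝ) ≤ v + 1 := by linarith [h1.1, h1.2]
        have h4 : v - 1 ≤ ⌈v - 1⌉ := Int.le_ceil _
        have h5 : (j : ℝ) ≤ ((⌈v - 1⌉ + 2 : ℤ) : ℝ) := by push_cast; linarith
        exact_mod_cast h5
    calc ∑ j ∈ jr i, (fat 1 (shT R j)).indicator (1 : ℝ × ℝ → ℝ) w
        ≤ ∑ j ∈ jr i, if j ∈ Finset.Icc ⌈v - 1⌉ (⌈v - 1⌉ + 2) then (1 : ℝ) else 0 := by
          apply Finset.sum_le_sum
          intro j hj
          by_cases h : w ∈ fat 1 (shT R j)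
          · rw [Set.indicator_of_mem h, if_pos (hsub j hj h), Pi.one_apply]
          · rw [Set.indicator_of_notMem h]; split_ifs <;> norm_num
      _ = (((jr i).filter (fun j => j ∈ Finset.Icc ⌈v - 1⌉ (⌈v - 1⌉ + 2))).card : ℝ) := by
          rw [← Finset.sum_filter, Finset.sum_const, nsmul_eq_mul, mul_one]
      _ ≤ ((Finset.Icc ⌈v - 1⌉ (⌈v - 1⌉ + 2)).card : ℝ) := by
          exact_mod_cast Finset.card_le_card (fun j hj => (Finset.mem_filter.1 hj).2)
      _ = 3 := by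
          rw [Int.card_Icc]
          have : (⌈v - 1⌉ + 2 + 1 - ⌈v - 1⌉).toNat = 3 := by omega
          rw [this]; norm_num
  · rw [Set.indicator_of_notMem hw, mul_zero]
    apply le_of_eq
    apply Finset.sum_eq_zero
    intro j hj
    apply Set.indicator_of_notMem
    intro hwj
    apply hw
    refine ⟨hwj.1, ?_⟩
    have h1 : |w.2 - (shT R j).line w.1| ≤ 1 := hwj.2
    rw [shT_line] at h1
    unfold jr at hj
    rw [Finset.mem_Icc] at hj
    have h3 : (-(5 * 2 ^ i + 1) : ℝ) ≤ j := by exact_mod_cast hj.1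
    have h4 : (j : ℝ) ≤ 5 * 2 ^ i + 1 := by exact_mod_cast hj.2
    rw [abs_le] at h1 ⊢
    constructor <;> linarith [h1.1, h1.2]

end Crest.Agent.R087.LowTreex232
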