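import Crest.Agent.R087.Sq_282
import Crest.Agent.R087.LowTree_232

/-!
Row 87 (S0115), operator part, leaf LOWN, part P (helper232): the cut chain and the decomposition of
the pairing over the strips of the tops.

* `cutf`      : `hi' z = min (hi z) (st m j z.1)` for `z` in the strip `j` of the top `m`, else `hi z`;
* `cutf_meas`, `cutf_le`, `cutf_of_mem`, `cutf_rem`;
* `pair_sum`  : `Pair univ lo hi' h = ∑_{m, j} Pair (strp) lo (min hi st) (1_{B m} h)`;
* `pair_zero` : the pairing with a strip vanishes if `z'.1 ∉ (R m).I` or `b ≤ (R m).k`.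
-/

set_option autoImplicit false

noncomputable section

open MeasureTheory

namespace Crest.Agent.R087.LowPairx232

open Crest.Agent.R087.Sh0x283 Crest.Agent.R087.E2x542 Crest.Agent.R087.E2Kx752
  Crest.Agent.R087.GateDefx273 Crest.Agent.R087.OP0x270 Crest.Agent.R087.LowTreex232
open Crest.Agent.R087.Sqx282 (PZ GG GG_ker GG_cell nice_int nice_ind nice_sum nice_smul)
open Crest.Agent.R087.OPdefx799 (ix)

theorem pr_GG (φ ζ : ℝ → ℝ) (U : ℝ × ℝ → ℝ) (s s' : ℕ) (z z' : ℝ × ℝ) :
    pr φ ζ U s s' z z' = GG φ ζ U s s' z z' := rfl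

/-! ### the cut chain -/

section cut

variable {N : ℕ} (B : Fin N → Set (ℝ × ℝ)) (R : Fin N → Tube) (ii : Fin N → ℕ)
  (hi : ℝ × ℝ → ℕ) (st : Fin N → ℤ → ℝ → ℕ)

/-- the union of all strips -/
def allS : Set (ℝ × ℝ) := {z | ∃ m, ∃ j ∈ jr (ii m), z ∈ strp (B m) (R m) j}

/-- the stopping scale at the point `z` -/
def stz (z : ℝ × ℝ) : ℕ :=
  ∑ m, ∑ j ∈ jr (ii m), (strp (B m) (R m) j).indicator (fun z => st m j z.1) z

open Classical in
/-- the cut chain -/
def cutf (z : ℝ × ℝ) : ℕ := if z ∈ allS B R ii then min (hi z) (stz B R ii st z) else hi z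

variable {B R ii hi st}

theorem measurableSet_allS (hB : ∀ m, MeasurableSet (B m)) : MeasurableSet (allS B R ii) := by
  have : allS B R ii = ⋃ m, ⋃ j ∈ jr (ii m), strp (B m) (R m) j := by
    ext z; simp [allS]
  rw [this]
  exact MeasurableSet.iUnion fun m => Finset.measurableSet_biUnion _
    fun j _ => measurableSet_strp (hB m) (R m) j

theorem measurable_stz (hB : ∀ m, MeasurableSet (B m)) (hst : ∀ m j, Measurable (st m j)) :
    Measurable (stz B R ii st) := by
  unfold stz
  apply Finset.measurable_fun_sum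
  intro m _
  apply Finset.measurable_fun_sum
  intro j _
  exact ((hst m j).comp measurable_fst).indicator (measurableSet_strp (hB m) (R m) j)

theorem cutf_meas (hB : ∀ m, MeasurableSet (B m)) (hhi : Measurable hi)
    (hst : ∀ m j, Measurable (st m j)) : Measurable (cutf B R ii hi st) := by
  unfold cutf
  exact Measurable.ite (measurableSet_allS hB) (hhi.min (measurable_stz hB hst)) hhi

theorem cutf_le (z : ℝ × ℝ) : cutf B R ii hi st z ≤ hi z := by
  unfold cutf
  split_ifs
  · exact min_le_left _ _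
  · exact le_rfl

theorem stz_of_mem (hd : Pairwise (Function.onFun Disjoint B)) {m : Fin N} {j : ℤ}
    (hj : j ∈ jr (ii m)) {z : ℝ × ℝ} (hz : z ∈ strp (B m) (R m) j) :
    stz B R ii st z = st m j z.1 := by
  unfold stz
  rw [Finset.sum_eq_single_of_mem m (Finset.mem_univ _)]
  · rw [Finset.sum_eq_single_of_mem j hj]
    · rw [Set.indicator_of_mem hz]
    · intro j' _ hne
      apply Set.indicator_of_notMem
      intro hz'
      exact hne (hz'.2.symm.trans hz.2)
  · intro m' _ hne
    apply Finset.sum_eq_zero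
    intro j' _
    apply Set.indicator_of_notMem
    intro hz'
    exact (Set.disjoint_left.1 (hd hne)) hz'.1 hz.1

theorem cutf_of_mem (hd : Pairwise (Function.onFun Disjoint B)) {m : Fin N} {j : ℤ}
    (hj : j ∈ jr (ii m)) {z : ℝ × ℝ} (hz : z ∈ strp (B m) (R m) j) :
    cutf B R ii hi st z = min (hi z) (st m j z.1) := by
  have h1 : z ∈ allS B R ii := ⟨m, j, hj, hz⟩
  unfold cutf
  rw [if_pos h1, stz_of_mem hd hj hz]

theorem cutf_of_notMem {z : ℝ × ℝ} (hz : z ∉ allS B R ii) : cutf B R ii hi st z = hi z := by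
  unfold cutf
  rw [if_neg hz]

/-- the removed points lie in the removed parts of the strips -/
theorem cutf_rem (hd : Pairwise (Function.onFun Disjoint B)) {lo : ℝ × ℝ → ℕ} {z : ℝ × ℝ}
    (h1 : lo z < hi z) (h2 : cutf B R ii hi st z < hi z) :
    ∃ m, ∃ j ∈ jr (ii m), z ∈ strp (B m) (R m) j ∧ lo z < hi z ∧ st m j z.1 < hi z := by
  by_cases hz : z ∈ allS B R ii
  · obtain ⟨m, j, hj, hmem⟩ := hz
    refine ⟨m, j, hj, hmem, h1, ?_⟩
    rw [cutf_of_mem hd hj hmem] at h2
    omega
  · rw [cutf_of_notMem hz] at h2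
    exact absurd h2 (lt_irrefl _)

end cut

/-! ### the pairing -/

theorem term_nice {φ ζ : ℝ → ℝ} (P : PZ φ ζ) {U : ℝ × ℝ → ℝ} (hU : Measurable U) {W : ℝ}
    (hW : ∀ z, |U z| ≤ W) {g : ℝ × ℝ → ℝ} (hg : Nice g) {S : ℕ} {lo hi : ℝ × ℝ → ℕ}
    (hC : Chain S lo hi) (s' : ℕ) (z' : ℝ × ℝ) :
    Nice (fun z => g z * ∑ s ∈ Finset.Ico (lo z) (hi z), cc s s' * pr φ ζ U s s' z z') := by
  obtain ⟨h1, h2, hS⟩ := hC
  have e : (fun z => g z * ∑ s ∈ Finset.Ico (lo z) (hi z), cc s s' * pr φ ζ U s s' z z') =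
      fun z => ∑ s ∈ Finset.range S, cc s s' *
        (GG φ ζ U s s' z z' * ({z : ℝ × ℝ | lo z ≤ s ∧ s < hi z}.indicator g z)) := by
    funext z
    have hsub : Finset.Ico (lo z) (hi z) =
        (Finset.range S).filter (fun s => lo z ≤ s ∧ s < hi z) := by
      ext s
      simp only [Finset.mem_Ico, Finset.mem_filter, Finset.mem_range]
      constructor
      · intro h; exact ⟨lt_of_lt_of_le h.2 (hS z), h⟩
      · intro h; exact h.2
    rw [hsub, Finset.mul_sum, Finset.sum_filter]
    apply Finset.sum_congr rfl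
    intro s _
    rw [Set.indicator_apply]
    simp only [Set.mem_setOf_eq, pr_GG]
    split_ifs
    · ring
    · ring
  rw [e]
  apply nice_sum
  intro s _
  apply nice_smul
  apply (GG_ker P hU hW s s').sec
  apply nice_ind hg
  exact (measurableSet_le h1 measurable_const).inter (measurableSet_lt measurable_const h2)

/-- **decomposition of the pairing over the strips** -/
theorem pair_sum {φ ζ : ℝ → ℝ} (P : PZ φ ζ) {U : ℝ × ℝ → ℝ} (hU : Measurable U) {W : ℝ}
    (hW : ∀ z, |U z| ≤ W) {h : ℝ × ℝ → ℝ} (hh : Nice h) {S : ℕ} {lo hi : ℝ × ℝ → ℕ}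
    (hC : Chain S lo hi) {N : ℕ} {B : Fin N → Set (ℝ × ℝ)} {R : Fin N → Tube} {ii : Fin N → ℕ}
    {st : Fin N → ℤ → ℝ → ℕ} (hB : ∀ m, MeasurableSet (B m))
    (hd : Pairwise (Function.onFun Disjoint B)) (hst : ∀ m j, Measurable (st m j))
    (hun : ∀ z, h z ≠ 0 → lo z < hi z → ∃ m, z ∈ B m)
    (hnr : ∀ m, ∀ z ∈ B m, lo z < hi z → |z.2 - ((R m).b + (R m).m * z.1)| ≤ 5 * 2 ^ ii m)
    (a b : ℕ) (z' : ℝ × ℝ) :
    Pair φ ζ U Set.univ lo (cutf B R ii hi st) h a b z' =
      ∑ m, ∑ j ∈ jr (ii m), Pair φ ζ U (strp (B m) (R m) j) lo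
        (fun z => min (hi z) (st m j z.1)) ((B m).indicator h) a b z' := by
  classical
  obtain ⟨h1, h2, hS⟩ := hC
  have hS' : ∀ m j, Chain S lo (fun z => min (hi z) (st m j z.1)) := fun m j =>
    ⟨h1, h2.min ((hst m j).comp measurable_fst), fun z => (min_le_left _ _).trans (hS z)⟩
  have hn : ∀ m j, Nice ((strp (B m) (R m) j).indicator ((B m).indicator h)) := fun m j =>
    nice_ind (nice_ind hh (hB m)) (measurableSet_strp (hB m) (R m) j)
  unfold Pair
  -- exchange the sums
  have e1 : ∑ m, ∑ j ∈ jr (ii m), ∑ s' ∈ Finset.Ico a b,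
      ∫ z, (strp (B m) (R m) j).indicator ((B m).indicator h) z *
        ∑ s ∈ Finset.Ico (lo z) (min (hi z) (st m j z.1)), cc s s' * pr φ ζ U s s' z z' =
      ∑ s' ∈ Finset.Ico a b, ∫ z, ∑ m, ∑ j ∈ jr (ii m),
        (strp (B m) (R m) j).indicator ((B m).indicator h) z *
        ∑ s ∈ Finset.Ico (lo z) (min (hi z) (st m j z.1)), cc s s' * pr φ ζ U s s' z z' := by
    rw [Finset.sum_congr rfl (fun m _ => Finset.sum_comm), Finset.sum_comm]
    apply Finset.sum_congr rfl
    intro s' _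
    rw [integral_finsetSum]
    · apply Finset.sum_congr rfl
      intro m _
      rw [integral_finsetSum]
      intro j _
      exact nice_int (term_nice P hU hW (hn m j) (hS' m j) s' z')
    · intro m _
      apply integrable_finsetSum
      intro j _
      exact nice_int (term_nice P hU hW (hn m j) (hS' m j) s' z')
  rw [e1]
  apply Finset.sum_congr rfl
  intro s' _
  apply integral_congr_ae
  apply Filter.Eventually.of_forall
  intro z
  simp only [Set.indicator_univ]
  by_cases hz : z ∈ allS B R ii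
  · obtain ⟨m, j, hj, hmem⟩ := hz
    rw [Finset.sum_eq_single_of_mem m (Finset.mem_univ _)]
    · rw [Finset.sum_eq_single_of_mem j hj]
      · rw [Set.indicator_of_mem hmem, Set.indicator_of_mem hmem.1, cutf_of_mem hd hj hmem]
      · intro j' _ hne
        rw [Set.indicator_of_notMem, zero_mul]
        intro hz'
        exact hne (hz'.2.symm.trans hmem.2)
    · intro m' _ hne
      apply Finset.sum_eq_zero
      intro j' _
      rw [Set.indicator_of_notMem, zero_mul]
      intro hz'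
      exact (Set.disjoint_left.1 (hd hne)) hz'.1 hmem.1
  · rw [cutf_of_notMem hz]
    have hr : ∑ m, ∑ j ∈ jr (ii m),
        (strp (B m) (R m) j).indicator ((B m).indicator h) z *
        ∑ s ∈ Finset.Ico (lo z) (min (hi z) (st m j z.1)), cc s s' * pr φ ζ U s s' z z' = 0 := by
      apply Finset.sum_eq_zero
      intro m _
      apply Finset.sum_eq_zero
      intro j hj
      rw [Set.indicator_of_notMem, zero_mul]
      intro hmem
      exact hz ⟨m, j, hj, hmem⟩
    rw [hr]
    by_cases h0 : h z = 0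
    · rw [h0, zero_mul]
    · by_cases hlt : lo z < hi z
      · exfalso
        obtain ⟨m, hm⟩ := hun z h0 hlt
        exact hz ⟨m, sj (R m) z, sj_mem (hnr m z hm hlt), hm, rfl⟩
      · rw [Finset.Ico_eq_empty (fun h => hlt h), Finset.sum_empty, mul_zero]

theorem jx_mono {r s : ℕ} (h : r ≤ s) {x y : ℝ} (hxy : jx s x = jx s y) : jx r x = jx r y :=
  Crest.Agent.R087.Sqx282.ix_mono h hxy

theorem mem_I_iff (R : Tube) (x : ℝ) : x ∈ R.I ↔ jx R.k x = R.j := by
  have e : (2 : ℝ) ^ R.k * R.len = 1 := by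
    unfold Tube.len; rw [← mul_pow]; norm_num
  have hp : (0 : ℝ) < 2 ^ R.k := by positivity
  have hl := R.len_pos
  unfold jx
  rw [Int.floor_eq_iff, Tube.I, Set.mem_Ico]
  constructor
  · rintro ⟨h1, h2⟩
    constructor
    · calc (R.j : ℝ) = 2 ^ R.k * (R.j * R.len) := by
            rw [mul_comm (R.j : ℝ), ← mul_assoc, e, one_mul]
        _ ≤ 2 ^ R.k * x := mul_le_mul_of_nonneg_left h1 hp.le
    · calc (2 : ℝ) ^ R.k * x < 2 ^ R.k * ((R.j + 1) * R.len) := mul_lt_mul_of_pos_left h2 hp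
        _ = R.j + 1 := by rw [mul_comm ((R.j : ℝ) + 1), ← mul_assoc, e, one_mul]
  · rintro ⟨h1, h2⟩
    have ex : x = (2 ^ R.k * x) * R.len := by
      rw [mul_comm ((2 : ℝ) ^ R.k), mul_assoc, e, mul_one]
    constructor
    · rw [ex]; exact mul_le_mul_of_nonneg_right h1 hl.le
    · rw [ex]; exact mul_lt_mul_of_pos_right h2 hl

/-- the pairing with a strip vanishes off the tube, or for scales longer than the tube -/
theorem pair_zero {φ ζ : ℝ → ℝ} (P : PZ φ ζ) {U g : ℝ × ℝ → ℝ} {B : Set (ℝ × ℝ)}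
    {lo hi hi2 : ℝ × ℝ → ℕ} {R : Tube} (h12 : ∀ z, hi2 z ≤ hi z)
    (hB : ∀ z ∈ B, lo z < hi z → z.1 ∈ R.I ∧ R.k ≤ lo z) {a b : ℕ} {z' : ℝ × ℝ}
    (hz : z'.1 ∉ R.I ∨ b ≤ R.k) :
    Pair φ ζ U B lo hi2 g a b z' = 0 := by
  unfold Pair
  apply Finset.sum_eq_zero
  intro s' hs'
  rw [Finset.mem_Ico] at hs'
  have : ∀ z, B.indicator g z *
      ∑ s ∈ Finset.Ico (lo z) (hi2 z), cc s s' * pr φ ζ U s s' z z' = 0 := by
    intro z
    by_cases hzB : z ∈ B
    · have hsum : ∑ s ∈ Finset.Ico (lo z) (hi2 z), cc s s' * pr φ ζ U s s' z z' = 0 := by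
        apply Finset.sum_eq_zero
        intro s hs
        rw [Finset.mem_Ico] at hs
        have hlt : lo z < hi z := lt_of_le_of_lt hs.1 (lt_of_lt_of_le hs.2 (h12 z))
        obtain ⟨hI, hk⟩ := hB z hzB hlt
        by_cases hss : s ≤ s'
        · rcases hz with hz | hz
          · have : pr φ ζ U s s' z z' = 0 := by
              by_contra hne
              rw [pr_GG] at hne
              have h1 : jx s z.1 = jx s z'.1 := GG_cell P hss hne
              have h2 : jx R.k z.1 = jx R.k z'.1 := jx_mono (hk.trans hs.1) h1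
              exact hz ((mem_I_iff R z'.1).2 (h2.symm.trans ((mem_I_iff R z.1).1 hI)))
            rw [this, mul_zero]
          · omega
        · have : cc s s' = 0 := by
            unfold cc
            split_ifs <;> first | rfl | omega
          rw [this, zero_mul]
      rw [hsum, mul_zero]
    · rw [Set.indicator_of_notMem hzB, zero_mul]
  simp only [this, integral_zero]

end Crest.Agent.R087.LowPairx232
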