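import Crest.Agent.R087.E2Kf_752
import Crest.Agent.R087.Geo_752

/-!
# Row 87: definition-free core of OMEGA + final Cauchy-Schwarz (helper627)

* `cs_mem` : Cauchy-Schwarz for real functions in `L²`;
* `mem_ind` : finite combinations of indicators are in `L²`;
* `hw` : `∑_t thr_t ∑_k 2^k |R_t ∩ Ω_k| ≤ ‖∑_t thr_t 1_{R_t}‖ * (4 ∑_k 4^k |Ω_k|)^{1/2}`.
-/

set_option autoImplicit false

noncomputable section

open MeasureTheory

namespace Crest.Agent.R087.Omegax627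

/-- Cauchy-Schwarz for real functions in `L²` -/
theorem cs_mem {α : Type*} [MeasurableSpace α] {μ : Measure α} {f g : α → ℝ}
    (hf : MemLp f 2 μ) (hg : MemLp g 2 μ) :
    (∫ z, f z * g z ∂μ) ^ 2 ≤ (∫ z, (f z) ^ 2 ∂μ) * ∫ z, (g z) ^ 2 ∂μ := by
  have hF : Integrable (fun z => (f z) ^ 2) μ := hf.integrable_sq
  have hG : Integrable (fun z => (g z) ^ 2) μ := hg.integrable_sq
  have hFG : Integrable (fun z => f z * g z) μ := hf.integrable_mul hg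
  have key : ∀ t : ℝ, 0 ≤ (∫ y, (f y) ^ 2 ∂μ) * (t * t) + (2 * ∫ y, f y * g y ∂μ) * t
      + ∫ y, (g y) ^ 2 ∂μ := by
    intro t
    have h0 : 0 ≤ ∫ y, (t * f y + g y) ^ 2 ∂μ := integral_nonneg fun y => sq_nonneg _
    have h1 : ∫ y, (t * f y + g y) ^ 2 ∂μ
        = ∫ y, ((t * t) * (f y) ^ 2 + (2 * t) * (f y * g y)) + (g y) ^ 2 ∂μ := by
      congr 1; funext y; ring
    have h3 : ∫ y, ((t * t) * (f y) ^ 2 + (2 * t) * (f y * g y)) + (g y) ^ 2 ∂μ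
        = (∫ y, ((t * t) * (f y) ^ 2 + (2 * t) * (f y * g y)) ∂μ) + ∫ y, (g y) ^ 2 ∂μ :=
      integral_add ((hF.const_mul _).add (hFG.const_mul _)) hG
    have h4 : ∫ y, ((t * t) * (f y) ^ 2 + (2 * t) * (f y * g y)) ∂μ
        = (∫ y, (t * t) * (f y) ^ 2 ∂μ) + ∫ y, (2 * t) * (f y * g y) ∂μ :=
      integral_add (hF.const_mul _) (hFG.const_mul _)
    rw [h1, h3, h4, integral_const_mul, integral_const_mul] at h0
    linarith
  have h2 := discrim_le_zero key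
  unfold discrim at h2
  nlinarith [h2]

/-- square root form -/
theorem cs_mem_sqrt {α : Type*} [MeasurableSpace α] {μ : Measure α} {f g : α → ℝ}
    (hf : MemLp f 2 μ) (hg : MemLp g 2 μ) :
    ∫ z, f z * g z ∂μ ≤ Real.sqrt (∫ z, (f z) ^ 2 ∂μ) * Real.sqrt (∫ z, (g z) ^ 2 ∂μ) := by
  rw [← Real.sqrt_mul (integral_nonneg fun z => sq_nonneg _)]
  exact Real.le_sqrt_of_sq_le (cs_mem hf hg)

/-- finite combinations of indicators of sets of finite measure are in `L²` -/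
theorem mem_ind {α : Type*} [MeasurableSpace α] (μ : Measure α) {ι : Type*} (s : Finset ι)
    (B : ι → Set α) (a : ι → ℝ) (hB : ∀ i ∈ s, MeasurableSet (B i)) (hf : ∀ i ∈ s, μ (B i) ≠ ⊤) :
    MemLp (fun z => ∑ i ∈ s, a i * (B i).indicator (1 : α → ℝ) z) 2 μ := by
  apply memLp_finsetSum
  intro i hi
  exact (memLp_indicator_const 2 (hB i hi) (1 : ℝ) (Or.inr (hf i hi))).const_mul (a i)

/-- the double sum is the integral of the product -/
theorem prod_int {α : Type*} [MeasurableSpace α] (μ : Measure α) {ι κ : Type*} (T : Finset ι)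
    (F : Finset κ) (R : ι → Set α) (Ω : κ → Set α) (a : ι → ℝ) (b : κ → ℝ)
    (hR : ∀ i ∈ T, MeasurableSet (R i)) (hRf : ∀ i ∈ T, μ (R i) ≠ ⊤)
    (hΩ : ∀ k ∈ F, MeasurableSet (Ω k)) :
    ∑ i ∈ T, a i * ∑ k ∈ F, b k * (μ (R i ∩ Ω k)).toReal =
      ∫ z, (∑ i ∈ T, a i * (R i).indicator 1 z) * (∑ k ∈ F, b k * (Ω k).indicator 1 z) ∂μ := by
  have e : ∀ z, (∑ i ∈ T, a i * (R i).indicator (1 : α → ℝ) z) *
      (∑ k ∈ F, b k * (Ω k).indicator (1 : α → ℝ) z) =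
      ∑ i ∈ T, ∑ k ∈ F, (a i * b k) * (R i ∩ Ω k).indicator (1 : α → ℝ) z := by
    intro z
    rw [Finset.sum_mul_sum]
    refine Finset.sum_congr rfl (fun i _ => Finset.sum_congr rfl (fun k _ => ?_))
    have : (R i ∩ Ω k).indicator (1 : α → ℝ) z =
        (R i).indicator (1 : α → ℝ) z * (Ω k).indicator (1 : α → ℝ) z := by
      rw [Set.inter_indicator_one]; rfl
    rw [this]; ring
  have hi : ∀ i ∈ T, ∀ k ∈ F,
      Integrable (fun z => (a i * b k) * (R i ∩ Ω k).indicator (1 : α → ℝ) z) μ := by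
    intro i hi k hk
    apply Integrable.const_mul
    exact (integrable_indicator_iff ((hR i hi).inter (hΩ k hk))).2
      (integrableOn_const (measure_ne_top_of_subset Set.inter_subset_left (hRf i hi)) (by simp))
  simp_rw [e]
  rw [integral_finsetSum _ (fun i hi' => integrable_finsetSum _ (hi i hi'))]
  refine Finset.sum_congr rfl (fun i hi' => ?_)
  rw [integral_finsetSum _ (hi i hi'), Finset.mul_sum]
  refine Finset.sum_congr rfl (fun k hk => ?_)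
  rw [integral_const_mul, integral_indicator_one ((hR i hi').inter (hΩ k hk))]
  simp only [Measure.real]
  ring

/-- `∑_t thr_t ∑_k 2^k |R_t ∩ Ω_k| ≤ ‖∑_t thr_t 1_{R_t}‖ * (4 ∑_k 4^k |Ω_k|)^{1/2}` -/
theorem hw {α : Type*} [MeasurableSpace α] (μ : Measure α) {ι : Type*} (T : Finset ι)
    (F : Finset ℤ) (R : ι → Set α) (Ω : ℤ → Set α) (a : ι → ℝ)
    (hR : ∀ i ∈ T, MeasurableSet (R i)) (hRf : ∀ i ∈ T, μ (R i) ≠ ⊤)
    (hΩ : ∀ k ∈ F, MeasurableSet (Ω k)) (hΩf : ∀ k ∈ F, μ (Ω k) ≠ ⊤) :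
    ∑ i ∈ T, a i * ∑ k ∈ F, (2 : ℝ) ^ k * (μ (R i ∩ Ω k)).toReal ≤
      Real.sqrt (∫ z, (∑ i ∈ T, a i * (R i).indicator 1 z) ^ 2 ∂μ) *
        Real.sqrt (4 * ∑ k ∈ F, (4 : ℝ) ^ k * (μ (Ω k)).toReal) := by
  rw [prod_int μ T F R Ω a (fun k : ℤ => (2 : ℝ) ^ k) hR hRf hΩ]
  refine (cs_mem_sqrt (mem_ind μ T R a hR hRf) (mem_ind μ F Ω _ hΩ hΩf)).trans ?_
  apply mul_le_mul_of_nonneg_left _ (Real.sqrt_nonneg _)
  exact Real.sqrt_le_sqrt (Geox752.geo_int μ F Ω hΩ hΩf)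

end Crest.Agent.R087.Omegax627
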