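import Crest.Agent.R087.OP0_270
import Crest.Agent.R087.SqL_282
import Crest.Agent.R087.E2Kf_752
import Crest.Agent.R087.Omega_627

/-!
Row 87 (S0115), leaf `L_LOWN` (helper772), part A: the unit strips of the tops.
-/

set_option autoImplicit false

noncomputable section

open MeasureTheory

namespace Crest.Agent.R087.LownAx772

open Crest.Agent.R087.Sh0x283 Crest.Agent.R087.E2x542 Crest.Agent.R087.E2Kx752
  Crest.Agent.R087.GateDefx273 Crest.Agent.R087.OP0x270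

/-- the tube `R`, moved up by `j` -/
def up (R : Tube) (j : ℤ) : Tube := ⟨R.k, R.j, R.b + j, R.m⟩

theorem up_int {R : Tube} (h : IntT R) (j : ℤ) : IntT (up R j) := by
  obtain ⟨⟨a, ha⟩, m, hm⟩ := h
  refine ⟨⟨a + j, ?_⟩, m, hm⟩
  show R.b + j = ((a + j : ℤ) : ℝ)
  rw [ha]; push_cast; ring

theorem up_line (R : Tube) (j : ℤ) (t : ℝ) : (up R j).line t = R.line t + j := by
  unfold up Tube.line; ring

/-- index of the unit strip -/
def jn (R : Tube) (z : ℝ × ℝ) : ℤ := ⌊z.2 - R.line z.1⌋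

/-- range of the strips for the dilation `2^i` -/
def jr (i : ℕ) : Finset ℤ := Finset.Icc (-(5 * 2 ^ i)) (5 * 2 ^ i)

theorem jn_mem {U : ℝ × ℝ → ℝ} {R : Tube} {i s : ℕ} {z : ℝ × ℝ}
    (h : near U (5 * 2 ^ i) R.b R.m s z) : jn R z ∈ jr i := by
  have h1 := abs_le.1 h.1
  unfold jn jr
  rw [Finset.mem_Icc]
  have e : R.line z.1 = R.b + R.m * z.1 := rfl
  constructor
  · rw [Int.le_floor]; push_cast; rw [e]; linarith [h1.1]
  · rw [← Int.cast_le (R := ℝ)]
    refine le_trans (Int.floor_le _) ?_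
    push_cast; rw [e]; linarith [h1.2]

theorem jr_card (i : ℕ) : ((jr i).card : ℝ) ≤ 11 * 2 ^ i := by
  unfold jr
  rw [Int.card_Icc]
  have h1 : (5 * 2 ^ i + 1 - -(5 * 2 ^ i) : ℤ) = ((10 * 2 ^ i + 1 : ℕ) : ℤ) := by push_cast; ring
  rw [h1, Int.toNat_natCast]
  push_cast
  have : (1 : ℝ) ≤ 2 ^ i := one_le_pow₀ (by norm_num)
  linarith

theorem fat_up_iff (R : Tube) (j : ℤ) (w : ℝ × ℝ) :
    w ∈ fat 1 (up R j) ↔ w.1 ∈ R.I ∧ |w.2 - R.line w.1 - j| ≤ 1 := by
  unfold fat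
  rw [Set.mem_ofPred_eq, up_line]
  have : w.2 - (R.line w.1 + j) = w.2 - R.line w.1 - j := by ring
  rw [this]
  exact Iff.rfl

/-- the strips overlap at most three times and lie in the fat tube -/
theorem strips_le (R : Tube) (i : ℕ) (w : ℝ × ℝ) :
    ∑ j ∈ jr i, (fat 1 (up R j)).indicator (1 : ℝ × ℝ → ℝ) w ≤
      3 * (fat (32 * 2 ^ i) R).indicator 1 w := by
  classical
  have h2i : (1 : ℝ) ≤ 2 ^ i := one_le_pow₀ (by norm_num)
  by_cases hw : w ∈ fat (32 * 2 ^ i) R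
  · rw [Set.indicator_of_mem hw, Pi.one_apply, mul_one]
    set t := w.2 - R.line w.1 with ht
    have h1 : ∀ j ∈ jr i, (fat 1 (up R j)).indicator (1 : ℝ × ℝ → ℝ) w ≤
        if j ∈ Finset.Icc (⌊t⌋ - 1) (⌊t⌋ + 1) then 1 else 0 := by
      intro j _
      by_cases hj : w ∈ fat 1 (up R j)
      · rw [Set.indicator_of_mem hj, Pi.one_apply, if_pos]
        have h2 := (fat_up_iff R j w).1 hj
        have h3 := abs_le.1 h2.2
        have h4 := Int.floor_le t
        have h5 := Int.lt_floor_add_one t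
        rw [Finset.mem_Icc]
        constructor
        · have : (⌊t⌋ : ℝ) - 1 ≤ j := by linarith [h3.2]
          exact_mod_cast this
        · have : (j : ℝ) < ⌊t⌋ + 2 := by linarith [h3.1]
          have h6 : j < ⌊t⌋ + 2 := by exact_mod_cast this
          omega
      · rw [Set.indicator_of_notMem hj]
        split_ifs <;> norm_num
    refine (Finset.sum_le_sum h1).trans ?_
    rw [Finset.sum_ite_mem, Finset.sum_const, nsmul_eq_mul, mul_one]
    have h2 : (jr i ∩ Finset.Icc (⌊t⌋ - 1) (⌊t⌋ + 1)).card ≤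
        (Finset.Icc (⌊t⌋ - 1) (⌊t⌋ + 1)).card := Finset.card_le_card Finset.inter_subset_right
    rw [Int.card_Icc] at h2
    have h3 : (⌊t⌋ + 1 + 1 - (⌊t⌋ - 1)).toNat = 3 := by
      have : ⌊t⌋ + 1 + 1 - (⌊t⌋ - 1) = 3 := by ring
      rw [this]; rfl
    rw [h3] at h2
    exact_mod_cast h2
  · rw [Set.indicator_of_notMem hw, mul_zero]
    refine le_of_eq (Finset.sum_eq_zero fun j hj => ?_)
    apply Set.indicator_of_notMem
    intro hc
    obtain ⟨h3, h4⟩ := (fat_up_iff R j w).1 hc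
    apply hw
    refine ⟨h3, ?_⟩
    rw [jr, Finset.mem_Icc] at hj
    have h5 : |(j : ℝ)| ≤ 5 * 2 ^ i := by
      rw [abs_le]
      constructor
      · have := hj.1
        have h : ((-(5 * 2 ^ i) : ℤ) : ℝ) ≤ j := by exact_mod_cast this
        push_cast at h; exact h
      · have := hj.2
        have h : (j : ℝ) ≤ ((5 * 2 ^ i : ℤ) : ℝ) := by exact_mod_cast this
        push_cast at h; exact h
    calc |w.2 - R.line w.1| = |(w.2 - R.line w.1 - j) + j| := by ring_nf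
      _ ≤ |w.2 - R.line w.1 - j| + |(j : ℝ)| := abs_add_le _ _
      _ ≤ 1 + 5 * 2 ^ i := add_le_add h4 h5
      _ ≤ 32 * 2 ^ i := by linarith

section

variable (lo hi : ℝ × ℝ → ℕ) {N : ℕ} (R : Fin N → Tube) (B : Fin N → Set (ℝ × ℝ))

/-- the strip `j` of the attached alive points of the top `m` -/
def sp (p : Σ _ : Fin N, ℤ) : Set (ℝ × ℝ) :=
  {z | z ∈ B p.1 ∧ lo z < hi z ∧ jn (R p.1) z = p.2}

/-- all indices -/
def PP (ii : Fin N → ℕ) : Finset (Σ _ : Fin N, ℤ) := Finset.univ.sigma fun m => jr (ii m)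

end

section

variable {lo hi : ℝ × ℝ → ℕ} {N : ℕ} {R : Fin N → Tube} {B E : Fin N → Set (ℝ × ℝ)}
  {U h : ℝ × ℝ → ℝ} {A n S : ℕ} {kk : Fin N → ℤ} {ii : Fin N → ℕ}

theorem jn_meas (R : Tube) : Measurable (jn R) := by
  unfold jn Tube.line
  exact Int.measurable_floor.comp (by fun_prop)

theorem lt_meas {lo hi : ℝ × ℝ → ℕ} (h1 : Measurable lo) (h2 : Measurable hi) :
    MeasurableSet {z | lo z < hi z} := measurableSet_lt h1 h2

theorem sp_meas (hB : ∀ m, MeasurableSet (B m)) (h1 : Measurable lo) (h2 : Measurable hi)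
    (p : Σ _ : Fin N, ℤ) : MeasurableSet (sp lo hi R B p) := by
  unfold sp
  refine (hB p.1).inter ((lt_meas h1 h2).inter ?_)
  exact (jn_meas (R p.1)) (MeasurableSet.singleton p.2)

theorem sp_disj (hd : Pairwise (Function.onFun Disjoint B)) {p p' : Σ _ : Fin N, ℤ} {z : ℝ × ℝ}
    (h1 : z ∈ sp lo hi R B p) (h2 : z ∈ sp lo hi R B p') : p = p' := by
  obtain ⟨m, j⟩ := p
  obtain ⟨m', j'⟩ := p'
  have hm : m = m' := by
    by_contra hne
    exact Set.disjoint_left.mp (hd hne) h1.1 h2.1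
  subst hm
  have : j = j' := h1.2.2.symm.trans h2.2.2
  subst this
  rfl

theorem sp_cover (hT : IsTops U h A n lo hi N R kk ii E B) {z : ℝ × ℝ} (hz : h z ≠ 0)
    (hl : lo z < hi z) : ∃ p ∈ PP (N := N) ii, z ∈ sp lo hi R B p := by
  obtain ⟨m, hm⟩ := hT.unB z hz hl
  refine ⟨⟨m, jn (R m) z⟩, ?_, hm, hl, rfl⟩
  unfold PP
  rw [Finset.mem_sigma]
  exact ⟨Finset.mem_univ _, jn_mem (hT.top m z hm hl).2.2⟩

/-- the points of a strip are unit near to its line -/
theorem sp_near (hT : IsTops U h A n lo hi N R kk ii E B)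
    (hlow : ∀ m, ∀ z ∈ B m, lo z < hi z → |U z - (R m).m| * (1 / 2 : ℝ) ^ lo z ≤ 1)
    {p : Σ _ : Fin N, ℤ} {z : ℝ × ℝ} (hz : z ∈ sp lo hi R B p) :
    z.1 ∈ (up (R p.1) p.2).I ∧ (up (R p.1) p.2).k ≤ lo z ∧
      near U 1 (up (R p.1) p.2).b (up (R p.1) p.2).m (lo z) z := by
  obtain ⟨h1, h2, h3⟩ := hz
  obtain ⟨h4, h5, h6⟩ := hT.top p.1 z h1 h2
  refine ⟨h4, h5, ?_, hlow p.1 z h1 h2⟩
  have h7 := Int.floor_le (z.2 - (R p.1).line z.1)
  have h8 := Int.lt_floor_add_one (z.2 - (R p.1).line z.1)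
  have h9 : ⌊z.2 - (R p.1).line z.1⌋ = p.2 := h3
  rw [h9] at h7 h8
  show |z.2 - ((R p.1).b + p.2 + (R p.1).m * z.1)| ≤ 1
  unfold Tube.line at h7 h8
  rw [abs_le]
  constructor <;> linarith

theorem sp_bd (hT : IsTops U h A n lo hi N R kk ii E B) (p : Σ _ : Fin N, ℤ) (z : ℝ × ℝ) :
    |(sp lo hi R B p).indicator h z| ≤ (2 : ℝ) ^ (kk p.1 + 1) := by
  by_cases hz : z ∈ sp lo hi R B p
  · rw [Set.indicator_of_mem hz]
    exact (hT.subB p.1 hz.1).2.le
  · rw [Set.indicator_of_notMem hz, abs_zero]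
    positivity

/-- nonvanishing points of a nice function have finite measure -/
theorem sp_fin (hT : IsTops U h A n lo hi N R kk ii E B) (hh : Nice h) (p : Σ _ : Fin N, ℤ) :
    volume (sp lo hi R B p) ≠ ⊤ := by
  obtain ⟨h1, -, r, hr⟩ := hh
  have hs : sp lo hi R B p ⊆ Metric.closedBall (0 : ℝ × ℝ) r := by
    intro z hz
    rw [mem_closedBall_zero_iff]
    by_contra hc
    push Not at hc
    have h2 := hr z hc
    have h3 := (hT.subB p.1 hz.1).1
    rw [h2, abs_zero] at h3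
    have : (0 : ℝ) < 2 ^ kk p.1 := by positivity
    linarith
  exact ne_top_of_le_ne_top measure_closedBall_lt_top.ne (measure_mono hs)

theorem sp_mass (m3 : MASS3) (hA : 2 ≤ A) (hU : Measurable U) (hh : Nice h) (hC : Chain S lo hi)
    (hup : UppAt U h A n lo hi) (hT : IsTops U h A n lo hi N R kk ii E B)
    (hlow : ∀ m, ∀ z ∈ B m, lo z < hi z → |U z - (R m).m| * (1 / 2 : ℝ) ^ lo z ≤ 1)
    (p : Σ _ : Fin N, ℤ) :
    Mass3 (sp lo hi R B p) lo hi (up (R p.1) p.2).k (4 * (1 / 2 : ℝ) ^ n) := by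
  have h := m3 A n hA U h S lo hi hU hh hC hup (kk p.1) 0 (up (R p.1) p.2) (sp lo hi R B p)
    (up_int (hT.intT p.1) p.2) (sp_meas hT.mB hC.1 hC.2.1 p) (fun z hz => hT.subB p.1 hz.1)
    (fun z hz _ => by simpa using sp_near hT hlow hz)
  simpa using h

end

end Crest.Agent.R087.LownAx772
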