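import Crest.Agent.R087.LownA_772
import Crest.Agent.R087.Tops_565
import Crest.Agent.R087.OPasm_799

/-!
Row 87 (S0115), leaf `L_LOWN` (helper772), part B: decomposition of the pairing over the strips.
-/

set_option autoImplicit false

noncomputable section

open MeasureTheory

namespace Crest.Agent.R087.LownBx772

open Crest.Agent.R087.Sh0x283 Crest.Agent.R087.E2x542 Crest.Agent.R087.E2Kx752
  Crest.Agent.R087.GateDefx273 Crest.Agent.R087.OP0x270 Crest.Agent.R087.LownAx772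
open Crest.Agent.R087.Sqx282 (PZ GG kk_ker GG_ker GG_cell nice_int nice_ind nice_mul nice_bmul ix_mono)
open Crest.Agent.R087.SqLx282

theorem iter_cont {ω : ℝ → ℝ} (h : ContDiff ℝ (⊤ : ℕ∞) ω) (N : ℕ) :
    Continuous (iteratedDeriv N ω) :=
  h.continuous_iteratedDeriv N (by exact_mod_cast le_top)

theorem ph_ok {ω : ℝ → ℝ} (hω : PW (2 * qq + 8) ω) :
    Continuous (ph ω) ∧ ∀ r, 1 < |r| → ph ω r = 0 :=
  ⟨iter_cont hω.1 _, OPasmx799.iterDeriv_supp hω.2.1 _⟩

section

variable {φ ζ : ℝ → ℝ} {U : ℝ × ℝ → ℝ} {W : ℝ} {S : ℕ} {lo hi : ℝ × ℝ → ℕ}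

theorem term_eq (hS : ∀ z, hi z ≤ S) (g : ℝ × ℝ → ℝ) (s' : ℕ) (z' z : ℝ × ℝ) :
    g z * ∑ s ∈ Finset.Ico (lo z) (hi z), cc s s' * pr φ ζ U s s' z z' =
      ∑ s ∈ Finset.range S, cc s s' * (GG φ ζ U s s' z z' * Hc lo hi g s z) := by
  rw [mul_comm, sum_chain hS]
  refine Finset.sum_congr rfl fun s _ => ?_
  rw [pr_eq]
  ring

theorem term_int (P : PZ φ ζ) (hU : Measurable U) (hW : ∀ z, |U z| ≤ W) (hC : Chain S lo hi)
    {g : ℝ × ℝ → ℝ} (hg : Nice g) (s' : ℕ) (z' : ℝ × ℝ) :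
    Integrable (fun z => g z * ∑ s ∈ Finset.Ico (lo z) (hi z), cc s s' * pr φ ζ U s s' z z') := by
  obtain ⟨h1, h2, hS⟩ := hC
  simp only [term_eq hS]
  exact integrable_finsetSum _ fun s _ =>
    (nice_int ((GG_ker P hU hW s s').sec (Hc_nice h1 h2 hg s) z')).const_mul _

/-- the pairing vanishes off the top cell -/
theorem pair_zero (P : PZ φ ζ) {B : Set (ℝ × ℝ)} {g : ℝ × ℝ → ℝ} {R : Tube}
    (hB : ∀ z ∈ B, z.1 ∈ R.I ∧ R.k ≤ lo z) {a b : ℕ} {z' : ℝ × ℝ}
    (h : z'.1 ∉ R.I ∨ b ≤ R.k) : Pair φ ζ U B lo hi g a b z' = 0 := by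
  unfold Pair
  refine Finset.sum_eq_zero fun s' hs' => ?_
  have hs2 := (Finset.mem_Ico.1 hs').2
  have e : ∀ z, B.indicator g z * ∑ s ∈ Finset.Ico (lo z) (hi z), cc s s' * pr φ ζ U s s' z z' = 0 := by
    intro z
    by_cases hz : z ∈ B
    · obtain ⟨h1, h2⟩ := hB z hz
      have h3 : ∑ s ∈ Finset.Ico (lo z) (hi z), cc s s' * pr φ ζ U s s' z z' = 0 := by
        refine Finset.sum_eq_zero fun s hs => ?_
        have hs1 := (Finset.mem_Ico.1 hs).1
        by_cases hle : s ≤ s'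
        · have hb : R.k < b := by omega
          have hz' : z'.1 ∉ R.I := by
            rcases h with h | h
            · exact h
            · omega
          have h4 : pr φ ζ U s s' z z' = 0 := by
            by_contra hne
            rw [pr_eq] at hne
            have h5 := GG_cell P hle hne
            have h6 := ix_mono (h2.trans hs1) h5
            apply hz'
            rw [Topsx565.mem_I_iff] at h1 ⊢
            exact h6.symm.trans h1
          rw [h4, mul_zero]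
        · unfold cc
          rw [if_neg hle, zero_mul]
      rw [h3, mul_zero]
    · rw [Set.indicator_of_notMem hz, zero_mul]
  simp only [e, integral_zero]

end

section

variable {lo hi : ℝ × ℝ → ℕ} {N : ℕ} {R : Fin N → Tube} {B E : Fin N → Set (ℝ × ℝ)}
  {U h : ℝ × ℝ → ℝ} {A n S : ℕ} {kk : Fin N → ℤ} {ii : Fin N → ℕ} {φ ζ : ℝ → ℝ} {W : ℝ}

/-- the cut of the chains -/
def cut (lo hi : ℝ × ℝ → ℕ) {N : ℕ} (R : Fin N → Tube) (B : Fin N → Set (ℝ × ℝ)) (ii : Fin N → ℕ)
    (st : (Σ _ : Fin N, ℤ) → ℝ → ℕ) (z : ℝ × ℝ) : ℕ :=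
  hi z - ∑ p ∈ LownAx772.PP ii, (sp lo hi R B p).indicator (fun z => hi z - st p z.1) z

theorem cut_le (st : (Σ _ : Fin N, ℤ) → ℝ → ℕ) (z : ℝ × ℝ) : cut lo hi R B ii st z ≤ hi z :=
  Nat.sub_le _ _

theorem nat_sub_meas {f g : ℝ × ℝ → ℕ} (hf : Measurable f) (hg : Measurable g) :
    Measurable fun z => f z - g z :=
  (Measurable.of_discrete (f := fun p : ℕ × ℕ => p.1 - p.2)).comp (hf.prodMk hg)

theorem nat_min_meas {f g : ℝ × ℝ → ℕ} (hf : Measurable f) (hg : Measurable g) :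
    Measurable fun z => min (f z) (g z) :=
  (Measurable.of_discrete (f := fun p : ℕ × ℕ => min p.1 p.2)).comp (hf.prodMk hg)

theorem cut_meas (hB : ∀ m, MeasurableSet (B m)) (h1 : Measurable lo) (h2 : Measurable hi)
    {st : (Σ _ : Fin N, ℤ) → ℝ → ℕ} (hst : ∀ p ∈ LownAx772.PP ii, Measurable (st p)) :
    Measurable (cut lo hi R B ii st) := by
  unfold cut
  refine nat_sub_meas h2 (Finset.measurable_fun_sum _ fun p hp => ?_)
  exact (nat_sub_meas h2 ((hst p hp).comp measurable_fst)).indicator (sp_meas hB h1 h2 p)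

theorem cut_eq (hd : Pairwise (Function.onFun Disjoint B)) (st : (Σ _ : Fin N, ℤ) → ℝ → ℕ)
    {p : Σ _ : Fin N, ℤ} (hp : p ∈ LownAx772.PP ii) {z : ℝ × ℝ} (hz : z ∈ sp lo hi R B p) :
    cut lo hi R B ii st z = min (hi z) (st p z.1) := by
  unfold cut
  rw [Finset.sum_eq_single_of_mem p hp]
  · rw [Set.indicator_of_mem hz]; omega
  · intro p' _ hne
    apply Set.indicator_of_notMem
    intro hz'
    exact hne (sp_disj hd hz' hz)

/-- decomposition of the pairing -/
theorem pair_sum (P : PZ φ ζ) (hU : Measurable U) (hW : ∀ z, |U z| ≤ W) (hC : Chain S lo hi)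
    (hh : Nice h) (hT : IsTops U h A n lo hi N R kk ii E B) {st : (Σ _ : Fin N, ℤ) → ℝ → ℕ}
    (hst : ∀ p ∈ LownAx772.PP ii, Measurable (st p)) (a b : ℕ) (z' : ℝ × ℝ) :
    Pair φ ζ U Set.univ lo (cut lo hi R B ii st) h a b z' =
      ∑ p ∈ LownAx772.PP ii, Pair φ ζ U (sp lo hi R B p) lo (fun z => min (hi z) (st p z.1))
        ((sp lo hi R B p).indicator h) a b z' := by
  obtain ⟨h1, h2, hS⟩ := hC
  unfold Pair
  rw [Finset.sum_comm]
  refine Finset.sum_congr rfl fun s' _ => ?_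
  rw [← integral_finsetSum]
  · congr 1
    funext z
    rw [Set.indicator_univ]
    by_cases hz : ∃ p ∈ LownAx772.PP ii, z ∈ sp lo hi R B p
    · obtain ⟨p, hp, hzp⟩ := hz
      rw [Finset.sum_eq_single_of_mem p hp]
      · rw [Set.indicator_of_mem hzp, Set.indicator_of_mem hzp, cut_eq hT.disB st hp hzp]
      · intro p' _ hne
        rw [Set.indicator_of_notMem (fun hz' => hne (sp_disj hT.disB hz' hzp)), zero_mul]
    · have h0 : h z * ∑ s ∈ Finset.Ico (lo z) (cut lo hi R B ii st z),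
          cc s s' * pr φ ζ U s s' z z' = 0 := by
        by_cases hz0 : h z = 0
        · rw [hz0, zero_mul]
        · have hl : ¬ lo z < hi z := fun hl => hz (sp_cover hT hz0 hl)
          have := cut_le (lo := lo) (hi := hi) (R := R) (B := B) (ii := ii) st z
          rw [Finset.Ico_eq_empty (by omega), Finset.sum_empty, mul_zero]
      rw [h0]
      symm
      refine Finset.sum_eq_zero fun p hp => ?_
      rw [Set.indicator_of_notMem (fun hz' => hz ⟨p, hp, hz'⟩), zero_mul]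
  · intro p hp
    have hm := sp_meas (R := R) hT.mB h1 h2 p
    exact term_int P hU hW (S := S) ⟨h1, nat_min_meas h2 ((hst p hp).comp measurable_fst),
      fun z => (min_le_left _ _).trans (hS z)⟩ (nice_ind (nice_ind hh hm) hm) s' z'

end

end Crest.Agent.R087.LownBx772
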