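import Crest.Agent.R087.MainRnd_575

/-!
Row 87, (E2) MAIN (helper575): assembly of MAIN from the levels and the last rounding error `ERR`.
-/

set_option autoImplicit false

noncomputable section

open MeasureTheory Filter Topology

namespace Crest.Agent.R087.MAINofx575

open E2x542 MainVx575 LevAbsx575 MainOpx575 MainLevx575 MainTBx575 MainRndx575

/-- the last rounding error (helper975) -/
def ERR : Prop := ∃ C : ℝ, 0 ≤ C ∧ ∀ (K n : ℕ) (b M a : Fin n → ℝ) (kk : Fin n → ℕ) (θ : ℕ → ℝ)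
    (M' : Fin n → ℕ → ℝ), (∀ i, 0 ≤ a i) → (∀ k, 0 ≤ θ k ∧ θ k < 1) →
    (∀ i k, 4 * 2 ^ k ≤ |M i| → 0 < M' i k * M i ∧ 4 * 2 ^ k ≤ |M' i k| ∧ |M' i k| ≤ |M i| ∧
      |M i| ≤ |M' i k| + 2 ^ k) →
    ∑ k ∈ Finset.range K, ∫ y, (∑ i with kk i ≤ k ∧ 4 * 2 ^ k ≤ |M i|,
      a i * (kap (θ k) (y - b i) (M i / 2 ^ k) - kap (θ k) (y - b i) (M' i k / 2 ^ k))) ^ 2 ≤
      C * ∫ y, (∑ i, a i * win (y - b i)) ^ 2

/-- `t = 2^{-1/4}` -/
def tt : ℝ := Real.sqrt pp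

theorem tt_sq : tt ^ 2 = pp := Real.sq_sqrt pp_pos.le
theorem tt_pos : 0 < tt := Real.sqrt_pos.2 pp_pos
theorem tt_lt : tt < 1 := by
  have h := tt_sq
  have h1 := pp_lt
  nlinarith [tt_pos]

theorem sum_tt (J : ℕ) : ∑ r ∈ Finset.range J, tt ^ r ≤ (1 - tt)⁻¹ := by
  rw [← tsum_geometric_of_lt_one tt_pos.le tt_lt]
  exact (summable_geometric_of_lt_one tt_pos.le tt_lt).sum_le_tsum _ fun _ _ =>
    pow_nonneg tt_pos.le _

theorem mainof_of_err (hE : ERR) (hM : MART) (hT : TB) : MAIN := by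
  obtain ⟨CE, hCE0, hCE⟩ := hE
  obtain ⟨C0, hC00, hlev⟩ := level hM
  obtain ⟨Ca, hCa0, hCa⟩ := op_T0 hM hT
  obtain ⟨Cb, hCb0, hCb⟩ := op_T1 hM hT
  set D : ℝ := (1 - tt)⁻¹ with hD
  have hD0 : 0 ≤ D := inv_nonneg.2 (by linarith [tt_lt])
  refine ⟨3 * (C0 * Ca * 2 + D * (D * (2 * C0 * Cb)) + CE), ?_⟩
  intro K n b M a kk θ ha hθ
  set J : ℕ := (∑ i, je (M i)) + 1 with hJdef
  have hJ : ∀ i, je (M i) < J := by
    intro i
    have : je (M i) ≤ ∑ i, je (M i) :=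
      Finset.single_le_sum (f := fun i => je (M i)) (fun _ _ => Nat.zero_le _) (Finset.mem_univ i)
    omega
  set Q : ℝ := ∫ y, (∑ i, a i * win (y - b i)) ^ 2 with hQ
  have hQ0 : 0 ≤ Q := integral_nonneg fun y => sq_nonneg _
  set G0 : ℕ → ℝ → ℝ := fun k y => ∑ i with kk i ≤ k, a i * T0 θ J k (cl M J 0 hJ i) (phi (b i)) y
    with hG0
  set G1 : ℕ → ℕ → ℝ → ℝ := fun r k y =>
    ∑ i with kk i ≤ k, a i * T1 θ J r k (cl M J (r + 1) hJ i) (phi (b i)) y with hG1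
  set Er : ℕ → ℝ → ℝ := fun k y => ∑ i with kk i ≤ k ∧ 4 * 2 ^ k ≤ |M i|,
      a i * (kap (θ k) (y - b i) (M i / 2 ^ k) - kap (θ k) (y - b i) (Mr k (M i) / 2 ^ k)) with hEr
  have nG0 : ∀ k, Nice1 (G0 k) := fun k => nice1_sum _ _ fun i _ =>
    nice1_smul ((hCa θ J k _ hθ).nice _ (nice1_phi _)) (a i)
  have nG1 : ∀ r k, Nice1 (G1 r k) := fun r k => nice1_sum _ _ fun i _ =>
    nice1_smul ((hCb θ J r k _ hθ).nice _ (nice1_phi _)) (a i)
  obtain ⟨CT, hCT⟩ := hT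
  have nkap : ∀ (k : ℕ) (i : Fin n) (μ : ℝ), μ ≠ 0 → Nice1 (fun y => kap (θ k) (y - b i) μ) := by
    intro k i μ hμ
    have h := (hCT (θ k) μ 0 (phi (b i)) (hθ k).1 (hθ k).2 hμ (nice1_phi _)).1
    have e : (fun y => kap (θ k) (y - b i) μ) = Tt (θ k) μ (phi (b i)) := by
      funext y; exact kap_eq _ _ _ _
    rw [e]; exact h
  have hne : ∀ (k : ℕ) (x : ℝ), 4 * 2 ^ k ≤ |x| → x / 2 ^ k ≠ 0 := by
    intro k x hx
    have h1 : (0 : ℝ) < 2 ^ k := by positivity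
    have h2 : x ≠ 0 := by
      rintro rfl
      rw [abs_zero] at hx
      linarith
    exact div_ne_zero h2 h1.ne'
  have nEr : ∀ k, Nice1 (Er k) := fun k => nice1_sum _ _ fun i hi => by
    have h4 := (Finset.mem_filter.1 hi).2.2
    exact nice1_smul (nice1_sub (nkap k i _ (hne k _ h4)) (nkap k i _ (hne k _ (Mr_spec h4).2.1)))
      (a i)
  -- pointwise identity
  have hid : ∀ k y, ∑ i with kk i ≤ k ∧ 4 * 2 ^ k ≤ |M i|,
      a i * kap (θ k) (y - b i) (M i / 2 ^ k) =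
      G0 k y + (∑ r ∈ Finset.range J, G1 r k y) + Er k y := by
    intro k y
    have e1 : G0 k y + (∑ r ∈ Finset.range J, G1 r k y) =
        ∑ i with kk i ≤ k ∧ 4 * 2 ^ k ≤ |M i|, a i * kap (θ k) (y - b i) (Mr k (M i) / 2 ^ k) := by
      rw [hG0, hG1]
      simp only
      rw [Finset.sum_comm, ← Finset.sum_add_distrib]
      have e2 : ∀ i, a i * T0 θ J k (cl M J 0 hJ i) (phi (b i)) y +
          ∑ r ∈ Finset.range J, a i * T1 θ J r k (cl M J (r + 1) hJ i) (phi (b i)) y =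
          if 4 * 2 ^ k ≤ |M i| then a i * kap (θ k) (y - b i) (Mr k (M i) / 2 ^ k) else 0 := by
        intro i
        rw [← Finset.mul_sum, ← mul_add, telescope M J hJ θ k i (phi (b i)) y]
        split_ifs
        · rw [kap_eq]
        · rw [mul_zero]
      rw [Finset.sum_congr rfl fun i _ => e2 i, ← Finset.sum_filter, Finset.filter_filter]
    rw [e1, hEr]
    simp only
    rw [← Finset.sum_add_distrib]
    refine Finset.sum_congr rfl fun i _ => by ring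
  -- squares
  have hpt : ∀ k y, (∑ i with kk i ≤ k ∧ 4 * 2 ^ k ≤ |M i|,
      a i * kap (θ k) (y - b i) (M i / 2 ^ k)) ^ 2 ≤
      3 * ((G0 k y) ^ 2 + D * (∑ r ∈ Finset.range J, (tt ^ r)⁻¹ * (G1 r k y) ^ 2) +
        (Er k y) ^ 2) := by
    intro k y
    rw [hid k y]
    have h1 : (∑ r ∈ Finset.range J, G1 r k y) ^ 2 ≤
        D * ∑ r ∈ Finset.range J, (tt ^ r)⁻¹ * (G1 r k y) ^ 2 := by
      have h2 := cs_w (Finset.range J) (fun r => tt ^ r) (fun r => (tt ^ r)⁻¹ * G1 r k y)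
        fun r _ => pow_nonneg tt_pos.le _
      have e3 : ∀ r, tt ^ r * ((tt ^ r)⁻¹ * G1 r k y) = G1 r k y := by
        intro r
        have : tt ^ r ≠ 0 := pow_ne_zero _ tt_pos.ne'
        field_simp
      have e4 : ∀ r, tt ^ r * ((tt ^ r)⁻¹ * G1 r k y) ^ 2 = (tt ^ r)⁻¹ * (G1 r k y) ^ 2 := by
        intro r
        have : tt ^ r ≠ 0 := pow_ne_zero _ tt_pos.ne'
        field_simp
      simp only [e3, e4] at h2
      refine h2.trans (mul_le_mul_of_nonneg_right (sum_tt J) ?_)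
      exact Finset.sum_nonneg fun r _ =>
        mul_nonneg (inv_nonneg.2 (pow_nonneg tt_pos.le _)) (sq_nonneg _)
    set x := G0 k y
    set z := ∑ r ∈ Finset.range J, G1 r k y
    set w := Er k y
    nlinarith [sq_nonneg (x - z), sq_nonneg (x - w), sq_nonneg (z - w)]
  -- integrals
  have i0 : ∀ k, Integrable (fun y => (G0 k y) ^ 2) := fun k =>
    integrable_of_nice1 (nice1_sq (nG0 k))
  have i1 : ∀ r k, Integrable (fun y => (G1 r k y) ^ 2) := fun r k =>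
    integrable_of_nice1 (nice1_sq (nG1 r k))
  have iE : ∀ k, Integrable (fun y => (Er k y) ^ 2) := fun k =>
    integrable_of_nice1 (nice1_sq (nEr k))
  have i1s : ∀ k, Integrable (fun y => ∑ r ∈ Finset.range J, (tt ^ r)⁻¹ * (G1 r k y) ^ 2) :=
    fun k => integrable_finsetSum _ fun r _ => (i1 r k).const_mul _
  have iA : ∀ k, Integrable (fun y => (G0 k y) ^ 2 +
      D * ∑ r ∈ Finset.range J, (tt ^ r)⁻¹ * (G1 r k y) ^ 2) := fun k =>
    (i0 k).add ((i1s k).const_mul D)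
  have hint : ∀ k, ∫ y, (∑ i with kk i ≤ k ∧ 4 * 2 ^ k ≤ |M i|,
      a i * kap (θ k) (y - b i) (M i / 2 ^ k)) ^ 2 ≤
      3 * ((∫ y, (G0 k y) ^ 2) +
        D * (∑ r ∈ Finset.range J, (tt ^ r)⁻¹ * ∫ y, (G1 r k y) ^ 2) + ∫ y, (Er k y) ^ 2) := by
    intro k
    refine (integral_mono_of_nonneg (Filter.Eventually.of_forall fun y => sq_nonneg _)
      (((iA k).add (iE k)).const_mul 3) (Filter.Eventually.of_forall (hpt k))).trans
      (le_of_eq ?_)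
    rw [integral_const_mul]
    congr 1
    have e5 : ∫ y, ((G0 k y) ^ 2 + D * (∑ r ∈ Finset.range J, (tt ^ r)⁻¹ * (G1 r k y) ^ 2) +
        (Er k y) ^ 2) = (∫ y, ((G0 k y) ^ 2 +
          D * ∑ r ∈ Finset.range J, (tt ^ r)⁻¹ * (G1 r k y) ^ 2)) + ∫ y, (Er k y) ^ 2 :=
      integral_add (iA k) (iE k)
    have e6 : ∫ y, ((G0 k y) ^ 2 + D * ∑ r ∈ Finset.range J, (tt ^ r)⁻¹ * (G1 r k y) ^ 2) =
        (∫ y, (G0 k y) ^ 2) + ∫ y, D * ∑ r ∈ Finset.range J, (tt ^ r)⁻¹ * (G1 r k y) ^ 2 :=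
      integral_add (i0 k) ((i1s k).const_mul D)
    refine e5.trans ?_
    rw [e6, integral_const_mul, integral_finsetSum _ fun r _ => (i1 r k).const_mul _]
    simp only [integral_const_mul]
  -- levels
  have hL0 : ∑ k ∈ Finset.range K, ∫ y, (G0 k y) ^ 2 ≤ C0 * Ca * 2 * Q := by
    have h := hlev (Sg J 0) jj (2 * 2 ^ 0) Ca K n (T0 θ J) (cl M J 0 hJ) b a kk hCa0
      (fun k s => hCa θ J k s hθ) (by positivity) (card_le J 0) ha
    simpa using h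
  have hL1 : ∀ r, ∑ k ∈ Finset.range K, ∫ y, (G1 r k y) ^ 2 ≤ 2 * C0 * Cb * pp ^ (r + 1) * Q := by
    intro r
    have h := hlev (Sg J (r + 1)) jj (2 * 2 ^ (r + 1)) (Cb * pp ^ (3 * (r + 1))) K n (T1 θ J r)
      (cl M J (r + 1) hJ) b a kk (by have := pp_pos; positivity)
      (fun k s => hCb θ J r k s hθ) (by positivity) (card_le J (r + 1)) ha
    refine h.trans (le_of_eq ?_)
    have e7 : pp ^ (3 * (r + 1)) * 2 ^ (r + 1) = pp ^ (r + 1) := by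
      have : pp ^ (3 * (r + 1)) = pp ^ (r + 1) * (pp ^ 2) ^ (r + 1) := by ring
      rw [this, pp_sq, mul_assoc, ← mul_pow]
      norm_num
    calc C0 * (Cb * pp ^ (3 * (r + 1))) * (2 * 2 ^ (r + 1)) * Q
        = 2 * C0 * Cb * (pp ^ (3 * (r + 1)) * 2 ^ (r + 1)) * Q := by ring
      _ = _ := by rw [e7]
  have hLs : ∑ k ∈ Finset.range K, ∑ r ∈ Finset.range J, (tt ^ r)⁻¹ * ∫ y, (G1 r k y) ^ 2 ≤
      D * (2 * C0 * Cb) * Q := by
    rw [Finset.sum_comm]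
    calc ∑ r ∈ Finset.range J, ∑ k ∈ Finset.range K, (tt ^ r)⁻¹ * ∫ y, (G1 r k y) ^ 2
        = ∑ r ∈ Finset.range J, (tt ^ r)⁻¹ * ∑ k ∈ Finset.range K, ∫ y, (G1 r k y) ^ 2 := by
          refine Finset.sum_congr rfl fun r _ => ?_
          rw [Finset.mul_sum]
      _ ≤ ∑ r ∈ Finset.range J, tt ^ r * (2 * C0 * Cb * Q) := by
          refine Finset.sum_le_sum fun r _ => ?_
          have ht : 0 < tt ^ r := pow_pos tt_pos _
          refine (mul_le_mul_of_nonneg_left (hL1 r) (inv_nonneg.2 ht.le)).trans ?_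
          have e8 : pp ^ (r + 1) ≤ tt ^ r * tt ^ r := by
            rw [← tt_sq, ← pow_mul, ← pow_add]
            exact pow_le_pow_of_le_one tt_pos.le tt_lt.le (by omega)
          calc (tt ^ r)⁻¹ * (2 * C0 * Cb * pp ^ (r + 1) * Q)
              ≤ (tt ^ r)⁻¹ * (2 * C0 * Cb * (tt ^ r * tt ^ r) * Q) := by gcongr
            _ = tt ^ r * (2 * C0 * Cb * Q) := by field_simp
      _ = (∑ r ∈ Finset.range J, tt ^ r) * (2 * C0 * Cb * Q) := by rw [Finset.sum_mul]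
      _ ≤ D * (2 * C0 * Cb * Q) := by
          refine mul_le_mul_of_nonneg_right (sum_tt J) (by positivity)
      _ = _ := by ring
  have hLE : ∑ k ∈ Finset.range K, ∫ y, (Er k y) ^ 2 ≤ CE * Q :=
    hCE K n b M a kk θ (fun i k => Mr k (M i)) ha hθ fun i k h => Mr_spec h
  calc ∑ k ∈ Finset.range K, ∫ y, (∑ i with kk i ≤ k ∧ 4 * 2 ^ k ≤ |M i|,
        a i * kap (θ k) (y - b i) (M i / 2 ^ k)) ^ 2
      ≤ ∑ k ∈ Finset.range K, 3 * ((∫ y, (G0 k y) ^ 2) +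
        D * (∑ r ∈ Finset.range J, (tt ^ r)⁻¹ * ∫ y, (G1 r k y) ^ 2) + ∫ y, (Er k y) ^ 2) :=
        Finset.sum_le_sum fun k _ => hint k
    _ = 3 * ((∑ k ∈ Finset.range K, ∫ y, (G0 k y) ^ 2) +
        D * (∑ k ∈ Finset.range K, ∑ r ∈ Finset.range J, (tt ^ r)⁻¹ * ∫ y, (G1 r k y) ^ 2) +
        ∑ k ∈ Finset.range K, ∫ y, (Er k y) ^ 2) := by
        rw [← Finset.mul_sum, Finset.sum_add_distrib, Finset.sum_add_distrib, ← Finset.mul_sum]
    _ ≤ 3 * (C0 * Ca * 2 * Q + D * (D * (2 * C0 * Cb) * Q) + CE * Q) := by gcongr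
    _ = _ := by ring

end Crest.Agent.R087.MAINofx575
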