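import Crest.Agent.R087.MainOp_575

/-!
Row 87, (E2) MAIN (helper575): the level estimate for a family of almost diagonal operators.
-/

set_option autoImplicit false

noncomputable section

open MeasureTheory Filter Topology
open scoped ENNReal RealInnerProductSpace

namespace Crest.Agent.R087.MainLevx575

open E2x542 MainVx575 LevAbsx575 MainOpx575

/-- translated tent -/
def phi (b x : ℝ) : ℝ := tent (x - b)

theorem tent_nonneg (u : ℝ) : 0 ≤ tent u := le_max_right _ _

theorem tent_le_one (u : ℝ) : tent u ≤ 1 := by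
  unfold tent
  exact max_le (by linarith [abs_nonneg u]) zero_le_one

theorem tent_cont : Continuous tent := by
  unfold tent
  fun_prop

theorem tent_zero {u : ℝ} (h : 1 ≤ |u|) : tent u = 0 := max_eq_right (by linarith)

theorem nice1_phi (b : ℝ) : Nice1 (phi b) := by
  refine ⟨(tent_cont.comp (by fun_prop)).measurable, ⟨1, fun y => ?_⟩, |b| + 1, fun y hy => ?_⟩
  · unfold phi
    rw [abs_of_nonneg (tent_nonneg _)]
    exact tent_le_one _
  · unfold phi
    apply tent_zero
    have := abs_sub_abs_le_abs_sub y b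
    linarith

theorem tent_le_win (u : ℝ) : tent u ≤ win (u - 1 / 2) + win (u + 1 / 2) := by
  have hw : ∀ v, 0 ≤ win v := fun v => by unfold win; split_ifs <;> norm_num
  rcases le_or_gt 1 |u| with h | h
  · rw [tent_zero h]
    exact add_nonneg (hw _) (hw _)
  · have h1 := abs_lt.1 h
    rcases le_total 0 u with h2 | h2
    · have : win (u - 1 / 2) = 1 := by
        unfold win
        rw [if_pos]
        rw [abs_le]
        constructor <;> linarith
      rw [this]
      linarith [hw (u + 1 / 2), tent_le_one u]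
    · have : win (u + 1 / 2) = 1 := by
        unfold win
        rw [if_pos]
        rw [abs_le]
        constructor <;> linarith
      rw [this]
      linarith [hw (u - 1 / 2), tent_le_one u]

theorem nice1_win (b : ℝ) : Nice1 (fun y => win (y - b)) := by
  refine ⟨?_, ⟨1, fun y => ?_⟩, |b| + 1, fun y hy => ?_⟩
  · unfold win
    refine Measurable.ite ?_ measurable_const measurable_const
    exact (isClosed_le (by fun_prop) continuous_const).measurableSet
  · show |win (y - b)| ≤ 1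
    unfold win
    split_ifs <;> simp
  · show win (y - b) = 0
    unfold win
    rw [if_neg]
    have := abs_sub_abs_le_abs_sub y b
    linarith

theorem nice1_sum {ι : Type*} (s : Finset ι) (g : ι → ℝ → ℝ) (h : ∀ i ∈ s, Nice1 (g i)) :
    Nice1 (fun y => ∑ i ∈ s, g i y) := by
  have h1 : (∑ i ∈ s, g i) ∈ N1 := AddSubgroup.sum_mem N1 h
  have e : (fun y => ∑ i ∈ s, g i y) = ∑ i ∈ s, g i := by
    funext y; rw [Finset.sum_apply]
  rw [e]
  exact h1

/-- sum of windows dominates sum of tents in `L²` -/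
theorem tents_le {n : ℕ} (a b : Fin n → ℝ) (ha : ∀ i, 0 ≤ a i) :
    ∫ y, (∑ i, a i * phi (b i) y) ^ 2 ≤ 4 * ∫ y, (∑ i, a i * win (y - b i)) ^ 2 := by
  set W : ℝ → ℝ := fun y => ∑ i, a i * win (y - b i) with hW
  have hWn : Nice1 W := nice1_sum _ _ fun i _ => nice1_smul (nice1_win (b i)) (a i)
  have hWi : Integrable (fun y => (W y) ^ 2) := integrable_of_nice1 (nice1_sq hWn)
  have hpt : ∀ y, (∑ i, a i * phi (b i) y) ^ 2 ≤
      2 * (W (y - 1 / 2)) ^ 2 + 2 * (W (y + 1 / 2)) ^ 2 := by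
    intro y
    have h0 : 0 ≤ ∑ i, a i * phi (b i) y :=
      Finset.sum_nonneg fun i _ => mul_nonneg (ha i) (tent_nonneg _)
    have h1 : ∑ i, a i * phi (b i) y ≤ W (y - 1 / 2) + W (y + 1 / 2) := by
      rw [hW]
      simp only
      rw [← Finset.sum_add_distrib]
      refine Finset.sum_le_sum fun i _ => ?_
      rw [← mul_add]
      refine mul_le_mul_of_nonneg_left ?_ (ha i)
      have h2 := tent_le_win (y - b i)
      unfold phi
      have e1 : y - 1 / 2 - b i = y - b i - 1 / 2 := by ring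
      have e2 : y + 1 / 2 - b i = y - b i + 1 / 2 := by ring
      rw [e1, e2]
      exact h2
    calc (∑ i, a i * phi (b i) y) ^ 2 ≤ (W (y - 1 / 2) + W (y + 1 / 2)) ^ 2 :=
          pow_le_pow_left₀ h0 h1 2
      _ ≤ _ := by nlinarith [sq_nonneg (W (y - 1 / 2) - W (y + 1 / 2))]
  have i1 : Integrable (fun y => 2 * (W (y - 1 / 2)) ^ 2) :=
    (hWi.comp_sub_right (1 / 2)).const_mul 2
  have i2 : Integrable (fun y => 2 * (W (y + 1 / 2)) ^ 2) :=
    (hWi.comp_add_right (1 / 2)).const_mul 2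
  calc ∫ y, (∑ i, a i * phi (b i) y) ^ 2
      ≤ ∫ y, (2 * (W (y - 1 / 2)) ^ 2 + 2 * (W (y + 1 / 2)) ^ 2) :=
        integral_mono_of_nonneg (Filter.Eventually.of_forall fun y => sq_nonneg _) (i1.add i2)
          (Filter.Eventually.of_forall hpt)
    _ = 4 * ∫ y, (W y) ^ 2 := by
        rw [integral_add i1 i2, integral_const_mul, integral_const_mul,
          integral_sub_right_eq_self (fun y => (W y) ^ 2) (1 / 2),
          integral_add_right_eq_self (fun y => (W y) ^ 2) (1 / 2)]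
        ring

section

variable (hM : MART) {σ : Type} [Fintype σ] [DecidableEq σ] {n : ℕ} (cl : Fin n → σ)
  (a b : Fin n → ℝ) (kk : Fin n → ℕ)

/-- one summand as an element of `V1` -/
def vi (i : Fin n) : V1 := V1.mk (fun y => a i * phi (b i) y) (nice1_smul (nice1_phi (b i)) (a i))

/-- the function of a class at scale `k` -/
def fv (k : ℕ) (s : σ) : V1 := ∑ i with kk i ≤ k ∧ cl i = s, vi a b i

/-- the full function of a class -/
def fi (s : σ) : V1 := ∑ i with cl i = s, vi a b i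

theorem fv_fn (k : ℕ) (s : σ) (y : ℝ) :
    (fv cl a b kk k s).fn y = ∑ i with kk i ≤ k ∧ cl i = s, a i * phi (b i) y := by
  unfold fv
  rw [V1.fn_sum]
  rfl

theorem fi_fn (s : σ) (y : ℝ) :
    (fi cl a b s).fn y = ∑ i with cl i = s, a i * phi (b i) y := by
  unfold fi
  rw [V1.fn_sum]
  rfl

variable (ha : ∀ i, 0 ≤ a i)

include ha

theorem sum_fi_le : ∑ s, ‖fi cl a b s‖ ^ 2 ≤ 4 * ∫ y, (∑ i, a i * win (y - b i)) ^ 2 := by
  refine le_trans ?_ (tents_le a b ha)
  have h0 : ∀ s y, 0 ≤ (fi cl a b s).fn y := fun s y => by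
    rw [fi_fn]
    exact Finset.sum_nonneg fun i _ => mul_nonneg (ha i) (tent_nonneg _)
  calc ∑ s, ‖fi cl a b s‖ ^ 2 = ∑ s, ∫ y, ((fi cl a b s).fn y) ^ 2 := by simp only [norm_sq]
    _ = ∫ y, ∑ s, ((fi cl a b s).fn y) ^ 2 := by
        rw [integral_finsetSum]
        intro s _
        exact integrable_of_nice1 (nice1_sq (fi cl a b s).nice)
    _ ≤ ∫ y, (∑ s, (fi cl a b s).fn y) ^ 2 := by
        refine integral_mono_of_nonneg (Filter.Eventually.of_forall fun y =>
          Finset.sum_nonneg fun s _ => sq_nonneg _) ?_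
          (Filter.Eventually.of_forall fun y => ?_)
        · exact integrable_of_nice1 (nice1_sq (nice1_sum _ _ fun s _ => (fi cl a b s).nice))
        · show ∑ s, ((fi cl a b s).fn y) ^ 2 ≤ (∑ s, (fi cl a b s).fn y) ^ 2
          exact Finset.sum_sq_le_sq_sum_of_nonneg (fun s _ => h0 s y)
    _ = ∫ y, (∑ i, a i * phi (b i) y) ^ 2 := by
        refine integral_congr_ae (Filter.Eventually.of_forall fun y => ?_)
        show (∑ s, (fi cl a b s).fn y) ^ 2 = (∑ i, a i * phi (b i) y) ^ 2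
        congr 1
        simp only [fi_fn]
        exact Finset.sum_fiberwise _ _ _

theorem potential_fv (K : ℕ) (s : σ) (j m : ℤ) :
    ∑ k ∈ Finset.range K, ‖DH hM (j - k + m) (fv cl a b kk k s)‖ ^ 2 ≤ ‖fi cl a b s‖ ^ 2 := by
  refine potential hM K (fun k => fv cl a b kk k s) (fi cl a b s) (fun k y => ?_) (fun k y => ?_)
    (fun k y => ?_) j m
  · rw [fv_fn]
    exact Finset.sum_nonneg fun i _ => mul_nonneg (ha i) (tent_nonneg _)
  · rw [fv_fn, fv_fn]
    refine Finset.sum_le_sum_of_subset_of_nonneg ?_ fun i _ _ => mul_nonneg (ha i) (tent_nonneg _)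
    intro i hi
    rw [Finset.mem_filter] at hi ⊢
    exact ⟨hi.1, hi.2.1.trans (Nat.le_succ k), hi.2.2⟩
  · rw [fv_fn, fi_fn]
    refine Finset.sum_le_sum_of_subset_of_nonneg ?_ fun i _ _ => mul_nonneg (ha i) (tent_nonneg _)
    intro i hi
    rw [Finset.mem_filter] at hi ⊢
    exact ⟨hi.1, hi.2.2⟩

end

/-- **the level estimate** for a family of almost diagonal operators -/
theorem level (hM : MART) : ∃ C0 : ℝ, 0 ≤ C0 ∧
    ∀ (σ : Type) [Fintype σ] [DecidableEq σ] (jj : σ → ℤ) (N A : ℝ) (K n : ℕ)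
      (T : ℕ → σ → (ℝ → ℝ) → (ℝ → ℝ)) (cl : Fin n → σ) (b a : Fin n → ℝ) (kk : Fin n → ℕ),
      0 ≤ A → (∀ (k : ℕ) s, Op A (jj s - k) (T k s)) → 0 ≤ N →
      (∀ j : ℤ, ((Finset.univ.filter (fun s => jj s = j)).card : ℝ) ≤ N) → (∀ i, 0 ≤ a i) →
      ∑ k ∈ Finset.range K, ∫ y, (∑ i with kk i ≤ k, a i * T k (cl i) (phi (b i)) y) ^ 2 ≤
        C0 * A * N * ∫ y, (∑ i, a i * win (y - b i)) ^ 2 := by
  obtain ⟨D, hD⟩ := sumq qq_nonneg qq_lt
  have hD0 : 0 ≤ D := by simpa using hD ∅
  refine ⟨4 * D ^ 4, by positivity, ?_⟩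
  intro σ _ _ jj N A K n T cl b a kk hA hT hN hcard ha
  have hB : ∀ (k : ℕ) s, ∃ B : ℝ, ∀ v : V1, ‖(hT k s).hom v‖ ≤ B * ‖v‖ :=
    fun k s => (hT k s).bounded hM hA
  choose B hB using hB
  have hlev := levabs (V := V1) (σ := σ) (DH hM) (fun k s => (hT k s).hom)
    (fun k s => fv cl a b kk k s) jj K N (Real.sqrt A) D B (fun s => ‖fi cl a b s‖ ^ 2) wW
    wW_nonneg hD (fun k s m l v => (hT k s).almost_diag hM hA m l v) (hasSum_DH hM)
    (fun s m => potential_fv hM cl a b kk ha K s (jj s) m) hN hcard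
    (fun v => tendsto_RL hM v) hB
  have e1 : ∀ k : ℕ, ‖∑ s, (hT k s).hom (fv cl a b kk k s)‖ ^ 2 =
      ∫ y, (∑ i with kk i ≤ k, a i * T k (cl i) (phi (b i)) y) ^ 2 := by
    intro k
    rw [norm_sq]
    refine integral_congr_ae (Filter.Eventually.of_forall fun y => ?_)
    show ((∑ s, (hT k s).hom (fv cl a b kk k s)).fn y) ^ 2 = _
    congr 1
    rw [V1.fn_sum]
    have e2 : ∀ s, ((hT k s).hom (fv cl a b kk k s)).fn y =
        ∑ i ∈ Finset.univ.filter (fun i => kk i ≤ k) with cl i = s,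
          a i * T k (cl i) (phi (b i)) y := by
      intro s
      unfold fv
      rw [map_sum, V1.fn_sum, Finset.filter_filter]
      refine Finset.sum_congr rfl fun i hi => ?_
      have hi' := (Finset.mem_filter.1 hi).2.2
      rw [hi', Op.hom_fn]
      show T k s (fun y => a i * phi (b i) y) y = _
      rw [(hT k s).smul (a i) (phi (b i)) (nice1_phi _)]
    simp only [e2]
    exact Finset.sum_fiberwise _ _ _
  simp only [e1] at hlev
  refine hlev.trans ?_
  have hs : Real.sqrt A ^ 2 = A := Real.sq_sqrt hA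
  rw [hs]
  have h4 := sum_fi_le cl a b ha
  calc A * N * D ^ 4 * ∑ s, ‖fi cl a b s‖ ^ 2
      ≤ A * N * D ^ 4 * (4 * ∫ y, (∑ i, a i * win (y - b i)) ^ 2) :=
        mul_le_mul_of_nonneg_left h4 (by positivity)
    _ = _ := by ring

end Crest.Agent.R087.MainLevx575
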