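import Crest.Agent.R087.MainV_575

/-!
Row 87, (E2) MAIN (helper575): almost diagonal operators and the level estimate.
-/

set_option autoImplicit false

noncomputable section

open MeasureTheory Filter Topology
open scoped ENNReal RealInnerProductSpace

namespace Crest.Agent.R087.MainOpx575

open E2x542 MainVx575 LevAbsx575

/-! ### weights -/

theorem sumq {q : ℝ} (h0 : 0 ≤ q) (h1 : q < 1) :
    ∃ D : ℝ, ∀ G : Finset ℤ, ∑ n ∈ G, q ^ n.natAbs ≤ D := by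
  have hs : Summable (fun n : ℤ => q ^ n.natAbs) := by
    apply Summable.of_nat_of_neg
    · simpa using summable_geometric_of_lt_one h0 h1
    · simpa using summable_geometric_of_lt_one h0 h1
  exact ⟨∑' n : ℤ, q ^ n.natAbs, fun G => hs.sum_le_tsum G fun n _ => pow_nonneg h0 _⟩

/-- `p = 2^{-1/2}` -/
def pp : ℝ := Real.sqrt (1 / 2)

theorem pp_sq : pp ^ 2 = 1 / 2 := Real.sq_sqrt (by norm_num)

theorem pp_pos : 0 < pp := Real.sqrt_pos.2 (by norm_num)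

theorem pp_lt : pp < 1 := by
  have h := pp_sq
  nlinarith [pp_pos]

/-- `q = 2^{-1/8}` -/
def qq : ℝ := Real.sqrt (Real.sqrt pp)

theorem qq_four : qq ^ 4 = pp := by
  have h1 : qq ^ 2 = Real.sqrt pp := Real.sq_sqrt (Real.sqrt_nonneg _)
  have h2 : (Real.sqrt pp) ^ 2 = pp := Real.sq_sqrt pp_pos.le
  calc qq ^ 4 = (qq ^ 2) ^ 2 := by ring
    _ = pp := by rw [h1, h2]

theorem qq_nonneg : 0 ≤ qq := Real.sqrt_nonneg _

theorem qq_lt : qq < 1 := by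
  by_contra h
  push Not at h
  have := one_le_pow₀ h (n := 4)
  rw [qq_four] at this
  linarith [pp_lt]

/-- weights `2^{-|n|/2}` -/
def pW (n : ℤ) : ℝ := pp ^ n.natAbs

/-- weights `2^{-|n|/8}` -/
def wW (n : ℤ) : ℝ := qq ^ n.natAbs

theorem wW_four (n : ℤ) : wW n ^ 4 = pW n := by
  unfold wW pW
  rw [← pow_mul, mul_comm, pow_mul, qq_four]

theorem wW_nonneg (n : ℤ) : 0 ≤ wW n := pow_nonneg qq_nonneg _

theorem pW_pos (n : ℤ) : 0 < pW n := pow_pos pp_pos _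

theorem pW_le_one (n : ℤ) : pW n ≤ 1 := pow_le_one₀ pp_pos.le pp_lt.le

theorem pp_natAbs_of_nonneg {n : ℤ} (hn : 0 ≤ n) : (2 : ℝ) ^ (-n) ≤ pW n := by
  obtain ⟨m, rfl⟩ := Int.eq_ofNat_of_zero_le hn
  unfold pW
  have h1 : ((2 : ℝ) ^ (-(m : ℤ))) = (pp ^ 2) ^ m := by
    rw [pp_sq, zpow_neg, zpow_natCast, one_div, inv_pow]
  rw [Int.natAbs_natCast, h1, ← pow_mul]
  exact pow_le_pow_of_le_one pp_pos.le pp_lt.le (by omega)

theorem pW_four_of_nonpos {n : ℤ} (hn : n ≤ 0) : ((2 : ℝ) ^ n) ^ 2 = pW n ^ 4 := by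
  obtain ⟨m, hm⟩ := Int.eq_ofNat_of_zero_le (show 0 ≤ -n by omega)
  have hn' : n = -(m : ℤ) := by omega
  subst hn'
  unfold pW
  have h1 : ((2 : ℝ) ^ (-(m : ℤ))) = (pp ^ 2) ^ m := by
    rw [pp_sq, zpow_neg, zpow_natCast, one_div, inv_pow]
  rw [Int.natAbs_neg, Int.natAbs_natCast, h1]
  ring

theorem pW_four_le (n : ℤ) : pW n ^ 4 ≤ pW n := by
  calc pW n ^ 4 = pW n * pW n ^ 3 := by ring
    _ ≤ pW n * 1 := by
        refine mul_le_mul_of_nonneg_left ?_ (pW_pos n).le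
        exact pow_le_one₀ (pW_pos n).le (pW_le_one n)
    _ = pW n := mul_one _

/-! ### almost diagonal operators -/

/-- an operator with almost diagonal bounds at scale `2^lam` -/
structure Op (A : ℝ) (lam : ℤ) (T : (ℝ → ℝ) → (ℝ → ℝ)) : Prop where
  nice : ∀ f, Nice1 f → Nice1 (T f)
  add : ∀ f g, Nice1 f → Nice1 g → T (f + g) = T f + T g
  smul : ∀ (c : ℝ) f, Nice1 f → T (fun y => c * f y) = fun y => c * T f y
  inp : ∀ l f, Nice1 f → ∫ y, (T (Dl l f) y) ^ 2 ≤ A * pW (l - lam) * ∫ y, (Dl l f y) ^ 2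
  out : ∀ l f, Nice1 f → ∫ y, (Dl l (T f) y) ^ 2 ≤ A * pW (l - lam) * ∫ y, (f y) ^ 2

theorem Op.zero {A : ℝ} (hA : 0 ≤ A) (lam : ℤ) : Op A lam (fun _ _ => 0) := by
  refine ⟨fun f _ => nice1_zero, fun f g _ _ => ?_, fun c f _ => ?_, fun l f _ => ?_,
    fun l f _ => ?_⟩
  · funext y; simp
  · funext y; simp
  · have : 0 ≤ ∫ y, (Dl l f y) ^ 2 := integral_nonneg fun y => sq_nonneg _
    have h2 := (pW_pos (l - lam)).le
    simp only [ne_eq, OfNat.ofNat_ne_zero, not_false_eq_true, zero_pow, integral_zero]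
    positivity
  · have : 0 ≤ ∫ y, (f y) ^ 2 := integral_nonneg fun y => sq_nonneg _
    have h2 := (pW_pos (l - lam)).le
    have h3 : ∀ y, Dl l (fun _ => (0 : ℝ)) y = 0 := by
      intro y
      simp [Dl, Ex]
    simp only [h3, ne_eq, OfNat.ofNat_ne_zero, not_false_eq_true, zero_pow, integral_zero]
    positivity

theorem Op.map_zero {A : ℝ} {lam : ℤ} {T : (ℝ → ℝ) → (ℝ → ℝ)} (h : Op A lam T) : T 0 = 0 := by
  have := h.smul 0 0 nice1_zero
  have e : (fun y : ℝ => (0 : ℝ) * (0 : ℝ → ℝ) y) = 0 := by funext y; simp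
  rw [e] at this
  rw [this]
  funext y
  simp

/-- as a homomorphism of `V1` -/
def Op.hom {A : ℝ} {lam : ℤ} {T : (ℝ → ℝ) → (ℝ → ℝ)} (h : Op A lam T) : V1 →+ V1 where
  toFun v := V1.mk (T v.fn) (h.nice v.fn v.nice)
  map_zero' := V1.ext' (by simpa using h.map_zero)
  map_add' u v := V1.ext' (by simpa using h.add u.fn v.fn u.nice v.nice)

theorem Op.hom_fn {A : ℝ} {lam : ℤ} {T : (ℝ → ℝ) → (ℝ → ℝ)} (h : Op A lam T) (v : V1) :
    (h.hom v).fn = T v.fn := rfl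

variable (hM : MART)

theorem Op.norm_inp {A : ℝ} {lam : ℤ} {T : (ℝ → ℝ) → (ℝ → ℝ)} (h : Op A lam T) (l : ℤ) (v : V1) :
    ‖h.hom (DH hM l v)‖ ^ 2 ≤ A * pW (l - lam) * ‖DH hM l v‖ ^ 2 := by
  rw [norm_sq, norm_sq, Op.hom_fn, DH_fn]
  exact h.inp l v.fn v.nice

theorem Op.norm_out {A : ℝ} {lam : ℤ} {T : (ℝ → ℝ) → (ℝ → ℝ)} (h : Op A lam T) (l : ℤ) (v : V1) :
    ‖DH hM l (h.hom v)‖ ^ 2 ≤ A * pW (l - lam) * ‖v‖ ^ 2 := by
  rw [norm_sq, norm_sq, DH_fn, Op.hom_fn]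
  exact h.out l v.fn v.nice

include hM in
theorem Op.bounded {A : ℝ} {lam : ℤ} {T : (ℝ → ℝ) → (ℝ → ℝ)} (h : Op A lam T) (hA : 0 ≤ A) :
    ∃ B : ℝ, ∀ v : V1, ‖h.hom v‖ ≤ B * ‖v‖ := by
  obtain ⟨D, hD⟩ := sumq pp_pos.le pp_lt
  have hD0 : 0 ≤ D := by simpa using hD ∅
  refine ⟨Real.sqrt (A * D), fun v => ?_⟩
  have h1 : ‖h.hom v‖ ^ 2 ≤ A * D * ‖v‖ ^ 2 := by
    refine hasSum_le_of_sum_le (hasSum_DH hM (h.hom v)) fun G => ?_
    calc ∑ l ∈ G, ‖DH hM l (h.hom v)‖ ^ 2 ≤ ∑ l ∈ G, A * pW (l - lam) * ‖v‖ ^ 2 :=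
          Finset.sum_le_sum fun l _ => h.norm_out hM l v
      _ = A * (∑ l ∈ G, pW (l - lam)) * ‖v‖ ^ 2 := by
          rw [Finset.mul_sum, Finset.sum_mul]
      _ ≤ A * D * ‖v‖ ^ 2 := by
          refine mul_le_mul_of_nonneg_right (mul_le_mul_of_nonneg_left ?_ hA) (sq_nonneg _)
          have : ∑ l ∈ G, pW (l - lam) = ∑ n ∈ G.image (fun l => l - lam), pp ^ n.natAbs := by
            symm
            refine Finset.sum_image ?_
            intro a _ b _ hab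
            simpa using hab
          rw [this]
          exact hD _
  have h2 : (Real.sqrt (A * D) * ‖v‖) ^ 2 = A * D * ‖v‖ ^ 2 := by
    rw [mul_pow, Real.sq_sqrt (mul_nonneg hA hD0)]
  rw [← h2] at h1
  exact (sq_le_sq₀ (norm_nonneg _) (by positivity)).1 h1

theorem Op.almost_diag {A : ℝ} {lam : ℤ} {T : (ℝ → ℝ) → (ℝ → ℝ)} (h : Op A lam T) (hA : 0 ≤ A)
    (m l : ℤ) (v : V1) :
    ‖DH hM m (h.hom (DH hM l v))‖ ≤
      Real.sqrt A * (wW (m - lam) * wW (l - lam)) * ‖DH hM l v‖ := by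
  set X := ‖DH hM m (h.hom (DH hM l v))‖ with hX
  set Y := ‖DH hM l v‖ with hY
  have b1 : X ^ 2 ≤ A * pW (m - lam) * Y ^ 2 := h.norm_out hM m (DH hM l v)
  have b2 : X ^ 2 ≤ A * pW (l - lam) * Y ^ 2 := by
    refine le_trans ?_ (h.norm_inp hM l v)
    exact pow_le_pow_left₀ (norm_nonneg _) (norm_DH_le hM m _) 2
  have hsA : Real.sqrt A ^ 2 = A := Real.sq_sqrt hA
  have b3 : X ^ 4 ≤ (Real.sqrt A * (wW (m - lam) * wW (l - lam)) * Y) ^ 4 := by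
    calc X ^ 4 = X ^ 2 * X ^ 2 := by ring
      _ ≤ (A * pW (m - lam) * Y ^ 2) * (A * pW (l - lam) * Y ^ 2) := by
          refine mul_le_mul b1 b2 (sq_nonneg _) ?_
          exact mul_nonneg (mul_nonneg hA (pW_pos _).le) (sq_nonneg _)
      _ = (Real.sqrt A ^ 2) ^ 2 * (wW (m - lam) ^ 4 * wW (l - lam) ^ 4) * Y ^ 4 := by
          rw [hsA, wW_four, wW_four]; ring
      _ = _ := by ring
  refine le_of_pow_le_pow_left₀ (n := 4) (by norm_num) ?_ b3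
  exact mul_nonneg (mul_nonneg (Real.sqrt_nonneg _) (mul_nonneg (wW_nonneg _) (wW_nonneg _)))
    (norm_nonneg _)

/-! ### monotonicity of expectations -/

theorem Ex_mono {f g : ℝ → ℝ} (hf : Nice1 f) (hg : Nice1 g) (h : ∀ y, f y ≤ g y) (l : ℤ) (y : ℝ) :
    Ex l f y ≤ Ex l g y := by
  unfold Ex
  refine mul_le_mul_of_nonneg_left ?_ (by positivity)
  exact setIntegral_mono (integrableOn_nice1 hf _) (integrableOn_nice1 hg _) h

theorem Ex_nonneg {f : ℝ → ℝ} (h : ∀ y, 0 ≤ f y) (l : ℤ) (y : ℝ) : 0 ≤ Ex l f y := by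
  unfold Ex
  exact mul_nonneg (by positivity) (integral_nonneg h)

theorem norm_EH_mono (l : ℤ) {u v : V1} (h0 : ∀ y, 0 ≤ u.fn y) (h : ∀ y, u.fn y ≤ v.fn y) :
    ‖EH hM l u‖ ^ 2 ≤ ‖EH hM l v‖ ^ 2 := by
  rw [norm_sq, norm_sq, EH_fn, EH_fn]
  refine integral_mono_of_nonneg (Filter.Eventually.of_forall fun y => sq_nonneg _)
    (integrable_of_nice1 (nice1_sq (hM.1 l v.fn v.nice))) (Filter.Eventually.of_forall fun y => ?_)
  exact pow_le_pow_left₀ (Ex_nonneg h0 l y) (Ex_mono u.nice v.nice h l y) 2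

/-- the positivity potential -/
theorem potential (K : ℕ) (f : ℕ → V1) (v : V1) (h0 : ∀ k y, 0 ≤ (f k).fn y)
    (h1 : ∀ k y, (f k).fn y ≤ (f (k + 1)).fn y) (h2 : ∀ k y, (f k).fn y ≤ v.fn y) (j n : ℤ) :
    ∑ k ∈ Finset.range K, ‖DH hM (j - k + n) (f k)‖ ^ 2 ≤ ‖v‖ ^ 2 := by
  have key : ∀ K : ℕ, ∑ k ∈ Finset.range (K + 1), ‖DH hM (j - k + n) (f k)‖ ^ 2 ≤
      ‖EH hM (j - K + n) (f K)‖ ^ 2 := by
    intro K
    induction K with
    | zero =>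
      rw [Finset.sum_range_one, norm_DH_sq]
      have := sq_nonneg ‖EH hM (j - (0 : ℕ) + n + 1) (f 0)‖
      linarith
    | succ K ih =>
      rw [Finset.sum_range_succ, norm_DH_sq]
      have e : j - ((K + 1 : ℕ) : ℤ) + n + 1 = j - K + n := by push_cast; ring
      rw [e]
      have := norm_EH_mono hM (j - K + n) (h0 K) (h1 K)
      linarith
  cases K with
  | zero => simp
  | succ K =>
    refine (key K).trans ?_
    refine (norm_EH_mono hM _ (h0 K) (h2 K)).trans ?_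
    exact pow_le_pow_left₀ (norm_nonneg _) (norm_EH_le hM _ v) 2

end Crest.Agent.R087.MainOpx575
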