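import Crest.Agent.R087.MainTB_575

/-!
Row 87, (E2) MAIN (helper575): dyadic rounding of the slopes and the levels.
-/

set_option autoImplicit false

noncomputable section

open MeasureTheory Filter Topology

namespace Crest.Agent.R087.MainRndx575

open E2x542 MainVx575 LevAbsx575 MainOpx575 MainLevx575 MainTBx575

/-! ### rounding -/

/-- dyadic exponent -/
def je (M : ℝ) : ℕ := Nat.log 2 ⌊|M|⌋₊

theorem je_lower {M : ℝ} (h : 1 ≤ |M|) : (2 : ℝ) ^ (je M) ≤ |M| := by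
  have h1 : ⌊|M|⌋₊ ≠ 0 := by
    have := (Nat.one_le_floor_iff |M|).2 h
    omega
  have h2 : 2 ^ (je M) ≤ ⌊|M|⌋₊ := Nat.pow_log_le_self 2 h1
  have h3 : ((2 ^ (je M) : ℕ) : ℝ) ≤ (⌊|M|⌋₊ : ℝ) := by exact_mod_cast h2
  calc (2 : ℝ) ^ (je M) = ((2 ^ (je M) : ℕ) : ℝ) := by push_cast; rfl
    _ ≤ (⌊|M|⌋₊ : ℝ) := h3
    _ ≤ |M| := Nat.floor_le (abs_nonneg _)

theorem je_upper (M : ℝ) : |M| < (2 : ℝ) ^ (je M + 1) := by
  have h2 : ⌊|M|⌋₊ < 2 ^ (je M + 1) := Nat.lt_pow_succ_log_self (by norm_num) _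
  have h3 : ((⌊|M|⌋₊ + 1 : ℕ) : ℝ) ≤ ((2 ^ (je M + 1) : ℕ) : ℝ) := by exact_mod_cast h2
  calc |M| < (⌊|M|⌋₊ : ℝ) + 1 := Nat.lt_floor_add_one _
    _ = ((⌊|M|⌋₊ + 1 : ℕ) : ℝ) := by push_cast; rfl
    _ ≤ ((2 ^ (je M + 1) : ℕ) : ℝ) := h3
    _ = _ := by push_cast; rfl

theorem one_le_of_je {M : ℝ} (h : 1 ≤ je M) : 1 ≤ |M| := by
  by_contra h'
  push Not at h'
  have h1 : ⌊|M|⌋₊ = 0 := Nat.floor_eq_zero.2 h'
  unfold je at h
  rw [h1] at h
  simp at h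

theorem je_iff {k : ℕ} {M : ℝ} : 4 * 2 ^ k ≤ |M| ↔ k + 2 ≤ je M := by
  have e : (4 : ℝ) * 2 ^ k = 2 ^ (k + 2) := by rw [pow_add]; ring
  rw [e]
  constructor
  · intro h
    have h1 := h.trans_lt (je_upper M)
    have h2 := (pow_lt_pow_iff_right₀ (by norm_num : (1 : ℝ) < 2)).1 h1
    omega
  · intro h
    have h1 : 1 ≤ |M| := one_le_of_je (by omega)
    exact (pow_le_pow_right₀ (by norm_num) h).trans (je_lower h1)

/-- digits of `|M| / 2^j - 1` -/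
def cd (r : ℕ) (M : ℝ) : ℕ := ⌊(|M| / 2 ^ (je M) - 1) * 2 ^ r⌋₊

theorem cd_lt (r : ℕ) (M : ℝ) : cd r M < 2 ^ r := by
  unfold cd
  rw [Nat.floor_lt']
  · push_cast
    have h1 : |M| / 2 ^ (je M) < 2 := by
      rw [div_lt_iff₀ (by positivity)]
      have := je_upper M
      rw [pow_succ] at this
      linarith
    have h2 : (0 : ℝ) < 2 ^ r := by positivity
    nlinarith
  · positivity

theorem cd_succ (r : ℕ) (M : ℝ) : cd r M = cd (r + 1) M / 2 := by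
  unfold cd
  rw [← Nat.floor_div_ofNat]
  congr 1
  rw [pow_succ]
  ring

/-- rounded value -/
def val (s : Bool) (j r c : ℕ) : ℝ := (if s then 1 else -1) * (2 ^ j * (1 + c / 2 ^ r))

theorem abs_val (s : Bool) (j r c : ℕ) : |val s j r c| = 2 ^ j * (1 + c / 2 ^ r) := by
  unfold val
  rw [abs_mul]
  have h1 : |(if s then (1 : ℝ) else -1)| = 1 := by split_ifs <;> simp
  rw [h1, one_mul, abs_of_nonneg (by positivity)]

theorem val_lower (s : Bool) (j r c : ℕ) : (2 : ℝ) ^ j ≤ |val s j r c| := by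
  rw [abs_val]
  have h1 : (0 : ℝ) < 2 ^ j := by positivity
  have h2 : (0 : ℝ) ≤ (c : ℝ) / 2 ^ r := by positivity
  nlinarith

theorem val_upper (s : Bool) (j r c : ℕ) (hc : c < 2 ^ r) : |val s j r c| ≤ (2 : ℝ) ^ (j + 1) := by
  rw [abs_val, pow_succ]
  have h1 : (0 : ℝ) < 2 ^ j := by positivity
  have h2 : (c : ℝ) / 2 ^ r ≤ 1 := by
    rw [div_le_one (by positivity)]
    have : (c : ℝ) ≤ ((2 ^ r : ℕ) : ℝ) := by exact_mod_cast hc.le
    simpa using this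
  nlinarith

theorem val_diff (s : Bool) (j r c : ℕ) :
    |val s j r (c / 2) - val s j (r + 1) c| ≤ (1 / 2) ^ (r + 1) * |val s j (r + 1) c| := by
  have h1 : val s j r (c / 2) - val s j (r + 1) c =
      (if s then 1 else -1) * (2 ^ j * (((2 * (c / 2 : ℕ) : ℕ) : ℝ) - c) / 2 ^ (r + 1)) := by
    unfold val
    push_cast
    have h2 : (2 : ℝ) ^ r ≠ 0 := by positivity
    rw [pow_succ]
    field_simp
    ring
  rw [h1, abs_mul]
  have h2 : |(if s then (1 : ℝ) else -1)| = 1 := by split_ifs <;> simp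
  rw [h2, one_mul, abs_div, abs_mul, abs_of_pos (show (0 : ℝ) < 2 ^ j by positivity),
    abs_of_pos (show (0 : ℝ) < 2 ^ (r + 1) by positivity)]
  have h3 : |(((2 * (c / 2 : ℕ) : ℕ) : ℝ) - c)| ≤ 1 := by
    have h4 : 2 * (c / 2) ≤ c := Nat.mul_div_le c 2
    have h5 : c ≤ 2 * (c / 2) + 1 := by omega
    have h4' : (((2 * (c / 2 : ℕ) : ℕ) : ℝ)) ≤ c := by exact_mod_cast h4
    have h5' : (c : ℝ) ≤ ((2 * (c / 2 : ℕ) : ℕ) : ℝ) + 1 := by exact_mod_cast h5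
    rw [abs_le]
    constructor <;> linarith
  have h6 := val_lower s j (r + 1) c
  have h7 : (0 : ℝ) < 2 ^ j := by positivity
  calc (2 : ℝ) ^ j * |(((2 * (c / 2 : ℕ) : ℕ) : ℝ) - c)| / 2 ^ (r + 1)
      ≤ 2 ^ j * 1 / 2 ^ (r + 1) := by gcongr
    _ = (1 / 2) ^ (r + 1) * 2 ^ j := by
        rw [one_div, inv_pow]
        field_simp
    _ ≤ _ := by gcongr

/-- the rounding of `M` at level `r` -/
def rd (r : ℕ) (M : ℝ) : ℝ := val (decide (0 < M)) (je M) r (cd r M)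

theorem rd_mul_pos {r : ℕ} {M : ℝ} (h : 1 ≤ |M|) : 0 < rd r M * M := by
  unfold rd val
  have h1 : (0 : ℝ) < 2 ^ (je M) * (1 + (cd r M : ℝ) / 2 ^ r) := by positivity
  by_cases hM : 0 < M
  · simp only [hM, decide_true, if_true, one_mul]
    positivity
  · simp only [hM, decide_false, Bool.false_eq_true, if_false]
    have hM' : M < 0 := by
      rcases lt_trichotomy M 0 with h2 | h2 | h2
      · exact h2
      · rw [h2, abs_zero] at h; linarith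
      · exact absurd h2 hM
    nlinarith

theorem rd_le {r : ℕ} {M : ℝ} (h : 1 ≤ |M|) : |rd r M| ≤ |M| := by
  unfold rd
  rw [abs_val]
  have h0 : (0 : ℝ) < 2 ^ (je M) := by positivity
  have h1 : 0 ≤ |M| / 2 ^ (je M) - 1 := by
    rw [sub_nonneg, le_div_iff₀ h0, one_mul]
    exact je_lower h
  have h2 : (cd r M : ℝ) ≤ (|M| / 2 ^ (je M) - 1) * 2 ^ r := Nat.floor_le (by positivity)
  have h3 : (cd r M : ℝ) / 2 ^ r ≤ |M| / 2 ^ (je M) - 1 := by
    rw [div_le_iff₀ (by positivity)]; exact h2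
  calc (2 : ℝ) ^ (je M) * (1 + (cd r M : ℝ) / 2 ^ r) ≤ 2 ^ (je M) * (|M| / 2 ^ (je M)) := by
        gcongr; linarith
    _ = |M| := by field_simp

theorem le_rd {r : ℕ} (M : ℝ) : |M| ≤ |rd r M| + 2 ^ (je M) / 2 ^ r := by
  unfold rd
  rw [abs_val]
  have h0 : (0 : ℝ) < 2 ^ (je M) := by positivity
  have h2 : (|M| / 2 ^ (je M) - 1) * 2 ^ r < (cd r M : ℝ) + 1 := Nat.lt_floor_add_one _
  have h3 : |M| / 2 ^ (je M) - 1 < ((cd r M : ℝ) + 1) / 2 ^ r := by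
    rw [lt_div_iff₀ (by positivity)]; exact h2
  have h4 : |M| / 2 ^ (je M) < 1 + ((cd r M : ℝ) + 1) / 2 ^ r := by linarith
  rw [div_lt_iff₀ h0] at h4
  refine h4.le.trans (le_of_eq ?_)
  field_simp
  ring

/-- the rounded slope used at scale `k` -/
def Mr (k : ℕ) (M : ℝ) : ℝ := rd (je M - k) M

theorem Mr_spec {k : ℕ} {M : ℝ} (h : 4 * 2 ^ k ≤ |M|) :
    0 < Mr k M * M ∧ 4 * 2 ^ k ≤ |Mr k M| ∧ |Mr k M| ≤ |M| ∧ |M| ≤ |Mr k M| + 2 ^ k := by
  have hj := je_iff.1 h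
  have h1 : 1 ≤ |M| := one_le_of_je (by omega)
  refine ⟨rd_mul_pos h1, ?_, rd_le h1, ?_⟩
  · have e : (4 : ℝ) * 2 ^ k = 2 ^ (k + 2) := by rw [pow_add]; ring
    rw [e]
    exact (pow_le_pow_right₀ (by norm_num) hj).trans (val_lower _ _ _ _)
  · refine (le_rd (r := je M - k) M).trans (le_of_eq ?_)
    have : (2 : ℝ) ^ (je M) / 2 ^ (je M - k) = 2 ^ k := by
      rw [div_eq_iff (by positivity), ← pow_add]
      congr 1
      omega
    rw [this]
    rfl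

/-! ### levels -/

/-- classes of level `r` -/
abbrev Sg (J r : ℕ) : Type := Bool × Fin J × Fin (2 ^ r)

/-- exponent of a class -/
def jj {J r : ℕ} (s : Sg J r) : ℤ := ((s.2.1 : ℕ) : ℤ)

theorem card_le (J r : ℕ) (j : ℤ) :
    ((Finset.univ.filter (fun s : Sg J r => jj s = j)).card : ℝ) ≤ 2 * 2 ^ r := by
  have h : (Finset.univ.filter (fun s : Sg J r => jj s = j)).card ≤
      (Finset.univ : Finset (Bool × Fin (2 ^ r))).card := by
    refine Finset.card_le_card_of_injOn (fun s => (s.1, s.2.2)) (fun s _ => Finset.mem_univ _) ?_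
    intro s hs t ht hst
    simp only [Finset.coe_filter, Finset.mem_univ, true_and, Set.mem_ofPred_eq] at hs ht
    obtain ⟨s1, s2, s3⟩ := s
    obtain ⟨t1, t2, t3⟩ := t
    simp only [Prod.mk.injEq] at hst
    have h1 : s2 = t2 := by
      apply Fin.ext
      have : jj (s1, s2, s3) = jj (t1, t2, t3) := hs.trans ht.symm
      unfold jj at this
      exact_mod_cast this
    rw [hst.1, hst.2, h1]
  have h2 : (Finset.univ : Finset (Bool × Fin (2 ^ r))).card = 2 * 2 ^ r := by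
    simp [Finset.card_univ, Fintype.card_prod]
  rw [h2] at h
  exact_mod_cast h

/-- level zero operators -/
def T0 (θ : ℕ → ℝ) (J : ℕ) (k : ℕ) (s : Sg J 0) : (ℝ → ℝ) → (ℝ → ℝ) :=
  if k + 2 ≤ (s.2.1 : ℕ) then Tt (θ k) (val s.1 s.2.1 0 s.2.2 / 2 ^ k) else fun _ _ => 0

/-- level `r + 1` operators -/
def T1 (θ : ℕ → ℝ) (J r : ℕ) (k : ℕ) (s : Sg J (r + 1)) : (ℝ → ℝ) → (ℝ → ℝ) :=
  if k + 2 ≤ (s.2.1 : ℕ) ∧ k + (r + 1) ≤ (s.2.1 : ℕ) then
    fun f y => Tt (θ k) (val s.1 s.2.1 (r + 1) s.2.2 / 2 ^ k) f y -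
      Tt (θ k) (val s.1 s.2.1 r ((s.2.2 : ℕ) / 2) / 2 ^ k) f y
  else fun _ _ => 0

theorem scale_lower {s : Bool} {j r c k : ℕ} :
    (2 : ℝ) ^ ((j : ℤ) - k) ≤ |val s j r c / 2 ^ k| := by
  rw [abs_div, abs_of_pos (show (0 : ℝ) < 2 ^ k by positivity), zpow_sub₀ (by norm_num),
    zpow_natCast, zpow_natCast]
  exact div_le_div_of_nonneg_right (val_lower _ _ _ _) (by positivity)

theorem scale_upper {s : Bool} {j r c k : ℕ} (hc : c < 2 ^ r) :
    |val s j r c / 2 ^ k| ≤ (2 : ℝ) ^ ((j : ℤ) - k + 1) := by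
  have e : ((j : ℤ) - k + 1) = ((j + 1 : ℕ) : ℤ) - (k : ℤ) := by push_cast; ring
  rw [abs_div, abs_of_pos (show (0 : ℝ) < 2 ^ k by positivity), e, zpow_sub₀ (by norm_num),
    zpow_natCast, zpow_natCast]
  exact div_le_div_of_nonneg_right (val_upper _ _ _ _ hc) (by positivity)

theorem op_T0 (hM : MART) (hT : TB) : ∃ C : ℝ, 0 ≤ C ∧ ∀ (θ : ℕ → ℝ) (J k : ℕ) (s : Sg J 0),
    (∀ k, 0 ≤ θ k ∧ θ k < 1) → Op C (jj s - k) (T0 θ J k s) := by
  obtain ⟨C, hC0, hC⟩ := op_single hM hT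
  refine ⟨C, hC0, fun θ J k s hθ => ?_⟩
  unfold T0
  split_ifs with h
  · exact hC _ _ _ (hθ k).1 (hθ k).2 scale_lower (scale_upper s.2.2.2)
  · exact Op.zero hC0 _

theorem op_T1 (hM : MART) (hT : TB) : ∃ C : ℝ, 0 ≤ C ∧ ∀ (θ : ℕ → ℝ) (J r k : ℕ) (s : Sg J (r + 1)),
    (∀ k, 0 ≤ θ k ∧ θ k < 1) → Op (C * pp ^ (3 * (r + 1))) (jj s - k) (T1 θ J r k s) := by
  obtain ⟨C, hC0, hC⟩ := op_diff hM hT
  refine ⟨C, hC0, fun θ J r k s hθ => ?_⟩
  have hpp := pp_pos.le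
  have e1 : ((1 : ℝ) / 2) ^ (r + 1) * Real.sqrt ((1 / 2) ^ (r + 1)) = pp ^ (3 * (r + 1)) := by
    have e2 : ((1 : ℝ) / 2) ^ (r + 1) = (pp ^ (r + 1)) ^ 2 := by
      rw [← pp_sq, ← pow_mul, ← pow_mul, mul_comm]
    rw [e2, Real.sqrt_sq (by positivity)]
    ring
  unfold T1
  split_ifs with h
  · have h3 := hC (θ k) (val s.1 s.2.1 (r + 1) s.2.2 / 2 ^ k)
      (val s.1 s.2.1 r ((s.2.2 : ℕ) / 2) / 2 ^ k) ((1 / 2) ^ (r + 1)) (jj s - k) (hθ k).1 (hθ k).2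
      scale_lower (scale_upper s.2.2.2) (by positivity)
      (by
        rw [pow_succ]
        have : ((1 : ℝ) / 2) ^ r ≤ 1 := pow_le_one₀ (by norm_num) (by norm_num)
        linarith)
      (by
        rw [← sub_div, abs_div, abs_div, ← mul_div_assoc]
        exact div_le_div_of_nonneg_right (val_diff _ _ _ _) (abs_nonneg _))
    rw [e1] at h3
    exact h3
  · exact Op.zero (by positivity) _

/-- class of an index -/
def cl {n : ℕ} (M : Fin n → ℝ) (J r : ℕ) (hJ : ∀ i, je (M i) < J) (i : Fin n) : Sg J r :=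
  (decide (0 < M i), ⟨je (M i), hJ i⟩, ⟨cd r (M i), cd_lt r (M i)⟩)

theorem kap_eq (θ μ b y : ℝ) : kap θ (y - b) μ = Tt θ μ (phi b) y := by
  unfold kap Tt phi
  have e : ∀ x : ℝ, y - b + x * μ = y + x * μ - b := fun x => by ring
  simp only [e]

/-- telescoping -/
theorem telescope {n : ℕ} (M : Fin n → ℝ) (J : ℕ) (hJ : ∀ i, je (M i) < J) (θ : ℕ → ℝ) (k : ℕ)
    (i : Fin n) (f : ℝ → ℝ) (y : ℝ) :
    T0 θ J k (cl M J 0 hJ i) f y + ∑ r ∈ Finset.range J, T1 θ J r k (cl M J (r + 1) hJ i) f y =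
      if 4 * 2 ^ k ≤ |M i| then Tt (θ k) (Mr k (M i) / 2 ^ k) f y else 0 := by
  set e : ℕ → ℝ := fun r => Tt (θ k) (rd r (M i) / 2 ^ k) f y with he
  have hJi := hJ i
  by_cases h : 4 * 2 ^ k ≤ |M i|
  · rw [if_pos h]
    have hj := je_iff.1 h
    have e0 : T0 θ J k (cl M J 0 hJ i) f y = e 0 := by
      unfold T0
      rw [if_pos (show k + 2 ≤ ((cl M J 0 hJ i).2.1 : ℕ) from hj)]
      rfl
    have e1 : ∀ r, T1 θ J r k (cl M J (r + 1) hJ i) f y =
        if r < je (M i) - k then e (r + 1) - e r else 0 := by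
      intro r
      unfold T1
      by_cases hr : r < je (M i) - k
      · rw [if_pos hr, if_pos (show k + 2 ≤ ((cl M J (r + 1) hJ i).2.1 : ℕ) ∧
          k + (r + 1) ≤ ((cl M J (r + 1) hJ i).2.1 : ℕ) from ⟨hj, by
            show k + (r + 1) ≤ je (M i)
            omega⟩)]
        show Tt (θ k) (val (decide (0 < M i)) (je (M i)) (r + 1) (cd (r + 1) (M i)) / 2 ^ k) f y -
          Tt (θ k) (val (decide (0 < M i)) (je (M i)) r (cd (r + 1) (M i) / 2) / 2 ^ k) f y = _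
        rw [← cd_succ]
        rfl
      · rw [if_neg hr, if_neg]
        rintro ⟨_, h2⟩
        apply hr
        have : k + (r + 1) ≤ je (M i) := h2
        omega
    rw [e0, Finset.sum_congr rfl fun r _ => e1 r, ← Finset.sum_filter]
    have e2 : (Finset.range J).filter (fun r => r < je (M i) - k) =
        Finset.range (je (M i) - k) := by
      ext r
      simp only [Finset.mem_filter, Finset.mem_range]
      omega
    rw [e2, Finset.sum_range_sub]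
    show e 0 + (e (je (M i) - k) - e 0) = e (je (M i) - k)
    ring
  · rw [if_neg h]
    have hj : ¬ (k + 2 ≤ je (M i)) := fun h' => h (je_iff.2 h')
    have e0 : T0 θ J k (cl M J 0 hJ i) f y = 0 := by
      unfold T0
      rw [if_neg (show ¬ (k + 2 ≤ ((cl M J 0 hJ i).2.1 : ℕ)) from hj)]
    have e1 : ∀ r, T1 θ J r k (cl M J (r + 1) hJ i) f y = 0 := by
      intro r
      unfold T1
      rw [if_neg]
      rintro ⟨h2, _⟩
      exact hj h2
    rw [e0, Finset.sum_eq_zero fun r _ => e1 r, add_zero]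

end Crest.Agent.R087.MainRndx575
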