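import Crest.Agent.R087.MainLev_575

/-!
Row 87, (E2) MAIN (helper575): `TB` gives almost diagonal operators.
-/

set_option autoImplicit false

noncomputable section

open MeasureTheory Filter Topology

namespace Crest.Agent.R087.MainTBx575

open E2x542 MainVx575 LevAbsx575 MainOpx575 MainLevx575

theorem ii_nice1 {f : ℝ → ℝ} (hf : Nice1 f) (y μ c d : ℝ) :
    IntervalIntegrable (fun x => f (y + x * μ)) volume c d := by
  obtain ⟨hm, ⟨M, hM⟩, _⟩ := hf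
  rw [intervalIntegrable_iff]
  refine Measure.integrableOn_of_bounded (M := M) ?_ ?_ (Filter.Eventually.of_forall fun z => hM _)
  · simp
  · exact (hm.comp (by fun_prop)).aestronglyMeasurable

theorem Tt_add {f g : ℝ → ℝ} (hf : Nice1 f) (hg : Nice1 g) (θ μ : ℝ) :
    Tt θ μ (f + g) = Tt θ μ f + Tt θ μ g := by
  funext y
  show Tt θ μ (f + g) y = Tt θ μ f y + Tt θ μ g y
  unfold Tt
  simp only [Pi.add_apply]
  rw [intervalIntegral.integral_add (ii_nice1 hf _ _ _ _) (ii_nice1 hg _ _ _ _),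
    intervalIntegral.integral_add (ii_nice1 hf _ _ _ _) (ii_nice1 hg _ _ _ _)]
  ring

theorem Tt_smul (f : ℝ → ℝ) (c θ μ : ℝ) :
    Tt θ μ (fun y => c * f y) = fun y => c * Tt θ μ f y := by
  funext y
  unfold Tt
  rw [intervalIntegral.integral_const_mul, intervalIntegral.integral_const_mul]
  ring

/-- the basic numerical lemma for a single operator -/
theorem num_single {C X I μ : ℝ} {l lam : ℤ} (hC : 0 ≤ C) (hI : 0 ≤ I)
    (h1 : (2 : ℝ) ^ lam ≤ |μ|) (h2 : |μ| ≤ (2 : ℝ) ^ (lam + 1))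
    (hX1 : X ≤ C * (|μ| / 2 ^ l) * I) (hX2 : X ≤ C * ((2 : ℝ) ^ l / |μ|) ^ 2 * I) :
    X ≤ 2 * C * pW (l - lam) * I := by
  have hl : (0 : ℝ) < 2 ^ l := by positivity
  have hlam : (0 : ℝ) < 2 ^ lam := by positivity
  have hμ : 0 < |μ| := lt_of_lt_of_le hlam h1
  rcases le_total 0 (l - lam) with hn | hn
  · have e1 : |μ| / 2 ^ l ≤ 2 * pW (l - lam) := by
      calc |μ| / 2 ^ l ≤ (2 : ℝ) ^ (lam + 1) / 2 ^ l := div_le_div_of_nonneg_right h2 hl.le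
        _ = 2 * (2 : ℝ) ^ (-(l - lam)) := by
            rw [← zpow_sub₀ (by norm_num), show lam + 1 - l = 1 + -(l - lam) by ring,
              zpow_add₀ (by norm_num), zpow_one]
        _ ≤ 2 * pW (l - lam) := by
            have := pp_natAbs_of_nonneg hn
            linarith
    calc X ≤ C * (|μ| / 2 ^ l) * I := hX1
      _ ≤ C * (2 * pW (l - lam)) * I := by gcongr
      _ = _ := by ring
  · have e1 : ((2 : ℝ) ^ l / |μ|) ^ 2 ≤ pW (l - lam) := by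
      calc ((2 : ℝ) ^ l / |μ|) ^ 2 ≤ ((2 : ℝ) ^ l / 2 ^ lam) ^ 2 := by gcongr
        _ = ((2 : ℝ) ^ (l - lam)) ^ 2 := by rw [← zpow_sub₀ (by norm_num)]
        _ = pW (l - lam) ^ 4 := pW_four_of_nonpos hn
        _ ≤ pW (l - lam) := pW_four_le _
    have hp := (pW_pos (l - lam)).le
    calc X ≤ C * ((2 : ℝ) ^ l / |μ|) ^ 2 * I := hX2
      _ ≤ C * (pW (l - lam)) * I := by gcongr
      _ ≤ _ := by
        have : 0 ≤ C * pW (l - lam) * I := by positivity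
        linarith

/-- the basic numerical lemma for a difference -/
theorem num_diff {C X I μ ρ : ℝ} {l lam : ℤ} (hC : 0 ≤ C) (hI : 0 ≤ I) (hX : 0 ≤ X)
    (hρ : 0 ≤ ρ) (hρ1 : ρ ≤ 1)
    (h1 : (2 : ℝ) ^ lam ≤ |μ|) (h2 : |μ| ≤ (2 : ℝ) ^ (lam + 1))
    (hX1 : |μ| ≤ 2 ^ l → X ≤ C * ρ ^ 2 * (|μ| / 2 ^ l) * I)
    (hX2 : X ≤ 10 * C * ((2 : ℝ) ^ l / |μ|) ^ 2 * I) (hX3 : X ≤ C * ρ ^ 2 * I) :
    X ≤ 2 * C * (ρ * Real.sqrt ρ) * pW (l - lam) * I := by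
  have hl : (0 : ℝ) < 2 ^ l := by positivity
  have hlam : (0 : ℝ) < 2 ^ lam := by positivity
  have hμ : 0 < |μ| := lt_of_lt_of_le hlam h1
  have hp := (pW_pos (l - lam)).le
  have hsq : Real.sqrt ρ ^ 2 = ρ := Real.sq_sqrt hρ
  have hs0 : 0 ≤ Real.sqrt ρ := Real.sqrt_nonneg ρ
  have hs1 : Real.sqrt ρ ≤ 1 := Real.sqrt_le_one.2 hρ1
  have hρs : ρ ^ 2 ≤ ρ * Real.sqrt ρ := by
    have : ρ ≤ Real.sqrt ρ := by nlinarith
    nlinarith
  rcases lt_or_ge 0 (l - lam) with hn | hn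
  · have h3 : |μ| ≤ 2 ^ l := h2.trans (zpow_le_zpow_right₀ (by norm_num) (by omega))
    have e1 : |μ| / 2 ^ l ≤ 2 * pW (l - lam) := by
      calc |μ| / 2 ^ l ≤ (2 : ℝ) ^ (lam + 1) / 2 ^ l := div_le_div_of_nonneg_right h2 hl.le
        _ = 2 * (2 : ℝ) ^ (-(l - lam)) := by
            rw [← zpow_sub₀ (by norm_num), show lam + 1 - l = 1 + -(l - lam) by ring,
              zpow_add₀ (by norm_num), zpow_one]
        _ ≤ 2 * pW (l - lam) := by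
            have := pp_natAbs_of_nonneg hn.le
            linarith
    calc X ≤ C * ρ ^ 2 * (|μ| / 2 ^ l) * I := hX1 h3
      _ ≤ C * (ρ * Real.sqrt ρ) * (2 * pW (l - lam)) * I := by gcongr
      _ = _ := by ring
  · have e1 : ((2 : ℝ) ^ l / |μ|) ^ 2 ≤ pW (l - lam) ^ 4 := by
      calc ((2 : ℝ) ^ l / |μ|) ^ 2 ≤ ((2 : ℝ) ^ l / 2 ^ lam) ^ 2 := by gcongr
        _ = ((2 : ℝ) ^ (l - lam)) ^ 2 := by rw [← zpow_sub₀ (by norm_num)]
        _ = pW (l - lam) ^ 4 := pW_four_of_nonpos hn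
    have e2 : X ≤ 10 * C * pW (l - lam) ^ 4 * I := hX2.trans (by gcongr)
    have e3 : X ^ 4 ≤ (2 * C * (ρ * Real.sqrt ρ) * pW (l - lam) * I) ^ 4 := by
      calc X ^ 4 = X ^ 3 * X := by ring
        _ ≤ (C * ρ ^ 2 * I) ^ 3 * (10 * C * pW (l - lam) ^ 4 * I) := by gcongr
        _ = 10 * (C ^ 4 * ρ ^ 6 * pW (l - lam) ^ 4 * I ^ 4) := by ring
        _ ≤ 16 * (C ^ 4 * ρ ^ 6 * pW (l - lam) ^ 4 * I ^ 4) := by
            have : 0 ≤ C ^ 4 * ρ ^ 6 * pW (l - lam) ^ 4 * I ^ 4 := by positivity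
            linarith
        _ = 16 * (C ^ 4 * (ρ ^ 4 * (Real.sqrt ρ ^ 2) ^ 2) * pW (l - lam) ^ 4 * I ^ 4) := by
            rw [hsq]; ring
        _ = _ := by ring
    exact le_of_pow_le_pow_left₀ (n := 4) (by norm_num) (by positivity) e3

theorem sq_diff_le {f g : ℝ → ℝ} (hf : Nice1 f) (hg : Nice1 g) :
    ∫ y, (f y - g y) ^ 2 ≤ 2 * (∫ y, (f y) ^ 2) + 2 * ∫ y, (g y) ^ 2 := by
  have i1 := integrable_of_nice1 (nice1_sq hf)
  have i2 := integrable_of_nice1 (nice1_sq hg)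
  rw [← integral_const_mul, ← integral_const_mul,
    ← integral_add (i1.const_mul 2) (i2.const_mul 2)]
  refine integral_mono_of_nonneg (Filter.Eventually.of_forall fun y => sq_nonneg _)
    ((i1.const_mul 2).add (i2.const_mul 2)) (Filter.Eventually.of_forall fun y => ?_)
  show (f y - g y) ^ 2 ≤ 2 * (f y) ^ 2 + 2 * (g y) ^ 2
  nlinarith [sq_nonneg (f y + g y)]

theorem Ex_sub {f g : ℝ → ℝ} (hf : Nice1 f) (hg : Nice1 g) (l : ℤ) (y : ℝ) :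
    Ex l (fun x => f x - g x) y = Ex l f y - Ex l g y := by
  unfold Ex
  rw [integral_sub (integrableOn_nice1 hf _) (integrableOn_nice1 hg _), mul_sub]

theorem Dl_sub {f g : ℝ → ℝ} (hf : Nice1 f) (hg : Nice1 g) (l : ℤ) (y : ℝ) :
    Dl l (fun x => f x - g x) y = Dl l f y - Dl l g y := by
  unfold Dl
  rw [Ex_sub hf hg, Ex_sub hf hg]
  ring

theorem nice1_Dl (hM : MART) {f : ℝ → ℝ} (hf : Nice1 f) (l : ℤ) : Nice1 (Dl l f) := by
  have h := (DH hM l (V1.mk f hf)).nice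
  rw [DH_fn] at h
  exact h

theorem int_Dl_le (hM : MART) {f : ℝ → ℝ} (hf : Nice1 f) (l : ℤ) :
    ∫ y, (Dl l f y) ^ 2 ≤ ∫ y, (f y) ^ 2 := by
  have h := pow_le_pow_left₀ (norm_nonneg _) (norm_DH_le hM l (V1.mk f hf)) 2
  rw [norm_sq, norm_sq, DH_fn] at h
  exact h

theorem isq (f : ℝ → ℝ) : 0 ≤ ∫ y, (f y) ^ 2 := integral_nonneg fun y => sq_nonneg _

/-- single operators -/
theorem op_single (hM : MART) (hT : TB) : ∃ C : ℝ, 0 ≤ C ∧ ∀ (θ μ : ℝ) (lam : ℤ), 0 ≤ θ → θ < 1 →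
    (2 : ℝ) ^ lam ≤ |μ| → |μ| ≤ (2 : ℝ) ^ (lam + 1) → Op C lam (Tt θ μ) := by
  obtain ⟨C, hC⟩ := hT
  refine ⟨2 * |C|, by positivity, fun θ μ lam h0 h1 hμ1 hμ2 => ?_⟩
  have hl : (0 : ℝ) < 2 ^ lam := by positivity
  have hμ : 0 < |μ| := lt_of_lt_of_le hl hμ1
  have hμ0 : μ ≠ 0 := abs_pos.1 hμ
  have hCC : C ≤ |C| := le_abs_self C
  refine ⟨fun f hf => (hC θ μ 0 f h0 h1 hμ0 hf).1, fun f g hf hg => Tt_add hf hg θ μ,
    fun c f _ => Tt_smul f c θ μ, fun l f hf => ?_, fun l f hf => ?_⟩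
  · obtain ⟨_, b1, b2, _⟩ := hC θ μ l f h0 h1 hμ0 hf
    have hI := isq (Dl l f)
    refine num_single (abs_nonneg C) hI hμ1 hμ2 (b1.trans ?_) (b2.trans ?_)
    · gcongr
    · gcongr
  · obtain ⟨_, _, _, b1, b2, _⟩ := hC θ μ l f h0 h1 hμ0 hf
    have hI := isq f
    refine num_single (abs_nonneg C) hI hμ1 hμ2 (b1.trans ?_) (b2.trans ?_)
    · gcongr
    · gcongr

/-- differences -/
theorem op_diff (hM : MART) (hT : TB) : ∃ C : ℝ, 0 ≤ C ∧ ∀ (θ μ μ' ρ : ℝ) (lam : ℤ), 0 ≤ θ → θ < 1 →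
    (2 : ℝ) ^ lam ≤ |μ| → |μ| ≤ (2 : ℝ) ^ (lam + 1) → 0 ≤ ρ → ρ ≤ 1 / 2 → |μ' - μ| ≤ ρ * |μ| →
    Op (C * (ρ * Real.sqrt ρ)) lam (fun f y => Tt θ μ f y - Tt θ μ' f y) := by
  obtain ⟨C, hC⟩ := hT
  refine ⟨2 * |C|, by positivity, fun θ μ μ' ρ lam h0 h1 hμ1 hμ2 hρ0 hρ1 hdiff => ?_⟩
  have hl : (0 : ℝ) < 2 ^ lam := by positivity
  have hμ : 0 < |μ| := lt_of_lt_of_le hl hμ1
  have hμ0 : μ ≠ 0 := abs_pos.1 hμ
  have hCC : C ≤ |C| := le_abs_self C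
  have hhalf : |μ' - μ| ≤ |μ| / 2 := hdiff.trans (by nlinarith)
  have hμ' : |μ| / 2 ≤ |μ'| := by
    have h3 := abs_sub_abs_le_abs_sub μ μ'
    rw [abs_sub_comm] at h3
    linarith
  have hμ'0 : μ' ≠ 0 := by
    intro h
    rw [h, abs_zero] at hμ'
    linarith
  have hμ'p : 0 < |μ'| := abs_pos.2 hμ'0
  have hrat : |μ' - μ| / |μ| ≤ ρ := by rw [div_le_iff₀ hμ]; exact hdiff
  have hrat2 : (|μ' - μ| / |μ|) ^ 2 ≤ ρ ^ 2 := pow_le_pow_left₀ (by positivity) hrat 2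
  have hfine : ∀ l : ℤ, ((2 : ℝ) ^ l / |μ'|) ^ 2 ≤ 4 * ((2 : ℝ) ^ l / |μ|) ^ 2 := by
    intro l
    have e : (2 : ℝ) ^ l / |μ'| ≤ 2 * ((2 : ℝ) ^ l / |μ|) := by
      rw [← mul_div_assoc, div_le_div_iff₀ hμ'p hμ]
      have : (0 : ℝ) < 2 ^ l := by positivity
      nlinarith
    calc ((2 : ℝ) ^ l / |μ'|) ^ 2 ≤ (2 * ((2 : ℝ) ^ l / |μ|)) ^ 2 :=
          pow_le_pow_left₀ (by positivity) e 2
      _ = _ := by ring
  have nT : ∀ f, Nice1 f → Nice1 (Tt θ μ f) := fun f hf => (hC θ μ 0 f h0 h1 hμ0 hf).1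
  have nT' : ∀ f, Nice1 f → Nice1 (Tt θ μ' f) := fun f hf => (hC θ μ' 0 f h0 h1 hμ'0 hf).1
  refine ⟨fun f hf => nice1_sub (nT f hf) (nT' f hf), fun f g hf hg => ?_, fun c f _ => ?_,
    fun l f hf => ?_, fun l f hf => ?_⟩
  · funext y
    show Tt θ μ (f + g) y - Tt θ μ' (f + g) y =
      (Tt θ μ f y - Tt θ μ' f y) + (Tt θ μ g y - Tt θ μ' g y)
    rw [Tt_add hf hg, Tt_add hf hg, Pi.add_apply, Pi.add_apply]
    ring
  · funext y
    rw [Tt_smul, Tt_smul]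
    ring
  · have hI := isq (Dl l f)
    have hDf := nice1_Dl hM hf l
    obtain ⟨_, _, b2, _, _, bd⟩ := hC θ μ l f h0 h1 hμ0 hf
    obtain ⟨_, _, b2', _⟩ := hC θ μ' l f h0 h1 hμ'0 hf
    obtain ⟨_, bd2, _⟩ := bd μ' hhalf
    obtain ⟨bd1, _, _⟩ := (hC θ μ l (Dl l f) h0 h1 hμ0 hDf).2.2.2.2.2 μ' hhalf
    have hX := isq (fun y => Tt θ μ (Dl l f) y - Tt θ μ' (Dl l f) y)
    refine num_diff (abs_nonneg C) hI hX hρ0 (by linarith) hμ1 hμ2 (fun h3 => ?_) ?_ ?_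
    · refine (bd2 h3).trans ?_
      have : 0 ≤ |μ| / 2 ^ l := by positivity
      gcongr
    · refine (sq_diff_le (nT _ hDf) (nT' _ hDf)).trans ?_
      have c1 : ∫ y, (Tt θ μ (Dl l f) y) ^ 2 ≤
          |C| * ((2 : ℝ) ^ l / |μ|) ^ 2 * ∫ y, (Dl l f y) ^ 2 := b2.trans (by gcongr)
      have c2 : ∫ y, (Tt θ μ' (Dl l f) y) ^ 2 ≤
          |C| * (4 * ((2 : ℝ) ^ l / |μ|) ^ 2) * ∫ y, (Dl l f y) ^ 2 := by
        refine b2'.trans ?_
        calc C * ((2 : ℝ) ^ l / |μ'|) ^ 2 * ∫ y, (Dl l f y) ^ 2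
            ≤ |C| * ((2 : ℝ) ^ l / |μ'|) ^ 2 * ∫ y, (Dl l f y) ^ 2 := by gcongr
          _ ≤ _ := by
            have := hfine l
            gcongr
      linarith
    · refine bd1.trans ?_
      gcongr
  · have hI := isq f
    obtain ⟨_, _, _, _, b2, bd⟩ := hC θ μ l f h0 h1 hμ0 hf
    obtain ⟨_, _, _, _, b2', _⟩ := hC θ μ' l f h0 h1 hμ'0 hf
    obtain ⟨bd1, _, bd2⟩ := bd μ' hhalf
    have hX := isq (Dl l (fun y => Tt θ μ f y - Tt θ μ' f y))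
    refine num_diff (abs_nonneg C) hI hX hρ0 (by linarith) hμ1 hμ2 (fun h3 => ?_) ?_ ?_
    · refine (bd2 h3).trans ?_
      have : 0 ≤ |μ| / 2 ^ l := by positivity
      gcongr
    · have e1 : ∫ y, (Dl l (fun y => Tt θ μ f y - Tt θ μ' f y) y) ^ 2 =
          ∫ y, (Dl l (Tt θ μ f) y - Dl l (Tt θ μ' f) y) ^ 2 := by
        refine integral_congr_ae (Filter.Eventually.of_forall fun y => ?_)
        show (Dl l (fun y => Tt θ μ f y - Tt θ μ' f y) y) ^ 2 = _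
        rw [Dl_sub (nT f hf) (nT' f hf)]
      rw [e1]
      refine (sq_diff_le (nice1_Dl hM (nT _ hf) l) (nice1_Dl hM (nT' _ hf) l)).trans ?_
      have c1 : ∫ y, (Dl l (Tt θ μ f) y) ^ 2 ≤
          |C| * ((2 : ℝ) ^ l / |μ|) ^ 2 * ∫ y, (f y) ^ 2 := b2.trans (by gcongr)
      have c2 : ∫ y, (Dl l (Tt θ μ' f) y) ^ 2 ≤
          |C| * (4 * ((2 : ℝ) ^ l / |μ|) ^ 2) * ∫ y, (f y) ^ 2 := by
        refine b2'.trans ?_
        calc C * ((2 : ℝ) ^ l / |μ'|) ^ 2 * ∫ y, (f y) ^ 2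
            ≤ |C| * ((2 : ℝ) ^ l / |μ'|) ^ 2 * ∫ y, (f y) ^ 2 := by gcongr
          _ ≤ _ := by
            have := hfine l
            gcongr
      linarith
    · refine (int_Dl_le hM (nice1_sub (nT f hf) (nT' f hf)) l).trans ?_
      refine bd1.trans ?_
      gcongr

end Crest.Agent.R087.MainTBx575
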