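import Crest.Agent.R087.E2leaf_542
import Crest.Agent.R087.LevAbs_575

/-!
Row 87, (E2) MAIN (helper575): the seminormed space `V1` of test functions on the line
(seminorm `sqrt (∫ f^2)`), dyadic martingale differences on it, convergence of partial sums.
-/

set_option autoImplicit false

noncomputable section

open MeasureTheory Filter Topology
open scoped ENNReal RealInnerProductSpace

namespace Crest.Agent.R087.MainVx575

open E2x542

theorem nice1_zero : Nice1 (0 : ℝ → ℝ) :=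
  ⟨measurable_const, ⟨0, fun y => by simp⟩, 0, fun y _ => rfl⟩

theorem nice1_add {f g : ℝ → ℝ} (hf : Nice1 f) (hg : Nice1 g) : Nice1 (f + g) := by
  obtain ⟨h1, ⟨M, hM⟩, R, hR⟩ := hf
  obtain ⟨h1', ⟨M', hM'⟩, R', hR'⟩ := hg
  refine ⟨h1.add h1', ⟨M + M', fun y => ?_⟩, max R R', fun y hy => ?_⟩
  · exact (abs_add_le _ _).trans (add_le_add (hM y) (hM' y))
  · show f y + g y = 0
    rw [hR y (lt_of_le_of_lt (le_max_left _ _) hy), hR' y (lt_of_le_of_lt (le_max_right _ _) hy),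
      add_zero]

theorem nice1_neg {f : ℝ → ℝ} (hf : Nice1 f) : Nice1 (-f) := by
  obtain ⟨h1, ⟨M, hM⟩, R, hR⟩ := hf
  refine ⟨h1.neg, ⟨M, fun y => ?_⟩, R, fun y hy => ?_⟩
  · show |-(f y)| ≤ M
    rw [abs_neg]; exact hM y
  · show -(f y) = 0
    rw [hR y hy, neg_zero]

theorem nice1_sub {f g : ℝ → ℝ} (hf : Nice1 f) (hg : Nice1 g) : Nice1 (fun y => f y - g y) := by
  have := nice1_add hf (nice1_neg hg)
  have e : (fun y => f y - g y) = f + -g := by
    funext y; show f y - g y = f y + -(g y); ring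
  rw [e]; exact this

theorem nice1_mul {f g : ℝ → ℝ} (hf : Nice1 f) (hg : Nice1 g) : Nice1 (fun y => f y * g y) := by
  obtain ⟨h1, ⟨M, hM⟩, R, hR⟩ := hf
  obtain ⟨h1', ⟨M', hM'⟩, R', hR'⟩ := hg
  refine ⟨h1.mul h1', ⟨M * M', fun y => ?_⟩, R, fun y hy => ?_⟩
  · rw [abs_mul]
    exact mul_le_mul (hM y) (hM' y) (abs_nonneg _) ((abs_nonneg _).trans (hM y))
  · show f y * g y = 0
    rw [hR y hy, zero_mul]

theorem nice1_smul {f : ℝ → ℝ} (hf : Nice1 f) (c : ℝ) : Nice1 (fun y => c * f y) := by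
  obtain ⟨h1, ⟨M, hM⟩, R, hR⟩ := hf
  refine ⟨h1.const_mul c, ⟨|c| * M, fun y => ?_⟩, R, fun y hy => ?_⟩
  · rw [abs_mul]
    exact mul_le_mul_of_nonneg_left (hM y) (abs_nonneg _)
  · show c * f y = 0
    rw [hR y hy, mul_zero]

theorem nice1_sq {f : ℝ → ℝ} (hf : Nice1 f) : Nice1 (fun y => (f y) ^ 2) := by
  have := nice1_mul hf hf
  simpa only [← pow_two] using this

theorem integrable_of_nice1 {f : ℝ → ℝ} (hf : Nice1 f) : Integrable f := by
  obtain ⟨hm, ⟨M, hM⟩, R, hR⟩ := hf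
  have hsub : Function.support f ⊆ Metric.closedBall (0 : ℝ) R := by
    intro z hz
    by_contra h
    apply hz
    apply hR
    simpa using h
  rw [← integrableOn_iff_integrable_of_support_subset hsub]
  refine Measure.integrableOn_of_bounded (M := M) ?_ hm.aestronglyMeasurable
    (Filter.Eventually.of_forall fun z => hM z)
  exact (isCompact_closedBall (0 : ℝ) R).measure_lt_top.ne

theorem memLp_of_nice1 {f : ℝ → ℝ} (hf : Nice1 f) : MemLp f 2 volume := by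
  rw [memLp_two_iff_integrable_sq hf.1.aestronglyMeasurable]
  exact integrable_of_nice1 (nice1_sq hf)

/-- test functions form an additive group -/
def N1 : AddSubgroup (ℝ → ℝ) where
  carrier := {f | Nice1 f}
  add_mem' := fun hf hg => nice1_add hf hg
  zero_mem' := nice1_zero
  neg_mem' := fun hf => nice1_neg hf

/-- the space of test functions -/
def V1 : Type := N1

instance : AddCommGroup V1 := inferInstanceAs (AddCommGroup N1)

/-- underlying function -/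
def V1.fn (v : V1) : ℝ → ℝ := Subtype.val (p := fun f => f ∈ N1) v

theorem V1.nice (v : V1) : Nice1 v.fn := Subtype.property (p := fun f => f ∈ N1) v

/-- constructor -/
def V1.mk (f : ℝ → ℝ) (hf : Nice1 f) : V1 := (⟨f, hf⟩ : N1)

@[simp] theorem V1.fn_mk (f : ℝ → ℝ) (hf : Nice1 f) : (V1.mk f hf).fn = f := rfl

theorem V1.ext' {u v : V1} (h : u.fn = v.fn) : u = v := Subtype.ext h

@[simp] theorem V1.fn_add (u v : V1) : (u + v).fn = u.fn + v.fn := rfl
@[simp] theorem V1.fn_neg (u : V1) : (-u).fn = -u.fn := rfl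
@[simp] theorem V1.fn_zero : (0 : V1).fn = 0 := rfl
@[simp] theorem V1.fn_sub (u v : V1) : (u - v).fn = u.fn - v.fn := by
  rw [sub_eq_add_neg, V1.fn_add, V1.fn_neg, sub_eq_add_neg]

/-- evaluation as a homomorphism -/
def V1.fnHom : V1 →+ (ℝ → ℝ) where
  toFun v := v.fn
  map_zero' := rfl
  map_add' _ _ := rfl

theorem V1.fn_sum {ι : Type*} (s : Finset ι) (g : ι → V1) :
    (∑ i ∈ s, g i).fn = fun y => ∑ i ∈ s, (g i).fn y := by
  have h := map_sum V1.fnHom g s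
  funext y
  have h2 := congrFun h y
  rw [Finset.sum_apply] at h2
  exact h2

/-- embedding in `L²` -/
def toL2 : V1 →+ Lp ℝ 2 (volume : Measure ℝ) where
  toFun v := (memLp_of_nice1 v.nice).toLp v.fn
  map_zero' := by
    apply Lp.ext
    refine (MemLp.coeFn_toLp _).trans ?_
    exact (Lp.coeFn_zero ℝ 2 (volume : Measure ℝ)).symm
  map_add' u v := (MemLp.toLp_add (memLp_of_nice1 u.nice) (memLp_of_nice1 v.nice))

instance : SeminormedAddCommGroup V1 :=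
  SeminormedAddCommGroup.induced V1 (Lp ℝ 2 (volume : Measure ℝ)) toL2

theorem norm_def' (v : V1) : ‖v‖ = ‖toL2 v‖ := rfl

theorem inner_toL2 (u v : V1) : ⟪toL2 u, toL2 v⟫ = ∫ y, v.fn y * u.fn y := by
  rw [L2.inner_def]
  refine integral_congr_ae ?_
  filter_upwards [MemLp.coeFn_toLp (memLp_of_nice1 u.nice),
    MemLp.coeFn_toLp (memLp_of_nice1 v.nice)] with y hu hv
  show ⟪((memLp_of_nice1 u.nice).toLp u.fn : ℝ → ℝ) y,
    ((memLp_of_nice1 v.nice).toLp v.fn : ℝ → ℝ) y⟫ = _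
  rw [hu, hv]
  simp [mul_comm]

theorem norm_sq (v : V1) : ‖v‖ ^ 2 = ∫ y, (v.fn y) ^ 2 := by
  rw [norm_def', ← real_inner_self_eq_norm_sq, inner_toL2]
  simp only [pow_two]

theorem norm_sub_sq' (u v : V1) :
    ‖u - v‖ ^ 2 = ‖u‖ ^ 2 - 2 * (∫ y, v.fn y * u.fn y) + ‖v‖ ^ 2 := by
  rw [norm_def', norm_def', norm_def', map_sub, norm_sub_sq_real, inner_toL2]

/-! ### dyadic expectations as homomorphisms -/

theorem integrableOn_nice1 {f : ℝ → ℝ} (hf : Nice1 f) (s : Set ℝ) : IntegrableOn f s :=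
  (integrable_of_nice1 hf).integrableOn

theorem Ex_add {f g : ℝ → ℝ} (hf : Nice1 f) (hg : Nice1 g) (l : ℤ) :
    Ex l (f + g) = Ex l f + Ex l g := by
  funext y
  show Ex l (f + g) y = Ex l f y + Ex l g y
  unfold Ex
  simp only [Pi.add_apply]
  rw [integral_add (integrableOn_nice1 hf _) (integrableOn_nice1 hg _), mul_add]

theorem Ex_zero (l : ℤ) : Ex l 0 = 0 := by
  funext y
  show Ex l 0 y = 0
  unfold Ex
  simp

variable (hM : MART)

/-- `E_l` on `V1` -/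
def EH (l : ℤ) : V1 →+ V1 where
  toFun v := V1.mk (Ex l v.fn) (hM.1 l v.fn v.nice)
  map_zero' := V1.ext' (by simp [Ex_zero])
  map_add' u v := V1.ext' (by simp [Ex_add u.nice v.nice])

/-- `Δ_l` on `V1` -/
def DH (l : ℤ) : V1 →+ V1 := EH hM l - EH hM (l + 1)

theorem DH_fn (l : ℤ) (v : V1) : (DH hM l v).fn = Dl l v.fn := by
  funext y
  simp [DH, EH, Dl]

theorem EH_fn (l : ℤ) (v : V1) : (EH hM l v).fn = Ex l v.fn := rfl

theorem norm_EH_le (l : ℤ) (v : V1) : ‖EH hM l v‖ ≤ ‖v‖ := by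
  have h := hM.2.1 l v.fn v.nice
  have h1 : ‖EH hM l v‖ ^ 2 ≤ ‖v‖ ^ 2 := by rw [norm_sq, norm_sq]; exact h
  exact (sq_le_sq₀ (norm_nonneg _) (norm_nonneg _)).1 h1

theorem norm_DH_sq (l : ℤ) (v : V1) :
    ‖DH hM l v‖ ^ 2 = ‖EH hM l v‖ ^ 2 - ‖EH hM (l + 1) v‖ ^ 2 := by
  rw [norm_sq, norm_sq, norm_sq, DH_fn, EH_fn, EH_fn]
  exact hM.2.2.1 l v.fn v.nice

theorem norm_DH_le (l : ℤ) (v : V1) : ‖DH hM l v‖ ≤ ‖v‖ := by
  have h1 : ‖DH hM l v‖ ^ 2 ≤ ‖v‖ ^ 2 := by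
    rw [norm_DH_sq]
    have := pow_le_pow_left₀ (norm_nonneg _) (norm_EH_le hM l v) 2
    nlinarith [sq_nonneg ‖EH hM (l + 1) v‖]
  exact (sq_le_sq₀ (norm_nonneg _) (norm_nonneg _)).1 h1

theorem hasSum_DH (v : V1) : HasSum (fun l => ‖DH hM l v‖ ^ 2) (‖v‖ ^ 2) := by
  have h := hM.2.2.2.1 v.fn v.nice
  simp only [norm_sq, DH_fn]
  exact h

theorem hasSum_inner (v : V1) : HasSum (fun l => ∫ y, (DH hM l v).fn y * v.fn y) (‖v‖ ^ 2) := by
  have h := hM.2.2.2.2 v.fn v.fn v.nice v.nice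
  rw [norm_sq]
  simp only [DH_fn, pow_two]
  exact h

theorem tele {M : Type*} [AddCommGroup M] (e : ℤ → M) (L : ℕ) :
    ∑ l ∈ Finset.Icc (-(L : ℤ)) L, (e l - e (l + 1)) = e (-(L : ℤ)) - e (L + 1) := by
  induction L with
  | zero => simp
  | succ L ih =>
    have h : Finset.Icc (-((L + 1 : ℕ) : ℤ)) ((L + 1 : ℕ) : ℤ) =
        insert (-((L + 1 : ℕ) : ℤ)) (insert ((L + 1 : ℕ) : ℤ) (Finset.Icc (-(L : ℤ)) L)) := by
      ext x
      simp only [Finset.mem_Icc, Finset.mem_insert]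
      push_cast
      omega
    rw [h, Finset.sum_insert, Finset.sum_insert, ih]
    · push_cast
      have e1 : -((L : ℤ) + 1) + 1 = -(L : ℤ) := by ring
      rw [e1]
      abel
    · simp only [Finset.mem_Icc]
      push_cast
      omega
    · simp only [Finset.mem_Icc, Finset.mem_insert]
      push_cast
      omega

/-- partial sum -/
def RL (L : ℕ) (v : V1) : V1 := ∑ l ∈ Finset.Icc (-(L : ℤ)) L, DH hM l v

theorem RL_eq (L : ℕ) (v : V1) : RL hM L v = EH hM (-(L : ℤ)) v - EH hM (L + 1) v := by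
  unfold RL
  rw [← tele (fun l => EH hM l v) L]
  rfl

theorem tendsto_RL (v : V1) : Tendsto (fun L : ℕ => ‖v - RL hM L v‖) atTop (𝓝 0) := by
  have hIcc : Tendsto (fun L : ℕ => Finset.Icc (-(L : ℤ)) (L : ℤ)) atTop atTop :=
    Finset.tendsto_Icc_neg
  have t1 : Tendsto (fun L : ℕ => ∑ l ∈ Finset.Icc (-(L : ℤ)) L, ‖DH hM l v‖ ^ 2) atTop
      (𝓝 (‖v‖ ^ 2)) := (hasSum_DH hM v).comp hIcc
  have t2 : Tendsto (fun L : ℕ => ∑ l ∈ Finset.Icc (-(L : ℤ)) L,
      ∫ y, (DH hM l v).fn y * v.fn y) atTop (𝓝 (‖v‖ ^ 2)) := (hasSum_inner hM v).comp hIcc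
  have e1 : ∀ L : ℕ, ∑ l ∈ Finset.Icc (-(L : ℤ)) L, ‖DH hM l v‖ ^ 2 =
      ‖EH hM (-(L : ℤ)) v‖ ^ 2 - ‖EH hM (L + 1) v‖ ^ 2 := by
    intro L
    rw [← tele (fun l => ‖EH hM l v‖ ^ 2) L]
    exact Finset.sum_congr rfl fun l _ => norm_DH_sq hM l v
  have e2 : ∀ L : ℕ, ∑ l ∈ Finset.Icc (-(L : ℤ)) L, ∫ y, (DH hM l v).fn y * v.fn y =
      ∫ y, (RL hM L v).fn y * v.fn y := by
    intro L
    rw [← integral_finsetSum]
    · refine integral_congr_ae (Filter.Eventually.of_forall fun y => ?_)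
      show ∑ l ∈ Finset.Icc (-(L : ℤ)) L, (DH hM l v).fn y * v.fn y = (RL hM L v).fn y * v.fn y
      unfold RL
      rw [V1.fn_sum, Finset.sum_mul]
    · intro l _
      exact integrable_of_nice1 (nice1_mul (DH hM l v).nice v.nice)
  have hx : Tendsto (fun L : ℕ => ‖EH hM (L + 1) v‖ ^ 2) atTop (𝓝 0) := by
    have h3 : Tendsto (fun L : ℕ => ‖v‖ ^ 2 -
        ∑ l ∈ Finset.Icc (-(L : ℤ)) L, ‖DH hM l v‖ ^ 2) atTop (𝓝 0) := by
      have := t1.const_sub (‖v‖ ^ 2)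
      simpa using this
    refine squeeze_zero (fun _ => sq_nonneg _) (fun L => ?_) h3
    rw [e1 L]
    have := pow_le_pow_left₀ (norm_nonneg _) (norm_EH_le hM (-(L : ℤ)) v) 2
    linarith
  have hx' : Tendsto (fun L : ℕ => ‖EH hM (L + 1) v‖) atTop (𝓝 0) := by
    have h3 := (Real.continuous_sqrt.tendsto 0).comp hx
    rw [Real.sqrt_zero] at h3
    refine h3.congr fun L => ?_
    exact Real.sqrt_sq (norm_nonneg _)
  have hb : Tendsto (fun L : ℕ => ‖v‖ ^ 2 - 2 * (∫ y, (RL hM L v).fn y * v.fn y) +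
      (‖v‖ + ‖EH hM (L + 1) v‖) ^ 2) atTop (𝓝 0) := by
    have t3 : Tendsto (fun L : ℕ => ∫ y, (RL hM L v).fn y * v.fn y) atTop (𝓝 (‖v‖ ^ 2)) :=
      t2.congr e2
    have t4 := ((t3.const_mul 2).const_sub (‖v‖ ^ 2)).add ((hx'.const_add ‖v‖).pow 2)
    have e5 : ‖v‖ ^ 2 - 2 * ‖v‖ ^ 2 + (‖v‖ + 0) ^ 2 = 0 := by ring
    rw [e5] at t4
    exact t4
  have hsq : Tendsto (fun L : ℕ => ‖v - RL hM L v‖ ^ 2) atTop (𝓝 0) := by
    refine squeeze_zero (fun _ => sq_nonneg _) (fun L => ?_) hb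
    rw [norm_sub_sq']
    have h4 : ‖RL hM L v‖ ≤ ‖v‖ + ‖EH hM (L + 1) v‖ := by
      rw [RL_eq]
      refine (norm_sub_le _ _).trans ?_
      have := norm_EH_le hM (-(L : ℤ)) v
      linarith
    have h5 := pow_le_pow_left₀ (norm_nonneg _) h4 2
    linarith
  have h3 := (Real.continuous_sqrt.tendsto 0).comp hsq
  rw [Real.sqrt_zero] at h3
  refine h3.congr fun L => ?_
  exact Real.sqrt_sq (norm_nonneg _)

end Crest.Agent.R087.MainVx575
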