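import Crest.Agent.R087.GateDef_273

/-!
Row 87 (S0115), OPERATOR PART, common definitions (helper799), on top of `GateDef_273`.

* `ix s x`        : index of the dyadic cell `[j 2^-s, (j+1) 2^-s)` containing `x`
* `ln U z u`      : the line of the field through `z`
* `kk φ ζ U s z w`: kernel of the (adjoint) gated operator at the scale `2^-s`
* `TS φ ζ U S H`  : `∑_{s<S} ∫ kk s z w * H s z dz` (operator applied to a family of weights `H s`)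
* `Ch h H`        : `H s z = h z` on a measurable interval of scales `lo z ≤ s < hi z`, `0` otherwise
* `nr U K b m z s`: the line `t ↦ b + m t` is `K`-near the cell of scale `s` of the point `z`
* `Prof N M φ`    : `φ = ω^(N)`, `ω` smooth, supported in `[-1,1]`, first `M` derivatives bounded by `1`
-/

set_option autoImplicit false

noncomputable section

open MeasureTheory Crest.Agent.R087.Sh0x283 Crest.Agent.R087.GateDefx273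

namespace Crest.Agent.R087.OPdefx799

/-- index of the dyadic cell of length `2^-s` containing `x` -/
def ix (s : ℕ) (x : ℝ) : ℤ := ⌊(2 : ℝ) ^ s * x⌋

/-- the line of the field through `z` -/
def ln (U : ℝ × ℝ → ℝ) (z : ℝ × ℝ) (u : ℝ) : ℝ := z.2 + (u - z.1) * U z

/-- kernel at the scale `2^-s` -/
def kk (φ ζ : ℝ → ℝ) (U : ℝ × ℝ → ℝ) (s : ℕ) (z w : ℝ × ℝ) : ℝ :=
  (2 : ℝ) ^ s * gt (Int.fract ((2 : ℝ) ^ s * z.1)) * ζ ((2 : ℝ) ^ s * w.1 - ix s z.1) *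
    φ (ln U z w.1 - w.2)

/-- one scale -/
def T1 (φ ζ : ℝ → ℝ) (U : ℝ × ℝ → ℝ) (s : ℕ) (h : ℝ × ℝ → ℝ) (w : ℝ × ℝ) : ℝ :=
  ∫ z, kk φ ζ U s z w * h z

/-- the operator on a family of weights -/
def TS (φ ζ : ℝ → ℝ) (U : ℝ × ℝ → ℝ) (S : ℕ) (H : ℕ → ℝ × ℝ → ℝ) (w : ℝ × ℝ) : ℝ :=
  ∑ s ∈ Finset.range S, T1 φ ζ U s (H s) w

/-- interval truncations of `h` -/
def Ch (h : ℝ × ℝ → ℝ) (H : ℕ → ℝ × ℝ → ℝ) : Prop :=
  ∃ lo hi : ℝ × ℝ → ℕ, Measurable lo ∧ Measurable hi ∧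
    ∀ s z, H s z = if lo z ≤ s ∧ s < hi z then h z else 0

/-- the line `t ↦ b + m t` is `K`-near the cell of scale `s` of `z` -/
def nr (U : ℝ × ℝ → ℝ) (K b m : ℝ) (z : ℝ × ℝ) (s : ℕ) : Prop :=
  |z.2 - (b + m * z.1)| ≤ K ∧ |U z - m| * (1 / 2 : ℝ) ^ s ≤ K

/-- admissible band profiles -/
def Prof (N M : ℕ) (φ : ℝ → ℝ) : Prop :=
  ∃ ω : ℝ → ℝ, ContDiff ℝ (⊤ : ℕ∞) ω ∧ (∀ r, 1 < |r| → ω r = 0) ∧
    (∀ i ≤ M, ∀ r, |iteratedDeriv i ω r| ≤ 1) ∧ φ = iteratedDeriv N ω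

/-- `A` is an admissible constant for all interval truncations (fixed field, fixed `S`). -/
def NN (φ ζ : ℝ → ℝ) (U : ℝ × ℝ → ℝ) (S : ℕ) (A : ℝ) : Prop :=
  ∀ (h : ℝ × ℝ → ℝ) (H : ℕ → ℝ × ℝ → ℝ), Nice h → (∀ z, 0 ≤ h z) → Ch h H →
    ∫ w, (TS φ ζ U S H w) ^ 2 ≤ A * ∫ z, (h z) ^ 2

/-- the target, with profiles `φ` -/
theorem gdn_iff (ζ : ℝ → ℝ) (N M : ℕ) : GDN ζ N M ↔
    ∃ c : ℝ, 0 < c ∧ ∃ B : ℝ, ∀ φ : ℝ → ℝ, Prof N M φ → ∀ U h : ℝ × ℝ → ℝ, Fld c U → Nice h →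
      ∀ S : ℕ, ∫ w, (Tst φ ζ S U h w) ^ 2 ≤ B * ∫ z, (h z) ^ 2 := by
  constructor
  · rintro ⟨c, hc, B, hB⟩
    refine ⟨c, hc, B, ?_⟩
    rintro φ ⟨ω, h1, h2, h3, rfl⟩ U h hU hh S
    exact hB ω h1 h2 h3 U h hU hh S
  · rintro ⟨c, hc, B, hB⟩
    refine ⟨c, hc, B, ?_⟩
    intro ω h1 h2 h3 U h hU hh S
    exact hB _ ⟨ω, h1, h2, h3, rfl⟩ U h hU hh S

end Crest.Agent.R087.OPdefx799
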