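import Crest.Agent.R087.Mass_546
import Crest.Agent.R087.OPdef_799

/-!
Row 87 (S0115), operator part: the mass lemma along a line, and the sets `Ω` (helper546).

`Z` : points whose cell of scale `κ z` is `K`-near the fixed line `t ↦ b + m t`, and such that for every
`r ≤ κ z` the `K`-near points over the `r`-cell of `z` have mass `≤ D 2^-r`.
-/

set_option autoImplicit false

noncomputable section

open MeasureTheory ENNReal

namespace Crest.Agent.R087.MassOmx546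

open Crest.Agent.R087.Massx546 Crest.Agent.R087.OPdefx799

theorem ix_eq_cel (s : ℕ) (x : ℝ) : ix s x = cel s x := rfl

theorem nr_mono_scale {U : ℝ × ℝ → ℝ} {K b m : ℝ} {z : ℝ × ℝ} {s r : ℕ} (h : s ≤ r)
    (hn : nr U K b m z s) : nr U K b m z r := by
  refine ⟨hn.1, le_trans ?_ hn.2⟩
  gcongr ?_ * ?_
  exact pow_le_pow_of_le_one (by norm_num) (by norm_num) h

theorem nr_mono_K {U : ℝ × ℝ → ℝ} {K K' b m : ℝ} {z : ℝ × ℝ} {s : ℕ} (h : K ≤ K')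
    (hn : nr U K b m z s) : nr U K' b m z s := ⟨le_trans hn.1 h, le_trans hn.2 h⟩

/-- MASS LEMMA along a line. -/
theorem mass_line (U : ℝ × ℝ → ℝ) (G Z : Set (ℝ × ℝ)) (hZ : MeasurableSet Z) (hZG : Z ⊆ G)
    (κ : ℝ × ℝ → ℕ) (S : ℕ) (hS : ∀ z ∈ Z, κ z < S) (K b m : ℝ) (D : ℝ≥0∞)
    (hnr : ∀ z ∈ Z, nr U K b m z (κ z))
    (hden : ∀ z ∈ Z, ∀ r ≤ κ z, volume {w | w ∈ G ∧ ix r w.1 = ix r z.1 ∧ nr U K b m w r} ≤
      D * ENNReal.ofReal ((1 / 2 : ℝ) ^ r))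
    (f : ℝ × ℝ → ℝ≥0∞) (F : ℝ → ℝ≥0∞)
    (hfF : ∀ z ∈ Z, ∀ x, ix (κ z) x = ix (κ z) z.1 → f z ≤ F x) :
    ∫⁻ z in Z, f z ≤ 2 * D * ∫⁻ x in cover Prod.fst κ Z, F x := by
  refine mass Prod.fst κ Z volume measurable_fst hZ S hS D ?_ f F hfF
  intro r _ z'' hz'' hr
  refine le_trans (measure_mono ?_) (hden z'' hz'' r hr)
  rintro z ⟨hz, h1, h2⟩
  exact ⟨hZG hz, h2, nr_mono_scale h1 (hnr z hz)⟩

/-- points of the same cell: the two lines stay close -/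
theorem line_close {U : ℝ × ℝ → ℝ} {K b m : ℝ} {z : ℝ × ℝ} {s : ℕ} (hn : nr U K b m z s) {x : ℝ}
    (hx : ix s x = ix s z.1) : |ln U z x - (b + m * x)| ≤ 2 * K := by
  have h1 : |x - z.1| ≤ (1 / 2 : ℝ) ^ s := by
    have h2 : (0 : ℝ) < 2 ^ s := by positivity
    have := Int.abs_sub_lt_one_of_floor_eq_floor (show ⌊(2 : ℝ) ^ s * x⌋ = ⌊(2 : ℝ) ^ s * z.1⌋ from hx)
    rw [← mul_sub, abs_mul, abs_of_pos h2] at this
    rw [one_div, inv_pow, ← one_div, le_div_iff₀ h2, mul_comm]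
    exact this.le
  have h3 : ln U z x - (b + m * x) = (z.2 - (b + m * z.1)) + (x - z.1) * (U z - m) := by
    unfold ln; ring
  rw [h3]
  calc |z.2 - (b + m * z.1) + (x - z.1) * (U z - m)|
      ≤ |z.2 - (b + m * z.1)| + |(x - z.1) * (U z - m)| := abs_add_le _ _
    _ ≤ K + K := by
      refine add_le_add hn.1 ?_
      rw [abs_mul, mul_comm]
      exact le_trans (by gcongr) hn.2
    _ = 2 * K := by ring

theorem lines_close {U : ℝ × ℝ → ℝ} {K b m K' b' m' : ℝ} {z : ℝ × ℝ} {s : ℕ}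
    (hn : nr U K b m z s) (hn' : nr U K' b' m' z s) {x : ℝ} (hx : ix s x = ix s z.1) :
    |(b + m * x) - (b' + m' * x)| ≤ 2 * K + 2 * K' := by
  have h1 := line_close hn hx
  have h2 := line_close hn' hx
  calc |(b + m * x) - (b' + m' * x)|
      = |(ln U z x - (b' + m' * x)) - (ln U z x - (b + m * x))| := by ring_nf
    _ ≤ |ln U z x - (b' + m' * x)| + |ln U z x - (b + m * x)| := abs_sub _ _
    _ ≤ _ := by linarith

/-- a tube of the plane: cell `(r,j)`, line `b + m t`, radius `ρ` -/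
def tub (r : ℕ) (j : ℤ) (b m ρ : ℝ) : Set (ℝ × ℝ) :=
  {w | ix r w.1 = j ∧ |w.2 - (b + m * w.1)| ≤ ρ}

theorem measurable_ix (s : ℕ) : Measurable (ix s) := measurable_cel s

theorem measurableSet_tub (r : ℕ) (j : ℤ) (b m ρ : ℝ) : MeasurableSet (tub r j b m ρ) := by
  have h1 : MeasurableSet {w : ℝ × ℝ | ix r w.1 = j} :=
    ((measurable_ix r).comp measurable_fst) (MeasurableSet.singleton j)
  have h2 : MeasurableSet {w : ℝ × ℝ | |w.2 - (b + m * w.1)| ≤ ρ} := by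
    apply measurableSet_le _ measurable_const
    fun_prop
  exact h1.inter h2

/-- union of the `ρ`-tubes of a family of tops -/
def Om (T : Set (ℕ × ℤ × ℝ × ℝ)) (ρ : ℝ) : Set (ℝ × ℝ) :=
  {w | ∃ t ∈ T, w ∈ tub t.1 t.2.1 t.2.2.1 t.2.2.2 ρ}

theorem Om_mono {T : Set (ℕ × ℤ × ℝ × ℝ)} {ρ ρ' : ℝ} (h : ρ ≤ ρ') : Om T ρ ⊆ Om T ρ' := by
  rintro w ⟨t, ht, h1, h2⟩; exact ⟨t, ht, h1, le_trans h2 h⟩

theorem measurableSet_Om {T : Set (ℕ × ℤ × ℝ × ℝ)} (hT : T.Countable) (ρ : ℝ) :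
    MeasurableSet (Om T ρ) := by
  have : Om T ρ = ⋃ t ∈ T, tub t.1 t.2.1 t.2.2.1 t.2.2.2 ρ := by
    ext w; simp [Om]
  rw [this]
  exact MeasurableSet.biUnion hT fun t _ => measurableSet_tub _ _ _ _ _

/-- the cells `J(z)` of near points lie, along the line, in `Ω` -/
theorem cover_sub_Om (U : ℝ × ℝ → ℝ) (Z : Set (ℝ × ℝ)) (κ : ℝ × ℝ → ℕ) (K K' b m : ℝ)
    (hnr : ∀ z ∈ Z, nr U K b m z (κ z)) (T : Set (ℕ × ℤ × ℝ × ℝ))
    (hT : ∀ z ∈ Z, ∃ t ∈ T, t.1 ≤ κ z ∧ ix t.1 z.1 = t.2.1 ∧ nr U K' t.2.2.1 t.2.2.2 z (κ z)) {x : ℝ}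
    (hx : x ∈ cover Prod.fst κ Z) : (x, b + m * x) ∈ Om T (2 * K + 2 * K') := by
  obtain ⟨z, hz, hxz⟩ := hx
  obtain ⟨t, ht, h1, h2, h3⟩ := hT z hz
  refine ⟨t, ht, ?_, ?_⟩
  · show ix t.1 x = t.2.1
    rw [← h2]; exact cel_mono h1 hxz
  · exact lines_close (hnr z hz) h3 hxz

/-- `1`-dimensional trace of `Ω` along the line `b + m t`, over the cell `(r,j)`, against the area. -/
theorem trace_le (T : Set (ℕ × ℤ × ℝ × ℝ)) (hT : T.Countable) (r : ℕ) (j : ℤ) (b m ρ : ℝ) :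
    volume {x : ℝ | ix r x = j ∧ (x, b + m * x) ∈ Om T ρ} ≤
      volume (tub r j b m (1 / 2) ∩ Om T (ρ + 1 / 2)) := by
  have hms : MeasurableSet (tub r j b m (1 / 2) ∩ Om T (ρ + 1 / 2)) :=
    (measurableSet_tub _ _ _ _ _).inter (measurableSet_Om hT _)
  rw [Measure.volume_eq_prod, Measure.prod_apply hms]
  have hmeas : MeasurableSet {x : ℝ | ix r x = j ∧ (x, b + m * x) ∈ Om T ρ} := by
    have h1 : MeasurableSet {x : ℝ | ix r x = j} := (measurable_ix r) (MeasurableSet.singleton j)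
    have h2 : MeasurableSet {x : ℝ | (x, b + m * x) ∈ Om T ρ} := by
      have : Measurable fun x : ℝ => (x, b + m * x) := by fun_prop
      exact this (measurableSet_Om hT ρ)
    exact h1.inter h2
  calc volume {x : ℝ | ix r x = j ∧ (x, b + m * x) ∈ Om T ρ}
      = ∫⁻ _x in {x : ℝ | ix r x = j ∧ (x, b + m * x) ∈ Om T ρ}, 1 := by simp
    _ ≤ ∫⁻ x in {x : ℝ | ix r x = j ∧ (x, b + m * x) ∈ Om T ρ},
          volume (Prod.mk x ⁻¹' (tub r j b m (1 / 2) ∩ Om T (ρ + 1 / 2))) := by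
        refine setLIntegral_mono' hmeas fun x hx => ?_
        have hsub : Set.Icc (b + m * x - 1 / 2) (b + m * x + 1 / 2) ⊆
            Prod.mk x ⁻¹' (tub r j b m (1 / 2) ∩ Om T (ρ + 1 / 2)) := by
          intro y hy
          have hy' : |y - (b + m * x)| ≤ 1 / 2 := by
            rw [abs_le]; constructor <;> linarith [hy.1, hy.2]
          refine ⟨⟨hx.1, hy'⟩, ?_⟩
          obtain ⟨t, ht, h1, h2⟩ := hx.2
          refine ⟨t, ht, h1, ?_⟩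
          calc |y - (t.2.2.1 + t.2.2.2 * x)|
              = |(y - (b + m * x)) + ((b + m * x) - (t.2.2.1 + t.2.2.2 * x))| := by ring_nf
            _ ≤ |y - (b + m * x)| + |(b + m * x) - (t.2.2.1 + t.2.2.2 * x)| := abs_add_le _ _
            _ ≤ 1 / 2 + ρ := add_le_add hy' h2
            _ = ρ + 1 / 2 := by ring
        calc (1 : ℝ≥0∞) = volume (Set.Icc (b + m * x - 1 / 2) (b + m * x + 1 / 2)) := by
              rw [Real.volume_Icc]; ring_nf; simp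
          _ ≤ _ := measure_mono hsub
    _ ≤ ∫⁻ x, volume (Prod.mk x ⁻¹' (tub r j b m (1 / 2) ∩ Om T (ρ + 1 / 2))) :=
        setLIntegral_le_lintegral _ _

/-- MASS + OMEGA: near points of `Z` over the cell `(r0,j0)`. -/
theorem massom (U : ℝ × ℝ → ℝ) (G Z : Set (ℝ × ℝ)) (hZ : MeasurableSet Z) (hZG : Z ⊆ G)
    (κ : ℝ × ℝ → ℕ) (S : ℕ) (hS : ∀ z ∈ Z, κ z < S) (K K' b m : ℝ) (D : ℝ≥0∞)
    (hnr : ∀ z ∈ Z, nr U K b m z (κ z))
    (hden : ∀ z ∈ Z, ∀ r ≤ κ z, volume {w | w ∈ G ∧ ix r w.1 = ix r z.1 ∧ nr U K b m w r} ≤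
      D * ENNReal.ofReal ((1 / 2 : ℝ) ^ r))
    (T : Set (ℕ × ℤ × ℝ × ℝ)) (hTc : T.Countable)
    (hT : ∀ z ∈ Z, ∃ t ∈ T, t.1 ≤ κ z ∧ ix t.1 z.1 = t.2.1 ∧ nr U K' t.2.2.1 t.2.2.2 z (κ z))
    (r0 : ℕ) (j0 : ℤ) (h0 : ∀ z ∈ Z, r0 ≤ κ z ∧ ix r0 z.1 = j0) :
    volume Z ≤ 2 * D * volume (tub r0 j0 b m (1 / 2) ∩ Om T (2 * K + 2 * K' + 1 / 2)) := by
  have h1 := mass_line U G Z hZ hZG κ S hS K b m D hnr hden (fun _ => 1) (fun _ => 1)
    (fun _ _ _ _ => le_refl _)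
  simp only [lintegral_const, MeasurableSet.univ, Measure.restrict_apply, Set.univ_inter,
    one_mul] at h1
  refine le_trans h1 ?_
  refine mul_le_mul_right (le_trans (measure_mono ?_) (trace_le T hTc r0 j0 b m (2 * K + 2 * K'))) _
  intro x hx
  refine ⟨?_, cover_sub_Om U Z κ K K' b m hnr T hT hx⟩
  obtain ⟨z, hz, hxz⟩ := hx
  obtain ⟨h2, h3⟩ := h0 z hz
  show ix r0 x = j0
  rw [← h3]; exact cel_mono h2 hxz

end Crest.Agent.R087.MassOmx546
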