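import Crest.Agent.R087.OP0_270

/-!
# Row 87, operator part: literal interface, part 1 = tree-level leaves

One LOW tree: integer or real line `R.line`, attached points `B`, chains `[lo z, hi z)`,
coefficients `g`.  Everything is one-dimensional in `x = z.1`; the offset `v` is a parameter.
Leaves: `T1`, `T2a`, `T2b`, `T2c`, `STOP3`, `KEPT` (from the previous ones), `SUPP`, `DEEP`, `SHAL`,
`PLOW` (from `SUPP`, `DEEP`, `SHAL`), and `TREELOW` (from `KEPT` and `PLOW`, proved below).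
-/

set_option autoImplicit false

noncomputable section

open MeasureTheory

namespace Crest.Agent.R087.OP1x270

open Crest.Agent.R087.Sh0x283 Crest.Agent.R087.E2x542 Crest.Agent.R087.E2Kx752
  Crest.Agent.R087.GateDefx273 Crest.Agent.R087.OP0x270

/-- gated average over the alive points of `B` in the dyadic interval `(s, j)` -/
def al (B : Set (ℝ × ℝ)) (lo hi : ℝ × ℝ → ℕ) (c : ℝ × ℝ → ℝ) (s : ℕ) (j : ℤ) : ℝ :=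
  (2 : ℝ) ^ s * ∫ z in {z | z ∈ B ∧ lo z ≤ s ∧ s < hi z ∧ jx s z.1 = j}, c z * et s z.1

/-- positive average with weights -/
def ps (B : Set (ℝ × ℝ)) (lo hi : ℝ × ℝ → ℕ) (g : ℝ × ℝ → ℝ) (wt : ℕ → ℝ × ℝ → ℝ) (s : ℕ)
    (j : ℤ) : ℝ :=
  (2 : ℝ) ^ s * ∫ z in {z | z ∈ B ∧ lo z ≤ s ∧ s < hi z ∧ jx s z.1 = j}, |g z| * wt s z

/-- one-dimensional tree hypotheses -/
structure TreeH (g : ℝ × ℝ → ℝ) (S : ℕ) (lo hi : ℝ × ℝ → ℕ) (B : Set (ℝ × ℝ)) (R : Tube)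
    (G D : ℝ) : Prop where
  mg : Measurable g
  ch : Chain S lo hi
  mB : MeasurableSet B
  fB : volume B ≠ ⊤
  bg : ∀ z, |g z| ≤ G
  hD : 0 < D
  pos : ∀ z ∈ B, lo z < hi z → z.1 ∈ R.I ∧ R.k ≤ lo z
  m3 : Mass3 B lo hi R.k D

/-- **T1** (tree energy, Carleson) -/
def T1 : Prop :=
  ∃ C : ℝ, 0 ≤ C ∧ ∀ (g : ℝ × ℝ → ℝ) (S : ℕ) (lo hi : ℝ × ℝ → ℕ) (B : Set (ℝ × ℝ)) (R : Tube)
    (G D : ℝ), TreeH g S lo hi B R G D →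
      (∀ s j, |al B lo hi g s j| ≤ G * D) ∧ (∀ s j, s < R.k → al B lo hi g s j = 0) ∧
      ∑ s ∈ Finset.range S, ∫ x in R.I, (al B lo hi g s (jx s x)) ^ 2 ≤ C * (G * D) ^ 2 * R.len

/-- **T2a** (`ζ`-sums: almost orthogonality; truncations = dyadic averages) -/
def T2a (ζ : ℝ → ℝ) : Prop :=
  ∃ C : ℝ, 0 ≤ C ∧ ∀ (a : ℕ → ℤ → ℝ) (S : ℕ) (R : Tube) (A0 : ℝ), (∀ s j, |a s j| ≤ A0) →
    (∀ s j, s < R.k → a s j = 0) →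
    ∫ x in R.I, (∑ s ∈ Finset.range S, ζ ((2 : ℝ) ^ s * x - jx s x) * a s (jx s x)) ^ 2 ≤
      C * ∑ s ∈ Finset.range S, ∫ x in R.I, (a s (jx s x)) ^ 2 ∧
    ∀ x ∈ R.I, ∀ t, R.k ≤ t → t ≤ S →
      |∑ s ∈ Finset.range t, ζ ((2 : ℝ) ^ s * x - jx s x) * a s (jx s x) -
        (2 : ℝ) ^ t * ∫ y in dyI t (jx t x),
          ∑ s ∈ Finset.range S, ζ ((2 : ℝ) ^ s * y - jx s y) * a s (jx s y)| ≤ C * A0

/-- normalised scalar product of two wavelets on the nested intervals containing `x` -/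
def kb (ζ : ℝ → ℝ) (s s' : ℕ) (x : ℝ) : ℝ :=
  (2 : ℝ) ^ s' * ∫ u, ζ ((2 : ℝ) ^ s' * u - jx s' x) * ζ ((2 : ℝ) ^ s * u - jx s x)

/-- paraproduct coefficients -/
def be (ζ : ℝ → ℝ) (a : ℕ → ℤ → ℝ) (s' : ℕ) (x : ℝ) : ℝ :=
  ∑ s ∈ Finset.range (s' + 1), cc s s' * a s (jx s x) * kb ζ s s' x

/-- **T2b** (gate martingale with paraproduct coefficients) -/
def T2b (ζ : ℝ → ℝ) : Prop :=
  ∃ C : ℝ, 0 ≤ C ∧ ∀ (a : ℕ → ℤ → ℝ) (S : ℕ) (R : Tube) (A0 : ℝ), (∀ s j, |a s j| ≤ A0) →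
    (∀ s j, s < R.k → a s j = 0) →
    (∀ s' x, |be ζ a s' x| ≤ C * A0) ∧
    ∫ x in R.I, (∑ s' ∈ Finset.range S, et s' x * be ζ a s' x) ^ 2 ≤
      C * ∑ s ∈ Finset.range S, ∫ x in R.I, (a s (jx s x)) ^ 2 ∧
    ∀ x ∈ R.I, ∀ t, R.k ≤ t → t ≤ S →
      ∑ s' ∈ Finset.range (t - 1), et s' x * be ζ a s' x =
        (2 : ℝ) ^ t * ∫ y in dyI t (jx t x), ∑ s' ∈ Finset.range S, et s' y * be ζ a s' y

/-- **T2c** (positive Carleson sums; used for `S1` and for the TOP chains) -/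
def T2c : Prop :=
  ∃ C : ℝ, 0 ≤ C ∧ ∀ (g : ℝ × ℝ → ℝ) (S : ℕ) (lo hi : ℝ × ℝ → ℕ) (B : Set (ℝ × ℝ)) (R : Tube)
    (G D W : ℝ) (wt : ℕ → ℝ × ℝ → ℝ), TreeH g S lo hi B R G D →
      (∀ s, Measurable (wt s)) → (∀ s z, 0 ≤ wt s z) →
      (∀ z ∈ B, lo z < hi z → ∑ s ∈ Finset.Ico (lo z) (hi z), wt s z ≤ W) →
      ∫ x in R.I, (∑ s ∈ Finset.range S, ps B lo hi g wt s (jx s x)) ^ 2 ≤
        C * (G * D * W) ^ 2 * R.len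

/-- **STOP3** (stopping by dyadic averages + removed mass) -/
def STOP3 : Prop :=
  ∀ (S : ℕ) (R : Tube) (Θ : ℝ → ℝ) (thr : ℝ), 0 < thr → Measurable Θ → (∀ x, 0 ≤ Θ x) →
    IntegrableOn Θ R.I →
    ∃ st : ℝ → ℕ, Measurable st ∧ (∀ x, R.k ≤ st x) ∧
      (∀ x x', jx (st x) x' = jx (st x) x → st x' = st x) ∧
      (volume {x | x ∈ R.I ∧ st x < S}).toReal ≤ (1 / thr ^ 2) * ∫ x in R.I, Θ x ∧
      (∀ x ∈ R.I, ∀ t, R.k ≤ t → t < S → t < st x →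
        (2 : ℝ) ^ t * ∫ y in dyI t (jx t x), Θ y ≤ thr ^ 2) ∧
      ∀ (lo hi : ℝ × ℝ → ℕ) (B : Set (ℝ × ℝ)) (D : ℝ), Chain S lo hi → MeasurableSet B →
        volume B ≠ ⊤ → 0 < D → (∀ z ∈ B, lo z < hi z → z.1 ∈ R.I ∧ R.k ≤ lo z) →
        Mass3 B lo hi R.k D →
        (volume {z | z ∈ B ∧ lo z < hi z ∧ st z.1 < hi z}).toReal ≤
          D * (volume {x | x ∈ R.I ∧ st x < S}).toReal

/-! ### pairing with a short point -/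

/-- autocorrelation -/
def Xi (ω : ℝ → ℝ) (t : ℝ) : ℝ := ∫ v, ω (t + v) * ω v

/-- coefficient functions of the offset `v` -/
def cn (ω : ℝ → ℝ) (g : ℝ × ℝ → ℝ) (R : Tube) (n : ℕ) (v : ℝ) (z : ℝ × ℝ) : ℝ :=
  g z * iteratedDeriv n (Xi ω) (z.2 - R.line z.1 + v)

/-- the derivatives of `Xi` which occur (`N = 2q+2`): `N`, `2N`, `2N+1` -/
def nn (q : ℕ) : Finset ℕ := {2 * q + 2, 4 * q + 4, 4 * q + 5}

/-- geometry of a LOW tree -/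
structure LowH (U g : ℝ × ℝ → ℝ) (S : ℕ) (lo hi : ℝ × ℝ → ℕ) (B : Set (ℝ × ℝ)) (R : Tube) :
    Prop where
  mU : Measurable U
  mg : Measurable g
  bg : ∃ G, ∀ z, |g z| ≤ G
  ch : Chain S lo hi
  mB : MeasurableSet B
  fB : volume B ≠ ⊤
  pos : ∀ z ∈ B, lo z < hi z → z.1 ∈ R.I ∧ R.k ≤ lo z ∧ near U 1 R.b R.m (lo z) z

/-- bounds of all kept truncations by `T` -/
structure KT (ζ ω : ℝ → ℝ) (q : ℕ) (U g : ℝ × ℝ → ℝ) (S : ℕ) (lo hi : ℝ × ℝ → ℕ)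
    (B : Set (ℝ × ℝ)) (R : Tube) (T : ℝ) : Prop where
  k0 : ∀ n ∈ nn q, ∀ v s j, |al B lo hi (cn ω g R n v) s j| ≤ T
  k1 : ∀ n ∈ nn q, ∀ v, ∀ x ∈ R.I, ∀ t ≤ S,
    |∑ s ∈ Finset.range t, ζ ((2 : ℝ) ^ s * x - jx s x) * al B lo hi (cn ω g R n v) s (jx s x)| ≤ T
  k2 : ∀ v, ∀ x ∈ R.I, ∀ p p', p' ≤ S →
    |∑ s' ∈ Finset.Ico p p', et s' x * be ζ (al B lo hi (cn ω g R (4 * q + 4) v)) s' x| ≤ T
  k3 : ∀ x ∈ R.I,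
    ∑ s ∈ Finset.range S, ps B lo hi g (fun s z => |U z - R.m| * (1 / 2 : ℝ) ^ s) s (jx s x) ≤ T

/-- **KEPT**: after stopping all truncations are bounded (T1, T2a, T2b, T2c, STOP3, Sobolev in `v`) -/
def KEPT (ζ : ℝ → ℝ) (q : ℕ) : Prop :=
  ∃ C : ℝ, 0 ≤ C ∧ ∀ ω : ℝ → ℝ, PW (2 * q + 8) ω →
    ∀ (U g : ℝ × ℝ → ℝ) (S : ℕ) (lo hi : ℝ × ℝ → ℕ) (B : Set (ℝ × ℝ)) (R : Tube) (G D Λ : ℝ),
      LowH U g S lo hi B R → TreeH g S lo hi B R G D → 1 ≤ Λ →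
      ∃ st : ℝ → ℕ, Measurable st ∧ (∀ x, R.k ≤ st x) ∧
        (volume {z | z ∈ B ∧ lo z < hi z ∧ st z.1 < hi z}).toReal ≤ C * (1 / Λ) ^ 2 * D * R.len ∧
        KT ζ ω q U g S lo (fun z => min (hi z) (st z.1)) B R (C * G * (Λ * D))

/-- **SUPP**: support of one pairing -/
def SUPP (ζ : ℝ → ℝ) : Prop :=
  ∀ φ : ℝ → ℝ, Continuous φ → (∀ r, 1 < |r| → φ r = 0) →
    ∀ (U g : ℝ × ℝ → ℝ) (S : ℕ) (lo hi : ℝ × ℝ → ℕ) (B : Set (ℝ × ℝ)) (R : Tube),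
      LowH U g S lo hi B R →
      ∀ (z' : ℝ × ℝ) (s' : ℕ), z'.1 ∈ R.I →
        |U z' - R.m| * (1 / 2 : ℝ) ^ s' + 6 < |z'.2 - R.line z'.1| →
        Pair φ ζ U B lo hi g s' (s' + 1) z' = 0

/-- **DEEP**: signed sum over the deep scales -/
def DEEP (ζ : ℝ → ℝ) (q : ℕ) : Prop :=
  ∃ C : ℝ, 0 ≤ C ∧ ∀ ω : ℝ → ℝ, PW (2 * q + 8) ω →
    ∀ (U g : ℝ × ℝ → ℝ) (S : ℕ) (lo hi : ℝ × ℝ → ℕ) (B : Set (ℝ × ℝ)) (R : Tube) (T : ℝ),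
      LowH U g S lo hi B R → KT ζ ω q U g S lo hi B R T →
      ∀ (z' : ℝ × ℝ) (p p' : ℕ), z'.1 ∈ R.I → p' ≤ S →
        (∀ s' ∈ Finset.Ico p p', |U z' - R.m| * (1 / 2 : ℝ) ^ s' ≤ 20) →
        |Pair (iteratedDeriv (2 * q + 2) ω) ζ U B lo hi g p p' z'| ≤ C * T

/-- **SHAL**: one shallow scale (`2q+2` integrations by parts) -/
def SHAL (ζ : ℝ → ℝ) (q : ℕ) : Prop :=
  ∃ C : ℝ, 0 ≤ C ∧ ∀ ω : ℝ → ℝ, PW (2 * q + 8) ω →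
    ∀ (U g : ℝ × ℝ → ℝ) (S : ℕ) (lo hi : ℝ × ℝ → ℕ) (B : Set (ℝ × ℝ)) (R : Tube) (T : ℝ),
      LowH U g S lo hi B R → KT ζ ω q U g S lo hi B R T →
      ∀ (z' : ℝ × ℝ) (s' : ℕ), z'.1 ∈ R.I → s' < S →
        20 ≤ |U z' - R.m| * (1 / 2 : ℝ) ^ s' →
        |Pair (iteratedDeriv (2 * q + 2) ω) ζ U B lo hi g s' (s' + 1) z'| ≤
          C * T / (|U z' - R.m| * (1 / 2 : ℝ) ^ s') ^ (2 * q + 2)

/-- **PLOW**: pointwise conclusion for one tree and one short point -/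
def PLOW (ζ : ℝ → ℝ) (q : ℕ) : Prop :=
  ∃ C : ℝ, 0 ≤ C ∧ ∀ ω : ℝ → ℝ, PW (2 * q + 8) ω →
    ∀ (U g : ℝ × ℝ → ℝ) (S : ℕ) (lo hi : ℝ × ℝ → ℕ) (B : Set (ℝ × ℝ)) (R : Tube) (T : ℝ),
      LowH U g S lo hi B R → KT ζ ω q U g S lo hi B R T →
      ∀ (z' : ℝ × ℝ) (a b : ℕ), z'.1 ∈ R.I → a < b → b ≤ S →
        |Pair (iteratedDeriv (2 * q + 2) ω) ζ U B lo hi g a b z'| ≤
          C * T / (1 + |U z' - R.m| * (1 / 2 : ℝ) ^ (b - 1) + |z'.2 - R.line z'.1|) ^ q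

/-! ### closed leaves -/

def L_T2a : Prop := ∀ ζ, ZetC ζ → T2a ζ
def L_T2b : Prop := ∀ ζ, ZetC ζ → T2b ζ
def L_KEPT : Prop := ∀ ζ, ZetC ζ → T1 → T2a ζ → T2b ζ → T2c → STOP3 → KEPT ζ qq
def L_SUPP : Prop := ∀ ζ, ZetC ζ → SUPP ζ
def L_DEEP : Prop := ∀ ζ, ZetC ζ → DEEP ζ qq
def L_SHAL : Prop := ∀ ζ, ZetC ζ → SHAL ζ qq
def L_PLOW : Prop := ∀ ζ, ZetC ζ → SUPP ζ → DEEP ζ qq → SHAL ζ qq → PLOW ζ qq

theorem treelow_of {ζ : ℝ → ℝ} {q : ℕ} (hK : KEPT ζ q) (hP : PLOW ζ q) : TREELOW ζ q := by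
  obtain ⟨C1, hC1, h1⟩ := hK
  obtain ⟨C2, hC2, h2⟩ := hP
  refine ⟨max C1 (C2 * C1), le_max_of_le_left hC1, ?_⟩
  intro ω hω U g S lo hi B R G D Λ hU hg hch hB hfB hbg hD hΛ hpos hm
  have hG : 0 ≤ G := (abs_nonneg _).trans (hbg 0)
  have hL : LowH U g S lo hi B R := ⟨hU, hg, ⟨G, hbg⟩, hch, hB, hfB, hpos⟩
  have hT : TreeH g S lo hi B R G D :=
    ⟨hg, hch, hB, hfB, hbg, hD, fun z hz h => ⟨(hpos z hz h).1, (hpos z hz h).2.1⟩, hm⟩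
  obtain ⟨st, hst, hk, hrem, hkt⟩ := h1 ω hω U g S lo hi B R G D Λ hL hT hΛ
  refine ⟨st, hst, hk, ?_, ?_⟩
  · refine hrem.trans ?_
    have : 0 ≤ R.len := R.len_pos.le
    have h3 : C1 ≤ max C1 (C2 * C1) := le_max_left _ _
    gcongr
  · intro z' a b hz' hab hbS
    have hmin : Measurable (fun z : ℝ × ℝ => min (hi z) (st z.1)) :=
      hch.2.1.min (hst.comp measurable_fst)
    have hL' : LowH U g S lo (fun z => min (hi z) (st z.1)) B R :=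
      ⟨hU, hg, ⟨G, hbg⟩, ⟨hch.1, hmin, fun z => (min_le_left _ _).trans (hch.2.2 z)⟩, hB, hfB,
        fun z hz h => hpos z hz (lt_of_lt_of_le h (min_le_left _ _))⟩
    have h3 := h2 ω hω U g S lo _ B R _ hL' hkt z' a b hz' hab hbS
    refine h3.trans ?_
    have h4 : C2 * C1 ≤ max C1 (C2 * C1) := le_max_right _ _
    have h5 : 0 < (1 + |U z' - R.m| * (1 / 2 : ℝ) ^ (b - 1) + |z'.2 - R.line z'.1|) ^ q := by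
      positivity
    have h6 : C2 * (C1 * G * (Λ * D)) = C2 * C1 * G * (Λ * D) := by ring
    rw [h6]
    have h7 : 0 ≤ Λ := by linarith
    gcongr

theorem l_treelow (t1 : T1) (t2a : L_T2a) (t2b : L_T2b) (t2c : T2c) (st : STOP3) (ke : L_KEPT)
    (su : L_SUPP) (de : L_DEEP) (sh : L_SHAL) (pl : L_PLOW) : L_TREELOW :=
  fun ζ hζ => treelow_of (ke ζ hζ t1 (t2a ζ hζ) (t2b ζ hζ) t2c st)
    (pl ζ hζ (su ζ hζ) (de ζ hζ) (sh ζ hζ))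

end Crest.Agent.R087.OP1x270
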