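import Crest.Agent.R087.OPdef_799
import Crest.Agent.R087.TB_820

/-!
Row 87 (S0115), operator part: kernel bounds, niceness, linearity, one-scale Schur bound (helper799).
-/

set_option autoImplicit false

noncomputable section

open MeasureTheory Crest.Agent.R087.Sh0x283 Crest.Agent.R087.GateDefx273
open Crest.Agent.R087.OPdefx799 Crest.Agent.R087.TBx820
open scoped ENNReal

namespace Crest.Agent.R087.OPkerx799

theorem gt_abs (t : ℝ) : |gt t| ≤ 1 := by
  unfold gt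
  split_ifs <;> norm_num

theorem gt_meas : Measurable gt := by
  unfold gt
  refine Measurable.ite measurableSet_Iio measurable_const ?_
  refine Measurable.ite measurableSet_Iio measurable_const ?_
  refine Measurable.ite measurableSet_Iio measurable_const ?_
  exact Measurable.ite measurableSet_Iio measurable_const measurable_const

theorem ix_meas (s : ℕ) : Measurable (ix s) := by
  unfold ix
  exact Int.measurable_floor.comp (measurable_id.const_mul _)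

/-- cell of scale `s` and index `j` -/
theorem ix_eq_iff (s : ℕ) (x : ℝ) (j : ℤ) :
    ix s x = j ↔ x ∈ Set.Ico ((j : ℝ) * (1 / 2 : ℝ) ^ s) (((j : ℝ) + 1) * (1 / 2 : ℝ) ^ s) := by
  unfold ix
  rw [Int.floor_eq_iff, Set.mem_Ico]
  have h : (0 : ℝ) < (2 : ℝ) ^ s := by positivity
  have h2 : (2 : ℝ) ^ s * (1 / 2 : ℝ) ^ s = 1 := by rw [← mul_pow]; norm_num
  have h3 : (0 : ℝ) < (1 / 2 : ℝ) ^ s := by positivity
  constructor
  · rintro ⟨h4, h5⟩
    constructor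
    · calc (j : ℝ) * (1 / 2 : ℝ) ^ s ≤ ((2 : ℝ) ^ s * x) * (1 / 2 : ℝ) ^ s := by gcongr
        _ = x := by rw [mul_right_comm, h2, one_mul]
    · calc x = ((2 : ℝ) ^ s * x) * (1 / 2 : ℝ) ^ s := by rw [mul_right_comm, h2, one_mul]
        _ < _ := by gcongr
  · rintro ⟨h4, h5⟩
    constructor
    · calc (j : ℝ) = (2 : ℝ) ^ s * ((j : ℝ) * (1 / 2 : ℝ) ^ s) := by
            rw [mul_left_comm, h2, mul_one]
        _ ≤ _ := by gcongr
    · calc (2 : ℝ) ^ s * x < (2 : ℝ) ^ s * (((j : ℝ) + 1) * (1 / 2 : ℝ) ^ s) := by gcongr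
        _ = _ := by rw [mul_left_comm, h2, mul_one]

theorem ix_close {s : ℕ} {x u : ℝ} (h : ix s x = ix s u) : |x - u| ≤ (1 / 2 : ℝ) ^ s := by
  have h1 := (ix_eq_iff s x (ix s u)).1 h
  have h2 := (ix_eq_iff s u (ix s u)).1 rfl
  rw [Set.mem_Ico] at h1 h2
  rw [abs_le]
  constructor <;> nlinarith [h1.1, h1.2, h2.1, h2.2]

theorem ix_close_one {s : ℕ} {x u : ℝ} (h : ix s x = ix s u) : |x - u| ≤ 1 :=
  (ix_close h).trans (pow_le_one₀ (by norm_num) (by norm_num))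

theorem vol_cell (s : ℕ) (j : ℤ) : volume {x : ℝ | ix s x = j} = ENNReal.ofReal ((1 / 2 : ℝ) ^ s) := by
  have : {x : ℝ | ix s x = j} =
      Set.Ico ((j : ℝ) * (1 / 2 : ℝ) ^ s) (((j : ℝ) + 1) * (1 / 2 : ℝ) ^ s) := by
    ext x; exact ix_eq_iff s x j
  rw [this, Real.volume_Ico]
  congr 1; ring

/-- standing assumptions on the profiles -/
structure PZ (φ ζ : ℝ → ℝ) (Cp Cz : ℝ) : Prop where
  cp : Continuous φ
  cz : Continuous ζ
  bp : ∀ r, |φ r| ≤ Cp
  bz : ∀ t, |ζ t| ≤ Cz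
  sp : ∀ r, 1 < |r| → φ r = 0
  sz : ∀ t, ζ t ≠ 0 → 1 / 8 ≤ t ∧ t ≤ 7 / 8

section ker

variable {φ ζ : ℝ → ℝ} {Cp Cz : ℝ} {U : ℝ × ℝ → ℝ}

theorem PZ.Cp_nonneg (P : PZ φ ζ Cp Cz) : 0 ≤ Cp := (abs_nonneg _).trans (P.bp 0)

theorem PZ.Cz_nonneg (P : PZ φ ζ Cp Cz) : 0 ≤ Cz := (abs_nonneg _).trans (P.bz 0)

theorem kk_meas (P : PZ φ ζ Cp Cz) (hU : Measurable U) (s : ℕ) :
    Measurable (fun p : (ℝ × ℝ) × (ℝ × ℝ) => kk φ ζ U s p.1 p.2) := by
  unfold kk ln
  have h1 : Measurable fun p : (ℝ × ℝ) × (ℝ × ℝ) => ((ix s p.1.1 : ℤ) : ℝ) :=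
    (measurable_from_top (f := fun j : ℤ => (j : ℝ))).comp
      ((ix_meas s).comp (measurable_fst.comp measurable_fst))
  have h2 : Measurable fun p : (ℝ × ℝ) × (ℝ × ℝ) => gt (Int.fract ((2 : ℝ) ^ s * p.1.1)) :=
    gt_meas.comp (measurable_fract.comp
      ((measurable_fst.comp measurable_fst).const_mul _))
  have h3 := P.cp.measurable
  have h4 := P.cz.measurable
  fun_prop

/-- the kernel vanishes off the cell and off the unit neighbourhood of the line -/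
theorem kk_ne (P : PZ φ ζ Cp Cz) {s : ℕ} {z w : ℝ × ℝ} (h : kk φ ζ U s z w ≠ 0) :
    ix s z.1 = ix s w.1 ∧ |ln U z w.1 - w.2| ≤ 1 := by
  unfold kk at h
  constructor
  · have h1 : ζ ((2 : ℝ) ^ s * w.1 - ix s z.1) ≠ 0 := by
      intro h0; apply h; rw [h0]; ring
    obtain ⟨h2, h3⟩ := P.sz _ h1
    symm
    unfold ix at *
    rw [Int.floor_eq_iff]
    constructor <;> linarith
  · by_contra h1
    push Not at h1
    apply h
    rw [P.sp _ h1]; ring

theorem kk_abs (P : PZ φ ζ Cp Cz) (s : ℕ) (z w : ℝ × ℝ) :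
    |kk φ ζ U s z w| ≤ (2 : ℝ) ^ s * (Cz * Cp) := by
  unfold kk
  rw [abs_mul, abs_mul, abs_mul, abs_of_pos (by positivity : (0 : ℝ) < (2 : ℝ) ^ s)]
  have h1 := gt_abs (Int.fract ((2 : ℝ) ^ s * z.1))
  have h2 := P.bz ((2 : ℝ) ^ s * w.1 - ix s z.1)
  have h3 := P.bp (ln U z w.1 - w.2)
  have h4 := P.Cp_nonneg
  have h5 := P.Cz_nonneg
  calc (2 : ℝ) ^ s * |gt (Int.fract ((2 : ℝ) ^ s * z.1))| * |ζ ((2 : ℝ) ^ s * w.1 - ix s z.1)| *
        |φ (ln U z w.1 - w.2)| ≤ (2 : ℝ) ^ s * 1 * Cz * Cp := by gcongr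
    _ = _ := by ring

/-- the set where the kernel lives -/
def KS (U : ℝ × ℝ → ℝ) (s : ℕ) : Set ((ℝ × ℝ) × (ℝ × ℝ)) :=
  {p | ix s p.1.1 = ix s p.2.1 ∧ |ln U p.1 p.2.1 - p.2.2| ≤ 1}

theorem KS_meas (hU : Measurable U) (s : ℕ) : MeasurableSet (KS U s) := by
  unfold KS ln
  refine MeasurableSet.inter ?_ ?_
  · exact measurableSet_eq_fun ((ix_meas s).comp (measurable_fst.comp measurable_fst))
      ((ix_meas s).comp (measurable_fst.comp measurable_snd))
  · have : Measurable fun p : (ℝ × ℝ) × (ℝ × ℝ) =>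
        |p.1.2 + (p.2.1 - p.1.1) * U p.1 - p.2.2| := by fun_prop
    exact measurableSet_le this measurable_const

theorem kk_enorm (P : PZ φ ζ Cp Cz) (s : ℕ) (z w : ℝ × ℝ) :
    ‖kk φ ζ U s z w‖ₑ ≤
      ENNReal.ofReal ((2 : ℝ) ^ s * (Cz * Cp)) * (KS U s).indicator 1 (z, w) := by
  by_cases h : kk φ ζ U s z w = 0
  · rw [h]; simp
  · have h1 := kk_ne P h
    have h2 : (z, w) ∈ KS U s := h1
    rw [Set.indicator_of_mem h2, Pi.one_apply, mul_one, Real.enorm_eq_ofReal_abs]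
    exact ENNReal.ofReal_le_ofReal (kk_abs P s z w)

theorem KS_right (s : ℕ) (z : ℝ × ℝ) :
    ∫⁻ w, (KS U s).indicator 1 (z, w) ≤ ENNReal.ofReal ((1 / 2 : ℝ) ^ s) * 2 := by
  have hle : ∀ w : ℝ × ℝ, (KS U s).indicator (1 : (ℝ × ℝ) × (ℝ × ℝ) → ℝ≥0∞) (z, w) =
      ({u : ℝ | ix s u = ix s z.1}).indicator 1 w.1 *
        (Set.Icc (ln U z w.1 - 1) (ln U z w.1 + 1)).indicator 1 w.2 := by
    intro w
    by_cases h1 : ix s w.1 = ix s z.1
    · by_cases h2 : |ln U z w.1 - w.2| ≤ 1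
      · have h3 : (z, w) ∈ KS U s := ⟨h1.symm, h2⟩
        have h4 : w.2 ∈ Set.Icc (ln U z w.1 - 1) (ln U z w.1 + 1) := by
          rw [abs_le] at h2; constructor <;> linarith [h2.1, h2.2]
        rw [Set.indicator_of_mem h3, Set.indicator_of_mem
          (show w.1 ∈ {u : ℝ | ix s u = ix s z.1} from h1), Set.indicator_of_mem h4]; simp
      · have h3 : (z, w) ∉ KS U s := fun h => h2 h.2
        have h4 : w.2 ∉ Set.Icc (ln U z w.1 - 1) (ln U z w.1 + 1) := by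
          intro h4; apply h2; rw [abs_le]; constructor <;> linarith [h4.1, h4.2]
        rw [Set.indicator_of_notMem h3, Set.indicator_of_notMem h4, mul_zero]
    · have h3 : (z, w) ∉ KS U s := fun h => h1 h.1.symm
      rw [Set.indicator_of_notMem h3,
        Set.indicator_of_notMem (show w.1 ∉ {u : ℝ | ix s u = ix s z.1} from h1), zero_mul]
  have hm1 : MeasurableSet {u : ℝ | ix s u = ix s z.1} :=
    (ix_meas s) (measurableSet_singleton _)
  have hm2 : MeasurableSet {w : ℝ × ℝ | w.2 ∈ Set.Icc (ln U z w.1 - 1) (ln U z w.1 + 1)} := by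
    have h1 : Measurable fun w : ℝ × ℝ => ln U z w.1 - 1 := by unfold ln; fun_prop
    have h2 : Measurable fun w : ℝ × ℝ => ln U z w.1 + 1 := by unfold ln; fun_prop
    exact (measurableSet_le h1 measurable_snd).inter (measurableSet_le measurable_snd h2)
  have hm : Measurable fun w : ℝ × ℝ => ({u : ℝ | ix s u = ix s z.1}).indicator
      (1 : ℝ → ℝ≥0∞) w.1 * (Set.Icc (ln U z w.1 - 1) (ln U z w.1 + 1)).indicator
      (1 : ℝ → ℝ≥0∞) w.2 := by
    refine Measurable.mul ?_ ?_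
    · exact ((measurable_one.indicator hm1)).comp measurable_fst
    · have : (fun w : ℝ × ℝ => (Set.Icc (ln U z w.1 - 1) (ln U z w.1 + 1)).indicator
        (1 : ℝ → ℝ≥0∞) w.2) =
        ({w : ℝ × ℝ | w.2 ∈ Set.Icc (ln U z w.1 - 1) (ln U z w.1 + 1)}).indicator 1 := by
        rfl
      rw [this]; exact measurable_one.indicator hm2
  rw [lintegral_congr hle, Measure.volume_eq_prod, lintegral_prod _ hm.aemeasurable]
  have h5 : ∀ u : ℝ, ∫⁻ v, ({u : ℝ | ix s u = ix s z.1}).indicator (1 : ℝ → ℝ≥0∞) (u, v).1 *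
      (Set.Icc (ln U z (u, v).1 - 1) (ln U z (u, v).1 + 1)).indicator (1 : ℝ → ℝ≥0∞) (u, v).2 =
      ({u : ℝ | ix s u = ix s z.1}).indicator (1 : ℝ → ℝ≥0∞) u * 2 := by
    intro u
    simp only
    rw [lintegral_const_mul _ (measurable_one.indicator measurableSet_Icc),
      lintegral_indicator_one measurableSet_Icc, Real.volume_Icc]
    congr 1
    ring_nf
    norm_num
  rw [lintegral_congr h5, lintegral_mul_const _ (measurable_one.indicator hm1),
    lintegral_indicator_one hm1, vol_cell]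

theorem KS_left {c : ℝ} (hc : c ≤ 1 / 2) (hU : Fld c U) (s : ℕ) (w : ℝ × ℝ) :
    ∫⁻ z, (KS U s).indicator 1 (z, w) ≤ ENNReal.ofReal ((1 / 2 : ℝ) ^ s) * 4 := by
  have hm : Measurable fun z : ℝ × ℝ => (KS U s).indicator (1 : (ℝ × ℝ) × (ℝ × ℝ) → ℝ≥0∞) (z, w) :=
    (measurable_one.indicator (KS_meas hU.1 s)).comp (measurable_id.prodMk measurable_const)
  have hm1 : MeasurableSet {x : ℝ | ix s x = ix s w.1} :=
    (ix_meas s) (measurableSet_singleton _)
  rw [Measure.volume_eq_prod, lintegral_prod _ hm.aemeasurable]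
  have h1 : ∀ x : ℝ, ∫⁻ y, (KS U s).indicator (1 : (ℝ × ℝ) × (ℝ × ℝ) → ℝ≥0∞) ((x, y), w) ≤
      ({x : ℝ | ix s x = ix s w.1}).indicator (1 : ℝ → ℝ≥0∞) x * 4 := by
    intro x
    by_cases hx : ix s x = ix s w.1
    · rw [Set.indicator_of_mem (show x ∈ {x : ℝ | ix s x = ix s w.1} from hx), Pi.one_apply,
        one_mul]
      have ht : |x - w.1| ≤ 1 := ix_close_one hx
      have hΦm : Measurable fun y => y - (x - w.1) * U (x, y) := by
        have := hU.1; fun_prop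
      have h2 := lintegral_comp_le hΦm (antilip hc hU.2.2 x (x - w.1) ht)
        (g := (Set.Icc (w.2 - 1) (w.2 + 1)).indicator 1)
        (measurable_one.indicator measurableSet_Icc)
      rw [lintegral_indicator_one measurableSet_Icc, Real.volume_Icc] at h2
      refine (lintegral_mono fun y => ?_).trans (h2.trans (le_of_eq ?_))
      · by_cases h3 : ((x, y), w) ∈ KS U s
        · rw [Set.indicator_of_mem h3]
          have h4 := h3.2
          simp only [ln] at h4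
          rw [Set.indicator_of_mem]
          · simp
          · rw [abs_le] at h4
            rw [Set.mem_Icc]
            constructor <;> nlinarith [h4.1, h4.2]
        · rw [Set.indicator_of_notMem h3]; exact zero_le
      · have : ENNReal.ofReal (w.2 + 1 - (w.2 - 1)) = 2 := by
          ring_nf; norm_num
        rw [this]; norm_num
    · rw [Set.indicator_of_notMem (show x ∉ {x : ℝ | ix s x = ix s w.1} from hx), zero_mul]
      refine le_of_eq ?_
      refine (lintegral_congr fun y => ?_).trans (lintegral_zero)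
      rw [Set.indicator_of_notMem]
      intro h3; exact hx h3.1
  calc ∫⁻ x, ∫⁻ y, (KS U s).indicator (1 : (ℝ × ℝ) × (ℝ × ℝ) → ℝ≥0∞) ((x, y), w)
      ≤ ∫⁻ x, ({x : ℝ | ix s x = ix s w.1}).indicator (1 : ℝ → ℝ≥0∞) x * 4 := lintegral_mono h1
    _ = _ := by
      rw [lintegral_mul_const _ (measurable_one.indicator hm1), lintegral_indicator_one hm1,
        vol_cell]

/-- constant of the one-scale bound -/
def CT (Cp Cz : ℝ) : ℝ := 8 * (Cz * Cp) ^ 2

theorem T1_meas (P : PZ φ ζ Cp Cz) (hU : Measurable U) (s : ℕ) {h : ℝ × ℝ → ℝ}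
    (hh : Measurable h) : Measurable (T1 φ ζ U s h) := by
  unfold T1
  have h1 : Measurable fun p : (ℝ × ℝ) × (ℝ × ℝ) => kk φ ζ U s p.2 p.1 * h p.2 :=
    ((kk_meas P hU s).comp measurable_swap).mul (hh.comp measurable_snd)
  exact (h1.stronglyMeasurable.integral_prod_right' (ν := volume)).measurable

/-- one-scale Schur bound, lower integral form -/
theorem T1_lint (P : PZ φ ζ Cp Cz) {c : ℝ} (hc : c ≤ 1 / 2) (hU : Fld c U) (s : ℕ)
    {h : ℝ × ℝ → ℝ} (hh : Measurable h) :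
    ∫⁻ w, ‖T1 φ ζ U s h w‖ₑ ^ 2 ≤ ENNReal.ofReal (CT Cp Cz) * ∫⁻ z, ‖h z‖ₑ ^ 2 := by
  set a : ℝ := (2 : ℝ) ^ s * (Cz * Cp) with ha
  have ha0 : 0 ≤ a := by
    have := P.Cp_nonneg; have := P.Cz_nonneg; positivity
  set b : ℝ≥0∞ := ENNReal.ofReal ((1 / 2 : ℝ) ^ s) with hb
  set k : (ℝ × ℝ) → (ℝ × ℝ) → ℝ≥0∞ := fun z w => ENNReal.ofReal a * (KS U s).indicator 1 (z, w)
    with hk
  have hkm : Measurable (fun p : (ℝ × ℝ) × (ℝ × ℝ) => k p.1 p.2) :=
    (measurable_one.indicator (KS_meas hU.1 s)).const_mul _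
  have hk1 : ∀ w, ∫⁻ z, k z w ≤ ENNReal.ofReal a * (b * 4) := by
    intro w
    rw [hk]
    simp only
    rw [lintegral_const_mul _ (show Measurable fun z : ℝ × ℝ =>
      (KS U s).indicator (1 : (ℝ × ℝ) × (ℝ × ℝ) → ℝ≥0∞) (z, w) from
      (measurable_one.indicator (KS_meas hU.1 s)).comp (measurable_id.prodMk measurable_const))]
    gcongr
    exact KS_left hc hU s w
  have hk2 : ∀ z, ∫⁻ w, k z w ≤ ENNReal.ofReal a * (b * 2) := by
    intro z
    rw [hk]
    simp only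
    rw [lintegral_const_mul _ (show Measurable fun w : ℝ × ℝ =>
      (KS U s).indicator (1 : (ℝ × ℝ) × (ℝ × ℝ) → ℝ≥0∞) (z, w) from
      (measurable_one.indicator (KS_meas hU.1 s)).comp (measurable_const.prodMk measurable_id))]
    gcongr
    exact KS_right s z
  have h1 : ∀ w, ‖T1 φ ζ U s h w‖ₑ ^ 2 ≤
      (ENNReal.ofReal a * (b * 4)) * ∫⁻ z, k z w * ‖h z‖ₑ ^ 2 := by
    intro w
    have h2 : ‖T1 φ ζ U s h w‖ₑ ≤ ∫⁻ z, k z w * ‖h z‖ₑ := by
      unfold T1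
      refine (enorm_integral_le_lintegral_enorm _).trans (lintegral_mono fun z => ?_)
      rw [enorm_mul]
      exact mul_le_mul_left (kk_enorm P s z w) _
    have hkw : Measurable fun z => k z w := hkm.comp (measurable_id.prodMk measurable_const)
    calc ‖T1 φ ζ U s h w‖ₑ ^ 2 ≤ (∫⁻ z, k z w * ‖h z‖ₑ) ^ 2 := by gcongr
      _ ≤ (∫⁻ z, k z w) * ∫⁻ z, k z w * ‖h z‖ₑ ^ 2 := cs _ _ _ hkw hh.enorm
      _ ≤ _ := by gcongr; exact hk1 w
  have hm3 : Measurable (fun p : (ℝ × ℝ) × (ℝ × ℝ) => k p.2 p.1 * ‖h p.2‖ₑ ^ 2) :=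
    (hkm.comp measurable_swap).mul ((hh.comp measurable_snd).enorm.pow_const 2)
  calc ∫⁻ w, ‖T1 φ ζ U s h w‖ₑ ^ 2
      ≤ ∫⁻ w, (ENNReal.ofReal a * (b * 4)) * ∫⁻ z, k z w * ‖h z‖ₑ ^ 2 := lintegral_mono h1
    _ = (ENNReal.ofReal a * (b * 4)) * ∫⁻ w, ∫⁻ z, k z w * ‖h z‖ₑ ^ 2 := by
        rw [lintegral_const_mul]
        exact hm3.lintegral_prod_right' (ν := volume)
    _ = (ENNReal.ofReal a * (b * 4)) * ∫⁻ z, ∫⁻ w, k z w * ‖h z‖ₑ ^ 2 := by
        rw [lintegral_lintegral_swap hm3.aemeasurable]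
    _ ≤ (ENNReal.ofReal a * (b * 4)) * ∫⁻ z, (ENNReal.ofReal a * (b * 2)) * ‖h z‖ₑ ^ 2 := by
        gcongr with z
        rw [lintegral_mul_const _ (show Measurable fun w : ℝ × ℝ => k z w from
          hkm.comp (measurable_const.prodMk measurable_id))]
        gcongr
        exact hk2 z
    _ = (ENNReal.ofReal a * (b * 4)) * (ENNReal.ofReal a * (b * 2)) * ∫⁻ z, ‖h z‖ₑ ^ 2 := by
        rw [lintegral_const_mul _ (hh.enorm.pow_const 2), ← mul_assoc]
    _ = _ := by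
        congr 1
        have h4 : (4 : ℝ≥0∞) = ENNReal.ofReal 4 := by norm_num
        have h2 : (2 : ℝ≥0∞) = ENNReal.ofReal 2 := by norm_num
        rw [hb, h4, h2, ← ENNReal.ofReal_mul (by positivity), ← ENNReal.ofReal_mul ha0,
          ← ENNReal.ofReal_mul (by positivity), ← ENNReal.ofReal_mul ha0,
          ← ENNReal.ofReal_mul (by positivity)]
        congr 1
        unfold CT
        have h5 : (2 : ℝ) ^ s * (1 / 2 : ℝ) ^ s = 1 := by rw [← mul_pow]; norm_num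
        rw [ha]
        calc (2 : ℝ) ^ s * (Cz * Cp) * ((1 / 2) ^ s * 4) * ((2 : ℝ) ^ s * (Cz * Cp) *
              ((1 / 2) ^ s * 2)) = ((2 : ℝ) ^ s * (1 / 2 : ℝ) ^ s) ^ 2 * (8 * (Cz * Cp) ^ 2) := by
              ring
          _ = _ := by rw [h5]; ring

theorem nice_add {f g : ℝ × ℝ → ℝ} (hf : Nice f) (hg : Nice g) : Nice (fun z => f z + g z) := by
  obtain ⟨h1, ⟨M1, h2⟩, R1, h3⟩ := hf
  obtain ⟨g1, ⟨M2, g2⟩, R2, g3⟩ := hg
  refine ⟨h1.add g1, ⟨M1 + M2, fun z => (abs_add_le _ _).trans (add_le_add (h2 z) (g2 z))⟩,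
    max R1 R2, fun z hz => ?_⟩
  show f z + g z = 0
  rw [h3 z (lt_of_le_of_lt (le_max_left _ _) hz), g3 z (lt_of_le_of_lt (le_max_right _ _) hz),
    add_zero]

theorem nice_zero : Nice (fun _ => (0 : ℝ)) :=
  ⟨measurable_const, ⟨0, fun _ => by simp⟩, 0, fun _ _ => rfl⟩

theorem nice_smul {f : ℝ × ℝ → ℝ} (a : ℝ) (hf : Nice f) : Nice (fun z => a * f z) := by
  obtain ⟨h1, ⟨M1, h2⟩, R1, h3⟩ := hf
  refine ⟨h1.const_mul a, ⟨|a| * M1, fun z => ?_⟩, R1, fun z hz => by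
    show a * f z = 0
    rw [h3 z hz, mul_zero]⟩
  rw [abs_mul]; exact mul_le_mul_of_nonneg_left (h2 z) (abs_nonneg _)

theorem nice_sum {ι : Type*} (F : Finset ι) {f : ι → ℝ × ℝ → ℝ} (hf : ∀ i ∈ F, Nice (f i)) :
    Nice (fun z => ∑ i ∈ F, f i z) := by
  classical
  induction F using Finset.induction_on with
  | empty => simpa using nice_zero
  | insert i F hi ih =>
    have h1 := nice_add (hf i (Finset.mem_insert_self _ _))
      (ih fun j hj => hf j (Finset.mem_insert_of_mem hj))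
    have h2 : (fun z => ∑ j ∈ insert i F, f j z) = fun z => f i z + ∑ j ∈ F, f j z := by
      ext z; rw [Finset.sum_insert hi]
    rw [h2]; exact h1

/-- domination -/
theorem nice_of_le {f g : ℝ × ℝ → ℝ} (hg : Nice g) (hf : Measurable f) (h : ∀ z, |f z| ≤ |g z|) :
    Nice f := by
  obtain ⟨h1, ⟨M1, h2⟩, R1, h3⟩ := hg
  refine ⟨hf, ⟨M1, fun z => (h z).trans (h2 z)⟩, R1, fun z hz => ?_⟩
  have := h z
  rw [h3 z hz, abs_zero] at this
  exact abs_eq_zero.1 (le_antisymm this (abs_nonneg _))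

theorem kk_int (P : PZ φ ζ Cp Cz) (hU : Measurable U) (s : ℕ) {h : ℝ × ℝ → ℝ} (hh : Nice h)
    (w : ℝ × ℝ) : Integrable (fun z => kk φ ζ U s z w * h z) := by
  have h1 := nice_integrable hh
  refine h1.bdd_mul (c := (2 : ℝ) ^ s * (Cz * Cp)) ?_ ?_
  · exact ((kk_meas P hU s).comp (measurable_id.prodMk measurable_const)).aestronglyMeasurable
  · exact Filter.Eventually.of_forall fun z => by rw [Real.norm_eq_abs]; exact kk_abs P s z w

theorem T1_nice (P : PZ φ ζ Cp Cz) (hU : Measurable U) {W : ℝ} (hW : ∀ z, |U z| ≤ W) (s : ℕ)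
    {h : ℝ × ℝ → ℝ} (hh : Nice h) : Nice (T1 φ ζ U s h) := by
  refine ⟨T1_meas P hU s hh.1, ?_, ?_⟩
  · refine ⟨(2 : ℝ) ^ s * (Cz * Cp) * ∫ z, |h z|, fun w => ?_⟩
    unfold T1
    refine (abs_integral_le_integral_abs).trans ?_
    rw [← integral_const_mul]
    refine integral_mono_of_nonneg (Filter.Eventually.of_forall fun z => abs_nonneg _)
      ((nice_integrable hh).abs.const_mul _) (Filter.Eventually.of_forall fun z => ?_)
    show |kk φ ζ U s z w * h z| ≤ (2 : ℝ) ^ s * (Cz * Cp) * |h z|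
    rw [abs_mul]
    exact mul_le_mul_of_nonneg_right (kk_abs P s z w) (abs_nonneg _)
  · obtain ⟨h1, -, R, h3⟩ := hh
    refine ⟨|R| + W + 1, fun w hw => ?_⟩
    unfold T1
    have : ∀ z, kk φ ζ U s z w * h z = 0 := by
      intro z
      by_contra h4
      have h5 : kk φ ζ U s z w ≠ 0 := left_ne_zero_of_mul h4
      have h6 : h z ≠ 0 := right_ne_zero_of_mul h4
      have h7 : ‖z‖ ≤ R := by
        by_contra h8; push Not at h8; exact h6 (h3 z h8)
      obtain ⟨h8, h9⟩ := kk_ne P h5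
      have h10 : |z.1 - w.1| ≤ 1 := ix_close_one h8
      have h11 : |z.1| ≤ R := (norm_fst_le z).trans h7
      have h12 : |z.2| ≤ R := (norm_snd_le z).trans h7
      have hW0 : 0 ≤ W := (abs_nonneg _).trans (hW z)
      have h13 : |(w.1 - z.1) * U z| ≤ W := by
        rw [abs_mul, abs_sub_comm]
        calc |z.1 - w.1| * |U z| ≤ 1 * W := mul_le_mul h10 (hW z) (abs_nonneg _) zero_le_one
          _ = W := one_mul _
      have h14 : |w.2| ≤ R + W + 1 := by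
        unfold ln at h9
        rw [abs_le] at *
        constructor <;> linarith [h9.1, h9.2, h12.1, h12.2, h13.1, h13.2]
      have h15 : |w.1| ≤ R + W + 1 := by
        rw [abs_le] at *
        constructor <;> linarith [h10.1, h10.2, h11.1, h11.2]
      have h16 : ‖w‖ ≤ |R| + W + 1 := by
        rw [Prod.norm_def, Real.norm_eq_abs, Real.norm_eq_abs]
        have : R ≤ |R| := le_abs_self R
        exact max_le (h15.trans (by linarith)) (h14.trans (by linarith))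
      linarith
    simp only [this, integral_zero]

/-- one-scale Schur bound -/
theorem T1_sq (P : PZ φ ζ Cp Cz) {c : ℝ} (hc : c ≤ 1 / 2) (hU : Fld c U) (s : ℕ)
    {h : ℝ × ℝ → ℝ} (hh : Nice h) :
    ∫ w, (T1 φ ζ U s h w) ^ 2 ≤ CT Cp Cz * ∫ z, (h z) ^ 2 := by
  obtain ⟨W, hW⟩ := hU.2.1
  have h1 := T1_lint P hc hU s hh.1
  have hn := T1_nice P hU.1 hW s hh
  rw [← nice_ofReal hn, ← nice_ofReal hh, ← ENNReal.ofReal_mul (by unfold CT; positivity)] at h1
  have h2 : 0 ≤ CT Cp Cz * ∫ z, (h z) ^ 2 :=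
    mul_nonneg (by unfold CT; positivity) (integral_nonneg fun z => sq_nonneg _)
  exact (ENNReal.ofReal_le_ofReal_iff h2).1 h1

theorem T1_add (P : PZ φ ζ Cp Cz) (hU : Measurable U) (s : ℕ) {f g : ℝ × ℝ → ℝ} (hf : Nice f)
    (hg : Nice g) (w : ℝ × ℝ) :
    T1 φ ζ U s (fun z => f z + g z) w = T1 φ ζ U s f w + T1 φ ζ U s g w := by
  unfold T1
  rw [← integral_add (kk_int P hU s hf w) (kk_int P hU s hg w)]
  congr 1; ext z; ring

theorem T1_smul (s : ℕ) (a : ℝ) (f : ℝ × ℝ → ℝ) (w : ℝ × ℝ) :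
    T1 φ ζ U s (fun z => a * f z) w = a * T1 φ ζ U s f w := by
  unfold T1
  rw [← integral_const_mul]
  congr 1; ext z; ring

theorem T1_sum (P : PZ φ ζ Cp Cz) (hU : Measurable U) (s : ℕ) {ι : Type*} (F : Finset ι)
    {f : ι → ℝ × ℝ → ℝ} (hf : ∀ i ∈ F, Nice (f i)) (w : ℝ × ℝ) :
    T1 φ ζ U s (fun z => ∑ i ∈ F, f i z) w = ∑ i ∈ F, T1 φ ζ U s (f i) w := by
  unfold T1
  rw [← integral_finsetSum _ fun i hi => kk_int P hU s (hf i hi) w]
  congr 1; ext z; rw [Finset.mul_sum]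

theorem TS_nice (P : PZ φ ζ Cp Cz) (hU : Measurable U) {W : ℝ} (hW : ∀ z, |U z| ≤ W) (S : ℕ)
    {H : ℕ → ℝ × ℝ → ℝ} (hH : ∀ s < S, Nice (H s)) : Nice (TS φ ζ U S H) := by
  unfold TS
  exact nice_sum _ fun s hs => T1_nice P hU hW s (hH s (Finset.mem_range.1 hs))

theorem TS_congr (S : ℕ) {H H' : ℕ → ℝ × ℝ → ℝ} (h : ∀ s < S, ∀ z, H s z = H' s z) :
    TS φ ζ U S H = TS φ ζ U S H' := by
  ext w
  unfold TS
  refine Finset.sum_congr rfl fun s hs => ?_
  rw [show H s = H' s from funext (h s (Finset.mem_range.1 hs))]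

theorem TS_add (P : PZ φ ζ Cp Cz) (hU : Measurable U) (S : ℕ) {H G : ℕ → ℝ × ℝ → ℝ}
    (hH : ∀ s < S, Nice (H s)) (hG : ∀ s < S, Nice (G s)) (w : ℝ × ℝ) :
    TS φ ζ U S (fun s z => H s z + G s z) w = TS φ ζ U S H w + TS φ ζ U S G w := by
  unfold TS
  rw [← Finset.sum_add_distrib]
  refine Finset.sum_congr rfl fun s hs => ?_
  have hs := Finset.mem_range.1 hs
  exact T1_add P hU s (hH s hs) (hG s hs) w

theorem TS_sum (P : PZ φ ζ Cp Cz) (hU : Measurable U) (S : ℕ) {ι : Type*} (F : Finset ι)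
    {H : ι → ℕ → ℝ × ℝ → ℝ} (hH : ∀ i ∈ F, ∀ s < S, Nice (H i s)) (w : ℝ × ℝ) :
    TS φ ζ U S (fun s z => ∑ i ∈ F, H i s z) w = ∑ i ∈ F, TS φ ζ U S (H i) w := by
  unfold TS
  rw [Finset.sum_comm]
  refine Finset.sum_congr rfl fun s hs => ?_
  have hs := Finset.mem_range.1 hs
  exact T1_sum P hU s F (fun i hi => hH i hi s hs) w

/-! ### chains -/

theorem ch_abs {h : ℝ × ℝ → ℝ} {H : ℕ → ℝ × ℝ → ℝ} (hC : Ch h H) (s : ℕ) (z : ℝ × ℝ) :
    |H s z| ≤ |h z| := by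
  obtain ⟨lo, hi, -, -, h3⟩ := hC
  rw [h3]
  split_ifs
  · exact le_rfl
  · simp

theorem ch_meas {h : ℝ × ℝ → ℝ} {H : ℕ → ℝ × ℝ → ℝ} (hh : Measurable h) (hC : Ch h H) (s : ℕ) :
    Measurable (H s) := by
  obtain ⟨lo, hi, h1, h2, h3⟩ := hC
  have : H s = fun z => if lo z ≤ s ∧ s < hi z then h z else 0 := funext (h3 s)
  rw [this]
  refine Measurable.ite ?_ hh measurable_const
  exact (measurableSet_le h1 measurable_const).inter (measurableSet_lt measurable_const h2)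

theorem ch_nice {h : ℝ × ℝ → ℝ} {H : ℕ → ℝ × ℝ → ℝ} (hh : Nice h) (hC : Ch h H) (s : ℕ) :
    Nice (H s) := nice_of_le hh (ch_meas hh.1 hC s) (ch_abs hC s)

theorem ch_sq {h : ℝ × ℝ → ℝ} {H : ℕ → ℝ × ℝ → ℝ} (hh : Nice h) (hC : Ch h H) (s : ℕ) :
    ∫ z, (H s z) ^ 2 ≤ ∫ z, (h z) ^ 2 := by
  refine integral_mono (nice_integrable_sq (ch_nice hh hC s)) (nice_integrable_sq hh) fun z => ?_
  have := ch_abs hC s z
  exact sq_le_sq.2 this

/-! ### a priori bound -/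

theorem apriori (P : PZ φ ζ Cp Cz) {c : ℝ} (hc : c ≤ 1 / 2) (hU : Fld c U) (S : ℕ) :
    NN φ ζ U S ((S : ℝ) * S * CT Cp Cz) := by
  intro h H hh _ hC
  obtain ⟨W, hW⟩ := hU.2.1
  have h1 : ∀ w, (TS φ ζ U S H w) ^ 2 ≤ S * ∑ s ∈ Finset.range S, (T1 φ ζ U s (H s) w) ^ 2 := by
    intro w
    unfold TS
    have := sq_sum_le_card_mul_sum_sq (s := Finset.range S) (f := fun s => T1 φ ζ U s (H s) w)
    simpa using this
  have hn : ∀ s ∈ Finset.range S, Integrable fun w => (T1 φ ζ U s (H s) w) ^ 2 := fun s _ =>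
    nice_integrable_sq (T1_nice P hU.1 hW s (ch_nice hh hC s))
  calc ∫ w, (TS φ ζ U S H w) ^ 2
      ≤ ∫ w, (S : ℝ) * ∑ s ∈ Finset.range S, (T1 φ ζ U s (H s) w) ^ 2 := by
        refine integral_mono (nice_integrable_sq (TS_nice P hU.1 hW S
          fun s _ => ch_nice hh hC s)) ?_ h1
        exact (integrable_finsetSum _ hn).const_mul _
    _ = (S : ℝ) * ∑ s ∈ Finset.range S, ∫ w, (T1 φ ζ U s (H s) w) ^ 2 := by
        rw [integral_const_mul, integral_finsetSum _ hn]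
    _ ≤ (S : ℝ) * ∑ s ∈ Finset.range S, CT Cp Cz * ∫ z, (h z) ^ 2 := by
        gcongr with s hs
        refine (T1_sq P hc hU s (ch_nice hh hC s)).trans ?_
        exact mul_le_mul_of_nonneg_left (ch_sq hh hC s) (by unfold CT; positivity)
    _ = _ := by
        rw [Finset.sum_const, Finset.card_range, nsmul_eq_mul]; ring

end ker

end Crest.Agent.R087.OPkerx799
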