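import Crest.Agent.R087.OP0_270
import Crest.Agent.R087.Omega_627
import Crest.Agent.R087.TB_820

/-!
# Row 87, leaf OMEGA (helper627)

`Om R kk ii k i` : the fat tops of the colour `k`.

* `fib_le`  : the `x`-set of `MASSOM` has measure at most `|R0.body ∩ Om|`;
* `vol_Om`  : `|Om k i| ≤ 50 * 2^i * 2^n * |col h k|`.
-/

set_option autoImplicit false

noncomputable section

open MeasureTheory

namespace Crest.Agent.R087.OmegaBx627

open Crest.Agent.R087.Sh0x283 Crest.Agent.R087.E2x542 Crest.Agent.R087.E2Kx752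
  Crest.Agent.R087.GateDefx273 Crest.Agent.R087.OP0x270

/-- fat tops of the colour `k` -/
def Om {N : ℕ} (R : Fin N → Tube) (kk : Fin N → ℤ) (ii : Fin N → ℕ) (k : ℤ) (i : ℕ) :
    Set (ℝ × ℝ) :=
  ⋃ m ∈ {m' : Fin N | kk m' = k}, fat (2 * 2 ^ i + 10 * 2 ^ ii m + 1 / 2) (R m)

theorem measurableSet_Om {N : ℕ} (R : Fin N → Tube) (kk : Fin N → ℤ) (ii : Fin N → ℕ) (k : ℤ)
    (i : ℕ) : MeasurableSet (Om R kk ii k i) :=
  MeasurableSet.biUnion (Set.to_countable _) (fun _ _ => measurableSet_fat _ _)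

theorem Om_ne_top {N : ℕ} (R : Fin N → Tube) (kk : Fin N → ℤ) (ii : Fin N → ℕ) (k : ℤ)
    (i : ℕ) : volume (Om R kk ii k i) ≠ ⊤ := by
  have h1 : Om R kk ii k i ⊆ ⋃ m, fat (2 * 2 ^ i + 10 * 2 ^ ii m + 1 / 2) (R m) := by
    intro z hz
    simp only [Om, Set.mem_iUnion] at hz ⊢
    obtain ⟨m, _, hm⟩ := hz
    exact ⟨m, hm⟩
  have h2 : volume (⋃ m, fat (2 * 2 ^ i + 10 * 2 ^ ii m + 1 / 2) (R m)) ≤
      ∑ m, volume (fat (2 * 2 ^ i + 10 * 2 ^ ii m + 1 / 2) (R m)) :=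
    measure_iUnion_fintype_le _ _
  exact ne_top_of_le_ne_top (ENNReal.sum_ne_top.2 (fun m _ => fat_ne_top _ _))
    ((measure_mono h1).trans h2)

/-- area of a strip over a measurable set -/
theorem vol_strip (X : Set ℝ) (hX : MeasurableSet X) (l : ℝ → ℝ) (hl : Measurable l) :
    volume {z : ℝ × ℝ | z.1 ∈ X ∧ |z.2 - l z.1| ≤ 1 / 2} = volume X := by
  have hm : MeasurableSet {z : ℝ × ℝ | z.1 ∈ X ∧ |z.2 - l z.1| ≤ 1 / 2} := by
    have h2 : Measurable fun z : ℝ × ℝ => |z.2 - l z.1| := by fun_prop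
    exact MeasurableSet.inter (measurable_fst hX) (measurableSet_le h2 measurable_const)
  rw [Measure.volume_eq_prod, Measure.prod_apply hm]
  have : ∀ x, volume (Prod.mk x ⁻¹' {z : ℝ × ℝ | z.1 ∈ X ∧ |z.2 - l z.1| ≤ 1 / 2}) =
      X.indicator (fun _ => (1 : ENNReal)) x := by
    intro x
    by_cases hx : x ∈ X
    · rw [Set.indicator_of_mem hx]
      have : Prod.mk x ⁻¹' {z : ℝ × ℝ | z.1 ∈ X ∧ |z.2 - l z.1| ≤ 1 / 2} =
          Set.Icc (l x - 1 / 2) (l x + 1 / 2) := by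
        ext y
        simp only [Set.mem_preimage, Set.mem_ofPred_eq, Set.mem_Icc, hx, true_and, abs_le]
        constructor
        · rintro ⟨h1, h2⟩; constructor <;> linarith
        · rintro ⟨h1, h2⟩; constructor <;> linarith
      rw [this, Real.volume_Icc]
      ring_nf
      simp
    · rw [Set.indicator_of_notMem hx]
      have : Prod.mk x ⁻¹' {z : ℝ × ℝ | z.1 ∈ X ∧ |z.2 - l z.1| ≤ 1 / 2} = ∅ := by
        ext y; simp [hx]
      rw [this, measure_empty]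
  simp_rw [this]
  rw [lintegral_indicator hX]
  simp

/-- the `x`-set of `MASSOM` -/
def Xs {N : ℕ} (R : Fin N → Tube) (kk : Fin N → ℤ) (ii : Fin N → ℕ) (k : ℤ) (i : ℕ) (R0 : Tube) :
    Set ℝ :=
  {x : ℝ | x ∈ R0.I ∧ ∃ m, kk m = k ∧ x ∈ (R m).I ∧
            |R0.line x - (R m).line x| ≤ 2 * 2 ^ i + 10 * 2 ^ ii m}

theorem measurableSet_Xs {N : ℕ} (R : Fin N → Tube) (kk : Fin N → ℤ) (ii : Fin N → ℕ) (k : ℤ)
    (i : ℕ) (R0 : Tube) : MeasurableSet (Xs R kk ii k i R0) := by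
  have : Xs R kk ii k i R0 = R0.I ∩ ⋃ m ∈ {m : Fin N | kk m = k},
      ((R m).I ∩ {x : ℝ | |R0.line x - (R m).line x| ≤ 2 * 2 ^ i + 10 * 2 ^ ii m}) := by
    ext x
    simp only [Xs, Set.mem_ofPred_eq, Set.mem_inter_iff, Set.mem_iUnion, exists_prop]
  rw [this]
  apply R0.measurableSet_I.inter
  apply MeasurableSet.biUnion (Set.to_countable _)
  intro m _
  apply (R m).measurableSet_I.inter
  apply measurableSet_le _ measurable_const
  have h1 := R0.measurable_line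
  have h2 := (R m).measurable_line
  fun_prop

/-- the `x`-set of `MASSOM` has measure at most `|R0.body ∩ Om|` -/
theorem fib_le {N : ℕ} (R : Fin N → Tube) (kk : Fin N → ℤ) (ii : Fin N → ℕ) (k : ℤ) (i : ℕ)
    (R0 : Tube) :
    (volume (Xs R kk ii k i R0)).toReal ≤ (volume (R0.body ∩ Om R kk ii k i)).toReal := by
  apply ENNReal.toReal_mono
    (measure_ne_top_of_subset Set.inter_subset_right (Om_ne_top R kk ii k i))
  rw [← vol_strip (Xs R kk ii k i R0) (measurableSet_Xs R kk ii k i R0) R0.line R0.measurable_line]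
  apply measure_mono
  rintro z ⟨hz, hz2⟩
  obtain ⟨hx, m, hm, hxm, hd⟩ := hz
  refine ⟨⟨hx, hz2⟩, ?_⟩
  simp only [Om, Set.mem_iUnion]
  refine ⟨m, hm, hxm, ?_⟩
  have : z.2 - (R m).line z.1 = (z.2 - R0.line z.1) + (R0.line z.1 - (R m).line z.1) := by ring
  rw [this]
  refine (abs_add_le _ _).trans ?_
  linarith

/-! ### measure of the fat tops -/

theorem col_meas {h : ℝ × ℝ → ℝ} (hh : Measurable h) (k : ℤ) : MeasurableSet (col h k) := by
  have h2 : Measurable fun z : ℝ × ℝ => |h z| := by fun_prop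
  exact MeasurableSet.inter (measurableSet_le measurable_const h2)
    (measurableSet_lt h2 measurable_const)

theorem col_ne_top {h : ℝ × ℝ → ℝ} (hh : Nice h) (k : ℤ) : volume (col h k) ≠ ⊤ := by
  obtain ⟨_, _, r, hr⟩ := hh
  refine measure_ne_top_of_subset (?_ : col h k ⊆ Metric.closedBall (0 : ℝ × ℝ) r) ?_
  · intro z hz
    rw [mem_closedBall_zero_iff]
    by_contra hcon
    push Not at hcon
    have h1 := hr z hcon
    have h2 := hz.1
    rw [h1, abs_zero] at h2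
    have : (0 : ℝ) < 2 ^ k := by positivity
    linarith
  · exact (isCompact_closedBall (0 : ℝ × ℝ) r).measure_lt_top.ne

theorem geo_sum_le (A : ℕ) (hA : 2 ≤ A) (s : Finset ℕ) :
    ∑ j ∈ s, (2 : ℝ) ^ j * (1 / 2 : ℝ) ^ (A * j) ≤ 2 := by
  have h1 : ∀ j : ℕ, (2 : ℝ) ^ j * (1 / 2 : ℝ) ^ (A * j) ≤ (1 / 2 : ℝ) ^ j := by
    intro j
    have e : (1 / 2 : ℝ) ^ (A * j) ≤ (1 / 2 : ℝ) ^ (2 * j) :=
      pow_le_pow_of_le_one (by norm_num) (by norm_num) (Nat.mul_le_mul_right j hA)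
    calc (2 : ℝ) ^ j * (1 / 2 : ℝ) ^ (A * j) ≤ 2 ^ j * (1 / 2 : ℝ) ^ (2 * j) :=
          mul_le_mul_of_nonneg_left e (by positivity)
      _ = (1 / 2 : ℝ) ^ j := by
          rw [two_mul, pow_add, ← mul_assoc, ← mul_pow]; norm_num
  calc ∑ j ∈ s, (2 : ℝ) ^ j * (1 / 2 : ℝ) ^ (A * j) ≤ ∑ j ∈ s, (1 / 2 : ℝ) ^ j :=
        Finset.sum_le_sum (fun j _ => h1 j)
    _ ≤ ∑' j : ℕ, (1 / 2 : ℝ) ^ j :=
        (summable_geometric_of_lt_one (by norm_num) (by norm_num)).sum_le_tsum s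
          (fun _ _ => by positivity)
    _ = 2 := by rw [tsum_geometric_of_lt_one (by norm_num) (by norm_num)]; norm_num

/-- `|Om k i| ≤ 50 * 2^i * 2^n * |col h k|` -/
theorem vol_Om {U h : ℝ × ℝ → ℝ} {A n : ℕ} {lo hi : ℝ × ℝ → ℕ} {N : ℕ} {R : Fin N → Tube}
    {kk : Fin N → ℤ} {ii : Fin N → ℕ} {E B : Fin N → Set (ℝ × ℝ)} (hA : 2 ≤ A) (hh : Nice h)
    (hT : IsTops U h A n lo hi N R kk ii E B) (k : ℤ) (i : ℕ) :
    (volume (Om R kk ii k i)).toReal ≤ 50 * 2 ^ i * 2 ^ n * (volume (col h k)).toReal := by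
  classical
  set c : ℝ := (volume (col h k)).toReal with hc
  have hc0 : 0 ≤ c := ENNReal.toReal_nonneg
  set s : Finset (Fin N) := Finset.univ.filter (fun m => kk m = k) with hs
  -- union bound
  have h1 : (volume (Om R kk ii k i)).toReal ≤
      ∑ m ∈ s, (volume (fat (2 * 2 ^ i + 10 * 2 ^ ii m + 1 / 2) (R m))).toReal := by
    have hsub : Om R kk ii k i ⊆ ⋃ m ∈ s, fat (2 * 2 ^ i + 10 * 2 ^ ii m + 1 / 2) (R m) := by
      intro z hz
      simp only [Om, Set.mem_iUnion] at hz ⊢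
      obtain ⟨m, hm, hz⟩ := hz
      exact ⟨m, by simp [hs]; exact hm, hz⟩
    rw [← ENNReal.toReal_sum (fun m _ => fat_ne_top _ _)]
    apply ENNReal.toReal_mono (ENNReal.sum_ne_top.2 (fun m _ => fat_ne_top _ _))
    exact (measure_mono hsub).trans (measure_biUnion_finset_le _ _)
  -- one top
  have h2 : ∀ m ∈ s, (volume (fat (2 * 2 ^ i + 10 * 2 ^ ii m + 1 / 2) (R m))).toReal ≤
      25 * 2 ^ i * 2 ^ n * ((2 : ℝ) ^ ii m * (1 / 2 : ℝ) ^ (A * ii m) *
        (volume (E m)).toReal) := by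
    intro m _
    have hl := (R m).len_pos
    rw [volume_fat, ENNReal.toReal_ofReal (by positivity)]
    have hm := hT.mass m
    have hE : (R m).len ≤ 2 ^ n * (1 / 2 : ℝ) ^ (A * ii m) * (volume (E m)).toReal := by
      have e1 : (2 : ℝ) ^ n * (1 / 2 : ℝ) ^ n = 1 := by rw [← mul_pow]; norm_num
      have e2 : (2 : ℝ) ^ (A * ii m) * (1 / 2 : ℝ) ^ (A * ii m) = 1 := by
        rw [← mul_pow]; norm_num
      calc (R m).len = 2 ^ n * (1 / 2 : ℝ) ^ (A * ii m) *
            ((1 / 2 : ℝ) ^ n * 2 ^ (A * ii m) * (R m).len) := by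
            have : 2 ^ n * (1 / 2 : ℝ) ^ (A * ii m) *
              ((1 / 2 : ℝ) ^ n * 2 ^ (A * ii m) * (R m).len) =
              ((2 : ℝ) ^ n * (1 / 2 : ℝ) ^ n) * ((2 : ℝ) ^ (A * ii m) *
                (1 / 2 : ℝ) ^ (A * ii m)) * (R m).len := by ring
            rw [this, e1, e2]; ring
        _ ≤ _ := mul_le_mul_of_nonneg_left hm (by positivity)
    have hi1 : (1 : ℝ) ≤ 2 ^ i := one_le_pow₀ (by norm_num)
    have hi2 : (1 : ℝ) ≤ 2 ^ ii m := one_le_pow₀ (by norm_num)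
    have hw : (2 : ℝ) * (2 * 2 ^ i + 10 * 2 ^ ii m + 1 / 2) ≤ 25 * 2 ^ i * 2 ^ ii m := by
      nlinarith [mul_nonneg (sub_nonneg.2 hi1) (sub_nonneg.2 hi2)]
    calc 2 * (2 * 2 ^ i + 10 * 2 ^ ii m + 1 / 2) * (R m).len
        ≤ (25 * 2 ^ i * 2 ^ ii m) * (R m).len := mul_le_mul_of_nonneg_right hw hl.le
      _ ≤ (25 * 2 ^ i * 2 ^ ii m) *
          (2 ^ n * (1 / 2 : ℝ) ^ (A * ii m) * (volume (E m)).toReal) :=
          mul_le_mul_of_nonneg_left hE (by positivity)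
      _ = _ := by ring
  -- fixed dilation : disjoint
  have h3 : ∀ j ∈ s.image ii, ∑ m ∈ s with ii m = j, (volume (E m)).toReal ≤ c := by
    intro j _
    have hEf : ∀ m, volume (E m) ≠ ⊤ := by
      intro m
      exact measure_ne_top_of_subset ((hT.subE m).trans Set.inter_subset_right)
        (measure_ne_top_of_subset (fun z hz => hz.1) (fat_ne_top _ _))
    rw [← ENNReal.toReal_sum (fun m _ => hEf m)]
    apply ENNReal.toReal_mono (col_ne_top hh k)
    rw [← measure_biUnion_finset _ (fun m _ => hT.mE m)]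
    · apply measure_mono
      intro z hz
      simp only [Set.mem_iUnion] at hz
      obtain ⟨m, hm, hz⟩ := hz
      have hk : kk m = k := by
        have := (Finset.mem_filter.1 hm).1
        simpa [hs] using this
      have := (hT.subE m hz).1
      rwa [hk] at this
    · intro m hm m' hm' hne
      apply hT.disE m m' hne
      have a1 := (Finset.mem_filter.1 hm).2
      have a2 := (Finset.mem_filter.1 hm').2
      rw [a1, a2]
  calc (volume (Om R kk ii k i)).toReal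
      ≤ ∑ m ∈ s, (volume (fat (2 * 2 ^ i + 10 * 2 ^ ii m + 1 / 2) (R m))).toReal := h1
    _ ≤ ∑ m ∈ s, 25 * 2 ^ i * 2 ^ n * ((2 : ℝ) ^ ii m * (1 / 2 : ℝ) ^ (A * ii m) *
        (volume (E m)).toReal) := Finset.sum_le_sum h2
    _ = 25 * 2 ^ i * 2 ^ n * ∑ j ∈ s.image ii, ∑ m ∈ s with ii m = j,
        (2 : ℝ) ^ ii m * (1 / 2 : ℝ) ^ (A * ii m) * (volume (E m)).toReal := by
        rw [← Finset.mul_sum]
        congr 1
        exact (Finset.sum_fiberwise_of_maps_to (fun m hm => Finset.mem_image_of_mem ii hm) _).symm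
    _ ≤ 25 * 2 ^ i * 2 ^ n * ∑ j ∈ s.image ii, (2 : ℝ) ^ j * (1 / 2 : ℝ) ^ (A * j) * c := by
        apply mul_le_mul_of_nonneg_left _ (by positivity)
        apply Finset.sum_le_sum
        intro j hj
        have : ∑ m ∈ s with ii m = j,
            (2 : ℝ) ^ ii m * (1 / 2 : ℝ) ^ (A * ii m) * (volume (E m)).toReal =
            (2 : ℝ) ^ j * (1 / 2 : ℝ) ^ (A * j) * ∑ m ∈ s with ii m = j,
              (volume (E m)).toReal := by
          rw [Finset.mul_sum]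
          refine Finset.sum_congr rfl (fun m hm => ?_)
          rw [(Finset.mem_filter.1 hm).2]
        rw [this]
        exact mul_le_mul_of_nonneg_left (h3 j hj) (by positivity)
    _ = 25 * 2 ^ i * 2 ^ n * ((∑ j ∈ s.image ii, (2 : ℝ) ^ j * (1 / 2 : ℝ) ^ (A * j)) * c) := by
        rw [Finset.sum_mul]
    _ ≤ 25 * 2 ^ i * 2 ^ n * (2 * c) := by
        apply mul_le_mul_of_nonneg_left _ (by positivity)
        exact mul_le_mul_of_nonneg_right (geo_sum_le A hA _) hc0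
    _ = _ := by ring

/-! ### the function `W` -/

/-- finitely many colours: those of the tops -/
theorem colors {U h : ℝ × ℝ → ℝ} {A n : ℕ} {lo hi : ℝ × ℝ → ℕ} {N : ℕ} {R : Fin N → Tube}
    {kk : Fin N → ℤ} {ii : Fin N → ℕ} {E B : Fin N → Set (ℝ × ℝ)}
    (hT : IsTops U h A n lo hi N R kk ii E B) :
    ∀ z, h z ≠ 0 → lo z < hi z → ∃ k ∈ Finset.univ.image kk, z ∈ col h k := by
  intro z hz hlt
  obtain ⟨m, hm⟩ := hT.unB z hz hlt
  exact ⟨kk m, Finset.mem_image_of_mem kk (Finset.mem_univ m), hT.subB m hm⟩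

/-- `∑_k 4^k |col h k| ≤ ∫ h²` -/
theorem sum_col {h : ℝ × ℝ → ℝ} (hh : Nice h) (F : Finset ℤ) :
    ∑ k ∈ F, (4 : ℝ) ^ k * (volume (col h k)).toReal ≤ ∫ z, (h z) ^ 2 := by
  have hint : Integrable (fun z => (h z) ^ 2) := TBx820.nice_integrable_sq hh
  have h1 : ∀ k ∈ F, (4 : ℝ) ^ k * (volume (col h k)).toReal ≤ ∫ z in col h k, (h z) ^ 2 := by
    intro k _
    have : (4 : ℝ) ^ k * (volume (col h k)).toReal = ∫ _ in col h k, (4 : ℝ) ^ k := by
      rw [setIntegral_const]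
      simp [Measure.real, mul_comm]
    rw [this]
    apply setIntegral_mono_on (integrableOn_const (col_ne_top hh k) (by simp))
      hint.integrableOn (col_meas hh.1 k)
    intro z hz
    have e : (4 : ℝ) ^ k = ((2 : ℝ) ^ k) ^ 2 := by
      rw [← zpow_natCast, ← zpow_mul, mul_comm k, zpow_mul]; norm_num
    rw [e, ← sq_abs (h z)]
    exact pow_le_pow_left₀ (by positivity) hz.1 2
  have hd : Set.Pairwise (↑F : Set ℤ) (Function.onFun Disjoint (col h)) := by
    intro k _ k' _ hne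
    rw [Function.onFun, Set.disjoint_left]
    rintro z ⟨a1, a2⟩ ⟨b1, b2⟩
    have c1 : (2 : ℝ) ^ k < 2 ^ (k' + 1) := lt_of_le_of_lt a1 b2
    have c2 : (2 : ℝ) ^ k' < 2 ^ (k + 1) := lt_of_le_of_lt b1 a2
    have d1 := (zpow_lt_zpow_iff_right₀ (one_lt_two : (1 : ℝ) < 2)).1 c1
    have d2 := (zpow_lt_zpow_iff_right₀ (one_lt_two : (1 : ℝ) < 2)).1 c2
    apply hne; omega
  calc ∑ k ∈ F, (4 : ℝ) ^ k * (volume (col h k)).toReal
      ≤ ∑ k ∈ F, ∫ z in col h k, (h z) ^ 2 := Finset.sum_le_sum h1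
    _ = ∫ z in ⋃ k ∈ F, col h k, (h z) ^ 2 := by
        rw [integral_biUnion_finset F (fun k _ => col_meas hh.1 k) hd
          (fun k _ => hint.integrableOn)]
    _ ≤ ∫ z, (h z) ^ 2 := setIntegral_le_integral hint
        (Filter.Eventually.of_forall (fun z => sq_nonneg _))

/-- the weight `W = ∑_k 2^k 1_{Om_k}` -/
def WW {N : ℕ} (R : Fin N → Tube) (kk : Fin N → ℤ) (ii : Fin N → ℕ) (F : Finset ℤ) (i : ℕ)
    (p : ℝ × ℝ) : ℝ :=
  ∑ k ∈ F, (2 : ℝ) ^ k * (Om R kk ii k i).indicator 1 p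

theorem WW_nonneg {N : ℕ} (R : Fin N → Tube) (kk : Fin N → ℤ) (ii : Fin N → ℕ) (F : Finset ℤ)
    (i : ℕ) (p : ℝ × ℝ) : 0 ≤ WW R kk ii F i p :=
  Finset.sum_nonneg (fun k _ => mul_nonneg (by positivity)
    (Set.indicator_nonneg (fun _ _ => zero_le_one) _))

theorem WW_mem {N : ℕ} (R : Fin N → Tube) (kk : Fin N → ℤ) (ii : Fin N → ℕ) (F : Finset ℤ)
    (i : ℕ) : MemLp (WW R kk ii F i) 2 volume :=
  Omegax627.mem_ind volume F _ _ (fun k _ => measurableSet_Om R kk ii k i)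
    (fun k _ => Om_ne_top R kk ii k i)

theorem WW_integrable {N : ℕ} (R : Fin N → Tube) (kk : Fin N → ℤ) (ii : Fin N → ℕ) (F : Finset ℤ)
    (i : ℕ) : Integrable (WW R kk ii F i) := by
  apply integrable_finsetSum
  intro k _
  apply Integrable.const_mul
  exact (integrable_indicator_iff (measurableSet_Om R kk ii k i)).2
    (integrableOn_const (Om_ne_top R kk ii k i) (by simp))

/-- `∫ W² ≤ 200 * 2^i * 2^n * ∫ h²` -/
theorem WW_sq {U h : ℝ × ℝ → ℝ} {A n : ℕ} {lo hi : ℝ × ℝ → ℕ} {N : ℕ} {R : Fin N → Tube}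
    {kk : Fin N → ℤ} {ii : Fin N → ℕ} {E B : Fin N → Set (ℝ × ℝ)} (hA : 2 ≤ A) (hh : Nice h)
    (hT : IsTops U h A n lo hi N R kk ii E B) (F : Finset ℤ) (i : ℕ) :
    ∫ p, (WW R kk ii F i p) ^ 2 ≤ 200 * 2 ^ i * 2 ^ n * ∫ z, (h z) ^ 2 := by
  calc ∫ p, (WW R kk ii F i p) ^ 2
      ≤ 4 * ∑ k ∈ F, (4 : ℝ) ^ k * (volume (Om R kk ii k i)).toReal :=
        Geox752.geo_int volume F _ (fun k _ => measurableSet_Om R kk ii k i)
          (fun k _ => Om_ne_top R kk ii k i)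
    _ ≤ 4 * ∑ k ∈ F, (4 : ℝ) ^ k * (50 * 2 ^ i * 2 ^ n * (volume (col h k)).toReal) := by
        apply mul_le_mul_of_nonneg_left _ (by norm_num)
        exact Finset.sum_le_sum (fun k _ =>
          mul_le_mul_of_nonneg_left (vol_Om hA hh hT k i) (by positivity))
    _ = 200 * 2 ^ i * 2 ^ n * ∑ k ∈ F, (4 : ℝ) ^ k * (volume (col h k)).toReal := by
        rw [Finset.mul_sum, Finset.mul_sum]
        exact Finset.sum_congr rfl (fun k _ => by ring)
    _ ≤ _ := mul_le_mul_of_nonneg_left (sum_col hh F) (by positivity)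

/-! ### mass of the near points -/

/-- the points whose bottom interval is `2^i`-near the tube `R0` -/
def Zs (U h : ℝ × ℝ → ℝ) (lo hi : ℝ × ℝ → ℕ) (i : ℕ) (R0 : Tube) : Set (ℝ × ℝ) :=
  {z | h z ≠ 0 ∧ z.1 ∈ R0.I ∧ lo z < hi z ∧ R0.k < hi z ∧ near U (2 ^ i) R0.b R0.m (hi z - 1) z}

theorem measurableSet_Zs {U h : ℝ × ℝ → ℝ} {lo hi : ℝ × ℝ → ℕ} (hU : Measurable U)
    (hh : Measurable h) (hlo : Measurable lo) (hhi : Measurable hi) (i : ℕ) (R0 : Tube) :
    MeasurableSet (Zs U h lo hi i R0) := by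
  have m1 : MeasurableSet {z | h z ≠ 0} := (measurableSet_eq_fun hh measurable_const).compl
  have m2 : MeasurableSet {z : ℝ × ℝ | z.1 ∈ R0.I} := measurable_fst R0.measurableSet_I
  have m3 : MeasurableSet {z | lo z < hi z} := measurableSet_lt hlo hhi
  have m4 : MeasurableSet {z | R0.k < hi z} := measurableSet_lt measurable_const hhi
  have f5 : Measurable fun z : ℝ × ℝ => |z.2 - (R0.b + R0.m * z.1)| := by fun_prop
  have m5 : MeasurableSet {z : ℝ × ℝ | |z.2 - (R0.b + R0.m * z.1)| ≤ 2 ^ i} :=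
    measurableSet_le f5 measurable_const
  have g6 : Measurable fun z : ℝ × ℝ => (1 / 2 : ℝ) ^ (hi z - 1) :=
    (measurable_from_nat (f := fun t : ℕ => (1 / 2 : ℝ) ^ (t - 1))).comp hhi
  have f6 : Measurable fun z : ℝ × ℝ => |U z - R0.m| * (1 / 2 : ℝ) ^ (hi z - 1) :=
    (by fun_prop : Measurable fun z : ℝ × ℝ => |U z - R0.m|).mul g6
  have m6 : MeasurableSet {z : ℝ × ℝ | |U z - R0.m| * (1 / 2 : ℝ) ^ (hi z - 1) ≤ 2 ^ i} :=
    measurableSet_le f6 measurable_const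
  exact m1.inter (m2.inter (m3.inter (m4.inter (m5.inter m6))))

/-- MASS + OMEGA: `∫_{near_i R0} |h| ≤ 8 * 2^(A i) * 2^-n * ∫_{R0} W` -/
theorem mass_WW (hM : MASSOM) {A n : ℕ} (hA : 2 ≤ A) {U h : ℝ × ℝ → ℝ} {S : ℕ}
    {lo hi : ℝ × ℝ → ℕ} (hU : Measurable U) (hh : Nice h) (hch : Chain S lo hi)
    (hup : UppAt U h A n lo hi) {N : ℕ} {R : Fin N → Tube}
    {kk : Fin N → ℤ} {ii : Fin N → ℕ} {E B : Fin N → Set (ℝ × ℝ)}
    (hT : IsTops U h A n lo hi N R kk ii E B) (F : Finset ℤ)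
    (hF : ∀ z, h z ≠ 0 → lo z < hi z → ∃ k ∈ F, z ∈ col h k) (i : ℕ) (R0 : Tube)
    (hR0 : IntT R0) :
    ∫ z in Zs U h lo hi i R0, |h z| ≤
      8 * 2 ^ (A * i) * (1 / 2 : ℝ) ^ n * ∫ p in R0.body, WW R kk ii F i p := by
  classical
  have hint : Integrable (fun z => |h z|) := (TBx820.nice_integrable hh).abs
  set Zk : ℤ → Set (ℝ × ℝ) := fun k => {z | z ∈ col h k ∧ z.1 ∈ R0.I ∧ lo z < hi z ∧ R0.k < hi z ∧
          near U (2 ^ i) R0.b R0.m (hi z - 1) z} with hZk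
  have hZm := measurableSet_Zs hU hh.1 hch.1 hch.2.1 i R0
  have hZkm : ∀ k, MeasurableSet (Zk k) := by
    intro k
    have : Zk k = col h k ∩ Zs U h lo hi i R0 := by
      ext z
      simp only [hZk, Zs, Set.mem_ofPred_eq, Set.mem_inter_iff]
      constructor
      · rintro ⟨a, b⟩
        refine ⟨a, ?_, b⟩
        intro h0
        have := a.1
        rw [h0, abs_zero] at this
        have : (0 : ℝ) < 2 ^ k := by positivity
        linarith
      · rintro ⟨a, _, b⟩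
        exact ⟨a, b⟩
    rw [this]
    exact (col_meas hh.1 k).inter hZm
  have hZf : ∀ k, volume (Zk k) ≠ ⊤ := fun k =>
    measure_ne_top_of_subset (fun z hz => hz.1) (col_ne_top hh k)
  -- cover by colours
  have h1 : ∫ z in Zs U h lo hi i R0, |h z| ≤ ∑ k ∈ F, ∫ z in Zk k, |h z| := by
    have hsub : Zs U h lo hi i R0 ⊆ ⋃ k ∈ F, Zk k := by
      intro z hz
      obtain ⟨k, hk, hzk⟩ := hF z hz.1 hz.2.2.1
      simp only [Set.mem_iUnion]
      exact ⟨k, hk, hzk, hz.2⟩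
    have hd : Set.Pairwise (↑F : Set ℤ) (Function.onFun Disjoint Zk) := by
      intro k _ k' _ hne
      rw [Function.onFun, Set.disjoint_left]
      rintro z ⟨⟨a1, a2⟩, _⟩ ⟨⟨b1, b2⟩, _⟩
      have c1 : (2 : ℝ) ^ k < 2 ^ (k' + 1) := lt_of_le_of_lt a1 b2
      have c2 : (2 : ℝ) ^ k' < 2 ^ (k + 1) := lt_of_le_of_lt b1 a2
      have d1 := (zpow_lt_zpow_iff_right₀ (one_lt_two : (1 : ℝ) < 2)).1 c1
      have d2 := (zpow_lt_zpow_iff_right₀ (one_lt_two : (1 : ℝ) < 2)).1 c2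
      apply hne; omega
    rw [← integral_biUnion_finset F (fun k _ => hZkm k) hd (fun k _ => hint.integrableOn)]
    exact setIntegral_mono_set hint.integrableOn
      (Filter.Eventually.of_forall (fun z => abs_nonneg _)) hsub.eventuallyLE
  -- one colour
  have h2 : ∀ k ∈ F, ∫ z in Zk k, |h z| ≤
      8 * 2 ^ (A * i) * (1 / 2 : ℝ) ^ n *
        ((2 : ℝ) ^ k * (volume (R0.body ∩ Om R kk ii k i)).toReal) := by
    intro k _
    have e1 : ∫ z in Zk k, |h z| ≤ (2 : ℝ) ^ (k + 1) * (volume (Zk k)).toReal := by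
      have : (2 : ℝ) ^ (k + 1) * (volume (Zk k)).toReal = ∫ _ in Zk k, (2 : ℝ) ^ (k + 1) := by
        rw [setIntegral_const]
        simp [Measure.real, mul_comm]
      rw [this]
      apply setIntegral_mono_on hint.integrableOn (integrableOn_const (hZf k) (by simp)) (hZkm k)
      intro z hz
      exact hz.1.2.le
    have e2 := hM A n hA U h S lo hi hU hh hch hup N R kk ii E B hT k i R0 hR0
    have e3 := fib_le R kk ii k i R0
    calc ∫ z in Zk k, |h z| ≤ (2 : ℝ) ^ (k + 1) * (volume (Zk k)).toReal := e1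
      _ ≤ (2 : ℝ) ^ (k + 1) * (4 * 2 ^ (A * i) * (1 / 2 : ℝ) ^ n *
            (volume (Xs R kk ii k i R0)).toReal) :=
          mul_le_mul_of_nonneg_left e2 (by positivity)
      _ ≤ (2 : ℝ) ^ (k + 1) * (4 * 2 ^ (A * i) * (1 / 2 : ℝ) ^ n *
            (volume (R0.body ∩ Om R kk ii k i)).toReal) := by
          apply mul_le_mul_of_nonneg_left _ (by positivity)
          exact mul_le_mul_of_nonneg_left e3 (by positivity)
      _ = _ := by rw [zpow_add_one₀ (by norm_num)]; ring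
  have h3 : ∫ p in R0.body, WW R kk ii F i p =
      ∑ k ∈ F, (2 : ℝ) ^ k * (volume (R0.body ∩ Om R kk ii k i)).toReal := by
    unfold WW
    rw [integral_finsetSum]
    · refine Finset.sum_congr rfl (fun k _ => ?_)
      rw [integral_const_mul]
      congr 1
      rw [integral_indicator_one (measurableSet_Om R kk ii k i), Measure.real,
        Measure.restrict_apply (measurableSet_Om R kk ii k i), Set.inter_comm]
    · intro k _
      apply Integrable.const_mul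
      exact ((integrable_indicator_iff (measurableSet_Om R kk ii k i)).2
        (integrableOn_const (Om_ne_top R kk ii k i) (by simp))).integrableOn
  rw [h3, Finset.mul_sum]
  exact h1.trans (Finset.sum_le_sum h2)

/-- **OMEGA, LOW form**: `∑_t thr_t ∫_{near_i R_t} |h| ≤ C 2^(A i) 2^(i/2) 2^(-n/2) ‖H‖ ‖h‖` -/
theorem omega_low (hM : MASSOM) {A n : ℕ} (hA : 2 ≤ A) {U h : ℝ × ℝ → ℝ} {S : ℕ}
    {lo hi : ℝ × ℝ → ℕ} (hU : Measurable U) (hh : Nice h) (hch : Chain S lo hi)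
    (hup : UppAt U h A n lo hi) {N : ℕ} {R : Fin N → Tube}
    {kk : Fin N → ℤ} {ii : Fin N → ℕ} {E B : Fin N → Set (ℝ × ℝ)}
    (hT : IsTops U h A n lo hi N R kk ii E B) (i : ℕ)
    {ι : Type*} (T : Finset ι) (R0 : ι → Tube) (thr : ι → ℝ) (hR0 : ∀ t ∈ T, IntT (R0 t))
    (hthr : ∀ t ∈ T, 0 ≤ thr t) :
    ∑ t ∈ T, thr t * ∫ z in Zs U h lo hi i (R0 t), |h z| ≤
      8 * 2 ^ (A * i) * (1 / 2 : ℝ) ^ n *
        (Real.sqrt (∫ p, (∑ t ∈ T, thr t * (R0 t).body.indicator 1 p) ^ 2) *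
          Real.sqrt (200 * 2 ^ i * 2 ^ n * ∫ z, (h z) ^ 2)) := by
  have hF := colors hT
  set F := Finset.univ.image kk
  have hW := WW_mem R kk ii F i
  have hWi := WW_integrable R kk ii F i
  have hH := Omegax627.mem_ind volume T (fun t => (R0 t).body) thr
    (fun t _ => (R0 t).measurableSet_body) (fun t _ => body_ne_top _)
  have e : ∑ t ∈ T, thr t * ∫ p in (R0 t).body, WW R kk ii F i p =
      ∫ p, (∑ t ∈ T, thr t * (R0 t).body.indicator 1 p) * WW R kk ii F i p := by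
    simp_rw [Finset.sum_mul]
    rw [integral_finsetSum]
    · refine Finset.sum_congr rfl (fun t _ => ?_)
      rw [← integral_indicator (R0 t).measurableSet_body, ← integral_const_mul]
      congr 1
      ext p
      by_cases hp : p ∈ (R0 t).body
      · simp [hp]
      · simp [hp]
    · intro t _
      have : (fun p => thr t * (R0 t).body.indicator (1 : ℝ × ℝ → ℝ) p * WW R kk ii F i p) =
          fun p => thr t * (R0 t).body.indicator (WW R kk ii F i) p := by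
        ext p
        by_cases hp : p ∈ (R0 t).body
        · simp [hp]
        · simp [hp]
      rw [this]
      exact (hWi.indicator (R0 t).measurableSet_body).const_mul _
  calc ∑ t ∈ T, thr t * ∫ z in Zs U h lo hi i (R0 t), |h z|
      ≤ ∑ t ∈ T, thr t * (8 * 2 ^ (A * i) * (1 / 2 : ℝ) ^ n *
          ∫ p in (R0 t).body, WW R kk ii F i p) :=
        Finset.sum_le_sum (fun t ht => mul_le_mul_of_nonneg_left
          (mass_WW hM hA hU hh hch hup hT F hF i (R0 t) (hR0 t ht)) (hthr t ht))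
    _ = 8 * 2 ^ (A * i) * (1 / 2 : ℝ) ^ n *
          ∫ p, (∑ t ∈ T, thr t * (R0 t).body.indicator 1 p) * WW R kk ii F i p := by
        rw [← e, Finset.mul_sum]
        exact Finset.sum_congr rfl (fun t _ => by ring)
    _ ≤ 8 * 2 ^ (A * i) * (1 / 2 : ℝ) ^ n *
          (Real.sqrt (∫ p, (∑ t ∈ T, thr t * (R0 t).body.indicator 1 p) ^ 2) *
            Real.sqrt (∫ p, (WW R kk ii F i p) ^ 2)) :=
        mul_le_mul_of_nonneg_left (Omegax627.cs_mem_sqrt hH hW) (by positivity)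
    _ ≤ _ := by
        apply mul_le_mul_of_nonneg_left _ (by positivity)
        apply mul_le_mul_of_nonneg_left _ (Real.sqrt_nonneg _)
        exact Real.sqrt_le_sqrt (WW_sq hA hh hT F i)

end Crest.Agent.R087.OmegaBx627
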