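import Crest.Agent.R087.Mass_546

/-!
Row 87 (S0115), operator part: positive Carleson sums (T2c of the text 1723), abstract form (helper546).

`pc s x = 2^s ∫_{z ∈ Z, z over the s-cell of x} w s z`, `w s z = 0` for `s > κ z`, `∑_s w s z ≤ a`.
Under the density hypothesis of the mass lemma,
`∫ pcs ≤ 2 a M |cover|`, `∫ pcs² ≤ 8 a² M² |cover|`, `pcs = ∑_{s<S} pc s`.
-/

set_option autoImplicit false

noncomputable section

open MeasureTheory ENNReal

namespace Crest.Agent.R087.PCarlx546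

open Crest.Agent.R087.Massx546

theorem lintegral_cel (s : ℕ) (Φ : ℤ → ℝ≥0∞) :
    ∫⁻ x, Φ (cel s x) = ENNReal.ofReal ((1 / 2 : ℝ) ^ s) * ∑' j, Φ j := by
  have h1 : ∫⁻ x, Φ (cel s x) = ∫⁻ j, Φ j ∂(Measure.map (cel s) (volume : Measure ℝ)) :=
    (lintegral_map (measurable_of_countable Φ) (measurable_cel s)).symm
  rw [h1, lintegral_countable', ← ENNReal.tsum_mul_left]
  congr 1
  ext j
  rw [Measure.map_apply (measurable_cel s) (MeasurableSet.singleton j)]
  have : cel s ⁻¹' {j} = {x : ℝ | cel s x = j} := rfl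
  rw [this, volume_cel, mul_comm]

theorem tsum_fiber {X : Type*} [MeasurableSpace X] (p : X → ℝ) (μ : Measure X) (hp : Measurable p)
    (Z : Set X) (s : ℕ) (Φ : ℤ → ℝ≥0∞) (w : X → ℝ≥0∞) (hw : Measurable w) :
    ∑' j, Φ j * ∫⁻ z in Z, (if cel s (p z) = j then w z else 0) ∂μ =
      ∫⁻ z in Z, Φ (cel s (p z)) * w z ∂μ := by
  classical
  have hm : ∀ j : ℤ, Measurable fun z => if cel s (p z) = j then w z else 0 := fun j =>
    Measurable.ite (((measurable_cel s).comp hp) (MeasurableSet.singleton j)) hw measurable_const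
  calc ∑' j, Φ j * ∫⁻ z in Z, (if cel s (p z) = j then w z else 0) ∂μ
      = ∑' j, ∫⁻ z in Z, Φ j * (if cel s (p z) = j then w z else 0) ∂μ := by
        congr 1; ext j; rw [lintegral_const_mul _ (hm j)]
    _ = ∫⁻ z in Z, ∑' j, Φ j * (if cel s (p z) = j then w z else 0) ∂μ := by
        rw [lintegral_tsum fun j => ((hm j).const_mul (Φ j)).aemeasurable]
    _ = ∫⁻ z in Z, Φ (cel s (p z)) * w z ∂μ := by
        refine lintegral_congr fun z => ?_
        rw [tsum_eq_single (cel s (p z)) (fun j hj => by simp [hj.symm])]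
        simp

section

variable {X : Type*} [MeasurableSpace X] (p : X → ℝ) (μ : Measure X) (Z : Set X)
  (w : ℕ → X → ℝ≥0∞)

/-- one scale of the positive Carleson sum -/
def pc (s : ℕ) (x : ℝ) : ℝ≥0∞ :=
  ENNReal.ofReal ((2 : ℝ) ^ s) * ∫⁻ z in Z, (if cel s (p z) = cel s x then w s z else 0) ∂μ

/-- partial sums of the positive Carleson sum: scales `< r` -/
def pcs (r : ℕ) (x : ℝ) : ℝ≥0∞ := ∑ s ∈ Finset.range r, pc p μ Z w s x

theorem pc_congr {s : ℕ} {x y : ℝ} (h : cel s x = cel s y) : pc p μ Z w s x = pc p μ Z w s y := by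
  unfold pc; rw [h]

theorem pcs_congr {r : ℕ} {x y : ℝ} (h : cel r x = cel r y) :
    pcs p μ Z w (r + 1) x = pcs p μ Z w (r + 1) y := by
  unfold pcs
  refine Finset.sum_congr rfl fun s hs => pc_congr p μ Z w (cel_mono ?_ h)
  have := Finset.mem_range.1 hs; omega

theorem pcs_mono {r r' : ℕ} (h : r ≤ r') (x : ℝ) : pcs p μ Z w r x ≤ pcs p μ Z w r' x :=
  Finset.sum_le_sum_of_subset (Finset.range_mono h)

theorem measurable_pc (s : ℕ) : Measurable (pc p μ Z w s) := by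
  have : pc p μ Z w s = (fun j : ℤ => ENNReal.ofReal ((2 : ℝ) ^ s) *
      ∫⁻ z in Z, (if cel s (p z) = j then w s z else 0) ∂μ) ∘ cel s := rfl
  rw [this]
  exact (measurable_of_countable _).comp (measurable_cel s)

theorem measurable_pcs (r : ℕ) : Measurable (pcs p μ Z w r) :=
  Finset.measurable_fun_sum _ fun s _ => measurable_pc p μ Z w s

/-- integration of `pc s` against a function which is constant on the `s`-cells -/
theorem lintegral_pc_mul (hp : Measurable p) (s : ℕ) (hw : Measurable (w s)) (F : ℝ → ℝ≥0∞)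
    (hF : ∀ x y, cel s x = cel s y → F x = F y) :
    ∫⁻ x, pc p μ Z w s x * F x = ∫⁻ z in Z, w s z * F (p z) ∂μ := by
  classical
  -- `F` is a function of the cell
  let Ψ : ℤ → ℝ≥0∞ := fun j => F ((j : ℝ) * (1 / 2) ^ s)
  have hrep : ∀ x, F x = Ψ (cel s x) := by
    intro x
    apply hF
    have h2 : (0 : ℝ) < 2 ^ s := by positivity
    show cel s x = ⌊(2 : ℝ) ^ s * ((cel s x : ℝ) * (1 / 2) ^ s)⌋
    have : (2 : ℝ) ^ s * ((cel s x : ℝ) * (1 / 2) ^ s) = (cel s x : ℝ) := by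
      rw [one_div, inv_pow]; field_simp
    rw [this, Int.floor_intCast]
  have h1 : ∀ x, pc p μ Z w s x * F x = (fun j : ℤ => ENNReal.ofReal ((2 : ℝ) ^ s) *
      (Ψ j * ∫⁻ z in Z, (if cel s (p z) = j then w s z else 0) ∂μ)) (cel s x) := by
    intro x
    rw [hrep x]; unfold pc; ring
  rw [lintegral_congr h1, lintegral_cel s (fun j : ℤ => ENNReal.ofReal ((2 : ℝ) ^ s) *
      (Ψ j * ∫⁻ z in Z, (if cel s (p z) = j then w s z else 0) ∂μ)), ENNReal.tsum_mul_left, tsum_fiber p μ hp Z s Ψ (w s) hw, ← mul_assoc,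
    ← ENNReal.ofReal_mul (by positivity), ← mul_pow]
  norm_num
  refine lintegral_congr fun z => ?_
  rw [hrep (p z), mul_comm]

/-- total mass of the Carleson sum -/
theorem lintegral_pcs (hp : Measurable p) (hw : ∀ s, Measurable (w s)) (r : ℕ) :
    ∫⁻ x, pcs p μ Z w r x = ∫⁻ z in Z, ∑ s ∈ Finset.range r, w s z ∂μ := by
  unfold pcs
  rw [lintegral_finsetSum _ fun s _ => measurable_pc p μ Z w s,
    lintegral_finsetSum _ fun s _ => hw s]
  refine Finset.sum_congr rfl fun s _ => ?_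
  have := lintegral_pc_mul p μ Z w hp s (hw s) (fun _ => 1) (fun _ _ _ => rfl)
  simpa using this

theorem sq_sum_le (n : ℕ → ℝ≥0∞) (S : ℕ) :
    (∑ s ∈ Finset.range S, n s) ^ 2 ≤
      2 * ∑ s ∈ Finset.range S, n s * ∑ r ∈ Finset.range (s + 1), n r := by
  induction S with
  | zero => simp
  | succ S ih =>
    rw [Finset.sum_range_succ, Finset.sum_range_succ, add_sq, mul_add]
    have h1 : 2 * (∑ s ∈ Finset.range S, n s) * n S + n S ^ 2 ≤
        2 * (n S * ∑ r ∈ Finset.range (S + 1), n r) := by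
      rw [Finset.sum_range_succ, mul_add, mul_add]
      have e1 : 2 * (∑ s ∈ Finset.range S, n s) * n S = 2 * (n S * ∑ s ∈ Finset.range S, n s) := by
        ring
      rw [e1]
      gcongr
      rw [sq, two_mul]
      exact le_self_add
    calc (∑ s ∈ Finset.range S, n s) ^ 2 + 2 * (∑ s ∈ Finset.range S, n s) * n S + n S ^ 2
        = (∑ s ∈ Finset.range S, n s) ^ 2 + (2 * (∑ s ∈ Finset.range S, n s) * n S + n S ^ 2) := by
          rw [add_assoc]
      _ ≤ _ := add_le_add ih h1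

/-- POSITIVE CARLESON SUM, `L²` bound. -/
theorem carl (hp : Measurable p) (hZ : MeasurableSet Z) (hw : ∀ s, Measurable (w s)) (κ : X → ℕ)
    (S : ℕ) (hS : ∀ z ∈ Z, κ z < S) (hwκ : ∀ z ∈ Z, ∀ s, κ z < s → w s z = 0) (a : ℝ≥0∞)
    (ha : ∀ z ∈ Z, ∑ s ∈ Finset.range S, w s z ≤ a) (M : ℝ≥0∞)
    (H : ∀ r < S, ∀ z'' ∈ Z, r ≤ κ z'' →
      μ {z | z ∈ Z ∧ κ z ≤ r ∧ cel r (p z) = cel r (p z'')} ≤ M * ENNReal.ofReal ((1 / 2 : ℝ) ^ r)) :
    ∫⁻ x, pcs p μ Z w S x ≤ 2 * a * M * volume (cover p κ Z) ∧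
    ∫⁻ x, pcs p μ Z w S x ^ 2 ≤ 8 * a ^ 2 * M ^ 2 * volume (cover p κ Z) := by
  have h1 : ∫⁻ x, pcs p μ Z w S x ≤ 2 * a * M * volume (cover p κ Z) := by
    rw [lintegral_pcs p μ Z w hp hw S]
    calc ∫⁻ z in Z, ∑ s ∈ Finset.range S, w s z ∂μ ≤ ∫⁻ _z in Z, a ∂μ :=
          setLIntegral_mono' hZ ha
      _ = a * μ Z := by rw [setLIntegral_const]
      _ ≤ a * (2 * M * volume (cover p κ Z)) := by
          gcongr; exact mass_one p κ Z μ hp hZ S hS M H
      _ = _ := by ring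
  refine ⟨h1, ?_⟩
  have m1 : ∀ s, Measurable fun x => pc p μ Z w s x * pcs p μ Z w (s + 1) x := fun s =>
    (measurable_pc p μ Z w s).mul (measurable_pcs p μ Z w (s + 1))
  have m2 : ∀ s, Measurable fun z => w s z * pcs p μ Z w (s + 1) (p z) := fun s =>
    (hw s).mul ((measurable_pcs p μ Z w (s + 1)).comp hp)
  have h2 : ∫⁻ x, pcs p μ Z w S x ^ 2 ≤
      2 * ∑ s ∈ Finset.range S, ∫⁻ x, pc p μ Z w s x * pcs p μ Z w (s + 1) x := by
    rw [← lintegral_finsetSum _ fun s _ => m1 s,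
      ← lintegral_const_mul _ (Finset.measurable_fun_sum _ fun s _ => m1 s)]
    refine lintegral_mono fun x => ?_
    exact sq_sum_le (fun s => pc p μ Z w s x) S
  have h3 : ∀ s ∈ Finset.range S, ∫⁻ x, pc p μ Z w s x * pcs p μ Z w (s + 1) x =
      ∫⁻ z in Z, w s z * pcs p μ Z w (s + 1) (p z) ∂μ := fun s _ =>
    lintegral_pc_mul p μ Z w hp s (hw s) _ fun x y h => pcs_congr p μ Z w h
  rw [Finset.sum_congr rfl h3, ← lintegral_finsetSum _ fun s _ => m2 s] at h2
  have h4 : ∫⁻ z in Z, ∑ s ∈ Finset.range S, w s z * pcs p μ Z w (s + 1) (p z) ∂μ ≤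
      ∫⁻ z in Z, a * pcs p μ Z w (κ z + 1) (p z) ∂μ := by
    refine setLIntegral_mono' hZ fun z hz => ?_
    calc ∑ s ∈ Finset.range S, w s z * pcs p μ Z w (s + 1) (p z)
        ≤ ∑ s ∈ Finset.range S, w s z * pcs p μ Z w (κ z + 1) (p z) := by
          refine Finset.sum_le_sum fun s _ => ?_
          rcases Nat.lt_or_ge (κ z) s with h | h
          · rw [hwκ z hz s h]; simp
          · gcongr; exact pcs_mono p μ Z w (by omega) (p z)
      _ = (∑ s ∈ Finset.range S, w s z) * pcs p μ Z w (κ z + 1) (p z) := by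
          rw [Finset.sum_mul]
      _ ≤ _ := by gcongr; exact ha z hz
  have h5 : ∫⁻ z in Z, a * pcs p μ Z w (κ z + 1) (p z) ∂μ ≤
      2 * M * ∫⁻ x in cover p κ Z, a * pcs p μ Z w S x := by
    refine mass p κ Z μ hp hZ S hS M H _ _ fun z hz x hx => ?_
    rw [← pcs_congr p μ Z w hx]
    gcongr
    exact pcs_mono p μ Z w (by have := hS z hz; omega) x
  have h6 : ∫⁻ x in cover p κ Z, a * pcs p μ Z w S x ≤
      a * (2 * a * M * volume (cover p κ Z)) := by
    rw [lintegral_const_mul _ (measurable_pcs p μ Z w S)]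
    gcongr
    exact le_trans (setLIntegral_le_lintegral _ _) h1
  calc ∫⁻ x, pcs p μ Z w S x ^ 2
      ≤ 2 * (2 * M * (a * (2 * a * M * volume (cover p κ Z)))) := by
        refine le_trans h2 ?_
        gcongr
        exact le_trans h4 (le_trans h5 (by gcongr))
    _ = _ := by ring

end

end Crest.Agent.R087.PCarlx546
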