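import Crest.Agent.R087.TreeIf_153
import Crest.Agent.R087.Pair1_339
import Crest.Agent.R087.PLcomb_575

/-!
Row 87 (S0115), operator part, PAIR-LOW: literal Props for ONE LOW tree and ONE short point
(helper575, owner of PAIR-LOW-ASM), in the notation of `TreeIf_153` and `Pair1_339`.

* `Prf L X`  : autocorrelation profile: smooth, supported in `[-2,2]`, `|X^(i)| ≤ 1` for `i ≤ L+2`
* `Kept`     : facts about one kept tree (output of `T3`), threshold `T`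
* `PS`       : `∑_{s ≤ t} ∫_{z ∈ act s} h z * pp Φ ζ U t s w z` : pairing of the tree with the short
               point `w` at the scale `2^-t`
* `PLdeep`   : sums over intervals of deep scales
* `PLshallow`: one shallow scale
* `PLow`     : the pointwise conclusion
-/

set_option autoImplicit false

noncomputable section

open MeasureTheory Crest.Agent.R087.Sh0x283 Crest.Agent.R087.GateDefx273 Crest.Agent.R087.T1x90
open Crest.Agent.R087.TreeIfx153 Crest.Agent.R087.Pair1x339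

namespace Crest.Agent.R087.PLdefx575

/-- profiles -/
structure Prf (L : ℕ) (X : ℝ → ℝ) : Prop where
  sm : ContDiff ℝ (⊤ : ℕ∞) X
  supp : ∀ r, 2 < |r| → X r = 0
  bd : ∀ i ≤ L + 2, ∀ r, |iteratedDeriv i X r| ≤ 1

/-- pairing of a tree with the short point `w` at the scale `2^-t` (scales `s ≤ t` of the tree) -/
def PS (Φ ζ : ℝ → ℝ) (U h : ℝ × ℝ → ℝ) (act : ℕ → Set (ℝ × ℝ)) (t : ℕ) (w : ℝ × ℝ) : ℝ :=
  ∑ s ∈ Finset.range (t + 1), ∫ z in act s, h z * pp Φ ζ U t s w z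

/-- one kept tree over the cell `(s0,m0)` along the line `b + m u`, threshold `T` -/
structure Kept (ζ X : ℝ → ℝ) (L S s0 : ℕ) (m0 : ℤ) (U h : ℝ × ℝ → ℝ) (act : ℕ → Set (ℝ × ℝ))
    (b m T : ℝ) : Prop where
  nice : Nice h
  mact : ∀ s, MeasurableSet (act s)
  mU : Measurable U
  T0 : 0 ≤ T
  loc : ∀ s z, z ∈ act s → h z ≠ 0 →
    s0 ≤ s ∧ cel s0 z.1 = m0 ∧ |rv b m z| ≤ 1 ∧ |U z - m| * (1 / 2) ^ s ≤ 1
  k1 : ∀ i ≤ L + 1, ∀ s ≤ S, ∀ v x, |FL ζ (iteratedDeriv i X) b m h act s v x| ≤ T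
  k2 : ∀ i ≤ L + 1, ∀ s v x, |aL (iteratedDeriv i X) b m h act s v x| ≤ T
  k3 : ∀ a c, a ≤ c → c ≤ S → ∀ v x,
    |∑ s ∈ Finset.Ico a c, ga s x * bL ζ (iteratedDeriv L X) b m h act s v x| ≤ T
  k4 : ∀ x, ∑ s ∈ Finset.range S, eL U m h act s x ≤ T

/-- **PAIR-LOW-DEEP** -/
def PLdeep (ζ : ℝ → ℝ) : Prop := ∀ L : ℕ, ∃ C : ℝ, 0 ≤ C ∧ ∀ X : ℝ → ℝ, Prf L X →
  ∀ (S s0 : ℕ) (m0 : ℤ) (U h : ℝ × ℝ → ℝ) (act : ℕ → Set (ℝ × ℝ)) (b m T : ℝ),
    Kept ζ X L S s0 m0 U h act b m T → ∀ (w : ℝ × ℝ) (p q : ℕ), q ≤ S →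
    (∀ t, p ≤ t → t < q → |U w - m| * (1 / 2) ^ t ≤ 20) →
    |∑ t ∈ Finset.Ico p q, PS (iteratedDeriv L X) ζ U h act t w| ≤ C * T

/-- **PAIR-LOW-SHALLOW** -/
def PLshallow (ζ : ℝ → ℝ) : Prop := ∀ n L : ℕ, n ≤ L → ∃ C : ℝ, 0 ≤ C ∧ ∀ X : ℝ → ℝ, Prf L X →
  ∀ (S s0 : ℕ) (m0 : ℤ) (U h : ℝ × ℝ → ℝ) (act : ℕ → Set (ℝ × ℝ)) (b m T : ℝ),
    Kept ζ X L S s0 m0 U h act b m T → ∀ (w : ℝ × ℝ) (t : ℕ), t < S →
    20 < |U w - m| * (1 / 2) ^ t →
    |PS (iteratedDeriv L X) ζ U h act t w| ≤ C * T * (|U w - m| * (1 / 2) ^ t)⁻¹ ^ n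

/-- **PAIR-LOW**: the pointwise conclusion for one tree and one short point. -/
def PLow (ζ : ℝ → ℝ) : Prop := ∀ n L : ℕ, 1 ≤ n → n ≤ L → ∃ C : ℝ, 0 ≤ C ∧ ∀ X : ℝ → ℝ,
  Prf L X → ∀ (S s0 : ℕ) (m0 : ℤ) (U h : ℝ × ℝ → ℝ) (act : ℕ → Set (ℝ × ℝ)) (b m T : ℝ),
    Kept ζ X L S s0 m0 U h act b m T → ∀ (w : ℝ × ℝ) (p q : ℕ), q ≤ S →
    ∑ t ∈ Finset.Ico p q, PS (iteratedDeriv L X) ζ U h act t w = 0 ∨
    ∃ k t : ℕ, p ≤ t ∧ t < q ∧ s0 ≤ t ∧ cel s0 w.1 = m0 ∧ |rv b m w| ≤ C * 2 ^ k ∧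
      |U w - m| * (1 / 2) ^ t ≤ C * 2 ^ k ∧
      |∑ t ∈ Finset.Ico p q, PS (iteratedDeriv L X) ζ U h act t w| ≤ C * T * (1 / 2) ^ (n * k)

/-- **PAIR-LOW**, product form: nearness measured at the finest scale `q - 1`. -/
def PLowP (ζ : ℝ → ℝ) : Prop := ∀ n L : ℕ, 1 ≤ n → n ≤ L → ∃ C : ℝ, 0 ≤ C ∧ ∀ X : ℝ → ℝ,
  Prf L X → ∀ (S s0 : ℕ) (m0 : ℤ) (U h : ℝ × ℝ → ℝ) (act : ℕ → Set (ℝ × ℝ)) (b m T : ℝ),
    Kept ζ X L S s0 m0 U h act b m T → ∀ (w : ℝ × ℝ) (p q : ℕ), q ≤ S →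
    |∑ t ∈ Finset.Ico p q, PS (iteratedDeriv L X) ζ U h act t w| ≤
        C * T / (1 + |U w - m| * (1 / 2) ^ (q - 1) + |rv b m w|) ^ n ∧
    (∑ t ∈ Finset.Ico p q, PS (iteratedDeriv L X) ζ U h act t w ≠ 0 → s0 < q ∧ cel s0 w.1 = m0)

/-! ### support -/

theorem pp_swap (Φ ζ : ℝ → ℝ) (U : ℝ × ℝ → ℝ) (s t : ℕ) (z w : ℝ × ℝ) :
    pp Φ ζ U t s w z = pp (fun r => Φ (-r)) ζ U s t z w := by
  unfold pp
  rw [mul_comm ((2 : ℝ) ^ t * gt (Int.fract ((2 : ℝ) ^ t * w.1)))]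
  congr 2
  ext u
  show _ = ζ ((2 : ℝ) ^ t * u - ⌊(2 : ℝ) ^ t * w.1⌋) * ζ ((2 : ℝ) ^ s * u - ⌊(2 : ℝ) ^ s * z.1⌋) *
    Φ (-(ln U z u - ln U w u))
  rw [neg_sub, mul_comm (ζ ((2 : ℝ) ^ s * u - ⌊(2 : ℝ) ^ s * z.1⌋))]

theorem cell_dist {s : ℕ} {x y : ℝ} (h : cel s x = cel s y) : |x - y| ≤ (1 / 2) ^ s := by
  have hp : (0 : ℝ) < 2 ^ s := by positivity
  have h1 := Int.floor_le ((2 : ℝ) ^ s * x)
  have h2 := Int.lt_floor_add_one ((2 : ℝ) ^ s * x)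
  have h3 := Int.floor_le ((2 : ℝ) ^ s * y)
  have h4 := Int.lt_floor_add_one ((2 : ℝ) ^ s * y)
  have h5 : (⌊(2 : ℝ) ^ s * x⌋ : ℤ) = ⌊(2 : ℝ) ^ s * y⌋ := h
  rw [h5] at h1 h2
  have e : ((1 : ℝ) / 2) ^ s = (2 ^ s)⁻¹ := by rw [one_div, inv_pow]
  have h6 : |2 ^ s * (x - y)| ≤ 1 := by
    rw [abs_le]
    constructor <;> linarith
  rw [abs_mul, abs_of_pos hp] at h6
  rw [e, ← one_div, le_div_iff₀ hp]
  linarith

/-- nonzero pairing: the lines are close, with explicit constants -/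
theorem supp_pair {Φ ζ : ℝ → ℝ} (hz : ZetC ζ) (hΦ : ∀ r, 2 < |r| → Φ r = 0) {U : ℝ × ℝ → ℝ}
    {s t : ℕ} (hst : s ≤ t) {z w : ℝ × ℝ} {b m : ℝ} (h : pp Φ ζ U t s w z ≠ 0)
    (h1 : |rv b m z| ≤ 1) (h2 : |U z - m| * (1 / 2) ^ s ≤ 1) :
    cel s z.1 = cel s w.1 ∧ |rv b m w| ≤ |U w - m| * (1 / 2) ^ t + 4 := by
  rw [pp_swap] at h
  obtain ⟨hc, u, hu, hd⟩ := pp_ne hz (R := 2) (Φ := fun r => Φ (-r))
    (fun r hr => hΦ _ (by rwa [abs_neg])) hst h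
  refine ⟨hc, ?_⟩
  have hcu : cel s u = cel s w.1 := cell_mono hst hu
  have d1 : |u - w.1| ≤ (1 / 2) ^ t := cell_dist hu
  have d2 : |u - z.1| ≤ (1 / 2) ^ s := cell_dist (hcu.trans hc.symm)
  have e : rv b m w = -((u - w.1) * (U w - m)) - (ln U z u - ln U w u) + rv b m z +
      (u - z.1) * (U z - m) := by
    unfold rv ln; ring
  have a1 : |(u - w.1) * (U w - m)| ≤ |U w - m| * (1 / 2) ^ t := by
    rw [abs_mul, mul_comm]
    exact mul_le_mul_of_nonneg_left d1 (abs_nonneg _)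
  have a2 : |(u - z.1) * (U z - m)| ≤ 1 := by
    rw [abs_mul, mul_comm]
    exact (mul_le_mul_of_nonneg_left d2 (abs_nonneg _)).trans h2
  have a3 := abs_le.1 a1
  have a4 := abs_le.1 a2
  have a5 := abs_le.1 h1
  have a6 := abs_le.1 hd
  rw [e, abs_le]
  constructor <;> linarith

/-- support of `PS` -/
theorem supp_PS {ζ X : ℝ → ℝ} (hz : ZetC ζ) {L S s0 : ℕ} (hX : Prf L X) {m0 : ℤ}
    {U h : ℝ × ℝ → ℝ} {act : ℕ → Set (ℝ × ℝ)} {b m T : ℝ} (hK : Kept ζ X L S s0 m0 U h act b m T)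
    (w : ℝ × ℝ) (t : ℕ) (hne : PS (iteratedDeriv L X) ζ U h act t w ≠ 0) :
    s0 ≤ t ∧ cel s0 w.1 = m0 ∧ |rv b m w| ≤ |U w - m| * (1 / 2) ^ t + 4 := by
  unfold PS at hne
  obtain ⟨s, hs, hs'⟩ := Finset.exists_ne_zero_of_sum_ne_zero hne
  have hst : s ≤ t := Nat.lt_succ_iff.1 (Finset.mem_range.1 hs)
  have h1 : ∃ z, z ∈ act s ∧ h z * pp (iteratedDeriv L X) ζ U t s w z ≠ 0 := by
    by_contra hc
    push Not at hc
    apply hs'
    rw [setIntegral_congr_fun (hK.mact s) (g := fun _ => (0 : ℝ)) (fun z hz => hc z hz)]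
    simp
  obtain ⟨z, hz1, hz2⟩ := h1
  obtain ⟨l1, l2, l3, l4⟩ := hK.loc s z hz1 (left_ne_zero_of_mul hz2)
  obtain ⟨c1, c2⟩ := supp_pair hz (fun r hr => zero_iter hX.supp L r hr) hst
    (right_ne_zero_of_mul hz2) l3 l4
  refine ⟨l1.trans hst, ?_, c2⟩
  rw [← l2]
  exact (cell_mono l1 c1).symm

/-- **ASM**: deep + shallow give the pointwise conclusion. -/
theorem plow_of {ζ : ℝ → ℝ} (hz : ZetC ζ) (hd : PLdeep ζ) (hs : PLshallow ζ) : PLow ζ := by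
  intro n L hn hnL
  obtain ⟨C1, hC1, hd⟩ := hd L
  obtain ⟨C2, hC2, hs⟩ := hs n L hnL
  refine ⟨3 * (C1 + C2) + 26, by positivity, ?_⟩
  intro X hX S s0 m0 U h act b m T hK w p q hq
  have hT := hK.T0
  set P : ℕ → ℝ := fun t => if t < S then PS (iteratedDeriv L X) ζ U h act t w else 0 with hP
  have hsum : ∀ p q, q ≤ S → ∑ t ∈ Finset.Ico p q, P t =
      ∑ t ∈ Finset.Ico p q, PS (iteratedDeriv L X) ζ U h act t w := by
    intro p q hq
    refine Finset.sum_congr rfl fun t ht => ?_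
    rw [Finset.mem_Ico] at ht
    simp only [hP]
    rw [if_pos (by omega)]
  have hcut : ∀ p q, ∑ t ∈ Finset.Ico p q, P t = ∑ t ∈ Finset.Ico p (min q S), P t := by
    intro p q
    symm
    apply Finset.sum_subset
    · intro t ht
      rw [Finset.mem_Ico] at ht ⊢
      omega
    · intro t ht ht'
      rw [Finset.mem_Ico] at ht ht'
      simp only [hP]
      rw [if_neg (by omega)]
  have key := PLcombx575.comb P ((C1 + C2) * T) |U w - m| |rv b m w| 20 4 n hn (by positivity)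
    (abs_nonneg _) (by norm_num) (by norm_num) ?_ ?_ ?_ p q
  · rw [hsum p q hq] at key
    rcases key with h0 | ⟨k, t, h1, h2, h3, h4, h5, h6⟩
    · exact Or.inl h0
    · right
      have hPS : PS (iteratedDeriv L X) ζ U h act t w ≠ 0 := by
        simp only [hP] at h3
        rw [if_pos (by omega)] at h3
        exact h3
      obtain ⟨g1, g2, g3⟩ := supp_PS hz hX hK w t hPS
      have hk : (0 : ℝ) < 2 ^ k := by positivity
      refine ⟨k, t, h1, h2, g1, g2, ?_, ?_, ?_⟩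
      · refine h4.trans ?_
        apply mul_le_mul_of_nonneg_right _ hk.le
        linarith
      · refine h5.trans ?_
        apply mul_le_mul_of_nonneg_right _ hk.le
        linarith
      · refine h6.trans ?_
        apply mul_le_mul_of_nonneg_right _ (by positivity)
        nlinarith
  · intro p' q' hpq
    rw [hcut, hsum _ _ (min_le_right _ _)]
    refine (hd X hX S s0 m0 U h act b m T hK w p' (min q' S) (min_le_right _ _) ?_).trans ?_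
    · intro t ht ht'
      exact hpq t ht (lt_of_lt_of_le ht' (min_le_left _ _))
    · apply mul_le_mul_of_nonneg_right _ hT
      linarith
  · intro t ht
    simp only [hP]
    split_ifs with hS
    · refine (hs X hX S s0 m0 U h act b m T hK w t hS ht).trans ?_
      apply mul_le_mul_of_nonneg_right _ (by positivity)
      apply mul_le_mul_of_nonneg_right _ hT
      linarith
    · rw [abs_zero]; positivity
  · intro t ht
    simp only [hP] at ht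
    split_ifs at ht with hS
    · exact (supp_PS hz hX hK w t ht).2.2
    · exact absurd rfl ht

theorem plowp_of {ζ : ℝ → ℝ} (H : PLow ζ) : PLowP ζ := by
  intro n L hn hnL
  obtain ⟨C, hC, H⟩ := H n L hn hnL
  refine ⟨C * (1 + 2 * C) ^ n, by positivity, ?_⟩
  intro X hX S s0 m0 U h act b m T hK w p q hq
  have hT := hK.T0
  rcases H X hX S s0 m0 U h act b m T hK w p q hq with h0 | ⟨k, t, h1, h2, h3, h4, h5, h6, h7⟩
  · rw [h0]
    refine ⟨?_, fun h => absurd rfl h⟩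
    rw [abs_zero]
    positivity
  · refine ⟨?_, fun _ => ⟨by omega, h4⟩⟩
    refine h7.trans ?_
    have hk : (1 : ℝ) ≤ 2 ^ k := one_le_pow₀ (by norm_num)
    have h8 : |U w - m| * (1 / 2) ^ (q - 1) ≤ C * 2 ^ k := by
      refine le_trans ?_ h6
      exact mul_le_mul_of_nonneg_left
        (pow_le_pow_of_le_one (by norm_num) (by norm_num) (by omega)) (abs_nonneg _)
    have h9 : 1 + |U w - m| * (1 / 2) ^ (q - 1) + |rv b m w| ≤ (1 + 2 * C) * 2 ^ k := by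
      nlinarith
    have h10 : 0 < 1 + |U w - m| * (1 / 2) ^ (q - 1) + |rv b m w| := by positivity
    rw [le_div_iff₀ (by positivity)]
    calc C * T * (1 / 2) ^ (n * k) * (1 + |U w - m| * (1 / 2) ^ (q - 1) + |rv b m w|) ^ n
        ≤ C * T * (1 / 2) ^ (n * k) * ((1 + 2 * C) * 2 ^ k) ^ n := by
          gcongr
      _ = C * (1 + 2 * C) ^ n * T * ((1 / 2) ^ (n * k) * 2 ^ (n * k)) := by
          rw [mul_pow, ← pow_mul, mul_comm k n]; ring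
      _ = C * (1 + 2 * C) ^ n * T := by
          rw [← mul_pow]; norm_num

end Crest.Agent.R087.PLdefx575
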