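import Crest.Agent.R087.TreeIf_153

/-!
Row 87, operator part: the pairing of one LOW tree with one short point (helper115), in the notation
of `TreeIf_153` (common to PAIR-LOW-DEEP (975), PAIR-LOW-SHALLOW (115), PAIR-LOW-ASM (575)).

* `GG ζ Φ U r s z w` : scalar product of the gated kernels of `z` (scale `r`, long) and `w` (scale
  `s`, short); `Φ` = autocorrelation of the band profile;
* `PS ζ Φ U h act s w = ∑_{r ≤ s} ∫_{z ∈ act r} h z * GG ζ Φ U r s z w`.
-/

set_option autoImplicit false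

noncomputable section

open MeasureTheory Crest.Agent.R087.T1x90 Crest.Agent.R087.OPdefx799

namespace Crest.Agent.R087.PSdefx115

/-- scalar product of two gated kernels -/
def GG (ζ Φ : ℝ → ℝ) (U : ℝ × ℝ → ℝ) (r s : ℕ) (z w : ℝ × ℝ) : ℝ :=
  (2 : ℝ) ^ r * ga r z.1 * ((2 : ℝ) ^ s * ga s w.1) *
    ∫ u, ζ ((2 : ℝ) ^ r * u - cel r z.1) * ζ ((2 : ℝ) ^ s * u - cel s w.1) *
      Φ (ln U w u - ln U z u)

/-- pairing of the short piece of scale `s` at `w` with all the longer (and equal) pieces of a tree -/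
def PS (ζ Φ : ℝ → ℝ) (U h : ℝ × ℝ → ℝ) (act : ℕ → Set (ℝ × ℝ)) (s : ℕ) (w : ℝ × ℝ) : ℝ :=
  ∑ r ∈ Finset.range (s + 1), ∫ z in act r, h z * GG ζ Φ U r s z w

end Crest.Agent.R087.PSdefx115
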