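import Crest.Agent.R087.T1a_90

/-!
Row 87, operator part, leaf T1: the tree energy lemma (helper90).
-/

set_option autoImplicit false

noncomputable section

open MeasureTheory Crest.Agent.R087.Sh0x283 Crest.Agent.R087.Sh1x283 Crest.Agent.R087.GateDefx273
  Crest.Agent.R087.SqIx90 Crest.Agent.R087.SqBx90
open scoped ENNReal

namespace Crest.Agent.R087.T1x90

theorem measurable_cel (s : ℕ) : Measurable (cel s) := by
  have : cel s = fl (-(s : ℤ)) := funext (cel_eq_fl s)
  rw [this]; exact measurable_fl _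

/-- vertical strip over a cell -/
def strip (s : ℕ) (m : ℤ) : Set (ℝ × ℝ) := {z | cel s z.1 = m}

theorem measurableSet_strip (s : ℕ) (m : ℤ) : MeasurableSet (strip s m) :=
  ((measurable_cel s).comp measurable_fst) (measurableSet_singleton m)

theorem disj_strip (s : ℕ) : Pairwise (Function.onFun Disjoint (strip s)) := by
  intro i j hij
  rw [Function.onFun, Set.disjoint_left]
  intro z hi hj
  exact hij (Eq.trans (Eq.symm hi) hj)

theorem iUnion_strip (s : ℕ) : (⋃ m, strip s m) = Set.univ := by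
  ext z; simp [strip]

theorem vol_cell (s : ℕ) (m : ℤ) : volume {x : ℝ | cel s x = m} = ENNReal.ofReal ((1 / 2) ^ s) := by
  have : {x : ℝ | cel s x = m} = II (-(s : ℤ)) m := by
    ext x; rw [mem_II, Set.mem_ofPred_eq, cel_eq_fl]
  rw [this, volume_II]
  congr 1
  rw [zpow_neg, zpow_natCast, one_div, inv_pow]

theorem nice_integrable {f : ℝ × ℝ → ℝ} (hf : Nice f) : Integrable f := by
  obtain ⟨hm, ⟨M, hM⟩, R, hR⟩ := hf
  have h1 : IntegrableOn f (Metric.closedBall 0 R) := by
    refine Measure.integrableOn_of_bounded (M := M) ?_ hm.aestronglyMeasurable ?_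
    · exact (measure_closedBall_lt_top).ne
    · exact Filter.Eventually.of_forall fun y => by simpa using hM y
  refine (integrableOn_iff_integrable_of_support_subset ?_).1 h1
  intro y hy
  by_contra hc
  refine hy (hR y ?_)
  rw [Metric.mem_closedBall, dist_zero_right, not_le] at hc
  exact hc

section tree

variable {S s0 : ℕ} {m0 : ℤ} {h : ℝ × ℝ → ℝ} {act : ℕ → Set (ℝ × ℝ)} {Z : Set (ℝ × ℝ)} {H D : ℝ}

/-- coefficient function -/
def aa (h : ℝ × ℝ → ℝ) (act : ℕ → Set (ℝ × ℝ)) (s : ℕ) (x : ℝ) : ℝ := al h act s (cel s x)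

theorem cst_aa (s : ℕ) : Cst (-(s : ℤ)) (aa h act s) := by
  rw [cst_iff]; intro x y hxy; simp only [aa, hxy]

theorem FF_eq (s0 j : ℕ) (x : ℝ) : FF h act s0 (s0 + j) x = PF (aa h act) s0 j x := by
  rw [PF_eq]; rfl

/-- integrand of the coefficients -/
def gh (h : ℝ × ℝ → ℝ) (s : ℕ) (z : ℝ × ℝ) : ℝ := ga s z.1 * h z

theorem nice_gh (hh : Nice h) (s : ℕ) : Nice (gh h s) := by
  obtain ⟨hm, ⟨M, hM⟩, R, hR⟩ := hh
  refine ⟨((measurable_ga s).comp measurable_fst).mul hm, ⟨M, fun z => ?_⟩, R, fun z hz => ?_⟩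
  · unfold gh; rw [abs_mul, abs_ga, one_mul]; exact hM z
  · unfold gh; rw [hR z hz, mul_zero]

theorem nice_aa (hh : Nice h) (s : ℕ) : Nice1 (aa h act s) := by
  have hc := cst_aa (h := h) (act := act) s
  have hg := nice_integrable (nice_gh hh s)
  obtain ⟨hm, ⟨M, hM⟩, R, hR⟩ := hh
  refine ⟨hc.measurable, ⟨(2 : ℝ) ^ s * ∫ z, |gh h s z|, fun x => ?_⟩, R + 1, fun x hx => ?_⟩
  · unfold aa al
    rw [abs_mul, abs_of_pos (by positivity : (0 : ℝ) < 2 ^ s)]
    gcongr
    calc |∫ z in {z : ℝ × ℝ | cel s z.1 = cel s x} ∩ act s, ga s z.1 * h z|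
        ≤ ∫ z in {z : ℝ × ℝ | cel s z.1 = cel s x} ∩ act s, |gh h s z| := abs_integral_le_integral_abs
      _ ≤ ∫ z, |gh h s z| := setIntegral_le_integral hg.abs
          (Filter.Eventually.of_forall fun z => abs_nonneg _)
  · unfold aa al
    have h0 : ∫ z in {z : ℝ × ℝ | cel s z.1 = cel s x} ∩ act s, ga s z.1 * h z = 0 := by
      refine setIntegral_eq_zero_of_forall_eq_zero ?_
      intro z hz
      have hz1 : cel s z.1 = cel s x := hz.1
      have h2 : |z.1 - x| < 1 := by
        unfold cel at hz1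
        have h3 := Int.abs_sub_lt_one_of_floor_eq_floor hz1
        have h4 : (1 : ℝ) ≤ 2 ^ s := one_le_pow₀ (by norm_num)
        have h5 : (2 : ℝ) ^ s * z.1 - 2 ^ s * x = 2 ^ s * (z.1 - x) := by ring
        rw [h5, abs_mul, abs_of_pos (by positivity : (0 : ℝ) < 2 ^ s)] at h3
        nlinarith [abs_nonneg (z.1 - x)]
      have h6 : R < ‖z‖ := by
        have h7 : |x| ≤ |z.1 - x| + |z.1| := by
          have := abs_sub_abs_le_abs_sub x z.1
          rw [abs_sub_comm x z.1] at this
          linarith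
        have h8 : |z.1| ≤ ‖z‖ := by
          have := norm_fst_le z
          rwa [Real.norm_eq_abs] at this
        linarith
      rw [hR z h6, mul_zero]
    rw [h0, mul_zero]

/-- adjoint identity -/
theorem adj (hh : Nice h) (hact : MeasurableSet (act s0)) {b : ℝ → ℝ}
    (hb : Cst (-(s0 : ℤ)) b) (hbb : ∃ M : ℝ, ∀ y, |b y| ≤ M) :
    ∫ x, b x * aa h act s0 x = ∫ z in act s0, b z.1 * gh h s0 z := by
  have n1 : Nice1 (fun x => b x * aa h act s0 x) := n1_bdd_mul hb.measurable hbb (nice_aa hh s0)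
  have n2 : Integrable (fun z : ℝ × ℝ => b z.1 * gh h s0 z) := by
    obtain ⟨M, hM⟩ := hbb
    obtain ⟨hm, ⟨M', hM'⟩, R, hR⟩ := nice_gh hh s0
    refine nice_integrable ⟨(hb.measurable.comp measurable_fst).mul hm, ⟨M * M', fun z => ?_⟩, R,
      fun z hz => by simp only [hR z hz, mul_zero]⟩
    rw [abs_mul]
    exact mul_le_mul (hM _) (hM' z) (abs_nonneg _) ((abs_nonneg _).trans (hM z.1))
  have e1 := hasSum_integral_iUnion (measurableSet_II (-(s0 : ℤ))) (disj_II (-(s0 : ℤ)))
    (f := fun x => b x * aa h act s0 x) (μ := volume) (n1_integrable n1).integrableOn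
  have e2 := hasSum_integral_iUnion (fun m => (measurableSet_strip s0 m).inter hact)
    (f := fun z : ℝ × ℝ => b z.1 * gh h s0 z) (μ := volume)
    (fun i j hij => (disj_strip s0 hij).mono Set.inter_subset_left Set.inter_subset_left)
    n2.integrableOn
  rw [iUnion_II, setIntegral_univ] at e1
  rw [← Set.iUnion_inter, iUnion_strip, Set.univ_inter] at e2
  refine e1.unique ?_
  convert e2 using 2 with m
  obtain ⟨y0, hy0⟩ := exists_fl (-(s0 : ℤ)) m
  have hc : Cst (-(s0 : ℤ)) (fun x => b x * aa h act s0 x) := hb.mul (cst_aa s0)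
  have l1 : ∫ x in II (-(s0 : ℤ)) m, b x * aa h act s0 x =
      ∫ x in II (-(s0 : ℤ)) m, b y0 * aa h act s0 y0 := by
    refine setIntegral_congr_fun (measurableSet_II _ _) ?_
    intro x hx
    exact hc x y0 ((mem_II.1 hx).trans hy0.symm)
  have hcy : cel s0 y0 = m := by rw [cel_eq_fl]; exact hy0
  have l2 : ∫ z in strip s0 m ∩ act s0, b z.1 * gh h s0 z =
      ∫ z in strip s0 m ∩ act s0, b y0 * gh h s0 z := by
    refine setIntegral_congr_fun ((measurableSet_strip _ _).inter hact) ?_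
    intro z hz
    have : b z.1 = b y0 := (cst_iff.1 hb) _ _ (Eq.trans hz.1 hcy.symm)
    simp only [this]
  rw [l1, l2, setIntegral_const, volume_real_II, integral_const_mul, smul_eq_mul]
  have e3 : aa h act s0 y0 = (2 : ℝ) ^ s0 * ∫ z in strip s0 m ∩ act s0, gh h s0 z := by
    unfold aa al strip gh
    rw [hcy]
  rw [e3, zpow_neg, zpow_natCast]
  have : (2 : ℝ) ^ s0 ≠ 0 := by positivity
  field_simp

/-- alive cells -/
def alv (act : ℕ → Set (ℝ × ℝ)) (Z : Set (ℝ × ℝ)) (s : ℕ) : Set ℝ :=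
  {x | ∃ z ∈ Z, cel s z.1 = cel s x ∧ ∃ s', s ≤ s' ∧ z ∈ act s'}

theorem alv_cell {s : ℕ} {x y : ℝ} (hxy : cel s x = cel s y) (hx : x ∈ alv act Z s) :
    y ∈ alv act Z s := by
  obtain ⟨z, hz, h1, h2⟩ := hx
  exact ⟨z, hz, h1.trans hxy, h2⟩

theorem alv_anti {s : ℕ} {x : ℝ} (hx : x ∈ alv act Z (s + 1)) : x ∈ alv act Z s := by
  obtain ⟨z, hz, h1, s', h2, h3⟩ := hx
  exact ⟨z, hz, cel_mono (Nat.le_succ s) h1, s', by omega, h3⟩

theorem alv_anti' {s s' : ℕ} (hs : s ≤ s') {x : ℝ} (hx : x ∈ alv act Z s') : x ∈ alv act Z s := by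
  induction s' with
  | zero => rwa [Nat.le_zero.1 hs]
  | succ n ih =>
    rcases Nat.lt_or_ge s (n + 1) with h' | h'
    · exact ih (by omega) (alv_anti hx)
    · rwa [le_antisymm hs h']

/-- last alive scale is `t` -/
def TT (act : ℕ → Set (ℝ × ℝ)) (Z : Set (ℝ × ℝ)) (t : ℕ) : Set ℝ := alv act Z t \ alv act Z (t + 1)

theorem TT_cell {t : ℕ} {x y : ℝ} (hxy : cel (t + 1) x = cel (t + 1) y) (hx : x ∈ TT act Z t) :
    y ∈ TT act Z t :=
  ⟨alv_cell (cel_mono (Nat.le_succ t) hxy) hx.1, fun hy => hx.2 (alv_cell hxy.symm hy)⟩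

theorem cst_ind_TT (t : ℕ) (c : ℝ) :
    Cst (-((t + 1 : ℕ) : ℤ)) ((TT act Z t).indicator (fun _ => c)) := by
  rw [cst_iff]
  intro x y hxy
  by_cases hx : x ∈ TT act Z t
  · rw [Set.indicator_of_mem hx, Set.indicator_of_mem (TT_cell hxy hx)]
  · rw [Set.indicator_of_notMem hx, Set.indicator_of_notMem fun hy => hx (TT_cell hxy.symm hy)]

theorem measurableSet_TT (t : ℕ) : MeasurableSet (TT act Z t) := by
  have h1 := (cst_ind_TT (act := act) (Z := Z) t 1).measurable
  have h2 : TT act Z t = ((TT act Z t).indicator (fun _ => (1 : ℝ))) ⁻¹' {1} := by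
    ext x
    simp only [Set.mem_preimage, Set.mem_singleton_iff]
    by_cases hx : x ∈ TT act Z t
    · simp [hx]
    · simp [hx]
  rw [h2]
  exact h1 (measurableSet_singleton 1)

theorem TT_disj {t t' : ℕ} (h : t < t') {x : ℝ} (hx : x ∈ TT act Z t) : x ∉ TT act Z t' :=
  fun hx' => hx.2 (alv_anti' (by omega) hx'.1)

/-- push-forward comparison on the cells whose parent is alive -/
theorem push (T : Tree S s0 m0 h act Z H D) {t : ℕ} (ht : s0 ≤ t) {w : ℝ → ℝ≥0∞}
    (hw : ∀ x y, cel (t + 1) x = cel (t + 1) y → w x = w y) (hw0 : ∀ x, x ∉ alv act Z t → w x = 0) :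
    ∫⁻ z in Z, w z.1 ≤ ENNReal.ofReal (2 * D) * ∫⁻ x, w x := by
  have hmw : Measurable w := by
    have : w = (fun m : ℤ => w ((m : ℝ) * (1 / 2) ^ (t + 1))) ∘ cel (t + 1) := by
      funext x
      refine hw _ _ ?_
      unfold cel
      have h2 : (2 : ℝ) ^ (t + 1) * (((⌊(2 : ℝ) ^ (t + 1) * x⌋ : ℤ) : ℝ) * (1 / 2) ^ (t + 1)) =
          ((⌊(2 : ℝ) ^ (t + 1) * x⌋ : ℤ) : ℝ) := by
        rw [mul_comm, mul_assoc, ← mul_pow]; norm_num
      rw [h2, Int.floor_intCast]
    rw [this]
    exact (measurable_of_countable _).comp (measurable_cel _)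
  have e1 : ∫⁻ z in Z, w z.1 = ∑' m, ∫⁻ z in strip (t + 1) m ∩ Z, w z.1 := by
    rw [← lintegral_iUnion (fun m => (measurableSet_strip (t + 1) m).inter T.mZ)
      (fun i j hij => (disj_strip (t + 1) hij).mono Set.inter_subset_left Set.inter_subset_left),
      ← Set.iUnion_inter, iUnion_strip, Set.univ_inter]
  have e2 : ∫⁻ x, w x = ∑' m, ∫⁻ x in II (-((t + 1 : ℕ) : ℤ)) m, w x := by
    rw [← lintegral_iUnion (measurableSet_II _) (disj_II _), iUnion_II, setLIntegral_univ]
  rw [e1, e2, ← ENNReal.tsum_mul_left]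
  refine ENNReal.tsum_le_tsum fun m => ?_
  obtain ⟨y0, hy0⟩ := exists_fl (-((t + 1 : ℕ) : ℤ)) m
  have hcy : cel (t + 1) y0 = m := by rw [cel_eq_fl]; exact hy0
  have l1 : ∫⁻ z in strip (t + 1) m ∩ Z, w z.1 = w y0 * volume (strip (t + 1) m ∩ Z) := by
    rw [← setLIntegral_const]
    refine setLIntegral_congr_fun ((measurableSet_strip _ _).inter T.mZ) ?_
    intro z hz
    exact hw _ _ (Eq.trans hz.1 hcy.symm)
  have l2 : ∫⁻ x in II (-((t + 1 : ℕ) : ℤ)) m, w x = w y0 * ENNReal.ofReal ((1 / 2) ^ (t + 1)) := by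
    rw [← vol_cell (t + 1) m, ← setLIntegral_const]
    have : {x : ℝ | cel (t + 1) x = m} = II (-((t + 1 : ℕ) : ℤ)) m := by
      ext x; rw [mem_II, Set.mem_ofPred_eq, cel_eq_fl]
    rw [this]
    refine setLIntegral_congr_fun (measurableSet_II _ _) ?_
    intro x hx
    refine hw _ _ ?_
    rw [hcy, cel_eq_fl]; exact mem_II.1 hx
  rw [l1, l2]
  by_cases hy : y0 ∈ alv act Z t
  · obtain ⟨z, hz, h1, s', h2, h3⟩ := hy
    have hd := T.dens z hz t ht ⟨s', h2, h3⟩
    have hsub : strip (t + 1) m ∩ Z ⊆ Z ∩ {w : ℝ × ℝ | cel t w.1 = cel t z.1} := by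
      intro q hq
      refine ⟨hq.2, ?_⟩
      have : cel (t + 1) q.1 = cel (t + 1) y0 := Eq.trans hq.1 hcy.symm
      exact (cel_mono (Nat.le_succ t) this).trans h1.symm
    calc w y0 * volume (strip (t + 1) m ∩ Z) ≤ w y0 * ENNReal.ofReal (D * (1 / 2) ^ t) := by
          gcongr; exact (measure_mono hsub).trans hd
      _ = ENNReal.ofReal (2 * D) * (w y0 * ENNReal.ofReal ((1 / 2) ^ (t + 1))) := by
          rw [mul_left_comm, ← ENNReal.ofReal_mul (by have := T.D0; positivity)]
          congr 2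
          rw [pow_succ]; ring
  · rw [hw0 y0 hy, zero_mul]; exact bot_le

/-- single coefficients are bounded by `H D` -/
theorem abs_aa_le (T : Tree S s0 m0 h act Z H D) (hH : 0 ≤ H) (s : ℕ) (x : ℝ) :
    |aa h act s x| ≤ H * D := by
  have hHD : 0 ≤ H * D := mul_nonneg hH T.D0
  unfold aa al
  set A : Set (ℝ × ℝ) := {z : ℝ × ℝ | cel s z.1 = cel s x} ∩ act s with hA
  have hAm : MeasurableSet A := (measurableSet_strip s (cel s x)).inter (T.mact s)
  have h1 : ∫ z in A, ga s z.1 * h z = ∫ z in A ∩ Z, ga s z.1 * h z := by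
    have e : ∀ z, ga s z.1 * h z = Z.indicator (fun z => ga s z.1 * h z) z := by
      intro z
      by_cases hz : z ∈ Z
      · rw [Set.indicator_of_mem hz]
      · rw [Set.indicator_of_notMem hz, T.off z hz, mul_zero]
    rw [setIntegral_congr_fun (g := Z.indicator (fun z => ga s z.1 * h z)) hAm (fun z _ => e z),
      setIntegral_indicator T.mZ]
  rw [h1]
  by_cases hne : (A ∩ Z).Nonempty
  · obtain ⟨z, hz⟩ := hne
    have hs : s0 ≤ s := by
      by_contra hc
      exact Set.disjoint_left.1 (T.lo s (not_le.1 hc)) hz.1.2 hz.2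
    have hd := T.dens z hz.2 s hs ⟨s, le_rfl, hz.1.2⟩
    have hsub : A ∩ Z ⊆ Z ∩ {w : ℝ × ℝ | cel s w.1 = cel s z.1} := by
      intro q hq
      exact ⟨hq.2, Eq.trans hq.1.1 (Eq.symm hz.1.1)⟩
    have hv : volume (A ∩ Z) ≤ ENNReal.ofReal (D * (1 / 2) ^ s) := (measure_mono hsub).trans hd
    have hv2 : (volume (A ∩ Z)).toReal ≤ D * (1 / 2) ^ s := by
      refine ENNReal.toReal_le_of_le_ofReal ?_ hv
      have := T.D0; positivity
    have h2 : ‖∫ z in A ∩ Z, ga s z.1 * h z‖ ≤ H * (volume (A ∩ Z)).toReal := by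
      refine norm_setIntegral_le_of_norm_le_const (lt_of_le_of_lt hv ENNReal.ofReal_lt_top) ?_
      intro z _
      rw [Real.norm_eq_abs, abs_mul, abs_ga, one_mul]
      exact T.bd z
    rw [abs_mul, abs_of_pos (by positivity : (0 : ℝ) < 2 ^ s)]
    rw [Real.norm_eq_abs] at h2
    calc (2 : ℝ) ^ s * |∫ z in A ∩ Z, ga s z.1 * h z| ≤ 2 ^ s * (H * (D * (1 / 2) ^ s)) := by
          gcongr; exact h2.trans (by gcongr)
      _ = H * D * (2 ^ s * (1 / 2) ^ s) := by ring
      _ = H * D := by rw [← mul_pow]; norm_num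
  · rw [Set.not_nonempty_iff_eq_empty] at hne
    rw [hne]
    simpa using hHD

/-- the chain sum at a point -/
def chs (h : ℝ × ℝ → ℝ) (act : ℕ → Set (ℝ × ℝ)) (s0 S : ℕ) (z : ℝ × ℝ) : ℝ :=
  ∑ s ∈ Finset.Ico s0 S, (act s).indicator (fun _ => ga s z.1 * aa h act s z.1) z

theorem exists_TT (T : Tree S s0 m0 h act Z H D) {b : ℕ} {x : ℝ} (hb : x ∈ alv act Z b) :
    ∃ t, b ≤ t ∧ t < S ∧ x ∈ TT act Z t := by
  classical
  have hS : ∀ t, S ≤ t → x ∉ alv act Z t := by
    rintro t ht ⟨z, hz, _, s', h2, h3⟩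
    exact Set.disjoint_left.1 (T.hi s' (ht.trans h2)) h3 hz
  have hbS : b < S := by
    by_contra hc
    exact hS b (not_lt.1 hc) hb
  let P : ℕ → Prop := fun t => x ∈ alv act Z t
  have h1 : P (Nat.findGreatest P S) := Nat.findGreatest_spec (P := P) hbS.le hb
  have h2 : b ≤ Nat.findGreatest P S := Nat.le_findGreatest hbS.le hb
  refine ⟨Nat.findGreatest P S, h2, ?_, h1, ?_⟩
  · by_contra hc
    exact hS _ (not_lt.1 hc) h1
  · intro h3
    have h4 : Nat.findGreatest P S < S := by
      by_contra hc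
      exact hS _ (not_lt.1 hc) h1
    exact Nat.findGreatest_is_greatest (P := P) (Nat.lt_succ_self _) h4 h3

theorem chs_le (T : Tree S s0 m0 h act Z H D) (hH : 0 ≤ H) {z : ℝ × ℝ} (hz : z ∈ Z) :
    |chs h act s0 S z| ≤ ∑ t ∈ Finset.Ico s0 S,
      (TT act Z t).indicator (fun x => 2 * (MX (aa h act) s0 (t - s0) x + H * D)) z.1 := by
  classical
  have hHD : 0 ≤ H * D := mul_nonneg hH T.D0
  have hnn : ∀ t ∈ Finset.Ico s0 S, 0 ≤
      (TT act Z t).indicator (fun x => 2 * (MX (aa h act) s0 (t - s0) x + H * D)) z.1 := by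
    intro t _
    refine Set.indicator_nonneg (fun x _ => ?_) _
    have := MX_nonneg (a := aa h act) (s0 := s0) (t - s0) x
    positivity
  set F := (Finset.Ico s0 S).filter (fun s => z ∈ act s) with hF
  have hsum : chs h act s0 S z = ∑ s ∈ F, ga s z.1 * aa h act s z.1 := by
    unfold chs
    rw [hF, Finset.sum_filter]
    refine Finset.sum_congr rfl fun s _ => ?_
    by_cases hs : z ∈ act s
    · rw [Set.indicator_of_mem hs, if_pos hs]
    · rw [Set.indicator_of_notMem hs, if_neg hs]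
  rcases F.eq_empty_or_nonempty with he | hne
  · rw [hsum, he, Finset.sum_empty, abs_zero]
    exact Finset.sum_nonneg hnn
  · have hmin := Finset.mem_filter.1 (F.min'_mem hne)
    have hmax := Finset.mem_filter.1 (F.max'_mem hne)
    set a := F.min' hne with ha
    set b := F.max' hne with hb
    have hab : a ≤ b := Finset.min'_le _ _ (F.max'_mem hne)
    have ha1 : s0 ≤ a := (Finset.mem_Ico.1 hmin.1).1
    have hb1 : b < S := (Finset.mem_Ico.1 hmax.1).2
    have hFI : F = Finset.Ico a (b + 1) := by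
      ext s
      rw [Finset.mem_Ico]
      constructor
      · intro hs
        exact ⟨Finset.min'_le _ _ hs, Nat.lt_succ_of_le (Finset.le_max' _ _ hs)⟩
      · intro hs
        rw [hF, Finset.mem_filter, Finset.mem_Ico]
        exact ⟨⟨by omega, by omega⟩, T.conv z hz a s b hs.1 (by omega) hmin.2 hmax.2⟩
    have hP : chs h act s0 S z = PF (aa h act) s0 (b + 1 - s0) z.1 - PF (aa h act) s0 (a - s0) z.1 := by
      rw [hsum, hFI, PF_eq, PF_eq, Nat.add_sub_of_le ha1, Nat.add_sub_of_le (by omega : s0 ≤ b + 1),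
        ← Finset.sum_Ico_consecutive _ ha1 (by omega : a ≤ b + 1)]
      ring
    obtain ⟨t, hbt, htS, hT⟩ := exists_TT T (b := b) (x := z.1) ⟨z, hz, rfl, b, le_rfl, hmax.2⟩
    have h1 : |chs h act s0 S z| ≤ 2 * MX (aa h act) s0 (t - s0 + 1) z.1 := by
      rw [hP]
      have e1 := PF_le_MX' (a := aa h act) (s0 := s0) (by omega : b + 1 - s0 ≤ t - s0 + 1) z.1
      have e2 := PF_le_MX' (a := aa h act) (s0 := s0) (by omega : a - s0 ≤ t - s0 + 1) z.1
      have e3 := abs_sub (PF (aa h act) s0 (b + 1 - s0) z.1) (PF (aa h act) s0 (a - s0) z.1)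
      linarith
    have h2 : MX (aa h act) s0 (t - s0 + 1) z.1 ≤ MX (aa h act) s0 (t - s0) z.1 + H * D := by
      have e1 : |PF (aa h act) s0 (t - s0 + 1) z.1| ≤ MX (aa h act) s0 (t - s0) z.1 + H * D := by
        have e2 : PF (aa h act) s0 (t - s0 + 1) z.1 = PF (aa h act) s0 (t - s0) z.1 +
          ga (s0 + (t - s0)) z.1 * aa h act (s0 + (t - s0)) z.1 := rfl
        rw [e2]
        refine (abs_add_le _ _).trans (add_le_add (PF_le_MX _ _) ?_)
        rw [abs_mul, abs_ga, one_mul]
        exact abs_aa_le T hH _ _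
      exact max_le (by linarith) e1
    calc |chs h act s0 S z| ≤ 2 * (MX (aa h act) s0 (t - s0) z.1 + H * D) := by linarith
      _ = (TT act Z t).indicator (fun x => 2 * (MX (aa h act) s0 (t - s0) x + H * D)) z.1 := by
          rw [Set.indicator_of_mem hT]
      _ ≤ _ := Finset.single_le_sum hnn (Finset.mem_Ico.2 ⟨by omega, htS⟩)

/-- top cell -/
def topc (s0 : ℕ) (m0 : ℤ) : Set ℝ := {x | cel s0 x = m0}

theorem TT_sub_top (T : Tree S s0 m0 h act Z H D) {t : ℕ} (ht : s0 ≤ t) {x : ℝ}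
    (hx : x ∈ TT act Z t) : x ∈ topc s0 m0 := by
  obtain ⟨⟨z, hz, h1, _⟩, _⟩ := hx
  exact (cel_mono ht h1).symm.trans (T.top z hz)

theorem measurableSet_topc (s0 : ℕ) (m0 : ℤ) : MeasurableSet (topc s0 m0) :=
  (measurable_cel s0) (measurableSet_singleton m0)

/-- sum over the last alive scales is bounded by the indicator of the top -/
theorem sum_TT_le (T : Tree S s0 m0 h act Z H D) (hH : 0 ≤ H) (x : ℝ) :
    ∑ t ∈ Finset.Ico s0 S, ENNReal.ofReal (H *
      (TT act Z t).indicator (fun x => 2 * (MX (aa h act) s0 (t - s0) x + H * D)) x) ≤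
    ENNReal.ofReal ((topc s0 m0).indicator
      (fun x => 2 * H * (MX (aa h act) s0 (S - s0) x + H * D)) x) := by
  classical
  have hHD : 0 ≤ H * D := mul_nonneg hH T.D0
  by_cases hx : ∃ t ∈ Finset.Ico s0 S, x ∈ TT act Z t
  · obtain ⟨t, ht, hxt⟩ := hx
    have ht' := Finset.mem_Ico.1 ht
    rw [Finset.sum_eq_single_of_mem t ht]
    · rw [Set.indicator_of_mem hxt, Set.indicator_of_mem (TT_sub_top T ht'.1 hxt)]
      refine ENNReal.ofReal_le_ofReal ?_
      have h1 := MX_mono (a := aa h act) (s0 := s0) (by omega : t - s0 ≤ S - s0) x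
      have h2 : H * (2 * (MX (aa h act) s0 (t - s0) x + H * D)) ≤
          H * (2 * (MX (aa h act) s0 (S - s0) x + H * D)) :=
        mul_le_mul_of_nonneg_left (by linarith) hH
      linarith
    · intro t' _ hne
      have : x ∉ TT act Z t' := by
        intro hx'
        rcases lt_trichotomy t t' with h3 | h3 | h3
        · exact TT_disj h3 hxt hx'
        · exact hne h3.symm
        · exact TT_disj h3 hx' hxt
      rw [Set.indicator_of_notMem this, mul_zero, ENNReal.ofReal_zero]
  · push Not at hx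
    rw [Finset.sum_eq_zero]
    · exact bot_le
    · intro t ht
      rw [Set.indicator_of_notMem (hx t ht), mul_zero, ENNReal.ofReal_zero]

theorem energy (T : Tree S s0 m0 h act Z H D) (hH : 0 ≤ H) (hS : s0 ≤ S) :
    ∑ s ∈ Finset.Ico s0 S, ∫ x, (aa h act s x) ^ 2 ≤ 72 * (H * D) ^ 2 * (1 / 2) ^ s0 := by
  classical
  have hHD : 0 ≤ H * D := mul_nonneg hH T.D0
  have na : ∀ i : ℕ, Nice1 (aa h act i) := fun i => nice_aa T.nice i
  have ca : ∀ i : ℕ, Cst (-(i : ℤ)) (aa h act i) := fun i => cst_aa i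
  set X := ∑ s ∈ Finset.Ico s0 S, ∫ x, (aa h act s x) ^ 2 with hX
  set n := S - s0 with hn
  -- duality
  have hterm : ∀ s, Integrable
      ((act s).indicator (fun z : ℝ × ℝ => aa h act s z.1 * gh h s z)) := by
    intro s
    have n2 : Integrable (fun z : ℝ × ℝ => aa h act s z.1 * gh h s z) := by
      obtain ⟨M, hM⟩ := (na s).2.1
      obtain ⟨hm, ⟨M', hM'⟩, R, hR⟩ := nice_gh T.nice s
      refine nice_integrable ⟨((na s).1.comp measurable_fst).mul hm, ⟨M * M', fun z => ?_⟩, R,
        fun z hz => by simp only [hR z hz, mul_zero]⟩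
      rw [abs_mul]
      exact mul_le_mul (hM _) (hM' z) (abs_nonneg _) ((abs_nonneg _).trans (hM z.1))
    exact n2.indicator (T.mact s)
  have hX1 : X = ∫ z, chs h act s0 S z * h z := by
    have e1 : ∀ s, ∫ x, (aa h act s x) ^ 2 =
        ∫ z, (act s).indicator (fun z : ℝ × ℝ => aa h act s z.1 * gh h s z) z := by
      intro s
      rw [integral_indicator (T.mact s), ← adj T.nice (T.mact s) (ca s) (na s).2.1]
      congr 1; funext x; ring
    rw [hX, Finset.sum_congr rfl (fun s _ => e1 s), ← integral_finsetSum _ (fun s _ => hterm s)]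
    congr 1
    funext z
    unfold chs
    rw [Finset.sum_mul]
    refine Finset.sum_congr rfl fun s _ => ?_
    by_cases hs : z ∈ act s
    · rw [Set.indicator_of_mem hs, Set.indicator_of_mem hs]; unfold gh; ring
    · rw [Set.indicator_of_notMem hs, Set.indicator_of_notMem hs, zero_mul]
  have hX2 : ENNReal.ofReal X ≤ ∫⁻ z in Z, ∑ t ∈ Finset.Ico s0 S, ENNReal.ofReal (H *
      (TT act Z t).indicator (fun x => 2 * (MX (aa h act) s0 (t - s0) x + H * D)) z.1) := by
    rw [hX1]
    calc ENNReal.ofReal (∫ z, chs h act s0 S z * h z)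
        ≤ ENNReal.ofReal |∫ z, chs h act s0 S z * h z| := ENNReal.ofReal_le_ofReal (le_abs_self _)
      _ = ‖∫ z, chs h act s0 S z * h z‖ₑ := by
          rw [← Real.norm_eq_abs, ofReal_norm]
      _ ≤ ∫⁻ z, ‖chs h act s0 S z * h z‖ₑ := enorm_integral_le_lintegral_enorm _
      _ ≤ ∫⁻ z, Z.indicator (fun z => ∑ t ∈ Finset.Ico s0 S, ENNReal.ofReal (H *
            (TT act Z t).indicator (fun x => 2 * (MX (aa h act) s0 (t - s0) x + H * D)) z.1)) z := by
          refine lintegral_mono fun z => ?_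
          by_cases hz : z ∈ Z
          · rw [Set.indicator_of_mem hz, ← ENNReal.ofReal_sum_of_nonneg, ← Finset.mul_sum,
              ← ofReal_norm, Real.norm_eq_abs, abs_mul, mul_comm]
            · refine ENNReal.ofReal_le_ofReal ?_
              exact mul_le_mul (T.bd z) (chs_le T hH hz) (abs_nonneg _) hH
            · intro t _
              refine mul_nonneg hH (Set.indicator_nonneg (fun x _ => ?_) _)
              have := MX_nonneg (a := aa h act) (s0 := s0) (t - s0) x
              positivity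
          · rw [T.off z hz, mul_zero, enorm_zero]; exact bot_le
      _ = _ := lintegral_indicator T.mZ _
  have hX3 : ENNReal.ofReal X ≤ ENNReal.ofReal (2 * D) * ∫⁻ x, ENNReal.ofReal
      ((topc s0 m0).indicator (fun x => 2 * H * (MX (aa h act) s0 n x + H * D)) x) := by
    have hw : ∀ t, Cst (-((t + 1 : ℕ) : ℤ)) ((TT act Z t).indicator
        (fun x => 2 * (MX (aa h act) s0 (t - s0) x + H * D))) ∨ t < s0 := by
      intro t
      rcases Nat.lt_or_ge t s0 with h1 | h1
      · exact Or.inr h1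
      · left
        rw [cst_iff]
        intro x y hxy
        have hM : MX (aa h act) s0 (t - s0) x = MX (aa h act) s0 (t - s0) y := by
          have := cst_MX (s0 := s0) ca (t - s0)
          have e : s0 + (t - s0) + 1 = t + 1 := by omega
          rw [e] at this
          exact cst_iff.1 this x y hxy
        by_cases hx : x ∈ TT act Z t
        · rw [Set.indicator_of_mem hx, Set.indicator_of_mem (TT_cell hxy hx), hM]
        · rw [Set.indicator_of_notMem hx,
            Set.indicator_of_notMem fun hy => hx (TT_cell hxy.symm hy)]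
    have hmeas : ∀ t ∈ Finset.Ico s0 S, Measurable ((TT act Z t).indicator
        (fun x => 2 * (MX (aa h act) s0 (t - s0) x + H * D))) := by
      intro t ht
      rcases hw t with h1 | h1
      · exact h1.measurable
      · exact absurd h1 (not_lt.2 (Finset.mem_Ico.1 ht).1)
    calc ENNReal.ofReal X ≤ _ := hX2
      _ = ∑ t ∈ Finset.Ico s0 S, ∫⁻ z in Z, ENNReal.ofReal (H *
      (TT act Z t).indicator (fun x => 2 * (MX (aa h act) s0 (t - s0) x + H * D)) z.1) := by
          refine lintegral_finsetSum _ fun t ht => ?_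
          exact (((hmeas t ht).comp measurable_fst).const_mul H).ennreal_ofReal
      _ ≤ ∑ t ∈ Finset.Ico s0 S, ENNReal.ofReal (2 * D) * ∫⁻ x, ENNReal.ofReal (H *
      (TT act Z t).indicator (fun x => 2 * (MX (aa h act) s0 (t - s0) x + H * D)) x) := by
          refine Finset.sum_le_sum fun t ht => ?_
          have ht' := (Finset.mem_Ico.1 ht).1
          refine push T ht' (w := fun x => ENNReal.ofReal (H *
            (TT act Z t).indicator (fun x => 2 * (MX (aa h act) s0 (t - s0) x + H * D)) x)) ?_ ?_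
          · intro x y hxy
            rcases hw t with h1 | h1
            · simp only [cst_iff.1 h1 x y hxy]
            · omega
          · intro x hx
            have : x ∉ TT act Z t := fun h' => hx h'.1
            simp only [Set.indicator_of_notMem this, mul_zero, ENNReal.ofReal_zero]
      _ = ENNReal.ofReal (2 * D) * ∫⁻ x, ∑ t ∈ Finset.Ico s0 S, ENNReal.ofReal (H *
      (TT act Z t).indicator (fun x => 2 * (MX (aa h act) s0 (t - s0) x + H * D)) x) := by
          rw [lintegral_finsetSum _ fun t ht => ((hmeas t ht).const_mul H).ennreal_ofReal,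
            Finset.mul_sum]
      _ ≤ _ := by
          gcongr with x
          exact sum_TT_le T hH x
  -- real form
  have nM := nice_MX (s0 := s0) na n
  have hmt := measurableSet_topc s0 m0
  have hvt : volume (topc s0 m0) = ENNReal.ofReal ((1 / 2) ^ s0) := vol_cell s0 m0
  have hIM : IntegrableOn (MX (aa h act) s0 n) (topc s0 m0) := (n1_integrable nM).integrableOn
  have hIM2 : IntegrableOn (fun x => (MX (aa h act) s0 n x) ^ 2) (topc s0 m0) :=
    (n1_integrable (n1_sq nM)).integrableOn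
  have hIc : ∀ c : ℝ, IntegrableOn (fun _ : ℝ => c) (topc s0 m0) := fun c =>
    integrableOn_const (by rw [hvt]; exact ENNReal.ofReal_ne_top)
  have hIf : IntegrableOn (fun x => 2 * H * (MX (aa h act) s0 n x + H * D)) (topc s0 m0) :=
    (hIM.add (hIc (H * D))).const_mul (2 * H)
  have hX4 : X ≤ 2 * D * ∫ x in topc s0 m0, 2 * H * (MX (aa h act) s0 n x + H * D) := by
    rw [← ofReal_integral_eq_lintegral_ofReal (hIf.integrable_indicator hmt) (Filter.Eventually.of_forall
      fun x => Set.indicator_nonneg (fun x _ => by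
        have := MX_nonneg (a := aa h act) (s0 := s0) n x
        positivity) x), integral_indicator hmt, ← ENNReal.ofReal_mul (by have := T.D0; positivity)] at hX3
    refine (ENNReal.ofReal_le_ofReal_iff ?_).1 hX3
    refine mul_nonneg (by have := T.D0; positivity) (setIntegral_nonneg hmt fun x _ => ?_)
    have := MX_nonneg (a := aa h act) (s0 := s0) n x
    positivity
  have hcell : (volume.real (topc s0 m0)) = (1 / 2) ^ s0 := by
    rw [Measure.real, hvt, ENNReal.toReal_ofReal (by positivity)]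
  have hX5 : 2 * D * ∫ x in topc s0 m0, 2 * H * (MX (aa h act) s0 n x + H * D) ≤
      ∫ x in topc s0 m0, ((MX (aa h act) s0 n x) ^ 2 / 8 + 36 * (H * D) ^ 2) := by
    rw [← integral_const_mul]
    refine setIntegral_mono (hIf.const_mul (2 * D)) ((hIM2.div_const 8).add (hIc _)) ?_
    intro x
    simp only
    nlinarith [sq_nonneg (MX (aa h act) s0 n x - 16 * (H * D))]
  have hX6 : ∫ x in topc s0 m0, ((MX (aa h act) s0 n x) ^ 2 / 8 + 36 * (H * D) ^ 2) ≤
      X / 2 + 36 * (H * D) ^ 2 * (1 / 2) ^ s0 := by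
    rw [integral_add (hIM2.div_const 8) (hIc _), setIntegral_const, hcell, smul_eq_mul,
      integral_div]
    have h1 : ∫ x in topc s0 m0, (MX (aa h act) s0 n x) ^ 2 ≤ ∫ x, (MX (aa h act) s0 n x) ^ 2 :=
      setIntegral_le_integral (n1_integrable (n1_sq nM))
        (Filter.Eventually.of_forall fun x => sq_nonneg _)
    have h2 := doob (s0 := s0) na ca n
    have h3 := sq_PF (s0 := s0) na ca n
    rw [hn, Nat.add_sub_of_le hS, ← hX] at h3
    rw [h3] at h2
    have h4 : (1 / 2 : ℝ) ^ s0 * (36 * (H * D) ^ 2) = 36 * (H * D) ^ 2 * (1 / 2) ^ s0 := by ring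
    rw [h4]
    linarith
  linarith

end tree

theorem t1max : T1max := by
  intro S s0 m0 h act Z H D hS T
  have na : ∀ i : ℕ, Nice1 (aa h act i) := fun i => nice_aa T.nice i
  have ca : ∀ i : ℕ, Cst (-(i : ℤ)) (aa h act i) := fun i => cst_aa i
  have nM := nice_MX (s0 := s0) na (S - s0)
  refine ⟨MX (aa h act) s0 (S - s0), nM.1, ?_, nM.2.2.imp fun R hR x hx => hR x hx, nM.2.1, ?_⟩
  · intro x s hs
    rcases Nat.lt_or_ge s s0 with h1 | h1
    · have : FF h act s0 s x = 0 := by
        unfold FF; rw [Finset.Ico_eq_empty (by omega), Finset.sum_empty]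
      rw [this, abs_zero]
      exact MX_nonneg _ _
    · obtain ⟨j, rfl⟩ := Nat.exists_eq_add_of_le h1
      rw [FF_eq]
      exact PF_le_MX' (by omega) x
  · have h2 := doob (s0 := s0) na ca (S - s0)
    have h3 := sq_PF (s0 := s0) na ca (S - s0)
    rw [Nat.add_sub_of_le hS] at h3
    rw [h3] at h2
    exact h2

theorem t1 : T1 := by
  refine ⟨72, by norm_num, ?_⟩
  intro S s0 m0 h act Z H D hS T
  have hH : 0 ≤ H := (abs_nonneg _).trans (T.bd 0)
  exact energy T hH hS

end Crest.Agent.R087.T1x90
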