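import Crest.Agent.R087.ShalB_115
import Crest.Agent.R087.PSdef_115
import Crest.Agent.R087.T1_90

/-!
Row 87, operator part, leaf OP-PAIR-LOW-SHALLOW (helper115): the shallow pairings of one LOW tree with
one short point: `|PS| ≤ C T (|U w - m| 2^-s)^-n` if `|U w - m| 2^-s ≥ 2`.
-/

set_option autoImplicit false

noncomputable section

open MeasureTheory Crest.Agent.R087.Sh0x283 Crest.Agent.R087.GateDefx273 Crest.Agent.R087.T1x90
open Crest.Agent.R087.OPdefx799 Crest.Agent.R087.ShalAx115 Crest.Agent.R087.GateAx273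
open Crest.Agent.R087.ShalBx115 Crest.Agent.R087.TreeIfx153 Crest.Agent.R087.PSdefx115

namespace Crest.Agent.R087.Shalx115

theorem int_dom {h f : ℝ × ℝ → ℝ} (hh : Nice h) (hf : Measurable f) {C : ℝ}
    (hC : ∀ z, |f z| ≤ C * |h z|) : Integrable f := by
  refine ((nice_integrable hh).norm.const_mul C).mono' hf.aestronglyMeasurable
    (Filter.Eventually.of_forall fun z => ?_)
  simpa [Real.norm_eq_abs] using hC z

theorem cel_of_zeta {s : ℕ} {j : ℤ} {u : ℝ} (h : 1 / 8 ≤ (2 : ℝ) ^ s * u - j ∧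
    (2 : ℝ) ^ s * u - j ≤ 7 / 8) : cel s u = j := by
  unfold cel
  rw [Int.floor_eq_iff]
  constructor <;> linarith [h.1, h.2]

theorem cel_bds (s : ℕ) (x : ℝ) : 0 ≤ (2 : ℝ) ^ s * x - cel s x ∧ (2 : ℝ) ^ s * x - cel s x < 1 := by
  unfold cel
  constructor
  · linarith [Int.floor_le ((2 : ℝ) ^ s * x)]
  · linarith [Int.lt_floor_add_one ((2 : ℝ) ^ s * x)]

theorem fract_cel (s : ℕ) (x : ℝ) : Int.fract ((2 : ℝ) ^ s * x) = (2 : ℝ) ^ s * x - cel s x := rfl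

theorem lip_of {P : ℕ} {Ψ : ℕ → ℝ → ℝ} (hΨ : PF P Ψ) {i : ℕ} (hi : i ≤ P) (v v' : ℝ) :
    |Ψ i v - Ψ i v'| ≤ |v - v'| := by
  have h := Convex.norm_image_sub_le_of_norm_hasDerivWithin_le (f := Ψ i) (f' := Ψ (i + 1))
    (s := Set.univ) (C := 1) (x := v') (y := v) (fun x _ => (hΨ.der i hi x).hasDerivWithinAt)
    (fun x _ => by rw [Real.norm_eq_abs]; exact hΨ.bd (i + 1) (by omega) x) convex_univ
    (Set.mem_univ _) (Set.mem_univ _)
  simpa [Real.norm_eq_abs] using h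

section one

variable {ζ : ℝ → ℝ} {n : ℕ} {M : ℝ} {P i0 : ℕ} {Ψ : ℕ → ℝ → ℝ} {U h : ℝ × ℝ → ℝ} {b m : ℝ}
  {act : ℕ → Set (ℝ × ℝ)} {r s : ℕ} {w : ℝ × ℝ}

/-- the kernel vanishes unless the cells are nested -/
theorem GG_cell (hζ : ZetC ζ) (Φ : ℝ → ℝ) (U : ℝ × ℝ → ℝ) (hrs : r ≤ s) {z w : ℝ × ℝ}
    (h : GG ζ Φ U r s z w ≠ 0) : cel r z.1 = cel r w.1 := by
  by_contra hne
  apply h
  unfold GG
  have : (fun u => ζ ((2 : ℝ) ^ r * u - cel r z.1) * ζ ((2 : ℝ) ^ s * u - cel s w.1) *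
      Φ (ln U w u - ln U z u)) = fun _ => 0 := by
    funext u
    by_cases h1 : ζ ((2 : ℝ) ^ r * u - cel r z.1) = 0
    · rw [h1]; ring
    by_cases h2 : ζ ((2 : ℝ) ^ s * u - cel s w.1) = 0
    · rw [h2]; ring
    exfalso
    apply hne
    have e1 := cel_of_zeta (hζ.2.1 _ h1)
    have e2 := cel_of_zeta (hζ.2.1 _ h2)
    rw [← e1]
    exact cel_mono hrs e2
  rw [this, integral_zero, mul_zero]

/-- the set of the active points over the cell of `w` -/
def XX (act : ℕ → Set (ℝ × ℝ)) (r : ℕ) (w : ℝ × ℝ) : Set (ℝ × ℝ) :=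
  {z : ℝ × ℝ | cel r z.1 = cel r w.1} ∩ act r

theorem mXX (ha : ∀ r, MeasurableSet (act r)) (r : ℕ) (w : ℝ × ℝ) : MeasurableSet (XX act r w) :=
  (measurableSet_strip r (cel r w.1)).inter (ha r)

/-- inner integral -/
def KI (ζ : ℝ → ℝ) (Ψn : ℝ → ℝ) (U : ℝ × ℝ → ℝ) (b m : ℝ) (r s : ℕ) (w z : ℝ × ℝ) : ℝ :=
  ∫ u, pp ζ ((2 : ℝ) ^ r) (cel r w.1) ((2 : ℝ) ^ s) (cel s w.1) u *
    Ψn (rv b m w - rv b m z + (U w - m) * (u - w.1) - (U z - m) * (u - z.1))

theorem ln_diff (U : ℝ × ℝ → ℝ) (b m : ℝ) (z w : ℝ × ℝ) (u : ℝ) : ln U w u - ln U z u =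
    rv b m w - rv b m z + (U w - m) * (u - w.1) - (U z - m) * (u - z.1) := by
  unfold ln rv; ring

theorem GG_on (Φ : ℝ → ℝ) {z : ℝ × ℝ} (hz : cel r z.1 = cel r w.1) :
    GG ζ Φ U r s z w =
      (2 : ℝ) ^ r * ga r z.1 * ((2 : ℝ) ^ s * ga s w.1) * KI ζ Φ U b m r s w z := by
  unfold GG KI pp
  rw [hz]
  congr 1
  refine integral_congr_ae (Filter.Eventually.of_forall fun u => ?_)
  simp only
  rw [ln_diff U b m z w u]

/-- inner integral after integration by parts -/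
def I0 (ζ : ℝ → ℝ) (Ψ0 : ℝ → ℝ) (U : ℝ × ℝ → ℝ) (b m : ℝ) (n r s : ℕ) (w z : ℝ × ℝ) : ℝ :=
  ∫ u, iteratedDeriv n (pp ζ ((2 : ℝ) ^ r) (cel r w.1) ((2 : ℝ) ^ s) (cel s w.1)) u *
    Ψ0 (rv b m w - rv b m z + (U w - m) * (u - w.1))

theorem measurable_rv (b m : ℝ) : Measurable (rv b m) := by
  unfold rv; fun_prop

theorem int_ppn (hζ : ZetC ζ) (n r s : ℕ) (w : ℝ × ℝ) :
    Integrable (iteratedDeriv n (pp ζ ((2 : ℝ) ^ r) (cel r w.1) ((2 : ℝ) ^ s) (cel s w.1))) :=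
  (cont_iter (cd_pp hζ _ _ _ _) n).integrable_of_hasCompactSupport
    (cs_iter (cs_pp hζ _ _ (by positivity) _) n)

theorem meas_KI (hζ : ZetC ζ) {Φ : ℝ → ℝ} (hΦ : Continuous Φ) (hU : Measurable U) (r s : ℕ)
    (w : ℝ × ℝ) : Measurable (KI ζ Φ U b m r s w) := by
  have h1 : Measurable (fun q : (ℝ × ℝ) × ℝ =>
      pp ζ ((2 : ℝ) ^ r) (cel r w.1) ((2 : ℝ) ^ s) (cel s w.1) q.2 *
        Φ (rv b m w - rv b m q.1 + (U w - m) * (q.2 - w.1) - (U q.1 - m) * (q.2 - q.1.1))) := by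
    refine ((cd_pp hζ _ _ _ _).continuous.measurable.comp measurable_snd).mul
      (hΦ.measurable.comp ?_)
    have h2 : Measurable (fun q : (ℝ × ℝ) × ℝ => rv b m q.1) := (measurable_rv b m).comp measurable_fst
    have h3 : Measurable (fun q : (ℝ × ℝ) × ℝ => U q.1) := hU.comp measurable_fst
    fun_prop
  exact h1.stronglyMeasurable.integral_prod_right'.measurable

theorem meas_I0 (hζ : ZetC ζ) {Φ : ℝ → ℝ} (hΦ : Continuous Φ) (n r s : ℕ)
    (w : ℝ × ℝ) : Measurable (I0 ζ Φ U b m n r s w) := by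
  have h1 : Measurable (fun q : (ℝ × ℝ) × ℝ =>
      iteratedDeriv n (pp ζ ((2 : ℝ) ^ r) (cel r w.1) ((2 : ℝ) ^ s) (cel s w.1)) q.2 *
        Φ (rv b m w - rv b m q.1 + (U w - m) * (q.2 - w.1))) := by
    refine ((cont_iter (cd_pp hζ _ _ _ _) n).measurable.comp measurable_snd).mul
      (hΦ.measurable.comp ?_)
    have h2 : Measurable (fun q : (ℝ × ℝ) × ℝ => rv b m q.1) := (measurable_rv b m).comp measurable_fst
    fun_prop
  exact h1.stronglyMeasurable.integral_prod_right'.measurable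

theorem KI_bd (hζ : ZetC ζ) {Φ : ℝ → ℝ} (hΦ1 : ∀ v, |Φ v| ≤ 1) (r s : ℕ)
    (w z : ℝ × ℝ) : |KI ζ Φ U b m r s w z| ≤
      ∫ u, |pp ζ ((2 : ℝ) ^ r) (cel r w.1) ((2 : ℝ) ^ s) (cel s w.1) u| := by
  unfold KI
  refine (abs_integral_le_integral_abs).trans ?_
  refine integral_mono_of_nonneg (Filter.Eventually.of_forall fun u => abs_nonneg _) ?_
    (Filter.Eventually.of_forall fun u => ?_)
  · have := (int_ppn hζ 0 r s w).norm
    simpa [Real.norm_eq_abs] using this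
  · simp only
    rw [abs_mul]
    have := hΦ1 (rv b m w - rv b m z + (U w - m) * (u - w.1) - (U z - m) * (u - z.1))
    have h0 := abs_nonneg (pp ζ ((2 : ℝ) ^ r) (cel r w.1) ((2 : ℝ) ^ s) (cel s w.1) u)
    nlinarith

theorem I0_bd (hζ : ZetC ζ) {Φ : ℝ → ℝ} (hΦ1 : ∀ v, |Φ v| ≤ 1) (n r s : ℕ)
    (w z : ℝ × ℝ) : |I0 ζ Φ U b m n r s w z| ≤
      ∫ u, |iteratedDeriv n (pp ζ ((2 : ℝ) ^ r) (cel r w.1) ((2 : ℝ) ^ s) (cel s w.1)) u| := by
  unfold I0
  refine (abs_integral_le_integral_abs).trans ?_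
  refine integral_mono_of_nonneg (Filter.Eventually.of_forall fun u => abs_nonneg _) ?_
    (Filter.Eventually.of_forall fun u => ?_)
  · have := (int_ppn hζ n r s w).norm
    simpa [Real.norm_eq_abs] using this
  · simp only
    rw [abs_mul]
    have := hΦ1 (rv b m w - rv b m z + (U w - m) * (u - w.1))
    have h0 := abs_nonneg
      (iteratedDeriv n (pp ζ ((2 : ℝ) ^ r) (cel r w.1) ((2 : ℝ) ^ s) (cel s w.1)) u)
    nlinarith

theorem PS_on (hζ : ZetC ζ) (Φ : ℝ → ℝ) (ha : ∀ r, MeasurableSet (act r)) (hrs : r ≤ s) :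
    ∫ z in act r, h z * GG ζ Φ U r s z w =
      (2 : ℝ) ^ s * ga s w.1 *
        ∫ z in XX act r w, ((2 : ℝ) ^ r * ga r z.1 * h z) * KI ζ Φ U b m r s w z := by
  have h1 : ∫ z in act r, h z * GG ζ Φ U r s z w = ∫ z in XX act r w, h z * GG ζ Φ U r s z w := by
    refine (setIntegral_eq_of_subset_of_forall_sdiff_eq_zero (ha r) Set.inter_subset_right ?_)
    intro z hz
    by_contra h0
    have h2 := GG_cell hζ Φ U hrs (right_ne_zero_of_mul h0)
    exact hz.2 ⟨h2, hz.1⟩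
  rw [h1, ← integral_const_mul]
  refine setIntegral_congr_fun (mXX ha r w) fun z hz => ?_
  rw [GG_on (b := b) (m := m) Φ hz.1]
  ring

/-- the main term: Fubini -/
theorem fub (hζ : ZetC ζ) {Φ : ℝ → ℝ} (hΦ : Continuous Φ) (hΦ1 : ∀ v, |Φ v| ≤ 1)
    (hh : Nice h) (_ha : ∀ r, MeasurableSet (act r)) (n r s : ℕ) (w : ℝ × ℝ) :
    ∫ z in XX act r w, ((2 : ℝ) ^ r * ga r z.1 * h z) * I0 ζ Φ U b m n r s w z =
      ∫ u, iteratedDeriv n (pp ζ ((2 : ℝ) ^ r) (cel r w.1) ((2 : ℝ) ^ s) (cel s w.1)) u *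
        aL Φ b m h act r (rv b m w + (U w - m) * (u - w.1)) w.1 := by
  set q : ℝ → ℝ := iteratedDeriv n (pp ζ ((2 : ℝ) ^ r) (cel r w.1) ((2 : ℝ) ^ s) (cel s w.1)) with hq
  have hqi : Integrable q := int_ppn hζ n r s w
  have hqm : Measurable q := (cont_iter (cd_pp hζ _ _ _ _) n).measurable
  have e1 : ∫ z in XX act r w, ((2 : ℝ) ^ r * ga r z.1 * h z) * I0 ζ Φ U b m n r s w z =
      ∫ z in XX act r w, ∫ u, ((2 : ℝ) ^ r * ga r z.1 * h z) *
        (q u * Φ (rv b m w - rv b m z + (U w - m) * (u - w.1))) := by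
    refine integral_congr_ae (Filter.Eventually.of_forall fun z => ?_)
    simp only
    rw [integral_const_mul]
    rfl
  rw [e1, integral_integral_swap]
  · refine integral_congr_ae (Filter.Eventually.of_forall fun u => ?_)
    simp only
    unfold aL al
    rw [← integral_const_mul, ← integral_const_mul]
    refine integral_congr_ae (Filter.Eventually.of_forall fun z => ?_)
    simp only
    have : rv b m w + (U w - m) * (u - w.1) - rv b m z =
        rv b m w - rv b m z + (U w - m) * (u - w.1) := by ring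
    rw [this]
    ring
  · have hG : Integrable (fun z : ℝ × ℝ => (2 : ℝ) ^ r * ga r z.1 * h z)
        (volume.restrict (XX act r w)) := by
      apply Integrable.restrict
      refine int_dom hh (C := 2 ^ r) ?_ ?_
      · exact (measurable_const.mul ((measurable_ga r).comp measurable_fst)).mul hh.1
      · intro z
        rw [abs_mul, abs_mul, abs_ga, abs_of_pos (by positivity : (0 : ℝ) < 2 ^ r), mul_one]
    have hprod := hG.mul_prod hqi
    refine hprod.norm.mono' ?_ (Filter.Eventually.of_forall fun p => ?_)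
    · apply Measurable.aestronglyMeasurable
      have m1 : Measurable (fun p : (ℝ × ℝ) × ℝ => (2 : ℝ) ^ r * ga r p.1.1 * h p.1) :=
        (measurable_const.mul ((measurable_ga r).comp (measurable_fst.comp measurable_fst))).mul
          (hh.1.comp measurable_fst)
      have m2 : Measurable (fun p : (ℝ × ℝ) × ℝ => q p.2) := hqm.comp measurable_snd
      have m3 : Measurable (fun p : (ℝ × ℝ) × ℝ =>
          Φ (rv b m w - rv b m p.1 + (U w - m) * (p.2 - w.1))) := by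
        refine hΦ.measurable.comp ?_
        have h2 : Measurable (fun q : (ℝ × ℝ) × ℝ => rv b m q.1) :=
          (measurable_rv b m).comp measurable_fst
        fun_prop
      exact m1.mul (m2.mul m3)
    · simp only [Function.uncurry, norm_mul, Real.norm_eq_abs]
      have h3 := hΦ1 (rv b m w - rv b m p.1 + (U w - m) * (p.2 - w.1))
      have h4 : 0 ≤ |(2 : ℝ) ^ r| * |ga r p.1.1| * |h p.1| := by positivity
      calc |(2 : ℝ) ^ r| * |ga r p.1.1| * |h p.1| *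
            (|q p.2| * |Φ (rv b m w - rv b m p.1 + (U w - m) * (p.2 - w.1))|)
          ≤ |(2 : ℝ) ^ r| * |ga r p.1.1| * |h p.1| * (|q p.2| * 1) := by gcongr
        _ = _ := by ring

/-- one long scale -/
theorem one (hζ : ZetC ζ) (hM : 1 ≤ M) (hM' : ∀ i ≤ n, ∀ t, |iteratedDeriv i ζ t| ≤ M)
    (hΨ : PF P Ψ) (hP : i0 + n ≤ P) (hU : Measurable U) (hh : Nice h)
    (ha : ∀ r, MeasurableSet (act r))
    (hs : ∀ r, ∀ z ∈ act r, h z ≠ 0 → |U z - m| * (1 / 2 : ℝ) ^ r ≤ 1)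
    (hrs : r ≤ s) (hκ : 2 ≤ |U w - m| * (1 / 2 : ℝ) ^ s) :
    |(U w - m) ^ n * (∫ z in act r, h z * GG ζ (Ψ (i0 + n)) U r s z w) -
      (2 : ℝ) ^ s * ga s w.1 * ((-1) ^ n *
        ∫ u, iteratedDeriv n (pp ζ ((2 : ℝ) ^ r) (cel r w.1) ((2 : ℝ) ^ s) (cel s w.1)) u *
          aL (Ψ i0) b m h act r (rv b m w + (U w - m) * (u - w.1)) w.1)| ≤
      8 ^ n * M ^ 2 * ((2 : ℝ) ^ s) ^ n * eL U m h act r w.1 := by
  have h2r : (0 : ℝ) < 2 ^ r := by positivity
  have h2s : (0 : ℝ) < 2 ^ s := by positivity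
  have hrs' : (2 : ℝ) ^ r ≤ 2 ^ s := pow_le_pow_right₀ (by norm_num) hrs
  set κ : ℝ := U w - m with hκd
  have hκ2 : 2 * (2 : ℝ) ^ s ≤ |κ| := by
    have h3 : |κ| * (1 / 2 : ℝ) ^ s = |κ| / 2 ^ s := by rw [one_div, inv_pow]; rfl
    rw [h3, le_div_iff₀ h2s] at hκ
    exact hκ
  rw [PS_on (b := b) (m := m) hζ _ ha hrs,
    ← fub (b := b) (m := m) (U := U) hζ (hΨ.cont i0 (by omega)) (hΨ.bd i0 (by omega)) hh ha n r s w]
  have bdΨn : ∀ v, |Ψ (i0 + n) v| ≤ 1 := hΨ.bd (i0 + n) (by omega)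
  have bdΨ0 : ∀ v, |Ψ i0 v| ≤ 1 := hΨ.bd i0 (by omega)
  have cΨn : Continuous (Ψ (i0 + n)) := hΨ.cont (i0 + n) (by omega)
  have cΨ0 : Continuous (Ψ i0) := hΨ.cont i0 (by omega)
  have mg : Measurable (fun z : ℝ × ℝ => (2 : ℝ) ^ r * ga r z.1 * h z) :=
    (measurable_const.mul ((measurable_ga r).comp measurable_fst)).mul hh.1
  have absg : ∀ z : ℝ × ℝ, |(2 : ℝ) ^ r * ga r z.1 * h z| = 2 ^ r * |h z| := by
    intro z
    rw [abs_mul, abs_mul, abs_ga, abs_of_pos h2r, mul_one]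
  have iK : Integrable (fun z => ((2 : ℝ) ^ r * ga r z.1 * h z) * KI ζ (Ψ (i0 + n)) U b m r s w z)
      (volume.restrict (XX act r w)) := by
    apply Integrable.restrict
    refine int_dom hh (C := 2 ^ r * ∫ u, |pp ζ ((2 : ℝ) ^ r) (cel r w.1) ((2 : ℝ) ^ s) (cel s w.1) u|)
      (mg.mul (meas_KI hζ cΨn hU r s w)) fun z => ?_
    rw [abs_mul, absg]
    have := KI_bd (U := U) (b := b) (m := m) hζ bdΨn r s w z
    calc 2 ^ r * |h z| * |KI ζ (Ψ (i0 + n)) U b m r s w z|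
        ≤ 2 ^ r * |h z| * ∫ u, |pp ζ ((2 : ℝ) ^ r) (cel r w.1) ((2 : ℝ) ^ s) (cel s w.1) u| := by
          gcongr
      _ = _ := by ring
  have iI : Integrable (fun z => ((2 : ℝ) ^ r * ga r z.1 * h z) * I0 ζ (Ψ i0) U b m n r s w z)
      (volume.restrict (XX act r w)) := by
    apply Integrable.restrict
    refine int_dom hh (C := 2 ^ r * ∫ u, |iteratedDeriv n
        (pp ζ ((2 : ℝ) ^ r) (cel r w.1) ((2 : ℝ) ^ s) (cel s w.1)) u|)
      (mg.mul (meas_I0 hζ cΨ0 n r s w)) fun z => ?_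
    rw [abs_mul, absg]
    have := I0_bd (U := U) (b := b) (m := m) hζ bdΨ0 n r s w z
    calc 2 ^ r * |h z| * |I0 ζ (Ψ i0) U b m n r s w z|
        ≤ 2 ^ r * |h z| * ∫ u, |iteratedDeriv n
          (pp ζ ((2 : ℝ) ^ r) (cel r w.1) ((2 : ℝ) ^ s) (cel s w.1)) u| := by
          gcongr
      _ = _ := by ring
  have e1 : κ ^ n * ((2 : ℝ) ^ s * ga s w.1 * ∫ z in XX act r w, ((2 : ℝ) ^ r * ga r z.1 * h z) *
        KI ζ (Ψ (i0 + n)) U b m r s w z) -
      (2 : ℝ) ^ s * ga s w.1 * ((-1) ^ n * ∫ z in XX act r w, ((2 : ℝ) ^ r * ga r z.1 * h z) *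
        I0 ζ (Ψ i0) U b m n r s w z) =
      ((2 : ℝ) ^ s * ga s w.1) * ∫ z in XX act r w, ((2 : ℝ) ^ r * ga r z.1 * h z) *
        (κ ^ n * KI ζ (Ψ (i0 + n)) U b m r s w z - (-1) ^ n * I0 ζ (Ψ i0) U b m n r s w z) := by
    have e2 : ∫ z in XX act r w, ((2 : ℝ) ^ r * ga r z.1 * h z) *
        (κ ^ n * KI ζ (Ψ (i0 + n)) U b m r s w z - (-1) ^ n * I0 ζ (Ψ i0) U b m n r s w z) =
        κ ^ n * (∫ z in XX act r w, ((2 : ℝ) ^ r * ga r z.1 * h z) *
          KI ζ (Ψ (i0 + n)) U b m r s w z) -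
        (-1) ^ n * ∫ z in XX act r w, ((2 : ℝ) ^ r * ga r z.1 * h z) *
          I0 ζ (Ψ i0) U b m n r s w z := by
      rw [← integral_const_mul, ← integral_const_mul, ← integral_sub (iK.const_mul _)
        (iI.const_mul _)]
      refine integral_congr_ae (Filter.Eventually.of_forall fun z => ?_)
      simp only
      ring
    rw [e2]; ring
  rw [e1, abs_mul, abs_mul, abs_ga, mul_one, abs_of_pos h2s]
  -- the pointwise comparison
  have key : ∀ z ∈ XX act r w, |((2 : ℝ) ^ r * ga r z.1 * h z) *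
      (κ ^ n * KI ζ (Ψ (i0 + n)) U b m r s w z - (-1) ^ n * I0 ζ (Ψ i0) U b m n r s w z)| ≤
      (8 ^ n * M ^ 2 * ((2 : ℝ) ^ s) ^ n * ((2 : ℝ) ^ s)⁻¹ * 2 ^ r) * (|h z| * wU U m r z) := by
    intro z hz
    by_cases hz0 : h z = 0
    · rw [hz0]; simp
    have hd := hs r z hz.2 hz0
    have hd' : |U z - m| ≤ 2 ^ r := by
      have h3 : |U z - m| * (1 / 2 : ℝ) ^ r = |U z - m| / 2 ^ r := by rw [one_div, inv_pow]; rfl
      rw [h3, div_le_one h2r] at hd
      exact hd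
    have hx : ∀ u, 1 / 8 ≤ (2 : ℝ) ^ r * u - (cel r w.1 : ℝ) →
        (2 : ℝ) ^ r * u - (cel r w.1 : ℝ) ≤ 7 / 8 → |u - z.1| ≤ ((2 : ℝ) ^ r)⁻¹ := by
      intro u hu1 hu2
      have h4 := cel_bds r z.1
      have hzc : cel r z.1 = cel r w.1 := hz.1
      rw [hzc] at h4
      have h5 : |(2 : ℝ) ^ r * (u - z.1)| ≤ 1 := by
        rw [abs_le]; constructor <;> nlinarith [h4.1, h4.2]
      rw [abs_mul, abs_of_pos h2r] at h5
      rw [inv_eq_one_div, le_div_iff₀ h2r]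
      linarith
    have hc := cmp (n := n) hζ hM hM' (fun i => Ψ (i0 + i))
      (fun i hi v => hΨ.der (i0 + i) (by omega) v)
      (fun i hi => hΨ.cont (i0 + i) (by omega)) (by simpa using bdΨ0)
      (by simpa using fun v v' => lip_of hΨ (i := i0) (by omega) v v') h2r hrs'
      (cel r w.1 : ℝ) (cel s w.1 : ℝ) (rv b m w - rv b m z) κ (U z - m) z.1 w.1 hκ2 hd' hx
    rw [abs_mul, absg]
    have hc' : |κ ^ n * KI ζ (Ψ (i0 + n)) U b m r s w z - (-1) ^ n * I0 ζ (Ψ i0) U b m n r s w z| ≤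
        8 ^ n * M ^ 2 * ((2 : ℝ) ^ s) ^ n * ((2 : ℝ) ^ s)⁻¹ * (|U z - m| * ((2 : ℝ) ^ r)⁻¹) := by
      simpa [KI, I0] using hc
    calc 2 ^ r * |h z| *
          |κ ^ n * KI ζ (Ψ (i0 + n)) U b m r s w z - (-1) ^ n * I0 ζ (Ψ i0) U b m n r s w z|
        ≤ 2 ^ r * |h z| *
          (8 ^ n * M ^ 2 * ((2 : ℝ) ^ s) ^ n * ((2 : ℝ) ^ s)⁻¹ * (|U z - m| * ((2 : ℝ) ^ r)⁻¹)) := by
          gcongr
      _ = _ := by
          unfold wU
          rw [one_div, inv_pow]; ring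
  have iW : Integrable (fun z => |h z| * wU U m r z) (volume.restrict (XX act r w)) := by
    have mW : Measurable (fun z => |h z| * wU U m r z) := by
      unfold wU
      exact (measurable_norm.comp hh.1).mul
        ((measurable_norm.comp (hU.sub_const m)).mul_const _)
    refine Integrable.mono' (g := fun z => |h z|) (nice_integrable hh).norm.restrict
      mW.aestronglyMeasurable ?_
    rw [ae_restrict_iff' (mXX ha r w)]
    refine Filter.Eventually.of_forall fun z hz => ?_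
    rw [Real.norm_eq_abs, abs_mul, abs_abs]
    by_cases hz0 : h z = 0
    · rw [hz0]; simp
    have hd := hs r z hz.2 hz0
    have : |wU U m r z| ≤ 1 := by
      rw [abs_of_nonneg (by unfold wU; positivity)]; exact hd
    nlinarith [abs_nonneg (h z)]
  calc (2 : ℝ) ^ s * |∫ z in XX act r w, ((2 : ℝ) ^ r * ga r z.1 * h z) *
        (κ ^ n * KI ζ (Ψ (i0 + n)) U b m r s w z - (-1) ^ n * I0 ζ (Ψ i0) U b m n r s w z)|
      ≤ (2 : ℝ) ^ s * ∫ z in XX act r w,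
          (8 ^ n * M ^ 2 * ((2 : ℝ) ^ s) ^ n * ((2 : ℝ) ^ s)⁻¹ * 2 ^ r) * (|h z| * wU U m r z) := by
        refine mul_le_mul_of_nonneg_left ?_ h2s.le
        refine abs_integral_le_integral_abs.trans ?_
        refine integral_mono_of_nonneg (Filter.Eventually.of_forall fun z => abs_nonneg _)
          (iW.const_mul _) ?_
        rw [Filter.EventuallyLE, ae_restrict_iff' (mXX ha r w)]
        exact Filter.Eventually.of_forall key
    _ = 8 ^ n * M ^ 2 * ((2 : ℝ) ^ s) ^ n * eL U m h act r w.1 := by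
        rw [integral_const_mul]
        unfold eL pL XX
        field_simp

theorem geo_sum {q : ℝ} (hq : 2 ≤ q) (s : ℕ) : ∑ r ∈ Finset.range (s + 1), q ^ r ≤ 2 * q ^ s := by
  induction s with
  | zero => simp
  | succ s ih =>
    rw [Finset.sum_range_succ, pow_succ]
    have : 0 ≤ q ^ s := by positivity
    nlinarith

theorem meas_aL {Φ : ℝ → ℝ} (hΦ : Continuous Φ) (hh : Nice h) (r : ℕ) (x : ℝ) :
    Measurable (fun v => aL Φ b m h act r v x) := by
  have h1 : Measurable (fun q : ℝ × (ℝ × ℝ) => ga r q.2.1 * (h q.2 * Φ (q.1 - rv b m q.2))) := by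
    have h2 : Measurable (fun q : ℝ × (ℝ × ℝ) => rv b m q.2) := (measurable_rv b m).comp measurable_snd
    exact ((measurable_ga r).comp (measurable_fst.comp measurable_snd)).mul
      ((hh.1.comp measurable_snd).mul (hΦ.measurable.comp (measurable_fst.sub h2)))
  unfold aL al
  exact (h1.stronglyMeasurable.integral_prod_right'
    (ν := volume.restrict ({z : ℝ × ℝ | cel r z.1 = cel r x} ∩ act r))).measurable.const_mul _

end one

/-- **PAIR-LOW-SHALLOW** -/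
theorem shallow {ζ : ℝ → ℝ} (hζ : ZetC ζ) (n : ℕ) : ∃ C : ℝ, 0 ≤ C ∧
    ∀ (P : ℕ) (Ψ : ℕ → ℝ → ℝ) (i0 : ℕ), PF P Ψ → i0 + n ≤ P →
    ∀ (U h : ℝ × ℝ → ℝ) (b m : ℝ) (act : ℕ → Set (ℝ × ℝ)) (s : ℕ) (w : ℝ × ℝ) (T : ℝ),
      Measurable U → Nice h → (∀ r, MeasurableSet (act r)) →
      (∀ r, ∀ z ∈ act r, h z ≠ 0 → |U z - m| * (1 / 2 : ℝ) ^ r ≤ 1) →
      (∀ v x, |FL ζ (Ψ i0) b m h act (s + 1) v x| ≤ T) →
      (∀ r ≤ s, ∀ v x, |aL (Ψ i0) b m h act r v x| ≤ T) →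
      (∀ x, ∑ r ∈ Finset.range (s + 1), eL U m h act r x ≤ T) →
      2 ≤ |U w - m| * (1 / 2 : ℝ) ^ s →
      |PS ζ (Ψ (i0 + n)) U h act s w| ≤ C * T / (|U w - m| * (1 / 2 : ℝ) ^ s) ^ n := by
  obtain ⟨M, hM, hM'⟩ := zbd hζ n
  refine ⟨(2 * 2 ^ n + 8 ^ n) * M ^ 2, by positivity, ?_⟩
  intro P Ψ i0 hΨ hP U h b m act s w T hU hh ha hs hFL haL heL hκ
  have hM0 : 0 ≤ M := by linarith
  have h2s : (0 : ℝ) < 2 ^ s := by positivity
  have hT : 0 ≤ T := (abs_nonneg _).trans (haL 0 (Nat.zero_le _) 0 0)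
  set κ : ℝ := U w - m with hκd
  have hκ' : |κ| * (1 / 2 : ℝ) ^ s = |κ| / 2 ^ s := by rw [one_div, inv_pow]; rfl
  have hκp : 0 < |κ| := by
    rw [hκ', le_div_iff₀ h2s] at hκ
    linarith [mul_pos (two_pos : (0 : ℝ) < 2) h2s]
  set A : ℕ → ℝ := fun r => ∫ z in act r, h z * GG ζ (Ψ (i0 + n)) U r s z w with hA
  set q : ℕ → ℝ → ℝ := fun r =>
    iteratedDeriv n (pp ζ ((2 : ℝ) ^ r) (cel r w.1) ((2 : ℝ) ^ s) (cel s w.1)) with hq
  set al' : ℕ → ℝ → ℝ := fun r u => aL (Ψ i0) b m h act r (rv b m w + κ * (u - w.1)) w.1 with hal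
  have hqi : ∀ r, Integrable (q r) := fun r => int_ppn hζ n r s w
  have hone : ∀ r ∈ Finset.range (s + 1), |κ ^ n * A r -
      (2 : ℝ) ^ s * ga s w.1 * ((-1) ^ n * ∫ u, q r u * al' r u)| ≤
      8 ^ n * M ^ 2 * ((2 : ℝ) ^ s) ^ n * eL U m h act r w.1 := fun r hr =>
    one hζ hM hM' hΨ hP hU hh ha hs (Nat.le_of_lt_succ (Finset.mem_range.1 hr)) hκ
  have mal : ∀ r, Measurable (al' r) := by
    intro r
    have h1 := meas_aL (b := b) (m := m) (act := act) (hΨ.cont i0 (by omega)) hh r w.1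
    exact h1.comp (by fun_prop)
  have iqa : ∀ r ∈ Finset.range (s + 1), Integrable (fun u => q r u * al' r u) := by
    intro r hr
    refine ((hqi r).norm.const_mul T).mono' ((hqi r).aestronglyMeasurable.mul
      (mal r).aestronglyMeasurable) (Filter.Eventually.of_forall fun u => ?_)
    rw [norm_mul, Real.norm_eq_abs, Real.norm_eq_abs, mul_comm]
    have := haL r (Nat.le_of_lt_succ (Finset.mem_range.1 hr)) (rv b m w + κ * (u - w.1)) w.1
    gcongr
  -- the main sum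
  set G : ℝ → ℝ := fun u => ∑ r ∈ Finset.range (s + 1), q r u * al' r u with hG
  have hGint : ∫ u, G u = ∑ r ∈ Finset.range (s + 1), ∫ u, q r u * al' r u :=
    integral_finsetSum _ iqa
  have hGne : ∀ u, G u ≠ 0 → 1 / 8 ≤ (2 : ℝ) ^ s * u - (cel s w.1 : ℝ) ∧
      (2 : ℝ) ^ s * u - (cel s w.1 : ℝ) ≤ 7 / 8 := by
    intro u hu
    obtain ⟨r, _, hr⟩ := Finset.exists_ne_zero_of_sum_ne_zero hu
    exact (pder_ne hζ n _ _ _ _ u (left_ne_zero_of_mul hr)).2
  have hGbd : ∀ u, |G u| ≤ 2 * 2 ^ n * M ^ 2 * ((2 : ℝ) ^ s) ^ n * T := by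
    intro u
    by_cases hu : G u = 0
    · rw [hu, abs_zero]; positivity
    have hcu : cel s u = cel s w.1 := cel_of_zeta (hGne u hu)
    -- inner sums
    set B : ℕ → ℝ := fun l => ∑ r ∈ Finset.range (s + 1),
      (((2 : ℝ) ^ r) ^ l * iteratedDeriv l ζ ((2 : ℝ) ^ r * u - cel r w.1)) * al' r u with hB
    have hGB : G u = ∑ l ∈ Finset.range (n + 1), (n.choose l : ℝ) *
        (((2 : ℝ) ^ s) ^ (n - l) * iteratedDeriv (n - l) ζ ((2 : ℝ) ^ s * u - cel s w.1)) * B l := by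
      simp only [hG, hB, hq]
      simp_rw [pder_eq hζ, Finset.sum_mul, Finset.mul_sum]
      rw [Finset.sum_comm]
      refine Finset.sum_congr rfl fun l _ => Finset.sum_congr rfl fun r _ => ?_
      ring
    have hBl : ∀ l ≤ n, |B l| ≤ 2 * M * ((2 : ℝ) ^ s) ^ l * T := by
      intro l hl
      rcases Nat.eq_zero_or_pos l with h0 | h0
      · subst h0
        have e1 : B 0 = FL ζ (Ψ i0) b m h act (s + 1) (rv b m w + κ * (u - w.1)) u := by
          simp only [hB, FL, pow_zero, one_mul, iteratedDeriv_zero, hal]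
          refine Finset.sum_congr rfl fun r hr => ?_
          have hr' : r ≤ s := Nat.le_of_lt_succ (Finset.mem_range.1 hr)
          have hcr : cel r u = cel r w.1 := cel_mono hr' hcu
          rw [fract_cel, hcr]
          unfold aL
          rw [hcr]
        rw [e1]
        refine (hFL _ _).trans ?_
        rw [pow_zero, mul_one]
        nlinarith
      · simp only [hB]
        refine (Finset.abs_sum_le_sum_abs _ _).trans ?_
        have h3 : ∀ r ∈ Finset.range (s + 1),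
            |(((2 : ℝ) ^ r) ^ l * iteratedDeriv l ζ ((2 : ℝ) ^ r * u - cel r w.1)) * al' r u| ≤
            ((2 : ℝ) ^ l) ^ r * (M * T) := by
          intro r hr
          rw [abs_mul, abs_mul, abs_of_pos (by positivity : (0 : ℝ) < ((2 : ℝ) ^ r) ^ l)]
          have h4 := hM' l hl ((2 : ℝ) ^ r * u - cel r w.1)
          have h5 := haL r (Nat.le_of_lt_succ (Finset.mem_range.1 hr)) (rv b m w + κ * (u - w.1)) w.1
          have h6 : ((2 : ℝ) ^ r) ^ l = ((2 : ℝ) ^ l) ^ r := by rw [← pow_mul, ← pow_mul, mul_comm]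
          rw [h6, mul_assoc]
          have h7 : |iteratedDeriv l ζ ((2 : ℝ) ^ r * u - cel r w.1)| * |al' r u| ≤ M * T := by
            gcongr
          gcongr
        refine (Finset.sum_le_sum h3).trans ?_
        rw [← Finset.sum_mul]
        have h8 : (2 : ℝ) ≤ 2 ^ l := by
          calc (2 : ℝ) = 2 ^ 1 := by norm_num
            _ ≤ 2 ^ l := pow_le_pow_right₀ (by norm_num) h0
        have h9 := geo_sum h8 s
        have h10 : ((2 : ℝ) ^ l) ^ s = ((2 : ℝ) ^ s) ^ l := by rw [← pow_mul, ← pow_mul, mul_comm]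
        rw [h10] at h9
        calc (∑ r ∈ Finset.range (s + 1), ((2 : ℝ) ^ l) ^ r) * (M * T)
            ≤ (2 * ((2 : ℝ) ^ s) ^ l) * (M * T) := by gcongr
          _ = _ := by ring
    rw [hGB]
    calc |∑ l ∈ Finset.range (n + 1), (n.choose l : ℝ) *
        (((2 : ℝ) ^ s) ^ (n - l) * iteratedDeriv (n - l) ζ ((2 : ℝ) ^ s * u - cel s w.1)) * B l|
        ≤ ∑ l ∈ Finset.range (n + 1), |(n.choose l : ℝ) *
        (((2 : ℝ) ^ s) ^ (n - l) * iteratedDeriv (n - l) ζ ((2 : ℝ) ^ s * u - cel s w.1)) * B l| :=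
          Finset.abs_sum_le_sum_abs _ _
      _ ≤ ∑ l ∈ Finset.range (n + 1), (n.choose l : ℝ) *
          (2 * M ^ 2 * ((2 : ℝ) ^ s) ^ n * T) := by
          refine Finset.sum_le_sum fun l hl => ?_
          have hln : l ≤ n := Nat.le_of_lt_succ (Finset.mem_range.1 hl)
          rw [abs_mul, abs_mul, abs_mul, abs_of_nonneg (by positivity : (0 : ℝ) ≤ n.choose l),
            abs_of_pos (by positivity : (0 : ℝ) < ((2 : ℝ) ^ s) ^ (n - l))]
          have h1 := hM' (n - l) (Nat.sub_le _ _) ((2 : ℝ) ^ s * u - cel s w.1)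
          have h2 := hBl l hln
          calc (n.choose l : ℝ) * (((2 : ℝ) ^ s) ^ (n - l) *
                |iteratedDeriv (n - l) ζ ((2 : ℝ) ^ s * u - cel s w.1)|) * |B l|
              ≤ (n.choose l : ℝ) * (((2 : ℝ) ^ s) ^ (n - l) * M) *
                (2 * M * ((2 : ℝ) ^ s) ^ l * T) := by gcongr
            _ = (n.choose l : ℝ) * (2 * M ^ 2 * (((2 : ℝ) ^ s) ^ (n - l) * ((2 : ℝ) ^ s) ^ l) * T) := by
                ring
            _ = _ := by rw [← pow_add, Nat.sub_add_cancel hln]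
      _ = _ := by
          rw [← Finset.sum_mul]
          have : (∑ l ∈ Finset.range (n + 1), (n.choose l : ℝ)) = 2 ^ n := by
            exact_mod_cast Nat.sum_range_choose n
          rw [this]; ring
  have hGI : |∫ u, G u| ≤ 2 * 2 ^ n * M ^ 2 * ((2 : ℝ) ^ s) ^ n * T * ((2 : ℝ) ^ s)⁻¹ :=
    int_cell_le (j := (cel s w.1 : ℝ)) h2s (by positivity) hGne hGbd
  -- put together
  have hsum : |κ ^ n * PS ζ (Ψ (i0 + n)) U h act s w -
      (2 : ℝ) ^ s * ga s w.1 * ((-1) ^ n * ∫ u, G u)| ≤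
      8 ^ n * M ^ 2 * ((2 : ℝ) ^ s) ^ n * T := by
    have e1 : κ ^ n * PS ζ (Ψ (i0 + n)) U h act s w -
        (2 : ℝ) ^ s * ga s w.1 * ((-1) ^ n * ∫ u, G u) =
        ∑ r ∈ Finset.range (s + 1), (κ ^ n * A r -
          (2 : ℝ) ^ s * ga s w.1 * ((-1) ^ n * ∫ u, q r u * al' r u)) := by
      rw [hGint, Finset.sum_sub_distrib, ← Finset.mul_sum, ← Finset.mul_sum, ← Finset.mul_sum]
      rfl
    rw [e1]
    refine (Finset.abs_sum_le_sum_abs _ _).trans ((Finset.sum_le_sum hone).trans ?_)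
    rw [← Finset.mul_sum]
    have := heL w.1
    gcongr
  have hfin : |κ| ^ n * |PS ζ (Ψ (i0 + n)) U h act s w| ≤
      (2 * 2 ^ n + 8 ^ n) * M ^ 2 * ((2 : ℝ) ^ s) ^ n * T := by
    rw [← abs_pow, ← abs_mul]
    have e2 : κ ^ n * PS ζ (Ψ (i0 + n)) U h act s w =
        (κ ^ n * PS ζ (Ψ (i0 + n)) U h act s w -
          (2 : ℝ) ^ s * ga s w.1 * ((-1) ^ n * ∫ u, G u)) +
        (2 : ℝ) ^ s * ga s w.1 * ((-1) ^ n * ∫ u, G u) := by ring
    rw [e2]
    refine (abs_add_le _ _).trans ?_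
    have e3 : |(2 : ℝ) ^ s * ga s w.1 * ((-1) ^ n * ∫ u, G u)| = 2 ^ s * |∫ u, G u| := by
      rw [abs_mul, abs_mul, abs_mul, abs_ga, abs_of_pos h2s, abs_pow, abs_neg, abs_one, one_pow]
      ring
    rw [e3]
    calc |κ ^ n * PS ζ (Ψ (i0 + n)) U h act s w -
          (2 : ℝ) ^ s * ga s w.1 * ((-1) ^ n * ∫ u, G u)| + 2 ^ s * |∫ u, G u|
        ≤ 8 ^ n * M ^ 2 * ((2 : ℝ) ^ s) ^ n * T +
          2 ^ s * (2 * 2 ^ n * M ^ 2 * ((2 : ℝ) ^ s) ^ n * T * ((2 : ℝ) ^ s)⁻¹) := by gcongr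
      _ = _ := by field_simp; ring
  rw [hκ', div_pow, div_div_eq_mul_div, le_div_iff₀ (by positivity)]
  calc |PS ζ (Ψ (i0 + n)) U h act s w| * |κ| ^ n
      = |κ| ^ n * |PS ζ (Ψ (i0 + n)) U h act s w| := mul_comm _ _
    _ ≤ _ := hfin
    _ = _ := by ring

end Crest.Agent.R087.Shalx115
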