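import Crest.Agent.R087.PairDeep_975
import Crest.Agent.R087.Shal_115
import Crest.Agent.R087.PLdef_575

/-!
Row 87 (S0115), operator part: **PAIR-LOW** (helper575), from 975's deep bound and 115's shallow bound.

`pldeep`, `plshallow`, `plow`, `plowp` : the Props of `PLdef_575`.
-/

set_option autoImplicit false

noncomputable section

open MeasureTheory Crest.Agent.R087.Sh0x283 Crest.Agent.R087.GateDefx273 Crest.Agent.R087.T1x90
open Crest.Agent.R087.TreeIfx153 Crest.Agent.R087.PLdefx575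

namespace Crest.Agent.R087.PLowx575

theorem pf_of {L : ℕ} {X : ℝ → ℝ} (hX : Prf L X) : PF (L + 1) (fun i => iteratedDeriv i X) where
  der i _ v := by
    have h1 : Differentiable ℝ (iteratedDeriv i X) :=
      (Pair1x339.smooth_iter hX.sm i).differentiable (by simp)
    have h2 := (h1 v).hasDerivAt
    show HasDerivAt (iteratedDeriv i X) (iteratedDeriv (i + 1) X v) v
    rw [iteratedDeriv_succ]
    exact h2
  cont i _ := (Pair1x339.smooth_iter hX.sm i).continuous
  supp i _ v hv := Pair1x339.zero_iter hX.supp i v hv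
  bd i hi v := hX.bd i (by omega) v

theorem GG_pp (ζ Φ : ℝ → ℝ) (U : ℝ × ℝ → ℝ) (r s : ℕ) (z w : ℝ × ℝ) :
    PairDeepx975.GG ζ Φ U r s z w = Pair1x339.pp Φ ζ U s r w z := by
  unfold PairDeepx975.GG Pair1x339.pp
  rw [mul_comm ((2 : ℝ) ^ r * ga r z.1)]
  rfl

theorem PS_eq (Φ ζ : ℝ → ℝ) (U h : ℝ × ℝ → ℝ) (act : ℕ → Set (ℝ × ℝ)) (t : ℕ) (w : ℝ × ℝ) :
    PLdefx575.PS Φ ζ U h act t w = PairDeepx975.PS ζ Φ U h act t w := by
  unfold PLdefx575.PS PairDeepx975.PS
  refine Finset.sum_congr rfl fun s _ => ?_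
  congr 1
  ext z
  rw [GG_pp]

theorem pldeep {ζ : ℝ → ℝ} (hζ : ZetC ζ) : PLdeep ζ := by
  intro L
  obtain ⟨C, hC, H⟩ := PairDeepx975.deep' hζ (K₀ := 20) (by norm_num)
  refine ⟨C, hC, ?_⟩
  intro X hX S s0 m0 U h act b m T hK w p q hq hk
  rcases le_or_gt p q with hpq | hpq
  · have key := H (L + 1) (fun i => iteratedDeriv i X) (pf_of hX) L le_rfl S U b m h act T hK.mU
      ⟨1, fun s z hz hz0 => (hK.loc s z hz hz0).2.2.2⟩ hK.nice hK.mact (fun s hs v x => hK.k1 (L + 1) le_rfl s hs v x) hK.k3 hK.k4 w p q hpq hq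
      (fun s hs => hk s (Finset.mem_Ico.1 hs).1 (Finset.mem_Ico.1 hs).2)
    simp only [PS_eq]
    exact key
  · rw [Finset.Ico_eq_empty (by omega), Finset.sum_empty, abs_zero]
    exact mul_nonneg hC hK.T0

theorem plshallow {ζ : ℝ → ℝ} (hζ : ZetC ζ) : PLshallow ζ := by
  intro n L hn
  obtain ⟨C, hC, H⟩ := Shalx115.shallow hζ n
  refine ⟨C, hC, ?_⟩
  intro X hX S s0 m0 U h act b m T hK w t ht hk
  have key := H (L + 1) (fun i => iteratedDeriv i X) (L - n) (pf_of hX) (by omega) U h b m act t w T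
    hK.mU hK.nice hK.mact (fun r z hz hz0 => (hK.loc r z hz hz0).2.2.2)
    (fun v x => hK.k1 (L - n) (by omega) (t + 1) (by omega) v x)
    (fun r _ v x => hK.k2 (L - n) (by omega) r v x)
    (fun x => le_trans (Finset.sum_le_sum_of_subset_of_nonneg
      (Finset.range_subset_range.2 (by omega))
      fun r _ _ => PairDeepx975.eL_nonneg U m h act r x) (hK.k4 x)) (by linarith)
  have e : L - n + n = L := Nat.sub_add_cancel hn
  simp only [e] at key
  rw [PS_eq]
  refine le_trans key (le_of_eq ?_)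
  rw [inv_pow, div_eq_mul_inv]

theorem plow {ζ : ℝ → ℝ} (hζ : ZetC ζ) : PLow ζ := plow_of hζ (pldeep hζ) (plshallow hζ)

theorem plowp {ζ : ℝ → ℝ} (hζ : ZetC ζ) : PLowP ζ := plowp_of (plow hζ)

end Crest.Agent.R087.PLowx575
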