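import Mathlib

/-!
Row 87 (S0115), operator part, leaf PAIR-LOW-ASM (definition-free core, helper232).

`P s` (scale `2^-s` of the short point, `p ≤ s < q`), `x = |κ|`:
* deep scales  `x 2^-s ≤ 20` : `|P s - M s| ≤ C (x 2^-s T + r s)`, `∑ r ≤ T`, partial sums of `M` are `≤ C T`;
* shallow scales `20 < x 2^-s` : `|P s| ≤ C T (x 2^-s)^-N`.

Conclusion: `∑_{p ≤ s < q} P s = 0` or there are `h`, `s*` with `P s* ≠ 0`, `x 2^-s* ≤ 20 * 2^h` and
`|∑ P| ≤ C' T 2^(-N h)`.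
-/

set_option autoImplicit false

noncomputable section

namespace Crest.Agent.R087.PairAsmx232

open Finset

/-- geometric sum over the deep scales -/
theorem geo_deep (x : ℝ) (hx : 0 ≤ x) (D : ℝ) (hD : 0 ≤ D) (a : ℕ) (ha : x * (1 / 2 : ℝ) ^ a ≤ D) (b : ℕ) :
    ∑ s ∈ Ico a b, x * (1 / 2 : ℝ) ^ s ≤ 2 * D := by
  rcases le_or_gt b a with hba | hab
  · rw [Ico_eq_empty_of_le hba, sum_empty]; linarith
  · have h1 : ∑ s ∈ Ico a b, x * (1 / 2 : ℝ) ^ s
        = x * (1 / 2 : ℝ) ^ a * ∑ i ∈ range (b - a), (1 / 2 : ℝ) ^ i := by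
      rw [sum_Ico_eq_sum_range, mul_sum]
      apply sum_congr rfl
      intro i _
      rw [pow_add]; ring
    have h2 : ∑ i ∈ range (b - a), (1 / 2 : ℝ) ^ i ≤ 2 := by
      have := sum_geometric_two_le (b - a)
      simpa using this
    have h3 : 0 ≤ ∑ i ∈ range (b - a), (1 / 2 : ℝ) ^ i := sum_nonneg (fun i _ => by positivity)
    have h4 : 0 ≤ x * (1 / 2 : ℝ) ^ a := by positivity
    rw [h1]
    calc x * (1 / 2 : ℝ) ^ a * ∑ i ∈ range (b - a), (1 / 2 : ℝ) ^ i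
        ≤ D * 2 := mul_le_mul ha h2 h3 hD
      _ = 2 * D := by ring

/-- geometric sum over the shallow scales: `y = x 2^-t` is the smallest value, `s ≤ t` -/
theorem geo_shallow (x : ℝ) (hx : 0 < x) (N : ℕ) (hN : 1 ≤ N) (p t : ℕ) :
    ∑ s ∈ Ico p (t + 1), ((x * (1 / 2 : ℝ) ^ s) ^ N)⁻¹ ≤ 2 * ((x * (1 / 2 : ℝ) ^ t) ^ N)⁻¹ := by
  have key : ∀ s ∈ Ico p (t + 1), ((x * (1 / 2 : ℝ) ^ s) ^ N)⁻¹
      ≤ ((x * (1 / 2 : ℝ) ^ t) ^ N)⁻¹ * (1 / 2 : ℝ) ^ (t - s) := by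
    intro s hs
    rw [mem_Ico] at hs
    have hst : s ≤ t := by omega
    have e1 : x * (1 / 2 : ℝ) ^ s = (x * (1 / 2 : ℝ) ^ t) * 2 ^ (t - s) := by
      have : (1 / 2 : ℝ) ^ t = (1 / 2 : ℝ) ^ s * (1 / 2 : ℝ) ^ (t - s) := by
        rw [← pow_add]; congr 1; omega
      rw [this]
      have h2 : (1 / 2 : ℝ) ^ (t - s) * 2 ^ (t - s) = 1 := by rw [← mul_pow]; norm_num
      calc x * (1 / 2 : ℝ) ^ s = x * (1 / 2 : ℝ) ^ s * ((1 / 2 : ℝ) ^ (t - s) * 2 ^ (t - s)) := by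
            rw [h2, mul_one]
        _ = _ := by ring
    have hy : 0 < x * (1 / 2 : ℝ) ^ t := by positivity
    rw [e1, mul_pow, mul_inv]
    apply mul_le_mul_of_nonneg_left _ (by positivity)
    have h3 : (2 : ℝ) ^ (t - s) ≤ ((2 : ℝ) ^ (t - s)) ^ N := by
      apply le_self_pow₀ _ (by omega)
      exact one_le_pow₀ (by norm_num)
    calc (((2 : ℝ) ^ (t - s)) ^ N)⁻¹ ≤ ((2 : ℝ) ^ (t - s))⁻¹ := inv_anti₀ (by positivity) h3
      _ = (1 / 2 : ℝ) ^ (t - s) := by rw [one_div, inv_pow]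
  refine (sum_le_sum key).trans ?_
  rw [← mul_sum, mul_comm (2 : ℝ)]
  apply mul_le_mul_of_nonneg_left _ (by positivity)
  rcases le_or_gt (t + 1) p with h | h
  · rw [Ico_eq_empty_of_le h, sum_empty]; norm_num
  · have h1 : ∑ s ∈ Ico p (t + 1), (1 / 2 : ℝ) ^ (t - s) ≤ ∑ i ∈ range (t + 1), (1 / 2 : ℝ) ^ i := by
      rw [← sum_range_reflect (fun i => (1 / 2 : ℝ) ^ i) (t + 1)]
      apply sum_le_sum_of_subset_of_nonneg
      · intro s hs
        rw [mem_Ico] at hs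
        exact mem_range.2 hs.2
      · intro i _ _; positivity
    refine h1.trans ?_
    have := sum_geometric_two_le (t + 1)
    simpa using this

/-- **abstract assembly** of the pairing of one short point with one tree. -/
theorem asm (N : ℕ) (hN : 1 ≤ N) (x T C : ℝ) (hx : 0 ≤ x) (hT : 0 ≤ T) (hC : 0 ≤ C)
    (P M r : ℕ → ℝ) (p q : ℕ)
    (deep : ∀ s, p ≤ s → s < q → x * (1 / 2 : ℝ) ^ s ≤ 20 →
      |P s - M s| ≤ C * (x * (1 / 2 : ℝ) ^ s * T + r s))
    (r0 : ∀ s, 0 ≤ r s) (rT : ∑ s ∈ Ico p q, r s ≤ T)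
    (part : ∀ a, p ≤ a → a ≤ q → x * (1 / 2 : ℝ) ^ a ≤ 20 → |∑ s ∈ Ico a q, M s| ≤ C * T)
    (shallow : ∀ s, p ≤ s → s < q → 20 < x * (1 / 2 : ℝ) ^ s →
      |P s| ≤ C * T * ((x * (1 / 2 : ℝ) ^ s) ^ N)⁻¹) :
    ∑ s ∈ Ico p q, P s = 0 ∨
      ∃ h t : ℕ, p ≤ t ∧ t < q ∧ P t ≠ 0 ∧ x * (1 / 2 : ℝ) ^ t ≤ 20 * 2 ^ h ∧
        |∑ s ∈ Ico p q, P s| ≤ 44 * C * T * (1 / 2 : ℝ) ^ (N * h) := by
  classical
  by_cases hz : ∑ s ∈ Ico p q, P s = 0
  · exact Or.inl hz
  right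
  -- the last scale with `P ≠ 0`
  have hne : ((Ico p q).filter (fun s => P s ≠ 0)).Nonempty := by
    by_contra hcon
    rw [not_nonempty_iff_eq_empty] at hcon
    apply hz
    apply sum_eq_zero
    intro s hs
    by_contra h
    have : s ∈ (Ico p q).filter (fun s => P s ≠ 0) := mem_filter.2 ⟨hs, h⟩
    rw [hcon] at this
    simp at this
  set t : ℕ := ((Ico p q).filter (fun s => P s ≠ 0)).max' hne with ht
  have htm := ((Ico p q).filter (fun s => P s ≠ 0)).max'_mem hne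
  rw [← ht] at htm
  rw [mem_filter, mem_Ico] at htm
  obtain ⟨⟨hpt, htq⟩, hPt⟩ := htm
  have hlast : ∀ s, t < s → s < q → P s = 0 := by
    intro s hs hsq
    by_contra h
    have hm : s ∈ (Ico p q).filter (fun s => P s ≠ 0) :=
      mem_filter.2 ⟨mem_Ico.2 ⟨by omega, hsq⟩, h⟩
    have := le_max' _ s hm
    rw [← ht] at this
    omega
  have hmono : ∀ a b : ℕ, a ≤ b → x * (1 / 2 : ℝ) ^ b ≤ x * (1 / 2 : ℝ) ^ a := by
    intro a b hab
    apply mul_le_mul_of_nonneg_left _ hx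
    exact pow_le_pow_of_le_one (by norm_num) (by norm_num) hab
  have hsplit : ∑ s ∈ Ico p q, P s = ∑ s ∈ Ico p (t + 1), P s := by
    rw [← sum_Ico_consecutive P (show p ≤ t + 1 by omega) (show t + 1 ≤ q by omega)]
    have : ∑ s ∈ Ico (t + 1) q, P s = 0 := by
      apply sum_eq_zero
      intro s hs
      rw [mem_Ico] at hs
      exact hlast s (by omega) hs.2
    rw [this, add_zero]
  by_cases hdt : x * (1 / 2 : ℝ) ^ t ≤ 20
  · -- the last nonzero scale is deep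
    refine ⟨0, t, hpt, htq, hPt, by simpa using hdt, ?_⟩
    -- first deep scale in `[p,q)`
    have hex : ∃ a, p ≤ a ∧ x * (1 / 2 : ℝ) ^ a ≤ 20 := ⟨t, hpt, hdt⟩
    set a : ℕ := Nat.find hex with ha
    obtain ⟨hpa, hda⟩ := Nat.find_spec hex
    rw [← ha] at hpa hda
    have hat : a ≤ t := Nat.find_min' hex ⟨hpt, hdt⟩
    have hsh : ∀ s, p ≤ s → s < a → 20 < x * (1 / 2 : ℝ) ^ s := by
      intro s hps hsa
      by_contra hcon
      exact Nat.find_min hex hsa ⟨hps, not_lt.1 hcon⟩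
    have e1 : ∑ s ∈ Ico p q, P s = ∑ s ∈ Ico p a, P s + ∑ s ∈ Ico a q, P s :=
      (sum_Ico_consecutive P hpa (by omega)).symm
    -- deep part
    have d1 : |∑ s ∈ Ico a q, P s| ≤ 42 * C * T := by
      have e2 : ∑ s ∈ Ico a q, P s = ∑ s ∈ Ico a q, M s + ∑ s ∈ Ico a q, (P s - M s) := by
        rw [← sum_add_distrib]; apply sum_congr rfl; intro s _; ring
      have h1 := part a hpa (by omega) hda
      have h2 : |∑ s ∈ Ico a q, (P s - M s)| ≤ ∑ s ∈ Ico a q, C * (x * (1 / 2 : ℝ) ^ s * T + r s) := by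
        refine (abs_sum_le_sum_abs _ _).trans (sum_le_sum ?_)
        intro s hs
        rw [mem_Ico] at hs
        exact deep s (by omega) hs.2 ((hmono a s hs.1).trans hda)
      have h3 : ∑ s ∈ Ico a q, C * (x * (1 / 2 : ℝ) ^ s * T + r s)
          = C * ((∑ s ∈ Ico a q, x * (1 / 2 : ℝ) ^ s) * T + ∑ s ∈ Ico a q, r s) := by
        rw [← mul_sum, sum_add_distrib, sum_mul]
      have h4 := geo_deep x hx 20 (by norm_num) a hda q
      have h5 : ∑ s ∈ Ico a q, r s ≤ T := by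
        refine le_trans ?_ rT
        apply sum_le_sum_of_subset_of_nonneg
        · intro s hs
          rw [mem_Ico] at hs ⊢
          omega
        · intro s _ _; exact r0 s
      have h6 : (∑ s ∈ Ico a q, x * (1 / 2 : ℝ) ^ s) * T ≤ 2 * 20 * T :=
        mul_le_mul_of_nonneg_right h4 hT
      have h7 : C * ((∑ s ∈ Ico a q, x * (1 / 2 : ℝ) ^ s) * T + ∑ s ∈ Ico a q, r s)
          ≤ C * (2 * 20 * T + T) := mul_le_mul_of_nonneg_left (by linarith) hC
      rw [e2]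
      calc |∑ s ∈ Ico a q, M s + ∑ s ∈ Ico a q, (P s - M s)|
          ≤ |∑ s ∈ Ico a q, M s| + |∑ s ∈ Ico a q, (P s - M s)| := abs_add_le _ _
        _ ≤ C * T + C * (2 * 20 * T + T) := by
            refine add_le_add h1 (h2.trans ?_)
            rw [h3]; exact h7
        _ = 42 * C * T := by ring
    -- shallow part
    have d2 : |∑ s ∈ Ico p a, P s| ≤ 2 * C * T := by
      rcases Nat.eq_or_lt_of_le hpa with h | h
      · rw [← h, Ico_self, sum_empty, abs_zero]; positivity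
      · have hx0 : 0 < x := by
          have := hsh p le_rfl h
          by_contra hcon
          have hx0 : x = 0 := le_antisymm (not_lt.1 hcon) hx
          rw [hx0, zero_mul] at this
          linarith
        obtain ⟨b, hb⟩ : ∃ b, a = b + 1 := ⟨a - 1, by omega⟩
        rw [hb]
        have h1 : |∑ s ∈ Ico p (b + 1), P s| ≤
            ∑ s ∈ Ico p (b + 1), C * T * ((x * (1 / 2 : ℝ) ^ s) ^ N)⁻¹ := by
          refine (abs_sum_le_sum_abs _ _).trans (sum_le_sum ?_)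
          intro s hs
          rw [mem_Ico] at hs
          exact shallow s hs.1 (by omega) (hsh s hs.1 (by omega))
        rw [← mul_sum] at h1
        have h2 := geo_shallow x hx0 N hN p b
        have h3 : ((x * (1 / 2 : ℝ) ^ b) ^ N)⁻¹ ≤ 1 := by
          apply inv_le_one_of_one_le₀
          apply one_le_pow₀
          have := hsh b (by omega) (by omega)
          linarith
        calc |∑ s ∈ Ico p (b + 1), P s|
            ≤ C * T * ∑ s ∈ Ico p (b + 1), ((x * (1 / 2 : ℝ) ^ s) ^ N)⁻¹ := h1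
          _ ≤ C * T * (2 * 1) := by
              apply mul_le_mul_of_nonneg_left _ (by positivity)
              linarith
          _ = 2 * C * T := by ring
    rw [e1]
    calc |∑ s ∈ Ico p a, P s + ∑ s ∈ Ico a q, P s|
        ≤ |∑ s ∈ Ico p a, P s| + |∑ s ∈ Ico a q, P s| := abs_add_le _ _
      _ ≤ 2 * C * T + 42 * C * T := add_le_add d2 d1
      _ = 44 * C * T * (1 / 2 : ℝ) ^ (N * 0) := by simp; ring
  · -- all nonzero scales are shallow
    rw [not_le] at hdt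
    have hx0 : 0 < x := by
      by_contra hcon
      have hx0 : x = 0 := le_antisymm (not_lt.1 hcon) hx
      rw [hx0, zero_mul] at hdt
      linarith
    set y : ℝ := x * (1 / 2 : ℝ) ^ t with hy
    have h1 : |∑ s ∈ Ico p (t + 1), P s| ≤
        ∑ s ∈ Ico p (t + 1), C * T * ((x * (1 / 2 : ℝ) ^ s) ^ N)⁻¹ := by
      refine (abs_sum_le_sum_abs _ _).trans (sum_le_sum ?_)
      intro s hs
      rw [mem_Ico] at hs
      have hst : s ≤ t := by omega
      exact shallow s hs.1 (by omega) (lt_of_lt_of_le hdt (hmono s t hst))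
    rw [← mul_sum] at h1
    have h2 := geo_shallow x hx0 N hN p t
    rw [← hy] at h2
    -- choose `h` with `2^h ≤ y < 2^(h+1)`
    obtain ⟨h, hh1, hh2⟩ : ∃ h : ℕ, (2 : ℝ) ^ h ≤ y ∧ y < 2 ^ (h + 1) :=
      exists_nat_pow_near (by linarith) (by norm_num)
    refine ⟨h, t, hpt, htq, hPt, ?_, ?_⟩
    · rw [pow_succ] at hh2
      have : (0 : ℝ) < 2 ^ h := by positivity
      rw [← hy]
      linarith
    · rw [hsplit]
      have h3 : (y ^ N)⁻¹ ≤ (1 / 2 : ℝ) ^ (N * h) := by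
        have : ((2 : ℝ) ^ h) ^ N ≤ y ^ N := pow_le_pow_left₀ (by positivity) hh1 N
        calc (y ^ N)⁻¹ ≤ (((2 : ℝ) ^ h) ^ N)⁻¹ := inv_anti₀ (by positivity) this
          _ = (1 / 2 : ℝ) ^ (N * h) := by
              rw [one_div, inv_pow, ← pow_mul, mul_comm h N]
      calc |∑ s ∈ Ico p (t + 1), P s|
          ≤ C * T * ∑ s ∈ Ico p (t + 1), ((x * (1 / 2 : ℝ) ^ s) ^ N)⁻¹ := h1
        _ ≤ C * T * (2 * (y ^ N)⁻¹) := mul_le_mul_of_nonneg_left h2 (by positivity)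
        _ ≤ C * T * (2 * (1 / 2 : ℝ) ^ (N * h)) := by
            apply mul_le_mul_of_nonneg_left _ (by positivity)
            linarith
        _ ≤ 44 * C * T * (1 / 2 : ℝ) ^ (N * h) := by
            have : 0 ≤ C * T * (1 / 2 : ℝ) ^ (N * h) := by positivity
            nlinarith

end Crest.Agent.R087.PairAsmx232
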