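import Crest.Agent.R087.GateDef_273

/-!
Row 87 (S0115), operator part, analytic core of PAIR-low DEEP (helper975).

`mz`    : `|∫ ζ(2^s' u - j') F u du| ≤ C 2^-s' 2^-s' sup |F'|` (mean zero of `ζ`)
`theta` : the straightening error of one pair.
-/

set_option autoImplicit false

noncomputable section

open MeasureTheory Crest.Agent.R087.Sh0x283 Crest.Agent.R087.Sh1x283 Crest.Agent.R087.GateDefx273

namespace Crest.Agent.R087.PairCorex975

theorem zet_cont {ζ : ℝ → ℝ} (h : ZetC ζ) : Continuous ζ := h.1.continuous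

theorem zet_zero {ζ : ℝ → ℝ} (h : ZetC ζ) {t : ℝ} (ht : t < 1 / 8 ∨ 7 / 8 < t) : ζ t = 0 := by
  by_contra hne
  have := h.2.1 t hne
  rcases ht with h1 | h1 <;> linarith

theorem zet_cs {ζ : ℝ → ℝ} (h : ZetC ζ) : HasCompactSupport ζ :=
  HasCompactSupport.of_support_subset_isCompact (isCompact_Icc (a := (1 / 8 : ℝ)) (b := 7 / 8))
    (fun t ht => h.2.1 t ht)

theorem zet_int {ζ : ℝ → ℝ} (h : ZetC ζ) : Integrable ζ :=
  (zet_cont h).integrable_of_hasCompactSupport (zet_cs h)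

/-- mean zero -/
theorem zet_mean {ζ : ℝ → ℝ} (h : ZetC ζ) : ∫ t, ζ t = 0 := by
  have h1 : ∫ t, ζ (1 - t) = ∫ t, ζ t := integral_sub_left_eq_self ζ volume 1
  have h2 : ∫ t, ζ (1 - t) = - ∫ t, ζ t := by
    rw [← integral_neg]
    exact integral_congr_ae (Filter.Eventually.of_forall fun t => h.2.2 t)
  linarith

theorem zet_bdd {ζ : ℝ → ℝ} (h : ZetC ζ) : ∃ C : ℝ, 0 ≤ C ∧ ∀ t, |ζ t| ≤ C := by
  obtain ⟨C, hC⟩ := (zet_cs h).exists_bound_of_continuous (zet_cont h)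
  exact ⟨max C 0, le_max_right _ _, fun t => (hC t).trans (le_max_left _ _)⟩

theorem zet_bdd' {ζ : ℝ → ℝ} (h : ZetC ζ) : ∃ C : ℝ, 0 ≤ C ∧ ∀ t, |deriv ζ t| ≤ C := by
  have hc : Continuous (deriv ζ) := h.1.continuous_deriv (by norm_num)
  obtain ⟨C, hC⟩ := (zet_cs h).deriv.exists_bound_of_continuous hc
  exact ⟨max C 0, le_max_right _ _, fun t => (hC t).trans (le_max_left _ _)⟩

theorem zet_deriv {ζ : ℝ → ℝ} (h : ZetC ζ) (t : ℝ) : HasDerivAt ζ (deriv ζ t) t :=
  (h.1.differentiable (by norm_num) t).hasDerivAt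

/-- change of variables `t = a u - j` -/
theorem cov {a : ℝ} (ha : 0 < a) (j : ℝ) (f : ℝ → ℝ) : ∫ u, f (a * u - j) = a⁻¹ * ∫ t, f t := by
  have h1 := Measure.integral_comp_mul_left (fun v => f (v - j)) a
  rw [integral_sub_right_eq_self f j, abs_of_pos (inv_pos.2 ha), smul_eq_mul] at h1
  exact h1

theorem zcell_int {ζ : ℝ → ℝ} (h : ZetC ζ) {a : ℝ} (ha : 0 < a) (j : ℝ) :
    Integrable fun u => ζ (a * u - j) := by
  have h1 : Integrable fun u => ζ (u - j) := (zet_int h).comp_sub_right j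
  exact h1.comp_mul_left' ha.ne'

/-- on the support of `ζ (a u - j)`: `u` in the cell -/
theorem zcell_mem {ζ : ℝ → ℝ} (h : ZetC ζ) {a : ℝ} (ha : 0 < a) {j u : ℝ} (hu : ζ (a * u - j) ≠ 0) :
    j / a < u ∧ u < (j + 1) / a := by
  have := h.2.1 _ hu
  constructor
  · rw [div_lt_iff₀ ha]; linarith
  · rw [lt_div_iff₀ ha]; linarith

/-- **mean zero of `ζ_J`**: only the oscillation of `F` over the cell counts. -/
theorem mz {ζ : ℝ → ℝ} (h : ZetC ζ) {C₀ : ℝ} (hC₀ : ∀ t, |ζ t| ≤ C₀) {a : ℝ} (ha : 0 < a) (j : ℝ)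
    (F F' : ℝ → ℝ) (M : ℝ) (hF : ∀ u ∈ Set.Icc (j / a) ((j + 1) / a), HasDerivAt F (F' u) u)
    (hF' : ∀ u ∈ Set.Icc (j / a) ((j + 1) / a), |F' u| ≤ M) :
    |∫ u, ζ (a * u - j) * F u| ≤ C₀ * M * a⁻¹ * a⁻¹ := by
  have hlen : (j + 1) / a - j / a = a⁻¹ := by field_simp; ring
  have hle : j / a ≤ (j + 1) / a := by
    have := inv_pos.2 ha
    linarith
  have hcF : ContinuousOn F (Set.Icc (j / a) ((j + 1) / a)) := fun u hu =>
    (hF u hu).continuousAt.continuousWithinAt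
  have hcz : Continuous fun u => ζ (a * u - j) := (zet_cont h).comp (by fun_prop)
  have hsupp : ∀ G : ℝ → ℝ, Function.support (fun u => ζ (a * u - j) * G u) ⊆
      Set.Icc (j / a) ((j + 1) / a) := by
    intro G u hu
    have h1 : ζ (a * u - j) ≠ 0 := left_ne_zero_of_mul hu
    have h2 := zcell_mem h ha h1
    exact ⟨h2.1.le, h2.2.le⟩
  have hi1 : Integrable fun u => ζ (a * u - j) * F u := by
    rw [← integrableOn_iff_integrable_of_support_subset (hsupp F)]
    exact (hcz.continuousOn.mul hcF).integrableOn_Icc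
  have hi2 : Integrable fun u => ζ (a * u - j) * F (j / a) :=
    (zcell_int h ha j).mul_const _
  have h0 : ∫ u, ζ (a * u - j) * F (j / a) = 0 := by
    rw [integral_mul_const, cov ha j ζ, zet_mean h]
    simp
  have h1 : ∫ u, ζ (a * u - j) * F u = ∫ u, ζ (a * u - j) * (F u - F (j / a)) := by
    have h2 : ∫ u, ζ (a * u - j) * (F u - F (j / a)) =
        (∫ u, ζ (a * u - j) * F u) - ∫ u, ζ (a * u - j) * F (j / a) := by
      rw [← integral_sub hi1 hi2]
      exact integral_congr_ae (Filter.Eventually.of_forall fun u => by ring)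
    rw [h2, h0, sub_zero]
  rw [h1, ← setIntegral_eq_integral_of_forall_compl_eq_zero (s := Set.Icc (j / a) ((j + 1) / a))
    (fun u hu => by
      by_contra hne
      exact hu (hsupp (fun u => F u - F (j / a)) hne))]
  have hM : 0 ≤ M := (abs_nonneg _).trans (hF' (j / a) ⟨le_rfl, hle⟩)
  have hC : 0 ≤ C₀ := (abs_nonneg _).trans (hC₀ 0)
  have hosc : ∀ u ∈ Set.Icc (j / a) ((j + 1) / a), |F u - F (j / a)| ≤ M * a⁻¹ := by
    intro u hu
    have := Convex.norm_image_sub_le_of_norm_hasDerivWithin_le (f := F) (f' := F') (C := M)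
      (s := Set.Icc (j / a) ((j + 1) / a)) (x := j / a) (y := u)
      (fun x hx => (hF x hx).hasDerivWithinAt) (fun x hx => hF' x hx) (convex_Icc _ _)
      ⟨le_rfl, hle⟩ hu
    rw [Real.norm_eq_abs, Real.norm_eq_abs] at this
    refine this.trans ?_
    have h3 : |u - j / a| ≤ a⁻¹ := by
      rw [abs_of_nonneg (by linarith [hu.1])]
      linarith [hu.2]
    exact mul_le_mul_of_nonneg_left h3 hM
  have key := norm_setIntegral_le_of_norm_le_const (μ := volume)
    (s := Set.Icc (j / a) ((j + 1) / a)) (f := fun u => ζ (a * u - j) * (F u - F (j / a)))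
    (C := C₀ * (M * a⁻¹)) (by rw [Real.volume_Icc]; exact ENNReal.ofReal_lt_top) (fun u hu => by
      rw [Real.norm_eq_abs, abs_mul]
      exact mul_le_mul (hC₀ _) (hosc u hu) (abs_nonneg _) hC)
  rw [Real.norm_eq_abs, measureReal_def, Real.volume_Icc, hlen,
    ENNReal.toReal_ofReal (inv_pos.2 ha).le] at key
  calc _ ≤ C₀ * (M * a⁻¹) * a⁻¹ := key
    _ = _ := by ring

/-- **straightening error of one pair**: phase `A u = r + (u - x') κ`, perturbed by `(u - x) δ`. -/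
theorem theta {ζ : ℝ → ℝ} (h : ZetC ζ) {C₀ C₁ : ℝ} (hC₀ : ∀ t, |ζ t| ≤ C₀)
    (hC₁ : ∀ t, |deriv ζ t| ≤ C₁) {a a' : ℝ} (ha : 0 < a) (ha' : 0 < a') (j j' : ℝ)
    (Φ Φ' Φ'' : ℝ → ℝ) (hΦ : ∀ v, HasDerivAt Φ (Φ' v) v) (hΦ' : ∀ v, HasDerivAt Φ' (Φ'' v) v)
    {L₁ L₂ : ℝ} (hL₁ : ∀ v, |Φ' v| ≤ L₁) (hL₂ : ∀ v, |Φ'' v| ≤ L₂) (r x' κ x δ : ℝ)
    (hx : ∀ u ∈ Set.Icc (j' / a') ((j' + 1) / a'), |u - x| ≤ a⁻¹) :
    |∫ u, ζ (a' * u - j') * (ζ (a * u - j) *
        (Φ (r + (u - x') * κ + (u - x) * δ) - Φ (r + (u - x') * κ)))| ≤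
      C₀ * (|δ| * ((C₀ + C₁) * L₁ + C₀ * L₂ * (|κ| * a⁻¹))) * a'⁻¹ * a'⁻¹ := by
  have hlip : ∀ v w, |Φ v - Φ w| ≤ L₁ * |v - w| := by
    intro v w
    have := Convex.norm_image_sub_le_of_norm_hasDerivWithin_le (f := Φ) (f' := Φ') (C := L₁)
      (s := Set.univ) (x := w) (y := v) (fun x _ => (hΦ x).hasDerivWithinAt) (fun x _ => hL₁ x)
      convex_univ trivial trivial
    simpa using this
  have hlip' : ∀ v w, |Φ' v - Φ' w| ≤ L₂ * |v - w| := by
    intro v w
    have := Convex.norm_image_sub_le_of_norm_hasDerivWithin_le (f := Φ') (f' := Φ'') (C := L₂)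
      (s := Set.univ) (x := w) (y := v) (fun x _ => (hΦ' x).hasDerivWithinAt) (fun x _ => hL₂ x)
      convex_univ trivial trivial
    simpa using this
  have hC : 0 ≤ C₀ := (abs_nonneg _).trans (hC₀ 0)
  have hCp : 0 ≤ C₁ := (abs_nonneg _).trans (hC₁ 0)
  have hL1 : 0 ≤ L₁ := (abs_nonneg _).trans (hL₁ 0)
  have hL2 : 0 ≤ L₂ := (abs_nonneg _).trans (hL₂ 0)
  refine mz h hC₀ ha' j' _ (fun u => deriv ζ (a * u - j) * a *
      (Φ (r + (u - x') * κ + (u - x) * δ) - Φ (r + (u - x') * κ)) +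
      ζ (a * u - j) * (Φ' (r + (u - x') * κ + (u - x) * δ) * (κ + δ) - Φ' (r + (u - x') * κ) * κ))
      _ ?_ ?_
  · intro u _
    have e1 : HasDerivAt (fun u => a * u - j) a u := by
      simpa using ((hasDerivAt_id u).const_mul a).sub_const j
    have e2 : HasDerivAt (fun u => r + (u - x') * κ) κ u := by
      simpa using (((hasDerivAt_id u).sub_const x').mul_const κ).const_add r
    have e3 : HasDerivAt (fun u => (u - x) * δ) δ u := by
      simpa using ((hasDerivAt_id u).sub_const x).mul_const δ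
    have e4 := (zet_deriv h (a * u - j)).comp u e1
    have e5 := (hΦ (r + (u - x') * κ + (u - x) * δ)).comp u (e2.add e3)
    have e6 := (hΦ (r + (u - x') * κ)).comp u e2
    exact e4.mul (e5.sub e6)
  · intro u hu
    have hux := hx u hu
    have b1 : |Φ (r + (u - x') * κ + (u - x) * δ) - Φ (r + (u - x') * κ)| ≤ L₁ * (a⁻¹ * |δ|) := by
      refine (hlip _ _).trans (mul_le_mul_of_nonneg_left ?_ hL1)
      rw [add_sub_cancel_left, abs_mul]
      exact mul_le_mul_of_nonneg_right hux (abs_nonneg _)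
    have b2 : |Φ' (r + (u - x') * κ + (u - x) * δ) - Φ' (r + (u - x') * κ)| ≤
        L₂ * (a⁻¹ * |δ|) := by
      refine (hlip' _ _).trans (mul_le_mul_of_nonneg_left ?_ hL2)
      rw [add_sub_cancel_left, abs_mul]
      exact mul_le_mul_of_nonneg_right hux (abs_nonneg _)
    have b3 : |Φ' (r + (u - x') * κ + (u - x) * δ) * (κ + δ) - Φ' (r + (u - x') * κ) * κ| ≤
        L₁ * |δ| + L₂ * (a⁻¹ * |δ|) * |κ| := by
      have : Φ' (r + (u - x') * κ + (u - x) * δ) * (κ + δ) - Φ' (r + (u - x') * κ) * κ =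
          Φ' (r + (u - x') * κ + (u - x) * δ) * δ +
          (Φ' (r + (u - x') * κ + (u - x) * δ) - Φ' (r + (u - x') * κ)) * κ := by ring
      rw [this]
      refine (abs_add_le _ _).trans (add_le_add ?_ ?_)
      · rw [abs_mul]
        exact mul_le_mul_of_nonneg_right (hL₁ _) (abs_nonneg _)
      · rw [abs_mul]
        exact mul_le_mul_of_nonneg_right b2 (abs_nonneg _)
    calc _ ≤ |deriv ζ (a * u - j)| * a *
          |Φ (r + (u - x') * κ + (u - x) * δ) - Φ (r + (u - x') * κ)| +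
          |ζ (a * u - j)| *
          |Φ' (r + (u - x') * κ + (u - x) * δ) * (κ + δ) - Φ' (r + (u - x') * κ) * κ| := by
          refine (abs_add_le _ _).trans (le_of_eq ?_)
          rw [abs_mul, abs_mul, abs_mul, abs_of_pos ha]
      _ ≤ C₁ * a * (L₁ * (a⁻¹ * |δ|)) + C₀ * (L₁ * |δ| + L₂ * (a⁻¹ * |δ|) * |κ|) := by
          refine add_le_add ?_ ?_
          · exact mul_le_mul (mul_le_mul_of_nonneg_right (hC₁ _) ha.le) b1 (abs_nonneg _)
              (by positivity)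
          · exact mul_le_mul (hC₀ _) b3 (abs_nonneg _) hC
      _ = _ := by
          field_simp
          ring

end Crest.Agent.R087.PairCorex975
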