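import Crest.Agent.R087.PairCore_975
import Crest.Agent.R087.OPdef_799
import Crest.Agent.R087.GateA_273

/-!
Row 87 (S0115), operator part, PAIR-low DEEP (helper975), one short point against one straightened tree.

`gg`   : the kernel of a pair (long `(s,z)`, short `(s',z')`)
`alp`  : coefficient of the tree along the line `b + m t`, vertical variable `v`
`s1`   : the slope defect of one scale
-/

set_option autoImplicit false

noncomputable section

open MeasureTheory Crest.Agent.R087.Sh0x283 Crest.Agent.R087.Sh1x283 Crest.Agent.R087.GateDefx273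
open Crest.Agent.R087.OPdefx799 Crest.Agent.R087.PairCorex975

namespace Crest.Agent.R087.PairDeepAx975

/-- points in the cell of scale `s` of `x` -/
def cz (s : ℕ) (x : ℝ) : Set (ℝ × ℝ) := {z | ix s z.1 = ix s x}

/-- pair kernel -/
def gg (Φ ζ : ℝ → ℝ) (U : ℝ × ℝ → ℝ) (s s' : ℕ) (z z' : ℝ × ℝ) : ℝ :=
  ((2 : ℝ) ^ s * gt (Int.fract ((2 : ℝ) ^ s * z.1))) *
    ((2 : ℝ) ^ s' * gt (Int.fract ((2 : ℝ) ^ s' * z'.1))) *
    ∫ u, ζ ((2 : ℝ) ^ s' * u - ix s' z'.1) * (ζ ((2 : ℝ) ^ s * u - ix s z.1) *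
      Φ (ln U z u - ln U z' u))

/-- tree coefficient -/
def alp (Ψ : ℝ → ℝ) (h : ℝ × ℝ → ℝ) (b m : ℝ) (s : ℕ) (x v : ℝ) : ℝ :=
  (2 : ℝ) ^ s * ∫ z in cz s x, h z * (gt (Int.fract ((2 : ℝ) ^ s * z.1)) *
    Ψ (z.2 - (b + m * z.1) + v))

/-- slope defect -/
def s1 (h U : ℝ × ℝ → ℝ) (m : ℝ) (s : ℕ) (x : ℝ) : ℝ :=
  (2 : ℝ) ^ s * ∫ z in cz s x, |h z| * (|U z - m| * (1 / 2 : ℝ) ^ s)

theorem measurable_ix (s : ℕ) : Measurable (ix s) :=
  Int.measurable_floor.comp (measurable_id.const_mul _)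

theorem measurable_ixr (s : ℕ) : Measurable fun x => ((ix s x : ℤ) : ℝ) :=
  (measurable_from_top (f := fun n : ℤ => (n : ℝ))).comp (measurable_ix s)

theorem measurableSet_cz (s : ℕ) (x : ℝ) : MeasurableSet (cz s x) :=
  ((measurable_ix s).comp measurable_fst) (measurableSet_singleton (ix s x))

theorem measurable_gtf (s : ℕ) : Measurable fun x : ℝ => gt (Int.fract ((2 : ℝ) ^ s * x)) :=
  GateAx273.gt_meas.comp (measurable_fract.comp (measurable_id.const_mul _))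

theorem ix_le {s : ℕ} {x : ℝ} : (ix s x : ℝ) / 2 ^ s ≤ x := by
  have h : (0 : ℝ) < 2 ^ s := by positivity
  rw [div_le_iff₀ h]
  have := Int.floor_le ((2 : ℝ) ^ s * x)
  unfold ix
  linarith

theorem lt_ix {s : ℕ} {x : ℝ} : x < ((ix s x : ℝ) + 1) / 2 ^ s := by
  have h : (0 : ℝ) < 2 ^ s := by positivity
  rw [lt_div_iff₀ h]
  have := Int.lt_floor_add_one ((2 : ℝ) ^ s * x)
  unfold ix
  linarith

/-- nesting: same `s'`-cell implies same `s`-cell for `s ≤ s'` -/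
theorem ix_mono {s s' : ℕ} (h : s ≤ s') {x y : ℝ} (e : ix s' x = ix s' y) : ix s x = ix s y := by
  have key : ∀ t : ℝ, ix s t = ix s' t / 2 ^ (s' - s) := by
    intro t
    have h1 : ((2 : ℝ) ^ s * t) = ((2 : ℝ) ^ s' * t) / ((2 ^ (s' - s) : ℕ) : ℝ) := by
      rw [eq_div_iff (by positivity)]
      push_cast
      have : (2 : ℝ) ^ s' = 2 ^ s * 2 ^ (s' - s) := by rw [← pow_add]; congr 1; omega
      rw [this]; ring
    unfold ix
    rw [h1, Int.floor_div_natCast]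
    push_cast
    rfl
  rw [key x, key y, e]

theorem nice_int {f : ℝ × ℝ → ℝ} (hf : Nice f) : Integrable f := ALGx390.nice_int hf

theorem measurable_par {F : (ℝ × ℝ) × ℝ → ℝ} (hF : Measurable F) :
    Measurable fun z => ∫ u, F (z, u) :=
  (hF.stronglyMeasurable.integral_prod_right' (ν := (volume : Measure ℝ))).measurable

/-- Fubini for `h z * ∫ q u * F z u` -/
theorem swap {μ : Measure (ℝ × ℝ)} [SFinite μ] {h : ℝ × ℝ → ℝ} (hh : Integrable h μ) {q : ℝ → ℝ}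
    (hq : Integrable q) {F : (ℝ × ℝ) × ℝ → ℝ} (hF : Measurable F) {M : ℝ} (hM : ∀ p, |F p| ≤ M) :
    ∫ z, (h z * ∫ u, q u * F (z, u)) ∂μ = ∫ u, (q u * ∫ z, h z * F (z, u) ∂μ) := by
  have h1 : Integrable (fun p : (ℝ × ℝ) × ℝ => h p.1 * q p.2) (μ.prod volume) := hh.mul_prod hq
  have h2 : Integrable (fun p : (ℝ × ℝ) × ℝ => h p.1 * q p.2 * F p) (μ.prod volume) :=
    h1.mul_bdd (c := M) hF.aestronglyMeasurable (Filter.Eventually.of_forall fun p => by
      rw [Real.norm_eq_abs]; exact hM p)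
  have e1 : ∫ z, (h z * ∫ u, q u * F (z, u)) ∂μ = ∫ z, (∫ u, h z * q u * F (z, u)) ∂μ := by
    refine integral_congr_ae (Filter.Eventually.of_forall fun z => ?_)
    show h z * ∫ u, q u * F (z, u) = ∫ u, h z * q u * F (z, u)
    rw [← integral_const_mul]
    exact integral_congr_ae (Filter.Eventually.of_forall fun u => by ring)
  have e2 : ∫ u, (q u * ∫ z, h z * F (z, u) ∂μ) = ∫ u, (∫ z, h z * q u * F (z, u) ∂μ) := by
    refine integral_congr_ae (Filter.Eventually.of_forall fun u => ?_)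
    show q u * ∫ z, h z * F (z, u) ∂μ = ∫ z, h z * q u * F (z, u) ∂μ
    rw [← integral_const_mul]
    exact integral_congr_ae (Filter.Eventually.of_forall fun z => by ring)
  rw [e1, e2]
  exact integral_integral_swap (f := fun z u => h z * q u * F (z, u)) h2

/-- `ζ (2^s u - n) ≠ 0` puts `u` in the cell `n` -/
theorem ix_of_zet {ζ : ℝ → ℝ} (hζ : ZetC ζ) {s : ℕ} {u : ℝ} {n : ℤ}
    (h : ζ ((2 : ℝ) ^ s * u - n) ≠ 0) : ix s u = n := by
  have := hζ.2.1 _ h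
  unfold ix
  rw [Int.floor_eq_iff]
  constructor <;> linarith

theorem gg_zero {Φ ζ : ℝ → ℝ} (hζ : ZetC ζ) (U : ℝ × ℝ → ℝ) {s s' : ℕ} (hs : s ≤ s') {z z' : ℝ × ℝ}
    (hz : z ∉ cz s z'.1) : gg Φ ζ U s s' z z' = 0 := by
  unfold gg
  have : ∫ u, ζ ((2 : ℝ) ^ s' * u - ix s' z'.1) * (ζ ((2 : ℝ) ^ s * u - ix s z.1) *
      Φ (ln U z u - ln U z' u)) = 0 := by
    rw [← integral_zero ℝ ℝ]
    refine integral_congr_ae (Filter.Eventually.of_forall fun u => ?_)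
    show ζ ((2 : ℝ) ^ s' * u - ix s' z'.1) * (ζ ((2 : ℝ) ^ s * u - ix s z.1) *
      Φ (ln U z u - ln U z' u)) = 0
    by_contra hne
    have h1 := left_ne_zero_of_mul hne
    have h2 := left_ne_zero_of_mul (right_ne_zero_of_mul hne)
    have e1 := ix_mono hs (ix_of_zet hζ h1)
    have e2 := ix_of_zet hζ h2
    exact hz (by show ix s z.1 = ix s z'.1; rw [← e2, e1])
  rw [this, mul_zero]

/-- both points in the (closed) cell of scale `s` -/
theorem cell_dist {s s' : ℕ} (hs : s ≤ s') {x' x u : ℝ} (hx : ix s x = ix s x')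
    (hu : u ∈ Set.Icc ((ix s' x' : ℝ) / 2 ^ s') (((ix s' x' : ℝ) + 1) / 2 ^ s')) :
    |u - x| ≤ ((2 : ℝ) ^ s)⁻¹ := by
  have h2 : (0 : ℝ) < 2 ^ s := by positivity
  have h2' : (0 : ℝ) < 2 ^ s' := by positivity
  -- the closed `s'`-cell of `x'` is inside the closed `s`-cell
  have e : ix s x' = ix s' x' / 2 ^ (s' - s) := by
    have h1 : ((2 : ℝ) ^ s * x') = ((2 : ℝ) ^ s' * x') / ((2 ^ (s' - s) : ℕ) : ℝ) := by
      rw [eq_div_iff (by positivity)]
      push_cast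
      have : (2 : ℝ) ^ s' = 2 ^ s * 2 ^ (s' - s) := by rw [← pow_add]; congr 1; omega
      rw [this]; ring
    unfold ix
    rw [h1, Int.floor_div_natCast]
    push_cast
    rfl
  have hp : (0 : ℤ) < 2 ^ (s' - s) := by positivity
  have l1 : ix s x' * 2 ^ (s' - s) ≤ ix s' x' := by rw [e]; exact Int.ediv_mul_le _ hp.ne'
  have l2 : ix s' x' + 1 ≤ (ix s x' + 1) * 2 ^ (s' - s) := by
    rw [e]
    have := Int.lt_ediv_add_one_mul_self (ix s' x') hp
    linarith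
  have l1' : (ix s x' : ℝ) * 2 ^ (s' - s) ≤ ix s' x' := by exact_mod_cast l1
  have l2' : (ix s' x' : ℝ) + 1 ≤ ((ix s x' : ℝ) + 1) * 2 ^ (s' - s) := by exact_mod_cast l2
  have hpow : (2 : ℝ) ^ s' = 2 ^ s * 2 ^ (s' - s) := by rw [← pow_add]; congr 1; omega
  have hq : (0 : ℝ) < 2 ^ (s' - s) := by positivity
  have a1 : (ix s x' : ℝ) / 2 ^ s ≤ u := by
    refine le_trans ?_ hu.1
    rw [div_le_div_iff₀ h2 h2', hpow]
    nlinarith
  have a2 : u ≤ ((ix s x' : ℝ) + 1) / 2 ^ s := by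
    refine hu.2.trans ?_
    rw [div_le_div_iff₀ h2' h2, hpow]
    nlinarith
  have b1 : (ix s x' : ℝ) / 2 ^ s ≤ x := by rw [← hx]; exact ix_le
  have b2 : x < ((ix s x' : ℝ) + 1) / 2 ^ s := by rw [← hx]; exact lt_ix
  have hl : ((ix s x' : ℝ) + 1) / 2 ^ s = (ix s x' : ℝ) / 2 ^ s + (2 ^ s)⁻¹ := by
    field_simp
  rw [abs_le]
  constructor <;> linarith

/-- `C²` bounds of the autocorrelation -/
structure PB (Φ Φ' Φ'' : ℝ → ℝ) (L₀ L₁ L₂ : ℝ) : Prop where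
  d : ∀ v, HasDerivAt Φ (Φ' v) v
  d' : ∀ v, HasDerivAt Φ' (Φ'' v) v
  b0 : ∀ v, |Φ v| ≤ L₀
  b1 : ∀ v, |Φ' v| ≤ L₁
  b2 : ∀ v, |Φ'' v| ≤ L₂

theorem PB.cont {Φ Φ' Φ'' : ℝ → ℝ} {L₀ L₁ L₂ : ℝ} (h : PB Φ Φ' Φ'' L₀ L₁ L₂) : Continuous Φ :=
  continuous_iff_continuousAt.2 fun v => (h.d v).continuousAt

theorem PB.cont' {Φ Φ' Φ'' : ℝ → ℝ} {L₀ L₁ L₂ : ℝ} (h : PB Φ Φ' Φ'' L₀ L₁ L₂) : Continuous Φ' :=
  continuous_iff_continuousAt.2 fun v => (h.d' v).continuousAt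

theorem straighten (U : ℝ × ℝ → ℝ) (b m : ℝ) (z z' : ℝ × ℝ) (u : ℝ) :
    ln U z u - ln U z' u = (z.2 - (b + m * z.1) + (b + m * z'.1 - z'.2)) + (u - z'.1) * (m - U z') +
      (u - z.1) * (U z - m) := by
  unfold ln; ring

/-- **one pair of scales**: straightening of the long population onto the line `b + m t` -/
theorem one {ζ : ℝ → ℝ} (hζ : ZetC ζ) {C₀ C₁ : ℝ} (hC₀ : ∀ t, |ζ t| ≤ C₀)
    (hC₁ : ∀ t, |deriv ζ t| ≤ C₁) {Φ Φ' Φ'' : ℝ → ℝ} {L₀ L₁ L₂ : ℝ} (hΦ : PB Φ Φ' Φ'' L₀ L₁ L₂)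
    {U : ℝ × ℝ → ℝ} (hU : Measurable U) {h : ℝ × ℝ → ℝ}
    (hh : Integrable h) (b m : ℝ) {s s' : ℕ} (hs : s ≤ s')
    (hUi : Integrable fun z => |h z| * (|U z - m| * (1 / 2 : ℝ) ^ s)) (z' : ℝ × ℝ) :
    |(∫ z, h z * gg Φ ζ U s s' z z') -
      (2 : ℝ) ^ s' * gt (Int.fract ((2 : ℝ) ^ s' * z'.1)) * ∫ u, ζ ((2 : ℝ) ^ s' * u - ix s' z'.1) *
        (ζ ((2 : ℝ) ^ s * u - ix s z'.1) *
          alp Φ h b m s z'.1 (b + m * z'.1 - z'.2 + (u - z'.1) * (m - U z')))| ≤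
      C₀ * ((C₀ + C₁) * L₁ + C₀ * L₂) * ((2 : ℝ) ^ s * (1 / 2) ^ s' + |m - U z'| * (1 / 2) ^ s') *
        s1 h U m s z'.1 := by
  have hpow : (0 : ℝ) < 2 ^ s := by positivity
  have hpow' : (0 : ℝ) < 2 ^ s' := by positivity
  have hC : 0 ≤ C₀ := (abs_nonneg _).trans (hC₀ 0)
  have hCp : 0 ≤ C₁ := (abs_nonneg _).trans (hC₁ 0)
  have hL0 : 0 ≤ L₀ := (abs_nonneg _).trans (hΦ.b0 0)
  have hL1 : 0 ≤ L₁ := (abs_nonneg _).trans (hΦ.b1 0)
  have hL2 : 0 ≤ L₂ := (abs_nonneg _).trans (hΦ.b2 0)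
  set κ : ℝ := m - U z' with hκ
  set ρ : ℝ := b + m * z'.1 - z'.2 with hρ
  set g' : ℝ := (2 : ℝ) ^ s' * gt (Int.fract ((2 : ℝ) ^ s' * z'.1)) with hg'
  set q : ℝ → ℝ := fun u => ζ ((2 : ℝ) ^ s' * u - ix s' z'.1) with hq
  set p : ℝ → ℝ := fun u => ζ ((2 : ℝ) ^ s * u - ix s z'.1) with hp
  have hqi : Integrable q := zcell_int hζ hpow' _
  have hqm : Measurable q := (zet_cont hζ).measurable.comp
    ((measurable_id.const_mul _).sub_const _)
  have hpm : Measurable p := (zet_cont hζ).measurable.comp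
    ((measurable_id.const_mul _).sub_const _)
  have hg'b : |g'| ≤ 2 ^ s' := by
    rw [hg', abs_mul, abs_of_pos hpow']
    calc _ ≤ (2 : ℝ) ^ s' * 1 := mul_le_mul_of_nonneg_left (GateAx273.gt_abs _) hpow'.le
      _ = _ := mul_one _
  -- the long factor
  set G : ℝ × ℝ → ℝ := fun z => (2 : ℝ) ^ s * gt (Int.fract ((2 : ℝ) ^ s * z.1)) with hG
  have hGb : ∀ z, |G z| ≤ 2 ^ s := by
    intro z
    rw [hG]
    simp only
    rw [abs_mul, abs_of_pos hpow]
    calc _ ≤ (2 : ℝ) ^ s * 1 := mul_le_mul_of_nonneg_left (GateAx273.gt_abs _) hpow.le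
      _ = _ := mul_one _
  have hGm : Measurable G := ((measurable_gtf s).comp measurable_fst).const_mul _
  -- F1 : true phase, F0 : straightened phase
  set F0 : (ℝ × ℝ) × ℝ → ℝ := fun w => G w.1 * (p w.2 *
    Φ (w.1.2 - (b + m * w.1.1) + ρ + (w.2 - z'.1) * κ)) with hF0
  set F1 : (ℝ × ℝ) × ℝ → ℝ := fun w => G w.1 * (p w.2 *
    Φ (w.1.2 - (b + m * w.1.1) + ρ + (w.2 - z'.1) * κ + (w.2 - w.1.1) * (U w.1 - m))) with hF1
  have hF0m : Measurable F0 := by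
    refine (hGm.comp measurable_fst).mul ((hpm.comp measurable_snd).mul
      (hΦ.cont.measurable.comp ?_))
    fun_prop
  have hF1m : Measurable F1 := by
    refine (hGm.comp measurable_fst).mul ((hpm.comp measurable_snd).mul
      (hΦ.cont.measurable.comp ?_))
    have : Measurable fun w : (ℝ × ℝ) × ℝ => U w.1 := hU.comp measurable_fst
    fun_prop
  have hbd : ∀ (w : (ℝ × ℝ) × ℝ) (v : ℝ), |G w.1 * (p w.2 * Φ v)| ≤ 2 ^ s * (C₀ * L₀) := by
    intro w v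
    rw [abs_mul (G w.1), abs_mul (p w.2)]
    exact mul_le_mul (hGb _) (mul_le_mul (hC₀ _) (hΦ.b0 _) (abs_nonneg _) hC)
      (by positivity) hpow.le
  have hF0b : ∀ w, |F0 w| ≤ 2 ^ s * (C₀ * L₀) := fun w => hbd w _
  have hF1b : ∀ w, |F1 w| ≤ 2 ^ s * (C₀ * L₀) := fun w => hbd w _
  -- the inner integrals
  have hq0 : ∀ z, Integrable fun u => q u * F0 (z, u) := fun z =>
    hqi.mul_bdd (c := 2 ^ s * (C₀ * L₀)) (hF0m.comp measurable_prodMk_left).aestronglyMeasurable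
      (Filter.Eventually.of_forall fun u => by rw [Real.norm_eq_abs]; exact hF0b _)
  have hq1 : ∀ z, Integrable fun u => q u * F1 (z, u) := fun z =>
    hqi.mul_bdd (c := 2 ^ s * (C₀ * L₀)) (hF1m.comp measurable_prodMk_left).aestronglyMeasurable
      (Filter.Eventually.of_forall fun u => by rw [Real.norm_eq_abs]; exact hF1b _)
  have hI0m : Measurable fun z => ∫ u, q u * F0 (z, u) :=
    measurable_par (F := fun w => q w.2 * F0 w) ((hqm.comp measurable_snd).mul hF0m)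
  have hI1m : Measurable fun z => ∫ u, q u * F1 (z, u) :=
    measurable_par (F := fun w => q w.2 * F1 w) ((hqm.comp measurable_snd).mul hF1m)
  have hIb : ∀ (F : (ℝ × ℝ) × ℝ → ℝ), (∀ w, |F w| ≤ 2 ^ s * (C₀ * L₀)) → ∀ z,
      |∫ u, q u * F (z, u)| ≤ (∫ u, |q u|) * (2 ^ s * (C₀ * L₀)) := by
    intro F hF z
    rw [← integral_mul_const]
    refine (abs_integral_le_integral_abs).trans (integral_mono_of_nonneg
      (Filter.Eventually.of_forall fun u => abs_nonneg _) (hqi.abs.mul_const _)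
      (Filter.Eventually.of_forall fun u => ?_))
    show |q u * F (z, u)| ≤ |q u| * (2 ^ s * (C₀ * L₀))
    rw [abs_mul]
    exact mul_le_mul_of_nonneg_left (hF _) (abs_nonneg _)
  set μ : Measure (ℝ × ℝ) := volume.restrict (cz s z'.1) with hμ
  have hhμ : Integrable h μ := hh.restrict
  have hi0 : Integrable (fun z => h z * ∫ u, q u * F0 (z, u)) μ :=
    hhμ.mul_bdd (c := (∫ u, |q u|) * (2 ^ s * (C₀ * L₀))) hI0m.aestronglyMeasurable
      (Filter.Eventually.of_forall fun z => by rw [Real.norm_eq_abs]; exact hIb F0 hF0b z)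
  have hi1 : Integrable (fun z => h z * ∫ u, q u * F1 (z, u)) μ :=
    hhμ.mul_bdd (c := (∫ u, |q u|) * (2 ^ s * (C₀ * L₀))) hI1m.aestronglyMeasurable
      (Filter.Eventually.of_forall fun z => by rw [Real.norm_eq_abs]; exact hIb F1 hF1b z)
  -- step A, B
  have eA : ∫ z, h z * gg Φ ζ U s s' z z' = g' * ∫ z, (h z * ∫ u, q u * F1 (z, u)) ∂μ := by
    rw [← setIntegral_eq_integral_of_forall_compl_eq_zero (s := cz s z'.1)
      (fun z hz => by rw [gg_zero hζ U hs hz, mul_zero]), ← integral_const_mul]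
    refine setIntegral_congr_fun (measurableSet_cz s z'.1) fun z hz => ?_
    have hz' : ix s z.1 = ix s z'.1 := hz
    show h z * gg Φ ζ U s s' z z' = g' * (h z * ∫ u, q u * F1 (z, u))
    have : ∫ u, q u * F1 (z, u) = G z * ∫ u, ζ ((2 : ℝ) ^ s' * u - ix s' z'.1) *
        (ζ ((2 : ℝ) ^ s * u - ix s z.1) * Φ (ln U z u - ln U z' u)) := by
      rw [← integral_const_mul]
      refine integral_congr_ae (Filter.Eventually.of_forall fun u => ?_)
      show q u * F1 (z, u) = G z * (ζ ((2 : ℝ) ^ s' * u - ix s' z'.1) *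
        (ζ ((2 : ℝ) ^ s * u - ix s z.1) * Φ (ln U z u - ln U z' u)))
      rw [straighten U b m z z' u, hz']
      simp only [hF1, hq, hp, hκ, hρ]
      ring
    rw [this]
    unfold gg
    simp only [hG, hg']
    ring
  -- step D
  have eD : ∫ u, ζ ((2 : ℝ) ^ s' * u - ix s' z'.1) * (ζ ((2 : ℝ) ^ s * u - ix s z'.1) *
      alp Φ h b m s z'.1 (ρ + (u - z'.1) * κ)) = ∫ z, (h z * ∫ u, q u * F0 (z, u)) ∂μ := by
    rw [swap hhμ hqi hF0m hF0b]
    refine integral_congr_ae (Filter.Eventually.of_forall fun u => ?_)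
    show ζ ((2 : ℝ) ^ s' * u - ix s' z'.1) * (ζ ((2 : ℝ) ^ s * u - ix s z'.1) *
      alp Φ h b m s z'.1 (ρ + (u - z'.1) * κ)) = q u * ∫ z, h z * F0 (z, u) ∂μ
    have : ∫ z, h z * F0 (z, u) ∂μ = p u * alp Φ h b m s z'.1 (ρ + (u - z'.1) * κ) := by
      unfold alp
      rw [← mul_assoc, ← integral_const_mul]
      refine integral_congr_ae (Filter.Eventually.of_forall fun z => ?_)
      show h z * F0 (z, u) = p u * 2 ^ s * (h z * (gt (Int.fract ((2 : ℝ) ^ s * z.1)) *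
        Φ (z.2 - (b + m * z.1) + (ρ + (u - z'.1) * κ))))
      simp only [hF0, hG, add_assoc]
      ring
    rw [this]
  rw [eA, eD, ← mul_sub, ← integral_sub hi1 hi0, abs_mul]
  -- step E
  have hs1i : Integrable (fun z => |h z| * (|U z - m| * (1 / 2 : ℝ) ^ s)) μ := hUi.restrict
  set K : ℝ := 2 ^ s * (C₀ * ((C₀ + C₁) * L₁ + C₀ * L₂) *
    ((2 : ℝ) ^ s * (1 / 2) ^ s' + |κ| * (1 / 2) ^ s') * (1 / 2) ^ s') with hK
  have hK0 : 0 ≤ K := by positivity
  have hpt : ∀ z ∈ cz s z'.1, |(h z * ∫ u, q u * F1 (z, u)) - h z * ∫ u, q u * F0 (z, u)| ≤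
      K * (|h z| * (|U z - m| * (1 / 2 : ℝ) ^ s)) := by
    intro z hz
    have hz' : ix s z.1 = ix s z'.1 := hz
    rw [← mul_sub, abs_mul, ← integral_sub (hq1 z) (hq0 z)]
    have e1 : ∫ u, q u * F1 (z, u) - q u * F0 (z, u) = G z * ∫ u, ζ ((2 : ℝ) ^ s' * u - ix s' z'.1) *
        (ζ ((2 : ℝ) ^ s * u - ix s z'.1) *
        (Φ ((z.2 - (b + m * z.1) + ρ) + (u - z'.1) * κ + (u - z.1) * (U z - m)) -
          Φ ((z.2 - (b + m * z.1) + ρ) + (u - z'.1) * κ))) := by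
      rw [← integral_const_mul]
      refine integral_congr_ae (Filter.Eventually.of_forall fun u => ?_)
      simp only [hF1, hF0, hq, hp]
      ring
    have e2 := theta hζ hC₀ hC₁ hpow hpow' (ix s z'.1) (ix s' z'.1) Φ Φ' Φ'' hΦ.d hΦ.d' hΦ.b1 hΦ.b2
      (z.2 - (b + m * z.1) + ρ) z'.1 κ z.1 (U z - m) (fun u hu => cell_dist hs hz' hu)
    rw [e1, abs_mul]
    have hinv : ((2 : ℝ) ^ s)⁻¹ = (1 / 2) ^ s := by rw [one_div, inv_pow]
    have hinv' : ((2 : ℝ) ^ s')⁻¹ = (1 / 2) ^ s' := by rw [one_div, inv_pow]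
    rw [hinv, hinv'] at e2
    have hss : (2 : ℝ) ^ s * (1 / 2) ^ s = 1 := by rw [← mul_pow]; norm_num
    calc |h z| * (|G z| * _) ≤ |h z| * (2 ^ s * (C₀ * (|U z - m| * ((C₀ + C₁) * L₁ + C₀ * L₂ *
          (|κ| * (1 / 2) ^ s))) * (1 / 2) ^ s' * (1 / 2) ^ s')) := by
          refine mul_le_mul_of_nonneg_left ?_ (abs_nonneg _)
          exact mul_le_mul (hGb z) e2 (abs_nonneg _) hpow.le
      _ ≤ K * (|h z| * (|U z - m| * (1 / 2 : ℝ) ^ s)) := by
          have hX : (C₀ + C₁) * L₁ + C₀ * L₂ * (|κ| * (1 / 2) ^ s) ≤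
              ((C₀ + C₁) * L₁ + C₀ * L₂) * (1 + |κ| * (1 / 2) ^ s) := by
            have h1 : 0 ≤ (C₀ + C₁) * L₁ := by positivity
            have h2 : 0 ≤ C₀ * L₂ := by positivity
            have h3 : 0 ≤ |κ| * (1 / 2 : ℝ) ^ s := by positivity
            nlinarith
          have hKe : K * (|h z| * (|U z - m| * (1 / 2 : ℝ) ^ s)) = |h z| * (2 ^ s * (C₀ *
              (|U z - m| * (((C₀ + C₁) * L₁ + C₀ * L₂) * (1 + |κ| * (1 / 2) ^ s))) *
              (1 / 2) ^ s' * (1 / 2) ^ s')) := by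
            have : ((2 : ℝ) ^ s * (1 / 2) ^ s' + |κ| * (1 / 2) ^ s') * (1 / 2) ^ s =
                (1 + |κ| * (1 / 2) ^ s) * (1 / 2) ^ s' := by
              have : (2 : ℝ) ^ s * (1 / 2) ^ s' * (1 / 2) ^ s = (1 / 2) ^ s' := by
                rw [mul_right_comm, hss, one_mul]
              linear_combination this
            rw [hK]
            linear_combination (2 ^ s * (C₀ * ((C₀ + C₁) * L₁ + C₀ * L₂) * (1 / 2) ^ s') *
              (|h z| * |U z - m|)) * this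
          rw [hKe]
          refine mul_le_mul_of_nonneg_left ?_ (abs_nonneg _)
          refine mul_le_mul_of_nonneg_left ?_ hpow.le
          refine mul_le_mul_of_nonneg_right ?_ (by positivity)
          refine mul_le_mul_of_nonneg_right ?_ (by positivity)
          refine mul_le_mul_of_nonneg_left ?_ hC
          exact mul_le_mul_of_nonneg_left hX (abs_nonneg _)
  have hE : |∫ z, ((h z * ∫ u, q u * F1 (z, u)) - h z * ∫ u, q u * F0 (z, u)) ∂μ| ≤
      K * ∫ z, |h z| * (|U z - m| * (1 / 2 : ℝ) ^ s) ∂μ := by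
    rw [← integral_const_mul]
    refine (abs_integral_le_integral_abs).trans (integral_mono_ae (hi1.sub hi0).abs
      (hs1i.const_mul K) ?_)
    rw [hμ]
    filter_upwards [ae_restrict_mem (measurableSet_cz s z'.1)] with z hz
    exact hpt z hz
  calc |g'| * _ ≤ 2 ^ s' * (K * ∫ z, |h z| * (|U z - m| * (1 / 2 : ℝ) ^ s) ∂μ) :=
        mul_le_mul hg'b hE (abs_nonneg _) hpow'.le
    _ = _ := by
        have hss' : (2 : ℝ) ^ s' * (1 / 2) ^ s' = 1 := by rw [← mul_pow]; norm_num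
        unfold s1
        rw [hK]
        linear_combination (2 ^ s * (C₀ * ((C₀ + C₁) * L₁ + C₀ * L₂) *
          ((2 : ℝ) ^ s * (1 / 2) ^ s' + |κ| * (1 / 2) ^ s')) *
          ∫ z, |h z| * (|U z - m| * (1 / 2 : ℝ) ^ s) ∂μ) * hss'

end Crest.Agent.R087.PairDeepAx975
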