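import Crest.Agent.R087.PairDeepA_975
import Crest.Agent.R087.TreeIf_153

/-!
Row 87 (S0115), operator part, leaf PAIR-LOW-DEEP (helper975).

`deep` : the sum over an interval of scales with `|U w - m| 2^-s ≤ K0` of the pairings of a short point
`w` with one LOW tree is `≤ C T`, `T` = the four kept bounds.
-/

set_option autoImplicit false

noncomputable section

open MeasureTheory Crest.Agent.R087.Sh0x283 Crest.Agent.R087.GateDefx273 Crest.Agent.R087.T1x90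
open Crest.Agent.R087.TreeIfx153 Crest.Agent.R087.PairCorex975 Crest.Agent.R087.PairDeepAx975

namespace Crest.Agent.R087.PairDeepx975

/-- pair kernel, long `(r,z)`, short `(s,w)` -/
def GG (ζ Φ : ℝ → ℝ) (U : ℝ × ℝ → ℝ) (r s : ℕ) (z w : ℝ × ℝ) : ℝ :=
  (2 : ℝ) ^ r * ga r z.1 * ((2 : ℝ) ^ s * ga s w.1) *
    ∫ u, ζ ((2 : ℝ) ^ r * u - cel r z.1) * ζ ((2 : ℝ) ^ s * u - cel s w.1) *
      Φ (OPdefx799.ln U w u - OPdefx799.ln U z u)

/-- pairing of the short `(s,w)` with the tree -/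
def PS (ζ Φ : ℝ → ℝ) (U : ℝ × ℝ → ℝ) (h : ℝ × ℝ → ℝ) (act : ℕ → Set (ℝ × ℝ)) (s : ℕ)
    (w : ℝ × ℝ) : ℝ :=
  ∑ r ∈ Finset.range (s + 1), ∫ z in act r, h z * GG ζ Φ U r s z w

theorem GG_eq (ζ Φ : ℝ → ℝ) (U : ℝ × ℝ → ℝ) (r s : ℕ) (z w : ℝ × ℝ) :
    GG ζ Φ U r s z w = gg (fun v => Φ (-v)) ζ U r s z w := by
  unfold GG gg
  have : ∫ u, ζ ((2 : ℝ) ^ r * u - cel r z.1) * ζ ((2 : ℝ) ^ s * u - cel s w.1) *
      Φ (OPdefx799.ln U w u - OPdefx799.ln U z u) =
      ∫ u, ζ ((2 : ℝ) ^ s * u - OPdefx799.ix s w.1) * (ζ ((2 : ℝ) ^ r * u - OPdefx799.ix r z.1) *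
        Φ (-(OPdefx799.ln U z u - OPdefx799.ln U w u))) := by
    refine integral_congr_ae (Filter.Eventually.of_forall fun u => ?_)
    show ζ ((2 : ℝ) ^ r * u - OPdefx799.ix r z.1) * ζ ((2 : ℝ) ^ s * u - OPdefx799.ix s w.1) *
      Φ (OPdefx799.ln U w u - OPdefx799.ln U z u) =
      ζ ((2 : ℝ) ^ s * u - OPdefx799.ix s w.1) * (ζ ((2 : ℝ) ^ r * u - OPdefx799.ix r z.1) *
        Φ (-(OPdefx799.ln U z u - OPdefx799.ln U w u)))
    rw [neg_sub]
    ring
  rw [this]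
  rfl

theorem int_act {ζ Φ : ℝ → ℝ} {U h : ℝ × ℝ → ℝ} {A : Set (ℝ × ℝ)} (hA : MeasurableSet A) (r s : ℕ)
    (w : ℝ × ℝ) :
    ∫ z in A, h z * GG ζ Φ U r s z w = ∫ z, A.indicator h z * gg (fun v => Φ (-v)) ζ U r s z w := by
  rw [← integral_indicator hA]
  refine integral_congr_ae (Filter.Eventually.of_forall fun z => ?_)
  by_cases hz : z ∈ A
  · simp only [Set.indicator_of_mem hz, GG_eq]
  · simp only [Set.indicator_of_notMem hz, zero_mul]

theorem alp_eq (Φ : ℝ → ℝ) {h : ℝ × ℝ → ℝ} {act : ℕ → Set (ℝ × ℝ)}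
    (hA : ∀ s, MeasurableSet (act s)) (b m : ℝ) (r : ℕ) (x v : ℝ) :
    alp (fun v => Φ (-v)) ((act r).indicator h) b m r x v = aL Φ b m h act r (-v) x := by
  unfold alp aL al
  congr 1
  have h1 : ∀ z : ℝ × ℝ, (act r).indicator h z * (gt (Int.fract ((2 : ℝ) ^ r * z.1)) *
      Φ (-(z.2 - (b + m * z.1) + v))) =
      (act r).indicator (fun z => ga r z.1 * (h z * Φ (-v - rv b m z))) z := by
    intro z
    by_cases hz : z ∈ act r
    · simp only [Set.indicator_of_mem hz]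
      unfold ga rv
      rw [show -(z.2 - (b + m * z.1) + v) = -v - (z.2 - (b + m * z.1)) by ring]
      ring
    · simp only [Set.indicator_of_notMem hz, zero_mul]
  simp_rw [h1]
  rw [setIntegral_indicator (hA r)]
  rfl

theorem s1_eq {h U : ℝ × ℝ → ℝ} {act : ℕ → Set (ℝ × ℝ)} (hA : ∀ s, MeasurableSet (act s)) (m : ℝ)
    (r : ℕ) (x : ℝ) : s1 ((act r).indicator h) U m r x = eL U m h act r x := by
  unfold s1 eL pL wU
  congr 1
  have h1 : ∀ z : ℝ × ℝ, |(act r).indicator h z| * (|U z - m| * (1 / 2 : ℝ) ^ r) =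
      (act r).indicator (fun z => |h z| * (|U z - m| * (1 / 2 : ℝ) ^ r)) z := by
    intro z
    by_cases hz : z ∈ act r
    · simp only [Set.indicator_of_mem hz]
    · simp only [Set.indicator_of_notMem hz, abs_zero, zero_mul]
  simp_rw [h1]
  rw [setIntegral_indicator (hA r)]
  rfl

/-- derivative in the vertical variable -/
theorem aL_deriv {Ψ Ψ' : ℝ → ℝ} (hd : ∀ v, HasDerivAt Ψ (Ψ' v) v) (hc : Continuous Ψ')
    (hb : ∀ v, |Ψ v| ≤ 1) (hb' : ∀ v, |Ψ' v| ≤ 1) {h : ℝ × ℝ → ℝ} (hh : Nice h)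
    (act : ℕ → Set (ℝ × ℝ)) (b m : ℝ) (r : ℕ) (x v : ℝ) :
    HasDerivAt (fun v => aL Ψ b m h act r v x) (aL Ψ' b m h act r v x) v := by
  unfold aL al
  refine HasDerivAt.const_mul _ ?_
  have hΨ : Continuous Ψ := continuous_iff_continuousAt.2 fun v => (hd v).continuousAt
  have hgm : Measurable fun z : ℝ × ℝ => ga r z.1 := (measurable_gtf r).comp measurable_fst
  have hm : ∀ (Θ : ℝ → ℝ), Continuous Θ → ∀ v, Measurable fun z : ℝ × ℝ =>
      ga r z.1 * (h z * Θ (v - rv b m z)) := by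
    intro Θ hΘ v
    refine hgm.mul (hh.1.mul (hΘ.measurable.comp ?_))
    unfold rv
    fun_prop
  have hi := (nice_int hh).abs
  have hga : ∀ z : ℝ × ℝ, |ga r z.1| ≤ 1 := fun z => GateAx273.gt_abs _
  have hbound : ∀ (Θ : ℝ → ℝ), (∀ v, |Θ v| ≤ 1) → ∀ (v : ℝ) (z : ℝ × ℝ),
      ‖ga r z.1 * (h z * Θ (v - rv b m z))‖ ≤ |h z| := by
    intro Θ hΘ v z
    rw [Real.norm_eq_abs, abs_mul, abs_mul]
    have h1 := hga z
    have h2 := hΘ (v - rv b m z)
    calc |ga r z.1| * (|h z| * |Θ (v - rv b m z)|) ≤ 1 * (|h z| * 1) :=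
          mul_le_mul h1 (mul_le_mul_of_nonneg_left h2 (abs_nonneg _)) (by positivity) zero_le_one
      _ = |h z| := by ring
  refine (hasDerivAt_integral_of_dominated_loc_of_deriv_le (bound := fun z => |h z|)
    (F := fun v z => ga r z.1 * (h z * Ψ (v - rv b m z)))
    (F' := fun v z => ga r z.1 * (h z * Ψ' (v - rv b m z))) Filter.univ_mem
    (Filter.Eventually.of_forall fun v => (hm Ψ hΨ v).aestronglyMeasurable) ?_
    (hm Ψ' hc v).aestronglyMeasurable (Filter.Eventually.of_forall fun z v _ => hbound Ψ' hb' v z)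
    hi.restrict (Filter.Eventually.of_forall fun z v _ => ?_)).2
  · exact hi.restrict.mono' (hm Ψ hΨ v).aestronglyMeasurable
      (Filter.Eventually.of_forall fun z => hbound Ψ hb v z)
  · have e1 : HasDerivAt (fun v : ℝ => v - rv b m z) 1 v := (hasDerivAt_id v).sub_const _
    have e2 := (hd (v - rv b m z)).comp v e1
    have e3 := (e2.const_mul (h z)).const_mul (ga r z.1)
    simpa using e3

/-- Lipschitz bound for the truncated series in `v` -/
theorem FL_lip {ζ Ψ Ψ' : ℝ → ℝ} (hd : ∀ v, HasDerivAt Ψ (Ψ' v) v) (hc : Continuous Ψ')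
    (hb : ∀ v, |Ψ v| ≤ 1) (hb' : ∀ v, |Ψ' v| ≤ 1) {h : ℝ × ℝ → ℝ} (hh : Nice h)
    (act : ℕ → Set (ℝ × ℝ)) (b m : ℝ) (s : ℕ) {T : ℝ} (x : ℝ)
    (hT : ∀ v, |FL ζ Ψ' b m h act s v x| ≤ T) (v v' : ℝ) :
    |FL ζ Ψ b m h act s v x - FL ζ Ψ b m h act s v' x| ≤ T * |v - v'| := by
  have hder : ∀ v, HasDerivAt (fun v => FL ζ Ψ b m h act s v x) (FL ζ Ψ' b m h act s v x) v := by
    intro v
    unfold FL
    exact HasDerivAt.fun_sum fun r _ => (aL_deriv hd hc hb hb' hh act b m r x v).const_mul _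
  have := Convex.norm_image_sub_le_of_norm_hasDerivWithin_le (f := fun v => FL ζ Ψ b m h act s v x)
    (f' := fun v => FL ζ Ψ' b m h act s v x) (C := T) (s := Set.univ) (x := v') (y := v)
    (fun x _ => (hder x).hasDerivWithinAt) (fun v _ => hT v) convex_univ trivial trivial
  simpa using this

/-- the cell of scale `s` of `x` -/
def cl (s : ℕ) (x : ℝ) : Set ℝ := {u : ℝ | cel s u = cel s x}

theorem measurableSet_cl (s : ℕ) (x : ℝ) : MeasurableSet (cl s x) :=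
  (measurable_ix s) (measurableSet_singleton (OPdefx799.ix s x))

theorem cl_eq (s : ℕ) (x : ℝ) :
    cl s x = Set.Ico ((cel s x : ℝ) / 2 ^ s) (((cel s x : ℝ) + 1) / 2 ^ s) := by
  have h2 : (0 : ℝ) < 2 ^ s := by positivity
  ext u
  show cel s u = cel s x ↔ _
  constructor
  · intro h
    rw [← h]
    exact ⟨ix_le, lt_ix⟩
  · rintro ⟨h1, h3⟩
    rw [div_le_iff₀ h2] at h1
    rw [lt_div_iff₀ h2] at h3
    show ⌊(2 : ℝ) ^ s * u⌋ = _
    rw [Int.floor_eq_iff]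
    constructor <;> linarith

theorem volume_cl (s : ℕ) (x : ℝ) : volume (cl s x) = ENNReal.ofReal ((1 / 2) ^ s) := by
  rw [cl_eq, Real.volume_Ico]
  congr 1
  have h2 : (0 : ℝ) < 2 ^ s := by positivity
  rw [← sub_div, add_sub_cancel_left, one_div, one_div, inv_pow]

/-- the products of wavelets live on the cell of the short point -/
theorem wav_cell {ζ : ℝ → ℝ} (hζ : ZetC ζ) {r s : ℕ} (hrs : r ≤ s) (x : ℝ) (X Y : ℝ → ℝ)
    (hXY : ∀ u, cel s u = cel s x → X u = Y u) :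
    ∫ u, ζ ((2 : ℝ) ^ s * u - cel s x) * (ζ ((2 : ℝ) ^ r * u - cel r x) * X u) =
      ∫ u in cl s x, ζ (Int.fract ((2 : ℝ) ^ s * u)) * (ζ (Int.fract ((2 : ℝ) ^ r * u)) * Y u) := by
  rw [← setIntegral_eq_integral_of_forall_compl_eq_zero (s := cl s x) (fun u hu => by
    by_contra hne
    exact hu (ix_of_zet hζ (left_ne_zero_of_mul hne)))]
  refine setIntegral_congr_fun (measurableSet_cl s x) fun u hu => ?_
  have hu' : cel s u = cel s x := hu
  have hr : cel r u = cel r x := ix_mono hrs hu'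
  show ζ ((2 : ℝ) ^ s * u - cel s x) * (ζ ((2 : ℝ) ^ r * u - cel r x) * X u) =
    ζ (Int.fract ((2 : ℝ) ^ s * u)) * (ζ (Int.fract ((2 : ℝ) ^ r * u)) * Y u)
  rw [hXY u hu', ← hu', ← hr]
  rfl

theorem measurable_zf {ζ : ℝ → ℝ} (hζ : ZetC ζ) (r : ℕ) :
    Measurable fun u : ℝ => ζ (Int.fract ((2 : ℝ) ^ r * u)) :=
  (zet_cont hζ).measurable.comp (measurable_fract.comp (measurable_id.const_mul _))

theorem aL_cell (Ψ : ℝ → ℝ) (b m : ℝ) (h : ℝ × ℝ → ℝ) (act : ℕ → Set (ℝ × ℝ)) {r : ℕ} {x y : ℝ}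
    (hxy : cel r x = cel r y) (v : ℝ) : aL Ψ b m h act r v x = aL Ψ b m h act r v y := by
  unfold aL
  rw [hxy]

/-- **one scale of the short point**: main part `ga * bL`, errors -/
theorem scale {ζ : ℝ → ℝ} (hζ : ZetC ζ) {C₀ C₁ : ℝ} (hC₀ : ∀ t, |ζ t| ≤ C₀)
    (hC₁ : ∀ t, |deriv ζ t| ≤ C₁) {Φ Φ' Φ'' : ℝ → ℝ} (hd : ∀ v, HasDerivAt Φ (Φ' v) v)
    (hd' : ∀ v, HasDerivAt Φ' (Φ'' v) v) (hb : ∀ v, |Φ v| ≤ 1) (hb' : ∀ v, |Φ' v| ≤ 1)
    (hb'' : ∀ v, |Φ'' v| ≤ 1) {U : ℝ × ℝ → ℝ} (hU : Measurable U)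
    {h : ℝ × ℝ → ℝ} (hh : Nice h) {act : ℕ → Set (ℝ × ℝ)} (hA : ∀ s, MeasurableSet (act s))
    (b m : ℝ) {W : ℝ} (hW : ∀ s, ∀ z ∈ act s, h z ≠ 0 → |U z - m| * (1 / 2 : ℝ) ^ s ≤ W) (s : ℕ) (w : ℝ × ℝ) {T : ℝ} (hT : ∀ v x, |FL ζ Φ' b m h act (s + 1) v x| ≤ T) :
    |PS ζ Φ U h act s w - ga s w.1 * bL ζ Φ b m h act s (rv b m w) w.1| ≤
      C₀ * T * (|U w - m| * (1 / 2) ^ s) +
      ∑ r ∈ Finset.range (s + 1), C₀ * ((C₀ + C₁) * 1 + C₀ * 1) *
        ((2 : ℝ) ^ r * (1 / 2) ^ s + |U w - m| * (1 / 2) ^ s) * eL U m h act r w.1 := by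
  have hC : 0 ≤ C₀ := (abs_nonneg _).trans (hC₀ 0)
  have hT0 : 0 ≤ T := (abs_nonneg _).trans (hT 0 0)
  have hpow : (0 : ℝ) < 2 ^ s := by positivity
  have hc : Continuous Φ := continuous_iff_continuousAt.2 fun v => (hd v).continuousAt
  have hc' : Continuous Φ' := continuous_iff_continuousAt.2 fun v => (hd' v).continuousAt
  have hPB : PB (fun v => Φ (-v)) (fun v => -Φ' (-v)) (fun v => Φ'' (-v)) 1 1 1 := by
    refine ⟨fun v => ?_, fun v => ?_, fun v => hb _, fun v => ?_, fun v => hb'' _⟩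
    · exact ((hd (-v)).comp v (hasDerivAt_neg v)).congr_deriv (by ring)
    · exact ((hd' (-v)).comp v (hasDerivAt_neg v)).neg.congr_deriv (by ring)
    · rw [abs_neg]; exact hb' _
  set v : ℝ → ℝ := fun u => rv b m w + (u - w.1) * (U w - m) with hv
  set g : ℝ := (2 : ℝ) ^ s * ga s w.1 with hg
  have hgb : |g| ≤ 2 ^ s := by
    rw [hg, abs_mul, abs_of_pos hpow]
    calc _ ≤ (2 : ℝ) ^ s * 1 := mul_le_mul_of_nonneg_left (GateAx273.gt_abs _) hpow.le
      _ = _ := mul_one _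
  -- the coefficient function
  set X : ℕ → ℝ → ℝ := fun r t => aL Φ b m h act r t w.1 with hX
  have hXc : ∀ r, Continuous (X r) := fun r => continuous_iff_continuousAt.2 fun t =>
    (aL_deriv hd hc' hb hb' hh act b m r w.1 t).continuousAt
  set Z : ℕ → ℝ → ℝ := fun r u => ζ (Int.fract ((2 : ℝ) ^ r * u)) with hZ
  have hZm : ∀ r, Measurable (Z r) := fun r => measurable_zf hζ r
  set A : Set ℝ := cl s w.1 with hAd
  have hAm : MeasurableSet A := measurableSet_cl s w.1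
  have hAv : volume A ≠ ⊤ := by rw [hAd, volume_cl]; exact ENNReal.ofReal_ne_top
  have : IsFiniteMeasure (volume.restrict A) := ⟨by
    rw [Measure.restrict_apply_univ]; exact hAv.lt_top⟩
  -- step 1: every `r ≤ s`
  have h1 : ∀ r ∈ Finset.range (s + 1),
      |(∫ z in act r, h z * GG ζ Φ U r s z w) - g * ∫ u in A, Z s u * (Z r u * X r (v u))| ≤
      C₀ * ((C₀ + C₁) * 1 + C₀ * 1) * ((2 : ℝ) ^ r * (1 / 2) ^ s + |U w - m| * (1 / 2) ^ s) *
        eL U m h act r w.1 := by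
    intro r hr
    have hrs : r ≤ s := by
      have := Finset.mem_range.1 hr
      omega
    have hUi : Integrable fun z => |(act r).indicator h z| * (|U z - m| * (1 / 2 : ℝ) ^ r) := by
      refine ((nice_int hh).abs.mul_const |W|).mono' ?_ (Filter.Eventually.of_forall fun z => ?_)
      · exact ((hh.1.indicator (hA r)).abs.mul
          ((hU.sub_const m).abs.mul_const _)).aestronglyMeasurable
      · rw [Real.norm_eq_abs, abs_of_nonneg (by positivity)]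
        by_cases hz : z ∈ act r
        · rw [Set.indicator_of_mem hz]
          by_cases hz0 : h z = 0
          · rw [hz0]; simp
          · exact mul_le_mul_of_nonneg_left ((hW r z hz hz0).trans (le_abs_self W)) (abs_nonneg _)
        · rw [Set.indicator_of_notMem hz, abs_zero, zero_mul]
          positivity
    have key := one hζ hC₀ hC₁ hPB hU (h := (act r).indicator h) ((nice_int hh).indicator (hA r))
      b m hrs hUi w
    rw [s1_eq hA, abs_sub_comm m (U w)] at key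
    rw [int_act (hA r)]
    have e : ∫ u, ζ ((2 : ℝ) ^ s * u - OPdefx799.ix s w.1) *
        (ζ ((2 : ℝ) ^ r * u - OPdefx799.ix r w.1) *
          alp (fun v => Φ (-v)) ((act r).indicator h) b m r w.1
            (b + m * w.1 - w.2 + (u - w.1) * (m - U w))) =
        ∫ u in A, Z s u * (Z r u * X r (v u)) := by
      refine wav_cell hζ hrs w.1 _ _ fun u _ => ?_
      rw [alp_eq Φ hA]
      show aL Φ b m h act r _ w.1 = aL Φ b m h act r (v u) w.1
      congr 1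
      simp only [hv, rv]
      ring
    rw [e] at key
    exact key
  -- boundedness and integrability on the cell
  have hIr : ∀ (r : ℕ) (t : ℝ → ℝ), Continuous t →
      Integrable (fun u => Z s u * (Z r u * X r (t u))) (volume.restrict A) := by
    intro r t ht
    have hb1 : ∀ t, |X r t| ≤ (2 : ℝ) ^ r * ∫ z, |h z| := by
      intro t
      show |aL Φ b m h act r t w.1| ≤ _
      unfold aL al
      rw [abs_mul, abs_of_pos (by positivity : (0 : ℝ) < 2 ^ r)]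
      refine mul_le_mul_of_nonneg_left ?_ (by positivity)
      refine (abs_integral_le_integral_abs).trans ?_
      refine le_trans ?_ (setIntegral_le_integral (nice_int hh).abs
        (Filter.Eventually.of_forall fun z => abs_nonneg _) (s := {z : ℝ × ℝ | cel r z.1 =
          cel r w.1} ∩ act r))
      refine integral_mono_of_nonneg (Filter.Eventually.of_forall fun z => abs_nonneg _)
        (nice_int hh).abs.restrict (Filter.Eventually.of_forall fun z => ?_)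
      show |ga r z.1 * (h z * Φ (t - rv b m z))| ≤ |h z|
      rw [abs_mul, abs_mul]
      calc |ga r z.1| * (|h z| * |Φ (t - rv b m z)|) ≤ 1 * (|h z| * 1) :=
            mul_le_mul (GateAx273.gt_abs _) (mul_le_mul_of_nonneg_left (hb _) (abs_nonneg _))
              (by positivity) zero_le_one
        _ = |h z| := by ring
    refine Integrable.of_bound (C := C₀ * (C₀ * ((2 : ℝ) ^ r * ∫ z, |h z|)))
      ((hZm s).mul ((hZm r).mul ((hXc r).comp ht).measurable)).aestronglyMeasurable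
      (Filter.Eventually.of_forall fun u => ?_)
    rw [Real.norm_eq_abs, abs_mul (Z s u), abs_mul (Z r u)]
    exact mul_le_mul (hC₀ _) (mul_le_mul (hC₀ _) (hb1 _) (abs_nonneg _) hC)
      (by positivity) hC
  have hvc : Continuous v := by
    simp only [hv]
    fun_prop
  -- step 2: bL
  have h2 : ga s w.1 * bL ζ Φ b m h act s (rv b m w) w.1 =
      g * ∑ r ∈ Finset.range (s + 1), ∫ u in A, Z s u * (Z r u * X r (rv b m w)) := by
    rw [← integral_finsetSum _ (fun r _ => hIr r (fun _ => rv b m w) continuous_const)]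
    unfold bL
    rw [hg]
    have : ∫ u in {u : ℝ | cel s u = cel s w.1}, ζ (Int.fract ((2 : ℝ) ^ s * u)) *
        FL ζ Φ b m h act (s + 1) (rv b m w) u =
        ∫ u in A, ∑ r ∈ Finset.range (s + 1), Z s u * (Z r u * X r (rv b m w)) := by
      refine setIntegral_congr_fun hAm fun u hu => ?_
      have hu' : cel s u = cel s w.1 := hu
      show ζ (Int.fract ((2 : ℝ) ^ s * u)) * FL ζ Φ b m h act (s + 1) (rv b m w) u =
        ∑ r ∈ Finset.range (s + 1), Z s u * (Z r u * X r (rv b m w))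
      unfold FL
      rw [Finset.mul_sum]
      refine Finset.sum_congr rfl fun r hr => ?_
      have hrs : r ≤ s := by
        have := Finset.mem_range.1 hr
        omega
      rw [aL_cell Φ b m h act (ix_mono hrs hu' : cel r u = cel r w.1)]
    rw [this]
    ring
  -- step 3: the difference of the main parts
  set P1 : ℝ := ∑ r ∈ Finset.range (s + 1), ∫ u in A, Z s u * (Z r u * X r (v u)) with hP1
  set P0 : ℝ := ∑ r ∈ Finset.range (s + 1), ∫ u in A, Z s u * (Z r u * X r (rv b m w)) with hP0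
  have h3 : |g * P1 - g * P0| ≤ C₀ * T * (|U w - m| * (1 / 2) ^ s) := by
    rw [← mul_sub, abs_mul]
    have e1 : P1 - P0 = ∫ u in A, Z s u * (FL ζ Φ b m h act (s + 1) (v u) u -
          FL ζ Φ b m h act (s + 1) (rv b m w) u) := by
      rw [hP1, hP0, ← integral_finsetSum _ (fun r _ => hIr r v hvc),
        ← integral_finsetSum _ (fun r _ => hIr r (fun _ => rv b m w) continuous_const),
        ← integral_sub (integrable_finsetSum _ (fun r _ => hIr r v hvc))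
          (integrable_finsetSum _ (fun r _ => hIr r (fun _ => rv b m w) continuous_const))]
      refine setIntegral_congr_fun hAm fun u hu => ?_
      have hu' : cel s u = cel s w.1 := hu
      show (∑ r ∈ Finset.range (s + 1), Z s u * (Z r u * X r (v u))) -
        (∑ r ∈ Finset.range (s + 1), Z s u * (Z r u * X r (rv b m w))) =
        Z s u * (FL ζ Φ b m h act (s + 1) (v u) u - FL ζ Φ b m h act (s + 1) (rv b m w) u)
      unfold FL
      rw [← Finset.sum_sub_distrib, ← Finset.sum_sub_distrib, Finset.mul_sum]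
      refine Finset.sum_congr rfl fun r hr => ?_
      have hrs : r ≤ s := by
        have := Finset.mem_range.1 hr
        omega
      rw [aL_cell Φ b m h act (ix_mono hrs hu' : cel r u = cel r w.1),
        aL_cell Φ b m h act (ix_mono hrs hu' : cel r u = cel r w.1)]
      simp only [hX, hZ]
      ring
    have e2 : |P1 - P0| ≤ C₀ * (T * ((1 / 2) ^ s * |U w - m|)) * (1 / 2) ^ s := by
      rw [e1]
      have := norm_setIntegral_le_of_norm_le_const (μ := volume) (s := A)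
        (f := fun u => Z s u * (FL ζ Φ b m h act (s + 1) (v u) u -
          FL ζ Φ b m h act (s + 1) (rv b m w) u))
        (C := C₀ * (T * ((1 / 2) ^ s * |U w - m|))) hAv.lt_top (fun u hu => by
          rw [Real.norm_eq_abs, abs_mul]
          refine mul_le_mul (hC₀ _) ?_ (abs_nonneg _) hC
          refine (FL_lip hd hc' hb hb' hh act b m (s + 1) u (fun t => hT t u) _ _).trans ?_
          refine mul_le_mul_of_nonneg_left ?_ hT0
          have hvu : v u - rv b m w = (u - w.1) * (U w - m) := by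
            simp only [hv]; ring
          rw [hvu, abs_mul]
          refine mul_le_mul_of_nonneg_right ?_ (abs_nonneg _)
          have hu1 : u ∈ Set.Ico ((cel s w.1 : ℝ) / 2 ^ s) (((cel s w.1 : ℝ) + 1) / 2 ^ s) := by
            rw [← cl_eq]; exact hu
          have := cell_dist (s := s) (s' := s) le_rfl (x' := w.1) (x := w.1) (u := u) rfl
            ⟨hu1.1, hu1.2.le⟩
          rwa [one_div, inv_pow])
      rwa [Real.norm_eq_abs, measureReal_def, hAd, volume_cl, ENNReal.toReal_ofReal (by positivity)]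
        at this
    calc |g| * |P1 - P0| ≤ 2 ^ s * (C₀ * (T * ((1 / 2) ^ s * |U w - m|)) * (1 / 2) ^ s) :=
          mul_le_mul hgb e2 (abs_nonneg _) hpow.le
      _ = _ := by
          have hss : (2 : ℝ) ^ s * (1 / 2) ^ s = 1 := by rw [← mul_pow]; norm_num
          linear_combination (C₀ * T * (1 / 2) ^ s * |U w - m|) * hss
  -- conclusion
  have h4 : PS ζ Φ U h act s w - g * P1 = ∑ r ∈ Finset.range (s + 1),
      ((∫ z in act r, h z * GG ζ Φ U r s z w) - g * ∫ u in A, Z s u * (Z r u * X r (v u))) := by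
    rw [Finset.sum_sub_distrib, ← Finset.mul_sum]
    rfl
  have h5 : |PS ζ Φ U h act s w - g * P1| ≤ ∑ r ∈ Finset.range (s + 1),
      C₀ * ((C₀ + C₁) * 1 + C₀ * 1) * ((2 : ℝ) ^ r * (1 / 2) ^ s + |U w - m| * (1 / 2) ^ s) *
        eL U m h act r w.1 := by
    rw [h4]
    exact (Finset.abs_sum_le_sum_abs _ _).trans (Finset.sum_le_sum h1)
  rw [h2]
  calc |PS ζ Φ U h act s w - g * P0| = |(g * P1 - g * P0) + (PS ζ Φ U h act s w - g * P1)| := by
        congr 1; ring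
    _ ≤ |g * P1 - g * P0| + |PS ζ Φ U h act s w - g * P1| := abs_add_le _ _
    _ ≤ _ := add_le_add h3 h5

theorem sumA (e : ℕ → ℝ) (n : ℕ) :
    ∑ s ∈ Finset.range n, ∑ r ∈ Finset.range (s + 1), (2 : ℝ) ^ r * (1 / 2) ^ s * e r +
      ∑ r ∈ Finset.range n, (2 : ℝ) ^ r * (1 / 2) ^ n * 2 * e r = 2 * ∑ r ∈ Finset.range n, e r := by
  induction n with
  | zero => simp
  | succ n ih =>
    have e1 : ∑ r ∈ Finset.range (n + 1), (2 : ℝ) ^ r * (1 / 2) ^ (n + 1) * 2 * e r =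
        ∑ r ∈ Finset.range (n + 1), (2 : ℝ) ^ r * (1 / 2) ^ n * e r :=
      Finset.sum_congr rfl fun r _ => by ring
    have e2 : ∑ r ∈ Finset.range n, (2 : ℝ) ^ r * (1 / 2) ^ n * 2 * e r =
        2 * ∑ r ∈ Finset.range n, (2 : ℝ) ^ r * (1 / 2) ^ n * e r := by
      rw [Finset.mul_sum]
      exact Finset.sum_congr rfl fun r _ => by ring
    have e3 : (2 : ℝ) ^ n * (1 / 2) ^ n = 1 := by rw [← mul_pow]; norm_num
    rw [e2] at ih
    rw [Finset.sum_range_succ, e1, Finset.sum_range_succ (fun r => (2 : ℝ) ^ r * (1 / 2) ^ n * e r),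
      Finset.sum_range_succ e, e3]
    linarith

theorem sumA' {e : ℕ → ℝ} (he : ∀ r, 0 ≤ e r) (p q : ℕ) :
    ∑ s ∈ Finset.Ico p q, ∑ r ∈ Finset.range (s + 1), (2 : ℝ) ^ r * (1 / 2) ^ s * e r ≤
      2 * ∑ r ∈ Finset.range q, e r := by
  have h1 : ∑ s ∈ Finset.Ico p q, ∑ r ∈ Finset.range (s + 1), (2 : ℝ) ^ r * (1 / 2) ^ s * e r ≤
      ∑ s ∈ Finset.range q, ∑ r ∈ Finset.range (s + 1), (2 : ℝ) ^ r * (1 / 2) ^ s * e r := by
    refine Finset.sum_le_sum_of_subset_of_nonneg (fun s hs => ?_) fun s _ _ =>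
      Finset.sum_nonneg fun r _ => by have := he r; positivity
    exact Finset.mem_range.2 (Finset.mem_Ico.1 hs).2
  have h2 : 0 ≤ ∑ r ∈ Finset.range q, (2 : ℝ) ^ r * (1 / 2) ^ q * 2 * e r :=
    Finset.sum_nonneg fun r _ => by have := he r; positivity
  have := sumA e q
  linarith

theorem geoI (p q : ℕ) (h : p ≤ q) :
    ∑ s ∈ Finset.Ico p q, (1 / 2 : ℝ) ^ s + 2 * (1 / 2) ^ q = 2 * (1 / 2) ^ p := by
  induction q, h using Nat.le_induction with
  | base => simp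
  | succ q hq ih =>
    rw [Finset.sum_Ico_succ_top hq, pow_succ]
    linarith

theorem sumB {k K₀ : ℝ} (hk : 0 ≤ k) (hK : 0 ≤ K₀) {p q : ℕ}
    (h : ∀ s ∈ Finset.Ico p q, k * (1 / 2) ^ s ≤ K₀) :
    ∑ s ∈ Finset.Ico p q, k * (1 / 2 : ℝ) ^ s ≤ 2 * K₀ := by
  rcases lt_or_ge p q with hpq | hpq
  · have h1 := geoI p q hpq.le
    have h2 := h p (Finset.mem_Ico.2 ⟨le_rfl, hpq⟩)
    have h3 : (0 : ℝ) ≤ (1 / 2) ^ q := by positivity
    rw [← Finset.mul_sum]
    have h4 : ∑ s ∈ Finset.Ico p q, (1 / 2 : ℝ) ^ s ≤ 2 * (1 / 2) ^ p := by linarith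
    calc k * ∑ s ∈ Finset.Ico p q, (1 / 2 : ℝ) ^ s ≤ k * (2 * (1 / 2) ^ p) :=
          mul_le_mul_of_nonneg_left h4 hk
      _ ≤ 2 * K₀ := by linarith
  · rw [Finset.Ico_eq_empty (by omega)]
    simpa using hK

theorem eL_nonneg (U : ℝ × ℝ → ℝ) (m : ℝ) (h : ℝ × ℝ → ℝ) (act : ℕ → Set (ℝ × ℝ)) (s : ℕ) (x : ℝ) :
    0 ≤ eL U m h act s x := by
  unfold eL pL wU
  exact mul_nonneg (by positivity) (integral_nonneg fun z => by positivity)

/-- **PAIR-LOW-DEEP**, field bounded only on the active points -/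
theorem deep' {ζ : ℝ → ℝ} (hζ : ZetC ζ) {K₀ : ℝ} (hK₀ : 0 ≤ K₀) : ∃ C : ℝ, 0 ≤ C ∧
    ∀ (P : ℕ) (Ψ : ℕ → ℝ → ℝ), PF P Ψ → ∀ i : ℕ, i + 1 ≤ P →
    ∀ (S : ℕ) (U : ℝ × ℝ → ℝ) (b m : ℝ) (h : ℝ × ℝ → ℝ) (act : ℕ → Set (ℝ × ℝ)) (T : ℝ),
      Measurable U → (∃ W : ℝ, ∀ s, ∀ z ∈ act s, h z ≠ 0 → |U z - m| * (1 / 2 : ℝ) ^ s ≤ W) →
      Nice h → (∀ s, MeasurableSet (act s)) →
      (∀ s ≤ S, ∀ v x, |FL ζ (Ψ (i + 1)) b m h act s v x| ≤ T) →
      (∀ a c, a ≤ c → c ≤ S → ∀ v x,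
        |∑ s ∈ Finset.Ico a c, ga s x * bL ζ (Ψ i) b m h act s v x| ≤ T) →
      (∀ x, ∑ s ∈ Finset.range S, eL U m h act s x ≤ T) →
      ∀ (w : ℝ × ℝ) (p q : ℕ), p ≤ q → q ≤ S →
        (∀ s ∈ Finset.Ico p q, |U w - m| * (1 / 2) ^ s ≤ K₀) →
        |∑ s ∈ Finset.Ico p q, PS ζ (Ψ i) U h act s w| ≤ C * T := by
  obtain ⟨C₀, hC, hC₀⟩ := zet_bdd hζ
  obtain ⟨C₁, hC', hC₁⟩ := zet_bdd' hζ
  refine ⟨1 + 2 * C₀ * K₀ + C₀ * ((C₀ + C₁) * 1 + C₀ * 1) * (2 + 2 * K₀), by positivity, ?_⟩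
  intro P Ψ hΨ i hi S U b m h act T hU hW hh hA hF hB hE w p q hpq hq hdeep
  obtain ⟨W, hW⟩ := hW
  have hT0 : 0 ≤ T := (abs_nonneg _).trans (hF 0 (Nat.zero_le _) 0 0)
  set k : ℝ := |U w - m| with hk
  have hk0 : 0 ≤ k := abs_nonneg _
  set CC : ℝ := C₀ * ((C₀ + C₁) * 1 + C₀ * 1) with hCC
  have hCC0 : 0 ≤ CC := by positivity
  have hs : ∀ s ∈ Finset.Ico p q, |PS ζ (Ψ i) U h act s w -
      ga s w.1 * bL ζ (Ψ i) b m h act s (rv b m w) w.1| ≤ C₀ * T * (k * (1 / 2) ^ s) +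
      ∑ r ∈ Finset.range (s + 1), CC * ((2 : ℝ) ^ r * (1 / 2) ^ s + k * (1 / 2) ^ s) *
        eL U m h act r w.1 := by
    intro s hs
    have hsq := (Finset.mem_Ico.1 hs).2
    exact scale hζ hC₀ hC₁ (hΨ.der i (by omega)) (hΨ.der (i + 1) (by omega)) (hΨ.bd i (by omega))
      (hΨ.bd (i + 1) (by omega)) (hΨ.bd (i + 2) (by omega)) hU hh hA b m hW s w
      (hF (s + 1) (by omega))
  have hsum : ∀ s ∈ Finset.Ico p q, ∑ r ∈ Finset.range (s + 1), eL U m h act r w.1 ≤ T := by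
    intro s hs
    have hsq := (Finset.mem_Ico.1 hs).2
    refine le_trans (Finset.sum_le_sum_of_subset_of_nonneg (fun r hr => ?_)
      fun r _ _ => eL_nonneg U m h act r w.1) (hE w.1)
    have := Finset.mem_range.1 hr
    exact Finset.mem_range.2 (by omega)
  have h1 : |∑ s ∈ Finset.Ico p q, (PS ζ (Ψ i) U h act s w -
      ga s w.1 * bL ζ (Ψ i) b m h act s (rv b m w) w.1)| ≤
      2 * C₀ * K₀ * T + CC * (2 + 2 * K₀) * T := by
    refine (Finset.abs_sum_le_sum_abs _ _).trans ((Finset.sum_le_sum hs).trans ?_)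
    rw [Finset.sum_add_distrib, ← Finset.mul_sum]
    have hb := sumB hk0 hK₀ hdeep
    have a1 : C₀ * T * ∑ s ∈ Finset.Ico p q, k * (1 / 2) ^ s ≤ 2 * C₀ * K₀ * T := by
      calc _ ≤ C₀ * T * (2 * K₀) := mul_le_mul_of_nonneg_left hb (by positivity)
        _ = _ := by ring
    have a2 : ∑ s ∈ Finset.Ico p q, ∑ r ∈ Finset.range (s + 1),
        CC * ((2 : ℝ) ^ r * (1 / 2) ^ s + k * (1 / 2) ^ s) * eL U m h act r w.1 =
        CC * (∑ s ∈ Finset.Ico p q, ∑ r ∈ Finset.range (s + 1),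
          (2 : ℝ) ^ r * (1 / 2) ^ s * eL U m h act r w.1) +
        CC * ∑ s ∈ Finset.Ico p q, k * (1 / 2) ^ s *
          ∑ r ∈ Finset.range (s + 1), eL U m h act r w.1 := by
      simp only [Finset.mul_sum, ← Finset.sum_add_distrib]
      refine Finset.sum_congr rfl fun s _ => Finset.sum_congr rfl fun r _ => by ring
    have a3 : ∑ s ∈ Finset.Ico p q, ∑ r ∈ Finset.range (s + 1),
        (2 : ℝ) ^ r * (1 / 2) ^ s * eL U m h act r w.1 ≤ 2 * T := by
      refine (sumA' (fun r => eL_nonneg U m h act r w.1) p q).trans ?_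
      refine mul_le_mul_of_nonneg_left (le_trans (Finset.sum_le_sum_of_subset_of_nonneg
        (fun r hr => ?_) fun r _ _ => eL_nonneg U m h act r w.1) (hE w.1)) (by norm_num)
      have := Finset.mem_range.1 hr
      exact Finset.mem_range.2 (by omega)
    have a4 : ∑ s ∈ Finset.Ico p q, k * (1 / 2) ^ s *
        ∑ r ∈ Finset.range (s + 1), eL U m h act r w.1 ≤ 2 * K₀ * T := by
      calc _ ≤ ∑ s ∈ Finset.Ico p q, k * (1 / 2) ^ s * T :=
            Finset.sum_le_sum fun s hs => mul_le_mul_of_nonneg_left (hsum s hs) (by positivity)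
        _ = (∑ s ∈ Finset.Ico p q, k * (1 / 2) ^ s) * T := by rw [Finset.sum_mul]
        _ ≤ _ := mul_le_mul_of_nonneg_right hb hT0
    rw [a2]
    have b1 := mul_le_mul_of_nonneg_left a3 hCC0
    have b2 := mul_le_mul_of_nonneg_left a4 hCC0
    nlinarith
  have h2 : ∑ s ∈ Finset.Ico p q, PS ζ (Ψ i) U h act s w =
      (∑ s ∈ Finset.Ico p q, (PS ζ (Ψ i) U h act s w -
      ga s w.1 * bL ζ (Ψ i) b m h act s (rv b m w) w.1)) +
      ∑ s ∈ Finset.Ico p q, ga s w.1 * bL ζ (Ψ i) b m h act s (rv b m w) w.1 := by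
    rw [← Finset.sum_add_distrib]
    exact Finset.sum_congr rfl fun s _ => by ring
  rw [h2]
  refine (abs_add_le _ _).trans ((add_le_add h1 (hB p q hpq hq (rv b m w) w.1)).trans (le_of_eq ?_))
  ring

/-- **PAIR-LOW-DEEP** -/
theorem deep {ζ : ℝ → ℝ} (hζ : ZetC ζ) {K₀ : ℝ} (hK₀ : 0 ≤ K₀) : ∃ C : ℝ, 0 ≤ C ∧
    ∀ (P : ℕ) (Ψ : ℕ → ℝ → ℝ), PF P Ψ → ∀ i : ℕ, i + 1 ≤ P →
    ∀ (S : ℕ) (U : ℝ × ℝ → ℝ) (b m : ℝ) (h : ℝ × ℝ → ℝ) (act : ℕ → Set (ℝ × ℝ)) (T : ℝ),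
      Measurable U → (∃ W : ℝ, ∀ z, |U z| ≤ W) → Nice h → (∀ s, MeasurableSet (act s)) →
      (∀ s ≤ S, ∀ v x, |FL ζ (Ψ (i + 1)) b m h act s v x| ≤ T) →
      (∀ a c, a ≤ c → c ≤ S → ∀ v x,
        |∑ s ∈ Finset.Ico a c, ga s x * bL ζ (Ψ i) b m h act s v x| ≤ T) →
      (∀ x, ∑ s ∈ Finset.range S, eL U m h act s x ≤ T) →
      ∀ (w : ℝ × ℝ) (p q : ℕ), p ≤ q → q ≤ S →
        (∀ s ∈ Finset.Ico p q, |U w - m| * (1 / 2) ^ s ≤ K₀) →
        |∑ s ∈ Finset.Ico p q, PS ζ (Ψ i) U h act s w| ≤ C * T := by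
  obtain ⟨C, hC, h⟩ := deep' hζ hK₀
  refine ⟨C, hC, ?_⟩
  intro P Ψ hΨ i hi S U b m h' act T hU hW
  obtain ⟨W, hW⟩ := hW
  refine h P Ψ hΨ i hi S U b m h' act T hU ⟨W + |m|, fun s z _ _ => ?_⟩
  have h1 : |U z - m| ≤ W + |m| := (abs_sub _ _).trans (add_le_add_left (hW z) _)
  have h2 : (1 / 2 : ℝ) ^ s ≤ 1 := pow_le_one₀ (by norm_num) (by norm_num)
  calc |U z - m| * (1 / 2 : ℝ) ^ s ≤ |U z - m| * 1 := mul_le_mul_of_nonneg_left h2 (abs_nonneg _)
    _ ≤ _ := by linarith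

end Crest.Agent.R087.PairDeepx975
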