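import Crest.Agent.R087.Ker_500
import Crest.Agent.R087.Pair1_339
import Crest.Agent.R087.TreeIf_153

/-!
Row 87 (S0115), operator part, PAIR-LOW in one file (helper500): one LOW tree `(h, act)` along the line
`t ↦ b + m t` and one short point `w`.

`PS Φ … w s' = ∑_{s ≤ s'} ∫_{act s} h z * pp Φ ζ U s s' z w`.
-/

set_option autoImplicit false

noncomputable section

open MeasureTheory Crest.Agent.R087.Sh0x283 Crest.Agent.R087.GateDefx273 Crest.Agent.R087.T1x90
open Crest.Agent.R087.TreeIfx153 Crest.Agent.R087.Kerx500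
open Crest.Agent.R087.Pair1x339 (pp ln zet_cell cell_mono)

namespace Crest.Agent.R087.PairLowx500

/-! ### cells -/

theorem two_pos (s : ℕ) : (0 : ℝ) < 2 ^ s := by positivity

/-- nested cells -/
theorem cel_nest {s s' : ℕ} (h : s ≤ s') {x u : ℝ} (e : cel s' x = cel s' u) : cel s x = cel s u :=
  cell_mono h e

/-- point of the cell `(s', c)` with relative coordinate `t` -/
def pt (s' : ℕ) (c : ℤ) (t : ℝ) : ℝ := ((c : ℝ) + t) / 2 ^ s'

theorem cel_pt {s' : ℕ} {c : ℤ} {t : ℝ} (h0 : 0 ≤ t) (h1 : t < 1) : cel s' (pt s' c t) = c := by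
  unfold cel pt
  rw [mul_div_cancel₀ _ (two_pos s').ne', Int.floor_eq_iff]
  constructor <;> linarith

theorem cel_le {s : ℕ} {x : ℝ} : (cel s x : ℝ) ≤ 2 ^ s * x := Int.floor_le _

theorem lt_cel {s : ℕ} {x : ℝ} : 2 ^ s * x < (cel s x : ℝ) + 1 := Int.lt_floor_add_one _

theorem cel_dist {s : ℕ} {x u : ℝ} (e : cel s x = cel s u) : |x - u| ≤ (1 / 2) ^ s := by
  have h1 := cel_le (s := s) (x := x)
  have h2 := lt_cel (s := s) (x := x)
  have h3 := cel_le (s := s) (x := u)
  have h4 := lt_cel (s := s) (x := u)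
  rw [e] at h1 h2
  have h5 : (1 / 2 : ℝ) ^ s = 1 / 2 ^ s := by rw [one_div, inv_pow, one_div]
  have h6 : |x - u| * 2 ^ s = |(x - u) * 2 ^ s| := by rw [abs_mul, abs_of_pos (two_pos s)]
  rw [h5, le_div_iff₀ (two_pos s), h6, abs_le]
  constructor <;> nlinarith

/-- relative coordinates of a long cell -/
def tauR (s s' : ℕ) (x : ℝ) : ℝ := 2 ^ s / 2 ^ s' * (cel s' x : ℝ) - cel s x

def epsR (s s' : ℕ) : ℝ := (2 : ℝ) ^ s / 2 ^ s'

theorem epsR_pos (s s' : ℕ) : 0 < epsR s s' := by unfold epsR; positivity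

theorem epsR_le {s s' : ℕ} (h : s ≤ s') : epsR s s' ≤ 1 := by
  unfold epsR
  rw [div_le_one (two_pos s')]
  exact pow_le_pow_right₀ (by norm_num) h

theorem rel_pt {s s' : ℕ} (x t : ℝ) :
    2 ^ s * pt s' (cel s' x) t - cel s x = tauR s s' x + epsR s s' * t := by
  unfold pt tauR epsR
  ring

theorem fract_pt {s s' : ℕ} (h : s ≤ s') (x : ℝ) {t : ℝ} (h0 : 0 ≤ t) (h1 : t < 1) :
    cel s (pt s' (cel s' x) t) = cel s x ∧
      Int.fract ((2 : ℝ) ^ s * pt s' (cel s' x) t) = tauR s s' x + epsR s s' * t := by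
  have e1 : cel s' (pt s' (cel s' x) t) = cel s' x := cel_pt h0 h1
  have e2 : cel s (pt s' (cel s' x) t) = cel s x := cel_nest h e1
  refine ⟨e2, ?_⟩
  rw [← rel_pt, Int.fract]
  rw [show ⌊(2 : ℝ) ^ s * pt s' (cel s' x) t⌋ = cel s (pt s' (cel s' x) t) from rfl, e2]

/-- change of variables to relative coordinates -/
theorem chg (s' : ℕ) (c : ℤ) (F : ℝ → ℝ) :
    2 ^ s' * ∫ u, F u = ∫ t, F (pt s' c t) := by
  have h1 : ∫ t, F (pt s' c t) = ∫ t, F (((2 : ℝ) ^ s')⁻¹ * (t + c)) := by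
    congr 1
    ext t
    unfold pt
    congr 1
    field_simp
    ring
  rw [h1]
  rw [integral_add_right_eq_self (fun t => F (((2 : ℝ) ^ s')⁻¹ * t)) (c : ℝ),
    Measure.integral_comp_mul_left F (((2 : ℝ) ^ s')⁻¹)]
  rw [inv_inv, abs_of_pos (two_pos s'), smul_eq_mul]

/-! ### reduction of one pair -/

/-- reduced `u`-integral of one pair -/
def II (Φ ζ : ℝ → ℝ) (τ ε q a : ℝ) : ℝ := ∫ t, ζ t * (ζ (τ + ε * t) * Φ (q + a * t))

/-- slope difference in relative coordinates -/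
def aR (U : ℝ × ℝ → ℝ) (m : ℝ) (s' : ℕ) (w : ℝ × ℝ) : ℝ := (U w - m) * (1 / 2) ^ s'

/-- straight phase at `t = 0` -/
def pR (U : ℝ × ℝ → ℝ) (b m : ℝ) (s' : ℕ) (w z : ℝ × ℝ) : ℝ :=
  rv b m w + (U w - m) * (pt s' (cel s' w.1) 0 - w.1) - rv b m z

/-- exact phase at `t = 0` -/
def qR (U : ℝ × ℝ → ℝ) (b m : ℝ) (s' : ℕ) (w z : ℝ × ℝ) : ℝ :=
  pR U b m s' w z - (pt s' (cel s' w.1) 0 - z.1) * (U z - m)

/-- slope error -/
def eR (U : ℝ × ℝ → ℝ) (m : ℝ) (s' : ℕ) (z : ℝ × ℝ) : ℝ := -((U z - m) * (1 / 2) ^ s')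

theorem pt_eq (s' : ℕ) (c : ℤ) (t : ℝ) : pt s' c t = pt s' c 0 + t * (1 / 2) ^ s' := by
  unfold pt
  rw [one_div, inv_pow]
  field_simp
  ring

theorem phase (U : ℝ × ℝ → ℝ) (b m : ℝ) (s' : ℕ) (w z : ℝ × ℝ) (t : ℝ) :
    ln U w (pt s' (cel s' w.1) t) - ln U z (pt s' (cel s' w.1) t) =
      qR U b m s' w z + (aR U m s' w + eR U m s' z) * t := by
  unfold ln qR pR aR eR rv
  rw [pt_eq s' (cel s' w.1) t]
  ring

theorem phase0 (U : ℝ × ℝ → ℝ) (b m : ℝ) (s' : ℕ) (w z : ℝ × ℝ) (t : ℝ) :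
    rv b m w + (U w - m) * (pt s' (cel s' w.1) t - w.1) - rv b m z =
      pR U b m s' w z + aR U m s' w * t := by
  unfold pR aR
  rw [pt_eq s' (cel s' w.1) t]
  ring

/-- the two phases differ by at most the straightening error -/
theorem phase_err {U : ℝ × ℝ → ℝ} {b m : ℝ} {s s' : ℕ} (hs : s ≤ s') {w z : ℝ × ℝ}
    (hc : cel s z.1 = cel s w.1) {t : ℝ} (ht : t ∈ Set.Icc (0:ℝ) 1) :
    |(qR U b m s' w z + (aR U m s' w + eR U m s' z) * t) - (pR U b m s' w z + aR U m s' w * t)| ≤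
      wU U m s z := by
  have e1 : (qR U b m s' w z + (aR U m s' w + eR U m s' z) * t) -
      (pR U b m s' w z + aR U m s' w * t) = -((pt s' (cel s' w.1) t - z.1) * (U z - m)) := by
    unfold qR eR
    rw [pt_eq s' (cel s' w.1) t]
    ring
  have h2 : |pt s' (cel s' w.1) t - z.1| ≤ (1 / 2) ^ s := by
    -- closed cell
    have h3 : ∀ r ∈ Set.Ico (0:ℝ) 1, |pt s' (cel s' w.1) r - z.1| ≤ (1 / 2) ^ s := by
      intro r hr
      apply cel_dist
      rw [(fract_pt hs w.1 hr.1 hr.2).1, hc]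
    rcases lt_or_eq_of_le ht.2 with h4 | h4
    · exact h3 t ⟨ht.1, h4⟩
    · subst h4
      have hcont : Continuous (fun r : ℝ => |pt s' (cel s' w.1) r - z.1|) := by
        unfold pt
        fun_prop
      have h5 : (1:ℝ) ∈ closure (Set.Ico (0:ℝ) 1) := by
        rw [closure_Ico (by norm_num)]
        simp
      exact closure_minimal (s := Set.Ico (0:ℝ) 1) (t := {r | |pt s' (cel s' w.1) r - z.1| ≤ (1 / 2) ^ s})
        h3 (isClosed_le hcont continuous_const) h5
  rw [e1, abs_neg, abs_mul]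
  unfold wU
  rw [mul_comm |U z - m|]
  exact mul_le_mul_of_nonneg_right h2 (abs_nonneg _)

theorem eR_abs (U : ℝ × ℝ → ℝ) (m : ℝ) (s s' : ℕ) (z : ℝ × ℝ) :
    |eR U m s' z| ≤ epsR s s' * wU U m s z := by
  unfold eR epsR wU
  rw [abs_neg, abs_mul, abs_of_pos (by positivity : (0:ℝ) < (1 / 2) ^ s')]
  apply le_of_eq
  rw [one_div, inv_pow, inv_pow]
  have := (two_pos s).ne'
  field_simp

theorem wU_nonneg (U : ℝ × ℝ → ℝ) (m : ℝ) (s : ℕ) (z : ℝ × ℝ) : 0 ≤ wU U m s z := by
  unfold wU; positivity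

/-- the pair in reduced form -/
theorem pp_red {ζ Φ : ℝ → ℝ} (hev : ∀ r, Φ (-r) = Φ r)
    (U : ℝ × ℝ → ℝ) (b m : ℝ) {s s' : ℕ} (w z : ℝ × ℝ)
    (hc : cel s z.1 = cel s w.1) :
    pp Φ ζ U s s' z w = ga s' w.1 * (2 ^ s * (ga s z.1 *
      II Φ ζ (tauR s s' w.1) (epsR s s') (qR U b m s' w z) (aR U m s' w + eR U m s' z))) := by
  unfold pp
  have h1 : (2 : ℝ) ^ s' * ∫ u, ζ ((2 : ℝ) ^ s' * u - ⌊(2 : ℝ) ^ s' * w.1⌋) *
      ζ ((2 : ℝ) ^ s * u - ⌊(2 : ℝ) ^ s * z.1⌋) * Φ (ln U z u - ln U w u) =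
      II Φ ζ (tauR s s' w.1) (epsR s s') (qR U b m s' w z) (aR U m s' w + eR U m s' z) := by
    rw [chg s' (cel s' w.1)]
    unfold II
    congr 1
    ext t
    have e1 : (2 : ℝ) ^ s' * pt s' (cel s' w.1) t - ⌊(2 : ℝ) ^ s' * w.1⌋ = t := by
      unfold pt
      rw [mul_div_cancel₀ _ (two_pos s').ne']
      change ((cel s' w.1 : ℤ) : ℝ) + t - (cel s' w.1 : ℤ) = t
      ring
    have e2 : (2 : ℝ) ^ s * pt s' (cel s' w.1) t - ⌊(2 : ℝ) ^ s * z.1⌋ =
        tauR s s' w.1 + epsR s s' * t := by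
      rw [← rel_pt, ← hc]
      rfl
    have e3 : Φ (ln U z (pt s' (cel s' w.1) t) - ln U w (pt s' (cel s' w.1) t)) =
        Φ (qR U b m s' w z + (aR U m s' w + eR U m s' z) * t) := by
      rw [← phase, ← hev]
      congr 1
      ring
    rw [e1, e2, e3]
    ring
  rw [← h1]
  unfold ga
  ring

/-- far cells do not interact -/
theorem pp_far0 {ζ Φ : ℝ → ℝ} (hz : ZetC ζ) (U : ℝ × ℝ → ℝ) {s s' : ℕ} (hs : s ≤ s')
    (w z : ℝ × ℝ) (hc : cel s z.1 ≠ cel s w.1) : pp Φ ζ U s s' z w = 0 := by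
  unfold pp
  have h1 : ∀ u, ζ ((2 : ℝ) ^ s' * u - ⌊(2 : ℝ) ^ s' * w.1⌋) *
      ζ ((2 : ℝ) ^ s * u - ⌊(2 : ℝ) ^ s * z.1⌋) * Φ (ln U z u - ln U w u) = 0 := by
    intro u
    by_contra hne
    have a1 := left_ne_zero_of_mul (left_ne_zero_of_mul hne)
    have a2 := right_ne_zero_of_mul (left_ne_zero_of_mul hne)
    have b1 := zet_cell hz a1
    have b2 := zet_cell hz a2
    apply hc
    have b3 : cel s u = cel s w.1 := cel_nest hs b1
    have b4 : cel s u = cel s z.1 := b2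
    rw [← b3, b4]
  simp [h1]

/-! ### integrals over the population -/

/-- data of one LOW tree (no densities) -/
structure LD (h : ℝ × ℝ → ℝ) (act : ℕ → Set (ℝ × ℝ)) (U : ℝ × ℝ → ℝ) (b m : ℝ) : Prop where
  nice : Nice h
  mU : Measurable U
  mact : ∀ s, MeasurableSet (act s)
  rv1 : ∀ s z, z ∈ act s → h z ≠ 0 → |rv b m z| ≤ 1
  sl1 : ∀ s z, z ∈ act s → h z ≠ 0 → wU U m s z ≤ 1

theorem ga_abs (s : ℕ) (x : ℝ) : |ga s x| ≤ 1 := Pair1x339.gt_abs _

theorem gt_meas : Measurable gt := by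
  unfold gt
  exact Measurable.ite (measurableSet_lt measurable_id measurable_const) measurable_const
    (Measurable.ite (measurableSet_lt measurable_id measurable_const) measurable_const
    (Measurable.ite (measurableSet_lt measurable_id measurable_const) measurable_const
    (Measurable.ite (measurableSet_lt measurable_id measurable_const) measurable_const
      measurable_const)))

theorem ga_meas (s : ℕ) : Measurable (ga s) := by
  unfold ga
  exact gt_meas.comp (measurable_fract.comp (measurable_const.mul measurable_id))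

theorem cel_meas (s : ℕ) : Measurable (cel s) := by
  unfold cel
  exact Int.measurable_floor.comp (measurable_const.mul measurable_id)

theorem cell_meas (s : ℕ) (c : ℤ) : MeasurableSet {z : ℝ × ℝ | cel s z.1 = c} :=
  (cel_meas s).comp measurable_fst (measurableSet_singleton c)

theorem nice_int {h : ℝ × ℝ → ℝ} (hh : Nice h) : Integrable h := by
  obtain ⟨hm, ⟨M, hM⟩, R, hR⟩ := hh
  have h1 : Integrable ((Metric.closedBall (0 : ℝ × ℝ) R).indicator (fun _ => M)) := by
    apply (integrable_indicator_iff Metric.isClosed_closedBall.measurableSet).2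
    apply integrableOn_const
    · exact (Metric.isBounded_closedBall.measure_lt_top).ne
    · simp
  refine h1.mono' hm.aestronglyMeasurable (Filter.Eventually.of_forall fun z => ?_)
  by_cases hz : z ∈ Metric.closedBall (0 : ℝ × ℝ) R
  · rw [Set.indicator_of_mem hz]
    exact hM z
  · rw [Set.indicator_of_notMem hz, hR z]
    · simp
    · simpa using hz

/-- integrability of `ga * (h * J)` -/
theorem int_J {h : ℝ × ℝ → ℝ} (hh : Nice h) (s : ℕ) {J : ℝ × ℝ → ℝ} (hJ : Measurable J) {B : ℝ}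
    (hB : ∀ z, |J z| ≤ B) : Integrable (fun z : ℝ × ℝ => ga s z.1 * (h z * J z)) := by
  have h1 : Integrable (fun z : ℝ × ℝ => |h z| * B) := (nice_int hh).abs.mul_const B
  refine h1.mono' (((ga_meas s).comp measurable_fst).mul (hh.1.mul hJ)).aestronglyMeasurable
    (Filter.Eventually.of_forall fun z => ?_)
  rw [Real.norm_eq_abs, abs_mul, abs_mul]
  calc |ga s z.1| * (|h z| * |J z|) ≤ 1 * (|h z| * B) := by
        apply mul_le_mul (ga_abs s z.1) _ (by positivity) (by norm_num)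
        exact mul_le_mul_of_nonneg_left (hB z) (abs_nonneg _)
    _ = |h z| * B := one_mul _

theorem al_sub {h : ℝ × ℝ → ℝ} (hh : Nice h) (act : ℕ → Set (ℝ × ℝ)) (s : ℕ) (c : ℤ)
    {J K : ℝ × ℝ → ℝ} (hJ : Measurable J) (hK : Measurable K) {B : ℝ}
    (hB : ∀ z, |J z| ≤ B) (hB' : ∀ z, |K z| ≤ B) :
    al (fun z => h z * J z) act s c - al (fun z => h z * K z) act s c =
      al (fun z => h z * (J z - K z)) act s c := by
  unfold al
  rw [← mul_sub, ← integral_sub (int_J hh s hJ hB).integrableOn (int_J hh s hK hB').integrableOn]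
  congr 2
  ext z
  ring

theorem al_le {h : ℝ × ℝ → ℝ} (hh : Nice h) {act : ℕ → Set (ℝ × ℝ)}
    (mact : ∀ s, MeasurableSet (act s)) (s : ℕ) (x : ℝ)
    {J : ℝ × ℝ → ℝ} {ω : ℕ → ℝ × ℝ → ℝ} (hω : Measurable (ω s)) {B : ℝ}
    (hω1 : ∀ z, z ∈ act s → h z ≠ 0 → |ω s z| ≤ B)
    (hle : ∀ z, cel s z.1 = cel s x → z ∈ act s → h z ≠ 0 → |J z| ≤ ω s z) :
    |al (fun z => h z * J z) act s (cel s x)| ≤ pL ω h act s x := by
  unfold al pL
  rw [abs_mul, abs_of_pos (two_pos s)]
  apply mul_le_mul_of_nonneg_left _ (two_pos s).le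
  rw [← Real.norm_eq_abs]
  have hA : MeasurableSet ({z : ℝ × ℝ | cel s z.1 = cel s x} ∩ act s) :=
    (cell_meas s _).inter (mact s)
  have hi : IntegrableOn (fun z => |h z| * ω s z) ({z : ℝ × ℝ | cel s z.1 = cel s x} ∩ act s) := by
    have h1 : Integrable (fun z : ℝ × ℝ => |h z| * |B|) := (nice_int hh).abs.mul_const _
    refine h1.integrableOn.mono' (hh.1.abs.mul hω).aestronglyMeasurable ?_
    rw [ae_restrict_iff' hA]
    refine Filter.Eventually.of_forall fun z hz => ?_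
    rw [Real.norm_eq_abs, abs_mul, abs_abs]
    by_cases h0 : h z = 0
    · simp [h0]
    · exact mul_le_mul_of_nonneg_left ((hω1 z hz.2 h0).trans (le_abs_self _)) (abs_nonneg _)
  apply norm_integral_le_of_norm_le hi
  rw [ae_restrict_iff' hA]
  refine Filter.Eventually.of_forall fun z hz => ?_
  rw [Real.norm_eq_abs, abs_mul, abs_mul]
  by_cases h0 : h z = 0
  · simp [h0]
  · calc |ga s z.1| * (|h z| * |J z|) ≤ 1 * (|h z| * ω s z) := by
          apply mul_le_mul (ga_abs s z.1) _ (by positivity) (by norm_num)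
          exact mul_le_mul_of_nonneg_left (hle z hz.1 hz.2 h0) (abs_nonneg _)
      _ = |h z| * ω s z := one_mul _

/-- Fubini -/
theorem al_fub {h : ℝ × ℝ → ℝ} (hh : Nice h) (act : ℕ → Set (ℝ × ℝ)) (s : ℕ) (c : ℤ)
    {k : ℝ → ℝ × ℝ → ℝ} (hk : Measurable (fun p : (ℝ × ℝ) × ℝ => k p.2 p.1)) {B : ℝ}
    (hB : ∀ t z, |k t z| ≤ B) (h0 : ∀ t, t ∉ Set.Icc (0:ℝ) 1 → ∀ z, k t z = 0) :
    al (fun z => h z * ∫ t, k t z) act s c = ∫ t, al (fun z => h z * k t z) act s c ∧
    Integrable (fun t => al (fun z => h z * k t z) act s c) := by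
  set μ := volume.restrict ({z : ℝ × ℝ | cel s z.1 = c} ∩ act s) with hμ
  have hint : Integrable (fun p : (ℝ × ℝ) × ℝ => ga s p.1.1 * (h p.1 * k p.2 p.1)) (μ.prod volume) := by
    have h1 : Integrable (fun p : (ℝ × ℝ) × ℝ =>
        |h p.1| * (Set.Icc (0:ℝ) 1).indicator (fun _ => B) p.2) (μ.prod volume) := by
      apply Integrable.mul_prod (f := fun z : ℝ × ℝ => |h z|)
      · exact (nice_int hh).abs.integrableOn
      · apply (integrable_indicator_iff measurableSet_Icc).2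
        exact integrableOn_const (by simp) (by simp)
    refine h1.mono' ?_ (Filter.Eventually.of_forall fun p => ?_)
    · exact ((((ga_meas s).comp measurable_fst).comp measurable_fst).mul
        ((hh.1.comp measurable_fst).mul hk)).aestronglyMeasurable
    · rw [Real.norm_eq_abs, abs_mul, abs_mul]
      by_cases ht : p.2 ∈ Set.Icc (0:ℝ) 1
      · rw [Set.indicator_of_mem ht]
        calc |ga s p.1.1| * (|h p.1| * |k p.2 p.1|) ≤ 1 * (|h p.1| * B) := by
              apply mul_le_mul (ga_abs s _) _ (by positivity) (by norm_num)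
              exact mul_le_mul_of_nonneg_left (hB _ _) (abs_nonneg _)
          _ = |h p.1| * B := one_mul _
      · rw [Set.indicator_of_notMem ht, h0 _ ht]
        simp
  constructor
  · unfold al
    rw [integral_const_mul]
    congr 1
    have e1 : ∀ z : ℝ × ℝ, ga s z.1 * (h z * ∫ t, k t z) = ∫ t, ga s z.1 * (h z * k t z) := by
      intro z
      rw [integral_const_mul, integral_const_mul]
    simp_rw [e1]
    exact integral_integral_swap hint
  · unfold al
    exact hint.integral_prod_right.const_mul _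

/-! ### the reduced integral -/

theorem II_meas {Φ ζ : ℝ → ℝ} (hΦ : Continuous Φ) (hζ : Continuous ζ) (τ ε : ℝ)
    {q a : ℝ × ℝ → ℝ} (hq : Measurable q) (ha : Measurable a) :
    Measurable (fun z => II Φ ζ τ ε (q z) (a z)) := by
  have h1 : Measurable (fun p : (ℝ × ℝ) × ℝ =>
      ζ p.2 * (ζ (τ + ε * p.2) * Φ (q p.1 + a p.1 * p.2))) := by
    apply Measurable.mul (hζ.measurable.comp measurable_snd)
    apply Measurable.mul
    · exact hζ.measurable.comp (measurable_const.add (measurable_const.mul measurable_snd))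
    · exact hΦ.measurable.comp ((hq.comp measurable_fst).add
        ((ha.comp measurable_fst).mul measurable_snd))
  exact (h1.stronglyMeasurable.integral_prod_right' (ν := volume)).measurable

theorem II_abs {M : ℝ} {N : ℕ} {Φ ζ : ℝ → ℝ} (hz : ZM M N ζ) {L : ℝ} (hL : ∀ r, |Φ r| ≤ L)
    (τ ε q a : ℝ) : |II Φ ζ τ ε q a| ≤ M * (M * L) := by
  apply int01
  · intro t _
    rw [abs_mul, abs_mul]
    have hM := hz.M0
    exact mul_le_mul (hz.le _) (mul_le_mul (hz.le _) (hL _) (abs_nonneg _) hM) (by positivity) hM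
  · intro t ht
    rw [hz.off ht, zero_mul]

theorem rv_meas (b m : ℝ) : Measurable (rv b m) := by
  unfold rv
  fun_prop

theorem pR_meas (U : ℝ × ℝ → ℝ) (b m : ℝ) (s' : ℕ) (w : ℝ × ℝ) : Measurable (pR U b m s' w) := by
  unfold pR
  exact measurable_const.sub (rv_meas b m)

theorem qR_meas {U : ℝ × ℝ → ℝ} (hU : Measurable U) (b m : ℝ) (s' : ℕ) (w : ℝ × ℝ) :
    Measurable (qR U b m s' w) := by
  unfold qR
  exact (pR_meas U b m s' w).sub ((measurable_const.sub measurable_fst).mul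
    (hU.sub measurable_const))

theorem eR_meas {U : ℝ × ℝ → ℝ} (hU : Measurable U) (m : ℝ) (s' : ℕ) : Measurable (eR U m s') := by
  unfold eR
  exact ((hU.sub measurable_const).mul measurable_const).neg

theorem wU_meas {U : ℝ × ℝ → ℝ} (hU : Measurable U) (m : ℝ) (s : ℕ) : Measurable (wU U m s) := by
  unfold wU
  exact ((hU.sub measurable_const).abs).mul measurable_const

/-! ### the pairing sum -/

/-- pairing of the short piece `s'` at `w` with the tree -/
def PS (Φ ζ : ℝ → ℝ) (U h : ℝ × ℝ → ℝ) (act : ℕ → Set (ℝ × ℝ)) (s' : ℕ) (w : ℝ × ℝ) : ℝ :=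
  ∑ s ∈ Finset.range (s' + 1), ∫ z in act s, h z * pp Φ ζ U s s' z w

/-- exact reduced coefficient -/
def dX (Φ ζ : ℝ → ℝ) (U h : ℝ × ℝ → ℝ) (act : ℕ → Set (ℝ × ℝ)) (b m : ℝ) (s s' : ℕ)
    (w : ℝ × ℝ) : ℝ :=
  al (fun z => h z * II Φ ζ (tauR s s' w.1) (epsR s s') (qR U b m s' w z)
    (aR U m s' w + eR U m s' z)) act s (cel s w.1)

theorem PS_eq {Φ ζ : ℝ → ℝ} (hz : ZetC ζ) (hev : ∀ r, Φ (-r) = Φ r) (U h : ℝ × ℝ → ℝ)
    {act : ℕ → Set (ℝ × ℝ)} (mact : ∀ s, MeasurableSet (act s)) (b m : ℝ) (s' : ℕ) (w : ℝ × ℝ) :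
    PS Φ ζ U h act s' w =
      ga s' w.1 * ∑ s ∈ Finset.range (s' + 1), dX Φ ζ U h act b m s s' w := by
  unfold PS
  rw [Finset.mul_sum]
  apply Finset.sum_congr rfl
  intro s hs
  rw [Finset.mem_range] at hs
  have hss : s ≤ s' := by omega
  have hA : MeasurableSet ({z : ℝ × ℝ | cel s z.1 = cel s w.1} ∩ act s) :=
    (cell_meas s _).inter (mact s)
  have e1 : ∫ z in act s, h z * pp Φ ζ U s s' z w =
      ∫ z in {z : ℝ × ℝ | cel s z.1 = cel s w.1} ∩ act s, h z * pp Φ ζ U s s' z w := by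
    apply setIntegral_eq_of_subset_of_forall_sdiff_eq_zero (mact s) Set.inter_subset_right
    intro z hz'
    have : cel s z.1 ≠ cel s w.1 := fun h1 => hz'.2 ⟨h1, hz'.1⟩
    rw [pp_far0 hz U hss w z this, mul_zero]
  rw [e1]
  unfold dX al
  rw [← mul_assoc, ← integral_const_mul]
  apply setIntegral_congr_fun hA
  intro z hz'
  change h z * pp Φ ζ U s s' z w = _
  rw [pp_red hev U b m w z hz'.1]
  ring

/-- phase of the straightened tree -/
def vt (U : ℝ × ℝ → ℝ) (b m : ℝ) (s' : ℕ) (w : ℝ × ℝ) (t : ℝ) : ℝ :=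
  rv b m w + (U w - m) * (pt s' (cel s' w.1) t - w.1)

/-- straightened coefficient, with a general short profile `p` -/
theorem straight {Φ ζ p : ℝ → ℝ} {h : ℝ × ℝ → ℝ} (hh : Nice h) (act : ℕ → Set (ℝ × ℝ))
    (U : ℝ × ℝ → ℝ) (b m : ℝ) (s s' : ℕ) (w : ℝ × ℝ)
    (hΦ : Continuous Φ) (hζ : Continuous ζ) (hp : Continuous p)
    (hp0 : ∀ t, t ∉ Set.Icc (0:ℝ) 1 → p t = 0) {L M P : ℝ} (hL : ∀ r, |Φ r| ≤ L)
    (hM : ∀ r, |ζ r| ≤ M) (hP : ∀ r, |p r| ≤ P) :
    al (fun z => h z * ∫ t, p t * (ζ (tauR s s' w.1 + epsR s s' * t) *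
      Φ (pR U b m s' w z + aR U m s' w * t))) act s (cel s w.1) =
    (∫ t, p t * (ζ (tauR s s' w.1 + epsR s s' * t) * aL Φ b m h act s (vt U b m s' w t) w.1)) ∧
    Integrable (fun t => p t * (ζ (tauR s s' w.1 + epsR s s' * t) *
      aL Φ b m h act s (vt U b m s' w t) w.1)) := by
  have hM0 : 0 ≤ M := (abs_nonneg _).trans (hM 0)
  have hP0 : 0 ≤ P := (abs_nonneg _).trans (hP 0)
  have key := al_fub hh act s (cel s w.1)
    (k := fun t z => p t * (ζ (tauR s s' w.1 + epsR s s' * t) *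
      Φ (pR U b m s' w z + aR U m s' w * t))) (B := P * (M * L)) ?_ ?_ ?_
  · have e1 : ∀ t, al (fun z => h z * (p t * (ζ (tauR s s' w.1 + epsR s s' * t) *
        Φ (pR U b m s' w z + aR U m s' w * t)))) act s (cel s w.1) =
        p t * (ζ (tauR s s' w.1 + epsR s s' * t) * aL Φ b m h act s (vt U b m s' w t) w.1) := by
      intro t
      unfold aL al
      have e2 : ∀ z : ℝ × ℝ, ga s z.1 * (h z * (p t * (ζ (tauR s s' w.1 + epsR s s' * t) *
        Φ (pR U b m s' w z + aR U m s' w * t)))) = p t * ζ (tauR s s' w.1 + epsR s s' * t) *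
          (ga s z.1 * (h z * Φ (vt U b m s' w t - rv b m z))) := by
        intro z
        rw [← phase0]
        unfold vt
        ring
      simp_rw [e2, integral_const_mul]
      ring
    refine ⟨?_, ?_⟩
    · rw [key.1]
      congr 1
      ext t
      exact e1 t
    · refine key.2.congr (Filter.Eventually.of_forall fun t => ?_)
      exact e1 t
  · apply Measurable.mul (hp.measurable.comp measurable_snd)
    apply Measurable.mul
    · exact hζ.measurable.comp (measurable_const.add (measurable_const.mul measurable_snd))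
    · exact hΦ.measurable.comp (((pR_meas U b m s' w).comp measurable_fst).add
        (measurable_const.mul measurable_snd))
  · intro t z
    rw [abs_mul, abs_mul]
    exact mul_le_mul (hP _) (mul_le_mul (hM _) (hL _) (abs_nonneg _) hM0) (by positivity) hP0
  · intro t ht z
    rw [hp0 t ht, zero_mul]

/-- sum over the long scales -/
theorem straight_sum {Φ ζ p : ℝ → ℝ} {h : ℝ × ℝ → ℝ} (hh : Nice h) (act : ℕ → Set (ℝ × ℝ))
    (U : ℝ × ℝ → ℝ) (b m : ℝ) (s' : ℕ) (w : ℝ × ℝ)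
    (hΦ : Continuous Φ) (hζ : Continuous ζ) (hp : Continuous p)
    (hp0 : ∀ t, ¬ (0 ≤ t ∧ t < 1) → p t = 0) {L M P : ℝ} (hL : ∀ r, |Φ r| ≤ L)
    (hM : ∀ r, |ζ r| ≤ M) (hP : ∀ r, |p r| ≤ P) :
    ∑ s ∈ Finset.range (s' + 1),
      al (fun z => h z * ∫ t, p t * (ζ (tauR s s' w.1 + epsR s s' * t) *
        Φ (pR U b m s' w z + aR U m s' w * t))) act s (cel s w.1) =
    ∫ t, p t * FL ζ Φ b m h act (s' + 1) (vt U b m s' w t) (pt s' (cel s' w.1) t) := by
  have hp1 : ∀ t, t ∉ Set.Icc (0:ℝ) 1 → p t = 0 := by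
    intro t ht
    apply hp0
    intro h1
    exact ht ⟨h1.1, h1.2.le⟩
  have key := fun s => straight hh act U b m s s' w hΦ hζ hp hp1 hL hM hP
  rw [Finset.sum_congr rfl fun s _ => (key s).1, ← integral_finsetSum _ fun s _ => (key s).2]
  congr 1
  ext t
  by_cases ht : 0 ≤ t ∧ t < 1
  · unfold FL
    rw [Finset.mul_sum]
    apply Finset.sum_congr rfl
    intro s hs
    rw [Finset.mem_range] at hs
    obtain ⟨f1, f2⟩ := fract_pt (s := s) (s' := s') (by omega) w.1 ht.1 ht.2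
    rw [f2]
    congr 2
    unfold aL
    rw [f1]
  · rw [hp0 t ht]
    simp

/-- the coefficient `β` in relative coordinates -/
theorem bL_eq {Φ ζ : ℝ → ℝ} (hz : ZetC ζ) (h : ℝ × ℝ → ℝ) (act : ℕ → Set (ℝ × ℝ))
    (b m : ℝ) (s' : ℕ) (v x : ℝ) :
    bL ζ Φ b m h act s' v x =
      ∫ t, ζ t * FL ζ Φ b m h act (s' + 1) v (pt s' (cel s' x) t) := by
  unfold bL
  have hA : MeasurableSet {u : ℝ | cel s' u = cel s' x} :=
    (cel_meas s') (measurableSet_singleton _)
  have e1 : ∫ u in {u : ℝ | cel s' u = cel s' x},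
      ζ (Int.fract ((2 : ℝ) ^ s' * u)) * FL ζ Φ b m h act (s' + 1) v u =
      ∫ u, ζ ((2:ℝ) ^ s' * u - cel s' x) * FL ζ Φ b m h act (s' + 1) v u := by
    rw [← integral_indicator hA]
    congr 1
    ext u
    by_cases hu : cel s' u = cel s' x
    · rw [Set.indicator_of_mem (by exact hu)]
      rw [← hu]
      rfl
    · rw [Set.indicator_of_notMem (by exact hu)]
      have : ζ ((2:ℝ) ^ s' * u - cel s' x) = 0 := by
        by_contra hne
        exact hu (zet_cell hz hne)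
      rw [this, zero_mul]
  rw [e1, chg s' (cel s' x)]
  congr 1
  ext t
  congr 2
  unfold pt
  rw [mul_div_cancel₀ _ (two_pos s').ne']
  ring

/-! ### variation in `v` -/

theorem aL_deriv {Φ Φ' : ℝ → ℝ} (hd : ∀ r, HasDerivAt Φ (Φ' r) r) (hc : Continuous Φ)
    (hc' : Continuous Φ') {L : ℝ} (hL : ∀ r, |Φ r| ≤ L) (hL' : ∀ r, |Φ' r| ≤ L) {h : ℝ × ℝ → ℝ}
    (hh : Nice h) (act : ℕ → Set (ℝ × ℝ)) (b m : ℝ) (s : ℕ) (v x : ℝ) :
    HasDerivAt (fun v => aL Φ b m h act s v x) (aL Φ' b m h act s v x) v := by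
  unfold aL al
  apply HasDerivAt.const_mul
  have hm : ∀ (Ψ : ℝ → ℝ), Continuous Ψ → ∀ v : ℝ, Measurable (fun z : ℝ × ℝ => Ψ (v - rv b m z)) :=
    fun Ψ hΨ v => hΨ.measurable.comp (measurable_const.sub (rv_meas b m))
  have i1 : ∀ (Ψ : ℝ → ℝ), Continuous Ψ → (∀ r, |Ψ r| ≤ L) → ∀ v,
      Integrable (fun z : ℝ × ℝ => ga s z.1 * (h z * Ψ (v - rv b m z))) :=
    fun Ψ hΨ hb v => int_J hh s (hm Ψ hΨ v) (fun z => hb _)
  exact (hasDerivAt_integral_of_dominated_loc_of_deriv_le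
    (μ := volume.restrict ({z : ℝ × ℝ | cel s z.1 = cel s x} ∩ act s))
    (F := fun v (z : ℝ × ℝ) => ga s z.1 * (h z * Φ (v - rv b m z)))
    (F' := fun v (z : ℝ × ℝ) => ga s z.1 * (h z * Φ' (v - rv b m z)))
    (bound := fun z => |h z| * L) (s := Set.univ) Filter.univ_mem
    (Filter.Eventually.of_forall fun v => (i1 Φ hc hL v).aestronglyMeasurable.restrict)
    (i1 Φ hc hL v).integrableOn
    (i1 Φ' hc' hL' v).aestronglyMeasurable.restrict
    (Filter.Eventually.of_forall fun z v _ => by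
      rw [Real.norm_eq_abs, abs_mul, abs_mul]
      calc |ga s z.1| * (|h z| * |Φ' (v - rv b m z)|) ≤ 1 * (|h z| * L) := by
            apply mul_le_mul (ga_abs s z.1) _ (by positivity) (by norm_num)
            exact mul_le_mul_of_nonneg_left (hL' _) (abs_nonneg _)
        _ = |h z| * L := one_mul _)
    ((nice_int hh).abs.mul_const L).integrableOn
    (Filter.Eventually.of_forall fun z v _ => by
      have h1 : HasDerivAt (fun v : ℝ => v - rv b m z) 1 v := (hasDerivAt_id v).sub_const _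
      have h2 := ((hd (v - rv b m z)).comp v h1).const_mul (h z)
      have h3 := h2.const_mul (ga s z.1)
      simpa using h3)).2

theorem FL_deriv {ζ Φ Φ' : ℝ → ℝ} (hd : ∀ r, HasDerivAt Φ (Φ' r) r) (hc : Continuous Φ)
    (hc' : Continuous Φ') {L : ℝ} (hL : ∀ r, |Φ r| ≤ L) (hL' : ∀ r, |Φ' r| ≤ L) {h : ℝ × ℝ → ℝ}
    (hh : Nice h) (act : ℕ → Set (ℝ × ℝ)) (b m : ℝ) (s : ℕ) (v x : ℝ) :
    HasDerivAt (fun v => FL ζ Φ b m h act s v x) (FL ζ Φ' b m h act s v x) v := by
  unfold FL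
  apply HasDerivAt.fun_sum
  intro r _
  exact (aL_deriv hd hc hc' hL hL' hh act b m r v x).const_mul _

theorem FL_lip {ζ Φ Φ' : ℝ → ℝ} (hd : ∀ r, HasDerivAt Φ (Φ' r) r) (hc : Continuous Φ)
    (hc' : Continuous Φ') {L : ℝ} (hL : ∀ r, |Φ r| ≤ L) (hL' : ∀ r, |Φ' r| ≤ L) {h : ℝ × ℝ → ℝ}
    (hh : Nice h) (act : ℕ → Set (ℝ × ℝ)) (b m : ℝ) (s : ℕ) {T : ℝ}
    (hT : ∀ v x, |FL ζ Φ' b m h act s v x| ≤ T) (v v' x : ℝ) :
    |FL ζ Φ b m h act s v x - FL ζ Φ b m h act s v' x| ≤ T * |v - v'| := by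
  have h2 := convex_univ.norm_image_sub_le_of_norm_hasDerivWithin_le
      (f := fun v => FL ζ Φ b m h act s v x)
      (f' := fun v => FL ζ Φ' b m h act s v x) (s := Set.univ)
      (C := T) (fun y _ => (FL_deriv hd hc hc' hL hL' hh act b m s y x).hasDerivWithinAt)
      (fun y _ => by simpa using hT y x)
      (x := v') (y := v) (by simp) (by simp)
  simpa using h2

theorem al_cont {Φ : ℝ → ℝ} (hc : Continuous Φ) {L : ℝ} (hL : ∀ r, |Φ r| ≤ L)
    {h : ℝ × ℝ → ℝ} (hh : Nice h) (act : ℕ → Set (ℝ × ℝ)) (b m : ℝ) (s : ℕ) (c : ℤ) :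
    Continuous (fun v => al (fun z => h z * Φ (v - rv b m z)) act s c) := by
  unfold al
  apply Continuous.mul continuous_const
  apply continuous_of_dominated (bound := fun z => |h z| * L)
  · intro v
    exact (int_J hh s (hc.measurable.comp (measurable_const.sub (rv_meas b m)))
      (fun z => hL _)).aestronglyMeasurable.restrict
  · intro v
    refine Filter.Eventually.of_forall fun z => ?_
    rw [Real.norm_eq_abs, abs_mul, abs_mul]
    calc |ga s z.1| * (|h z| * |Φ (v - rv b m z)|) ≤ 1 * (|h z| * L) := by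
          apply mul_le_mul (ga_abs s z.1) _ (by positivity) (by norm_num)
          exact mul_le_mul_of_nonneg_left (hL _) (abs_nonneg _)
      _ = |h z| * L := one_mul _
  · exact ((nice_int hh).abs.mul_const L).integrableOn
  · refine Filter.Eventually.of_forall fun z => ?_
    fun_prop

/-! ### kept bounds and the two regimes -/

/-- kept bounds of one LOW tree -/
structure KB (ζ Ξ : ℝ → ℝ) (N : ℕ) (U : ℝ × ℝ → ℝ) (b m : ℝ) (h : ℝ × ℝ → ℝ)
    (act : ℕ → Set (ℝ × ℝ)) (S : ℕ) (T : ℝ) : Prop where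
  F : ∀ i ≤ N + 1, ∀ s ≤ S, ∀ v x, |FL ζ (iteratedDeriv i Ξ) b m h act s v x| ≤ T
  B : ∀ p q, p ≤ q → q ≤ S → ∀ v x,
    |∑ s ∈ Finset.Ico p q, ga s x * bL ζ (iteratedDeriv N Ξ) b m h act s v x| ≤ T
  E : ∀ x, ∑ s ∈ Finset.range S, eL U m h act s x ≤ T
  A : ∀ s x, pL (fun _ _ => 1) h act s x ≤ T

/-- the tree function in relative coordinates -/
def GG (Φ ζ : ℝ → ℝ) (h : ℝ × ℝ → ℝ) (act : ℕ → Set (ℝ × ℝ)) (b m : ℝ) (s' : ℕ) (x v t : ℝ) : ℝ :=
  ∑ s ∈ Finset.range (s' + 1), ζ (tauR s s' x + epsR s s' * t) * aL Φ b m h act s v x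

theorem GG_eq {Φ ζ : ℝ → ℝ} {h : ℝ × ℝ → ℝ} {act : ℕ → Set (ℝ × ℝ)} {b m : ℝ} {s' : ℕ}
    {x v t : ℝ} (ht : 0 ≤ t ∧ t < 1) :
    FL ζ Φ b m h act (s' + 1) v (pt s' (cel s' x) t) = GG Φ ζ h act b m s' x v t := by
  unfold FL GG
  apply Finset.sum_congr rfl
  intro s hs
  rw [Finset.mem_range] at hs
  obtain ⟨f1, f2⟩ := fract_pt (s := s) (s' := s') (by omega) x ht.1 ht.2
  rw [f2]
  congr 1
  unfold aL
  rw [f1]

theorem GG_cont {Φ ζ : ℝ → ℝ} (hζ : Continuous ζ) (hc : Continuous Φ) {L : ℝ}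
    (hL : ∀ r, |Φ r| ≤ L) {h : ℝ × ℝ → ℝ} (hh : Nice h) (act : ℕ → Set (ℝ × ℝ)) (b m : ℝ) (s' : ℕ)
    (x : ℝ) {v : ℝ → ℝ} (hv : Continuous v) :
    Continuous (fun t => GG Φ ζ h act b m s' x (v t) t) := by
  unfold GG aL
  apply continuous_finsetSum
  intro s _
  apply Continuous.mul
  · exact hζ.comp (by fun_prop)
  · exact (al_cont hc hL hh act b m s (cel s x)).comp hv

theorem eL_nonneg (U : ℝ × ℝ → ℝ) (m : ℝ) (h : ℝ × ℝ → ℝ) (act : ℕ → Set (ℝ × ℝ)) (s : ℕ)
    (x : ℝ) : 0 ≤ eL U m h act s x := by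
  unfold eL pL
  apply mul_nonneg (two_pos s).le
  apply integral_nonneg
  intro z
  exact mul_nonneg (abs_nonneg _) (wU_nonneg U m s z)

theorem pL_nonneg1 (h : ℝ × ℝ → ℝ) (act : ℕ → Set (ℝ × ℝ)) (s : ℕ)
    (x : ℝ) : 0 ≤ pL (fun _ _ => 1) h act s x := by
  unfold pL
  apply mul_nonneg (two_pos s).le
  apply integral_nonneg
  intro z
  simp

theorem pL_smul (ω : ℕ → ℝ × ℝ → ℝ) (c : ℝ) (h : ℝ × ℝ → ℝ) (act : ℕ → Set (ℝ × ℝ)) (s : ℕ)
    (x : ℝ) : pL (fun s z => c * ω s z) h act s x = c * pL ω h act s x := by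
  unfold pL
  have e1 : ∀ z : ℝ × ℝ, |h z| * (c * ω s z) = c * (|h z| * ω s z) := fun z => by ring
  simp_rw [e1, integral_const_mul]
  ring

/-- geometric sums of `ε` -/
theorem eps_sum (s q : ℕ) : ∑ s' ∈ Finset.Ico s q, epsR s s' ≤ 2 := by
  have h1 : ∀ s' ∈ Finset.Ico s q, epsR s s' = (1 / 2 : ℝ) ^ (s' - s) := by
    intro s' hs'
    rw [Finset.mem_Ico] at hs'
    unfold epsR
    have e : (2 : ℝ) ^ s' = 2 ^ s * 2 ^ (s' - s) := by rw [← pow_add]; congr 1; omega
    rw [e, one_div, inv_pow]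
    field_simp
  rw [Finset.sum_congr rfl h1, Finset.sum_Ico_eq_sum_range]
  have h2 : ∀ k ∈ Finset.range (q - s), (1 / 2 : ℝ) ^ (s + k - s) = (1 / 2) ^ k := by
    intro k _
    congr 1
    omega
  rw [Finset.sum_congr rfl h2]
  exact (sum_geometric_two_le _)

theorem eps_sum' (s' : ℕ) : ∑ s ∈ Finset.range (s' + 1), epsR s s' ≤ 2 := by
  have h1 : ∀ s ∈ Finset.range (s' + 1), epsR s s' = (1 / 2 : ℝ) ^ (s' + 1 - 1 - s) := by
    intro s hs
    rw [Finset.mem_range] at hs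
    unfold epsR
    have e : (2 : ℝ) ^ s' = 2 ^ s * 2 ^ (s' - s) := by rw [← pow_add]; congr 1; omega
    rw [e, one_div, inv_pow, Nat.add_sub_cancel]
    field_simp
  rw [Finset.sum_congr rfl h1, Finset.sum_range_reflect (fun k => (1 / 2 : ℝ) ^ k) (s' + 1)]
  exact (sum_geometric_two_le _)

/-- geometric sums of the slopes -/
theorem slope_sum (U : ℝ × ℝ → ℝ) (m : ℝ) (w : ℝ × ℝ) {p q : ℕ} {K : ℝ} (hK : 0 ≤ K)
    (h : ∀ s' ∈ Finset.Ico p q, |aR U m s' w| ≤ K) :
    ∑ s' ∈ Finset.Ico p q, |aR U m s' w| ≤ 2 * K := by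
  rcases lt_or_ge p q with hpq | hpq
  · have h0 := h p (Finset.mem_Ico.2 ⟨le_rfl, hpq⟩)
    have h1 : ∀ s' ∈ Finset.Ico p q, |aR U m s' w| = |aR U m p w| * (1 / 2 : ℝ) ^ (s' - p) := by
      intro s' hs'
      rw [Finset.mem_Ico] at hs'
      unfold aR
      rw [abs_mul, abs_mul, abs_of_pos (by positivity : (0:ℝ) < (1 / 2) ^ s'),
        abs_of_pos (by positivity : (0:ℝ) < (1 / 2) ^ p), mul_assoc, ← pow_add]
      congr 2
      omega
    rw [Finset.sum_congr rfl h1, ← Finset.mul_sum, Finset.sum_Ico_eq_sum_range]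
    have h2 : ∀ k ∈ Finset.range (q - p), (1 / 2 : ℝ) ^ (p + k - p) = (1 / 2) ^ k := by
      intro k _
      congr 1
      omega
    rw [Finset.sum_congr rfl h2]
    calc |aR U m p w| * ∑ i ∈ Finset.range (q - p), (1 / 2 : ℝ) ^ i ≤ K * 2 :=
          mul_le_mul h0 (sum_geometric_two_le _) (Finset.sum_nonneg fun i _ => by positivity) hK
      _ = 2 * K := by ring
  · rw [Finset.Ico_eq_empty_of_le hpq]
    simp
    exact hK

theorem II_int {Φ ζ : ℝ → ℝ} {M : ℝ} {P : ℕ} (hM : ZM M P ζ) (hc : Continuous Φ) (τ ε q a : ℝ) :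
    Integrable (fun t => ζ t * (ζ (τ + ε * t) * Φ (q + a * t))) := by
  have c : Continuous (fun t => ζ t * (ζ (τ + ε * t) * Φ (q + a * t))) := by
    have := hM.sm.continuous
    fun_prop
  exact c.integrable_of_hasCompactSupport hM.cs.mul_right

section main

variable {M : ℝ} {N P : ℕ} {ζ Ξ : ℝ → ℝ} {U h : ℝ × ℝ → ℝ} {act : ℕ → Set (ℝ × ℝ)} {b m : ℝ}
  {S : ℕ} {T : ℝ}

/-- straightening error, deep form -/
theorem dX_sub (hM : ZM M P ζ) (hP : 1 ≤ P) (hX : XM M (N + 2) Ξ) (ld : LD h act U b m)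
    {s s' : ℕ} (hs : s ≤ s') (w : ℝ × ℝ) :
    |dX (iteratedDeriv N Ξ) ζ U h act b m s s' w -
      al (fun z => h z * II (iteratedDeriv N Ξ) ζ (tauR s s' w.1) (epsR s s') (pR U b m s' w z)
        (aR U m s' w)) act s (cel s w.1)| ≤
      2 * M ^ 3 * (epsR s s' + |aR U m s' w|) * eL U m h act s w.1 := by
  have hM0 := hM.M0
  have hε := (epsR_pos s s').le
  have cΦ : Continuous (iteratedDeriv N Ξ) := (smooth_iter hX.sm N).continuous
  have m1 : Measurable fun z => II (iteratedDeriv N Ξ) ζ (tauR s s' w.1) (epsR s s')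
      (qR U b m s' w z) (aR U m s' w + eR U m s' z) :=
    II_meas cΦ hM.sm.continuous (tauR s s' w.1) (epsR s s') (qR_meas ld.mU b m s' w)
    (a := fun z => aR U m s' w + eR U m s' z) (measurable_const.add (eR_meas ld.mU m s'))
  have m2 := II_meas cΦ hM.sm.continuous (tauR s s' w.1) (epsR s s') (pR_meas U b m s' w)
    (measurable_const : Measurable fun _ : ℝ × ℝ => aR U m s' w)
  unfold dX
  rw [al_sub ld.nice act s (cel s w.1) m1 m2 (fun z => II_abs hM (hX.bd N (by omega)) _ _ _ _)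
    (fun z => II_abs hM (hX.bd N (by omega)) _ _ _ _)]
  have key := al_le ld.nice ld.mact s w.1
    (J := fun z => II (iteratedDeriv N Ξ) ζ (tauR s s' w.1) (epsR s s') (qR U b m s' w z)
        (aR U m s' w + eR U m s' z) - II (iteratedDeriv N Ξ) ζ (tauR s s' w.1) (epsR s s')
        (pR U b m s' w z) (aR U m s' w))
    (ω := fun s z => (2 * M ^ 3 * (epsR s s' + |aR U m s' w|)) * wU U m s z)
    ((wU_meas ld.mU m s).const_mul _) (B := (2 * M ^ 3 * (epsR s s' + |aR U m s' w|)))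
    ?_ ?_
  · refine key.trans (le_of_eq ?_)
    unfold eL pL
    have e1 : ∀ z : ℝ × ℝ, |h z| * ((2 * M ^ 3 * (epsR s s' + |aR U m s' w|)) * wU U m s z) =
      (2 * M ^ 3 * (epsR s s' + |aR U m s' w|)) * (|h z| * wU U m s z) := fun z => by ring
    simp_rw [e1, integral_const_mul]
    ring
  · intro z hz h0
    have h1 := ld.sl1 s z hz h0
    have h2 := wU_nonneg U m s z
    rw [abs_of_nonneg (by positivity)]
    exact mul_le_of_le_one_right (by positivity) h1
  · intro z hc hz h0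
    have key2 := deep hM hP N hX (τ := tauR s s' w.1) (ε := epsR s s') (a := aR U m s' w)
      (e := eR U m s' z) (p := pR U b m s' w z) (q := qR U b m s' w z) (ν := wU U m s z)
      hε (wU_nonneg U m s z) (eR_abs U m s s' z) (fun t ht => phase_err hs hc ht)
    have e1 : II (iteratedDeriv N Ξ) ζ (tauR s s' w.1) (epsR s s') (qR U b m s' w z)
        (aR U m s' w + eR U m s' z) - II (iteratedDeriv N Ξ) ζ (tauR s s' w.1) (epsR s s')
        (pR U b m s' w z) (aR U m s' w) =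
        ∫ t, ζ t * (ζ (tauR s s' w.1 + epsR s s' * t) *
          (iteratedDeriv N Ξ (qR U b m s' w z + (aR U m s' w + eR U m s' z) * t)
            - iteratedDeriv N Ξ (pR U b m s' w z + aR U m s' w * t))) := by
      unfold II
      rw [← integral_sub (II_int hM cΦ _ _ _ _) (II_int hM cΦ _ _ _ _)]
      congr 1
      ext t
      ring
    rw [e1]
    refine key2.trans (le_of_eq ?_)
    ring

/-- straightening error, shallow form -/
theorem dX_shal (hM : ZM M N ζ) (hX : XM M (N + 2) Ξ) (ld : LD h act U b m)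
    {s s' : ℕ} (hs : s ≤ s') (w : ℝ × ℝ) (ha : 4 ≤ |aR U m s' w|) :
    |dX (iteratedDeriv N Ξ) ζ U h act b m s s' w - (-1 / aR U m s' w) ^ N *
      al (fun z => h z * ∫ t, iteratedDeriv N ζ t * (ζ (tauR s s' w.1 + epsR s s' * t) *
        Ξ (pR U b m s' w z + aR U m s' w * t))) act s (cel s w.1)| ≤
      (|aR U m s' w|⁻¹) ^ N * ((4 ^ N + N * 2 ^ N + 1) * M ^ 3) *
        (epsR s s' * pL (fun _ _ => 1) h act s w.1 + eL U m h act s w.1) := by
  have hM0 := hM.M0
  have hε := (epsR_pos s s').le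
  set A := (|aR U m s' w|⁻¹) ^ N * ((4 ^ N + N * 2 ^ N + 1) * M ^ 3) with hA
  have hA0 : 0 ≤ A := by positivity
  have cΦ : Continuous (iteratedDeriv N Ξ) := (smooth_iter hX.sm N).continuous
  have cX : Continuous Ξ := hX.sm.continuous
  have m1 : Measurable fun z => II (iteratedDeriv N Ξ) ζ (tauR s s' w.1) (epsR s s')
      (qR U b m s' w z) (aR U m s' w + eR U m s' z) :=
    II_meas cΦ hM.sm.continuous (tauR s s' w.1) (epsR s s') (qR_meas ld.mU b m s' w)
    (a := fun z => aR U m s' w + eR U m s' z) (measurable_const.add (eR_meas ld.mU m s'))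
  set K : ℝ × ℝ → ℝ := fun z => ∫ t, iteratedDeriv N ζ t *
    (ζ (tauR s s' w.1 + epsR s s' * t) * Ξ (pR U b m s' w z + aR U m s' w * t)) with hK
  have x0 : ∀ r, |Ξ r| ≤ M := fun r => by simpa using hX.bd 0 (by omega) r
  have m2 : Measurable K := by
    have h1 : Measurable (fun p : (ℝ × ℝ) × ℝ => iteratedDeriv N ζ p.2 *
        (ζ (tauR s s' w.1 + epsR s s' * p.2) * Ξ (pR U b m s' w p.1 + aR U m s' w * p.2))) := by
      apply Measurable.mul ((smooth_iter hM.sm N).continuous.measurable.comp measurable_snd)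
      apply Measurable.mul
      · exact hM.sm.continuous.measurable.comp
          (measurable_const.add (measurable_const.mul measurable_snd))
      · exact cX.measurable.comp (((pR_meas U b m s' w).comp measurable_fst).add
          (measurable_const.mul measurable_snd))
    exact (h1.stronglyMeasurable.integral_prod_right' (ν := volume)).measurable
  have bK : ∀ z, |K z| ≤ M * (M * M) := by
    intro z
    apply int01
    · intro t _
      rw [abs_mul, abs_mul]
      exact mul_le_mul (hM.bd N le_rfl t) (mul_le_mul (hM.le _) (x0 _) (abs_nonneg _) hM0)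
        (by positivity) hM0
    · intro t ht
      rw [hM.offd N ht, zero_mul]
  have e0 : (-1 / aR U m s' w) ^ N * al (fun z => h z * K z) act s (cel s w.1) =
      al (fun z => h z * ((-1 / aR U m s' w) ^ N * K z)) act s (cel s w.1) := by
    unfold al
    have e1 : ∀ z : ℝ × ℝ, ga s z.1 * (h z * ((-1 / aR U m s' w) ^ N * K z)) =
      (-1 / aR U m s' w) ^ N * (ga s z.1 * (h z * K z)) := fun z => by ring
    simp_rw [e1, integral_const_mul]
    ring
  have e00 : al (fun z => h z * ∫ t, iteratedDeriv N ζ t * (ζ (tauR s s' w.1 + epsR s s' * t) *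
        Ξ (pR U b m s' w z + aR U m s' w * t))) act s (cel s w.1) =
        al (fun z => h z * K z) act s (cel s w.1) := rfl
  rw [e00, e0]
  unfold dX
  have bK2 : ∀ z, |(-1 / aR U m s' w) ^ N * K z| ≤
      M * (M * M) + |(-1 / aR U m s' w) ^ N| * (M * (M * M)) := by
    intro z
    rw [abs_mul]
    have := mul_le_mul_of_nonneg_left (bK z) (abs_nonneg ((-1 / aR U m s' w) ^ N))
    have h3 : 0 ≤ M * (M * M) := by positivity
    linarith
  have bI : ∀ z, |II (iteratedDeriv N Ξ) ζ (tauR s s' w.1) (epsR s s')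
      (qR U b m s' w z) (aR U m s' w + eR U m s' z)| ≤
      M * (M * M) + |(-1 / aR U m s' w) ^ N| * (M * (M * M)) := by
    intro z
    have := II_abs hM (hX.bd N (by omega)) (tauR s s' w.1) (epsR s s')
      (qR U b m s' w z) (aR U m s' w + eR U m s' z)
    have h3 : 0 ≤ |(-1 / aR U m s' w) ^ N| * (M * (M * M)) := by positivity
    linarith
  rw [al_sub ld.nice act s (cel s w.1) m1 (m2.const_mul _) bI bK2]
  have key := al_le ld.nice ld.mact s w.1
    (J := fun z => II (iteratedDeriv N Ξ) ζ (tauR s s' w.1) (epsR s s') (qR U b m s' w z)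
        (aR U m s' w + eR U m s' z) - (-1 / aR U m s' w) ^ N * K z)
    (ω := fun s z => A * (epsR s s' + wU U m s z))
    ((measurable_const.add (wU_meas ld.mU m s)).const_mul _) (B := A * (epsR s s' + 1))
    ?_ ?_
  · refine key.trans (le_of_eq ?_)
    unfold eL pL
    have i1 : IntegrableOn (fun z => |h z| * 1) ({z : ℝ × ℝ | cel s z.1 = cel s w.1} ∩ act s) := by
      simpa using (nice_int ld.nice).abs.integrableOn
    have i2 : IntegrableOn (fun z => |h z| * wU U m s z)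
        ({z : ℝ × ℝ | cel s z.1 = cel s w.1} ∩ act s) := by
      refine i1.mono' (ld.nice.1.abs.mul (wU_meas ld.mU m s)).aestronglyMeasurable ?_
      rw [ae_restrict_iff' ((cell_meas s _).inter (ld.mact s))]
      refine Filter.Eventually.of_forall fun z hz => ?_
      rw [Real.norm_eq_abs, abs_mul, abs_abs, abs_of_nonneg (wU_nonneg U m s z)]
      by_cases h0 : h z = 0
      · simp [h0]
      · exact mul_le_mul_of_nonneg_left (ld.sl1 s z hz.2 h0) (abs_nonneg _)
    have e1 : ∀ z : ℝ × ℝ, |h z| * (A * (epsR s s' + wU U m s z)) =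
      A * epsR s s' * (|h z| * 1) + A * (|h z| * wU U m s z) := fun z => by ring
    simp_rw [e1]
    rw [integral_add (i1.const_mul _) (i2.const_mul _), integral_const_mul, integral_const_mul]
    ring
  · intro z hz h0
    have h1 := ld.sl1 s z hz h0
    have h2 := wU_nonneg U m s z
    rw [abs_of_nonneg (by positivity)]
    apply mul_le_mul_of_nonneg_left _ hA0
    linarith
  · intro z hc hz h0
    have key2 := shal hM hX (τ := tauR s s' w.1) (ε := epsR s s') (a := aR U m s' w)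
      (e := eR U m s' z) (p := pR U b m s' w z) (q := qR U b m s' w z) (ν := wU U m s z)
      hε (epsR_le hs) (wU_nonneg U m s z) (ld.sl1 s z hz h0) ha (eR_abs U m s s' z)
      (fun t ht => phase_err hs hc ht)
    refine key2.trans (le_of_eq ?_)
    rw [hA]
    ring

theorem zeta_off (hM : ZM M P ζ) {t : ℝ} (ht : ¬ (0 ≤ t ∧ t < 1)) : ζ t = 0 := by
  by_contra hne
  have := hM.supp t hne
  exact ht ⟨by linarith [this.1], by linarith [this.2]⟩

theorem zetad_off (hM : ZM M P ζ) (n : ℕ) {t : ℝ} (ht : ¬ (0 ≤ t ∧ t < 1)) :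
    iteratedDeriv n ζ t = 0 := by
  have h1 : ζ =ᶠ[nhds t] fun _ => 0 := by
    have h2 : (Set.Icc (1/8 : ℝ) (7/8))ᶜ ∈ nhds t := by
      apply isClosed_Icc.isOpen_compl.mem_nhds
      intro h3
      exact ht ⟨by linarith [h3.1], by linarith [h3.2]⟩
    filter_upwards [h2] with r hr
    by_contra hne
    exact hr (hM.supp r hne)
  rw [h1.iteratedDeriv_eq n]
  rcases n with _ | n
  · simp
  · simp

/-- one short scale, deep form -/
theorem PS_deep (hM : ZM M P ζ) (hP : 1 ≤ P) (hX : XM M (N + 2) Ξ)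
    (hev : ∀ r, iteratedDeriv N Ξ (-r) = iteratedDeriv N Ξ r)
    (ld : LD h act U b m) (kb : KB ζ Ξ N U b m h act S T) {s' : ℕ} (hs' : s' < S) (w : ℝ × ℝ) :
    |PS (iteratedDeriv N Ξ) ζ U h act s' w -
      ga s' w.1 * bL ζ (iteratedDeriv N Ξ) b m h act s' (rv b m w) w.1| ≤
      M * (T * |aR U m s' w|) + ∑ s ∈ Finset.range (s' + 1),
        2 * M ^ 3 * (epsR s s' + |aR U m s' w|) * eL U m h act s w.1 := by
  have hM0 := hM.M0
  have zc : ZetC ζ := ⟨hM.sm, hM.supp, hM.odd⟩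
  have cΦ : Continuous (iteratedDeriv N Ξ) := (smooth_iter hX.sm N).continuous
  have cζ : Continuous ζ := hM.sm.continuous
  have bΦ : ∀ r, |iteratedDeriv N Ξ r| ≤ M := hX.bd N (by omega)
  have hT0 : 0 ≤ T := (abs_nonneg _).trans (kb.F 0 (by omega) 0 (by omega) 0 0)
  rw [PS_eq zc hev U h ld.mact b m s' w, ← mul_sub, abs_mul]
  refine (mul_le_of_le_one_left (abs_nonneg _) (ga_abs s' w.1)).trans ?_
  set D0 : ℕ → ℝ := fun s => al (fun z => h z * II (iteratedDeriv N Ξ) ζ (tauR s s' w.1)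
    (epsR s s') (pR U b m s' w z) (aR U m s' w)) act s (cel s w.1) with hD0
  have e1 : ∑ s ∈ Finset.range (s' + 1), D0 s =
      ∫ t, ζ t * FL ζ (iteratedDeriv N Ξ) b m h act (s' + 1) (vt U b m s' w t)
        (pt s' (cel s' w.1) t) :=
    straight_sum ld.nice act U b m s' w cΦ cζ cζ (fun t ht => zeta_off hM ht) bΦ hM.le hM.le
  have e2 : ∀ t, ζ t * FL ζ (iteratedDeriv N Ξ) b m h act (s' + 1) (vt U b m s' w t)
        (pt s' (cel s' w.1) t) = ζ t * GG (iteratedDeriv N Ξ) ζ h act b m s' w.1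
          (vt U b m s' w t) t := by
    intro t
    by_cases ht : 0 ≤ t ∧ t < 1
    · rw [GG_eq ht]
    · rw [zeta_off hM ht, zero_mul, zero_mul]
  have e3 : ∀ t, ζ t * FL ζ (iteratedDeriv N Ξ) b m h act (s' + 1) (rv b m w)
        (pt s' (cel s' w.1) t) = ζ t * GG (iteratedDeriv N Ξ) ζ h act b m s' w.1
          (rv b m w) t := by
    intro t
    by_cases ht : 0 ≤ t ∧ t < 1
    · rw [GG_eq ht]
    · rw [zeta_off hM ht, zero_mul, zero_mul]
  have cv : Continuous (fun t => vt U b m s' w t) := by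
    unfold vt pt
    fun_prop
  have i1 : Integrable (fun t => ζ t * FL ζ (iteratedDeriv N Ξ) b m h act (s' + 1)
      (vt U b m s' w t) (pt s' (cel s' w.1) t)) := by
    simp_rw [e2]
    exact (cζ.mul (GG_cont cζ cΦ bΦ ld.nice act b m s' w.1 cv)).integrable_of_hasCompactSupport
      hM.cs.mul_right
  have i2 : Integrable (fun t => ζ t * FL ζ (iteratedDeriv N Ξ) b m h act (s' + 1)
      (rv b m w) (pt s' (cel s' w.1) t)) := by
    simp_rw [e3]
    exact (cζ.mul (GG_cont cζ cΦ bΦ ld.nice act b m s' w.1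
      (continuous_const (y := rv b m w)))).integrable_of_hasCompactSupport hM.cs.mul_right
  have f1 : |∑ s ∈ Finset.range (s' + 1), D0 s -
      bL ζ (iteratedDeriv N Ξ) b m h act s' (rv b m w) w.1| ≤ M * (T * |aR U m s' w|) := by
    rw [e1, bL_eq zc, ← integral_sub i1 i2]
    apply int01
    · intro t ht
      rw [← mul_sub, abs_mul]
      apply mul_le_mul (hM.le t) _ (abs_nonneg _) hM0
      have h1 := FL_lip (ζ := ζ) (Φ := iteratedDeriv N Ξ) (Φ' := iteratedDeriv (N + 1) Ξ)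
        (hasDeriv_iter hX.sm N) cΦ (smooth_iter hX.sm (N + 1)).continuous bΦ
        (hX.bd (N + 1) (by omega)) ld.nice act b m (s' + 1)
        (kb.F (N + 1) le_rfl (s' + 1) (by omega)) (vt U b m s' w t) (rv b m w)
        (pt s' (cel s' w.1) t)
      refine h1.trans (mul_le_mul_of_nonneg_left ?_ hT0)
      have h2 : vt U b m s' w t - rv b m w = (U w - m) * (pt s' (cel s' w.1) t - w.1) := by
        unfold vt; ring
      rw [h2, abs_mul]
      unfold aR
      rw [abs_mul, abs_of_pos (by positivity : (0:ℝ) < (1 / 2) ^ s')]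
      apply mul_le_mul_of_nonneg_left _ (abs_nonneg _)
      -- distance inside the closed cell
      have h3 : ∀ r ∈ Set.Ico (0:ℝ) 1, |pt s' (cel s' w.1) r - w.1| ≤ (1 / 2) ^ s' := by
        intro r hr
        apply cel_dist
        exact cel_pt hr.1 hr.2
      rcases lt_or_eq_of_le ht.2 with h4 | h4
      · exact h3 t ⟨ht.1, h4⟩
      · subst h4
        have hcont : Continuous (fun r : ℝ => |pt s' (cel s' w.1) r - w.1|) := by
          unfold pt
          fun_prop
        have h5 : (1:ℝ) ∈ closure (Set.Ico (0:ℝ) 1) := by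
          rw [closure_Ico (by norm_num)]
          simp
        exact closure_minimal (s := Set.Ico (0:ℝ) 1)
          (t := {r | |pt s' (cel s' w.1) r - w.1| ≤ (1 / 2) ^ s'})
          h3 (isClosed_le hcont continuous_const) h5
    · intro t ht
      rw [hM.off ht]
      simp
  have f2 : |∑ s ∈ Finset.range (s' + 1), dX (iteratedDeriv N Ξ) ζ U h act b m s s' w -
      ∑ s ∈ Finset.range (s' + 1), D0 s| ≤ ∑ s ∈ Finset.range (s' + 1),
        2 * M ^ 3 * (epsR s s' + |aR U m s' w|) * eL U m h act s w.1 := by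
    rw [← Finset.sum_sub_distrib]
    refine (Finset.abs_sum_le_sum_abs _ _).trans (Finset.sum_le_sum fun s hs => ?_)
    rw [Finset.mem_range] at hs
    exact dX_sub hM hP hX ld (by omega) w
  calc |∑ s ∈ Finset.range (s' + 1), dX (iteratedDeriv N Ξ) ζ U h act b m s s' w -
        bL ζ (iteratedDeriv N Ξ) b m h act s' (rv b m w) w.1|
      = |(∑ s ∈ Finset.range (s' + 1), D0 s -
          bL ζ (iteratedDeriv N Ξ) b m h act s' (rv b m w) w.1) +
        (∑ s ∈ Finset.range (s' + 1), dX (iteratedDeriv N Ξ) ζ U h act b m s s' w -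
          ∑ s ∈ Finset.range (s' + 1), D0 s)| := by congr 1; ring
    _ ≤ _ := (abs_add_le _ _).trans (add_le_add f1 f2)

/-- **PAIR-LOW, DEEP**: the deep scales together -/
theorem low_deep (hM : ZM M P ζ) (hP : 1 ≤ P) (hX : XM M (N + 2) Ξ)
    (hev : ∀ r, iteratedDeriv N Ξ (-r) = iteratedDeriv N Ξ r)
    (ld : LD h act U b m) (kb : KB ζ Ξ N U b m h act S T) {K : ℝ} (hK : 0 ≤ K) {p q : ℕ}
    (hpq : p ≤ q) (hq : q ≤ S) (w : ℝ × ℝ) (ha : ∀ s' ∈ Finset.Ico p q, |aR U m s' w| ≤ K) :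
    |∑ s' ∈ Finset.Ico p q, PS (iteratedDeriv N Ξ) ζ U h act s' w| ≤
      (1 + 2 * K * M + 4 * (1 + K) * M ^ 3) * T := by
  have hM0 := hM.M0
  have hT0 : 0 ≤ T := (abs_nonneg _).trans (kb.F 0 (by omega) 0 (by omega) 0 0)
  have h1 : ∀ s' ∈ Finset.Ico p q, |PS (iteratedDeriv N Ξ) ζ U h act s' w -
      ga s' w.1 * bL ζ (iteratedDeriv N Ξ) b m h act s' (rv b m w) w.1| ≤
      M * (T * |aR U m s' w|) + ∑ s ∈ Finset.range S,
        (if s ≤ s' then 2 * M ^ 3 * (epsR s s' + |aR U m s' w|) * eL U m h act s w.1 else 0) := by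
    intro s' hs'
    rw [Finset.mem_Ico] at hs'
    refine (PS_deep hM hP hX hev ld kb (by omega : s' < S) w).trans ?_
    have h2 : ∑ s ∈ Finset.range (s' + 1),
        2 * M ^ 3 * (epsR s s' + |aR U m s' w|) * eL U m h act s w.1 = ∑ s ∈ Finset.range S,
        (if s ≤ s' then 2 * M ^ 3 * (epsR s s' + |aR U m s' w|) * eL U m h act s w.1 else 0) := by
      rw [← Finset.sum_filter]
      apply Finset.sum_congr _ fun _ _ => rfl
      ext s
      simp only [Finset.mem_range, Finset.mem_filter]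
      omega
    rw [h2]
  have h3 : |∑ s' ∈ Finset.Ico p q, (PS (iteratedDeriv N Ξ) ζ U h act s' w -
      ga s' w.1 * bL ζ (iteratedDeriv N Ξ) b m h act s' (rv b m w) w.1)| ≤
      2 * K * M * T + 4 * (1 + K) * M ^ 3 * T := by
    refine (Finset.abs_sum_le_sum_abs _ _).trans ((Finset.sum_le_sum h1).trans ?_)
    rw [Finset.sum_add_distrib]
    apply add_le_add
    · rw [← Finset.mul_sum, ← Finset.mul_sum]
      have := slope_sum U m w hK ha
      calc M * (T * ∑ i ∈ Finset.Ico p q, |aR U m i w|) ≤ M * (T * (2 * K)) := by gcongr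
        _ = 2 * K * M * T := by ring
    · rw [Finset.sum_comm]
      have h4 : ∀ s ∈ Finset.range S, ∑ s' ∈ Finset.Ico p q,
          (if s ≤ s' then 2 * M ^ 3 * (epsR s s' + |aR U m s' w|) * eL U m h act s w.1 else 0) ≤
          4 * (1 + K) * M ^ 3 * eL U m h act s w.1 := by
        intro s _
        have h5 : ∑ s' ∈ Finset.Ico p q, (if s ≤ s' then epsR s s' + |aR U m s' w| else 0) ≤
            2 + 2 * K := by
          have h6 : ∑ s' ∈ Finset.Ico p q, (if s ≤ s' then epsR s s' + |aR U m s' w| else 0) ≤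
            ∑ s' ∈ Finset.Ico p q, (if s ≤ s' then epsR s s' else 0) +
            ∑ s' ∈ Finset.Ico p q, |aR U m s' w| := by
            rw [← Finset.sum_add_distrib]
            apply Finset.sum_le_sum
            intro s' _
            split_ifs
            · exact le_rfl
            · simp
          refine h6.trans (add_le_add ?_ (slope_sum U m w hK ha))
          rw [← Finset.sum_filter]
          refine (Finset.sum_le_sum_of_subset_of_nonneg (t := Finset.Ico s q) ?_ ?_).trans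
            (eps_sum s q)
          · intro s' hs'
            simp only [Finset.mem_filter, Finset.mem_Ico] at hs' ⊢
            omega
          · intro s' _ _
            exact (epsR_pos s s').le
        have h7 : ∀ s', (if s ≤ s' then
            2 * M ^ 3 * (epsR s s' + |aR U m s' w|) * eL U m h act s w.1 else 0) =
            2 * M ^ 3 * eL U m h act s w.1 * (if s ≤ s' then epsR s s' + |aR U m s' w| else 0) := by
          intro s'
          split_ifs <;> ring
        simp_rw [h7]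
        rw [← Finset.mul_sum]
        have h8 := eL_nonneg U m h act s w.1
        calc 2 * M ^ 3 * eL U m h act s w.1 * _ ≤ 2 * M ^ 3 * eL U m h act s w.1 * (2 + 2 * K) :=
              mul_le_mul_of_nonneg_left h5 (by positivity)
          _ = 4 * (1 + K) * M ^ 3 * eL U m h act s w.1 := by ring
      refine (Finset.sum_le_sum h4).trans ?_
      rw [← Finset.mul_sum]
      exact mul_le_mul_of_nonneg_left (kb.E w.1) (by positivity)
  have h9 := kb.B p q hpq hq (rv b m w) w.1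
  rw [Finset.sum_sub_distrib] at h3
  calc |∑ s' ∈ Finset.Ico p q, PS (iteratedDeriv N Ξ) ζ U h act s' w| =
      |(∑ s' ∈ Finset.Ico p q, PS (iteratedDeriv N Ξ) ζ U h act s' w -
        ∑ s' ∈ Finset.Ico p q, ga s' w.1 * bL ζ (iteratedDeriv N Ξ) b m h act s' (rv b m w) w.1) +
        ∑ s' ∈ Finset.Ico p q,
          ga s' w.1 * bL ζ (iteratedDeriv N Ξ) b m h act s' (rv b m w) w.1| := by congr 1; ring
    _ ≤ _ := (abs_add_le _ _).trans (add_le_add h3 h9)
    _ = _ := by ring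

/-- **PAIR-LOW, SHALLOW**: one shallow scale -/
theorem low_shallow (hM : ZM M N ζ) (hX : XM M (N + 2) Ξ)
    (hev : ∀ r, iteratedDeriv N Ξ (-r) = iteratedDeriv N Ξ r)
    (ld : LD h act U b m) (kb : KB ζ Ξ N U b m h act S T) {s' : ℕ} (hs' : s' < S) (w : ℝ × ℝ)
    (ha : 4 ≤ |aR U m s' w|) :
    |PS (iteratedDeriv N Ξ) ζ U h act s' w| ≤
      (M + 3 * ((4 ^ N + N * 2 ^ N + 1) * M ^ 3)) * T * (|aR U m s' w|⁻¹) ^ N := by
  have hM0 := hM.M0
  have zc : ZetC ζ := ⟨hM.sm, hM.supp, hM.odd⟩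
  have cζ : Continuous ζ := hM.sm.continuous
  have x0 : ∀ r, |Ξ r| ≤ M := fun r => by simpa using hX.bd 0 (by omega) r
  have hT0 : 0 ≤ T := (abs_nonneg _).trans (kb.F 0 (by omega) 0 (by omega) 0 0)
  rw [PS_eq zc hev U h ld.mact b m s' w, abs_mul]
  refine (mul_le_of_le_one_left (abs_nonneg _) (ga_abs s' w.1)).trans ?_
  set a := aR U m s' w with hadef
  set A := (|a|⁻¹) ^ N with hA
  have hA0 : 0 ≤ A := by positivity
  set CN : ℝ := (4 ^ N + N * 2 ^ N + 1) * M ^ 3 with hCN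
  have hCN0 : 0 ≤ CN := by positivity
  set D1 : ℕ → ℝ := fun s => al (fun z => h z * ∫ t, iteratedDeriv N ζ t *
    (ζ (tauR s s' w.1 + epsR s s' * t) * Ξ (pR U b m s' w z + aR U m s' w * t))) act s
      (cel s w.1) with hD1
  have e1 : ∑ s ∈ Finset.range (s' + 1), D1 s =
      ∫ t, iteratedDeriv N ζ t * FL ζ Ξ b m h act (s' + 1) (vt U b m s' w t)
        (pt s' (cel s' w.1) t) :=
    straight_sum ld.nice act U b m s' w hX.sm.continuous cζ (smooth_iter hM.sm N).continuous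
      (fun t ht => zetad_off hM N ht) x0 hM.le (hM.bd N le_rfl)
  have f1 : |∑ s ∈ Finset.range (s' + 1), D1 s| ≤ M * T := by
    rw [e1]
    apply int01
    · intro t _
      rw [abs_mul]
      have := kb.F 0 (by omega) (s' + 1) (by omega) (vt U b m s' w t) (pt s' (cel s' w.1) t)
      simp only [iteratedDeriv_zero] at this
      exact mul_le_mul (hM.bd N le_rfl t) this (abs_nonneg _) hM0
    · intro t ht
      rw [hM.offd N ht, zero_mul]
  have f2 : |∑ s ∈ Finset.range (s' + 1), dX (iteratedDeriv N Ξ) ζ U h act b m s s' w -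
      (-1 / a) ^ N * ∑ s ∈ Finset.range (s' + 1), D1 s| ≤ A * CN * (3 * T) := by
    rw [Finset.mul_sum, ← Finset.sum_sub_distrib]
    refine (Finset.abs_sum_le_sum_abs _ _).trans ((Finset.sum_le_sum fun s hs => ?_).trans
      (b := ∑ s ∈ Finset.range (s' + 1), A * CN *
        (epsR s s' * pL (fun _ _ => 1) h act s w.1 + eL U m h act s w.1)) ?_)
    · rw [Finset.mem_range] at hs
      exact dX_shal hM hX ld (by omega) w ha
    · rw [← Finset.mul_sum]
      apply mul_le_mul_of_nonneg_left _ (by positivity)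
      rw [Finset.sum_add_distrib]
      have g1 : ∑ s ∈ Finset.range (s' + 1), epsR s s' * pL (fun _ _ => 1) h act s w.1 ≤ 2 * T := by
        calc _ ≤ ∑ s ∈ Finset.range (s' + 1), epsR s s' * T :=
              Finset.sum_le_sum fun s _ => mul_le_mul_of_nonneg_left (kb.A s w.1) (epsR_pos s s').le
          _ = (∑ s ∈ Finset.range (s' + 1), epsR s s') * T := by rw [Finset.sum_mul]
          _ ≤ 2 * T := mul_le_mul_of_nonneg_right (eps_sum' s') hT0
      have g2 : ∑ s ∈ Finset.range (s' + 1), eL U m h act s w.1 ≤ T := by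
        refine le_trans (Finset.sum_le_sum_of_subset_of_nonneg (t := Finset.range S) ?_ ?_)
          (kb.E w.1)
        · intro s hs
          rw [Finset.mem_range] at hs ⊢
          omega
        · intro s _ _
          exact eL_nonneg U m h act s w.1
      linarith
  have f3 : |(-1 / a) ^ N * ∑ s ∈ Finset.range (s' + 1), D1 s| ≤ A * (M * T) := by
    rw [abs_mul, abs_pow, abs_div, abs_neg, abs_one, one_div]
    exact mul_le_mul_of_nonneg_left f1 (by positivity)
  calc |∑ s ∈ Finset.range (s' + 1), dX (iteratedDeriv N Ξ) ζ U h act b m s s' w|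
      = |(∑ s ∈ Finset.range (s' + 1), dX (iteratedDeriv N Ξ) ζ U h act b m s s' w -
          (-1 / a) ^ N * ∑ s ∈ Finset.range (s' + 1), D1 s) +
        (-1 / a) ^ N * ∑ s ∈ Finset.range (s' + 1), D1 s| := by congr 1; ring
    _ ≤ A * CN * (3 * T) + A * (M * T) := (abs_add_le _ _).trans (add_le_add f2 f3)
    _ = (M + 3 * CN) * T * A := by ring

/-- **PAIR-LOW, SUPPORT** -/
theorem low_supp (hM : ZM M P ζ) (hX0 : ∀ r, 2 < |r| → iteratedDeriv N Ξ r = 0)
    (hev : ∀ r, iteratedDeriv N Ξ (-r) = iteratedDeriv N Ξ r)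
    (ld : LD h act U b m) {s' : ℕ} (w : ℝ × ℝ)
    (hne : PS (iteratedDeriv N Ξ) ζ U h act s' w ≠ 0) :
    |rv b m w| ≤ |aR U m s' w| + 4 ∧
      ∃ s ≤ s', ∃ z ∈ act s, cel s z.1 = cel s w.1 ∧ h z ≠ 0 := by
  have zc : ZetC ζ := ⟨hM.sm, hM.supp, hM.odd⟩
  rw [PS_eq zc hev U h ld.mact b m s' w] at hne
  obtain ⟨s, hs, hs0⟩ := Finset.exists_ne_zero_of_sum_ne_zero (right_ne_zero_of_mul hne)
  rw [Finset.mem_range] at hs
  unfold dX al at hs0
  have h1 : ∃ z ∈ {z : ℝ × ℝ | cel s z.1 = cel s w.1} ∩ act s, ga s z.1 *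
      (h z * II (iteratedDeriv N Ξ) ζ (tauR s s' w.1) (epsR s s') (qR U b m s' w z)
        (aR U m s' w + eR U m s' z)) ≠ 0 := by
    by_contra hcon
    push Not at hcon
    apply hs0
    rw [setIntegral_eq_zero_of_forall_eq_zero hcon, mul_zero]
  obtain ⟨z, hz, hz0⟩ := h1
  have h2 := right_ne_zero_of_mul hz0
  have h3 := left_ne_zero_of_mul h2
  have h4 := right_ne_zero_of_mul h2
  refine ⟨?_, s, by omega, z, hz.2, hz.1, h3⟩
  have h5 : ∃ t, ζ t * (ζ (tauR s s' w.1 + epsR s s' * t) * iteratedDeriv N Ξ (qR U b m s' w z +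
      (aR U m s' w + eR U m s' z) * t)) ≠ 0 := by
    by_contra hcon
    push Not at hcon
    apply h4
    unfold II
    simp [hcon]
  obtain ⟨t, ht⟩ := h5
  have ht1 := hM.supp t (left_ne_zero_of_mul ht)
  have ht01 : t ∈ Set.Icc (0:ℝ) 1 := ⟨by linarith [ht1.1], by linarith [ht1.2]⟩
  have h6 : |qR U b m s' w z + (aR U m s' w + eR U m s' z) * t| ≤ 2 := by
    by_contra hcon
    push Not at hcon
    exact right_ne_zero_of_mul (right_ne_zero_of_mul ht) (hX0 _ hcon)
  have h7 := phase_err (U := U) (b := b) (m := m) (by omega : s ≤ s') (w := w) (z := z) hz.1 ht01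
  have h8 := ld.sl1 s z hz.2 h3
  have h9 := ld.rv1 s z hz.2 h3
  rw [← phase0] at h7
  -- distance in the short cell
  have h10 : |(U w - m) * (pt s' (cel s' w.1) t - w.1)| ≤ |aR U m s' w| := by
    unfold aR
    rw [abs_mul, abs_mul, abs_of_pos (by positivity : (0:ℝ) < (1 / 2) ^ s')]
    apply mul_le_mul_of_nonneg_left _ (abs_nonneg _)
    apply cel_dist
    exact cel_pt (by linarith [ht1.1]) (by linarith [ht1.2])
  have e : rv b m w = (qR U b m s' w z + (aR U m s' w + eR U m s' z) * t) -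
      ((qR U b m s' w z + (aR U m s' w + eR U m s' z) * t) -
        (rv b m w + (U w - m) * (pt s' (cel s' w.1) t - w.1) - rv b m z)) -
      (U w - m) * (pt s' (cel s' w.1) t - w.1) + rv b m z := by ring
  rw [e]
  refine (abs_add_le _ _).trans ?_
  have a1 := abs_sub ((qR U b m s' w z + (aR U m s' w + eR U m s' z) * t) -
      ((qR U b m s' w z + (aR U m s' w + eR U m s' z) * t) -
        (rv b m w + (U w - m) * (pt s' (cel s' w.1) t - w.1) - rv b m z)))
      ((U w - m) * (pt s' (cel s' w.1) t - w.1))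
  have a2 := abs_sub (qR U b m s' w z + (aR U m s' w + eR U m s' z) * t)
      ((qR U b m s' w z + (aR U m s' w + eR U m s' z) * t) -
        (rv b m w + (U w - m) * (pt s' (cel s' w.1) t - w.1) - rv b m z))
  linarith

end main

end Crest.Agent.R087.PairLowx500
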