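import Crest.Agent.R087.OP0_270
import Crest.Agent.R087.Omega_627

/-!
Row 87 (S0115), OPERATOR PART, leaf TOPN (helper52): TOP chains of one class (one scale at every point,
absolute values, own integer lines).

`PairB ζ`  : bound of one pairing (339), `TopStop` : stopping of the tops (736);
`main`     : `PairB ζ → TopStop → SQ ζ → MASS3 → OMEGA → HNORM → REMSUM → TOPN ζ`.
-/

set_option autoImplicit false

noncomputable section

open MeasureTheory
open scoped ENNReal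

namespace Crest.Agent.R087.TopNx52

open Crest.Agent.R087.Sh0x283 Crest.Agent.R087.E2x542 Crest.Agent.R087.E2Kx752
  Crest.Agent.R087.GateDefx273 Crest.Agent.R087.OP0x270

/-- bound of one pairing -/
def PairB (ζ : ℝ → ℝ) : Prop :=
  ∃ C : ℝ, 0 ≤ C ∧ ∀ ω : ℝ → ℝ, PW (2 * qq + 8) ω → ∀ U : ℝ × ℝ → ℝ, Measurable U →
    (∃ W, ∀ z, |U z| ≤ W) → ∀ s s' : ℕ, s ≤ s' → ∀ z z' : ℝ × ℝ,
      |pr (ph ω) ζ U s s' z z'| ≤ C * 2 ^ s /
        (1 + |U z' - U z| * (1 / 2 : ℝ) ^ s' + |z'.2 - (z.2 + (z'.1 - z.1) * U z)|) ^ qq ∧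
      (jx s z'.1 ≠ jx s z.1 → pr (ph ω) ζ U s s' z z' = 0)

/-- stopping of the tops -/
def TopStop : Prop :=
  ∃ C : ℝ, 0 ≤ C ∧ ∀ (U h : ℝ × ℝ → ℝ) (n S : ℕ) (lo hi : ℝ × ℝ → ℕ) (Lam : ℝ), Measurable U →
    Nice h → Chain S lo hi → UppAt U h AA n lo hi → 1 ≤ Lam →
    ∀ (N : ℕ) (R : Fin N → Tube) (kk : Fin N → ℤ) (ii : Fin N → ℕ) (E B : Fin N → Set (ℝ × ℝ)),
      IsTops U h AA n lo hi N R kk ii E B → (∀ z, hi z ≤ lo z + 1) →
      ∃ hi' : ℝ × ℝ → ℕ, Measurable hi' ∧ (∀ z, hi' z ≤ hi z) ∧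
        (∫ z in {z | lo z < hi z ∧ hi' z < hi z}, (h z) ^ 2 ≤
          C * (n + 1) * (1 / Lam) ^ 2 * ∫ z, (h z) ^ 2) ∧
        ∀ m x, ∑ s ∈ Finset.range S, ENNReal.ofReal (2 ^ s) *
          ∫⁻ z in {z | z ∈ B m ∧ lo z = s ∧ s < hi' z ∧ jx s z.1 = jx s x}, ENNReal.ofReal |h z| ≤
            ENNReal.ofReal (C * Lam * (2 ^ (kk m) * 2 ^ (AA * ii m) * (1 / 2) ^ n))

/-! ### geometry -/

theorem jx_succ (s : ℕ) (x : ℝ) : jx s x = jx (s + 1) x / 2 := by
  unfold jx
  have h : (2 : ℝ) ^ s * x = ((2 : ℝ) ^ (s + 1) * x) / ((2 : ℕ) : ℝ) := by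
    rw [pow_succ]; push_cast; ring
  rw [h, Int.floor_div_natCast]; rfl

theorem jx_mono {r s : ℕ} (h : r ≤ s) {x y : ℝ} (hxy : jx s x = jx s y) : jx r x = jx r y := by
  induction s with
  | zero => have : r = 0 := by omega
            subst this; exact hxy
  | succ s ih =>
    rcases Nat.lt_or_ge r (s + 1) with h1 | h1
    · apply ih (by omega)
      rw [jx_succ s x, jx_succ s y, hxy]
    · have : r = s + 1 := by omega
      subst this; exact hxy

theorem mem_I (R : Tube) (x : ℝ) : x ∈ R.I ↔ jx R.k x = R.j := by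
  unfold Tube.I Tube.len jx
  rw [Int.floor_eq_iff, Set.mem_Ico]
  have h2 : (0 : ℝ) < 2 ^ R.k := by positivity
  have e1 : (R.j : ℝ) * (1 / 2) ^ R.k = R.j / 2 ^ R.k := by rw [one_div, inv_pow]; rfl
  have e2 : ((R.j : ℝ) + 1) * (1 / 2) ^ R.k = (R.j + 1) / 2 ^ R.k := by
    rw [one_div, inv_pow]; rfl
  rw [e1, e2, div_le_iff₀ h2, lt_div_iff₀ h2, mul_comm x]

theorem jx_dist {s : ℕ} {x y : ℝ} (h : jx s x = jx s y) : |x - y| ≤ (1 / 2 : ℝ) ^ s := by
  unfold jx at h
  have h1 := Int.floor_le ((2 : ℝ) ^ s * x)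
  have h2 := Int.lt_floor_add_one ((2 : ℝ) ^ s * x)
  have h3 := Int.floor_le ((2 : ℝ) ^ s * y)
  have h4 := Int.lt_floor_add_one ((2 : ℝ) ^ s * y)
  rw [h] at h1 h2
  have h5 : |(2 : ℝ) ^ s * (x - y)| ≤ 1 := by
    rw [abs_le]; constructor <;> nlinarith
  rw [abs_mul, abs_of_pos (by positivity : (0 : ℝ) < 2 ^ s)] at h5
  have h6 : (1 / 2 : ℝ) ^ s * 2 ^ s = 1 := by rw [← mul_pow]; norm_num
  have h7 : (0 : ℝ) < (1 / 2 : ℝ) ^ s := by positivity
  calc |x - y| = (1 / 2 : ℝ) ^ s * (2 ^ s * |x - y|) := by rw [← mul_assoc, h6, one_mul]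
    _ ≤ (1 / 2 : ℝ) ^ s * 1 := by gcongr
    _ = _ := mul_one _

/-- nearest integer -/
def rd (x : ℝ) : ℤ := ⌊x + 1 / 2⌋

theorem rd_le (x : ℝ) : |x - rd x| ≤ 1 / 2 := by
  unfold rd
  have h1 := Int.floor_le (x + 1 / 2)
  have h2 := Int.lt_floor_add_one (x + 1 / 2)
  rw [abs_le]; constructor <;> linarith

theorem measurable_rd : Measurable rd := by
  unfold rd
  exact Int.measurable_floor.comp (by fun_prop)

/-- integer slope near the field at `z` -/
def mU (U : ℝ × ℝ → ℝ) (z : ℝ × ℝ) : ℤ := rd (U z)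

/-- integer intercept -/
def bU (U : ℝ × ℝ → ℝ) (z : ℝ × ℝ) : ℤ := rd (z.2 - mU U z * z.1)

/-- own integer tube of `z` at the scale `lo z` -/
def R0 (U : ℝ × ℝ → ℝ) (lo : ℝ × ℝ → ℕ) (z : ℝ × ℝ) : Tube :=
  ⟨lo z, jx (lo z) z.1, bU U z, mU U z⟩

theorem R0_int (U : ℝ × ℝ → ℝ) (lo : ℝ × ℝ → ℕ) (z : ℝ × ℝ) : IntT (R0 U lo z) :=
  ⟨⟨bU U z, rfl⟩, ⟨mU U z, rfl⟩⟩

/-- the integer line is close to the line of the field on the cell -/
theorem R0_close (U : ℝ × ℝ → ℝ) {lo : ℝ × ℝ → ℕ} {z : ℝ × ℝ} {x : ℝ}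
    (hx : jx (lo z) x = jx (lo z) z.1) :
    |z.2 + (x - z.1) * U z - (bU U z + mU U z * x)| ≤ 1 := by
  have h1 : |z.2 - mU U z * z.1 - bU U z| ≤ 1 / 2 := rd_le _
  have h2 : |U z - mU U z| ≤ 1 / 2 := rd_le _
  have h3 : |x - z.1| ≤ 1 := (jx_dist hx).trans (pow_le_one₀ (by norm_num) (by norm_num))
  have e : z.2 + (x - z.1) * U z - (bU U z + mU U z * x) =
      (z.2 - mU U z * z.1 - bU U z) + (x - z.1) * (U z - mU U z) := by ring
  rw [e]
  refine (abs_add_le _ _).trans ?_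
  rw [abs_mul]
  have h4 : |x - z.1| * |U z - mU U z| ≤ 1 * (1 / 2) := by gcongr
  linarith

/-- own unit tubes lie in the fat tops -/
theorem fat_sub {U : ℝ × ℝ → ℝ} {lo : ℝ × ℝ → ℕ} {z w : ℝ × ℝ} {R : Tube} {i : ℕ}
    (h1 : z.1 ∈ R.I) (h2 : R.k ≤ lo z) (h3 : near U (5 * 2 ^ i) R.b R.m (lo z) z)
    (hw : w ∈ fat 1 (R0 U lo z)) : w ∈ fat (32 * 2 ^ i) R := by
  obtain ⟨hw1, hw2⟩ := hw
  rw [mem_I] at hw1
  have hc : jx (lo z) w.1 = jx (lo z) z.1 := hw1
  obtain ⟨h4, h5⟩ := h3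
  have hp : (1 : ℝ) ≤ 2 ^ i := one_le_pow₀ (by norm_num)
  refine ⟨?_, ?_⟩
  · rw [mem_I] at h1 ⊢
    rw [← h1]
    exact jx_mono h2 hc
  · have hw3 : |w.2 - (bU U z + mU U z * w.1)| ≤ 1 := hw2
    have h6 := R0_close U hc
    have h7 : |w.1 - z.1| * |U z - R.m| ≤ 5 * 2 ^ i := by
      calc |w.1 - z.1| * |U z - R.m| ≤ (1 / 2 : ℝ) ^ lo z * |U z - R.m| := by
            gcongr; exact jx_dist hc
        _ = |U z - R.m| * (1 / 2 : ℝ) ^ lo z := mul_comm _ _
        _ ≤ _ := h5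
    rw [← abs_mul] at h7
    have e : w.2 - R.line w.1 = (w.2 - (bU U z + mU U z * w.1)) -
        (z.2 + (w.1 - z.1) * U z - (bU U z + mU U z * w.1)) +
        ((z.2 - (R.b + R.m * z.1)) + (w.1 - z.1) * (U z - R.m)) := by
      unfold Tube.line; ring
    rw [e]
    have a1 := abs_le.1 hw3
    have a2 := abs_le.1 h6
    have a3 := abs_le.1 h4
    have a4 := abs_le.1 h7
    rw [abs_le]
    constructor <;> linarith [a1.1, a1.2, a2.1, a2.2, a3.1, a3.2, a4.1, a4.2]

/-- the weight with the own line is controlled by the weight with the integer line -/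
theorem weight_le {U : ℝ × ℝ → ℝ} {lo : ℝ × ℝ → ℕ} {z z' : ℝ × ℝ} {s' q : ℕ}
    (hx : jx (lo z) z'.1 = jx (lo z) z.1) :
    1 / (1 + |U z' - U z| * (1 / 2 : ℝ) ^ s' + |z'.2 - (z.2 + (z'.1 - z.1) * U z)|) ^ q ≤
      3 ^ q / (1 + |U z' - mU U z| * (1 / 2 : ℝ) ^ s' + |z'.2 - (bU U z + mU U z * z'.1)|) ^ q := by
  have h1 := R0_close U hx
  have h2 : |U z - mU U z| ≤ 1 / 2 := rd_le _
  have hs : (1 / 2 : ℝ) ^ s' ≤ 1 := pow_le_one₀ (by norm_num) (by norm_num)
  have hs0 : (0 : ℝ) < (1 / 2 : ℝ) ^ s' := by positivity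
  have h3 : |U z' - mU U z| * (1 / 2 : ℝ) ^ s' ≤ |U z' - U z| * (1 / 2 : ℝ) ^ s' + 1 / 2 := by
    have e : |U z' - mU U z| ≤ |U z' - U z| + |U z - mU U z| := by
      have := abs_add_le (U z' - U z) (U z - mU U z)
      simpa using this
    calc |U z' - mU U z| * (1 / 2 : ℝ) ^ s' ≤ (|U z' - U z| + |U z - mU U z|) * (1 / 2 : ℝ) ^ s' := by
          gcongr
      _ = |U z' - U z| * (1 / 2 : ℝ) ^ s' + |U z - mU U z| * (1 / 2 : ℝ) ^ s' := by ring
      _ ≤ |U z' - U z| * (1 / 2 : ℝ) ^ s' + 1 / 2 * 1 := by gcongr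
      _ = _ := by ring
  have h4 : |z'.2 - (bU U z + mU U z * z'.1)| ≤ |z'.2 - (z.2 + (z'.1 - z.1) * U z)| + 1 := by
    have e : z'.2 - (bU U z + mU U z * z'.1) = (z'.2 - (z.2 + (z'.1 - z.1) * U z)) +
        (z.2 + (z'.1 - z.1) * U z - (bU U z + mU U z * z'.1)) := by ring
    rw [e]
    exact (abs_add_le _ _).trans (by gcongr)
  set a := |U z' - U z| * (1 / 2 : ℝ) ^ s'
  set d := |z'.2 - (z.2 + (z'.1 - z.1) * U z)|
  have ha : 0 ≤ a := by positivity
  have hd : 0 ≤ d := abs_nonneg _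
  rw [div_le_div_iff₀ (by positivity) (by positivity), one_mul, ← mul_pow]
  gcongr
  linarith

/-! ### profiles -/

theorem ph_cont {ω : ℝ → ℝ} {M : ℕ} (h : PW M ω) : Continuous (ph ω) := by
  unfold ph
  exact h.1.continuous_iteratedDeriv _ (WithTop.coe_le_coe.2 le_top)

theorem ph_supp {ω : ℝ → ℝ} {M : ℕ} (h : PW M ω) : ∀ r, 1 < |r| → ph ω r = 0 := by
  intro r hr
  unfold ph
  have h1 : ω =ᶠ[nhds r] fun _ => (0 : ℝ) := by
    have : {x : ℝ | 1 < |x|} ∈ nhds r := (isOpen_lt continuous_const continuous_abs).mem_nhds hr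
    filter_upwards [this] with x hx
    exact h.2.1 x hx
  rw [h1.iteratedDeriv_eq]
  simp

/-! ### the kernel -/

/-- majorant of the pairing -/
def KK (U : ℝ × ℝ → ℝ) (lo hi : ℝ × ℝ → ℕ) (c : ℝ) (z z' : ℝ × ℝ) : ℝ≥0∞ :=
  {p : (ℝ × ℝ) × (ℝ × ℝ) | lo p.1 < hi p.1 ∧ lo p.2 < hi p.2 ∧ lo p.1 ≤ lo p.2 ∧
    jx (lo p.1) p.2.1 = jx (lo p.1) p.1.1}.indicator (fun p => ENNReal.ofReal (c * 2 ^ lo p.1) *
      ENNReal.ofReal (1 / (1 + |U p.2 - mU U p.1| * (1 / 2 : ℝ) ^ lo p.2 +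
        |p.2.2 - (bU U p.1 + mU U p.1 * p.2.1)|) ^ qq)) (z, z')

theorem KK_mem {U : ℝ × ℝ → ℝ} {lo hi : ℝ × ℝ → ℕ} {c : ℝ} {z z' : ℝ × ℝ} (h1 : lo z < hi z)
    (h2 : lo z' < hi z') (h3 : lo z ≤ lo z') (h4 : jx (lo z) z'.1 = jx (lo z) z.1) :
    KK U lo hi c z z' = ENNReal.ofReal (c * 2 ^ lo z) *
      ENNReal.ofReal (1 / (1 + |U z' - mU U z| * (1 / 2 : ℝ) ^ lo z' +
        |z'.2 - (bU U z + mU U z * z'.1)|) ^ qq) := by
  unfold KK
  rw [Set.indicator_of_mem]
  exact ⟨h1, h2, h3, h4⟩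

theorem measurable_two {a : ℝ} {X : Type*} [MeasurableSpace X] {f : X → ℕ} (hf : Measurable f) :
    Measurable fun x => a ^ f x :=
  (measurable_of_countable (fun s : ℕ => a ^ s)).comp hf

theorem measurable_jx {X : Type*} [MeasurableSpace X] {f : X → ℕ} {g : X → ℝ} (hf : Measurable f)
    (hg : Measurable g) : Measurable fun x => jx (f x) (g x) := by
  unfold jx
  have h1 : Measurable fun x => (2 : ℝ) ^ f x * g x := (measurable_two hf).mul hg
  exact Int.measurable_floor.comp h1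

theorem measurable_mU {U : ℝ × ℝ → ℝ} (hU : Measurable U) : Measurable fun z => ((mU U z : ℤ) : ℝ) :=
  (Measurable.of_discrete (f := fun n : ℤ => (n : ℝ))).comp (measurable_rd.comp hU)

theorem measurable_bU {U : ℝ × ℝ → ℝ} (hU : Measurable U) : Measurable fun z => ((bU U z : ℤ) : ℝ) := by
  refine (Measurable.of_discrete (f := fun n : ℤ => (n : ℝ))).comp (measurable_rd.comp ?_)
  exact measurable_snd.sub ((measurable_mU hU).mul measurable_fst)

theorem measurable_KK {U : ℝ × ℝ → ℝ} (hU : Measurable U) {lo hi : ℝ × ℝ → ℕ} (hlo : Measurable lo)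
    (hhi : Measurable hi) (c : ℝ) :
    Measurable fun p : (ℝ × ℝ) × (ℝ × ℝ) => KK U lo hi c p.1 p.2 := by
  have e0 : (fun p : (ℝ × ℝ) × (ℝ × ℝ) => KK U lo hi c p.1 p.2) =
      {p : (ℝ × ℝ) × (ℝ × ℝ) | lo p.1 < hi p.1 ∧ lo p.2 < hi p.2 ∧ lo p.1 ≤ lo p.2 ∧
        jx (lo p.1) p.2.1 = jx (lo p.1) p.1.1}.indicator (fun p => ENNReal.ofReal (c * 2 ^ lo p.1) *
      ENNReal.ofReal (1 / (1 + |U p.2 - mU U p.1| * (1 / 2 : ℝ) ^ lo p.2 +
        |p.2.2 - (bU U p.1 + mU U p.1 * p.2.1)|) ^ qq)) := by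
    ext p; rfl
  rw [e0]
  have hA : Measurable fun p : (ℝ × ℝ) × (ℝ × ℝ) => ENNReal.ofReal (c * 2 ^ lo p.1) := by
    have h1 : Measurable fun p : (ℝ × ℝ) × (ℝ × ℝ) => (2 : ℝ) ^ lo p.1 :=
      measurable_two (hlo.comp measurable_fst)
    exact (h1.const_mul c).ennreal_ofReal
  have hB1 : Measurable fun p : (ℝ × ℝ) × (ℝ × ℝ) =>
      |U p.2 - mU U p.1| * (1 / 2 : ℝ) ^ lo p.2 := by
    have h1 : Measurable fun p : (ℝ × ℝ) × (ℝ × ℝ) => |U p.2 - mU U p.1| :=
      continuous_abs.measurable.comp ((hU.comp measurable_snd).sub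
          ((measurable_mU hU).comp measurable_fst))
    have h2 : Measurable fun p : (ℝ × ℝ) × (ℝ × ℝ) => (1 / 2 : ℝ) ^ lo p.2 :=
      measurable_two (hlo.comp measurable_snd)
    exact h1.mul h2
  have hB2 : Measurable fun p : (ℝ × ℝ) × (ℝ × ℝ) =>
      |p.2.2 - (bU U p.1 + mU U p.1 * p.2.1)| := by
    refine continuous_abs.measurable.comp ((measurable_snd.snd).sub ?_)
    exact ((measurable_bU hU).comp measurable_fst).add
          (((measurable_mU hU).comp measurable_fst).mul measurable_snd.fst)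
  have hB : Measurable fun p : (ℝ × ℝ) × (ℝ × ℝ) => ENNReal.ofReal (1 / (1 +
      |U p.2 - mU U p.1| * (1 / 2 : ℝ) ^ lo p.2 +
        |p.2.2 - (bU U p.1 + mU U p.1 * p.2.1)|) ^ qq) :=
    ((((hB1.const_add 1).add hB2).pow_const qq).const_div 1).ennreal_ofReal
  refine Measurable.indicator (hA.mul hB) ?_
  · have h1 : MeasurableSet {p : (ℝ × ℝ) × (ℝ × ℝ) | lo p.1 < hi p.1} :=
      measurableSet_lt (hlo.comp measurable_fst) (hhi.comp measurable_fst)
    have h2 : MeasurableSet {p : (ℝ × ℝ) × (ℝ × ℝ) | lo p.2 < hi p.2} :=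
      measurableSet_lt (hlo.comp measurable_snd) (hhi.comp measurable_snd)
    have h3 : MeasurableSet {p : (ℝ × ℝ) × (ℝ × ℝ) | lo p.1 ≤ lo p.2} :=
      measurableSet_le (hlo.comp measurable_fst) (hlo.comp measurable_snd)
    have h4 : MeasurableSet {p : (ℝ × ℝ) × (ℝ × ℝ) | jx (lo p.1) p.2.1 = jx (lo p.1) p.1.1} :=
      measurableSet_eq_fun (measurable_jx (hlo.comp measurable_fst) measurable_snd.fst)
        (measurable_jx (hlo.comp measurable_fst) measurable_fst.fst)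
    exact h1.inter (h2.inter (h3.inter h4))

theorem abs_cc_le (s s' : ℕ) : |cc s s'| ≤ 1 := by
  unfold cc
  split_ifs <;> norm_num

theorem cc_zero {s s' : ℕ} (h : s' < s) : cc s s' = 0 := by
  unfold cc
  rw [if_neg (by omega)]

/-- expansion and absolute values -/
theorem step1 {ζ : ℝ → ℝ} (hP : PairB ζ) (hSQ : SQ ζ) :
    ∃ C : ℝ, 0 ≤ C ∧ ∀ ω : ℝ → ℝ, PW (2 * qq + 8) ω → ∀ (U h : ℝ × ℝ → ℝ) (S : ℕ)
      (lo hi : ℝ × ℝ → ℕ), Measurable U → (∃ W, ∀ z, |U z| ≤ W) → Nice h → Chain S lo hi →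
      (∀ z, hi z ≤ lo z + 1) →
      ENNReal.ofReal (∫ w, (Tc (ph ω) ζ U lo hi h w) ^ 2) ≤
        2 * ∫⁻ z, ENNReal.ofReal |h z| * ∫⁻ z', ENNReal.ofReal |h z'| * KK U lo hi C z z' := by
  obtain ⟨C, hC, hP⟩ := hP
  refine ⟨C * 3 ^ qq, by positivity, ?_⟩
  intro ω hω U h S lo hi hU hW hn hch hone
  have hpt : ∀ z z' : ℝ × ℝ, ∀ s ∈ Finset.Ico (lo z) (hi z), ∀ s' ∈ Finset.Ico (lo z') (hi z'),
      ENNReal.ofReal |cc s s' * pr (ph ω) ζ U s s' z z'| ≤ KK U lo hi (C * 3 ^ qq) z z' := by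
    intro z z' s hs s' hs'
    rw [Finset.mem_Ico] at hs hs'
    have e1 : s = lo z := by have := hone z; omega
    have e2 : s' = lo z' := by have := hone z'; omega
    subst e1 e2
    by_cases h1 : lo z ≤ lo z'
    · by_cases h2 : jx (lo z) z'.1 = jx (lo z) z.1
      · rw [KK_mem hs.2 hs'.2 h1 h2, ← ENNReal.ofReal_mul (by positivity)]
        apply ENNReal.ofReal_le_ofReal
        rw [abs_mul]
        have h3 := (hP ω hω U hU hW (lo z) (lo z') h1 z z').1
        have h4 := weight_le (U := U) (lo := lo) (z := z) (z' := z') (s' := lo z') (q := qq) h2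
        calc |cc (lo z) (lo z')| * |pr (ph ω) ζ U (lo z) (lo z') z z'|
            ≤ 1 * (C * 2 ^ lo z * (1 / (1 + |U z' - U z| * (1 / 2 : ℝ) ^ lo z' +
                |z'.2 - (z.2 + (z'.1 - z.1) * U z)|) ^ qq)) := by
              gcongr
              · exact abs_cc_le _ _
              · rw [mul_one_div]; exact h3
          _ ≤ 1 * (C * 2 ^ lo z * (3 ^ qq / (1 + |U z' - mU U z| * (1 / 2 : ℝ) ^ lo z' +
                |z'.2 - (bU U z + mU U z * z'.1)|) ^ qq)) := by gcongr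
          _ = _ := by ring
      · rw [(hP ω hω U hU hW (lo z) (lo z') h1 z z').2 h2]; simp
    · rw [cc_zero (not_le.1 h1)]; simp
  refine (ENNReal.ofReal_le_ofReal
    (hSQ (ph ω) (ph_cont hω) (ph_supp hω) U h S lo hi hU hW hn hch)).trans ?_
  rw [ENNReal.ofReal_mul (by norm_num), ENNReal.ofReal_ofNat]
  gcongr 2 * ?_
  have a1 : ENNReal.ofReal (∫ z', h z' * Pair (ph ω) ζ U Set.univ lo hi h (lo z') (hi z') z') ≤
      ∫⁻ z', ENNReal.ofReal |h z'| * ∫⁻ z, ENNReal.ofReal |h z| * KK U lo hi (C * 3 ^ qq) z z' := by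
    refine (ENNReal.ofReal_le_ofReal (le_abs_self _)).trans ?_
    rw [← Real.enorm_eq_ofReal_abs]
    refine (enorm_integral_le_lintegral_enorm _).trans ?_
    refine lintegral_mono fun z' => ?_
    simp only
    rw [enorm_mul, ← Real.enorm_eq_ofReal_abs]
    gcongr
    unfold Pair
    by_cases hal : lo z' < hi z'
    · have e1 : Finset.Ico (lo z') (hi z') = {lo z'} := by
        have h1 := hone z'
        have : hi z' = lo z' + 1 := by omega
        rw [this]; simp
      rw [e1, Finset.sum_singleton]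
      refine (enorm_integral_le_lintegral_enorm _).trans ?_
      refine lintegral_mono fun z => ?_
      simp only
      rw [enorm_mul, Set.indicator_univ, ← Real.enorm_eq_ofReal_abs]
      gcongr
      by_cases hal2 : lo z < hi z
      · have e2 : Finset.Ico (lo z) (hi z) = {lo z} := by
          have h1 := hone z
          have : hi z = lo z + 1 := by omega
          rw [this]; simp
        rw [e2, Finset.sum_singleton, Real.enorm_eq_ofReal_abs]
        exact hpt z z' _ (Finset.mem_Ico.2 ⟨le_refl _, hal2⟩) _ (Finset.mem_Ico.2 ⟨le_refl _, hal⟩)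
      · rw [Finset.Ico_eq_empty (by omega), Finset.sum_empty, enorm_zero]
        exact zero_le
    · rw [Finset.Ico_eq_empty (by omega), Finset.sum_empty, enorm_zero]
      exact zero_le
  refine a1.trans (le_of_eq ?_)
  have hhm : Measurable fun z => ENNReal.ofReal |h z| :=
    (continuous_abs.measurable.comp hn.1).ennreal_ofReal
  have hKm := measurable_KK hU hch.1 hch.2.1 (C * 3 ^ qq)
  calc ∫⁻ z', ENNReal.ofReal |h z'| * ∫⁻ z, ENNReal.ofReal |h z| * KK U lo hi (C * 3 ^ qq) z z'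
      = ∫⁻ z', ∫⁻ z, ENNReal.ofReal |h z'| *
          (ENNReal.ofReal |h z| * KK U lo hi (C * 3 ^ qq) z z') := by
        refine lintegral_congr fun z' => ?_
        exact (lintegral_const_mul _ (hhm.mul
          (hKm.comp (measurable_id.prodMk measurable_const)))).symm
    _ = ∫⁻ z, ∫⁻ z', ENNReal.ofReal |h z'| *
          (ENNReal.ofReal |h z| * KK U lo hi (C * 3 ^ qq) z z') := by
        refine lintegral_lintegral_swap ?_
        refine Measurable.aemeasurable ?_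
        exact (hhm.comp measurable_fst).mul ((hhm.comp measurable_snd).mul
          (hKm.comp measurable_swap))
    _ = _ := by
        refine lintegral_congr fun z => ?_
        have hm2 : Measurable fun z' : ℝ × ℝ =>
            ENNReal.ofReal |h z'| * KK U lo hi (C * 3 ^ qq) z z' :=
          hhm.mul (hKm.comp (measurable_const.prodMk measurable_id))
        rw [← lintegral_const_mul _ hm2]
        refine lintegral_congr fun z' => ?_
        ring

/-- the short side, for a fixed long point -/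
theorem step2 {C : ℝ} {U h : ℝ × ℝ → ℝ} {S : ℕ} {lo hi hi' : ℝ × ℝ → ℕ} (hU : Measurable U)
    (hn : Nice h) (hch : Chain S lo hi) (hle : ∀ z, hi' z ≤ hi z)
    (hone : ∀ z, hi z ≤ lo z + 1) {W : ℝ × ℝ → ℝ} (hW0 : ∀ w, 0 ≤ W w)
    (hW : ∀ R0 : Tube, IntT R0 → IntegrableOn W (fat 1 R0) ∧
        ∫ z in {z | z.1 ∈ R0.I ∧ lo z < hi z ∧ R0.k < hi z},
          |h z| / (1 + |U z - R0.m| * (1 / 2 : ℝ) ^ (hi z - 1) + |z.2 - R0.line z.1|) ^ qq ≤
          ∫ w in fat 1 R0, W w) (z : ℝ × ℝ) :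
    ∫⁻ z', ENNReal.ofReal |h z'| * KK U lo hi' C z z' ≤
      {z | lo z < hi' z}.indicator (fun z => ENNReal.ofReal (C * 2 ^ lo z)) z *
        ∫⁻ w in fat 1 (R0 U lo z), ENNReal.ofReal (W w) := by
  by_cases hz : lo z < hi' z
  · rw [Set.indicator_of_mem (show z ∈ {z | lo z < hi' z} from hz)]
    obtain ⟨hWi, hWle⟩ := hW (R0 U lo z) (R0_int U lo z)
    set A : Set (ℝ × ℝ) := {z' | z'.1 ∈ (R0 U lo z).I ∧ lo z' < hi z' ∧ (R0 U lo z).k < hi z'} with hA
    set f : ℝ × ℝ → ℝ := fun z' => |h z'| / (1 + |U z' - (R0 U lo z).m| *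
      (1 / 2 : ℝ) ^ (hi z' - 1) + |z'.2 - (R0 U lo z).line z'.1|) ^ qq with hf
    have hAm : MeasurableSet A := by
      have h1 : MeasurableSet {z' : ℝ × ℝ | z'.1 ∈ (R0 U lo z).I} :=
        measurable_fst (R0 U lo z).measurableSet_I
      have h2 : MeasurableSet {z' : ℝ × ℝ | lo z' < hi z'} := measurableSet_lt hch.1 hch.2.1
      have h3 : MeasurableSet {z' : ℝ × ℝ | (R0 U lo z).k < hi z'} :=
        measurableSet_lt measurable_const hch.2.1
      exact h1.inter (h2.inter h3)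
    have hfm : Measurable f := by
      refine Measurable.div (continuous_abs.measurable.comp hn.1) (Measurable.pow_const ?_ _)
      refine Measurable.add (Measurable.add measurable_const (Measurable.mul ?_ ?_)) ?_
      · exact continuous_abs.measurable.comp (hU.sub measurable_const)
      · exact measurable_two ((measurable_of_countable (fun k : ℕ => k - 1)).comp hch.2.1)
      · exact continuous_abs.measurable.comp (measurable_snd.sub
          ((R0 U lo z).measurable_line.comp measurable_fst))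
    have hf0 : ∀ z', 0 ≤ f z' := fun z' => by positivity
    have hfle : ∀ z', f z' ≤ |h z'| := by
      intro z'
      refine div_le_self (abs_nonneg _) (one_le_pow₀ ?_)
      have h1 : 0 ≤ |U z' - (R0 U lo z).m| * (1 / 2 : ℝ) ^ (hi z' - 1) := by positivity
      have h2 : 0 ≤ |z'.2 - (R0 U lo z).line z'.1| := abs_nonneg _
      linarith
    have hint : Integrable h := by
      obtain ⟨hm, ⟨M, hM⟩, ⟨r, hr⟩⟩ := hn
      have h1 : IntegrableOn h (Metric.closedBall 0 r) volume := by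
        refine Measure.integrableOn_of_bounded (M := M) ?_ hm.aestronglyMeasurable
          (Filter.Eventually.of_forall hM)
        exact (isCompact_closedBall 0 r).measure_lt_top.ne
      refine (integrableOn_iff_integrable_of_support_subset ?_).1 h1
      intro z hz
      simp only [Metric.mem_closedBall, dist_zero_right]
      by_contra hcon
      exact hz (hr z (not_le.1 hcon))
    have hfi : Integrable f := by
      refine Integrable.mono' hint.abs hfm.aestronglyMeasurable (Filter.Eventually.of_forall ?_)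
      intro z'
      rw [Real.norm_eq_abs, abs_of_nonneg (hf0 z')]
      exact hfle z'
    have hpt : ∀ z', ENNReal.ofReal |h z'| * KK U lo hi' C z z' ≤
        ENNReal.ofReal (C * 2 ^ lo z) * A.indicator (fun z' => ENNReal.ofReal (f z')) z' := by
      intro z'
      by_cases hk : lo z' < hi' z' ∧ lo z ≤ lo z' ∧ jx (lo z) z'.1 = jx (lo z) z.1
      · obtain ⟨h1, h2, h3⟩ := hk
        have h4 := hle z'
        have h5 := hone z'
        have hmem : z' ∈ A := by
          refine ⟨?_, by omega, ?_⟩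
          · rw [mem_I]; exact h3
          · change lo z < hi z'; omega
        rw [KK_mem hz h1 h2 h3, Set.indicator_of_mem hmem]
        have e1 : hi z' - 1 = lo z' := by omega
        rw [mul_left_comm, ← ENNReal.ofReal_mul (abs_nonneg _)]
        refine le_of_eq ?_
        congr 2
        rw [hf]
        simp only
        rw [e1, mul_one_div]
        rfl
      · have : KK U lo hi' C z z' = 0 := by
          unfold KK
          rw [Set.indicator_of_notMem]
          rintro ⟨_, h2, h3, h4⟩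
          exact hk ⟨h2, h3, h4⟩
        rw [this, mul_zero]
        exact zero_le
    calc ∫⁻ z', ENNReal.ofReal |h z'| * KK U lo hi' C z z'
        ≤ ∫⁻ z', ENNReal.ofReal (C * 2 ^ lo z) * A.indicator (fun z' => ENNReal.ofReal (f z')) z' :=
          lintegral_mono hpt
      _ = ENNReal.ofReal (C * 2 ^ lo z) * ∫⁻ z' in A, ENNReal.ofReal (f z') := by
          rw [lintegral_const_mul _ (hfm.ennreal_ofReal.indicator hAm), lintegral_indicator hAm]
      _ = ENNReal.ofReal (C * 2 ^ lo z) * ENNReal.ofReal (∫ z' in A, f z') := by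
          rw [ofReal_integral_eq_lintegral_ofReal hfi.integrableOn
            (Filter.Eventually.of_forall hf0)]
      _ ≤ ENNReal.ofReal (C * 2 ^ lo z) * ENNReal.ofReal (∫ w in fat 1 (R0 U lo z), W w) := by
          gcongr
      _ = _ := by
          rw [ofReal_integral_eq_lintegral_ofReal hWi (Filter.Eventually.of_forall hW0)]
  · have : ∀ z', KK U lo hi' C z z' = 0 := by
      intro z'
      unfold KK
      rw [Set.indicator_of_notMem]
      rintro ⟨h1, _⟩
      exact hz h1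
    simp [this]

/-- the long side at a point `w` -/
theorem step3 {U h : ℝ × ℝ → ℝ} {n S N : ℕ} {lo hi hi' : ℝ × ℝ → ℕ} {R : Fin N → Tube}
    {kk : Fin N → ℤ} {ii : Fin N → ℕ} {E B : Fin N → Set (ℝ × ℝ)} (hn : Nice h)
    (hch : Chain S lo hi) (hm' : Measurable hi') (hle : ∀ z, hi' z ≤ hi z)
    (hT : IsTops U h AA n lo hi N R kk ii E B) {a : Fin N → ℝ} (ha : ∀ m, 0 ≤ a m)
    (hS : ∀ m x, ∑ s ∈ Finset.range S, ENNReal.ofReal (2 ^ s) *
          ∫⁻ z in {z | z ∈ B m ∧ lo z = s ∧ s < hi' z ∧ jx s z.1 = jx s x}, ENNReal.ofReal |h z| ≤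
            ENNReal.ofReal (a m)) (w : ℝ × ℝ) :
    ∫⁻ z, ENNReal.ofReal |h z| * {z | lo z < hi' z}.indicator (fun z => ENNReal.ofReal (2 ^ lo z)) z *
      (fat 1 (R0 U lo z)).indicator (fun _ => 1) w ≤
      ENNReal.ofReal (∑ m, a m * (fat (32 * 2 ^ ii m) (R m)).indicator 1 w) := by
  classical
  have hhm : Measurable fun z => ENNReal.ofReal |h z| :=
    (continuous_abs.measurable.comp hn.1).ennreal_ofReal
  set Q : Fin N → ℕ → Set (ℝ × ℝ) := fun m s =>
    {z | z ∈ B m ∧ lo z = s ∧ s < hi' z ∧ jx s z.1 = jx s w.1} with hQ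
  have hQm : ∀ m s, MeasurableSet (Q m s) := by
    intro m s
    have h2 : MeasurableSet {z : ℝ × ℝ | lo z = s} := hch.1 (MeasurableSet.singleton s)
    have h3 : MeasurableSet {z : ℝ × ℝ | s < hi' z} := measurableSet_lt measurable_const hm'
    have h4 : MeasurableSet {z : ℝ × ℝ | jx s z.1 = jx s w.1} :=
      (measurable_jx measurable_const measurable_fst) (MeasurableSet.singleton _)
    exact (hT.mB m).inter (h2.inter (h3.inter h4))
  have hpt : ∀ z, ENNReal.ofReal |h z| *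
      {z | lo z < hi' z}.indicator (fun z => ENNReal.ofReal (2 ^ lo z)) z *
      (fat 1 (R0 U lo z)).indicator (fun _ => 1) w ≤
      ∑ m, (fat (32 * 2 ^ ii m) (R m)).indicator (fun _ => (1 : ℝ≥0∞)) w *
        ∑ s ∈ Finset.range S, ENNReal.ofReal (2 ^ s) *
          (Q m s).indicator (fun z => ENNReal.ofReal |h z|) z := by
    intro z
    by_cases h1 : h z = 0
    · rw [h1]; simp
    by_cases h2 : lo z < hi' z
    swap
    · rw [Set.indicator_of_notMem (show z ∉ {z | lo z < hi' z} from h2)]; simp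
    by_cases h3 : w ∈ fat 1 (R0 U lo z)
    swap
    · rw [Set.indicator_of_notMem h3]; simp
    have h4 : lo z < hi z := lt_of_lt_of_le h2 (hle z)
    obtain ⟨m, hm⟩ := hT.unB z h1 h4
    obtain ⟨t1, t2, t3⟩ := hT.top m z hm h4
    have h5 := fat_sub t1 t2 t3 h3
    have h6 : jx (lo z) w.1 = jx (lo z) z.1 := (mem_I _ _).1 h3.1
    have h7 : lo z < S := lt_of_lt_of_le h4 (hch.2.2 z)
    have h8 : z ∈ Q m (lo z) := ⟨hm, rfl, h2, h6.symm⟩
    have e1 : ENNReal.ofReal |h z| *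
      {z | lo z < hi' z}.indicator (fun z => ENNReal.ofReal (2 ^ lo z)) z *
      (fat 1 (R0 U lo z)).indicator (fun _ => 1) w =
      (fat (32 * 2 ^ ii m) (R m)).indicator (fun _ => (1 : ℝ≥0∞)) w *
        (ENNReal.ofReal (2 ^ lo z) * (Q m (lo z)).indicator (fun z => ENNReal.ofReal |h z|) z) := by
      rw [Set.indicator_of_mem (show z ∈ {z | lo z < hi' z} from h2), Set.indicator_of_mem h3,
        Set.indicator_of_mem h5, Set.indicator_of_mem h8]
      ring
    rw [e1]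
    refine le_trans ?_ (Finset.single_le_sum (f := fun m =>
      (fat (32 * 2 ^ ii m) (R m)).indicator (fun _ => (1 : ℝ≥0∞)) w *
        ∑ s ∈ Finset.range S, ENNReal.ofReal (2 ^ s) *
          (Q m s).indicator (fun z => ENNReal.ofReal |h z|) z) (fun _ _ => zero_le)
      (Finset.mem_univ m))
    gcongr
    exact Finset.single_le_sum (f := fun s => ENNReal.ofReal (2 ^ s) *
          (Q m s).indicator (fun z => ENNReal.ofReal |h z|) z) (fun _ _ => zero_le)
      (Finset.mem_range.2 h7)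
  have hmI : ∀ m s, Measurable fun z => ENNReal.ofReal (2 ^ s) *
      (Q m s).indicator (fun z => ENNReal.ofReal |h z|) z := fun m s =>
    (hhm.indicator (hQm m s)).const_mul _
  calc ∫⁻ z, ENNReal.ofReal |h z| *
      {z | lo z < hi' z}.indicator (fun z => ENNReal.ofReal (2 ^ lo z)) z *
      (fat 1 (R0 U lo z)).indicator (fun _ => 1) w
      ≤ ∫⁻ z, ∑ m, (fat (32 * 2 ^ ii m) (R m)).indicator (fun _ => (1 : ℝ≥0∞)) w *
        ∑ s ∈ Finset.range S, ENNReal.ofReal (2 ^ s) *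
          (Q m s).indicator (fun z => ENNReal.ofReal |h z|) z := lintegral_mono hpt
    _ = ∑ m, (fat (32 * 2 ^ ii m) (R m)).indicator (fun _ => (1 : ℝ≥0∞)) w *
        ∑ s ∈ Finset.range S, ENNReal.ofReal (2 ^ s) *
          ∫⁻ z in Q m s, ENNReal.ofReal |h z| := by
        rw [lintegral_finsetSum _ fun m _ =>
          (Finset.measurable_fun_sum _ fun s _ => hmI m s).const_mul _]
        refine Finset.sum_congr rfl fun m _ => ?_
        rw [lintegral_const_mul _ (Finset.measurable_fun_sum _ fun s _ => hmI m s),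
          lintegral_finsetSum _ fun s _ => hmI m s]
        congr 1
        refine Finset.sum_congr rfl fun s _ => ?_
        rw [lintegral_const_mul _ (hhm.indicator (hQm m s)), lintegral_indicator (hQm m s)]
    _ ≤ ∑ m, (fat (32 * 2 ^ ii m) (R m)).indicator (fun _ => (1 : ℝ≥0∞)) w *
          ENNReal.ofReal (a m) := by
        gcongr with m
        exact hS m w.1
    _ = ENNReal.ofReal (∑ m, a m * (fat (32 * 2 ^ ii m) (R m)).indicator 1 w) := by
        rw [ENNReal.ofReal_sum_of_nonneg]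
        · refine Finset.sum_congr rfl fun m _ => ?_
          by_cases hw : w ∈ fat (32 * 2 ^ ii m) (R m)
          · rw [Set.indicator_of_mem hw, Set.indicator_of_mem hw]; simp
          · rw [Set.indicator_of_notMem hw, Set.indicator_of_notMem hw]; simp
        · intro m _
          exact mul_nonneg (ha m) (Set.indicator_nonneg (fun _ _ => by simp) _)

theorem measurableSet_R0 {U : ℝ × ℝ → ℝ} (hU : Measurable U) {lo : ℝ × ℝ → ℕ} (hlo : Measurable lo) :
    MeasurableSet {p : (ℝ × ℝ) × (ℝ × ℝ) | p.2 ∈ fat 1 (R0 U lo p.1)} := by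
  have e : {p : (ℝ × ℝ) × (ℝ × ℝ) | p.2 ∈ fat 1 (R0 U lo p.1)} =
      {p : (ℝ × ℝ) × (ℝ × ℝ) | jx (lo p.1) p.2.1 = jx (lo p.1) p.1.1} ∩
      {p : (ℝ × ℝ) × (ℝ × ℝ) | |p.2.2 - (bU U p.1 + mU U p.1 * p.2.1)| ≤ 1} := by
    ext p
    have h1 := mem_I (R0 U lo p.1) p.2.1
    exact ⟨fun h => ⟨h1.1 h.1, h.2⟩, fun h => ⟨h1.2 h.1, h.2⟩⟩
  rw [e]
  refine MeasurableSet.inter ?_ ?_
  · exact measurableSet_eq_fun (measurable_jx (hlo.comp measurable_fst) measurable_snd.fst)
        (measurable_jx (hlo.comp measurable_fst) measurable_fst.fst)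
  · refine measurableSet_le ?_ measurable_const
    refine continuous_abs.measurable.comp ((measurable_snd.snd).sub ?_)
    exact ((measurable_bU hU).comp measurable_fst).add
          (((measurable_mU hU).comp measurable_fst).mul measurable_snd.fst)

theorem mem_nice {h : ℝ × ℝ → ℝ} (hn : Nice h) : Integrable (fun z => (h z) ^ 2) := by
  obtain ⟨hm, ⟨M, hM⟩, ⟨r, hr⟩⟩ := hn
  have h1 : IntegrableOn (fun z => (h z) ^ 2) (Metric.closedBall 0 r) volume := by
    refine Measure.integrableOn_of_bounded (M := M ^ 2) ?_ (hm.pow_const 2).aestronglyMeasurable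
      (Filter.Eventually.of_forall fun z => ?_)
    · exact (isCompact_closedBall 0 r).measure_lt_top.ne
    · rw [Real.norm_eq_abs, abs_pow]
      exact pow_le_pow_left₀ (abs_nonneg _) (hM z) 2
  refine (integrableOn_iff_integrable_of_support_subset ?_).1 h1
  intro z hz
  simp only [Metric.mem_closedBall, dist_zero_right]
  by_contra hcon
  apply hz
  simp [hr z (not_le.1 hcon)]

/-- **TOPN** from the bound of one pairing and the stopping of the tops. -/
theorem main {ζ : ℝ → ℝ} (hP : PairB ζ) (hStop : TopStop) (hSQ : SQ ζ) (hO : OMEGA) (hH : HNORM) :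
    TOPN ζ := by
  obtain ⟨C1, hC1, h1⟩ := step1 hP hSQ
  obtain ⟨C2, hC2, h2⟩ := hStop
  obtain ⟨C3, hC3, h3⟩ := hO
  obtain ⟨c, hc, C4, hC4, h4⟩ := hH
  refine ⟨c, hc, 2 * C1 * C2 * Real.sqrt (C3 * C4) + C2, by positivity, ?_⟩
  intro ω hω U h n S lo hi Λ hU hn hch hup hΛ N R kk ii E B hT hone
  obtain ⟨hi', hm', hle, hrem, hkeep⟩ := h2 U h n S lo hi Λ hU.1 hn hch hup hΛ N R kk ii E B hT hone
  have hI0 : 0 ≤ ∫ z, (h z) ^ 2 := integral_nonneg fun z => sq_nonneg _
  refine ⟨hi', hm', hle, ?_, ?_⟩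
  swap
  · refine hrem.trans ?_
    gcongr
    have : 0 ≤ 2 * C1 * C2 * Real.sqrt (C3 * C4) := by positivity
    linarith
  have hch' : Chain S lo hi' := ⟨hch.1, hm', fun z => (hle z).trans (hch.2.2 z)⟩
  have hone' : ∀ z, hi' z ≤ lo z + 1 := fun z => (hle z).trans (hone z)
  obtain ⟨W, hWm, hW0, hWi, hWle, hWR⟩ := h3 n U h S lo hi hU.1 hn hch hup N R kk ii E B hT
  set I : ℝ := ∫ z, (h z) ^ 2 with hI
  set a : Fin N → ℝ := fun m => C2 * Λ * (2 ^ (kk m) * 2 ^ (AA * ii m) * (1 / 2) ^ n) with ha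
  have ha0 : ∀ m, 0 ≤ a m := fun m => by simp only [ha]; positivity
  set Hs : ℝ × ℝ → ℝ := fun w => ∑ m, a m * (fat (32 * 2 ^ ii m) (R m)).indicator 1 w with hHs
  have hHs0 : ∀ w, 0 ≤ Hs w := fun w =>
    Finset.sum_nonneg fun m _ => mul_nonneg (ha0 m) (Set.indicator_nonneg (fun _ _ => by simp) _)
  have hhm : Measurable fun z => ENNReal.ofReal |h z| :=
    (continuous_abs.measurable.comp hn.1).ennreal_ofReal
  have hWe : Measurable fun w => ENNReal.ofReal (W w) := hWm.ennreal_ofReal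
  have hfm : ∀ m, MeasurableSet (fat (32 * 2 ^ ii m) (R m)) := fun m => by
    have h5 : MeasurableSet {z : ℝ × ℝ | z.1 ∈ (R m).I} := measurable_fst (R m).measurableSet_I
    have h6 : MeasurableSet {z : ℝ × ℝ | |z.2 - (R m).line z.1| ≤ 32 * 2 ^ ii m} := by
      apply measurableSet_le _ measurable_const
      have := (R m).measurable_line
      fun_prop
    exact h5.inter h6
  have hff : ∀ m, volume (fat (32 * 2 ^ ii m) (R m)) ≠ ⊤ := fun m => by
    rw [volume_fat]; exact ENNReal.ofReal_ne_top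
  -- the chain of inequalities
  set V : ℝ × ℝ → ℝ≥0∞ := fun w => ∫⁻ z, ENNReal.ofReal |h z| *
    {z | lo z < hi' z}.indicator (fun z => ENNReal.ofReal (2 ^ lo z)) z *
      (fat 1 (R0 U lo z)).indicator (fun _ => 1) w with hV
  have hVle : ∀ w, V w ≤ ENNReal.ofReal (Hs w) := fun w =>
    step3 hn hch hm' hle hT ha0 hkeep w
  have hal : MeasurableSet {z : ℝ × ℝ | lo z < hi' z} := measurableSet_lt hch.1 hm'
  have h2m : Measurable fun z => {z | lo z < hi' z}.indicator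
      (fun z => ENNReal.ofReal (2 ^ lo z)) z := by
    have h5 : Measurable fun z : ℝ × ℝ => (2 : ℝ) ^ lo z := measurable_two hch.1
    exact h5.ennreal_ofReal.indicator hal
  have hRm : Measurable fun p : (ℝ × ℝ) × (ℝ × ℝ) =>
      (fat 1 (R0 U lo p.1)).indicator (fun _ => (1 : ℝ≥0∞)) p.2 := by
    have e : (fun p : (ℝ × ℝ) × (ℝ × ℝ) =>
      (fat 1 (R0 U lo p.1)).indicator (fun _ => (1 : ℝ≥0∞)) p.2) =
      {p : (ℝ × ℝ) × (ℝ × ℝ) | p.2 ∈ fat 1 (R0 U lo p.1)}.indicator (fun _ => 1) := by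
      ext p
      by_cases hp : p.2 ∈ fat 1 (R0 U lo p.1)
      · have hp2 : p ∈ {p : (ℝ × ℝ) × (ℝ × ℝ) | p.2 ∈ fat 1 (R0 U lo p.1)} := hp
        rw [Set.indicator_of_mem hp, Set.indicator_of_mem hp2]
      · have hp2 : p ∉ {p : (ℝ × ℝ) × (ℝ × ℝ) | p.2 ∈ fat 1 (R0 U lo p.1)} := hp
        rw [Set.indicator_of_notMem hp, Set.indicator_of_notMem hp2]
    rw [e]
    exact measurable_const.indicator (measurableSet_R0 hU.1 hch.1)
  have key : ENNReal.ofReal (∫ w, (Tc (ph ω) ζ U lo hi' h w) ^ 2) ≤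
      2 * (ENNReal.ofReal C1 * ∫⁻ w, ENNReal.ofReal (W w) * V w) := by
    refine (h1 ω hω U h S lo hi' hU.1 hU.2.1 hn hch' hone').trans ?_
    gcongr 2 * ?_
    calc ∫⁻ z, ENNReal.ofReal |h z| * ∫⁻ z', ENNReal.ofReal |h z'| * KK U lo hi' C1 z z'
        ≤ ∫⁻ z, ENNReal.ofReal C1 * ∫⁻ w, (ENNReal.ofReal |h z| *
            {z | lo z < hi' z}.indicator (fun z => ENNReal.ofReal (2 ^ lo z)) z *
            (fat 1 (R0 U lo z)).indicator (fun _ => 1) w) * ENNReal.ofReal (W w) := by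
          refine lintegral_mono fun z => ?_
          simp only
          have h5 := step2 (C := C1) hU.1 hn hch hle hone hW0 hWR z
          have h6 : MeasurableSet (fat 1 (R0 U lo z)) := by
            have h5 : MeasurableSet {w : ℝ × ℝ | w.1 ∈ (R0 U lo z).I} :=
              measurable_fst (R0 U lo z).measurableSet_I
            have h6 : MeasurableSet {w : ℝ × ℝ | |w.2 - (R0 U lo z).line w.1| ≤ 1} := by
              apply measurableSet_le _ measurable_const
              have := (R0 U lo z).measurable_line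
              fun_prop
            exact h5.inter h6
          calc ENNReal.ofReal |h z| * ∫⁻ z', ENNReal.ofReal |h z'| * KK U lo hi' C1 z z'
              ≤ ENNReal.ofReal |h z| * ({z | lo z < hi' z}.indicator
                (fun z => ENNReal.ofReal (C1 * 2 ^ lo z)) z *
                ∫⁻ w in fat 1 (R0 U lo z), ENNReal.ofReal (W w)) := by gcongr
            _ = ENNReal.ofReal C1 * ((ENNReal.ofReal |h z| *
                {z | lo z < hi' z}.indicator (fun z => ENNReal.ofReal (2 ^ lo z)) z) *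
                ∫⁻ w in fat 1 (R0 U lo z), ENNReal.ofReal (W w)) := by
                by_cases hz : lo z < hi' z
                · rw [Set.indicator_of_mem (show z ∈ {z | lo z < hi' z} from hz),
                    Set.indicator_of_mem (show z ∈ {z | lo z < hi' z} from hz),
                    ENNReal.ofReal_mul hC1]
                  ring
                · rw [Set.indicator_of_notMem (show z ∉ {z | lo z < hi' z} from hz),
                    Set.indicator_of_notMem (show z ∉ {z | lo z < hi' z} from hz)]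
                  ring
            _ = _ := by
                congr 1
                rw [← lintegral_indicator h6, ← lintegral_const_mul _ (hWe.indicator h6)]
                refine lintegral_congr fun w => ?_
                by_cases hw : w ∈ fat 1 (R0 U lo z)
                · rw [Set.indicator_of_mem hw, Set.indicator_of_mem hw]; ring
                · rw [Set.indicator_of_notMem hw, Set.indicator_of_notMem hw]; ring
      _ = ENNReal.ofReal C1 * ∫⁻ z, ∫⁻ w, (ENNReal.ofReal |h z| *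
            {z | lo z < hi' z}.indicator (fun z => ENNReal.ofReal (2 ^ lo z)) z *
            (fat 1 (R0 U lo z)).indicator (fun _ => 1) w) * ENNReal.ofReal (W w) :=
          lintegral_const_mul' _ _ ENNReal.ofReal_ne_top
      _ = ENNReal.ofReal C1 * ∫⁻ w, ∫⁻ z, (ENNReal.ofReal |h z| *
            {z | lo z < hi' z}.indicator (fun z => ENNReal.ofReal (2 ^ lo z)) z *
            (fat 1 (R0 U lo z)).indicator (fun _ => 1) w) * ENNReal.ofReal (W w) := by
          congr 1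
          refine lintegral_lintegral_swap (Measurable.aemeasurable ?_)
          exact (((hhm.mul h2m).comp measurable_fst).mul hRm).mul (hWe.comp measurable_snd)
      _ = ENNReal.ofReal C1 * ∫⁻ w, ENNReal.ofReal (W w) * V w := by
          congr 1
          refine lintegral_congr fun w => ?_
          rw [lintegral_mul_const' _ _ ENNReal.ofReal_ne_top, mul_comm]
  -- Cauchy-Schwarz
  have hWL : MemLp W 2 volume := (memLp_two_iff_integrable_sq hWm.aestronglyMeasurable).2 hWi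
  have hHL : MemLp Hs 2 volume :=
    Omegax627.mem_ind volume Finset.univ (fun m => fat (32 * 2 ^ ii m) (R m)) a
      (fun m _ => hfm m) (fun m _ => hff m)
  have hWH : ∫⁻ w, ENNReal.ofReal (W w) * V w ≤ ENNReal.ofReal (∫ w, W w * Hs w) := by
    have hint : Integrable (fun w => W w * Hs w) := hWL.integrable_mul hHL
    rw [ofReal_integral_eq_lintegral_ofReal hint
      (Filter.Eventually.of_forall fun w => mul_nonneg (hW0 w) (hHs0 w))]
    refine lintegral_mono fun w => ?_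
    simp only
    rw [ENNReal.ofReal_mul (hW0 w)]
    gcongr
    exact hVle w
  have hcs := Omegax627.cs_mem_sqrt hWL hHL
  have hHs2 : ∫ w, (Hs w) ^ 2 ≤ (C2 * Λ) ^ 2 * (C4 * (2 : ℝ) ^ ((n : ℝ) / 16) * I) := by
    have e : ∀ w, (Hs w) ^ 2 = (C2 * Λ) ^ 2 * (∑ m, (2 : ℝ) ^ kk m * 2 ^ (AA * ii m) * (1 / 2 : ℝ) ^ n *
        (fat (32 * 2 ^ ii m) (R m)).indicator 1 w) ^ 2 := by
      intro w
      rw [← mul_pow, Finset.mul_sum]
      congr 1
      refine Finset.sum_congr rfl fun m _ => ?_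
      simp only [ha]; ring
    simp_rw [e]
    rw [integral_const_mul]
    gcongr
    exact h4 n U h lo hi hU hn N R kk ii E B hT
  have hfin : ∫ w, W w * Hs w ≤ C2 * Real.sqrt (C3 * C4) * (Λ * (2 : ℝ) ^ (-(n : ℝ) / 4) * I) := by
    have hΛ0 : 0 ≤ Λ := by linarith
    refine hcs.trans ?_
    have h5 : Real.sqrt (∫ w, (W w) ^ 2) * Real.sqrt (∫ w, (Hs w) ^ 2) ≤
        Real.sqrt ((C3 * (1 / 2 : ℝ) ^ n * I) *
          ((C2 * Λ) ^ 2 * (C4 * (2 : ℝ) ^ ((n : ℝ) / 16) * I))) := by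
      rw [Real.sqrt_mul (by positivity)]
      gcongr
    refine h5.trans ?_
    have h6 : (1 / 2 : ℝ) ^ n * (2 : ℝ) ^ ((n : ℝ) / 16) ≤ ((2 : ℝ) ^ (-(n : ℝ) / 4)) ^ 2 := by
      have e1 : (1 / 2 : ℝ) ^ n = (2 : ℝ) ^ (-(n : ℝ)) := by
        rw [Real.rpow_neg (by norm_num), Real.rpow_natCast, one_div, inv_pow]
      rw [e1, ← Real.rpow_add (by norm_num), ← Real.rpow_natCast, ← Real.rpow_mul (by norm_num)]
      apply Real.rpow_le_rpow_of_exponent_le (by norm_num)
      have : (0 : ℝ) ≤ n := Nat.cast_nonneg n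
      push_cast
      linarith
    have h7 : (C3 * (1 / 2 : ℝ) ^ n * I) * ((C2 * Λ) ^ 2 * (C4 * (2 : ℝ) ^ ((n : ℝ) / 16) * I)) ≤
        (C3 * C4) * (C2 * (Λ * (2 : ℝ) ^ (-(n : ℝ) / 4) * I)) ^ 2 := by
      calc (C3 * (1 / 2 : ℝ) ^ n * I) * ((C2 * Λ) ^ 2 * (C4 * (2 : ℝ) ^ ((n : ℝ) / 16) * I))
          = (C3 * C4) * ((C2 * Λ) ^ 2 * I ^ 2) * ((1 / 2 : ℝ) ^ n * (2 : ℝ) ^ ((n : ℝ) / 16)) := by
            ring
        _ ≤ (C3 * C4) * ((C2 * Λ) ^ 2 * I ^ 2) * ((2 : ℝ) ^ (-(n : ℝ) / 4)) ^ 2 := by gcongr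
        _ = _ := by ring
    refine (Real.sqrt_le_sqrt h7).trans (le_of_eq ?_)
    rw [Real.sqrt_mul (by positivity), Real.sqrt_sq (by positivity)]
    ring
  have hlast : ENNReal.ofReal (∫ w, (Tc (ph ω) ζ U lo hi' h w) ^ 2) ≤
      ENNReal.ofReal (2 * (C1 * (C2 * Real.sqrt (C3 * C4) *
        (Λ * (2 : ℝ) ^ (-(n : ℝ) / 4) * I)))) := by
    refine key.trans ?_
    rw [ENNReal.ofReal_mul (by norm_num : (0 : ℝ) ≤ 2), ENNReal.ofReal_ofNat,
      ENNReal.ofReal_mul hC1]
    gcongr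
    exact hWH.trans (ENNReal.ofReal_le_ofReal hfin)
  have hΛ0 : 0 ≤ Λ := by linarith
  have hreal := (ENNReal.ofReal_le_ofReal_iff (by positivity)).1 hlast
  refine hreal.trans ?_
  have h8 : 0 ≤ C2 * (Λ * (2 : ℝ) ^ (-(n : ℝ) / 4) * I) := by positivity
  calc 2 * (C1 * (C2 * Real.sqrt (C3 * C4) * (Λ * (2 : ℝ) ^ (-(n : ℝ) / 4) * I)))
      ≤ 2 * (C1 * (C2 * Real.sqrt (C3 * C4) * (Λ * (2 : ℝ) ^ (-(n : ℝ) / 4) * I))) +
        C2 * (Λ * (2 : ℝ) ^ (-(n : ℝ) / 4) * I) := by linarith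
    _ = _ := by ring

end Crest.Agent.R087.TopNx52
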