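import Crest.Agent.R087.End_542
import Crest.Agent.R087.GateD_273
import Crest.Agent.R087.SqL_282
import Crest.Agent.R087.Cls_70
import Crest.Agent.R087.Tops_565
import Crest.Agent.R087.MassLeaf_546
import Crest.Agent.R087.OmegaC_627
import Crest.Agent.R087.RemSum_435
import Crest.Agent.R087.ClassN_233
import Crest.Agent.R087.OPcls_799
import Crest.Agent.R087.TopN_52
import Crest.Agent.R087.TopP_339
import Crest.Agent.R087.TopS_929

/-!
Row 87 (S0115), plug (helper542): everything landed up to 12:35 is inserted; the remaining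
hypotheses are `L_TREELOW`, `L_HNORM`, `L_LOWN`.
-/

set_option autoImplicit false

namespace Crest.Agent.R087.Plugx542

open Crest.Agent.R087.Sh0x283 Crest.Agent.R087.Sh1x283 Crest.Agent.R087.GateDefx273
open Crest.Agent.R087.S11x168 Crest.Agent.R087.E2Kx752 Crest.Agent.R087.OP0x270
open Crest.Agent.R087.Endx542

/-- the leaf TOPN -/
theorem l_topn : L_TOPN := fun _ hζ hSQ hM hO hH hR =>
  TopNx52.main (TopPx339.pairb hζ) (TopSx929.topstop hM hR) hSQ hO hH

/-- S0115 from the three last leaves. -/
theorem fin3 (hn : L_HNORM) (tl : L_TREELOW) (lw : L_LOWN) : TGT := by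
  obtain ⟨ζ, hζ, hc⟩ := GateBx273.exists_zet
  refine fin (ζ := ζ) (N := 2 * qq + 2) (M := 2 * qq + 8) (by omega) ?_ ?_
  · exact fun η hη hG => GateDx273.gate hζ (by rw [hc]; norm_num) (by omega) hG hη
  · exact fun e2k => operator_part e2k SqLx282.l_sq Clsx70.cls Topsx565.tops
      MassLeafx546.mass3 MassLeafx546.massom OmegaCx627.omega hn RemSumx435.remsum tl lw l_topn
      ClassNx233.l_classn OPclsx799.l_boot ζ hζ

end Crest.Agent.R087.Plugx542

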