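import Mathlib

/-!
Row 87 (S0115), OP-REM, definition-free core (helper435).

Removed parts: every removed piece `Rm i` lies in the level set `{2^k ≤ |g| < 2^(k+1)}` of its colour
`k = kk i` and has measure at most `c` times the measure of the (pairwise disjoint) set `E i`, also contained
in the level set.  Then `∫_{⋃ Rm} g² ≤ 4 c ∫ g²`.
-/

set_option autoImplicit false

noncomputable section

open MeasureTheory

namespace Crest.Agent.R087.RemCorex435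

/-- `∫_{⋃ Rm i} g² ≤ 4 c ∫ g²`. -/
theorem rem_core {ι α : Type*} [MeasurableSpace α] (μ : Measure α) (s : Finset ι) (g : α → ℝ)
    (hg2 : Integrable (fun z => g z ^ 2) μ)
    (kk : ι → ℤ) (Rm E : ι → Set α) (c : ℝ)
    (hRm : ∀ i ∈ s, MeasurableSet (Rm i)) (hE : ∀ i ∈ s, MeasurableSet (E i))
    (hRs : ∀ i ∈ s, ∀ z ∈ Rm i, |g z| ≤ (2 : ℝ) ^ (kk i + 1))
    (hEs : ∀ i ∈ s, ∀ z ∈ E i, (2 : ℝ) ^ (kk i) ≤ |g z|)
    (hEf : ∀ i ∈ s, μ (E i) ≠ ⊤) (hRf : ∀ i ∈ s, μ (Rm i) ≠ ⊤)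
    (hdis : Set.PairwiseDisjoint (s : Set ι) E)
    (hc : 0 ≤ c) (hle : ∀ i ∈ s, (μ (Rm i)).toReal ≤ c * (μ (E i)).toReal) :
    ∫ z in ⋃ i ∈ s, Rm i, g z ^ 2 ∂μ ≤ 4 * c * ∫ z, g z ^ 2 ∂μ := by
  have h1 : ∫ z in ⋃ i ∈ s, Rm i, g z ^ 2 ∂μ ≤ ∑ i ∈ s, ∫ z in Rm i, g z ^ 2 ∂μ := by
    classical
    induction s using Finset.induction_on with
    | empty => simp
    | insert a t ha ih =>
      have e1 : (⋃ i ∈ insert a t, Rm i) = Rm a ∪ ⋃ i ∈ t, Rm i := by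
        rw [Finset.set_biUnion_insert]
      rw [e1, Finset.sum_insert ha]
      have hm1 : MeasurableSet (Rm a) := hRm a (Finset.mem_insert_self _ _)
      have hm2 : MeasurableSet (⋃ i ∈ t, Rm i) :=
        Finset.measurableSet_biUnion _ (fun i hi => hRm i (Finset.mem_insert_of_mem hi))
      have h0 : ∫ z in Rm a ∪ ⋃ i ∈ t, Rm i, g z ^ 2 ∂μ ≤
          ∫ z in Rm a, g z ^ 2 ∂μ + ∫ z in ⋃ i ∈ t, Rm i, g z ^ 2 ∂μ := by
        have e2 : Rm a ∪ (⋃ i ∈ t, Rm i) = Rm a ∪ ((⋃ i ∈ t, Rm i) \ Rm a) := by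
          rw [Set.union_sdiff_self]
        rw [e2, setIntegral_union Set.disjoint_sdiff_right (hm2.diff hm1) hg2.integrableOn hg2.integrableOn]
        gcongr
        · exact ae_of_all _ (fun z => sq_nonneg _)
        · exact hg2.integrableOn
        · exact Set.sdiff_subset
      refine h0.trans ?_
      gcongr
      exact ih (fun i hi => hRm i (Finset.mem_insert_of_mem hi))
        (fun i hi => hE i (Finset.mem_insert_of_mem hi))
        (fun i hi => hRs i (Finset.mem_insert_of_mem hi))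
        (fun i hi => hEs i (Finset.mem_insert_of_mem hi))
        (fun i hi => hEf i (Finset.mem_insert_of_mem hi))
        (fun i hi => hRf i (Finset.mem_insert_of_mem hi))
        (hdis.subset (by intro x hx; exact Finset.mem_coe.2 (Finset.mem_insert_of_mem (Finset.mem_coe.1 hx))))
        (fun i hi => hle i (Finset.mem_insert_of_mem hi))
  have h2 : ∀ i ∈ s, ∫ z in Rm i, g z ^ 2 ∂μ ≤ 4 * c * ∫ z in E i, g z ^ 2 ∂μ := by
    intro i hi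
    have hpos : (0 : ℝ) < (2 : ℝ) ^ (kk i) := zpow_pos (by norm_num) _
    have e3 : ((2 : ℝ) ^ (kk i + 1)) ^ 2 = 4 * ((2 : ℝ) ^ (kk i)) ^ 2 := by
      rw [zpow_add₀ (by norm_num)]; ring
    have b1 : ∫ z in Rm i, g z ^ 2 ∂μ ≤ ∫ z in Rm i, ((2 : ℝ) ^ (kk i + 1)) ^ 2 ∂μ := by
      refine setIntegral_mono_on hg2.integrableOn (integrableOn_const (hRf i hi)) (hRm i hi) ?_
      intro z hz
      have := hRs i hi z hz
      rw [← sq_abs]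
      exact pow_le_pow_left₀ (abs_nonneg _) this 2
    have b2 : ∫ z in E i, ((2 : ℝ) ^ (kk i)) ^ 2 ∂μ ≤ ∫ z in E i, g z ^ 2 ∂μ := by
      refine setIntegral_mono_on (integrableOn_const (hEf i hi)) hg2.integrableOn (hE i hi) ?_
      intro z hz
      have := hEs i hi z hz
      rw [← sq_abs (g z)]
      exact pow_le_pow_left₀ hpos.le this 2
    rw [setIntegral_const, smul_eq_mul] at b1 b2
    have e4 : μ.real (Rm i) = (μ (Rm i)).toReal := rfl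
    have e5 : μ.real (E i) = (μ (E i)).toReal := rfl
    rw [e4, e3] at b1
    rw [e5] at b2
    have := hle i hi
    calc ∫ z in Rm i, g z ^ 2 ∂μ ≤ (μ (Rm i)).toReal * (4 * ((2 : ℝ) ^ (kk i)) ^ 2) := b1
      _ ≤ (c * (μ (E i)).toReal) * (4 * ((2 : ℝ) ^ (kk i)) ^ 2) := by gcongr
      _ = 4 * c * ((μ (E i)).toReal * ((2 : ℝ) ^ (kk i)) ^ 2) := by ring
      _ ≤ 4 * c * ∫ z in E i, g z ^ 2 ∂μ := by gcongr
  have h3 : ∑ i ∈ s, ∫ z in E i, g z ^ 2 ∂μ ≤ ∫ z, g z ^ 2 ∂μ := by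
    rw [← integral_biUnion_finset s (fun i hi => hE i hi) hdis (fun i _ => hg2.integrableOn)]
    exact setIntegral_le_integral hg2 (ae_of_all _ (fun z => sq_nonneg _))
  calc ∫ z in ⋃ i ∈ s, Rm i, g z ^ 2 ∂μ ≤ ∑ i ∈ s, ∫ z in Rm i, g z ^ 2 ∂μ := h1
    _ ≤ ∑ i ∈ s, 4 * c * ∫ z in E i, g z ^ 2 ∂μ := Finset.sum_le_sum h2
    _ = 4 * c * ∑ i ∈ s, ∫ z in E i, g z ^ 2 ∂μ := by rw [Finset.mul_sum]
    _ ≤ 4 * c * ∫ z, g z ^ 2 ∂μ := by gcongr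

/-- countable version with `lintegral`: `∫_{⋃ Rm i} g² ≤ 4 c ∫ g²`. -/
theorem rem_core_lint {ι α : Type*} [Countable ι] [MeasurableSpace α] (μ : Measure α) (g : α → ℝ)
    (kk : ι → ℤ) (Rm E : ι → Set α) (c : ENNReal)
    (hRm : ∀ i, MeasurableSet (Rm i)) (hE : ∀ i, MeasurableSet (E i))
    (hRs : ∀ i, ∀ z ∈ Rm i, |g z| ≤ (2 : ℝ) ^ (kk i + 1))
    (hEs : ∀ i, ∀ z ∈ E i, (2 : ℝ) ^ (kk i) ≤ |g z|)
    (hdis : Pairwise (Function.onFun Disjoint E))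
    (hle : ∀ i, μ (Rm i) ≤ c * μ (E i)) :
    ∫⁻ z in ⋃ i, Rm i, ENNReal.ofReal (g z ^ 2) ∂μ ≤
      4 * c * ∫⁻ z, ENNReal.ofReal (g z ^ 2) ∂μ := by
  have h2 : ∀ i, ∫⁻ z in Rm i, ENNReal.ofReal (g z ^ 2) ∂μ ≤
      4 * c * ∫⁻ z in E i, ENNReal.ofReal (g z ^ 2) ∂μ := by
    intro i
    have hpos : (0 : ℝ) < (2 : ℝ) ^ (kk i) := zpow_pos (by norm_num) _
    have e3 : ((2 : ℝ) ^ (kk i + 1)) ^ 2 = 4 * ((2 : ℝ) ^ (kk i)) ^ 2 := by
      rw [zpow_add₀ (by norm_num)]; ring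
    have b1 : ∫⁻ z in Rm i, ENNReal.ofReal (g z ^ 2) ∂μ ≤
        ∫⁻ z in Rm i, ENNReal.ofReal (((2 : ℝ) ^ (kk i + 1)) ^ 2) ∂μ := by
      refine setLIntegral_mono' (hRm i) ?_
      intro z hz
      apply ENNReal.ofReal_le_ofReal
      have := hRs i z hz
      rw [← sq_abs]
      exact pow_le_pow_left₀ (abs_nonneg _) this 2
    have b2 : ∫⁻ z in E i, ENNReal.ofReal (((2 : ℝ) ^ (kk i)) ^ 2) ∂μ ≤
        ∫⁻ z in E i, ENNReal.ofReal (g z ^ 2) ∂μ := by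
      refine setLIntegral_mono' (hE i) ?_
      intro z hz
      apply ENNReal.ofReal_le_ofReal
      have := hEs i z hz
      rw [← sq_abs (g z)]
      exact pow_le_pow_left₀ hpos.le this 2
    rw [setLIntegral_const] at b1 b2
    rw [e3, ENNReal.ofReal_mul (by norm_num)] at b1
    have e6 : ENNReal.ofReal (4 : ℝ) = 4 := by norm_num
    rw [e6] at b1
    calc ∫⁻ z in Rm i, ENNReal.ofReal (g z ^ 2) ∂μ
        ≤ 4 * ENNReal.ofReal (((2 : ℝ) ^ (kk i)) ^ 2) * μ (Rm i) := b1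
      _ ≤ 4 * ENNReal.ofReal (((2 : ℝ) ^ (kk i)) ^ 2) * (c * μ (E i)) := by
          gcongr
          exact hle i
      _ = 4 * c * (ENNReal.ofReal (((2 : ℝ) ^ (kk i)) ^ 2) * μ (E i)) := by ring
      _ ≤ 4 * c * ∫⁻ z in E i, ENNReal.ofReal (g z ^ 2) ∂μ := by gcongr
  calc ∫⁻ z in ⋃ i, Rm i, ENNReal.ofReal (g z ^ 2) ∂μ
      ≤ ∑' i, ∫⁻ z in Rm i, ENNReal.ofReal (g z ^ 2) ∂μ := lintegral_iUnion_le _ _
    _ ≤ ∑' i, 4 * c * ∫⁻ z in E i, ENNReal.ofReal (g z ^ 2) ∂μ := ENNReal.tsum_le_tsum h2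
    _ = 4 * c * ∑' i, ∫⁻ z in E i, ENNReal.ofReal (g z ^ 2) ∂μ := by rw [ENNReal.tsum_mul_left]
    _ = 4 * c * ∫⁻ z in ⋃ i, E i, ENNReal.ofReal (g z ^ 2) ∂μ := by
        rw [lintegral_iUnion hE hdis]
    _ ≤ 4 * c * ∫⁻ z, ENNReal.ofReal (g z ^ 2) ∂μ := by
        gcongr
        exact Measure.restrict_le_self

end Crest.Agent.R087.RemCorex435
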