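import Crest.Agent.R087.TopsR_565

/-!
# Row 87, operator part: leaf `REMSUM` (shadow of helper435)
-/

set_option autoImplicit false

noncomputable section

open MeasureTheory

namespace Crest.Agent.R087.RemSumx565

open Crest.Agent.R087 Sh0x283 E2x542 E2Kx752 GateDefx273 OP0x270 Topsx565 TopsRx565

theorem i_bound {U h : ℝ × ℝ → ℝ} {A n : ℕ} (hA : 1 ≤ A) {lo hi : ℝ × ℝ → ℕ} {N : ℕ}
    {R : Fin N → Tube} {k : Fin N → ℤ} {i : Fin N → ℕ} {E B : Fin N → Set (ℝ × ℝ)}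
    (hT : IsTops U h A n lo hi N R k i E B) (m : Fin N) : (A - 1) * i m ≤ n + 1 := by
  have hm := hT.mass m
  have h1 : (volume (E m)).toReal ≤ 2 * 2 ^ i m * (R m).len := by
    have h2 : (volume (fat (2 ^ i m) (R m))).toReal = 2 * 2 ^ i m * (R m).len := by
      rw [volume_fat, ENNReal.toReal_ofReal]
      have := (R m).len_pos
      positivity
    rw [← h2]
    apply ENNReal.toReal_mono (fat_ne_top _ _)
    exact measure_mono (fun z hz => (hT.subE m hz).2.1)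
  have hl : 0 < (R m).len := (R m).len_pos
  have h3 : (1 / 2 : ℝ) ^ n * 2 ^ (A * i m) ≤ 2 * 2 ^ i m := le_of_mul_le_mul_right (hm.trans h1) hl
  have h4 : (2 : ℝ) ^ (A * i m) ≤ 2 ^ (i m + 1 + n) := by
    have h5 : (1 / 2 : ℝ) ^ n * 2 ^ n = 1 := by rw [← mul_pow]; norm_num
    calc (2 : ℝ) ^ (A * i m) = ((1 / 2 : ℝ) ^ n * 2 ^ n) * 2 ^ (A * i m) := by rw [h5, one_mul]
      _ = ((1 / 2 : ℝ) ^ n * 2 ^ (A * i m)) * 2 ^ n := by ring
      _ ≤ (2 * 2 ^ i m) * 2 ^ n := by gcongr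
      _ = 2 ^ (i m + 1 + n) := by ring
  have h6 := (pow_le_pow_iff_right₀ (one_lt_two (α := ℝ))).mp h4
  have h7 : A * i m = (A - 1) * i m + i m := by
    obtain ⟨a, rfl⟩ : ∃ a, A = a + 1 := ⟨A - 1, by omega⟩
    simp only [Nat.add_sub_cancel]
    ring
  omega

/-- **leaf REMSUM** -/
theorem remsum : REMSUM := by
  intro n U h lo hi hU hh N R kk ii E B hT
  have hi1 : ∀ m, (AA - 1) * ii m ≤ n + 1 := fun m => i_bound (by norm_num [AA]) hT m
  refine ⟨hi1, ?_⟩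
  have hi2 : ∀ m, ii m ∈ Finset.range (n + 2) := by
    intro m
    rw [Finset.mem_range]
    have h1 := hi1 m
    have h2 : 1 * ii m ≤ (AA - 1) * ii m := Nat.mul_le_mul_right _ (by norm_num [AA])
    omega
  calc ∑ m, (4 : ℝ) ^ kk m * 2 ^ (AA * ii m) * (1 / 2 : ℝ) ^ n * (R m).len
      = ∑ i0 ∈ Finset.range (n + 2), ∑ m with ii m = i0,
          (4 : ℝ) ^ kk m * 2 ^ (AA * ii m) * (1 / 2 : ℝ) ^ n * (R m).len := by
        rw [Finset.sum_fiberwise_of_maps_to (fun m _ => hi2 m)]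
    _ = ∑ i0 ∈ Finset.range (n + 2), ∑ m with ii m = i0,
          ((2 : ℝ) ^ (kk m)) ^ 2 * ((1 / 2 : ℝ) ^ n * 2 ^ (AA * i0) * (R m).len) := by
        refine Finset.sum_congr rfl (fun i0 _ => Finset.sum_congr rfl (fun m hm => ?_))
        have h1 : ii m = i0 := (Finset.mem_filter.mp hm).2
        have h2 : (4 : ℝ) ^ kk m = ((2 : ℝ) ^ (kk m)) ^ 2 := by
          rw [← zpow_natCast ((2 : ℝ) ^ kk m), ← zpow_mul, mul_comm (kk m), zpow_mul]
          norm_num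
        rw [h1, h2]
        ring
    _ ≤ ∑ i0 ∈ Finset.range (n + 2), ∫ z, (h z) ^ 2 :=
        Finset.sum_le_sum (fun i0 _ => energy hh hT i0)
    _ = (n + 2) * ∫ z, (h z) ^ 2 := by
        rw [Finset.sum_const, Finset.card_range, nsmul_eq_mul]
        push_cast
        ring

end Crest.Agent.R087.RemSumx565
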