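import Crest.Agent.R087.Sh1_283

/-!
Row 87, SHELL S12, part A (helper575): general facts on `tk`: measurability, boundedness, and the
`L²` bound when the field is `c`-Lipschitz in `y` and the kernel lives in `|t| ≤ τ`, `τ c ≤ 1/2`.
-/

set_option autoImplicit false

noncomputable section

open MeasureTheory Crest.Agent.R087.Sh0x283 Crest.Agent.R087.Sh1x283
open scoped ENNReal NNReal

namespace Crest.Agent.R087.S12Ax575

/-- change of variables inequality for `y ↦ y - w y`, `w` `1/2`-Lipschitz -/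
theorem lintegral_sub_le {w : ℝ → ℝ} (hw : ∀ y y', |w y - w y'| ≤ 1 / 2 * |y - y'|)
    {h : ℝ → ℝ≥0∞} (hh : Measurable h) : ∫⁻ y, h (y - w y) ≤ 2 * ∫⁻ y, h y := by
  set Φ : ℝ → ℝ := fun y => y - w y with hΦ
  have hwL : LipschitzWith (1 / 2 : ℝ≥0) w := by
    refine LipschitzWith.of_dist_le_mul fun y y' => ?_
    rw [Real.dist_eq, Real.dist_eq]
    simpa using hw y y'
  have hΦm : Measurable Φ := measurable_id.sub hwL.continuous.measurable
  have hanti : AntilipschitzWith 2 Φ := by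
    refine AntilipschitzWith.of_le_mul_dist fun y y' => ?_
    rw [Real.dist_eq, Real.dist_eq]
    have h1 := hw y y'
    have h2 : |y - y'| ≤ |Φ y - Φ y'| + |w y - w y'| := by
      have : y - y' = (Φ y - Φ y') + (w y - w y') := by simp only [hΦ]; ring
      rw [this]
      exact abs_add_le _ _
    have h3 : ((2 : ℝ≥0) : ℝ) = 2 := by norm_num
    rw [h3]
    linarith
  have hmap : Measure.map Φ volume ≤ (2 : ℝ≥0∞) • (volume : Measure ℝ) := by
    refine Measure.le_iff.2 fun s hs => ?_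
    rw [Measure.map_apply hΦm hs, Measure.smul_apply, smul_eq_mul]
    have := hanti.hausdorffMeasure_preimage_le (d := 1) zero_le_one s
    rw [hausdorffMeasure_real] at this
    simpa using this
  calc ∫⁻ y, h (y - w y) = ∫⁻ y, h y ∂(Measure.map Φ volume) := by
        rw [lintegral_map hh hΦm]
    _ ≤ ∫⁻ y, h y ∂((2 : ℝ≥0∞) • (volume : Measure ℝ)) := lintegral_mono' hmap le_rfl
    _ = 2 * ∫⁻ y, h y := by rw [lintegral_smul_measure, smul_eq_mul]

/-- the point map -/
def pt (U : ℝ × ℝ → ℝ) (t : ℝ) (z : ℝ × ℝ) : ℝ × ℝ := (z.1 - t, z.2 - t * U z)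

theorem measurable_pt {U : ℝ × ℝ → ℝ} (hU : Measurable U) :
    Measurable (fun p : (ℝ × ℝ) × ℝ => pt U p.2 p.1) := by
  unfold pt
  have h1 : Measurable (fun p : (ℝ × ℝ) × ℝ => U p.1) := hU.comp measurable_fst
  fun_prop

theorem lintegral_pt_le {U : ℝ × ℝ → ℝ} {c : ℝ} (hU : Measurable U)
    (hUL : ∀ x y y' : ℝ, |U (x, y) - U (x, y')| ≤ c * |y - y'|) {t : ℝ} (ht : |t| * c ≤ 1 / 2)
    {G : ℝ × ℝ → ℝ≥0∞} (hG : Measurable G) :
    ∫⁻ z, G (pt U t z) ≤ 2 * ∫⁻ z, G z := by
  have hm : Measurable (fun z => G (pt U t z)) :=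
    hG.comp ((measurable_pt hU).comp (measurable_id.prodMk measurable_const))
  rw [Measure.volume_eq_prod, lintegral_prod _ hm.aemeasurable, lintegral_prod _ hG.aemeasurable]
  have h1 : ∀ x : ℝ, ∫⁻ y, G (pt U t (x, y)) ≤ 2 * ∫⁻ y, G (x - t, y) := by
    intro x
    have hg : Measurable (fun y : ℝ => G (x - t, y)) := hG.comp (by fun_prop)
    refine lintegral_sub_le (w := fun y => t * U (x, y)) (fun y y' => ?_) hg
    rw [← mul_sub, abs_mul]
    calc |t| * |U (x, y) - U (x, y')| ≤ |t| * (c * |y - y'|) :=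
          mul_le_mul_of_nonneg_left (hUL x y y') (abs_nonneg t)
      _ = (|t| * c) * |y - y'| := by ring
      _ ≤ 1 / 2 * |y - y'| := mul_le_mul_of_nonneg_right ht (abs_nonneg _)
  calc ∫⁻ x, ∫⁻ y, G (pt U t (x, y)) ≤ ∫⁻ x, 2 * ∫⁻ y, G (x - t, y) := lintegral_mono h1
    _ = 2 * ∫⁻ x, ∫⁻ y, G (x - t, y) := by
        rw [lintegral_const_mul]
        exact Measurable.lintegral_prod_right' (f := fun p : ℝ × ℝ => G (p.1 - t, p.2))
          (hG.comp (by fun_prop))
    _ = 2 * ∫⁻ x, ∫⁻ y, G (x, y) := by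
        rw [lintegral_sub_right_eq_self (fun x => ∫⁻ y, G (x, y)) t]

/-! ### Nice functions -/

theorem integrable_of_nice {f : ℝ × ℝ → ℝ} (hf : Nice f) : Integrable f := by
  obtain ⟨hm, ⟨M, hM⟩, R, hR⟩ := hf
  have hsub : Function.support f ⊆ Metric.closedBall (0 : ℝ × ℝ) R := by
    intro z hz
    by_contra h
    apply hz
    apply hR
    simpa using h
  rw [← integrableOn_iff_integrable_of_support_subset hsub]
  refine Measure.integrableOn_of_bounded (M := M) ?_ hm.aestronglyMeasurable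
    (Filter.Eventually.of_forall fun z => hM z)
  exact (isCompact_closedBall (0 : ℝ × ℝ) R).measure_lt_top.ne

theorem nice_sq {f : ℝ × ℝ → ℝ} (hf : Nice f) : Nice (fun z => (f z) ^ 2) := by
  obtain ⟨hm, ⟨M, hM⟩, R, hR⟩ := hf
  refine ⟨hm.pow_const 2, ⟨M ^ 2, fun z => ?_⟩, R, fun z hz => ?_⟩
  · rw [abs_pow]
    exact pow_le_pow_left₀ (abs_nonneg _) (hM z) 2
  · show (f z) ^ 2 = 0
    rw [hR z hz]; ring

theorem nice_abs {f : ℝ × ℝ → ℝ} (hf : Nice f) : Nice (fun z => |f z|) := by
  obtain ⟨hm, ⟨M, hM⟩, R, hR⟩ := hf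
  refine ⟨hm.abs, ⟨M, fun z => ?_⟩, R, fun z hz => ?_⟩
  · rw [abs_abs]; exact hM z
  · show |f z| = 0
    rw [hR z hz, abs_zero]

/-- kernels: measurable, bounded, supported in `[-1,1]` -/
structure Ker (K : ℝ → ℝ) (M : ℝ) (τ : ℝ) : Prop where
  meas : Measurable K
  bound : ∀ t, |K t| ≤ M
  supp : ∀ t, τ < |t| → K t = 0

theorem Ker.nonneg {K : ℝ → ℝ} {M τ : ℝ} (h : Ker K M τ) : 0 ≤ M :=
  (abs_nonneg _).trans (h.bound 0)

theorem Ker.abs {K : ℝ → ℝ} {M τ : ℝ} (h : Ker K M τ) : Ker (fun t => |K t|) M τ :=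
  ⟨h.meas.abs, fun t => by rw [abs_abs]; exact h.bound t, fun t ht => by rw [h.supp t ht, abs_zero]⟩

/-- products of a kernel with a bounded measurable function are integrable -/
theorem Ker.integrable_mul {K : ℝ → ℝ} {M τ : ℝ} (h : Ker K M τ) {g : ℝ → ℝ} (hg : Measurable g)
    {N : ℝ} (hN : ∀ t, |g t| ≤ N) : Integrable (fun t => K t * g t) := by
  have hsub : Function.support (fun t => K t * g t) ⊆ Metric.closedBall (0 : ℝ) τ := by
    intro t ht
    by_contra h'
    apply ht
    have : τ < |t| := by simpa using h'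
    show K t * g t = 0
    rw [h.supp t this, zero_mul]
  rw [← integrableOn_iff_integrable_of_support_subset hsub]
  refine Measure.integrableOn_of_bounded (M := M * N) ?_ (h.meas.mul hg).aestronglyMeasurable
    (Filter.Eventually.of_forall fun t => ?_)
  · exact (isCompact_closedBall (0 : ℝ) τ).measure_lt_top.ne
  · rw [norm_mul]
    exact mul_le_mul (h.bound t) (hN t) (abs_nonneg _) h.nonneg

theorem Ker.integrable {K : ℝ → ℝ} {M τ : ℝ} (h : Ker K M τ) : Integrable K := by
  simpa using h.integrable_mul (g := fun _ => 1) measurable_const (N := 1) (fun t => by simp)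

theorem tk_eq (K : ℝ → ℝ) (U f : ℝ × ℝ → ℝ) (z : ℝ × ℝ) :
    tk K U f z = ∫ t, K t * f (pt U t z) := rfl

theorem measurable_tk {K : ℝ → ℝ} (hK : Measurable K) {U f : ℝ × ℝ → ℝ} (hU : Measurable U)
    (hf : Measurable f) : Measurable (tk K U f) := by
  have h1 : Measurable (fun p : (ℝ × ℝ) × ℝ => K p.2 * f (pt U p.2 p.1)) :=
    (hK.comp measurable_snd).mul (hf.comp (measurable_pt hU))
  exact (h1.stronglyMeasurable.integral_prod_right' (ν := volume)).measurable

theorem measurable_slice {U f : ℝ × ℝ → ℝ} (hU : Measurable U) (hf : Measurable f) (z : ℝ × ℝ) :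
    Measurable (fun t => f (pt U t z)) := by
  unfold pt
  exact hf.comp (by fun_prop)

theorem nice_tk {K : ℝ → ℝ} {M τ : ℝ} (hK : Ker K M τ) {U f : ℝ × ℝ → ℝ}
    (hU : Measurable U) (hUb : ∃ W : ℝ, ∀ z, |U z| ≤ W) (hf : Nice f) : Nice (tk K U f) := by
  obtain ⟨W, hW⟩ := hUb
  obtain ⟨hm, ⟨N, hN⟩, R, hR⟩ := hf
  refine ⟨measurable_tk hK.meas hU hm, ⟨(∫ t, |K t|) * N, fun z => ?_⟩, R + |τ| * (1 + W),
    fun z hz => ?_⟩
  · rw [tk_eq]
    calc |∫ t, K t * f (pt U t z)| ≤ ∫ t, |K t * f (pt U t z)| := abs_integral_le_integral_abs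
      _ ≤ ∫ t, |K t| * N := by
          refine integral_mono_of_nonneg (Filter.Eventually.of_forall fun t => abs_nonneg _)
            (hK.integrable.abs.mul_const N) (Filter.Eventually.of_forall fun t => ?_)
          show |K t * f (pt U t z)| ≤ |K t| * N
          rw [abs_mul]
          exact mul_le_mul_of_nonneg_left (hN _) (abs_nonneg _)
      _ = (∫ t, |K t|) * N := integral_mul_const _ _
  · rw [tk_eq]
    have h0 : ∀ t, K t * f (pt U t z) = 0 := by
      intro t
      by_cases ht : τ < |t|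
      · rw [hK.supp t ht, zero_mul]
      · rw [hR _ ?_, mul_zero]
        push Not at ht
        have h1 : ‖z‖ ≤ ‖pt U t z‖ + ‖((t, t * U z) : ℝ × ℝ)‖ := by
          have : z = pt U t z + (t, t * U z) := by
            ext <;> simp [pt]
          calc ‖z‖ = ‖pt U t z + (t, t * U z)‖ := by rw [← this]
            _ ≤ _ := norm_add_le _ _
        have hW0 : 0 ≤ W := (abs_nonneg _).trans (hW z)
        have h2 : ‖((t, t * U z) : ℝ × ℝ)‖ ≤ |τ| * (1 + W) := by
          rw [Prod.norm_def, max_le_iff]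
          simp only [Real.norm_eq_abs, abs_mul]
          have h3 : |t| ≤ |τ| := ht.trans (le_abs_self _)
          constructor
          · nlinarith [abs_nonneg τ, abs_nonneg t]
          · nlinarith [abs_nonneg τ, abs_nonneg t, hW z, abs_nonneg (U z),
              mul_le_mul h3 (hW z) (abs_nonneg _) (abs_nonneg _)]
        linarith
    simp [h0]

/-- Cauchy-Schwarz with weight -/
theorem cs_weight {p h : ℝ → ℝ} (hp : ∀ t, 0 ≤ p t) (h0 : Integrable p)
    (h1 : Integrable (fun t => p t * h t)) (h2 : Integrable (fun t => p t * (h t) ^ 2)) :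
    (∫ t, p t * h t) ^ 2 ≤ (∫ t, p t) * ∫ t, p t * (h t) ^ 2 := by
  have key : ∀ x : ℝ, 0 ≤ (∫ t, p t) * (x * x) + (-2 * ∫ t, p t * h t) * x +
      ∫ t, p t * (h t) ^ 2 := by
    intro x
    have e : (∫ t, p t) * (x * x) + (-2 * ∫ t, p t * h t) * x + ∫ t, p t * (h t) ^ 2
        = ∫ t, p t * (x - h t) ^ 2 := by
      have e1 : (fun t => p t * (x - h t) ^ 2) =
          fun t => (p t * (x * x) + (-2 * x) * (p t * h t)) + p t * (h t) ^ 2 := by
        funext t; ring
      have i01 : Integrable (fun t => p t * (x * x) + (-2 * x) * (p t * h t)) :=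
        (h0.mul_const _).add (h1.const_mul _)
      rw [e1, integral_add i01 h2,
        integral_add (h0.mul_const _) (h1.const_mul _), integral_mul_const, integral_const_mul]
      ring
    rw [e]
    exact integral_nonneg fun t => mul_nonneg (hp t) (sq_nonneg _)
  have := discrim_le_zero key
  rw [discrim] at this
  nlinarith

/-- the `L²` bound -/
theorem l2_tk {K : ℝ → ℝ} {M τ c : ℝ} (hK : Ker K M τ) (hc : 0 ≤ c) (hτ : τ * c ≤ 1 / 2)
    {U f : ℝ × ℝ → ℝ} (hU : Measurable U)
    (hUL : ∀ x y y' : ℝ, |U (x, y) - U (x, y')| ≤ c * |y - y'|) (hf : Nice f) :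
    ∫ z, (tk K U f z) ^ 2 ≤ 2 * (∫ t, |K t|) ^ 2 * ∫ z, (f z) ^ 2 := by
  set k : ℝ := ∫ t, |K t| with hk
  have hk0 : 0 ≤ k := integral_nonneg fun t => abs_nonneg _
  obtain ⟨N, hN⟩ := hf.2.1
  have hfm := hf.1
  set G : ℝ × ℝ → ℝ≥0∞ := fun z => ENNReal.ofReal ((f z) ^ 2) with hG
  have hGm : Measurable G := (hfm.pow_const 2).ennreal_ofReal
  have hint : Integrable (fun z => (f z) ^ 2) := integrable_of_nice (nice_sq hf)
  have hGint : ∫⁻ z, G z = ENNReal.ofReal (∫ z, (f z) ^ 2) :=
    (ofReal_integral_eq_lintegral_ofReal hint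
      (Filter.Eventually.of_forall fun z => sq_nonneg _)).symm
  -- pointwise
  have hpt : ∀ z, ENNReal.ofReal ((tk K U f z) ^ 2) ≤
      ENNReal.ofReal k * ∫⁻ t, ENNReal.ofReal |K t| * G (pt U t z) := by
    intro z
    have hms := measurable_slice hU hfm z
    have i0 : Integrable (fun t => |K t|) := hK.integrable.abs
    have i1 : Integrable (fun t => |K t| * |f (pt U t z)|) :=
      hK.abs.integrable_mul hms.abs (N := N) fun t => by rw [abs_abs]; exact hN _
    have i2 : Integrable (fun t => |K t| * |f (pt U t z)| ^ 2) :=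
      hK.abs.integrable_mul (hms.abs.pow_const 2) (N := N ^ 2) fun t => by
        rw [abs_pow, abs_abs]; exact pow_le_pow_left₀ (abs_nonneg _) (hN _) 2
    have h1 : (tk K U f z) ^ 2 ≤ k * ∫ t, |K t| * |f (pt U t z)| ^ 2 := by
      refine le_trans ?_ (cs_weight (fun t => abs_nonneg (K t)) i0 i1 i2)
      rw [← sq_abs]
      refine pow_le_pow_left₀ (abs_nonneg _) ?_ 2
      rw [tk_eq]
      refine abs_integral_le_integral_abs.trans (le_of_eq ?_)
      simp only [abs_mul]
    calc ENNReal.ofReal ((tk K U f z) ^ 2)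
        ≤ ENNReal.ofReal (k * ∫ t, |K t| * |f (pt U t z)| ^ 2) := ENNReal.ofReal_le_ofReal h1
      _ = ENNReal.ofReal k * ENNReal.ofReal (∫ t, |K t| * |f (pt U t z)| ^ 2) :=
          ENNReal.ofReal_mul hk0
      _ = ENNReal.ofReal k * ∫⁻ t, ENNReal.ofReal |K t| * G (pt U t z) := by
          rw [ofReal_integral_eq_lintegral_ofReal i2 (Filter.Eventually.of_forall fun t =>
            mul_nonneg (abs_nonneg _) (sq_nonneg _))]
          congr 1
          refine lintegral_congr fun t => ?_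
          rw [ENNReal.ofReal_mul (abs_nonneg _), sq_abs]
  have hlin : ∫⁻ z, ENNReal.ofReal ((tk K U f z) ^ 2) ≤
      ENNReal.ofReal (2 * k ^ 2 * ∫ z, (f z) ^ 2) := by
    have hm2 : Measurable (fun p : (ℝ × ℝ) × ℝ => ENNReal.ofReal |K p.2| * G (pt U p.2 p.1)) :=
      ((hK.meas.comp measurable_snd).abs.ennreal_ofReal).mul (hGm.comp (measurable_pt hU))
    calc ∫⁻ z, ENNReal.ofReal ((tk K U f z) ^ 2)
        ≤ ∫⁻ z, ENNReal.ofReal k * ∫⁻ t, ENNReal.ofReal |K t| * G (pt U t z) := lintegral_mono hpt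
      _ = ENNReal.ofReal k * ∫⁻ z, ∫⁻ t, ENNReal.ofReal |K t| * G (pt U t z) := by
          rw [lintegral_const_mul]
          exact hm2.lintegral_prod_right'
      _ = ENNReal.ofReal k * ∫⁻ t, ∫⁻ z, ENNReal.ofReal |K t| * G (pt U t z) := by
          rw [lintegral_lintegral_swap (f := fun z t => ENNReal.ofReal |K t| * G (pt U t z))
            hm2.aemeasurable]
      _ ≤ ENNReal.ofReal k * ∫⁻ t, ENNReal.ofReal |K t| * (2 * ∫⁻ z, G z) := by
          gcongr with t
          have hmz : Measurable (fun z => G (pt U t z)) :=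
            hGm.comp ((measurable_pt hU).comp (measurable_id.prodMk measurable_const))
          rw [lintegral_const_mul _ hmz]
          by_cases ht : τ < |t|
          · rw [hK.supp t ht]; simp
          · push Not at ht
            gcongr
            exact lintegral_pt_le hU hUL
              ((mul_le_mul_of_nonneg_right ht hc).trans hτ) hGm
      _ = ENNReal.ofReal (2 * k ^ 2 * ∫ z, (f z) ^ 2) := by
          rw [lintegral_mul_const _ hK.meas.abs.ennreal_ofReal,
            ← ofReal_integral_eq_lintegral_ofReal hK.integrable.abs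
              (Filter.Eventually.of_forall fun t => abs_nonneg _), hGint]
          have h2 : (2 : ℝ≥0∞) = ENNReal.ofReal 2 := by simp
          have hI : 0 ≤ ∫ z, (f z) ^ 2 := integral_nonneg fun z => sq_nonneg _
          rw [h2, ← ENNReal.ofReal_mul (by norm_num), ← hk, ← ENNReal.ofReal_mul hk0,
            ← ENNReal.ofReal_mul hk0]
          congr 1
          ring
  rw [integral_eq_lintegral_of_nonneg_ae (Filter.Eventually.of_forall fun z => sq_nonneg _)
    ((measurable_tk hK.meas hU hfm).pow_const 2).aestronglyMeasurable]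
  refine ENNReal.toReal_le_of_le_ofReal ?_ hlin
  have hI : 0 ≤ ∫ z, (f z) ^ 2 := integral_nonneg fun z => sq_nonneg _
  positivity

end Crest.Agent.R087.S12Ax575
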