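import Crest.Agent.R087.S12A_575

/-!
Row 87, SHELL S12 (helper575): `MODL` for all cutoffs implies the local estimate `LOCR`.
-/

set_option autoImplicit false

noncomputable section

open MeasureTheory Crest.Agent.R087.Sh0x283 Crest.Agent.R087.Sh1x283 Crest.Agent.R087.S12Ax575
open scoped ENNReal NNReal

namespace Crest.Agent.R087.S12x575

theorem exists_eta : ∃ η : ℝ → ℝ, EtaC η := by
  let b : ContDiffBump (0 : ℝ) := ⟨1 / 2, 1, by norm_num, by norm_num⟩
  refine ⟨b, b.contDiff, fun t => b.neg t, fun t => b.nonneg, fun t => b.le_one, fun t ht => ?_,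
    fun t ht => ?_⟩
  · apply b.one_of_mem_closedBall
    simpa [b] using ht
  · apply b.zero_of_le_dist
    simpa [b] using ht

theorem clamp_le (b x y : ℝ) :
    |max (-b) (min b x) - max (-b) (min b y)| ≤ |x - y| := by
  have h1 : |max (-b) (min b x) - max (-b) (min b y)| ≤ max |(-b) - (-b)| |min b x - min b y| :=
    abs_max_sub_max_le_max _ _ _ _
  have h2 : |min b x - min b y| ≤ max |b - b| |x - y| := abs_min_sub_min_le_max _ _ _ _
  rw [sub_self, abs_zero] at h1 h2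
  have h3 : max 0 |min b x - min b y| = |min b x - min b y| := max_eq_right (abs_nonneg _)
  have h4 : max 0 |x - y| = |x - y| := max_eq_right (abs_nonneg _)
  rw [h3] at h1
  rw [h4] at h2
  exact h1.trans h2

/-- the extended slope field -/
theorem exists_field {v₁ v₂ : ℝ × ℝ → ℝ} (hv : ∀ z, v₁ z ^ 2 + v₂ z ^ 2 = 1)
    (hL : ∀ z z', (v₁ z - v₁ z') ^ 2 + (v₂ z - v₂ z') ^ 2 ≤ (z.1 - z'.1) ^ 2 + (z.2 - z'.2) ^ 2)
    (h1 : v₁ (0, 0) = 1) (h2 : v₂ (0, 0) = 0) {a : ℝ} (ha : 0 < a) (ha' : a < 1 / 20) :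
    ∃ U : ℝ × ℝ → ℝ, Fld 3 U ∧ (∀ z, |U z| ≤ 1 / 10) ∧
      ∀ z : ℝ × ℝ, z.1 ^ 2 + z.2 ^ 2 < a ^ 2 → 19 / 20 ≤ v₁ z ∧ v₁ z ≤ 1 ∧ v₂ z = v₁ z * U z := by
  set s : Set (ℝ × ℝ) := {z | z.1 ^ 2 + z.2 ^ 2 < a ^ 2} with hs
  have hb : ∀ z ∈ s, 19 / 20 ≤ v₁ z ∧ v₁ z ≤ 1 ∧ |v₂ z| ≤ 1 / 20 := by
    intro z hz
    have hz' : z.1 ^ 2 + z.2 ^ 2 < a ^ 2 := hz
    have h3 := hL z (0, 0)
    rw [h1, h2] at h3
    simp only [sub_zero] at h3
    have ha2 : a ^ 2 < (1 / 20) ^ 2 := by nlinarith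
    refine ⟨?_, ?_, ?_⟩
    · nlinarith [sq_nonneg (v₂ z)]
    · nlinarith [sq_nonneg (v₂ z), hv z]
    · refine abs_le_of_sq_le_sq ?_ (by norm_num)
      nlinarith [sq_nonneg (v₁ z - 1)]
  set u : ℝ × ℝ → ℝ := fun z => v₂ z / v₁ z with hu
  have hub : ∀ z ∈ s, |u z| ≤ 1 / 10 := by
    intro z hz
    obtain ⟨p1, p2, p3⟩ := hb z hz
    have hpos : 0 < v₁ z := by linarith
    rw [hu]
    show |v₂ z / v₁ z| ≤ 1 / 10
    rw [abs_div, abs_of_pos hpos, div_le_iff₀ hpos]
    linarith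
  have huL : LipschitzOnWith 2 u s := by
    refine LipschitzOnWith.of_dist_le_mul fun z hz z' hz' => ?_
    obtain ⟨p1, p2, p3⟩ := hb z hz
    obtain ⟨q1, q2, q3⟩ := hb z' hz'
    rw [Real.dist_eq]
    have hd1 : |z.1 - z'.1| ≤ dist z z' := by
      rw [← Real.dist_eq]; exact le_max_left _ _
    have hd2 : |z.2 - z'.2| ≤ dist z z' := by
      rw [← Real.dist_eq]; exact le_max_right _ _
    have hd0 : 0 ≤ dist z z' := dist_nonneg
    set d := dist z z' with hd
    refine abs_le_of_sq_le_sq ?_ (by positivity)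
    have e1 : (z.1 - z'.1) ^ 2 ≤ d ^ 2 := by
      rw [← sq_abs]; exact pow_le_pow_left₀ (abs_nonneg _) hd1 2
    have e2 : (z.2 - z'.2) ^ 2 ≤ d ^ 2 := by
      rw [← sq_abs]; exact pow_le_pow_left₀ (abs_nonneg _) hd2 2
    have e3 := hL z z'
    have hp : 0 < v₁ z := by linarith
    have hq : 0 < v₁ z' := by linarith
    have e4 : (v₂ z / v₁ z - v₂ z' / v₁ z') ^ 2 =
        (v₁ z * (v₂ z - v₂ z') - v₂ z * (v₁ z - v₁ z')) ^ 2 / (v₁ z * v₁ z') ^ 2 := by
      field_simp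
      ring
    have e5 : (v₁ z * (v₂ z - v₂ z') - v₂ z * (v₁ z - v₁ z')) ^ 2 ≤ 2 * d ^ 2 := by
      have e6 : (v₁ z * (v₂ z - v₂ z') - v₂ z * (v₁ z - v₁ z')) ^ 2 ≤
          (v₁ z ^ 2 + v₂ z ^ 2) * ((v₁ z - v₁ z') ^ 2 + (v₂ z - v₂ z') ^ 2) := by
        nlinarith [sq_nonneg (v₁ z * (v₁ z - v₁ z') + v₂ z * (v₂ z - v₂ z'))]
      rw [hv z, one_mul] at e6
      linarith
    show (v₂ z / v₁ z - v₂ z' / v₁ z') ^ 2 ≤ ((2 : ℝ≥0) * d) ^ 2
    have h20 : ((2 : ℝ≥0) : ℝ) = 2 := by norm_num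
    rw [e4, h20, div_le_iff₀ (by positivity)]
    have e7 : (361 / 400 : ℝ) ≤ v₁ z * v₁ z' := by nlinarith
    have e8 : (1 / 2 : ℝ) ≤ (v₁ z * v₁ z') ^ 2 := by nlinarith
    nlinarith [sq_nonneg d]
  obtain ⟨g, hgL, hgu⟩ := huL.extend_real
  set U : ℝ × ℝ → ℝ := fun z => max (-(1 / 10)) (min (1 / 10) (g z)) with hU
  have hUb : ∀ z, |U z| ≤ 1 / 10 := by
    intro z
    rw [abs_le]
    exact ⟨le_max_left _ _, max_le (by norm_num) (min_le_left _ _)⟩
  refine ⟨U, ⟨?_, ⟨1 / 10, hUb⟩, ?_⟩, hUb, ?_⟩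
  · exact (continuous_const.max (continuous_const.min hgL.continuous)).measurable
  · intro x y y'
    refine (clamp_le (1 / 10) _ _).trans ?_
    have h3 := hgL.dist_le_mul (x, y) (x, y')
    rw [Real.dist_eq] at h3
    have h4 : dist ((x, y) : ℝ × ℝ) (x, y') = |y - y'| := by
      rw [Prod.dist_eq]
      simp [Real.dist_eq]
    rw [h4] at h3
    have h20 : ((2 : ℝ≥0) : ℝ) = 2 := by norm_num
    rw [h20] at h3
    nlinarith [abs_nonneg (y - y')]
  · intro z hz
    obtain ⟨p1, p2, p3⟩ := hb z hz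
    refine ⟨p1, p2, ?_⟩
    have hpos : 0 < v₁ z := by linarith
    have h3 : U z = u z := by
      have h4 := hub z hz
      rw [abs_le] at h4
      show max (-(1 / 10)) (min (1 / 10) (g z)) = u z
      rw [← hgu hz, min_eq_right h4.2, max_eq_right h4.1]
    rw [h3]
    show v₂ z = v₁ z * (v₂ z / v₁ z)
    field_simp

/-! ### cutoff in space -/

def theta (a : ℝ) (z : ℝ × ℝ) : ℝ :=
  max 0 (min 1 ((25 * a ^ 2 - (z.1 ^ 2 + z.2 ^ 2)) / (9 * a ^ 2)))

theorem theta_nonneg (a : ℝ) (z : ℝ × ℝ) : 0 ≤ theta a z := le_max_left _ _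

theorem theta_le_one (a : ℝ) (z : ℝ × ℝ) : theta a z ≤ 1 := max_le zero_le_one (min_le_left _ _)

theorem theta_one {a : ℝ} (ha : 0 < a) {z : ℝ × ℝ} (hz : z.1 ^ 2 + z.2 ^ 2 ≤ 16 * a ^ 2) :
    theta a z = 1 := by
  unfold theta
  have : 1 ≤ (25 * a ^ 2 - (z.1 ^ 2 + z.2 ^ 2)) / (9 * a ^ 2) := by
    rw [le_div_iff₀ (by positivity)]; linarith
  rw [min_eq_left this, max_eq_right zero_le_one]

theorem theta_zero {a : ℝ} {z : ℝ × ℝ} (hz : 25 * a ^ 2 ≤ z.1 ^ 2 + z.2 ^ 2) :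
    theta a z = 0 := by
  unfold theta
  have : (25 * a ^ 2 - (z.1 ^ 2 + z.2 ^ 2)) / (9 * a ^ 2) ≤ 0 :=
    div_nonpos_of_nonpos_of_nonneg (by linarith) (by positivity)
  rw [max_eq_left ((min_le_right _ _).trans this)]

theorem theta_cont (a : ℝ) : Continuous (theta a) := by
  unfold theta
  fun_prop

theorem nice_g {a : ℝ} (ha : 0 < a) {f : ℝ × ℝ → ℝ} (hf : Continuous f)
    (hfb : ∃ M : ℝ, ∀ z, |f z| ≤ M) : Nice (fun z => f z * theta a z) := by
  obtain ⟨M, hM⟩ := hfb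
  refine ⟨(hf.mul (theta_cont a)).measurable, ⟨M, fun z => ?_⟩, 5 * a, fun z hz => ?_⟩
  · rw [abs_mul, abs_of_nonneg (theta_nonneg a z)]
    calc |f z| * theta a z ≤ |f z| * 1 :=
          mul_le_mul_of_nonneg_left (theta_le_one a z) (abs_nonneg _)
      _ ≤ M := by rw [mul_one]; exact hM z
  · show f z * theta a z = 0
    rw [theta_zero, mul_zero]
    rw [Prod.norm_def, lt_max_iff] at hz
    simp only [Real.norm_eq_abs] at hz
    rcases hz with h | h
    · nlinarith [sq_abs z.1, sq_nonneg z.2]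
    · nlinarith [sq_abs z.2, sq_nonneg z.1]

theorem int_g_le {a : ℝ} (ha : 0 < a) {f : ℝ × ℝ → ℝ} (hf : Continuous f)
    (hfb : ∃ M : ℝ, ∀ z, |f z| ≤ M) :
    ∫ z, (f z * theta a z) ^ 2 ≤
      ∫ z in {z : ℝ × ℝ | z.1 ^ 2 + z.2 ^ 2 < (5 * a) ^ 2}, (f z) ^ 2 := by
  obtain ⟨M, hM⟩ := hfb
  set s : Set (ℝ × ℝ) := {z : ℝ × ℝ | z.1 ^ 2 + z.2 ^ 2 < (5 * a) ^ 2} with hs
  have hsm : MeasurableSet s := by
    apply IsOpen.measurableSet
    exact isOpen_lt (by fun_prop) continuous_const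
  have hsub : s ⊆ Metric.closedBall (0 : ℝ × ℝ) (5 * a) := by
    intro z hz
    have hz' : z.1 ^ 2 + z.2 ^ 2 < (5 * a) ^ 2 := hz
    rw [mem_closedBall_zero_iff, Prod.norm_def, max_le_iff]
    simp only [Real.norm_eq_abs]
    constructor
    · exact abs_le_of_sq_le_sq (by nlinarith [sq_nonneg z.2]) (by positivity)
    · exact abs_le_of_sq_le_sq (by nlinarith [sq_nonneg z.1]) (by positivity)
  have hfin : volume s ≠ ⊤ :=
    ((measure_mono hsub).trans_lt (isCompact_closedBall (0 : ℝ × ℝ) (5 * a)).measure_lt_top).ne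
  have hfi : IntegrableOn (fun z => (f z) ^ 2) s := by
    refine Measure.integrableOn_of_bounded (M := M ^ 2) hfin
      (hf.pow 2).measurable.aestronglyMeasurable (Filter.Eventually.of_forall fun z => ?_)
    rw [Real.norm_eq_abs, abs_pow]
    exact pow_le_pow_left₀ (abs_nonneg _) (hM z) 2
  rw [← integral_indicator hsm]
  refine integral_mono_of_nonneg (Filter.Eventually.of_forall fun z => sq_nonneg _)
    (hfi.integrable_indicator hsm) (Filter.Eventually.of_forall fun z => ?_)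
  show (f z * theta a z) ^ 2 ≤ s.indicator (fun z => (f z) ^ 2) z
  by_cases hz : z ∈ s
  · rw [Set.indicator_of_mem hz, mul_pow]
    have h1 : theta a z ^ 2 ≤ 1 := pow_le_one₀ (theta_nonneg a z) (theta_le_one a z)
    nlinarith [sq_nonneg (f z)]
  · rw [Set.indicator_of_notMem hz, theta_zero]
    · simp
    · have : ¬ (z.1 ^ 2 + z.2 ^ 2 < (5 * a) ^ 2) := hz
      push Not at this
      linarith

/-! ### kernels -/

/-- the rescaled sharp kernel -/
def K1 (v ε a t : ℝ) : ℝ := if ε * v < |t| ∧ |t| < a * v then 1 / t else 0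

/-- the majorant of the difference -/
def Dbar (a ε t : ℝ) : ℝ :=
  (if |t| ≤ 2 * a then 4 / a else 0) + (if |t| ≤ 2 * ε then 4 / ε else 0)

theorem Dbar_nonneg {a ε : ℝ} (ha : 0 < a) (hε : 0 < ε) (t : ℝ) : 0 ≤ Dbar a ε t := by
  unfold Dbar
  split_ifs <;> positivity

theorem measurableSet_abs_le (c : ℝ) : MeasurableSet {t : ℝ | |t| ≤ c} :=
  (isClosed_le continuous_abs continuous_const).measurableSet

theorem ker_Dbar {a ε : ℝ} (ha : 0 < a) (hε : 0 < ε) (hεa : ε < a) :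
    Ker (Dbar a ε) (4 / a + 4 / ε) (2 * a) := by
  refine ⟨?_, fun t => ?_, fun t ht => ?_⟩
  · unfold Dbar
    exact (Measurable.ite (measurableSet_abs_le _) measurable_const measurable_const).add
      (Measurable.ite (measurableSet_abs_le _) measurable_const measurable_const)
  · rw [abs_of_nonneg (Dbar_nonneg ha hε t)]
    unfold Dbar
    have h1 : 0 < 4 / a := by positivity
    have h2 : 0 < 4 / ε := by positivity
    split_ifs <;> linarith
  · unfold Dbar
    rw [if_neg (by linarith), if_neg (by linarith), add_zero]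

theorem int_ite {c b : ℝ} (hc : 0 ≤ c) : ∫ t : ℝ, (if |t| ≤ c then b else 0) = 2 * c * b := by
  have h1 : (fun t : ℝ => if |t| ≤ c then b else 0) = (Set.Icc (-c) c).indicator (fun _ => b) := by
    funext t
    by_cases h : |t| ≤ c
    · have h' : t ∈ Set.Icc (-c) c := abs_le.1 h
      rw [if_pos h, Set.indicator_of_mem h']
    · have h' : t ∉ Set.Icc (-c) c := fun h' => h (abs_le.2 h')
      rw [if_neg h, Set.indicator_of_notMem h']
  rw [h1, integral_indicator measurableSet_Icc, setIntegral_const, smul_eq_mul,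
    Real.volume_real_Icc_of_le (by linarith)]
  ring

theorem int_Dbar {a ε : ℝ} (ha : 0 < a) (hε : 0 < ε) : ∫ t, |Dbar a ε t| = 32 := by
  have h0 : (fun t => |Dbar a ε t|) = fun t => (if |t| ≤ 2 * a then 4 / a else 0) +
      (if |t| ≤ 2 * ε then 4 / ε else 0) := by
    funext t
    rw [abs_of_nonneg (Dbar_nonneg ha hε t)]
    rfl
  have hk : ∀ c b : ℝ, 0 < b → Ker (fun t => if |t| ≤ c then b else 0) b c := by
    intro c b hb
    refine ⟨Measurable.ite (measurableSet_abs_le _) measurable_const measurable_const,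
      fun t => ?_, fun t ht => ?_⟩
    · show |if |t| ≤ c then b else 0| ≤ b
      split_ifs
      · rw [abs_of_pos hb]
      · simpa using hb.le
    · show (if |t| ≤ c then b else 0) = 0
      rw [if_neg (by linarith)]
  rw [h0, integral_add (hk _ _ (by positivity)).integrable (hk _ _ (by positivity)).integrable,
    int_ite (by positivity), int_ite (by positivity)]
  field_simp
  norm_num

theorem ker_K1 {v ε a : ℝ} (hv : 0 < v) (hv1 : v ≤ 1) (hε : 0 < ε) (ha : 0 < a) :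
    Ker (K1 v ε a) (1 / (ε * v)) (2 * a) := by
  refine ⟨?_, fun t => ?_, fun t ht => ?_⟩
  · unfold K1
    refine Measurable.ite ?_ (measurable_const.div measurable_id) measurable_const
    exact (isOpen_lt continuous_const continuous_abs).measurableSet.inter
      (isOpen_lt continuous_abs continuous_const).measurableSet
  · unfold K1
    split_ifs with h
    · rw [abs_div, abs_one]
      exact one_div_le_one_div_of_le (by positivity) h.1.le
    · rw [abs_zero]; positivity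
  · unfold K1
    rw [if_neg]
    rintro ⟨_, h⟩
    nlinarith

theorem abs_div_le {x t : ℝ} (hx : |x| ≤ 1) : |x / t| ≤ 1 / |t| := by
  rw [abs_div]
  exact div_le_div_of_nonneg_right hx (abs_nonneg _)

section eta

variable {η : ℝ → ℝ} (hη : EtaC η) {a ε : ℝ} (ha : 0 < a) (hε : 0 < ε) {S : ℕ}

include hη in
theorem abs_num (x y : ℝ) : |η x - η y| ≤ 1 := by
  obtain ⟨_, _, h0, h1, _⟩ := hη
  rw [abs_le]
  constructor <;> linarith [h0 x, h0 y, h1 x, h1 y]

include hη ha in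
theorem eta_one {t : ℝ} (ht : |t| ≤ a) : η (t / (2 * a)) = 1 := by
  apply hη.2.2.2.2.1
  rw [abs_div, abs_of_pos (show 0 < 2 * a by positivity), div_le_iff₀ (by positivity)]
  linarith

include hη ha in
theorem eta_zero {t : ℝ} (ht : 2 * a ≤ |t|) : η (t / (2 * a)) = 0 := by
  apply hη.2.2.2.2.2
  rw [abs_div, abs_of_pos (show 0 < 2 * a by positivity), le_div_iff₀ (by positivity)]
  linarith

include hη ha in
theorem kerE_zero_in {t : ℝ} (ht : 2 ^ S * |t| ≤ a) : kerE η (2 * a) S t = 0 := by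
  have h1 : |(2 : ℝ) ^ S * t| ≤ a := by
    rw [abs_mul, abs_of_pos (by positivity)]; exact ht
  have h2 : |t| ≤ a := by
    have : (1 : ℝ) ≤ 2 ^ S := one_le_pow₀ (by norm_num)
    nlinarith [abs_nonneg t]
  unfold kerE
  rw [eta_one hη ha h1, eta_one hη ha h2]
  simp

include hη ha in
theorem kerE_zero_out {t : ℝ} (ht : 2 * a ≤ |t|) : kerE η (2 * a) S t = 0 := by
  have h1 : 2 * a ≤ |(2 : ℝ) ^ S * t| := by
    rw [abs_mul, abs_of_pos (by positivity)]
    have : (1 : ℝ) ≤ 2 ^ S := one_le_pow₀ (by norm_num)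
    nlinarith [abs_nonneg t]
  unfold kerE
  rw [eta_zero hη ha h1, eta_zero hη ha ht]
  simp

include hη ha in
theorem kerE_mid {t : ℝ} (ht : |t| ≤ a) (ht' : 2 * a ≤ 2 ^ S * |t|) :
    kerE η (2 * a) S t = 1 / t := by
  have h1 : 2 * a ≤ |(2 : ℝ) ^ S * t| := by
    rw [abs_mul, abs_of_pos (by positivity)]; exact ht'
  unfold kerE
  rw [eta_zero hη ha h1, eta_one hη ha ht]
  simp

include hη ha in
theorem ker_kerE : Ker (kerE η (2 * a) S) (2 ^ S / a) (2 * a) := by
  have hm : Measurable η := hη.1.continuous.measurable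
  refine ⟨?_, fun t => ?_, fun t ht => kerE_zero_out hη ha ht.le⟩
  · unfold kerE
    exact ((hm.comp (by fun_prop)).sub (hm.comp (by fun_prop))).div measurable_id
  · by_cases h : 2 ^ S * |t| ≤ a
    · rw [kerE_zero_in hη ha h, abs_zero]; positivity
    · push Not at h
      have ht : 0 < |t| := by
        by_contra h'
        have : |t| = 0 := le_antisymm (not_lt.1 h') (abs_nonneg _)
        rw [this, mul_zero] at h
        linarith
      refine (abs_div_le (abs_num hη _ _)).trans ?_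
      rw [div_le_div_iff₀ ht ha]
      linarith

include hη ha hε in
theorem diff_le {v : ℝ} (hv : 19 / 20 ≤ v) (hv1 : v ≤ 1) (hεa : ε < a)
    (hS1 : a < 2 ^ S * ε) (hS2 : 2 ^ S * ε ≤ 2 * a) (t : ℝ) :
    |K1 v ε a t - kerE η (2 * a) S t| ≤ Dbar a ε t := by
  have hP : (1 : ℝ) ≤ 2 ^ S := one_le_pow₀ (by norm_num)
  rcases le_or_gt |t| (ε / 2) with h1 | h1
  · have e1 : K1 v ε a t = 0 := by
      unfold K1
      rw [if_neg]
      rintro ⟨h, _⟩
      nlinarith
    have e2 : kerE η (2 * a) S t = 0 := by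
      apply kerE_zero_in hη ha
      nlinarith
    rw [e1, e2, sub_zero, abs_zero]
    exact Dbar_nonneg ha hε t
  · have ht : 0 < |t| := by linarith
    have b1 : |K1 v ε a t| ≤ 1 / |t| := by
      unfold K1
      split_ifs
      · exact abs_div_le (by simp)
      · rw [abs_zero]; positivity
    have b2 : |kerE η (2 * a) S t| ≤ 1 / |t| := abs_div_le (abs_num hη _ _)
    have c1 : 0 ≤ (if |t| ≤ 2 * a then 4 / a else 0) := by split_ifs <;> positivity
    have c2 : 0 ≤ (if |t| ≤ 2 * ε then 4 / ε else 0) := by split_ifs <;> positivity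
    rcases le_or_gt |t| (2 * ε) with h2 | h2
    · have e3 : 1 / |t| ≤ 2 / ε := by
        rw [div_le_div_iff₀ ht hε]; linarith
      have e4 : (if |t| ≤ 2 * ε then 4 / ε else 0) = 4 / ε := if_pos h2
      unfold Dbar
      rw [e4]
      calc |K1 v ε a t - kerE η (2 * a) S t| ≤ |K1 v ε a t| + |kerE η (2 * a) S t| := abs_sub _ _
        _ ≤ 2 / ε + 2 / ε := by linarith
        _ = 4 / ε := by ring
        _ ≤ _ := by linarith
    · rcases lt_or_ge |t| (a * v) with h3 | h3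
      · have e1 : K1 v ε a t = 1 / t := by
          unfold K1
          rw [if_pos ⟨by nlinarith, h3⟩]
        have e2 : kerE η (2 * a) S t = 1 / t := by
          apply kerE_mid hη ha
          · nlinarith
          · nlinarith
        rw [e1, e2, sub_self, abs_zero]
        exact Dbar_nonneg ha hε t
      · have e1 : K1 v ε a t = 0 := by
          unfold K1
          rw [if_neg]
          rintro ⟨_, h⟩
          linarith
        rw [e1, zero_sub, abs_neg]
        rcases le_or_gt |t| (2 * a) with h4 | h4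
        · have e4 : (if |t| ≤ 2 * a then 4 / a else 0) = 4 / a := if_pos h4
          unfold Dbar
          rw [e4]
          have e5 : 1 / |t| ≤ 4 / a := by
            rw [div_le_div_iff₀ ht ha]
            nlinarith
          linarith
        · rw [kerE_zero_out hη ha h4.le, abs_zero]
          exact Dbar_nonneg ha hε t

end eta

/-! ### the substitution -/

theorem subst_F {v₁ v₂ : ℝ × ℝ → ℝ} {U f : ℝ × ℝ → ℝ} {a ε : ℝ} (ha : 0 < a) (ha' : a < 1 / 20)
    (hε : 0 < ε) {z : ℝ × ℝ} (hz : z.1 ^ 2 + z.2 ^ 2 < a ^ 2)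
    (hv1 : 19 / 20 ≤ v₁ z) (hv1' : v₁ z ≤ 1) (hvU : v₂ z = v₁ z * U z) (hU : |U z| ≤ 1 / 10) :
    (∫ t in Set.Ioo (-a) (-ε) ∪ Set.Ioo ε a, f (z.1 - t * v₁ z, z.2 - t * v₂ z) / t) =
      ∫ t, K1 (v₁ z) ε a t * (f (pt U t z) * theta a (pt U t z)) := by
  have hv : 0 < v₁ z := by linarith
  have hms : MeasurableSet (Set.Ioo (-a) (-ε) ∪ Set.Ioo ε a) :=
    measurableSet_Ioo.union measurableSet_Ioo
  have key : ∀ t : ℝ, (Set.Ioo (-a) (-ε) ∪ Set.Ioo ε a).indicator
      (fun t => f (z.1 - t * v₁ z, z.2 - t * v₂ z) / t) t = v₁ z *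
        (K1 (v₁ z) ε a (v₁ z * t) * (f (pt U (v₁ z * t) z) * theta a (pt U (v₁ z * t) z))) := by
    intro t
    have habs : |v₁ z * t| = v₁ z * |t| := by rw [abs_mul, abs_of_pos hv]
    by_cases ht : t ∈ Set.Ioo (-a) (-ε) ∪ Set.Ioo ε a
    · rw [Set.indicator_of_mem ht]
      have ht' : ε < |t| ∧ |t| < a := by
        rcases ht with ⟨h1, h2⟩ | ⟨h1, h2⟩
        · rw [abs_of_neg (by linarith)]
          constructor <;> linarith
        · rw [abs_of_pos (by linarith)]
          exact ⟨h1, h2⟩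
      have ht0 : t ≠ 0 := by
        rintro rfl
        rw [abs_zero] at ht'
        linarith [ht'.1]
      have hK : K1 (v₁ z) ε a (v₁ z * t) = 1 / (v₁ z * t) := by
        unfold K1
        rw [if_pos]
        rw [habs]
        constructor <;> nlinarith [ht'.1, ht'.2]
      have hth : theta a (pt U (v₁ z * t) z) = 1 := by
        apply theta_one ha
        have e1 : |v₁ z * t| ≤ a := by rw [habs]; nlinarith [ht'.2, abs_nonneg t]
        have e2 : |v₁ z * t * U z| ≤ a := by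
          rw [abs_mul]
          nlinarith [abs_nonneg (U z), abs_nonneg (v₁ z * t)]
        show (z.1 - v₁ z * t) ^ 2 + (z.2 - v₁ z * t * U z) ^ 2 ≤ 16 * a ^ 2
        have q1 : (v₁ z * t) ^ 2 ≤ a ^ 2 := by
          rw [← sq_abs]; exact pow_le_pow_left₀ (abs_nonneg _) e1 2
        have q2 : (v₁ z * t * U z) ^ 2 ≤ a ^ 2 := by
          rw [← sq_abs]; exact pow_le_pow_left₀ (abs_nonneg _) e2 2
        nlinarith [sq_nonneg (z.1 + v₁ z * t), sq_nonneg (z.2 + v₁ z * t * U z)]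
      rw [hK, hth, mul_one, hvU]
      unfold pt
      have e3 : z.1 - t * v₁ z = z.1 - v₁ z * t := by ring
      have e4 : z.2 - t * (v₁ z * U z) = z.2 - v₁ z * t * U z := by ring
      rw [e3, e4]
      field_simp
    · rw [Set.indicator_of_notMem ht]
      have hK : K1 (v₁ z) ε a (v₁ z * t) = 0 := by
        unfold K1
        rw [if_neg]
        rw [habs]
        rintro ⟨h1, h2⟩
        apply ht
        have h1' : ε < |t| := by
          by_contra h
          push Not at h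
          nlinarith
        have h2' : |t| < a := by
          by_contra h
          push Not at h
          nlinarith
        rcases le_total 0 t with h | h
        · rw [abs_of_nonneg h] at h1' h2'
          exact Or.inr ⟨h1', h2'⟩
        · rw [abs_of_nonpos h] at h1' h2'
          exact Or.inl ⟨by linarith, by linarith⟩
      rw [hK, zero_mul, mul_zero]
  rw [← integral_indicator hms]
  simp_rw [key]
  rw [integral_const_mul,
    Measure.integral_comp_mul_left
      (fun t => K1 (v₁ z) ε a t * (f (pt U t z) * theta a (pt U t z))) (v₁ z),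
    smul_eq_mul, abs_of_pos (inv_pos.2 hv)]
  field_simp

/-- the pointwise domination -/
theorem F_le {η : ℝ → ℝ} (hη : EtaC η) {U g : ℝ × ℝ → ℝ} {a ε v : ℝ} {S : ℕ} (ha : 0 < a)
    (hε : 0 < ε) (hεa : ε < a) (hS1 : a < 2 ^ S * ε) (hS2 : 2 ^ S * ε ≤ 2 * a)
    (hv : 19 / 20 ≤ v) (hv1 : v ≤ 1) (hU : Measurable U) (hg : Nice g) (z : ℝ × ℝ) :
    |∫ t, K1 v ε a t * g (pt U t z)| ≤
      |tk (kerE η (2 * a) S) U g z| + tk (Dbar a ε) U (fun z => |g z|) z := by
  obtain ⟨N, hN⟩ := hg.2.1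
  have hms := measurable_slice hU hg.1 z
  have i1 : Integrable (fun t => K1 v ε a t * g (pt U t z)) :=
    (ker_K1 (by linarith) hv1 hε ha).integrable_mul hms fun t => hN _
  have i2 : Integrable (fun t => kerE η (2 * a) S t * g (pt U t z)) :=
    (ker_kerE hη ha (S := S)).integrable_mul hms fun t => hN _
  have i3 : Integrable (fun t => Dbar a ε t * |g (pt U t z)|) :=
    (ker_Dbar ha hε hεa).integrable_mul hms.abs (N := N) fun t => by rw [abs_abs]; exact hN _
  rw [tk_eq, tk_eq]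
  have e1 : ∫ t, K1 v ε a t * g (pt U t z) = (∫ t, kerE η (2 * a) S t * g (pt U t z)) +
      ∫ t, (K1 v ε a t * g (pt U t z) - kerE η (2 * a) S t * g (pt U t z)) := by
    rw [integral_sub i1 i2]; ring
  rw [e1]
  refine (abs_add_le _ _).trans ?_
  gcongr
  refine abs_integral_le_integral_abs.trans ?_
  refine integral_mono_of_nonneg (Filter.Eventually.of_forall fun t => abs_nonneg _) i3
    (Filter.Eventually.of_forall fun t => ?_)
  show |K1 v ε a t * g (pt U t z) - kerE η (2 * a) S t * g (pt U t z)| ≤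
    Dbar a ε t * |g (pt U t z)|
  rw [← sub_mul, abs_mul]
  exact mul_le_mul_of_nonneg_right (diff_le hη ha hε hv hv1 hεa hS1 hS2 t) (abs_nonneg _)

theorem exists_S {a ε : ℝ} (hε : 0 < ε) (hεa : ε < a) :
    ∃ S : ℕ, a < 2 ^ S * ε ∧ 2 ^ S * ε ≤ 2 * a := by
  have h1 : 1 ≤ a / ε := by rw [le_div_iff₀ hε]; linarith
  obtain ⟨n, hn1, hn2⟩ := exists_nat_pow_near h1 (show (1 : ℝ) < 2 by norm_num)
  refine ⟨n + 1, ?_, ?_⟩
  · rwa [div_lt_iff₀ hε] at hn2
  · rw [le_div_iff₀ hε] at hn1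
    rw [pow_succ]
    linarith

/-- SHELL S12 -/
theorem s12 : Sh1x283.S12 := by
  intro hM
  obtain ⟨η, hη⟩ := exists_eta
  obtain ⟨lam, hl0, hl1, C, hC, hMod⟩ := hM η hη
  refine ⟨lam / 2, by positivity, by linarith, 2 * C + 4096, by positivity, ?_⟩
  intro v₁ v₂ hv hL hv1 hv2 f hf hfb ε hε hεa
  have ha : 0 < lam / 2 := by positivity
  have ha' : lam / 2 < 1 / 20 := by linarith
  have hlam : lam = 2 * (lam / 2) := by ring
  generalize lam / 2 = a at *
  subst hlam
  obtain ⟨U, hUF, hUb, hUs⟩ := exists_field hv hL hv1 hv2 ha ha'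
  obtain ⟨S, hS1, hS2⟩ := exists_S hε hεa
  set g : ℝ × ℝ → ℝ := fun z => f z * theta a z with hg
  have hgN : Nice g := nice_g ha hf hfb
  have hgC : Continuous g := hf.mul (theta_cont a)
  set A : ℝ × ℝ → ℝ := tk (kerE η (2 * a) S) U g with hA
  set B : ℝ × ℝ → ℝ := tk (Dbar a ε) U (fun z => |g z|) with hB
  have hAN : Nice A := nice_tk (ker_kerE hη ha) hUF.1 ⟨_, hUb⟩ hgN
  have hBN : Nice B := nice_tk (ker_Dbar ha hε hεa) hUF.1 ⟨_, hUb⟩ (nice_abs hgN)
  have hA2 : ∫ z, (A z) ^ 2 ≤ C * ∫ z, (g z) ^ 2 := hMod U g hUF hgC hgN S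
  have hB2 : ∫ z, (B z) ^ 2 ≤ 2 * 32 ^ 2 * ∫ z, (g z) ^ 2 := by
    have h1 := l2_tk (ker_Dbar ha hε hεa) (c := 3) (by norm_num) (by linarith) hUF.1 hUF.2.2
      (nice_abs hgN)
    rw [int_Dbar ha hε] at h1
    simpa only [sq_abs] using h1
  have hIA := integrable_of_nice (nice_sq hAN)
  have hIB := integrable_of_nice (nice_sq hBN)
  have hI : Integrable (fun z => 2 * (A z) ^ 2 + 2 * (B z) ^ 2) :=
    (hIA.const_mul 2).add (hIB.const_mul 2)
  set s : Set (ℝ × ℝ) := {z : ℝ × ℝ | z.1 ^ 2 + z.2 ^ 2 < a ^ 2} with hs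
  have hsm : MeasurableSet s := (isOpen_lt (by fun_prop) continuous_const).measurableSet
  have hpt : ∀ z ∈ s, (∫ t in Set.Ioo (-a) (-ε) ∪ Set.Ioo ε a,
      f (z.1 - t * v₁ z, z.2 - t * v₂ z) / t) ^ 2 ≤ 2 * (A z) ^ 2 + 2 * (B z) ^ 2 := by
    intro z hz
    obtain ⟨p1, p2, p3⟩ := hUs z hz
    rw [subst_F ha ha' hε hz p1 p2 p3 (hUb z)]
    have h1 := F_le hη ha hε hεa hS1 hS2 p1 p2 hUF.1 hgN z
    have h2 : (∫ t, K1 (v₁ z) ε a t * g (pt U t z)) ^ 2 ≤ (|A z| + B z) ^ 2 := by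
      rw [← sq_abs]
      exact pow_le_pow_left₀ (abs_nonneg _) h1 2
    refine h2.trans ?_
    nlinarith [sq_nonneg (|A z| - B z), sq_abs (A z)]
  calc ∫ z in s, (∫ t in Set.Ioo (-a) (-ε) ∪ Set.Ioo ε a,
        f (z.1 - t * v₁ z, z.2 - t * v₂ z) / t) ^ 2
      ≤ ∫ z in s, (2 * (A z) ^ 2 + 2 * (B z) ^ 2) := by
        refine integral_mono_of_nonneg (Filter.Eventually.of_forall fun z => sq_nonneg _)
          hI.integrableOn ?_
        exact (ae_restrict_iff' hsm).2 (Filter.Eventually.of_forall hpt)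
    _ ≤ ∫ z, (2 * (A z) ^ 2 + 2 * (B z) ^ 2) :=
        setIntegral_le_integral hI (Filter.Eventually.of_forall fun z => by positivity)
    _ = 2 * (∫ z, (A z) ^ 2) + 2 * ∫ z, (B z) ^ 2 := by
        rw [integral_add (hIA.const_mul 2) (hIB.const_mul 2), integral_const_mul,
          integral_const_mul]
    _ ≤ (2 * C + 4096) * ∫ z, (g z) ^ 2 := by linarith
    _ ≤ (2 * C + 4096) * ∫ z in {z : ℝ × ℝ | z.1 ^ 2 + z.2 ^ 2 < (5 * a) ^ 2}, (f z) ^ 2 :=
        mul_le_mul_of_nonneg_left (int_g_le ha hf hfb) (by positivity)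

end Crest.Agent.R087.S12x575
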