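import Crest.Agent.R087.Sh1_283

/-!
Row 87 (S0115), outer shell leaf S13 (helper738): `LOCR → TGT`.
Rotate so that `v p = e₁`, apply the local estimate in coordinates around `p`, average over `p`.
-/

set_option autoImplicit false

noncomputable section

open MeasureTheory Crest.Agent.R087.Sh0x283 Crest.Agent.R087.Sh1x283
open scoped RealInnerProductSpace ENNReal

namespace Crest.Agent.R087.S13x738

/-- the Euclidean plane -/
abbrev E2 := EuclideanSpace ℝ (Fin 2)

/-- orthonormal coordinates centred at `p` -/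
def th (b : OrthonormalBasis (Fin 2) ℝ E2) (p : E2) (z : ℝ × ℝ) : E2 := p + (z.1 • b 0 + z.2 • b 1)

theorem th_mp (b : OrthonormalBasis (Fin 2) ℝ E2) (p : E2) :
    MeasurePreserving (th b p) (volume : Measure (ℝ × ℝ)) (volume : Measure E2) := by
  have h1 : MeasurePreserving (MeasurableEquiv.finTwoArrow (α := ℝ)).symm
      (volume : Measure (ℝ × ℝ)) (volume : Measure (Fin 2 → ℝ)) :=
    (volume_preserving_finTwoArrow ℝ).symm _
  have h2 : MeasurePreserving (@WithLp.toLp 2 (Fin 2 → ℝ)) (volume : Measure (Fin 2 → ℝ))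
      (volume : Measure E2) := PiLp.volume_preserving_toLp (Fin 2)
  have h3 : MeasurePreserving b.repr.symm (volume : Measure E2) (volume : Measure E2) :=
    b.repr.symm.measurePreserving
  have h4 : MeasurePreserving (fun x : E2 => p + x) (volume : Measure E2) (volume : Measure E2) :=
    measurePreserving_add_left volume p
  have h := h4.comp (h3.comp (h2.comp h1))
  have he : th b p = (fun x : E2 => p + x) ∘ b.repr.symm ∘ (@WithLp.toLp 2 (Fin 2 → ℝ)) ∘
      (MeasurableEquiv.finTwoArrow (α := ℝ)).symm := by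
    funext z
    simp only [Function.comp, th]
    congr 1
    rw [← OrthonormalBasis.sum_repr_symm]
    simp [Fin.sum_univ_two, MeasurableEquiv.finTwoArrow]
  rw [he]
  exact h

theorem th_sub_norm (b : OrthonormalBasis (Fin 2) ℝ E2) (p : E2) (z w : ℝ × ℝ) :
    ‖th b p z - th b p w‖ ^ 2 = (z.1 - w.1) ^ 2 + (z.2 - w.2) ^ 2 := by
  have h : th b p z - th b p w = (z.1 - w.1) • b 0 + (z.2 - w.2) • b 1 := by
    simp only [th]; module
  rw [h]
  have := b.orthonormal
  have h0 : ‖b 0‖ = 1 := this.1 0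
  have h1 : ‖b 1‖ = 1 := this.1 1
  have h01 : ⟪b 0, b 1⟫ = 0 := this.2 (by decide)
  rw [norm_add_sq_real, norm_smul, norm_smul, h0, h1, inner_smul_left, inner_smul_right, h01]
  simp


/-- truncated Hilbert transform along `v`, for real functions on the plane -/
def HT (a ε : ℝ) (v : E2 → E2) (g : E2 → ℝ) (x : E2) : ℝ :=
  ∫ t in Set.Ioo (-a) (-ε) ∪ Set.Ioo ε a, g (x - t • v x) / t

theorem mS (a ε : ℝ) : MeasurableSet (Set.Ioo (-a) (-ε) ∪ Set.Ioo ε a) :=
  measurableSet_Ioo.union measurableSet_Ioo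

theorem HT_meas (a ε : ℝ) (v : E2 → E2) (hv : Continuous v) (g : E2 → ℝ) (hg : Continuous g) :
    StronglyMeasurable (HT a ε v g) := by
  unfold HT
  have h : StronglyMeasurable (fun q : E2 × ℝ => g (q.1 - q.2 • v q.1) / q.2) := by
    apply Measurable.stronglyMeasurable
    apply Measurable.div
    · apply Continuous.measurable
      fun_prop
    · exact measurable_snd
  exact h.integral_prod_right'

theorem HT_bd (a ε : ℝ) (hε : 0 < ε) (hεa : ε < a) (v : E2 → E2) (g : E2 → ℝ)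
    (M : ℝ) (hM : ∀ x, |g x| ≤ M) (x : E2) : |HT a ε v g x| ≤ M / ε * (2 * a) := by
  unfold HT
  have hM0 : 0 ≤ M := (abs_nonneg _).trans (hM x)
  have hvol : volume.real (Set.Ioo (-a) (-ε) ∪ Set.Ioo ε a) ≤ 2 * a := by
    refine (measureReal_union_le _ _).trans ?_
    rw [Real.volume_real_Ioo_of_le (by linarith), Real.volume_real_Ioo_of_le (by linarith)]
    linarith
  have hfin : volume (Set.Ioo (-a) (-ε) ∪ Set.Ioo ε a) < ⊤ :=
    measure_union_lt_top measure_Ioo_lt_top measure_Ioo_lt_top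
  have h := norm_setIntegral_le_of_norm_le_const (μ := volume) (f := fun t : ℝ => g (x - t • v x) / t)
    (C := M / ε) hfin ?_
  · rw [Real.norm_eq_abs] at h
    refine h.trans ?_
    gcongr
  · intro t ht
    rw [Real.norm_eq_abs, abs_div]
    have h1 : ε ≤ |t| := by
      rcases ht with ht | ht
      · rw [abs_of_neg (by linarith [ht.1, ht.2])]; linarith [ht.2]
      · exact ht.1.le.trans (le_abs_self t)
    exact div_le_div₀ hM0 (hM _) hε h1

/-- `∫_B F² ` as a lower integral, for bounded measurable `F` on a set of finite measure -/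
theorem ofReal_int_sq {α : Type*} [MeasurableSpace α] (μ : Measure α) (s : Set α) (hs : μ s < ⊤)
    (F : α → ℝ) (hF : StronglyMeasurable F) (M : ℝ) (hM : ∀ x, |F x| ≤ M) :
    ENNReal.ofReal (∫ x in s, (F x) ^ 2 ∂μ) = ∫⁻ x in s, ENNReal.ofReal ((F x) ^ 2) ∂μ := by
  apply ofReal_integral_eq_lintegral_ofReal
  · refine IntegrableOn.of_bound hs ?_ (M ^ 2) ?_
    · exact (hF.pow 2).aestronglyMeasurable
    · refine Filter.Eventually.of_forall fun x => ?_
      rw [Real.norm_eq_abs, abs_pow]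
      exact pow_le_pow_left₀ (abs_nonneg _) (hM x) 2
  · exact Filter.Eventually.of_forall fun x => sq_nonneg _

theorem th_ball (b : OrthonormalBasis (Fin 2) ℝ E2) (p : E2) (r : ℝ) (hr : 0 < r) :
    {z : ℝ × ℝ | z.1 ^ 2 + z.2 ^ 2 < r ^ 2} = th b p ⁻¹' Metric.ball p r := by
  ext z
  have h := th_sub_norm b p z (0, 0)
  have h0 : th b p (0, 0) = p := by simp [th]
  rw [h0] at h
  simp only [Set.mem_ofPred_eq, Set.mem_preimage, Metric.mem_ball, dist_eq_norm]
  rw [← pow_lt_pow_iff_left₀ (norm_nonneg _) hr.le (two_ne_zero), h]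
  simp

/-- the body of `LOCR` -/
def LocB (a C : ℝ) : Prop := ∀ v₁ v₂ : ℝ × ℝ → ℝ,
    (∀ z, v₁ z ^ 2 + v₂ z ^ 2 = 1) →
    (∀ z z', (v₁ z - v₁ z') ^ 2 + (v₂ z - v₂ z') ^ 2 ≤ (z.1 - z'.1) ^ 2 + (z.2 - z'.2) ^ 2) →
    v₁ (0, 0) = 1 → v₂ (0, 0) = 0 →
    ∀ f : ℝ × ℝ → ℝ, Continuous f → (∃ M : ℝ, ∀ z, |f z| ≤ M) → ∀ ε : ℝ, 0 < ε → ε < a →
    ∫ z in {z : ℝ × ℝ | z.1 ^ 2 + z.2 ^ 2 < a ^ 2},
        (∫ t in Set.Ioo (-a) (-ε) ∪ Set.Ioo ε a, f (z.1 - t * v₁ z, z.2 - t * v₂ z) / t) ^ 2 ≤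
      C * ∫ z in {z : ℝ × ℝ | z.1 ^ 2 + z.2 ^ 2 < (5 * a) ^ 2}, (f z) ^ 2

theorem exists_basis (e : E2) (he : ‖e‖ = 1) : ∃ b : OrthonormalBasis (Fin 2) ℝ E2, b 0 = e := by
  have hv : Orthonormal ℝ (Set.domRestrict ({0} : Set (Fin 2)) (fun _ : Fin 2 => e)) := by
    constructor
    · intro i; exact he
    · intro i j hij
      exact absurd (Subtype.ext ((Set.mem_singleton_iff.1 i.2).trans (Set.mem_singleton_iff.1 j.2).symm)) hij
  obtain ⟨b, hb⟩ := hv.exists_orthonormalBasis_extension_of_card_eq (by simp)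
  exact ⟨b, hb 0 rfl⟩

theorem local_lint (a C : ℝ) (ha : 0 < a) (hC : 0 ≤ C) (hloc : LocB a C) (v : E2 → E2)
    (hv : ∀ x, ‖v x‖ = 1) (hL : LipschitzWith 1 v) (g : E2 → ℝ) (hg : Continuous g) (M : ℝ)
    (hM : ∀ x, |g x| ≤ M) (p : E2) (ε : ℝ) (hε : 0 < ε) (hεa : ε < a) :
    ∫⁻ x in Metric.ball p a, ENNReal.ofReal ((HT a ε v g x) ^ 2) ≤
      ENNReal.ofReal C * ∫⁻ x in Metric.ball p (5 * a), ENNReal.ofReal ((g x) ^ 2) := by
  obtain ⟨b, hb⟩ := exists_basis (v p) (hv p)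
  have hmp := th_mp b p
  have hthc : Continuous (th b p) := by unfold th; fun_prop
  -- coordinates of the field
  set v₁ : ℝ × ℝ → ℝ := fun z => ⟪b 0, v (th b p z)⟫ with hv₁
  set v₂ : ℝ × ℝ → ℝ := fun z => ⟪b 1, v (th b p z)⟫ with hv₂
  have hexp : ∀ x : E2, x = ⟪b 0, x⟫ • b 0 + ⟪b 1, x⟫ • b 1 := by
    intro x
    have := b.sum_repr' x
    rw [Fin.sum_univ_two] at this
    exact this.symm
  have hnorm : ∀ x : E2, ⟪b 0, x⟫ ^ 2 + ⟪b 1, x⟫ ^ 2 = ‖x‖ ^ 2 := by
    intro x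
    have := b.sum_sq_norm_inner_right x
    rw [Fin.sum_univ_two] at this
    simpa using this
  have hth0 : th b p (0, 0) = p := by simp [th]
  have h1 : ∀ z, v₁ z ^ 2 + v₂ z ^ 2 = 1 := by
    intro z
    rw [hv₁, hv₂]
    simp only
    rw [hnorm, hv]; norm_num
  have h2 : ∀ z z', (v₁ z - v₁ z') ^ 2 + (v₂ z - v₂ z') ^ 2 ≤ (z.1 - z'.1) ^ 2 + (z.2 - z'.2) ^ 2 := by
    intro z z'
    have e1 : v₁ z - v₁ z' = ⟪b 0, v (th b p z) - v (th b p z')⟫ := by
      rw [inner_sub_right]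
    have e2 : v₂ z - v₂ z' = ⟪b 1, v (th b p z) - v (th b p z')⟫ := by
      rw [inner_sub_right]
    rw [e1, e2, hnorm, ← th_sub_norm b p z z']
    have := hL.dist_le_mul (th b p z) (th b p z')
    rw [dist_eq_norm, dist_eq_norm] at this
    apply pow_le_pow_left₀ (norm_nonneg _)
    simpa using this
  have h3 : v₁ (0, 0) = 1 := by
    rw [hv₁]; simp only [hth0, ← hb]
    rw [real_inner_self_eq_norm_sq, b.orthonormal.1 0]; norm_num
  have h4 : v₂ (0, 0) = 0 := by
    rw [hv₂]; simp only [hth0, ← hb]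
    exact b.orthonormal.2 (by decide)
  have key : ∀ z : ℝ × ℝ, ∀ t : ℝ, th b p (z.1 - t * v₁ z, z.2 - t * v₂ z) =
      th b p z - t • v (th b p z) := by
    intro z t
    have hx := hexp (v (th b p z))
    have : t • v (th b p z) = (t * v₁ z) • b 0 + (t * v₂ z) • b 1 := by
      conv_lhs => rw [hx]
      rw [smul_add, smul_smul, smul_smul]
    rw [this]
    simp only [th]
    module
  have hfc : Continuous (fun z => g (th b p z)) := hg.comp hthc
  have hmain := hloc v₁ v₂ h1 h2 h3 h4 (fun z => g (th b p z)) hfc ⟨M, fun z => hM _⟩ ε hε hεa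
  have hHT : ∀ z : ℝ × ℝ, (∫ t in Set.Ioo (-a) (-ε) ∪ Set.Ioo ε a,
      (fun z => g (th b p z)) (z.1 - t * v₁ z, z.2 - t * v₂ z) / t) = HT a ε v g (th b p z) := by
    intro z
    unfold HT
    congr 1
    funext t
    simp only
    rw [key z t]
  simp only [] at hHT hmain
  simp_rw [hHT] at hmain
  have hHm := HT_meas a ε v hL.continuous g hg
  have hHb := HT_bd a ε hε hεa v g M hM
  rw [th_ball b p a ha, th_ball b p (5 * a) (by positivity)] at hmain
  have hfin : ∀ r : ℝ, volume (th b p ⁻¹' Metric.ball p r) < ⊤ := by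
    intro r
    rw [hmp.measure_preimage measurableSet_ball.nullMeasurableSet]
    exact measure_ball_lt_top
  have hmain2 := ENNReal.ofReal_le_ofReal hmain
  rw [ENNReal.ofReal_mul hC] at hmain2
  rw [ofReal_int_sq volume _ (hfin a) (fun z => HT a ε v g (th b p z))
      (hHm.comp_measurable hthc.measurable) _ (fun z => hHb _),
    ofReal_int_sq volume _ (hfin (5 * a)) (fun z => g (th b p z))
      hfc.stronglyMeasurable M (fun z => hM _)] at hmain2
  have t1 := hmp.setLIntegral_comp_preimage (s := Metric.ball p a) measurableSet_ball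
    (f := fun x => ENNReal.ofReal ((HT a ε v g x) ^ 2))
    (ENNReal.measurable_ofReal.comp (hHm.measurable.pow_const 2))
  have t2 := hmp.setLIntegral_comp_preimage (s := Metric.ball p (5 * a)) measurableSet_ball
    (f := fun x => ENNReal.ofReal ((g x) ^ 2))
    (ENNReal.measurable_ofReal.comp (hg.measurable.pow_const 2))
  rw [t1, t2] at hmain2
  exact hmain2

/-- complex truncated Hilbert transform -/
def HTc (a ε : ℝ) (v : E2 → E2) (f : E2 → ℂ) (x : E2) : ℂ :=
  ∫ t in Set.Ioo (-a) (-ε) ∪ Set.Ioo ε a, f (x - t • v x) / (t : ℂ)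

theorem HTc_meas (a ε : ℝ) (v : E2 → E2) (hv : Continuous v) (f : E2 → ℂ) (hf : Continuous f) :
    StronglyMeasurable (HTc a ε v f) := by
  unfold HTc
  have h : StronglyMeasurable (fun q : E2 × ℝ => f (q.1 - q.2 • v q.1) / (q.2 : ℂ)) := by
    apply Measurable.stronglyMeasurable
    apply Measurable.div
    · apply Continuous.measurable
      fun_prop
    · exact Complex.measurable_ofReal.comp measurable_snd
  exact h.integral_prod_right'

theorem HTc_int (a ε : ℝ) (hε : 0 < ε) (v : E2 → E2) (f : E2 → ℂ) (hf : Continuous f)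
    (M : ℝ) (hM : ∀ x, ‖f x‖ ≤ M) (x : E2) :
    IntegrableOn (fun t : ℝ => f (x - t • v x) / (t : ℂ)) (Set.Ioo (-a) (-ε) ∪ Set.Ioo ε a) := by
  have hM0 : 0 ≤ M := (norm_nonneg _).trans (hM x)
  have hfin : volume (Set.Ioo (-a) (-ε) ∪ Set.Ioo ε a) < ⊤ :=
    measure_union_lt_top measure_Ioo_lt_top measure_Ioo_lt_top
  refine IntegrableOn.of_bound hfin ?_ (M / ε) ?_
  · apply Measurable.aestronglyMeasurable
    apply Measurable.div
    · apply Continuous.measurable
      fun_prop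
    · exact Complex.measurable_ofReal
  · refine (ae_restrict_iff' (mS a ε)).2 (Filter.Eventually.of_forall fun t ht => ?_)
    rw [norm_div, Complex.norm_real, Real.norm_eq_abs]
    have h1 : ε ≤ |t| := by
      rcases ht with ht | ht
      · refine le_trans ?_ (neg_le_abs t); linarith [ht.2]
      · exact ht.1.le.trans (le_abs_self t)
    exact div_le_div₀ hM0 (hM _) hε h1

theorem HTc_re (a ε : ℝ) (hε : 0 < ε) (v : E2 → E2) (f : E2 → ℂ) (hf : Continuous f)
    (M : ℝ) (hM : ∀ x, ‖f x‖ ≤ M) (x : E2) :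
    (HTc a ε v f x).re = HT a ε v (fun x => (f x).re) x := by
  unfold HTc HT
  have h := Complex.reCLM.integral_comp_comm (HTc_int a ε hε v f hf M hM x)
  simp only [Complex.reCLM_apply] at h
  rw [← h]
  congr 1
  funext t
  rw [Complex.div_ofReal_re]

theorem HTc_im (a ε : ℝ) (hε : 0 < ε) (v : E2 → E2) (f : E2 → ℂ) (hf : Continuous f)
    (M : ℝ) (hM : ∀ x, ‖f x‖ ≤ M) (x : E2) :
    (HTc a ε v f x).im = HT a ε v (fun x => (f x).im) x := by
  unfold HTc HT
  have h := Complex.imCLM.integral_comp_comm (HTc_int a ε hε v f hf M hM x)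
  simp only [Complex.imCLM_apply] at h
  rw [← h]
  congr 1
  funext t
  rw [Complex.div_ofReal_im]

theorem enorm_sq_eq (w : ℂ) : ‖w‖ₑ ^ 2 = ENNReal.ofReal (w.re ^ 2) + ENNReal.ofReal (w.im ^ 2) := by
  rw [← ENNReal.ofReal_add (sq_nonneg _) (sq_nonneg _), ← ofReal_norm,
    ← ENNReal.ofReal_pow (norm_nonneg _), Complex.sq_norm, Complex.normSq_apply]
  congr 1; ring

theorem local_c (a C : ℝ) (ha : 0 < a) (hC : 0 ≤ C) (hloc : LocB a C) (v : E2 → E2)
    (hv : ∀ x, ‖v x‖ = 1) (hL : LipschitzWith 1 v) (f : E2 → ℂ) (hf : Continuous f) (M : ℝ)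
    (hM : ∀ x, ‖f x‖ ≤ M) (p : E2) (ε : ℝ) (hε : 0 < ε) (hεa : ε < a) :
    ∫⁻ x in Metric.ball p a, ‖HTc a ε v f x‖ₑ ^ 2 ≤
      ENNReal.ofReal C * ∫⁻ x in Metric.ball p (5 * a), ‖f x‖ₑ ^ 2 := by
  have hr := local_lint a C ha hC hloc v hv hL (fun x => (f x).re) (Complex.continuous_re.comp hf) M
    (fun x => (Complex.abs_re_le_norm _).trans (hM x)) p ε hε hεa
  have hi := local_lint a C ha hC hloc v hv hL (fun x => (f x).im) (Complex.continuous_im.comp hf) M
    (fun x => (Complex.abs_im_le_norm _).trans (hM x)) p ε hε hεa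
  have e1 : ∀ x, ‖HTc a ε v f x‖ₑ ^ 2 = ENNReal.ofReal ((HT a ε v (fun x => (f x).re) x) ^ 2) +
      ENNReal.ofReal ((HT a ε v (fun x => (f x).im) x) ^ 2) := by
    intro x
    rw [enorm_sq_eq, HTc_re a ε hε v f hf M hM, HTc_im a ε hε v f hf M hM]
  have e2 : ∀ x, ‖f x‖ₑ ^ 2 = ENNReal.ofReal ((f x).re ^ 2) + ENNReal.ofReal ((f x).im ^ 2) :=
    fun x => enorm_sq_eq _
  simp_rw [e1, e2]
  rw [lintegral_add_left, lintegral_add_left, mul_add]
  · exact add_le_add hr hi
  · exact ENNReal.measurable_ofReal.comp ((Complex.continuous_re.comp hf).measurable.pow_const 2)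
  · exact ENNReal.measurable_ofReal.comp
      ((HT_meas a ε v hL.continuous _ (Complex.continuous_re.comp hf)).measurable.pow_const 2)

/-- averaging over the centre -/
theorem avg (G : E2 → ℝ≥0∞) (hG : Measurable G) (r : ℝ) :
    ∫⁻ p, ∫⁻ x in Metric.ball p r, G x = volume (Metric.ball (0 : E2) r) * ∫⁻ x, G x := by
  have h1 : ∀ p : E2, ∫⁻ x in Metric.ball p r, G x =
      ∫⁻ x, (Set.indicator {q : E2 × E2 | dist q.2 q.1 < r} (fun q => G q.2)) (p, x) := by
    intro p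
    rw [← lintegral_indicator measurableSet_ball]
    rfl
  simp_rw [h1]
  have hm : MeasurableSet {q : E2 × E2 | dist q.2 q.1 < r} :=
    (isOpen_lt (by fun_prop) continuous_const).measurableSet
  rw [lintegral_lintegral_swap]
  · have h2 : ∀ x : E2, ∫⁻ p, (Set.indicator {q : E2 × E2 | dist q.2 q.1 < r} (fun q => G q.2)) (p, x) =
        volume (Metric.ball (0 : E2) r) * G x := by
      intro x
      have : ∀ p : E2, (Set.indicator {q : E2 × E2 | dist q.2 q.1 < r} (fun q => G q.2)) (p, x) =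
          (Metric.ball x r).indicator (fun _ => G x) p := by
        intro p
        simp only [Set.indicator, Metric.mem_ball, Set.mem_ofPred_eq, dist_comm]
      simp_rw [this]
      rw [lintegral_indicator measurableSet_ball, setLIntegral_const,
        Measure.addHaar_ball_center, mul_comm]
    simp_rw [h2]
    rw [lintegral_const_mul _ hG]
  · exact ((hG.comp measurable_snd).indicator hm).aemeasurable

theorem vol5 (a : ℝ) :
    volume (Metric.ball (0 : E2) (5 * a)) = 25 * volume (Metric.ball (0 : E2) a) := by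
  rw [EuclideanSpace.volume_ball_fin_two, EuclideanSpace.volume_ball_fin_two,
    ENNReal.ofReal_mul (by norm_num), mul_pow]
  rw [show ENNReal.ofReal 5 = 5 by norm_num]
  ring

theorem glob (a C : ℝ) (ha : 0 < a) (hC : 0 ≤ C) (hloc : LocB a C) (v : E2 → E2)
    (hv : ∀ x, ‖v x‖ = 1) (hL : LipschitzWith 1 v) (f : E2 → ℂ) (hf : Continuous f) (M : ℝ)
    (hM : ∀ x, ‖f x‖ ≤ M) (ε : ℝ) (hε : 0 < ε) (hεa : ε < a) :
    ∫⁻ x, ‖HTc a ε v f x‖ₑ ^ 2 ≤ ENNReal.ofReal (25 * C) * ∫⁻ x, ‖f x‖ₑ ^ 2 := by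
  have hFm : Measurable (fun x => ‖HTc a ε v f x‖ₑ ^ 2) :=
    (HTc_meas a ε v hL.continuous f hf).enorm.pow_const 2
  have hfm : Measurable (fun x => ‖f x‖ₑ ^ 2) := hf.measurable.enorm.pow_const 2
  have h1 : ∫⁻ p, ∫⁻ x in Metric.ball p a, ‖HTc a ε v f x‖ₑ ^ 2 ≤
      ∫⁻ p, ENNReal.ofReal C * ∫⁻ x in Metric.ball p (5 * a), ‖f x‖ₑ ^ 2 :=
    lintegral_mono fun p => local_c a C ha hC hloc v hv hL f hf M hM p ε hε hεa
  rw [lintegral_const_mul', avg _ hFm, avg _ hfm, vol5 a] at h1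
  · have hv0 : volume (Metric.ball (0 : E2) a) ≠ 0 := (Metric.measure_ball_pos _ _ ha).ne'
    have hvt : volume (Metric.ball (0 : E2) a) ≠ ⊤ := measure_ball_lt_top.ne
    have h2 : volume (Metric.ball (0 : E2) a) * ∫⁻ x, ‖HTc a ε v f x‖ₑ ^ 2 ≤
        volume (Metric.ball (0 : E2) a) * (ENNReal.ofReal (25 * C) * ∫⁻ x, ‖f x‖ₑ ^ 2) := by
      refine h1.trans (le_of_eq ?_)
      rw [ENNReal.ofReal_mul (by norm_num), show ENNReal.ofReal 25 = 25 by norm_num]
      ring
    exact (ENNReal.mul_le_mul_iff_right hv0 hvt).1 h2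
  · exact ENNReal.ofReal_ne_top

theorem s13 : Sh1x283.S13 := by
  rintro ⟨a, ha, ha2, C, hC, hloc⟩
  refine ⟨a, ha, ha2, Real.sqrt (25 * C), ?_⟩
  intro v hv hL f ε hε hεa
  obtain ⟨M, hM⟩ : ∃ M : ℝ, ∀ x, ‖f x‖ ≤ M := ⟨_, fun x => f.norm_le_seminorm ℝ x⟩
  have h := glob a C ha hC hloc v hv hL f f.continuous M hM ε hε hεa
  change eLpNorm (HTc a ε v f) 2 volume ≤ _
  have e1 := eLpNorm_nnreal_pow_eq_lintegral (f := HTc a ε v f) (μ := volume) (p := 2) two_ne_zero
  have e2 := eLpNorm_nnreal_pow_eq_lintegral (f := ⇑f) (μ := volume) (p := 2) two_ne_zero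
  simp only [NNReal.coe_ofNat, ENNReal.coe_ofNat, ENNReal.rpow_ofNat] at e1 e2
  rw [← e1, ← e2] at h
  have hs : ENNReal.ofReal (25 * C) = ENNReal.ofReal (Real.sqrt (25 * C)) ^ 2 := by
    rw [← ENNReal.ofReal_pow (Real.sqrt_nonneg _), Real.sq_sqrt (by positivity)]
  rw [hs, ← mul_pow] at h
  exact (ENNReal.pow_le_pow_left_iff two_ne_zero).1 h
end Crest.Agent.R087.S13x738
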