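import Crest.Agent.R087.SqB_90

/-!
Row 87, shell leaf S2b: `SQT1` from the dyadic Carleson embedding `DCE` (helper90).
-/

set_option autoImplicit false

noncomputable section

open MeasureTheory Crest.Agent.R087.Sh0x283 Crest.Agent.R087.Sh1x283 Crest.Agent.R087.SqIx90
  Crest.Agent.R087.SqBx90

namespace Crest.Agent.R087.SQT1x90

/-! ### generic tools -/

theorem nice_integrable {Φ : ℝ × ℝ → ℝ} (h : Nice Φ) : Integrable Φ (volume.prod volume) := by
  obtain ⟨hm, ⟨M, hM⟩, R, hR⟩ := h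
  have h1 : IntegrableOn Φ (Set.Icc (-R) R ×ˢ Set.Icc (-R) R) (volume.prod volume) := by
    refine Measure.integrableOn_of_bounded (M := M) ?_ hm.aestronglyMeasurable ?_
    · rw [Measure.prod_prod]
      exact (ENNReal.mul_lt_top (by simp) (by simp)).ne
    · exact Filter.Eventually.of_forall fun y => by simpa using hM y
  refine (integrableOn_iff_integrable_of_support_subset ?_).1 h1
  intro z hz
  by_contra hc
  refine hz (hR z ?_)
  rw [Set.mem_prod, Set.mem_Icc, Set.mem_Icc, ← abs_le, ← abs_le] at hc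
  by_contra h'
  rw [not_lt] at h'
  exact hc ⟨(norm_fst_le z).trans h', (norm_snd_le z).trans h'⟩

theorem cs {f g : ℝ → ℝ} (hf : Integrable (fun r => f r ^ 2)) (hg : Integrable (fun r => g r ^ 2))
    (hfg : Integrable (fun r => f r * g r)) :
    (∫ r, f r * g r) ^ 2 ≤ (∫ r, f r ^ 2) * ∫ r, g r ^ 2 := by
  have h : ∀ t : ℝ, 0 ≤ (∫ r, f r ^ 2) * (t * t) + (2 * ∫ r, f r * g r) * t + ∫ r, g r ^ 2 := by
    intro t
    have : ∫ r, (t * f r + g r) ^ 2 =
        (∫ r, f r ^ 2) * (t * t) + (2 * ∫ r, f r * g r) * t + ∫ r, g r ^ 2 := by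
      rw [← integral_const_mul, ← integral_mul_const, ← integral_mul_const, ← integral_add,
        ← integral_add]
      · congr 1; funext r; ring
      · exact (hf.mul_const _).add ((hfg.const_mul 2).mul_const _)
      · exact hg
      · exact hf.mul_const _
      · exact (hfg.const_mul 2).mul_const _
    rw [← this]
    exact integral_nonneg fun r => sq_nonneg _
  have := discrim_le_zero h
  unfold discrim at this
  nlinarith

/-- indicator of `[-ρ, ρ]`. -/
def box (ρ : ℝ) : ℝ → ℝ := Set.indicator (Set.Icc (-ρ) ρ) (fun _ => (1 : ℝ))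

theorem box_meas (ρ : ℝ) : Measurable (box ρ) := measurable_const.indicator measurableSet_Icc

theorem box_one {ρ t : ℝ} (h : |t| ≤ ρ) : box ρ t = 1 := by
  unfold box; rw [Set.indicator_of_mem]; exact abs_le.1 h

theorem box_zero {ρ t : ℝ} (h : ρ < |t|) : box ρ t = 0 := by
  unfold box; rw [Set.indicator_of_notMem]
  rw [Set.mem_Icc, ← abs_le]; exact not_le.2 h

theorem box_cases (ρ t : ℝ) : box ρ t = 0 ∨ box ρ t = 1 := by
  rcases le_or_gt (|t|) ρ with h | h
  · exact Or.inr (box_one h)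
  · exact Or.inl (box_zero h)

theorem box_nonneg (ρ t : ℝ) : 0 ≤ box ρ t := by rcases box_cases ρ t with h | h <;> rw [h]; norm_num

theorem box_abs_le (ρ t : ℝ) : |box ρ t| ≤ 1 := by rcases box_cases ρ t with h | h <;> rw [h] <;> norm_num

theorem box_sq (ρ t : ℝ) : box ρ t ^ 2 = box ρ t := by rcases box_cases ρ t with h | h <;> rw [h] <;> norm_num

theorem box_integral {ρ : ℝ} (hρ : 0 ≤ ρ) : ∫ t, box ρ t = 2 * ρ := by
  unfold box
  rw [integral_indicator measurableSet_Icc, setIntegral_const, smul_eq_mul, mul_one,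
    Real.volume_real_Icc_of_le (by linarith)]
  ring

theorem box_nice (ρ : ℝ) : Nice1 (box ρ) :=
  ⟨box_meas ρ, ⟨1, box_abs_le ρ⟩, ρ, fun _ h => box_zero h⟩

/-- shifted nice function -/
theorem nice_shift {h : ℝ → ℝ} (hh : Nice1 h) (c : ℝ) : Nice1 (fun r => h (r - c)) := by
  obtain ⟨hm, ⟨M, hM⟩, R, hR⟩ := hh
  refine ⟨hm.comp (measurable_id.sub_const c), ⟨M, fun y => hM _⟩, R + |c|, fun y hy => hR _ ?_⟩
  have : |y| ≤ |y - c| + |c| := by simpa using abs_add_le (y - c) c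
  linarith

/-- square integral of a local kernel slice -/
theorem slice_sq {u : ℝ → ℝ} {B ρ y : ℝ} (hρ : 0 ≤ ρ) (hb : ∀ r, |u r| ≤ B)
    (hs : ∀ r, ρ < |y - r| → u r = 0) : ∫ r, u r ^ 2 ≤ B ^ 2 * (2 * ρ) := by
  have h1 : ∫ r, B ^ 2 * box ρ (r - y) = B ^ 2 * (2 * ρ) := by
    rw [integral_const_mul, integral_sub_right_eq_self (fun r => box ρ r) y, box_integral hρ]
  rw [← h1]
  refine integral_mono_of_nonneg (Filter.Eventually.of_forall fun r => sq_nonneg _)
    ((n1_integrable (nice_shift (box_nice ρ) y)).const_mul _) (Filter.Eventually.of_forall fun r => ?_)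
  simp only
  rcases le_or_gt (|y - r|) ρ with h | h
  · rw [box_one (by rwa [abs_sub_comm]), mul_one]
    exact sq_le_sq' (by linarith [(abs_le.1 (hb r)).1]) (abs_le.1 (hb r)).2
  · rw [hs r h, zero_pow two_ne_zero]
    exact mul_nonneg (sq_nonneg _) (box_nonneg ρ (r - y))

theorem slice_nice {u : ℝ → ℝ} {B ρ y : ℝ} (hm : Measurable u) (hb : ∀ r, |u r| ≤ B)
    (hs : ∀ r, ρ < |y - r| → u r = 0) : Nice1 u := by
  refine ⟨hm, ⟨B, hb⟩, |y| + ρ, fun r hr => hs r ?_⟩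
  have : |r| ≤ |y - r| + |y| := by
    have := abs_add_le (r - y) y
    rw [sub_add_cancel, abs_sub_comm] at this
    exact this
  linarith

/-- Schur test for a local kernel. -/
theorem loc {L : ℝ → ℝ → ℝ} {a c : ℝ} {k : ℤ} (hc : 0 ≤ c)
    (hm : Measurable (Function.uncurry L)) (hb : ∀ y r, |L y r| ≤ a * ((2 : ℝ) ^ k)⁻¹)
    (hs : ∀ y r, c * (2 : ℝ) ^ k < |y - r| → L y r = 0) {h : ℝ → ℝ} (hh : Nice1 h) :
    ∫ y, (∫ r, L y r * h r) ^ 2 ≤ 4 * c ^ 2 * a ^ 2 * ∫ r, h r ^ 2 := by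
  have hk := zp k
  set ρ : ℝ := c * (2 : ℝ) ^ k with hρdef
  have hρ : 0 ≤ ρ := by positivity
  -- pointwise bound
  have hpt : ∀ y, (∫ r, L y r * h r) ^ 2 ≤
      ((a * ((2 : ℝ) ^ k)⁻¹) ^ 2 * (2 * ρ)) * ∫ r, box ρ (y - r) * h r ^ 2 := by
    intro y
    have hLm : Measurable (L y) := hm.of_uncurry_left
    have hLn : Nice1 (L y) := slice_nice hLm (hb y) (hs y)
    have hBn : Nice1 (fun r => box ρ (y - r) * h r) :=
      n1_bdd_mul ((box_meas ρ).comp (measurable_const.sub measurable_id)) ⟨1, fun r => box_abs_le ρ _⟩ hh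
    have e1 : ∫ r, L y r * h r = ∫ r, L y r * (box ρ (y - r) * h r) := by
      congr 1; funext r
      rcases le_or_gt (|y - r|) ρ with h' | h'
      · rw [box_one h', one_mul]
      · rw [hs y r h']; ring
    rw [e1]
    refine (cs (n1_integrable (n1_sq hLn)) (n1_integrable (n1_sq hBn)) (n1_integrable (n1_mul hLn hBn))).trans ?_
    have e2 : ∫ r, (box ρ (y - r) * h r) ^ 2 = ∫ r, box ρ (y - r) * h r ^ 2 := by
      congr 1; funext r; rw [mul_pow, box_sq]
    rw [e2]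
    refine mul_le_mul_of_nonneg_right (slice_sq hρ (hb y) (hs y)) (integral_nonneg fun r => ?_)
    exact mul_nonneg (box_nonneg _ _) (sq_nonneg _)
  -- Fubini
  have hN : Nice (fun z : ℝ × ℝ => box ρ (z.1 - z.2) * h z.2 ^ 2) := by
    obtain ⟨hm', ⟨M, hM⟩, R, hR⟩ := hh
    refine ⟨?_, ⟨1 * M ^ 2, fun z => ?_⟩, ρ + |R|, fun z hz => ?_⟩
    · exact ((box_meas ρ).comp (measurable_fst.sub measurable_snd)).mul ((hm'.comp measurable_snd).pow_const 2)
    · rw [abs_mul, abs_pow]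
      exact mul_le_mul (box_abs_le _ _) (pow_le_pow_left₀ (abs_nonneg _) (hM _) 2) (by positivity) (by norm_num)
    · rcases le_or_gt (|z.2|) R with h2 | h2
      · have : ρ < |z.1 - z.2| := by
          have h3 : |z.1| ≤ |z.1 - z.2| + |z.2| := by simpa using abs_add_le (z.1 - z.2) z.2
          have h4 : R ≤ |R| := le_abs_self R
          rw [Prod.norm_def, Real.norm_eq_abs, Real.norm_eq_abs, lt_max_iff] at hz
          rcases hz with hz | hz <;> linarith
        simp only [box_zero this, zero_mul]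
      · simp only [hR _ h2]; ring
  have hI := nice_integrable hN
  have hsw : ∫ y, ∫ r, box ρ (y - r) * h r ^ 2 = (2 * ρ) * ∫ r, h r ^ 2 := by
    rw [integral_integral_swap (f := fun y r => box ρ (y - r) * h r ^ 2) hI]
    rw [← integral_const_mul]
    congr 1; funext r
    rw [integral_mul_const, integral_sub_right_eq_self (fun y => box ρ y) r, box_integral hρ]
  have hIy : Integrable (fun y => ∫ r, box ρ (y - r) * h r ^ 2) := hI.integral_prod_left
  calc ∫ y, (∫ r, L y r * h r) ^ 2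
      ≤ ∫ y, ((a * ((2 : ℝ) ^ k)⁻¹) ^ 2 * (2 * ρ)) * ∫ r, box ρ (y - r) * h r ^ 2 :=
        integral_mono_of_nonneg (Filter.Eventually.of_forall fun r => sq_nonneg _)
          (hIy.const_mul _) (Filter.Eventually.of_forall hpt)
    _ = 4 * c ^ 2 * a ^ 2 * ∫ r, h r ^ 2 := by
        rw [integral_const_mul, hsw, hρdef]
        field_simp
        ring

/-- hypotheses on one kernel. -/
structure Ker (A : ℝ) (k : ℤ) (K : ℝ → ℝ → ℝ) : Prop where
  meas : Measurable (Function.uncurry K)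
  size : ∀ y r, |K y r| ≤ A * ((2 : ℝ) ^ k)⁻¹
  supp : ∀ y r, 2 * (2 : ℝ) ^ k < |y - r| → K y r = 0
  lip : ∀ y r r', |K y r - K y r'| ≤ A * ((2 : ℝ) ^ k)⁻¹ * ((2 : ℝ) ^ k)⁻¹ * |r - r'|

/-- the operator -/
def op (K : ℝ → ℝ → ℝ) (h : ℝ → ℝ) (y : ℝ) : ℝ := ∫ r, K y r * h r

/-- `K 1` -/
def bb (K : ℝ → ℝ → ℝ) (y : ℝ) : ℝ := ∫ r, K y r

/-- the part killing constants -/
def SS (K : ℝ → ℝ → ℝ) (k : ℤ) (h : ℝ → ℝ) (y : ℝ) : ℝ := op K h y - bb K y * EE k h y

theorem Ker.slice {A : ℝ} {k : ℤ} {K : ℝ → ℝ → ℝ} (hK : Ker A k K) (y : ℝ) : Nice1 (K y) :=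
  slice_nice hK.meas.of_uncurry_left (hK.size y) (hK.supp y)

theorem abs_slice {u : ℝ → ℝ} {B ρ y : ℝ} (hρ : 0 ≤ ρ) (hb : ∀ r, |u r| ≤ B)
    (hs : ∀ r, ρ < |y - r| → u r = 0) : ∫ r, |u r| ≤ B * (2 * ρ) := by
  have h1 : ∫ r, B * box ρ (r - y) = B * (2 * ρ) := by
    rw [integral_const_mul, integral_sub_right_eq_self (fun r => box ρ r) y, box_integral hρ]
  rw [← h1]
  refine integral_mono_of_nonneg (Filter.Eventually.of_forall fun r => abs_nonneg _)
    ((n1_integrable (nice_shift (box_nice ρ) y)).const_mul _) (Filter.Eventually.of_forall fun r => ?_)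
  simp only
  rcases le_or_gt (|y - r|) ρ with h | h
  · rw [box_one (by rwa [abs_sub_comm]), mul_one]
    exact hb r
  · rw [hs r h, abs_zero]
    exact mul_nonneg ((abs_nonneg _).trans (hb r)) (box_nonneg _ _)

theorem bb_bound {A : ℝ} {k : ℤ} {K : ℝ → ℝ → ℝ} (hK : Ker A k K) (y : ℝ) : |bb K y| ≤ 4 * A := by
  have hk := zp k
  unfold bb
  refine (abs_integral_le_integral_abs).trans ?_
  refine (abs_slice (B := A * ((2 : ℝ) ^ k)⁻¹) (ρ := 2 * (2 : ℝ) ^ k) (y := y) (by positivity)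
    (hK.size y) (hK.supp y)).trans (le_of_eq ?_)
  field_simp
  ring

theorem bb_meas {A : ℝ} {k : ℤ} {K : ℝ → ℝ → ℝ} (hK : Ker A k K) : Measurable (bb K) :=
  (hK.meas.stronglyMeasurable.integral_prod_right (ν := volume)).measurable

theorem op_nice {A : ℝ} {k : ℤ} {K : ℝ → ℝ → ℝ} (hK : Ker A k K) {h : ℝ → ℝ} (hh : Nice1 h) :
    Nice1 (op K h) := by
  have hh' := hh
  obtain ⟨hm, ⟨M, hM⟩, R, hR⟩ := hh
  have hk := zp k
  refine ⟨?_, ⟨(A * ((2 : ℝ) ^ k)⁻¹ * M) * (2 * (2 * (2 : ℝ) ^ k)), fun y => ?_⟩, R + 2 * (2 : ℝ) ^ k,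
    fun y hy => ?_⟩
  · have : Measurable (Function.uncurry fun y r => K y r * h r) :=
      hK.meas.mul (hm.comp measurable_snd)
    exact (this.stronglyMeasurable.integral_prod_right (ν := volume)).measurable
  · unfold op
    refine (abs_integral_le_integral_abs).trans ?_
    refine abs_slice (y := y) (by positivity) (fun r => ?_) (fun r hr => ?_)
    · rw [abs_mul]
      exact mul_le_mul (hK.size y r) (hM r) (abs_nonneg _) ((abs_nonneg _).trans (hK.size y r))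
    · rw [hK.supp y r hr, zero_mul]
  · unfold op
    have : (fun r => K y r * h r) = fun _ => 0 := by
      funext r
      rcases le_or_gt (|r|) R with h2 | h2
      · rw [hK.supp y r, zero_mul]
        have h3 : |y| ≤ |y - r| + |r| := by simpa using abs_add_le (y - r) r
        linarith
      · rw [hR r h2, mul_zero]
    rw [this, integral_zero]

theorem SS_nice {A : ℝ} {k : ℤ} {K : ℝ → ℝ → ℝ} (hK : Ker A k K) {h : ℝ → ℝ} (hh : Nice1 h) :
    Nice1 (SS K k h) :=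
  n1_sub (op_nice hK hh) (n1_bdd_mul (bb_meas hK) ⟨4 * A, bb_bound hK⟩ (nice_EE hh k))

theorem SS_sub {A : ℝ} {k : ℤ} {K : ℝ → ℝ → ℝ} (hK : Ker A k K) {f g : ℝ → ℝ} (hf : Nice1 f)
    (hg : Nice1 g) (y : ℝ) : SS K k (fun r => f r - g r) y = SS K k f y - SS K k g y := by
  unfold SS op
  rw [EE_sub hf hg]
  have : ∫ r, K y r * (f r - g r) = (∫ r, K y r * f r) - ∫ r, K y r * g r := by
    rw [← integral_sub]
    · congr 1; funext r; ring
    · exact n1_integrable (n1_mul (hK.slice y) hf)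
    · exact n1_integrable (n1_mul (hK.slice y) hg)
  rw [this]; ring

/-- small scales: `h` with zero averages on intervals of length `2^i`, `i ≤ k`. -/
theorem low {A : ℝ} {k i : ℤ} {K : ℝ → ℝ → ℝ} (hA : 0 ≤ A) (hK : Ker A k K) (hik : i ≤ k) {h : ℝ → ℝ}
    (hh : Nice1 h) (h0 : ∀ y, EE i h y = 0) :
    ∫ y, op K h y ^ 2 ≤ 36 * A ^ 2 * ((2 : ℝ) ^ i * ((2 : ℝ) ^ k)⁻¹) ^ 2 * ∫ y, h y ^ 2 := by
  have hk := zp k
  have hi := zp i
  have hle : (2 : ℝ) ^ i ≤ (2 : ℝ) ^ k := zpow_le_zpow_right₀ (by norm_num) hik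
  let c : ℝ → ℝ := fun r => (fl i r : ℝ) * (2 : ℝ) ^ i
  have hc : Measurable c := ((measurable_of_countable (fun n : ℤ => (n : ℝ))).comp (measurable_fl i)).mul_const _
  have hcd : ∀ r, |r - c r| ≤ (2 : ℝ) ^ i := by
    intro r
    have h1 := mem_II_fl i r
    rw [abs_le]
    constructor
    · have := h1.1; simp only [c]; linarith
    · have := h1.2; simp only [c]; nlinarith
  have hop : ∀ y, op K h y = ∫ r, (K y r - K y (c r)) * h r := by
    intro y
    have hKm : Measurable (K y) := hK.meas.of_uncurry_left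
    have hl : Cst i (fun r => K y (c r)) := fun r r' hr => by simp only [c, hr]
    have e := integral_mul_EE' hl ⟨_, fun r => hK.size y (c r)⟩ hh
    have e0 : ∫ r, K y (c r) * EE i h r = 0 := by
      simp only [h0, mul_zero, integral_zero]
    rw [e0] at e
    have i1 : Integrable (fun r => K y r * h r) := n1_integrable (n1_mul (hK.slice y) hh)
    have i2 : Integrable (fun r => K y (c r) * h r) :=
      n1_integrable (n1_bdd_mul (hKm.comp hc) ⟨_, fun r => hK.size y (c r)⟩ hh)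
    unfold op
    rw [← sub_zero (∫ r, K y r * h r), ← e, ← integral_sub i1 i2]
    congr 1; funext r; ring
  simp only [hop]
  have hb : ∀ y r, |K y r - K y (c r)| ≤ (A * ((2 : ℝ) ^ i * ((2 : ℝ) ^ k)⁻¹)) * ((2 : ℝ) ^ k)⁻¹ := by
    intro y r
    refine (hK.lip y r (c r)).trans ?_
    calc A * ((2 : ℝ) ^ k)⁻¹ * ((2 : ℝ) ^ k)⁻¹ * |r - c r|
        ≤ A * ((2 : ℝ) ^ k)⁻¹ * ((2 : ℝ) ^ k)⁻¹ * (2 : ℝ) ^ i :=
          mul_le_mul_of_nonneg_left (hcd r) (by positivity)
      _ = _ := by ring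
  have hs : ∀ y r, 3 * (2 : ℝ) ^ k < |y - r| → K y r - K y (c r) = 0 := by
    intro y r hr
    have h1 : |y - r| ≤ |y - c r| + |r - c r| := by
      have := abs_add_le (y - c r) (c r - r)
      rw [abs_sub_comm (c r) r] at this
      simpa using this
    rw [hK.supp y r (by linarith), hK.supp y (c r) (by linarith [hcd r]), sub_zero]
  have hm : Measurable (Function.uncurry fun y r => K y r - K y (c r)) := by
    refine hK.meas.sub ?_
    exact hK.meas.comp (measurable_fst.prodMk (hc.comp measurable_snd))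
  have := loc (k := k) (by norm_num : (0 : ℝ) ≤ 3) hm hb hs hh
  refine this.trans (le_of_eq ?_)
  ring

/-! ### large scales -/

/-- `1` if `y` and `y + t` are in different intervals of length `2^i`. -/
def chi (i : ℤ) (t y : ℝ) : ℝ := if fl i (y + t) = fl i y then 0 else 1

theorem chi_meas (i : ℤ) (t : ℝ) : Measurable (chi i t) := by
  unfold chi
  refine Measurable.ite ?_ measurable_const measurable_const
  exact measurableSet_eq_fun ((measurable_fl i).comp (measurable_id.add_const t)) (measurable_fl i)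

theorem chi_cases (i : ℤ) (t y : ℝ) : chi i t y = 0 ∨ chi i t y = 1 := by
  unfold chi; split_ifs <;> simp

theorem chi_abs (i : ℤ) (t y : ℝ) : |chi i t y| ≤ 1 := by
  rcases chi_cases i t y with h | h <;> rw [h] <;> norm_num

theorem chi_nonneg (i : ℤ) (t y : ℝ) : 0 ≤ chi i t y := by
  rcases chi_cases i t y with h | h <;> rw [h]; norm_num

/-- average of `chi` -/
theorem chi_avg (i : ℤ) (t y₀ : ℝ) : EE i (chi i t) y₀ ≤ |t| * ((2 : ℝ) ^ i)⁻¹ := by
  have hi := zp i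
  unfold EE
  rw [mul_comm]
  refine mul_le_mul_of_nonneg_right ?_ (inv_nonneg.2 hi.le)
  set a : ℝ := (fl i y₀ : ℝ) * (2 : ℝ) ^ i with ha
  set b : ℝ := ((fl i y₀ : ℝ) + 1) * (2 : ℝ) ^ i with hb
  -- the exceptional set
  have key : ∃ p q : ℝ, p ≤ q ∧ q - p = |t| ∧ ∀ y ∈ Set.Ico a b, fl i (y + t) ≠ fl i y → y ∈ Set.Ico p q := by
    rcases le_or_gt 0 t with ht | ht
    · refine ⟨b - t, b, by linarith, by rw [abs_of_nonneg ht]; ring, ?_⟩
      intro y hy hne
      refine ⟨?_, hy.2⟩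
      by_contra hlt
      rw [not_le] at hlt
      have h1 : y + t ∈ II i (fl i y₀) := ⟨by linarith [hy.1], by linarith⟩
      have h2 : y ∈ II i (fl i y₀) := hy
      exact hne ((mem_II.1 h1).trans (mem_II.1 h2).symm)
    · refine ⟨a, a - t, by linarith, by rw [abs_of_neg ht]; ring, ?_⟩
      intro y hy hne
      refine ⟨hy.1, ?_⟩
      by_contra hlt
      rw [not_lt] at hlt
      have h1 : y + t ∈ II i (fl i y₀) := ⟨by linarith, by linarith [hy.2]⟩
      have h2 : y ∈ II i (fl i y₀) := hy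
      exact hne ((mem_II.1 h1).trans (mem_II.1 h2).symm)
  obtain ⟨p, q, hpq, hlen, hmem⟩ := key
  rw [← integral_indicator measurableSet_Ico]
  have h1 : ∫ y, Set.indicator (Set.Ico p q) (fun _ => (1 : ℝ)) y = |t| := by
    rw [integral_indicator measurableSet_Ico, setIntegral_const, smul_eq_mul, mul_one,
      Real.volume_real_Ico_of_le hpq, hlen]
  rw [← h1]
  refine integral_mono_of_nonneg (Filter.Eventually.of_forall fun y => ?_) ?_
    (Filter.Eventually.of_forall fun y => ?_)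
  · exact Set.indicator_nonneg (fun z _ => chi_nonneg i t z) y
  · exact (integrable_indicator_iff measurableSet_Ico).2 (by simp)
  · by_cases hy : y ∈ Set.Ico a b
    · rw [Set.indicator_of_mem hy]
      by_cases hne : fl i (y + t) = fl i y
      · have : chi i t y = 0 := by unfold chi; rw [if_pos hne]
        rw [this]
        exact Set.indicator_nonneg (fun z _ => zero_le_one) y
      · rw [Set.indicator_of_mem (hmem y hy hne)]
        exact (abs_le.1 (chi_abs i t y)).2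
    · rw [Set.indicator_of_notMem hy]
      exact Set.indicator_nonneg (fun z _ => zero_le_one) y

theorem cross {i : ℤ} {h : ℝ → ℝ} (hh : Nice1 h) (hc : Cst i h) (t : ℝ) :
    ∫ y, h y ^ 2 * chi i t y ≤ (|t| * ((2 : ℝ) ^ i)⁻¹) * ∫ y, h y ^ 2 := by
  have hb : ∃ M : ℝ, ∀ y, |chi i t y| ≤ M := ⟨1, chi_abs i t⟩
  have hbE : ∃ M : ℝ, ∀ y, |EE i (chi i t) y| ≤ M := ⟨1, EE_bound (chi_abs i t) i⟩
  have i1 : Integrable (fun y => h y ^ 2 * chi i t y) :=
    n1_integrable (n1_mul_bdd (n1_sq hh) (chi_meas i t) hb)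
  have i2 : Integrable (fun y => h y ^ 2 * EE i (chi i t) y) :=
    n1_integrable (n1_mul_bdd (n1_sq hh) (cst_EE i _).measurable hbE)
  rw [integral_mul_EE (hc.pow 2) i1 i2, ← integral_const_mul]
  refine integral_mono i2 ((n1_integrable (n1_sq hh)).const_mul _) fun y => ?_
  simp only
  rw [mul_comm (|t| * ((2 : ℝ) ^ i)⁻¹)]
  exact mul_le_mul_of_nonneg_left (chi_avg i t y) (sq_nonneg _)

/-- translation estimate for functions constant on dyadic intervals. -/
theorem trans_est {i : ℤ} {h : ℝ → ℝ} (hh : Nice1 h) (hc : Cst i h) (t : ℝ) :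
    ∫ y, (h (y + t) - h y) ^ 2 ≤ 4 * (|t| * ((2 : ℝ) ^ i)⁻¹) * ∫ y, h y ^ 2 := by
  have hs : Nice1 (fun y => h (y + t)) := by simpa using nice_shift hh (-t)
  have hb : ∃ M : ℝ, ∀ y, |chi i t y| ≤ M := ⟨1, chi_abs i t⟩
  have hb' : ∃ M : ℝ, ∀ y, |chi i (-t) y| ≤ M := ⟨1, chi_abs i (-t)⟩
  have j1 : Integrable (fun y => h (y + t) ^ 2 * chi i t y) :=
    n1_integrable (n1_mul_bdd (n1_sq hs) (chi_meas i t) hb)
  have j2 : Integrable (fun y => h y ^ 2 * chi i t y) :=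
    n1_integrable (n1_mul_bdd (n1_sq hh) (chi_meas i t) hb)
  have e1 : ∫ y, h (y + t) ^ 2 * chi i t y = ∫ y, h y ^ 2 * chi i (-t) y := by
    rw [← integral_add_right_eq_self (fun y => h y ^ 2 * chi i (-t) y) t]
    congr 1; funext y
    congr 1
    unfold chi
    simp only [add_neg_cancel_right, eq_comm]
  have hpt : ∀ y, (h (y + t) - h y) ^ 2 ≤ 2 * (h (y + t) ^ 2 * chi i t y) + 2 * (h y ^ 2 * chi i t y) := by
    intro y
    by_cases hne : fl i (y + t) = fl i y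
    · rw [hc _ _ hne, sub_self, zero_pow two_ne_zero]
      have := chi_nonneg i t y
      have h1 := mul_nonneg (sq_nonneg (h y)) this
      linarith
    · have : chi i t y = 1 := by unfold chi; rw [if_neg hne]
      rw [this]
      nlinarith [sq_nonneg (h (y + t) + h y)]
  calc ∫ y, (h (y + t) - h y) ^ 2
      ≤ ∫ y, (2 * (h (y + t) ^ 2 * chi i t y) + 2 * (h y ^ 2 * chi i t y)) :=
        integral_mono_of_nonneg (Filter.Eventually.of_forall fun r => sq_nonneg _)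
          ((j1.const_mul 2).add (j2.const_mul 2)) (Filter.Eventually.of_forall hpt)
    _ = 2 * (∫ y, h y ^ 2 * chi i (-t) y) + 2 * ∫ y, h y ^ 2 * chi i t y := by
        rw [integral_add (j1.const_mul 2) (j2.const_mul 2), integral_const_mul, integral_const_mul, e1]
    _ ≤ 2 * ((|(-t)| * ((2 : ℝ) ^ i)⁻¹) * ∫ y, h y ^ 2) + 2 * ((|t| * ((2 : ℝ) ^ i)⁻¹) * ∫ y, h y ^ 2) :=
        add_le_add (mul_le_mul_of_nonneg_left (cross hh hc (-t)) (by norm_num))
          (mul_le_mul_of_nonneg_left (cross hh hc t) (by norm_num))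
    _ = _ := by rw [abs_neg]; ring

/-- large scales: `h` constant on intervals of length `2^i`, `k ≤ i`. -/
theorem high {A : ℝ} {k i : ℤ} {K : ℝ → ℝ → ℝ} (hK : Ker A k K) (hik : k ≤ i) {h : ℝ → ℝ}
    (hh : Nice1 h) (hc : Cst i h) :
    ∫ y, SS K k h y ^ 2 ≤ 128 * A ^ 2 * ((2 : ℝ) ^ k * ((2 : ℝ) ^ i)⁻¹) * ∫ y, h y ^ 2 := by
  have hk := zp k
  have hi := zp i
  set ρ : ℝ := 2 * (2 : ℝ) ^ k with hρdef
  have hρ : 0 ≤ ρ := by positivity
  have hSS : ∀ y, SS K k h y = ∫ r, K y r * (box ρ (r - y) * (h r - h y)) := by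
    intro y
    unfold SS op bb
    rw [EE_of_cst (hc.mono hik)]
    rw [← integral_mul_const, ← integral_sub]
    · congr 1; funext r
      rcases le_or_gt (|y - r|) ρ with h' | h'
      · rw [box_one (by rwa [abs_sub_comm])]; ring
      · rw [hK.supp y r h']; ring
    · exact n1_integrable (n1_mul (hK.slice y) hh)
    · exact (n1_integrable (hK.slice y)).mul_const _
  have hpt : ∀ y, SS K k h y ^ 2 ≤ ((A * ((2 : ℝ) ^ k)⁻¹) ^ 2 * (2 * ρ)) *
      ∫ t, box ρ t * (h (y + t) - h y) ^ 2 := by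
    intro y
    have hBn : Nice1 (fun r => box ρ (r - y) * (h r - h y)) := by
      have hb1 : Measurable (fun r => h r - h y) := hh.1.sub_const _
      obtain ⟨M, hM⟩ := hh.2.1
      exact n1_mul_bdd (nice_shift (box_nice ρ) y) hb1
        ⟨M + M, fun r => (abs_sub _ _).trans (add_le_add (hM r) (hM y))⟩
    rw [hSS y]
    refine (cs (n1_integrable (n1_sq (hK.slice y))) (n1_integrable (n1_sq hBn))
      (n1_integrable (n1_mul (hK.slice y) hBn))).trans ?_
    have e2 : ∫ r, (box ρ (r - y) * (h r - h y)) ^ 2 = ∫ t, box ρ t * (h (y + t) - h y) ^ 2 := by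
      rw [← integral_sub_right_eq_self (fun t => box ρ t * (h (y + t) - h y) ^ 2) y]
      congr 1; funext r; rw [mul_pow, box_sq, add_sub_cancel]
    rw [e2]
    refine mul_le_mul_of_nonneg_right (slice_sq hρ (hK.size y) (hK.supp y)) (integral_nonneg fun r => ?_)
    exact mul_nonneg (box_nonneg _ _) (sq_nonneg _)
  have hN : Nice (fun z : ℝ × ℝ => box ρ z.2 * (h (z.1 + z.2) - h z.1) ^ 2) := by
    obtain ⟨hm', ⟨M, hM⟩, R, hR⟩ := hh
    refine ⟨?_, ⟨1 * (M + M) ^ 2, fun z => ?_⟩, ρ + |R|, fun z hz => ?_⟩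
    · exact ((box_meas ρ).comp measurable_snd).mul
        (((hm'.comp (measurable_fst.add measurable_snd)).sub (hm'.comp measurable_fst)).pow_const 2)
    · rw [abs_mul, abs_pow]
      exact mul_le_mul (box_abs_le _ _) (pow_le_pow_left₀ (abs_nonneg _)
        ((abs_sub _ _).trans (add_le_add (hM _) (hM _))) 2) (by positivity) (by norm_num)
    · rcases le_or_gt (|z.2|) ρ with h2 | h2
      · have h4 : R ≤ |R| := le_abs_self R
        have h5 : 0 ≤ |R| := abs_nonneg R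
        rw [Prod.norm_def, Real.norm_eq_abs, Real.norm_eq_abs, lt_max_iff] at hz
        have h6 : ρ + |R| < |z.1| := by
          rcases hz with hz | hz
          · exact hz
          · linarith
        have h7 : R < |z.1 + z.2| := by
          have : |z.1| ≤ |z.1 + z.2| + |z.2| := by
            have := abs_add_le (z.1 + z.2) (-z.2)
            rw [abs_neg] at this
            simpa using this
          linarith
        simp only [hR _ h7, hR z.1 (by linarith)]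
        ring
      · simp only [box_zero h2, zero_mul]
  have hI := nice_integrable hN
  have hsw : ∫ y, ∫ t, box ρ t * (h (y + t) - h y) ^ 2 ≤
      (4 * (ρ * ((2 : ℝ) ^ i)⁻¹) * (∫ y, h y ^ 2)) * (2 * ρ) := by
    rw [integral_integral_swap (f := fun y t => box ρ t * (h (y + t) - h y) ^ 2) hI]
    have hIt : Integrable (fun t => ∫ y, box ρ t * (h (y + t) - h y) ^ 2) := hI.integral_prod_right
    rw [← box_integral hρ, ← integral_const_mul]
    refine integral_mono hIt ((n1_integrable (box_nice ρ)).const_mul _) fun t => ?_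
    simp only
    rw [integral_const_mul, mul_comm]
    rcases le_or_gt (|t|) ρ with h' | h'
    · rw [box_one h', mul_one, mul_one]
      refine (trans_est hh hc t).trans ?_
      refine mul_le_mul_of_nonneg_right ?_ (integral_nonneg fun y => sq_nonneg _)
      refine mul_le_mul_of_nonneg_left ?_ (by norm_num)
      exact mul_le_mul_of_nonneg_right h' (inv_nonneg.2 hi.le)
    · rw [box_zero h', mul_zero, mul_zero]
  have hIy : Integrable (fun y => ∫ t, box ρ t * (h (y + t) - h y) ^ 2) := hI.integral_prod_left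
  calc ∫ y, SS K k h y ^ 2
      ≤ ∫ y, ((A * ((2 : ℝ) ^ k)⁻¹) ^ 2 * (2 * ρ)) * ∫ t, box ρ t * (h (y + t) - h y) ^ 2 :=
        integral_mono_of_nonneg (Filter.Eventually.of_forall fun r => sq_nonneg _)
          (hIy.const_mul _) (Filter.Eventually.of_forall hpt)
    _ ≤ ((A * ((2 : ℝ) ^ k)⁻¹) ^ 2 * (2 * ρ)) *
          ((4 * (ρ * ((2 : ℝ) ^ i)⁻¹) * (∫ y, h y ^ 2)) * (2 * ρ)) := by
        rw [integral_const_mul]
        exact mul_le_mul_of_nonneg_left hsw (by positivity)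
    _ = 128 * A ^ 2 * ((2 : ℝ) ^ k * ((2 : ℝ) ^ i)⁻¹) * ∫ y, h y ^ 2 := by
        rw [hρdef]
        field_simp
        ring

/-! ### truncated martingale -/

/-- `Q 0 = g`, `Q i = E_{i-1-N} g` for `1 ≤ i ≤ 2N+1`, `Q i = 0` afterwards. -/
def Q (N : ℕ) (g : ℝ → ℝ) (i : ℕ) : ℝ → ℝ :=
  if i = 0 then g else if i ≤ 2 * N + 1 then EE ((i : ℤ) - 1 - N) g else fun _ => 0

theorem Q_zero (N : ℕ) (g : ℝ → ℝ) : Q N g 0 = g := by simp [Q]

theorem Q_mid {N : ℕ} (g : ℝ → ℝ) {i : ℕ} (h1 : 1 ≤ i) (h2 : i ≤ 2 * N + 1) :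
    Q N g i = EE ((i : ℤ) - 1 - N) g := by
  unfold Q; rw [if_neg (by omega), if_pos h2]

theorem Q_top {N : ℕ} (g : ℝ → ℝ) {i : ℕ} (h2 : 2 * N + 1 < i) : Q N g i = fun _ => 0 := by
  unfold Q; rw [if_neg (by omega), if_neg (by omega)]

theorem Q_nice (N : ℕ) {g : ℝ → ℝ} (hg : Nice1 g) (i : ℕ) : Nice1 (Q N g i) := by
  unfold Q
  split_ifs
  · exact hg
  · exact nice_EE hg _
  · exact n1_zero

/-- martingale differences -/
def ev (N : ℕ) (g : ℝ → ℝ) (i : ℕ) : ℝ → ℝ := fun y => Q N g i y - Q N g (i + 1) y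

theorem ev_nice (N : ℕ) {g : ℝ → ℝ} (hg : Nice1 g) (i : ℕ) : Nice1 (ev N g i) :=
  n1_sub (Q_nice N hg i) (Q_nice N hg (i + 1))

theorem EE_Q {N : ℕ} {g : ℝ → ℝ} (hg : Nice1 g) {i : ℕ} {k : ℤ} (hi : i ≤ 2 * N + 1)
    (hk : (i : ℤ) - 1 - N ≤ k) : EE k (Q N g i) = EE k g := by
  rcases Nat.eq_zero_or_pos i with h0 | h0
  · subst h0; rw [Q_zero]
  · rw [Q_mid g h0 hi, EE_EE_of_le hk hg]

theorem EE_ev {N : ℕ} {g : ℝ → ℝ} (hg : Nice1 g) {i : ℕ} {k : ℤ} (hi : i ≤ 2 * N)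
    (hk : (i : ℤ) - N ≤ k) (y : ℝ) : EE k (ev N g i) y = 0 := by
  unfold ev
  rw [EE_sub (Q_nice N hg i) (Q_nice N hg (i + 1)), EE_Q hg (by omega) (by omega),
    EE_Q hg (by omega) (by push_cast; omega)]
  exact sub_self _

theorem cst_ev (N : ℕ) (g : ℝ → ℝ) {i : ℕ} (h1 : 1 ≤ i) : Cst ((i : ℤ) - 1 - N) (ev N g i) := by
  have hQ : ∀ l : ℕ, i ≤ l → Cst ((i : ℤ) - 1 - N) (Q N g l) := by
    intro l hl
    rcases Nat.lt_or_ge (2 * N + 1) l with h | h
    · rw [Q_top g h]; exact Cst.const 0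
    · rw [Q_mid g (by omega) h]
      exact (cst_EE _ g).mono (by omega)
  exact (hQ i le_rfl).sub (hQ (i + 1) (by omega))

theorem ev_energy {N : ℕ} {g : ℝ → ℝ} (hg : Nice1 g) {i : ℕ} (hi : i < 2 * N + 2) :
    ∫ y, ev N g i y ^ 2 = (∫ y, Q N g i y ^ 2) - ∫ y, Q N g (i + 1) y ^ 2 := by
  rcases Nat.lt_or_ge i (2 * N + 1) with h | h
  · have h1 : EE ((i : ℤ) - N) (Q N g i) = Q N g (i + 1) := by
      rw [EE_Q hg (by omega) (by omega), Q_mid g (by omega) (by omega)]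
      congr 1; push_cast; ring
    rw [pythag (Q_nice N hg i) ((i : ℤ) - N), h1]
    unfold ev
    ring
  · have h1 : Q N g (i + 1) = fun _ => 0 := Q_top g (by omega)
    unfold ev
    rw [h1]
    simp

theorem sum_ev_energy (N : ℕ) {g : ℝ → ℝ} (hg : Nice1 g) :
    ∑ i ∈ Finset.range (2 * N + 2), ∫ y, ev N g i y ^ 2 = ∫ y, g y ^ 2 := by
  rw [Finset.sum_congr rfl fun i hi => ev_energy hg (Finset.mem_range.1 hi),
    Finset.sum_range_sub' (fun i => ∫ y, Q N g i y ^ 2), Q_zero, Q_top g (by omega)]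
  simp

theorem SS_zero (K : ℝ → ℝ → ℝ) (k : ℤ) (y : ℝ) : SS K k (fun _ => 0) y = 0 := by
  unfold SS op EE
  simp

theorem SS_sum {A : ℝ} {k : ℤ} {K : ℝ → ℝ → ℝ} (hK : Ker A k K) (N : ℕ) {g : ℝ → ℝ} (hg : Nice1 g)
    (y : ℝ) : SS K k g y = ∑ i ∈ Finset.range (2 * N + 2), SS K k (ev N g i) y := by
  have h1 : ∀ i, SS K k (ev N g i) y = SS K k (Q N g i) y - SS K k (Q N g (i + 1)) y := fun i =>
    SS_sub hK (Q_nice N hg i) (Q_nice N hg (i + 1)) y
  simp only [h1]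
  rw [Finset.sum_range_sub' (fun i => SS K k (Q N g i) y), Q_zero, Q_top g (by omega), SS_zero,
    sub_zero]

theorem half_pow (m : ℤ) (hm : 0 ≤ m) : (1 / 2 : ℝ) ^ m.natAbs = (2 : ℝ) ^ (-m) := by
  obtain ⟨n, rfl⟩ := Int.eq_ofNat_of_zero_le hm
  rw [Int.natAbs_natCast, zpow_neg, zpow_natCast, one_div, inv_pow]

theorem half_pow' (m : ℤ) (hm : m ≤ 0) : (1 / 2 : ℝ) ^ m.natAbs = (2 : ℝ) ^ m := by
  have := half_pow (-m) (by omega)
  rwa [Int.natAbs_neg, neg_neg] at this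

theorem SS_ev {A : ℝ} {k : ℤ} {K : ℝ → ℝ → ℝ} (hA : 0 ≤ A) (hK : Ker A k K) {N : ℕ} {g : ℝ → ℝ}
    (hg : Nice1 g) (hk1 : -(N : ℤ) ≤ k) (hk2 : k ≤ N) (i : ℕ) :
    ∫ y, SS K k (ev N g i) y ^ 2 ≤
      144 * A ^ 2 * (1 / 2 : ℝ) ^ ((i : ℤ) - 1 - N - k).natAbs * ∫ y, ev N g i y ^ 2 := by
  have hn : 0 ≤ ∫ y, ev N g i y ^ 2 := integral_nonneg fun y => sq_nonneg _
  rcases le_or_gt ((i : ℤ) - N) k with h | h
  · have h0 : ∀ y, EE k (ev N g i) y = 0 := EE_ev hg (by omega) h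
    have h0' : ∀ y, EE ((i : ℤ) - N) (ev N g i) y = 0 := EE_ev hg (by omega) le_rfl
    have e : ∀ y, SS K k (ev N g i) y = op K (ev N g i) y := by
      intro y; unfold SS; rw [h0 y, mul_zero, sub_zero]
    simp only [e]
    refine (low hA hK h (ev_nice N hg i) h0').trans ?_
    refine mul_le_mul_of_nonneg_right ?_ hn
    rw [half_pow' _ (by omega)]
    set m : ℤ := (i : ℤ) - 1 - N - k with hm
    have e1 : (2 : ℝ) ^ ((i : ℤ) - N) * ((2 : ℝ) ^ k)⁻¹ = 2 * (2 : ℝ) ^ m := by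
      rw [← zpow_neg, ← zpow_add₀ two_ne_zero, ← zpow_one_add₀ two_ne_zero]
      congr 1; rw [hm]; ring
    rw [e1]
    have h2 : (2 : ℝ) ^ m ≤ 1 := zpow_le_one_of_nonpos₀ (by norm_num) (by omega)
    have h3 := zp m
    have h4 : (2 : ℝ) ^ m * (2 : ℝ) ^ m ≤ (2 : ℝ) ^ m := by nlinarith
    have hA2 : 0 ≤ A ^ 2 := sq_nonneg A
    nlinarith
  · have h5 : 1 ≤ i := by omega
    refine (high hK (by omega) (ev_nice N hg i) (cst_ev N g h5)).trans ?_
    refine mul_le_mul_of_nonneg_right ?_ hn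
    rw [half_pow _ (by omega)]
    have e1 : (2 : ℝ) ^ k * ((2 : ℝ) ^ ((i : ℤ) - 1 - N))⁻¹ = (2 : ℝ) ^ (-((i : ℤ) - 1 - N - k)) := by
      rw [← zpow_neg, ← zpow_add₀ two_ne_zero]
      congr 1; ring
    rw [e1]
    have h3 := zp (-((i : ℤ) - 1 - N - k))
    have hA2 : 0 ≤ A ^ 2 := sq_nonneg A
    have := mul_nonneg hA2 h3.le
    nlinarith

theorem geo_half {ι : Type*} (t : Finset ι) (f : ι → ℕ) (hf : Set.InjOn f t) {ρ : ℝ} (h0 : 0 ≤ ρ)
    (h1 : ρ < 1) : ∑ j ∈ t, ρ ^ (f j) ≤ (1 - ρ)⁻¹ := by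
  rw [← Finset.sum_image (f := fun n => ρ ^ n) (g := f) hf, ← tsum_geometric_of_lt_one h0 h1]
  exact Summable.sum_le_tsum _ (fun _ _ => by positivity) (summable_geometric_of_lt_one h0 h1)

theorem geo {ι : Type*} (s : Finset ι) (f : ι → ℤ) (hf : Function.Injective f) {ρ : ℝ} (h0 : 0 ≤ ρ)
    (h1 : ρ < 1) : ∑ j ∈ s, ρ ^ (f j).natAbs ≤ 2 * (1 - ρ)⁻¹ := by
  classical
  rw [← Finset.sum_filter_add_sum_filter_not s (fun j => 0 ≤ f j)]
  have a1 := geo_half (s.filter fun j => 0 ≤ f j) (fun j => (f j).natAbs) (by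
    intro a ha b hb hab
    simp only [Finset.coe_filter, Set.mem_setOf_eq] at ha hb hab
    exact hf (by omega)) h0 h1
  have a2 := geo_half (s.filter fun j => ¬ 0 ≤ f j) (fun j => (f j).natAbs) (by
    intro a ha b hb hab
    simp only [Finset.coe_filter, Set.mem_setOf_eq] at ha hb hab
    exact hf (by omega)) h0 h1
  linarith

theorem SS_total {A : ℝ} {k : ℤ} {K : ℝ → ℝ → ℝ} (hA : 0 ≤ A) (hK : Ker A k K) {N : ℕ} {g : ℝ → ℝ}
    (hg : Nice1 g) (hk1 : -(N : ℤ) ≤ k) (hk2 : k ≤ N) :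
    ∫ y, SS K k g y ^ 2 ≤ 1152 * A ^ 2 * ∑ i ∈ Finset.range (2 * N + 2),
      (2 / 3 : ℝ) ^ ((i : ℤ) - 1 - N - k).natAbs * ∫ y, ev N g i y ^ 2 := by
  set m : ℕ → ℕ := fun i => ((i : ℤ) - 1 - N - k).natAbs with hm
  have hu : ∀ i, Nice1 (SS K k (ev N g i)) := fun i => SS_nice hK (ev_nice N hg i)
  have hgeo : ∑ i ∈ Finset.range (2 * N + 2), (3 / 4 : ℝ) ^ m i ≤ 8 := by
    have := geo (Finset.range (2 * N + 2)) (fun i : ℕ => (i : ℤ) - 1 - N - k)
      (fun a b hab => by simp only at hab; omega) (by norm_num : (0 : ℝ) ≤ 3 / 4) (by norm_num)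
    refine this.trans (by norm_num)
  have hpt : ∀ y, SS K k g y ^ 2 ≤
      8 * ∑ i ∈ Finset.range (2 * N + 2), (4 / 3 : ℝ) ^ m i * SS K k (ev N g i) y ^ 2 := by
    intro y
    rw [SS_sum hK N hg y]
    have h := Finset.sum_sq_le_sum_mul_sum_of_sq_eq_mul (Finset.range (2 * N + 2))
      (r := fun i => SS K k (ev N g i) y) (f := fun i => (3 / 4 : ℝ) ^ m i)
      (g := fun i => (4 / 3 : ℝ) ^ m i * SS K k (ev N g i) y ^ 2)
      (fun i _ => by positivity) (fun i _ => by positivity) (fun i _ => by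
        rw [← mul_assoc, ← mul_pow]; norm_num)
    refine h.trans ?_
    exact mul_le_mul_of_nonneg_right hgeo (Finset.sum_nonneg fun i _ => by positivity)
  have hint : ∀ i ∈ Finset.range (2 * N + 2),
      Integrable (fun y => (4 / 3 : ℝ) ^ m i * SS K k (ev N g i) y ^ 2) := fun i _ =>
    (n1_integrable (n1_sq (hu i))).const_mul _
  calc ∫ y, SS K k g y ^ 2
      ≤ ∫ y, 8 * ∑ i ∈ Finset.range (2 * N + 2), (4 / 3 : ℝ) ^ m i * SS K k (ev N g i) y ^ 2 :=
        integral_mono_of_nonneg (Filter.Eventually.of_forall fun r => sq_nonneg _)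
          ((integrable_finset_sum _ hint).const_mul _) (Filter.Eventually.of_forall hpt)
    _ = 8 * ∑ i ∈ Finset.range (2 * N + 2), (4 / 3 : ℝ) ^ m i * ∫ y, SS K k (ev N g i) y ^ 2 := by
        rw [integral_const_mul, integral_finset_sum _ hint]
        simp only [integral_const_mul]
    _ ≤ 8 * ∑ i ∈ Finset.range (2 * N + 2), (4 / 3 : ℝ) ^ m i *
          (144 * A ^ 2 * (1 / 2 : ℝ) ^ m i * ∫ y, ev N g i y ^ 2) := by
        refine mul_le_mul_of_nonneg_left (Finset.sum_le_sum fun i _ => ?_) (by norm_num)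
        exact mul_le_mul_of_nonneg_left (SS_ev hA hK hg hk1 hk2 i) (by positivity)
    _ = 1152 * A ^ 2 * ∑ i ∈ Finset.range (2 * N + 2), (2 / 3 : ℝ) ^ m i * ∫ y, ev N g i y ^ 2 := by
        rw [Finset.mul_sum, Finset.mul_sum]
        refine Finset.sum_congr rfl fun i _ => ?_
        have : (2 / 3 : ℝ) ^ m i = (4 / 3 : ℝ) ^ m i * (1 / 2 : ℝ) ^ m i := by
          rw [← mul_pow]; norm_num
        rw [this]; ring

/-- square function bound for the part killing constants. -/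
theorem SS_square {A : ℝ} {Kk : ℤ → ℝ → ℝ → ℝ} {F : Finset ℤ} (hA : 0 ≤ A)
    (hK : ∀ k ∈ F, Ker A k (Kk k)) {g : ℝ → ℝ} (hg : Nice1 g) :
    ∑ k ∈ F, ∫ y, SS (Kk k) k g y ^ 2 ≤ 6912 * A ^ 2 * ∫ y, g y ^ 2 := by
  -- choose `N`
  obtain ⟨N, hN⟩ : ∃ N : ℕ, ∀ k ∈ F, -(N : ℤ) ≤ k ∧ k ≤ N := by
    refine ⟨∑ k ∈ F, k.natAbs, fun k hk => ?_⟩
    have : k.natAbs ≤ ∑ k ∈ F, k.natAbs :=
      Finset.single_le_sum (f := fun k : ℤ => k.natAbs) (fun _ _ => Nat.zero_le _) hk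
    omega
  calc ∑ k ∈ F, ∫ y, SS (Kk k) k g y ^ 2
      ≤ ∑ k ∈ F, 1152 * A ^ 2 * ∑ i ∈ Finset.range (2 * N + 2),
          (2 / 3 : ℝ) ^ ((i : ℤ) - 1 - N - k).natAbs * ∫ y, ev N g i y ^ 2 :=
        Finset.sum_le_sum fun k hk => SS_total hA (hK k hk) hg (hN k hk).1 (hN k hk).2
    _ = 1152 * A ^ 2 * ∑ i ∈ Finset.range (2 * N + 2),
          (∑ k ∈ F, (2 / 3 : ℝ) ^ ((i : ℤ) - 1 - N - k).natAbs) * ∫ y, ev N g i y ^ 2 := by
        rw [← Finset.mul_sum, Finset.sum_comm]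
        simp only [Finset.sum_mul]
    _ ≤ 1152 * A ^ 2 * ∑ i ∈ Finset.range (2 * N + 2), 6 * ∫ y, ev N g i y ^ 2 := by
        refine mul_le_mul_of_nonneg_left (Finset.sum_le_sum fun i _ => ?_) (by positivity)
        refine mul_le_mul_of_nonneg_right ?_ (integral_nonneg fun y => sq_nonneg _)
        have := geo F (fun k : ℤ => (i : ℤ) - 1 - N - k) (fun a b hab => by simp only at hab; omega)
          (by norm_num : (0 : ℝ) ≤ 2 / 3) (by norm_num)
        refine this.trans (by norm_num)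
    _ = 6912 * A ^ 2 * ∫ y, g y ^ 2 := by
        rw [← Finset.mul_sum, sum_ev_energy N hg]; ring

/-- S2b: the square function `T(1)` theorem from the dyadic Carleson embedding. -/
theorem sqt1_of_dce (hD : DCE) : SQT1 := by
  refine ⟨13832, by norm_num, ?_⟩
  intro A Kk F hA hm hsz hsp hlip hcar g hg
  have hK : ∀ k ∈ F, Ker A k (Kk k) := fun k hk => ⟨hm k hk, hsz k hk, hsp k hk, hlip k hk⟩
  have h1 := SS_square hA hK hg
  have h2 := hD A F (fun k => bb (Kk k)) hA (fun k hk => bb_meas (hK k hk))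
    (fun k hk => bb_bound (hK k hk)) hcar g hg
  have h3 : ∀ k ∈ F, ∫ y, (∫ r, Kk k y r * g r) ^ 2 ≤
      2 * (∫ y, SS (Kk k) k g y ^ 2) + 2 * ∫ y, (bb (Kk k) y * EE k g y) ^ 2 := by
    intro k hk
    have i1 := n1_integrable (n1_sq (SS_nice (hK k hk) hg))
    have i2 := n1_integrable (n1_sq (n1_bdd_mul (bb_meas (hK k hk)) ⟨4 * A, bb_bound (hK k hk)⟩
      (nice_EE hg k)))
    rw [← integral_const_mul, ← integral_const_mul, ← integral_add (i1.const_mul 2) (i2.const_mul 2)]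
    refine integral_mono_of_nonneg (Filter.Eventually.of_forall fun r => sq_nonneg _)
      ((i1.const_mul 2).add (i2.const_mul 2)) (Filter.Eventually.of_forall fun y => ?_)
    simp only
    have e : ∫ r, Kk k y r * g r = SS (Kk k) k g y + bb (Kk k) y * EE k g y := by
      unfold SS op; ring
    rw [e]
    nlinarith [sq_nonneg (SS (Kk k) k g y - bb (Kk k) y * EE k g y)]
  refine (Finset.sum_le_sum h3).trans ?_
  rw [Finset.sum_add_distrib, ← Finset.mul_sum, ← Finset.mul_sum]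
  linarith

end Crest.Agent.R087.SQT1x90
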