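import Crest.Agent.R087.E2leaf_542

/-!
# Row 87, leaf STOP (helper630)
-/

set_option autoImplicit false

noncomputable section

open MeasureTheory

namespace Crest.Agent.R087.STOPx630

open Crest.Agent.R087.E2x542

lemma two_pow_pos' (k : ℕ) : (0 : ℝ) < 2 ^ k := by positivity

lemma mem_dyI {k : ℕ} {j : ℤ} {t : ℝ} : t ∈ dyI k j ↔ dyx k t = j := by
  have hp : (0 : ℝ) < 2 ^ k := by positivity
  have e : ((1 : ℝ) / 2) ^ k = (2 ^ k)⁻¹ := by rw [one_div, inv_pow]
  rw [dyI, dyx, Int.floor_eq_iff, Set.mem_Ico, e, ← div_eq_mul_inv, ← div_eq_mul_inv,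
    div_le_iff₀ hp, lt_div_iff₀ hp]

/-- parent -/
lemma dyx_succ (k : ℕ) (t : ℝ) : dyx (k + 1) t = 2 * dyx k t ∨ dyx (k + 1) t = 2 * dyx k t + 1 := by
  have h1 : ((dyx k t : ℤ) : ℝ) ≤ t * 2 ^ k := Int.floor_le _
  have h2 : t * 2 ^ k < dyx k t + 1 := Int.lt_floor_add_one _
  have h3 : 2 * dyx k t ≤ dyx (k + 1) t := by
    rw [dyx, dyx, Int.le_floor]
    push_cast
    rw [pow_succ]
    have : ((⌊t * 2 ^ k⌋ : ℤ) : ℝ) ≤ t * 2 ^ k := Int.floor_le _
    linarith
  have h4 : dyx (k + 1) t < 2 * dyx k t + 2 := by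
    rw [dyx, Int.floor_lt]
    push_cast
    rw [pow_succ]
    linarith
  omega

lemma dyx_parent {k : ℕ} {t s : ℝ} (h : dyx (k + 1) t = dyx (k + 1) s) : dyx k t = dyx k s := by
  rcases dyx_succ k t with h1 | h1 <;> rcases dyx_succ k s with h2 | h2 <;> omega

lemma dyx_mono {m k : ℕ} (hmk : m ≤ k) {t s : ℝ} (h : dyx k t = dyx k s) : dyx m t = dyx m s := by
  induction k, hmk using Nat.le_induction with
  | base => exact h
  | succ k _ ih => exact ih (dyx_parent h)

/-- `f` is constant on the dyadic intervals of generation `k` -/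
def Ad (k : ℕ) (f : ℝ → ℝ) : Prop := ∀ t s, dyx k t = dyx k s → f t = f s

lemma Ad.mono {m k : ℕ} {f : ℝ → ℝ} (hf : Ad m f) (hmk : m ≤ k) : Ad k f :=
  fun _ _ h => hf _ _ (dyx_mono hmk h)

lemma sg_ad (k : ℕ) : Ad (k + 1) (sg k) := by
  intro t s h
  rw [sg, sg, h, dyx_parent h]

lemma dyI_split (k : ℕ) (j : ℤ) : dyI k j = dyI (k + 1) (2 * j) ∪ dyI (k + 1) (2 * j + 1) := by
  ext t
  simp only [Set.mem_union, mem_dyI]
  rcases dyx_succ k t with h | h <;> omega

lemma dyI_disj (k : ℕ) (j : ℤ) : Disjoint (dyI (k + 1) (2 * j)) (dyI (k + 1) (2 * j + 1)) := by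
  rw [Set.disjoint_left]
  intro t h1 h2
  rw [mem_dyI] at h1 h2
  omega

lemma measurableSet_dyI (k : ℕ) (j : ℤ) : MeasurableSet (dyI k j) := measurableSet_Ico

lemma volume_dyI (k : ℕ) (j : ℤ) : volume (dyI k j) = ENNReal.ofReal ((1 / 2) ^ k) := by
  rw [dyI, Real.volume_Ico]; congr 1; ring

lemma volume_real_dyI (k : ℕ) (j : ℤ) : volume.real (dyI k j) = (1 / 2) ^ k := by
  rw [measureReal_def, volume_dyI, ENNReal.toReal_ofReal (by positivity)]

lemma intOn {f : ℝ → ℝ} (n : ℕ) : ∀ (k0 : ℕ) (j0 : ℤ), Ad (k0 + n) f →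
    IntegrableOn f (dyI k0 j0) := by
  induction n with
  | zero =>
    intro k0 j0 hf
    have hne : (j0 : ℝ) * (1 / 2) ^ k0 ∈ dyI k0 j0 := by
      rw [dyI, Set.mem_Ico]
      have : (0 : ℝ) < (1 / 2) ^ k0 := by positivity
      constructor
      · exact le_refl _
      · nlinarith
    have hc : Set.EqOn (fun _ => f ((j0 : ℝ) * (1 / 2) ^ k0)) f (dyI k0 j0) := by
      intro t ht
      exact hf _ _ (by rw [Nat.add_zero, mem_dyI.1 ht, mem_dyI.1 hne])
    have hi : IntegrableOn (fun _ : ℝ => f ((j0 : ℝ) * (1 / 2) ^ k0)) (dyI k0 j0) :=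
      integrableOn_const (by rw [volume_dyI]; exact ENNReal.ofReal_ne_top)
    exact hi.congr_fun hc (measurableSet_dyI _ _)
  | succ n ih =>
    intro k0 j0 hf
    rw [dyI_split]
    have hf' : Ad (k0 + 1 + n) f := by
      have : k0 + 1 + n = k0 + (n + 1) := by ring
      rwa [this]
    exact (ih _ _ hf').union (ih _ _ hf')

lemma int_le {f : ℝ → ℝ} {k0 k : ℕ} (hk : k0 ≤ k) (j0 : ℤ) (hf : Ad k f) :
    IntegrableOn f (dyI k0 j0) := by
  obtain ⟨n, rfl⟩ := Nat.exists_eq_add_of_le hk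
  exact intOn n k0 j0 hf

/-- Haar cancellation -/
lemma haar {f : ℝ → ℝ} (n : ℕ) : ∀ (k0 : ℕ) (j0 : ℤ), Ad (k0 + n) f →
    ∫ t in dyI k0 j0, f t * sg (k0 + n) t = 0 := by
  induction n with
  | zero =>
    intro k0 j0 hf
    have hne : (j0 : ℝ) * (1 / 2) ^ k0 ∈ dyI k0 j0 := by
      rw [dyI, Set.mem_Ico]
      have : (0 : ℝ) < (1 / 2) ^ k0 := by positivity
      constructor
      · exact le_refl _
      · nlinarith
    have hint : IntegrableOn (fun t => f t * sg (k0 + 0) t) (dyI k0 j0) := by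
      refine int_le (Nat.le_succ k0) j0 ?_
      intro t s h
      simp only [Nat.add_zero]
      rw [sg_ad k0 t s h, hf t s (by simpa using dyx_parent h)]
    rw [dyI_split] at hint ⊢
    rw [setIntegral_union (dyI_disj _ _) (measurableSet_dyI _ _)
      (hint.mono_set Set.subset_union_left) (hint.mono_set Set.subset_union_right)]
    have h1 : ∫ t in dyI (k0 + 1) (2 * j0), f t * sg (k0 + 0) t =
        ∫ _t in dyI (k0 + 1) (2 * j0), f ((j0 : ℝ) * (1 / 2) ^ k0) := by
      refine setIntegral_congr_fun (measurableSet_dyI _ _) ?_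
      intro t ht
      have h2 : dyx (k0 + 1) t = 2 * j0 := mem_dyI.1 ht
      have h3 : dyx k0 t = j0 := by
        rcases dyx_succ k0 t with h | h <;> omega
      simp only [Nat.add_zero]
      rw [sg, if_pos (by rw [h2, h3]), mul_one]
      exact hf _ _ (by rw [Nat.add_zero, h3, mem_dyI.1 hne])
    have h2 : ∫ t in dyI (k0 + 1) (2 * j0 + 1), f t * sg (k0 + 0) t =
        ∫ _t in dyI (k0 + 1) (2 * j0 + 1), -f ((j0 : ℝ) * (1 / 2) ^ k0) := by
      refine setIntegral_congr_fun (measurableSet_dyI _ _) ?_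
      intro t ht
      have h2 : dyx (k0 + 1) t = 2 * j0 + 1 := mem_dyI.1 ht
      have h3 : dyx k0 t = j0 := by
        rcases dyx_succ k0 t with h | h <;> omega
      simp only [Nat.add_zero]
      rw [sg, if_neg (by rw [h2, h3]; omega), mul_neg_one]
      have h4 : f t = f ((j0 : ℝ) * (1 / 2) ^ k0) :=
        hf _ _ (by rw [Nat.add_zero, h3, mem_dyI.1 hne])
      rw [h4]
    rw [h1, h2, setIntegral_const, setIntegral_const, volume_real_dyI, volume_real_dyI]
    simp
  | succ n ih =>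
    intro k0 j0 hf
    have e : k0 + 1 + n = k0 + (n + 1) := by ring
    have hint : IntegrableOn (fun t => f t * sg (k0 + (n + 1)) t) (dyI k0 j0) := by
      refine int_le (k := k0 + (n + 1) + 1) (by omega) j0 ?_
      intro t s h
      simp only
      rw [sg_ad _ t s h, hf t s (dyx_parent h)]
    rw [dyI_split] at hint ⊢
    rw [setIntegral_union (dyI_disj _ _) (measurableSet_dyI _ _)
      (hint.mono_set Set.subset_union_left) (hint.mono_set Set.subset_union_right)]
    have h1 := ih (k0 + 1) (2 * j0) (by rwa [e])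
    have h2 := ih (k0 + 1) (2 * j0 + 1) (by rwa [e])
    rw [e] at h1 h2
    rw [h1, h2, add_zero]

lemma haar' {f : ℝ → ℝ} {k0 k : ℕ} (hk : k0 ≤ k) (j0 : ℤ) (hf : Ad k f) :
    ∫ t in dyI k0 j0, f t * sg k t = 0 := by
  obtain ⟨n, rfl⟩ := Nat.exists_eq_add_of_le hk
  exact haar n k0 j0 hf

lemma sg_sq (k : ℕ) (t : ℝ) : sg k t ^ 2 = 1 := by
  rw [sg]; split_ifs <;> norm_num

/-- orthogonality of the martingale differences -/
lemma energy {k0 : ℕ} (j0 : ℤ) (d : ℕ → ℝ → ℝ) (hd : ∀ k, k0 ≤ k → Ad k (d k)) :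
    ∀ K, k0 ≤ K → Ad K (fun t => ∑ k ∈ Finset.Ico k0 K, sg k t * d k t) ∧
      ∫ t in dyI k0 j0, (∑ k ∈ Finset.Ico k0 K, sg k t * d k t) ^ 2 =
        ∫ t in dyI k0 j0, ∑ k ∈ Finset.Ico k0 K, d k t ^ 2 := by
  intro K hK
  induction K, hK using Nat.le_induction with
  | base => simp [Ad]
  | succ K hK ih =>
    obtain ⟨ih1, ih2⟩ := ih
    set S : ℝ → ℝ := fun t => ∑ k ∈ Finset.Ico k0 K, sg k t * d k t with hSdef
    have eS : ∀ t, ∑ k ∈ Finset.Ico k0 (K + 1), sg k t * d k t = S t + sg K t * d K t :=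
      fun t => Finset.sum_Ico_succ_top hK _
    constructor
    · intro t s h
      show ∑ k ∈ Finset.Ico k0 (K + 1), sg k t * d k t =
        ∑ k ∈ Finset.Ico k0 (K + 1), sg k s * d k s
      rw [eS, eS, sg_ad K t s h, hd K hK t s (dyx_parent h), ih1 t s (dyx_parent h)]
    · have hS : Ad K (fun t => ∑ k ∈ Finset.Ico k0 K, d k t ^ 2) := by
        intro t s h
        refine Finset.sum_congr rfl fun k hk => ?_
        rw [Finset.mem_Ico] at hk
        rw [hd k hk.1 t s (dyx_mono (by omega) h)]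
      have e1 : ∀ t, (∑ k ∈ Finset.Ico k0 (K + 1), sg k t * d k t) ^ 2 =
          S t ^ 2 + (2 * S t * d K t) * sg K t + d K t ^ 2 := by
        intro t
        rw [eS]
        have := sg_sq K t
        linear_combination (d K t) ^ 2 * this
      have e2 : ∀ t, ∑ k ∈ Finset.Ico k0 (K + 1), d k t ^ 2 =
          ∑ k ∈ Finset.Ico k0 K, d k t ^ 2 + d K t ^ 2 := fun t =>
        Finset.sum_Ico_succ_top hK _
      simp_rw [e1, e2]
      have i1 : IntegrableOn (fun t => S t ^ 2) (dyI k0 j0) :=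
        int_le hK j0 (fun t s h => congrArg (· ^ 2) (ih1 t s h))
      have a2 : Ad K (fun t => 2 * S t * d K t) := by
        intro t s h
        show 2 * S t * d K t = 2 * S s * d K s
        rw [ih1 t s h, hd K hK t s h]
      have i2 : IntegrableOn (fun t => (2 * S t * d K t) * sg K t) (dyI k0 j0) := by
        refine int_le (hK.trans (Nat.le_succ K)) j0 ?_
        intro t s h
        show (2 * S t * d K t) * sg K t = (2 * S s * d K s) * sg K s
        rw [sg_ad K t s h]
        exact congrArg (· * sg K s) (a2 t s (dyx_parent h))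
      have i3 : IntegrableOn (fun t => d K t ^ 2) (dyI k0 j0) :=
        int_le hK j0 (fun t s h => congrArg (· ^ 2) (hd K hK t s h))
      have i4 : IntegrableOn (fun t => ∑ k ∈ Finset.Ico k0 K, d k t ^ 2) (dyI k0 j0) :=
        int_le hK j0 hS
      have i12 : IntegrableOn (fun t => S t ^ 2 + (2 * S t * d K t) * sg K t) (dyI k0 j0) :=
        i1.add i2
      rw [integral_add i12 i3, integral_add i1 i2, haar' hK j0 a2, add_zero, ih2,
        integral_add i4 i3]

theorem stop : STOP := by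
  intro k0 K j0 G D w δ hK hG hinc hwm hw0 hw1 hδ hδ1 hwI
  set A : ℝ := G k0 j0 with hA
  have hA0 : 0 ≤ A := hG _ _
  -- the partial square function
  set Q : ℕ → ℝ → ℝ := fun k t => ∑ m ∈ Finset.Ico k0 k, (D m (dyx m t)) ^ 2 with hQ
  have hQad : ∀ k, Ad k (Q k) := by
    intro k t s h
    refine Finset.sum_congr rfl fun m hm => ?_
    rw [Finset.mem_Ico] at hm
    rw [dyx_mono (by omega) h]
  have hQad' : ∀ k, k0 ≤ k → Ad k (Q (k + 1)) := by
    intro k _ t s h
    refine Finset.sum_congr rfl fun m hm => ?_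
    rw [Finset.mem_Ico] at hm
    rw [dyx_mono (by omega) h]
  set e : ℝ := δ / 8 * A ^ 2 with he
  have he0 : 0 ≤ e := by positivity
  set d : ℕ → ℝ → ℝ := fun k t => if Q (k + 1) t ≤ e then D k (dyx k t) else 0 with hd
  have hdad : ∀ k, k0 ≤ k → Ad k (d k) := by
    intro k hk t s h
    show (if Q (k + 1) t ≤ e then D k (dyx k t) else 0) =
      (if Q (k + 1) s ≤ e then D k (dyx k s) else 0)
    rw [hQad' k hk t s h, h]
  set M : ℝ → ℝ := fun t => ∑ k ∈ Finset.Ico k0 K, sg k t * d k t with hM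
  obtain ⟨hMad, hMen⟩ := energy j0 d hdad K hK
  -- the stopped square function is small
  have hstop : ∀ (n : ℕ) (t : ℝ), ∑ k ∈ Finset.Ico k0 (k0 + n), d k t ^ 2 ≤ e := by
    intro n t
    induction n with
    | zero => simpa using he0
    | succ n ih =>
      rw [← Nat.add_assoc, Finset.sum_Ico_succ_top (by omega)]
      by_cases hc : Q (k0 + n + 1) t ≤ e
      · refine le_trans ?_ hc
        show _ ≤ ∑ m ∈ Finset.Ico k0 (k0 + n + 1), (D m (dyx m t)) ^ 2
        rw [Finset.sum_Ico_succ_top (by omega)]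
        refine add_le_add (Finset.sum_le_sum fun k _ => ?_) ?_
        · show (if Q (k + 1) t ≤ e then D k (dyx k t) else 0) ^ 2 ≤ _
          split_ifs
          · exact le_refl _
          · rw [zero_pow two_ne_zero]; exact sq_nonneg _
        · show (if Q (k0 + n + 1) t ≤ e then D (k0 + n) (dyx (k0 + n) t) else 0) ^ 2 ≤ _
          rw [if_pos hc]
      · have h0 : d (k0 + n) t = 0 := if_neg hc
        rw [h0]
        simpa using ih
  have hstopK : ∀ t, ∑ k ∈ Finset.Ico k0 K, d k t ^ 2 ≤ e := by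
    intro t
    obtain ⟨n, rfl⟩ := Nat.exists_eq_add_of_le hK
    exact hstop n t
  have hMint : ∫ t in dyI k0 j0, M t ^ 2 ≤ e * (1 / 2) ^ k0 := by
    rw [hMen]
    have i4 : IntegrableOn (fun t => ∑ k ∈ Finset.Ico k0 K, d k t ^ 2) (dyI k0 j0) := by
      refine int_le hK j0 ?_
      intro t s h
      refine Finset.sum_congr rfl fun k hk => ?_
      rw [Finset.mem_Ico] at hk
      rw [hdad k hk.1 t s (dyx_mono (by omega) h)]
    have ic : IntegrableOn (fun _ : ℝ => e) (dyI k0 j0) :=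
      integrableOn_const (by rw [volume_dyI]; exact ENNReal.ofReal_ne_top)
    have h1 := setIntegral_mono i4 ic hstopK
    rw [setIntegral_const, volume_real_dyI, smul_eq_mul] at h1
    linarith
  -- pointwise inequality
  set X : ℝ → ℝ := fun t => (G K (dyx K t)) ^ 2 + ∑ k ∈ Finset.Ico k0 K, (D k (dyx k t)) ^ 2 with hX
  have hXad : Ad K X := by
    intro t s h
    show (G K (dyx K t)) ^ 2 + Q K t = (G K (dyx K s)) ^ 2 + Q K s
    rw [h, hQad K t s h]
  have hX0 : ∀ t, 0 ≤ X t := fun t => by positivity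
  -- the growth along the martingale
  have hgrow : ∀ t ∈ dyI k0 j0, A + ∑ k ∈ Finset.Ico k0 K, sg k t * D k (dyx k t) ≤
      G K (dyx K t) := by
    intro t ht
    have : ∀ n, k0 + n ≤ K → A + ∑ k ∈ Finset.Ico k0 (k0 + n), sg k t * D k (dyx k t) ≤
        G (k0 + n) (dyx (k0 + n) t) := by
      intro n
      induction n with
      | zero =>
        intro _
        simp only [Finset.Ico_self, Finset.sum_empty, add_zero]
        rw [mem_dyI.1 ht]
      | succ n ih =>
        intro hn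
        rw [← Nat.add_assoc, Finset.sum_Ico_succ_top (by omega)]
        have h1 := ih (by omega)
        have h2 := hinc (k0 + n) (by omega) (by omega) t ht
        linarith
    obtain ⟨n, rfl⟩ := Nat.exists_eq_add_of_le hK
    exact this n le_rfl
  have hpt : ∀ t ∈ dyI k0 j0, δ / 8 * (A ^ 2 * w t - 4 * M t ^ 2) ≤ w t * X t := by
    intro t ht
    by_cases hc : A ^ 2 ≤ 4 * M t ^ 2
    · have h1 : A ^ 2 * w t ≤ A ^ 2 := mul_le_of_le_one_right (sq_nonneg A) (hw1 t)
      have h2 : 0 ≤ w t * X t := mul_nonneg (hw0 t) (hX0 t)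
      have h3 : δ / 8 * (A ^ 2 * w t - 4 * M t ^ 2) ≤ 0 :=
        mul_nonpos_of_nonneg_of_nonpos (by positivity) (by linarith)
      linarith
    · push Not at hc
      have hXb : δ / 8 * A ^ 2 ≤ X t := by
        by_cases hs : Q K t ≤ e
        · -- no stopping
          have hMD : M t = ∑ k ∈ Finset.Ico k0 K, sg k t * D k (dyx k t) := by
            refine Finset.sum_congr rfl fun k hk => ?_
            rw [Finset.mem_Ico] at hk
            have : Q (k + 1) t ≤ Q K t :=
              Finset.sum_le_sum_of_subset_of_nonneg (Finset.Ico_subset_Ico_right (by omega))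
                (fun _ _ _ => sq_nonneg _)
            show sg k t * (if Q (k + 1) t ≤ e then D k (dyx k t) else 0) = _
            rw [if_pos (this.trans hs)]
          have h1 := hgrow t ht
          rw [← hMD] at h1
          have h2 : -(A / 2) < M t := by
            by_contra hcon
            push Not at hcon
            nlinarith
          have h3 : A / 2 ≤ G K (dyx K t) := by linarith
          have h4 : A ^ 2 / 4 ≤ (G K (dyx K t)) ^ 2 := by nlinarith
          have h5 : 0 ≤ Q K t := Finset.sum_nonneg fun _ _ => sq_nonneg _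
          show _ ≤ (G K (dyx K t)) ^ 2 + Q K t
          nlinarith [sq_nonneg A]
        · push Not at hs
          show _ ≤ (G K (dyx K t)) ^ 2 + Q K t
          nlinarith [sq_nonneg (G K (dyx K t))]
      have h1 : δ / 8 * (A ^ 2 * w t - 4 * M t ^ 2) ≤ w t * (δ / 8 * A ^ 2) := by
        have : 0 ≤ δ / 8 * (4 * M t ^ 2) := by positivity
        nlinarith
      exact h1.trans (mul_le_mul_of_nonneg_left hXb (hw0 t))
  -- integrability
  have iX : IntegrableOn X (dyI k0 j0) := int_le hK j0 hXad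
  have iM : IntegrableOn (fun t => M t ^ 2) (dyI k0 j0) :=
    int_le hK j0 (fun t s h => congrArg (· ^ 2) (hMad t s h))
  have iw : IntegrableOn w (dyI k0 j0) := by
    refine IntegrableOn.of_bound (C := 1) (by rw [volume_dyI]; exact ENNReal.ofReal_lt_top)
      hwm.aestronglyMeasurable ?_
    exact Filter.Eventually.of_forall fun t => by
      rw [Real.norm_eq_abs, abs_of_nonneg (hw0 t)]; exact hw1 t
  have iwX : IntegrableOn (fun t => w t * X t) (dyI k0 j0) := by
    refine Integrable.bdd_mul (c := 1) iX hwm.aestronglyMeasurable ?_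
    exact Filter.Eventually.of_forall fun t => by
      rw [Real.norm_eq_abs, abs_of_nonneg (hw0 t)]; exact hw1 t
  have iL : IntegrableOn (fun t => δ / 8 * (A ^ 2 * w t - 4 * M t ^ 2)) (dyI k0 j0) :=
    ((iw.const_mul (A ^ 2)).sub (iM.const_mul 4)).const_mul (δ / 8)
  have hfin := setIntegral_mono_on iL iwX (measurableSet_dyI _ _) hpt
  rw [integral_const_mul, integral_sub (iw.const_mul (A ^ 2)) (iM.const_mul 4),
    integral_const_mul, integral_const_mul] at hfin
  have hp : (0 : ℝ) < (1 / 2) ^ k0 := by positivity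
  -- final arithmetic
  have h1 : δ / 8 * (A ^ 2 * (δ * (1 / 2) ^ k0) - 4 * (e * (1 / 2) ^ k0)) ≤
      ∫ t in dyI k0 j0, w t * X t := by
    refine le_trans ?_ hfin
    apply mul_le_mul_of_nonneg_left _ (by positivity)
    have := mul_le_mul_of_nonneg_left hwI (sq_nonneg A)
    linarith
  have h2 : δ / 8 * (A ^ 2 * (δ * (1 / 2) ^ k0) - 4 * (e * (1 / 2) ^ k0)) =
      δ ^ 2 / 16 * (A ^ 2 * (1 / 2) ^ k0) := by
    rw [he]; ring
  rw [h2] at h1
  have h3 : A ^ 2 * (1 / 2) ^ k0 = 16 / δ ^ 2 * (δ ^ 2 / 16 * (A ^ 2 * (1 / 2) ^ k0)) := by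
    field_simp
  rw [h3]
  exact mul_le_mul_of_nonneg_left h1 (by positivity)

end Crest.Agent.R087.STOPx630
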