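import Crest.Agent.R087.E2s_542
import Crest.Agent.R087.STOP_630

/-!
# Row 87, leaf STOPs (helper819): nearly lossless stopping lemma, by induction on the interval
-/

set_option autoImplicit false

noncomputable section

open MeasureTheory

namespace Crest.Agent.R087.STOPsx819

open Crest.Agent.R087.E2x542 Crest.Agent.R087.STOPx630

/-- `x² ≤ (1+x) log (1+x) + (1-x) log (1-x)` on `[0,1]` -/
theorem ent_aux {x : ℝ} (hx0 : 0 ≤ x) (hx1 : x ≤ 1) :
    x ^ 2 ≤ (1 + x) * Real.log (1 + x) + (1 - x) * Real.log (1 - x) := by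
  set f : ℝ → ℝ := fun y => (1 + y) * Real.log (1 + y) + (1 - y) * Real.log (1 - y) - y ^ 2 with hf
  have hcont : ContinuousOn f (Set.Icc 0 1) := by
    apply Continuous.continuousOn
    have h1 : Continuous fun y : ℝ => (1 + y) * Real.log (1 + y) :=
      Real.continuous_mul_log.comp (continuous_const.add continuous_id)
    have h2 : Continuous fun y : ℝ => (1 - y) * Real.log (1 - y) :=
      Real.continuous_mul_log.comp (continuous_const.sub continuous_id)
    exact (h1.add h2).sub (continuous_pow 2)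
  have hder : ∀ y ∈ Set.Ioo (0 : ℝ) 1, HasDerivAt f (Real.log (1 + y) - Real.log (1 - y) - 2 * y) y := by
    intro y hy
    have hy1 : (1 + y) ≠ 0 := by linarith [hy.1]
    have hy2 : (1 - y) ≠ 0 := by linarith [hy.2]
    have d1 : HasDerivAt (fun z : ℝ => 1 + z) 1 y := by
      simpa using (hasDerivAt_id y).const_add 1
    have d2 : HasDerivAt (fun z : ℝ => 1 - z) (-1) y := by
      simpa using (hasDerivAt_id y).const_sub 1
    have e1 := (Real.hasDerivAt_mul_log hy1).comp y d1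
    have e2 := (Real.hasDerivAt_mul_log hy2).comp y d2
    have e3 := ((e1.add e2).sub (hasDerivAt_pow 2 y))
    refine e3.congr_deriv ?_
    simp
    ring
  have hmono : MonotoneOn f (Set.Icc 0 1) := by
    refine monotoneOn_of_hasDerivWithinAt_nonneg (convex_Icc 0 1) hcont
      (f' := fun y => Real.log (1 + y) - Real.log (1 - y) - 2 * y) ?_ ?_
    · intro y hy
      rw [interior_Icc] at hy
      exact (hder y hy).hasDerivWithinAt
    · intro y hy
      rw [interior_Icc] at hy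
      have habs : |y| < 1 := by rw [abs_of_pos hy.1]; exact hy.2
      have hs := Real.hasSum_log_sub_log_of_abs_lt_one habs
      have h1 := le_hasSum hs 0 (fun k _ => by
        have : 0 ≤ y := hy.1.le
        positivity)
      simp at h1
      linarith
  have h0 : f 0 ≤ f x := hmono ⟨le_rfl, zero_le_one⟩ ⟨hx0, hx1⟩ hx0
  simp only [hf] at h0
  norm_num at h0
  linarith

theorem ent {x : ℝ} (hx0 : -1 ≤ x) (hx1 : x ≤ 1) :
    x ^ 2 ≤ (1 + x) * Real.log (1 + x) + (1 - x) * Real.log (1 - x) := by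
  rcases le_total 0 x with h | h
  · exact ent_aux h hx1
  · have := ent_aux (x := -x) (by linarith) (by linarith)
    simp only [sub_neg_eq_add, ← sub_eq_add_neg, neg_sq] at this
    linarith

/-- the entropy functional of a mass `W` on an interval of generation `k` -/
def Lam (k : ℕ) (W : ℝ) : ℝ := W + 2 * (W * Real.log ((1 / 2) ^ k) - W * Real.log W)

theorem mul_log_aux {W y : ℝ} (hW : 0 < W) (hy : 0 ≤ y) :
    W * y / 2 * Real.log (W * y / 2) = W / 2 * (y * Real.log y) + W * y / 2 * Real.log (W / 2) := by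
  rcases hy.eq_or_lt with rfl | hy
  · simp
  · have : W * y / 2 = (W / 2) * y := by ring
    rw [this, Real.log_mul (by positivity) hy.ne']
    ring

theorem lam_step (k : ℕ) {W1 W2 : ℝ} (h1 : 0 ≤ W1) (h2 : 0 ≤ W2) (h : 0 < W1 + W2) :
    Lam (k + 1) W1 + Lam (k + 1) W2 + (W1 - W2) ^ 2 / (W1 + W2) ≤ Lam k (W1 + W2) := by
  set W := W1 + W2 with hW
  set x := (W1 - W2) / W with hx
  have e1 : W1 = W * (1 + x) / 2 := by rw [hx]; field_simp; rw [hW]; ring
  have e2 : W2 = W * (1 - x) / 2 := by rw [hx]; field_simp; rw [hW]; ring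
  have hx1 : -1 ≤ x := by
    rw [hx, le_div_iff₀ h]; rw [hW]; linarith
  have hx2 : x ≤ 1 := by
    rw [hx, div_le_iff₀ h]; rw [hW]; linarith
  have hent := ent hx1 hx2
  have e3 : (W1 - W2) ^ 2 / W = W * x ^ 2 := by
    rw [hx]; field_simp
  have e4 : Real.log ((1 / 2 : ℝ) ^ (k + 1)) = Real.log ((1 / 2 : ℝ) ^ k) - Real.log 2 := by
    rw [pow_succ, Real.log_mul (by positivity) (by norm_num), one_div, Real.log_inv]
    ring
  have e5 : Real.log (W / 2) = Real.log W - Real.log 2 :=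
    Real.log_div h.ne' (by norm_num)
  have m1 := mul_log_aux h (y := 1 + x) (by linarith)
  have m2 := mul_log_aux h (y := 1 - x) (by linarith)
  rw [← e1, e5] at m1
  rw [← e2, e5] at m2
  rw [e3]
  unfold Lam
  rw [e4, m1, m2]
  have hsum : W1 + W2 = W := rfl
  have hk : W / 2 * ((1 + x) * Real.log (1 + x)) + W / 2 * ((1 - x) * Real.log (1 - x)) ≥
      W / 2 * x ^ 2 := by
    have := mul_le_mul_of_nonneg_left hent (by positivity : 0 ≤ W / 2)
    linarith
  have e6 : W1 * (Real.log W - Real.log 2) + W2 * (Real.log W - Real.log 2) =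
      W * (Real.log W - Real.log 2) := by rw [← add_mul]
  have e7 : W1 * (Real.log ((1 / 2 : ℝ) ^ k) - Real.log 2) +
      W2 * (Real.log ((1 / 2 : ℝ) ^ k) - Real.log 2) =
      W * (Real.log ((1 / 2 : ℝ) ^ k) - Real.log 2) := by rw [← add_mul]
  nlinarith [hk, e6, e7, hsum]

theorem lam_nonneg (k : ℕ) {W : ℝ} (h0 : 0 ≤ W) (h1 : W ≤ (1 / 2) ^ k) : W ≤ Lam k W := by
  unfold Lam
  rcases h0.eq_or_lt with rfl | h0
  · simp
  · have : Real.log W ≤ Real.log ((1 / 2) ^ k) := Real.log_le_log h0 h1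
    nlinarith [mul_le_mul_of_nonneg_left this h0.le]

/-- three-term Cauchy-Schwarz -/
theorem cs3 {p q r L1 L2 L3 X1 X2 X3 : ℝ} (hp : 0 ≤ p) (hq : 0 ≤ q) (hr : 0 ≤ r)
    (hL1 : 0 ≤ L1) (hL2 : 0 ≤ L2) (hL3 : 0 ≤ L3) (hX1 : 0 ≤ X1) (hX2 : 0 ≤ X2) (hX3 : 0 ≤ X3)
    (h1 : p ^ 2 ≤ L1 * X1) (h2 : q ^ 2 ≤ L2 * X2) (h3 : r ^ 2 ≤ L3 * X3) :
    (p + q + r) ^ 2 ≤ (L1 + L2 + L3) * (X1 + X2 + X3) := by
  have k : ∀ {a b A B U V : ℝ}, 0 ≤ a → 0 ≤ b → 0 ≤ A → 0 ≤ B → 0 ≤ U → 0 ≤ V →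
      a ^ 2 ≤ A * U → b ^ 2 ≤ B * V → 2 * (a * b) ≤ A * V + B * U := by
    intro a b A B U V ha hb hA hB hU hV h1 h2
    have h3 : (a * b) ^ 2 ≤ (A * V) * (B * U) := by
      have := mul_le_mul h1 h2 (sq_nonneg b) (by positivity)
      calc (a * b) ^ 2 = a ^ 2 * b ^ 2 := by ring
        _ ≤ A * U * (B * V) := this
        _ = (A * V) * (B * U) := by ring
    have h4 : (2 * (a * b)) ^ 2 ≤ (A * V + B * U) ^ 2 := by
      nlinarith [sq_nonneg (A * V - B * U)]
    exact le_of_sq_le_sq h4 (by positivity)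
  have k12 := k hp hq hL1 hL2 hX1 hX2 h1 h2
  have k13 := k hp hr hL1 hL3 hX1 hX3 h1 h3
  have k23 := k hq hr hL2 hL3 hX2 hX3 h2 h3
  nlinarith

/-! ### the induction -/

theorem left_mem (k : ℕ) (j : ℤ) : (j : ℝ) * (1 / 2) ^ k ∈ dyI k j := by
  rw [dyI, Set.mem_Ico]
  have : (0 : ℝ) < (1 / 2) ^ k := by positivity
  constructor
  · exact le_refl _
  · nlinarith

theorem int_w {w : ℝ → ℝ} (hwm : Measurable w) (hw0 : ∀ t, 0 ≤ w t) (hw1 : ∀ t, w t ≤ 1)
    (k : ℕ) (j : ℤ) : IntegrableOn w (dyI k j) := by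
  refine IntegrableOn.of_bound (C := 1) (by rw [volume_dyI]; exact ENNReal.ofReal_lt_top)
    hwm.aestronglyMeasurable ?_
  exact Filter.Eventually.of_forall fun t => by
    rw [Real.norm_eq_abs, abs_of_nonneg (hw0 t)]; exact hw1 t

theorem int_wX {w : ℝ → ℝ} (hwm : Measurable w) (hw0 : ∀ t, 0 ≤ w t) (hw1 : ∀ t, w t ≤ 1)
    {k K : ℕ} (hk : k ≤ K) (j : ℤ) {X : ℝ → ℝ} (hX : Ad K X) :
    IntegrableOn (fun t => w t * X t) (dyI k j) := by
  refine Integrable.bdd_mul (c := 1) (int_le hk j hX) hwm.aestronglyMeasurable ?_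
  exact Filter.Eventually.of_forall fun t => by
    rw [Real.norm_eq_abs, abs_of_nonneg (hw0 t)]; exact hw1 t

theorem mass_le {w : ℝ → ℝ} (hwm : Measurable w) (hw0 : ∀ t, 0 ≤ w t) (hw1 : ∀ t, w t ≤ 1)
    (k : ℕ) (j : ℤ) : ∫ t in dyI k j, w t ≤ (1 / 2) ^ k := by
  have ic : IntegrableOn (fun _ : ℝ => (1 : ℝ)) (dyI k j) :=
    integrableOn_const (by rw [volume_dyI]; exact ENNReal.ofReal_ne_top)
  have h1 := setIntegral_mono (int_w hwm hw0 hw1 k j) ic hw1
  rw [setIntegral_const, volume_real_dyI, smul_eq_mul, mul_one] at h1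
  exact h1

theorem key (G D : ℕ → ℤ → ℝ) (w : ℝ → ℝ) (hG : ∀ k j, 0 ≤ G k j)
    (hwm : Measurable w) (hw0 : ∀ t, 0 ≤ w t) (hw1 : ∀ t, w t ≤ 1) (n : ℕ) :
    ∀ (k0 : ℕ) (j0 : ℤ),
      (∀ k, k0 ≤ k → k < k0 + n → ∀ t ∈ dyI k0 j0,
        G k (dyx k t) + sg k t * D k (dyx k t) ≤ G (k + 1) (dyx (k + 1) t)) →
      ((∫ t in dyI k0 j0, w t) * G k0 j0) ^ 2 ≤ Lam k0 (∫ t in dyI k0 j0, w t) *
        ∫ t in dyI k0 j0, w t * ((G (k0 + n) (dyx (k0 + n) t)) ^ 2 +
          ∑ k ∈ Finset.Ico k0 (k0 + n), (D k (dyx k t)) ^ 2) := by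
  induction n with
  | zero =>
    intro k0 j0 _
    have hW0 : 0 ≤ ∫ t in dyI k0 j0, w t := integral_nonneg hw0
    have hW1 := mass_le hwm hw0 hw1 k0 j0
    have e : ∫ t in dyI k0 j0, w t * ((G (k0 + 0) (dyx (k0 + 0) t)) ^ 2 +
        ∑ k ∈ Finset.Ico k0 (k0 + 0), (D k (dyx k t)) ^ 2) =
        (∫ t in dyI k0 j0, w t) * (G k0 j0) ^ 2 := by
      rw [← integral_mul_const]
      refine setIntegral_congr_fun (measurableSet_dyI _ _) ?_
      intro t ht
      simp only [Nat.add_zero, Finset.Ico_self, Finset.sum_empty, add_zero]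
      rw [mem_dyI.1 ht]
    rw [e]
    set W := ∫ t in dyI k0 j0, w t
    have h1 := lam_nonneg k0 hW0 hW1
    have h2 : (W * G k0 j0) ^ 2 = W * (W * (G k0 j0) ^ 2) := by ring
    rw [h2]
    exact mul_le_mul_of_nonneg_right h1 (by positivity)
  | succ n ih =>
    intro k0 j0 hinc
    set K := k0 + (n + 1) with hK
    have eK : k0 + 1 + n = K := by omega
    set X : ℝ → ℝ := fun t => (G K (dyx K t)) ^ 2 +
      ∑ k ∈ Finset.Ico k0 K, (D k (dyx k t)) ^ 2 with hX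
    set X' : ℝ → ℝ := fun t => (G K (dyx K t)) ^ 2 +
      ∑ k ∈ Finset.Ico (k0 + 1) K, (D k (dyx k t)) ^ 2 with hX'
    have hX'ad : Ad K X' := by
      intro t s h
      show (G K (dyx K t)) ^ 2 + ∑ k ∈ Finset.Ico (k0 + 1) K, (D k (dyx k t)) ^ 2 =
        (G K (dyx K s)) ^ 2 + ∑ k ∈ Finset.Ico (k0 + 1) K, (D k (dyx k s)) ^ 2
      rw [h]
      congr 1
      refine Finset.sum_congr rfl fun m hm => ?_
      rw [Finset.mem_Ico] at hm
      rw [dyx_mono (by omega) h]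
    have hX'0 : ∀ t, 0 ≤ w t * X' t := fun t => mul_nonneg (hw0 t) (by positivity)
    -- the two halves
    set J1 := dyI (k0 + 1) (2 * j0) with hJ1
    set J2 := dyI (k0 + 1) (2 * j0 + 1) with hJ2
    have hsplit : dyI k0 j0 = J1 ∪ J2 := dyI_split k0 j0
    have hdisj : Disjoint J1 J2 := dyI_disj k0 j0
    have hm2 : MeasurableSet J2 := measurableSet_dyI _ _
    have iw1 : IntegrableOn w J1 := int_w hwm hw0 hw1 _ _
    have iw2 : IntegrableOn w J2 := int_w hwm hw0 hw1 _ _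
    have iX1 : IntegrableOn (fun t => w t * X' t) J1 :=
      int_wX hwm hw0 hw1 (by omega) _ hX'ad
    have iX2 : IntegrableOn (fun t => w t * X' t) J2 :=
      int_wX hwm hw0 hw1 (by omega) _ hX'ad
    have hWs : ∫ t in dyI k0 j0, w t = (∫ t in J1, w t) + ∫ t in J2, w t := by
      rw [hsplit, setIntegral_union hdisj hm2 iw1 iw2]
    have hXs : ∫ t in dyI k0 j0, w t * X t = (∫ t in J1, w t * X' t) + (∫ t in J2, w t * X' t) +
        ((∫ t in J1, w t) + ∫ t in J2, w t) * (D k0 j0) ^ 2 := by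
      have e1 : ∫ t in dyI k0 j0, w t * X t =
          ∫ t in dyI k0 j0, (w t * X' t + w t * (D k0 j0) ^ 2) := by
        refine setIntegral_congr_fun (measurableSet_dyI _ _) ?_
        intro t ht
        simp only [hX, hX']
        rw [Finset.sum_eq_sum_Ico_succ_bot (by omega : k0 < K), mem_dyI.1 ht]
        ring
      rw [e1, integral_add (int_wX hwm hw0 hw1 (by omega) _ hX'ad)
        ((int_w hwm hw0 hw1 _ _).mul_const _), integral_mul_const, hWs, hsplit,
        setIntegral_union hdisj hm2 iX1 iX2]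
    have ih1 := ih (k0 + 1) (2 * j0) (by
      intro k hk1 hk2 t ht
      exact hinc k (by omega) (by omega) t (by rw [hsplit]; exact Or.inl ht))
    have ih2 := ih (k0 + 1) (2 * j0 + 1) (by
      intro k hk1 hk2 t ht
      exact hinc k (by omega) (by omega) t (by rw [hsplit]; exact Or.inr ht))
    rw [eK] at ih1 ih2
    change ((∫ t in J1, w t) * G (k0 + 1) (2 * j0)) ^ 2 ≤
      Lam (k0 + 1) (∫ t in J1, w t) * ∫ t in J1, w t * X' t at ih1
    change ((∫ t in J2, w t) * G (k0 + 1) (2 * j0 + 1)) ^ 2 ≤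
      Lam (k0 + 1) (∫ t in J2, w t) * ∫ t in J2, w t * X' t at ih2
    change ((∫ t in dyI k0 j0, w t) * G k0 j0) ^ 2 ≤ Lam k0 (∫ t in dyI k0 j0, w t) *
      ∫ t in dyI k0 j0, w t * X t
    -- growth
    have hg1 : G k0 j0 + D k0 j0 ≤ G (k0 + 1) (2 * j0) := by
      have hmem := left_mem (k0 + 1) (2 * j0)
      have h1 : dyx (k0 + 1) (((2 * j0 : ℤ) : ℝ) * (1 / 2) ^ (k0 + 1)) = 2 * j0 := mem_dyI.1 hmem
      have hmem0 : ((2 * j0 : ℤ) : ℝ) * (1 / 2) ^ (k0 + 1) ∈ dyI k0 j0 := by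
        rw [hsplit]; exact Or.inl hmem
      have h2 : dyx k0 (((2 * j0 : ℤ) : ℝ) * (1 / 2) ^ (k0 + 1)) = j0 := mem_dyI.1 hmem0
      have h3 := hinc k0 le_rfl (by omega) _ hmem0
      rw [sg, h1, h2, if_pos rfl, one_mul] at h3
      exact h3
    have hg2 : G k0 j0 - D k0 j0 ≤ G (k0 + 1) (2 * j0 + 1) := by
      have hmem := left_mem (k0 + 1) (2 * j0 + 1)
      have h1 : dyx (k0 + 1) (((2 * j0 + 1 : ℤ) : ℝ) * (1 / 2) ^ (k0 + 1)) = 2 * j0 + 1 :=
        mem_dyI.1 hmem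
      have hmem0 : ((2 * j0 + 1 : ℤ) : ℝ) * (1 / 2) ^ (k0 + 1) ∈ dyI k0 j0 := by
        rw [hsplit]; exact Or.inr hmem
      have h2 : dyx k0 (((2 * j0 + 1 : ℤ) : ℝ) * (1 / 2) ^ (k0 + 1)) = j0 := mem_dyI.1 hmem0
      have h3 := hinc k0 le_rfl (by omega) _ hmem0
      rw [sg, h1, h2, if_neg (by omega)] at h3
      linarith
    rw [hWs, hXs]
    have hW1 : 0 ≤ ∫ t in J1, w t := integral_nonneg hw0
    have hW2 : 0 ≤ ∫ t in J2, w t := integral_nonneg hw0
    have hb1 := mass_le hwm hw0 hw1 (k0 + 1) (2 * j0)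
    have hb2 := mass_le hwm hw0 hw1 (k0 + 1) (2 * j0 + 1)
    change ∫ t in J1, w t ≤ _ at hb1
    change ∫ t in J2, w t ≤ _ at hb2
    have hXX1 : 0 ≤ ∫ t in J1, w t * X' t := integral_nonneg hX'0
    have hXX2 : 0 ≤ ∫ t in J2, w t * X' t := integral_nonneg hX'0
    generalize (∫ t in J1, w t) = W1 at *
    generalize (∫ t in J2, w t) = W2 at *
    generalize (∫ t in J1, w t * X' t) = Y1 at *
    generalize (∫ t in J2, w t * X' t) = Y2 at *
    set g := G k0 j0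
    set d := D k0 j0
    have hg : 0 ≤ g := hG _ _
    have hG1 : 0 ≤ G (k0 + 1) (2 * j0) := hG _ _
    have hG2 : 0 ≤ G (k0 + 1) (2 * j0 + 1) := hG _ _
    rcases (add_nonneg hW1 hW2).eq_or_lt with h0 | hpos
    · rw [← h0]
      simp [Lam]
    · have hL := lam_step k0 hW1 hW2 hpos
      have hL1 : 0 ≤ Lam (k0 + 1) W1 := hW1.trans (lam_nonneg _ hW1 hb1)
      have hL2 : 0 ≤ Lam (k0 + 1) W2 := hW2.trans (lam_nonneg _ hW2 hb2)
      have hL3 : 0 ≤ (W1 - W2) ^ 2 / (W1 + W2) := by positivity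
      have hcs := cs3 (p := W1 * G (k0 + 1) (2 * j0)) (q := W2 * G (k0 + 1) (2 * j0 + 1))
        (r := |W1 - W2| * |d|) (by positivity) (by positivity) (by positivity) hL1 hL2 hL3
        hXX1 hXX2 (X3 := (W1 + W2) * d ^ 2) (by positivity) ih1 ih2 (by
          rw [mul_pow, sq_abs, sq_abs]
          apply le_of_eq
          field_simp)
      have hlow : (W1 + W2) * g ≤ W1 * G (k0 + 1) (2 * j0) + W2 * G (k0 + 1) (2 * j0 + 1) +
          |W1 - W2| * |d| := by
        have h1 := mul_le_mul_of_nonneg_left hg1 hW1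
        have h2 := mul_le_mul_of_nonneg_left hg2 hW2
        have h3 : -(|W1 - W2| * |d|) ≤ (W1 - W2) * d := by
          rw [← abs_mul]; exact neg_abs_le _
        nlinarith
      have hsq : ((W1 + W2) * g) ^ 2 ≤ (W1 * G (k0 + 1) (2 * j0) +
          W2 * G (k0 + 1) (2 * j0 + 1) + |W1 - W2| * |d|) ^ 2 :=
        pow_le_pow_left₀ (by positivity) hlow 2
      refine hsq.trans (hcs.trans ?_)
      exact mul_le_mul_of_nonneg_right hL (by positivity)

theorem stops : STOPs := by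
  intro k0 K j0 G D w δ hK hG hinc hwm hw0 hw1 hδ hwI
  obtain ⟨n, rfl⟩ := Nat.exists_eq_add_of_le hK
  have h := key G D w hG hwm hw0 hw1 n k0 j0 hinc
  rw [hwI] at h
  set Y := ∫ t in dyI k0 j0, w t * ((G (k0 + n) (dyx (k0 + n) t)) ^ 2 +
          ∑ k ∈ Finset.Ico k0 (k0 + n), (D k (dyx k t)) ^ 2)
  set p : ℝ := (1 / 2 : ℝ) ^ k0 with hp
  have hp0 : 0 < p := by positivity
  have hLam : Lam k0 (δ * p) = δ * p * (1 + 2 * Real.log (1 / δ)) := by
    unfold Lam
    rw [← hp, Real.log_mul hδ.ne' hp0.ne', one_div, Real.log_inv]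
    ring
  rw [hLam] at h
  have hdp : 0 < δ * p := by positivity
  have h1 : δ * p * ((G k0 j0) ^ 2 * (δ * p)) ≤ δ * p * ((1 + 2 * Real.log (1 / δ)) * Y) := by
    calc δ * p * ((G k0 j0) ^ 2 * (δ * p)) = (δ * p * G k0 j0) ^ 2 := by ring
      _ ≤ _ := h
      _ = _ := by ring
  have h2 := le_of_mul_le_mul_left h1 hdp
  have h3 : (1 + 2 * Real.log (1 / δ)) / δ * Y = ((1 + 2 * Real.log (1 / δ)) * Y) / δ := by ring
  rw [h3, le_div_iff₀ hδ]
  linarith

end Crest.Agent.R087.STOPsx819
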