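import Mathlib

/-!
Row 87 (S0115): interface between the OUTER SHELL (helper283) and the OPERATOR PART (helper528).
Everything is real valued, functions on `ℝ × ℝ`, first coordinate = the direction of the field
(`x`, only measurable), second coordinate = `y` (Lipschitz direction, frequency `~ 1` band).

* `Nice f`   : measurable, bounded, bounded support.
* `cv φ k f` : convolution in `y` with `φ` at scale `2^k` : `∫ φ(r) f(x, y - 2^k r) dr`.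
* `tk K U f` : `∫ K(t) f(x - t, y - t U(x,y)) dt`.
* `kerS ψ S` : `∑_{s<S} 2^s ψ(2^s t)`  (`= 1/t` truncated smoothly, scales `2^-s <= 1`).
* `SB φ ψ`   : the single band L2 estimate.
-/

set_option autoImplicit false

noncomputable section

open MeasureTheory

namespace Crest.Agent.R087.Sh0x283

/-- test functions: measurable, bounded, bounded support. -/
def Nice (f : ℝ × ℝ → ℝ) : Prop :=
  Measurable f ∧ (∃ M : ℝ, ∀ z, |f z| ≤ M) ∧ (∃ R : ℝ, ∀ z, R < ‖z‖ → f z = 0)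

/-- admissible field: jointly measurable, bounded, `c`-Lipschitz in the second variable. -/
def Fld (c : ℝ) (U : ℝ × ℝ → ℝ) : Prop :=
  Measurable U ∧ (∃ W : ℝ, ∀ z, |U z| ≤ W) ∧ (∀ x y y' : ℝ, |U (x, y) - U (x, y')| ≤ c * |y - y'|)

/-- band profiles: smooth, support in `[-1,1]`, mean zero. -/
def PhiC (φ : ℝ → ℝ) : Prop :=
  ContDiff ℝ (⊤ : ℕ∞) φ ∧ (∀ r, 1 < |r| → φ r = 0) ∧ ∫ r, φ r = 0

/-- scale profiles: smooth, odd, support in `1/4 ≤ |t| ≤ 1`. -/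
def PsiC (ψ : ℝ → ℝ) : Prop :=
  ContDiff ℝ (⊤ : ℕ∞) ψ ∧ (∀ t, ψ (-t) = -ψ t) ∧ (∀ t, ψ t ≠ 0 → 1 / 4 ≤ |t| ∧ |t| ≤ 1)

/-- convolution in `y` with the profile `φ` at scale `2^k`. -/
def cv (φ : ℝ → ℝ) (k : ℤ) (f : ℝ × ℝ → ℝ) (z : ℝ × ℝ) : ℝ :=
  ∫ r, φ r * f (z.1, z.2 - (2 : ℝ) ^ k * r)

/-- superposition of the maps `(x,y) ↦ (x - t, y - t U(x,y))` with kernel `K`. -/
def tk (K : ℝ → ℝ) (U f : ℝ × ℝ → ℝ) (z : ℝ × ℝ) : ℝ :=
  ∫ t, K t * f (z.1 - t, z.2 - t * U z)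

/-- truncated kernel `∑_{s<S} 2^s ψ(2^s t)`. -/
def kerS (ψ : ℝ → ℝ) (S : ℕ) (t : ℝ) : ℝ :=
  ∑ s ∈ Finset.range S, (2 : ℝ) ^ s * ψ ((2 : ℝ) ^ s * t)

/-- THE SINGLE BAND ESTIMATE (target of the operator part): an absolute small Lipschitz constant `c`
and a constant `B` (both may depend on the profiles), uniform in the field `U`, the function `f`
and the number `S` of scales. -/
def SB (φ ψ : ℝ → ℝ) : Prop :=
  ∃ c : ℝ, 0 < c ∧ ∃ B : ℝ, ∀ U f : ℝ × ℝ → ℝ, Fld c U → Nice f → ∀ S : ℕ,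
    ∫ z, (tk (kerS ψ S) U (cv φ 0 f) z) ^ 2 ≤ B * ∫ z, (f z) ^ 2

/-- all bands together (target of the Littlewood-Paley diagonalisation), field `C^1` in `y`. -/
def MOD (ψ : ℝ → ℝ) : Prop :=
  ∃ c : ℝ, 0 < c ∧ ∃ C : ℝ, ∀ U f : ℝ × ℝ → ℝ, Fld c U →
    (∀ x, ContDiff ℝ 1 (fun y => U (x, y))) → Nice f → ∀ S : ℕ,
    ∫ z, (tk (kerS ψ S) U f z) ^ 2 ≤ C * ∫ z, (f z) ^ 2

end Crest.Agent.R087.Sh0x283
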