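import Crest.Agent.R087.Sh0_283

/-!
Row 87, OUTER SHELL: the leaves as literal Props (helper283).
Chain:  (∀ φ ψ, PhiC φ → PsiC ψ → SB φ ψ)  ⟹  MOD psi0  ⟹  LOCR  ⟹  S0115.
-/

set_option autoImplicit false

noncomputable section

open MeasureTheory Crest.Agent.R087.Sh0x283
open scoped RealInnerProductSpace

namespace Crest.Agent.R087.Sh1x283

/-- 1D test functions. -/
def Nice1 (g : ℝ → ℝ) : Prop :=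
  Measurable g ∧ (∃ M : ℝ, ∀ y, |g y| ≤ M) ∧ (∃ R : ℝ, ∀ y, R < |y| → g y = 0)

/-- 1D convolution with the profile `φ` at scale `2^k`; `cv φ k f (x,y) = cv1 φ k (fun y => f (x,y)) y` by `rfl`. -/
def cv1 (φ : ℝ → ℝ) (k : ℤ) (g : ℝ → ℝ) (y : ℝ) : ℝ := ∫ r, φ r * g (y - (2 : ℝ) ^ k * r)

theorem cv_eq_cv1 (φ : ℝ → ℝ) (k : ℤ) (f : ℝ × ℝ → ℝ) (x y : ℝ) :
    cv φ k f (x, y) = cv1 φ k (fun y => f (x, y)) y := rfl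

/-- averaging profile: smooth, even, nonnegative, support in `[-1/8,1/8]`, integral 1. -/
def ChiC (χ : ℝ → ℝ) : Prop :=
  ContDiff ℝ (⊤ : ℕ∞) χ ∧ (∀ r, χ (-r) = χ r) ∧ (∀ r, 0 ≤ χ r) ∧ (∀ r, 1 / 8 < |r| → χ r = 0) ∧
    ∫ r, χ r = 1

/-- S1: 1D Littlewood-Paley upper bound (almost orthogonality; no Fourier needed). -/
def LPup : Prop := ∀ φ : ℝ → ℝ, PhiC φ → ∃ C : ℝ, 0 ≤ C ∧ ∀ g : ℝ → ℝ, Nice1 g → ∀ F : Finset ℤ,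
  ∑ k ∈ F, ∫ y, (cv1 φ k g y) ^ 2 ≤ C * ∫ y, (g y) ^ 2

/-- S2: square function `T(1)` theorem on the line (dyadic martingales + dyadic Carleson embedding). -/
def SQT1 : Prop := ∃ C : ℝ, 0 ≤ C ∧ ∀ (A : ℝ) (Kk : ℤ → ℝ → ℝ → ℝ) (F : Finset ℤ), 0 ≤ A →
  (∀ k ∈ F, Measurable (Function.uncurry (Kk k))) →
  (∀ k ∈ F, ∀ y r, |Kk k y r| ≤ A * ((2 : ℝ) ^ k)⁻¹) →
  (∀ k ∈ F, ∀ y r, 2 * (2 : ℝ) ^ k < |y - r| → Kk k y r = 0) →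
  (∀ k ∈ F, ∀ y r r', |Kk k y r - Kk k y r'| ≤ A * ((2 : ℝ) ^ k)⁻¹ * ((2 : ℝ) ^ k)⁻¹ * |r - r'|) →
  (∀ n m : ℤ, ∑ k ∈ F.filter (· ≤ n), ∫ y in Set.Ico ((m : ℝ) * 2 ^ n) ((m + 1 : ℝ) * 2 ^ n),
      (∫ r, Kk k y r) ^ 2 ≤ A ^ 2 * 2 ^ n) →
  ∀ g : ℝ → ℝ, Nice1 g →
    ∑ k ∈ F, ∫ y, (∫ r, Kk k y r * g r) ^ 2 ≤ C * A ^ 2 * ∫ y, (g y) ^ 2

/-- S3: Lemma L (commutation of Littlewood-Paley pieces with `y ↦ y - w y`, `w` of class `C^1`,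
`δ`-Lipschitz), gain `δ^2`. -/
def LemL : Prop := ∀ φ : ℝ → ℝ, PhiC φ → ∃ C : ℝ, 0 ≤ C ∧ ∀ (δ : ℝ) (w : ℝ → ℝ), 0 ≤ δ → δ ≤ 1 / 2 →
  ContDiff ℝ 1 w → (∀ y y', |w y - w y'| ≤ δ * |y - y'|) → ∀ g : ℝ → ℝ, Nice1 g → ∀ F : Finset ℤ,
  ∑ k ∈ F, ∫ y, (cv1 φ k (fun y => g (y - w y)) y - cv1 φ k g (y - w y)) ^ 2 ≤
    C * δ ^ 2 * ∫ y, (g y) ^ 2

/-- S4: commutator of `cv φ k` with `tk` (from Lemma L, `|kerS ψ S t| ≤ C/|t|`, Cauchy-Schwarz in `t`). -/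
def COMM : Prop := ∀ φ ψ : ℝ → ℝ, PhiC φ → PsiC ψ → ∃ L : ℝ, 0 ≤ L ∧ ∀ U f : ℝ × ℝ → ℝ, Fld (1 / 2) U →
  (∀ x, ContDiff ℝ 1 (fun y => U (x, y))) → Nice f → ∀ (S : ℕ) (F : Finset ℤ),
  ∑ k ∈ F, ∫ z, (cv φ k (tk (kerS ψ S) U f) z - tk (kerS ψ S) U (cv φ k f) z) ^ 2 ≤
    L * ∫ z, (f z) ^ 2

/-- S5: a priori bounds for `tk` (`K` bounded measurable supported in `[-1,1]`). -/
def TB : Prop := ∀ K : ℝ → ℝ, Measurable K → (∃ M : ℝ, ∀ t, |K t| ≤ M) → (∀ t, 1 < |t| → K t = 0) →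
  ∀ U : ℝ × ℝ → ℝ, Fld (1 / 2) U →
  (∀ f, Nice f → Nice (tk K U f)) ∧
  (∀ f, Nice f → ∫ z, (tk K U f z) ^ 2 ≤ 2 * (∫ t, |K t|) ^ 2 * ∫ z, (f z) ^ 2) ∧
  (∀ f g, Nice f → Nice g → ∀ z, tk K U (fun z => f z + g z) z = tk K U f z + tk K U g z) ∧
  (∀ f (a : ℝ), Nice f → ∀ z, tk K U (fun z => a * f z) z = a * tk K U f z)

/-- S6: the single band estimate at all scales (rescaling `y ↦ 2^k y`). -/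
def SBK : Prop := ∀ φ ψ : ℝ → ℝ, SB φ ψ →
  ∃ c : ℝ, 0 < c ∧ ∃ B : ℝ, 0 ≤ B ∧ ∀ U f : ℝ × ℝ → ℝ, Fld c U → Nice f → ∀ (k : ℤ) (S : ℕ),
    ∫ z, (tk (kerS ψ S) U (cv φ k f) z) ^ 2 ≤ B * ∫ z, (f z) ^ 2

/-- S7: calculus of `cv` (profiles: continuous with compact support). -/
def ALG : Prop :=
  (∀ φ : ℝ → ℝ, Continuous φ → HasCompactSupport φ → ∀ k f, Nice f → Nice (cv φ k f)) ∧
  (∀ φ : ℝ → ℝ, Continuous φ → HasCompactSupport φ → ∀ k f, Nice f →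
    ∫ z, (cv φ k f z) ^ 2 ≤ (∫ r, |φ r|) ^ 2 * ∫ z, (f z) ^ 2) ∧
  (∀ φ ψ : ℝ → ℝ, Continuous φ → HasCompactSupport φ → Continuous ψ → HasCompactSupport ψ →
    ∀ k l f, Nice f → cv φ k (cv ψ l f) = cv ψ l (cv φ k f)) ∧
  (∀ φ : ℝ → ℝ, Continuous φ → HasCompactSupport φ → ∀ k f g, Nice f → Nice g →
    ∫ z, cv φ k f z * g z = ∫ z, f z * cv (fun r => φ (-r)) k g z) ∧
  (∀ ω ψ : ℝ → ℝ, ContDiff ℝ 1 ω → HasCompactSupport ω → ContDiff ℝ 1 ψ → HasCompactSupport ψ →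
    ∀ k l f, Nice f → ∀ z, cv (deriv ω) k (cv ψ l f) z =
      (2 : ℝ) ^ (k - l) * cv ω k (cv (deriv ψ) l f) z) ∧
  (∀ φ ψ : ℝ → ℝ, Continuous φ → HasCompactSupport φ → Continuous ψ → HasCompactSupport ψ →
    ∀ k f, Nice f → cv φ k (cv ψ k f) = cv (fun r => ∫ s, φ s * ψ (r - s)) k f) ∧
  (∀ φ : ℝ → ℝ, ∀ k f, cv φ (k + 1) f = cv (fun r => φ (r / 2) / 2) k f) ∧
  (∀ φ : ℝ → ℝ, Continuous φ → HasCompactSupport φ → ∀ k f g, Nice f → Nice g →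
    cv φ k (fun z => f z + g z) = fun z => cv φ k f z + cv φ k g z) ∧
  (∀ φ : ℝ → ℝ, ∀ k f (a : ℝ), cv φ k (fun z => a * f z) = fun z => a * cv φ k f z) ∧
  (∀ φ ψ : ℝ → ℝ, Continuous φ → HasCompactSupport φ → Continuous ψ → HasCompactSupport ψ →
    ∀ k f (a b : ℝ), Nice f →
      cv (fun r => a * φ r + b * ψ r) k f = fun z => a * cv φ k f z + b * cv ψ k f z)

/-- S8: approximate identity. -/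
def APX : Prop := ∀ χ : ℝ → ℝ, ChiC χ → ∀ f, Nice f →
  Filter.Tendsto (fun N : ℕ => ∫ z, (cv χ (-(N : ℤ)) f z - f z) ^ 2) Filter.atTop (nhds 0) ∧
  Filter.Tendsto (fun N : ℕ => ∫ z, (cv χ (N : ℤ) f z) ^ 2) Filter.atTop (nhds 0)

section abstract_part

variable {V : Type*} [SeminormedAddCommGroup V] [InnerProductSpace ℝ V]

/-- differences -/
def DD (X : ℤ → V →ₗ[ℝ] V) (m : ℤ) : V →ₗ[ℝ] V := X m - X (m + 1)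

/-- `q(X_m) - q(X_{m+1}) = A_m D_m` with `q(X) = 3 X^2 - 2 X^3`. -/
def AA (X : ℤ → V →ₗ[ℝ] V) (m : ℤ) : V →ₗ[ℝ] V :=
  (3 : ℝ) • (X m + X (m + 1)) -
    (2 : ℝ) • (X m ∘ₗ X m + X m ∘ₗ X (m + 1) + X (m + 1) ∘ₗ X (m + 1))

end abstract_part

/-- S9: the abstract diagonalisation theorem (pure Hilbert space, universe 0 is enough). -/
def ABS : Prop := ∃ K : ℝ → ℝ, ∀ (V : Type) [SeminormedAddCommGroup V] [InnerProductSpace ℝ V]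
  (X : ℤ → V →ₗ[ℝ] V) (T : V →ₗ[ℝ] V) (C₀ B L M : ℝ), 0 ≤ C₀ → 0 ≤ B → 0 ≤ L → 0 ≤ M →
  (∀ m f g, ⟪X m f, g⟫ = ⟪f, X m g⟫) →
  (∀ m f, ‖X m f‖ ≤ ‖f‖) →
  (∀ m n f, X m (X n f) = X n (X m f)) →
  (∀ f, Filter.Tendsto (fun N : ℕ => ‖X (-(N : ℤ)) f - f‖) Filter.atTop (nhds 0)) →
  (∀ f, Filter.Tendsto (fun N : ℕ => ‖X (N : ℤ) f‖) Filter.atTop (nhds 0)) →
  (∀ k l f, ‖DD X k (DD X l f)‖ ≤ C₀ * (2 : ℝ) ^ (-|k - l|) * ‖f‖) →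
  (∀ k l f, ‖AA X k (AA X l f)‖ ≤ C₀ * (2 : ℝ) ^ (-|k - l|) * ‖f‖) →
  (∀ k m f, ‖T (DD X k (AA X m f))‖ ≤ B * (2 : ℝ) ^ (-|k - m|) * ‖f‖) →
  (∀ k m f, ‖T (AA X k (AA X m f))‖ ≤ B * (2 : ℝ) ^ (-|k - m|) * ‖f‖) →
  (∀ (F : Finset ℤ) f, ∑ k ∈ F, ‖DD X k (T f) - T (DD X k f)‖ ^ 2 ≤ L ^ 2 * ‖f‖ ^ 2) →
  (∀ (F : Finset ℤ) f, ∑ k ∈ F, ‖AA X k (T f) - T (AA X k f)‖ ^ 2 ≤ L ^ 2 * ‖f‖ ^ 2) →
  (∀ f, ‖T f‖ ≤ M * ‖f‖) →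
  ∀ f, ‖T f‖ ≤ K C₀ * (B + L) * ‖f‖

/-- S10 (assembly, helper283): MOD from S3..S9 and the single band estimates. -/
def ASM : Prop := (∀ φ ψ, PhiC φ → PsiC ψ → SB φ ψ) → ∀ ψ, PsiC ψ → MOD ψ

/-- cutoff `η`: smooth, even, `1` on `|t| ≤ 1/2`, `0` for `|t| ≥ 1`, values in `[0,1]`. -/
def EtaC (η : ℝ → ℝ) : Prop :=
  ContDiff ℝ (⊤ : ℕ∞) η ∧ (∀ t, η (-t) = η t) ∧ (∀ t, 0 ≤ η t) ∧ (∀ t, η t ≤ 1) ∧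
    (∀ t, |t| ≤ 1 / 2 → η t = 1) ∧ (∀ t, 1 ≤ |t| → η t = 0)

/-- smooth truncation of `1/t` between `2^-S λ` and `λ`. -/
def kerE (η : ℝ → ℝ) (lam : ℝ) (S : ℕ) (t : ℝ) : ℝ := (η (t / lam) - η (2 ^ S * t / lam)) / t

/-- S11: all bands, Lipschitz field (no `C^1`), some small outer scale `lam`; continuous `f` of bounded support. -/
def MODL (η : ℝ → ℝ) : Prop :=
  ∃ lam : ℝ, 0 < lam ∧ lam < 1 / 10 ∧ ∃ C : ℝ, 0 ≤ C ∧ ∀ U f : ℝ × ℝ → ℝ, Fld 3 U → Continuous f → Nice f →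
    ∀ S : ℕ, ∫ z, (tk (kerE η lam S) U f z) ^ 2 ≤ C * ∫ z, (f z) ^ 2

/-- S11 as an implication: mollify `U` in `y`, rescale isotropically, `ψ t = (η t - η (2t))/t`. -/
def S11 : Prop := (∀ ψ, PsiC ψ → MOD ψ) → ∀ η, EtaC η → MODL η

/-- local real estimate in coordinates of `ℝ × ℝ` (field `= e₁` at the origin). -/
def LOCR : Prop :=
  ∃ a : ℝ, 0 < a ∧ a < 1 / 2 ∧ ∃ C : ℝ, 0 ≤ C ∧ ∀ v₁ v₂ : ℝ × ℝ → ℝ,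
    (∀ z, v₁ z ^ 2 + v₂ z ^ 2 = 1) →
    (∀ z z', (v₁ z - v₁ z') ^ 2 + (v₂ z - v₂ z') ^ 2 ≤ (z.1 - z'.1) ^ 2 + (z.2 - z'.2) ^ 2) →
    v₁ (0, 0) = 1 → v₂ (0, 0) = 0 →
    ∀ f : ℝ × ℝ → ℝ, Continuous f → (∃ M : ℝ, ∀ z, |f z| ≤ M) → ∀ ε : ℝ, 0 < ε → ε < a →
    ∫ z in {z : ℝ × ℝ | z.1 ^ 2 + z.2 ^ 2 < a ^ 2},
        (∫ t in Set.Ioo (-a) (-ε) ∪ Set.Ioo ε a, f (z.1 - t * v₁ z, z.2 - t * v₂ z) / t) ^ 2 ≤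
      C * ∫ z in {z : ℝ × ℝ | z.1 ^ 2 + z.2 ^ 2 < (5 * a) ^ 2}, (f z) ^ 2

/-- S12: from MODL to LOCR. -/
def S12 : Prop := (∀ η, EtaC η → MODL η) → LOCR

/-- the statement S0115. -/
def TGT : Prop :=
    ∃ a : ℝ, 0 < a ∧ a < 1 / 2 ∧ ∃ C : ℝ, ∀ v : EuclideanSpace ℝ (Fin 2) → EuclideanSpace ℝ (Fin 2),
      (∀ x, ‖v x‖ = 1) → LipschitzWith 1 v → ∀ f : SchwartzMap (EuclideanSpace ℝ (Fin 2)) ℂ, ∀ ε : ℝ, 0 < ε → ε < a →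
        MeasureTheory.eLpNorm
            (fun x : EuclideanSpace ℝ (Fin 2) => ∫ t in Set.Ioo (-a) (-ε) ∪ Set.Ioo ε a, f (x - t • v x) / (t : ℂ)) 2
            MeasureTheory.volume ≤
          ENNReal.ofReal C * MeasureTheory.eLpNorm (⇑f) 2 MeasureTheory.volume

/-- S13: from LOCR to S0115 (rotate so that `v p = e₁`, average over the centre `p`). -/
def S13 : Prop := LOCR → TGT

theorem shell (h10 : ASM) (h11 : S11) (h12 : S12) (h13 : S13)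
    (h : ∀ φ ψ, PhiC φ → PsiC ψ → SB φ ψ) : TGT :=
  h13 (h12 (h11 (h10 h)))

end Crest.Agent.R087.Sh1x283
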