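import Crest.Agent.R087.OPdef_799

/-!
Row 87, operator part, leaf OP-PAIR-LOW-SHALLOW (helper115), part A: calculus.

* `ibp`      : `k^n ∫ p(u) F^(n)(a + k u) du = (-1)^n ∫ p^(n)(u) F(a + k u) du`;
* `scal`     : derivatives of `u ↦ ζ(A u - j)`;
* `leib`     : derivatives of `u ↦ ζ(a u - i) ζ(b u - j)`;
* `dint`     : `∫ |p^(n)| ≤ C b^(n-1)`;
* `cmp`      : comparison of the phases `κ` and `κ + d`.
-/

set_option autoImplicit false

noncomputable section

open MeasureTheory Crest.Agent.R087.Sh0x283 Crest.Agent.R087.GateDefx273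
open Crest.Agent.R087.OPdefx799

namespace Crest.Agent.R087.ShalAx115

/-! ### smooth functions -/

theorem cd_iter {f : ℝ → ℝ} (hf : ContDiff ℝ (⊤ : ℕ∞) f) (n : ℕ) :
    ContDiff ℝ (⊤ : ℕ∞) (iteratedDeriv n f) := by
  induction n with
  | zero => simpa using hf
  | succ n ih =>
    rw [iteratedDeriv_succ]
    exact (contDiff_infty_iff_deriv.1 ih).2

theorem cont_iter {f : ℝ → ℝ} (hf : ContDiff ℝ (⊤ : ℕ∞) f) (n : ℕ) :
    Continuous (iteratedDeriv n f) := (cd_iter hf n).continuous

theorem diff_iter {f : ℝ → ℝ} (hf : ContDiff ℝ (⊤ : ℕ∞) f) (n : ℕ) :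
    Differentiable ℝ (iteratedDeriv n f) := (cd_iter hf n).differentiable (by simp)

theorem cs_iter {f : ℝ → ℝ} (hf : HasCompactSupport f) (n : ℕ) :
    HasCompactSupport (iteratedDeriv n f) := by
  induction n with
  | zero => simpa using hf
  | succ n ih =>
    rw [iteratedDeriv_succ]
    exact ih.deriv

/-- integration by parts, once -/
theorem ibp1 (p F : ℝ → ℝ) (hp : ContDiff ℝ (⊤ : ℕ∞) p) (hpc : HasCompactSupport p)
    (hF : ContDiff ℝ (⊤ : ℕ∞) F) (a k : ℝ) :
    k * ∫ u, p u * deriv F (a + k * u) = - ∫ u, deriv p u * F (a + k * u) := by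
  have hFd : Differentiable ℝ F := hF.differentiable (by simp)
  have hpd : Differentiable ℝ p := hp.differentiable (by simp)
  have hF1 : Continuous (deriv F) := (contDiff_infty_iff_deriv.1 hF).2.continuous
  have hp1 : Continuous (deriv p) := (contDiff_infty_iff_deriv.1 hp).2.continuous
  have hv : ∀ u, HasDerivAt (fun u => F (a + k * u)) (k * deriv F (a + k * u)) u := by
    intro u
    have h1 : HasDerivAt (fun u => a + k * u) k u := by
      simpa using ((hasDerivAt_id u).const_mul k).const_add a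
    have h2 := (hFd (a + k * u)).hasDerivAt.comp u h1
    simpa [mul_comm, Function.comp_def] using h2
  have hlin : Continuous (fun u : ℝ => a + k * u) := by fun_prop
  have hc1 : HasCompactSupport (p * fun u => k * deriv F (a + k * u)) :=
    hpc.mul_right
  have hc2 : HasCompactSupport ((deriv p) * fun u => F (a + k * u)) :=
    hpc.deriv.mul_right
  have hc3 : HasCompactSupport (p * fun u => F (a + k * u)) :=
    hpc.mul_right
  have hi1 : Integrable (p * fun u => k * deriv F (a + k * u)) :=
    (hp.continuous.mul (continuous_const.mul (hF1.comp hlin))).integrable_of_hasCompactSupport hc1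
  have hi2 : Integrable ((deriv p) * fun u => F (a + k * u)) :=
    (hp1.mul (hF.continuous.comp hlin)).integrable_of_hasCompactSupport hc2
  have hi3 : Integrable (p * fun u => F (a + k * u)) :=
    (hp.continuous.mul (hF.continuous.comp hlin)).integrable_of_hasCompactSupport hc3
  have h := integral_mul_deriv_eq_deriv_mul_of_integrable (u := p) (v := fun u => F (a + k * u))
    (u' := deriv p) (v' := fun u => k * deriv F (a + k * u))
    (fun x _ => (hpd x).hasDerivAt) (fun x _ => hv x) hi1 hi2 hi3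
  rw [← h, ← integral_const_mul]
  refine integral_congr_ae (Filter.Eventually.of_forall fun u => ?_)
  simp only
  ring

/-- integration by parts, `n` times -/
theorem ibp (n : ℕ) (p F : ℝ → ℝ) (hp : ContDiff ℝ (⊤ : ℕ∞) p) (hpc : HasCompactSupport p)
    (hF : ContDiff ℝ (⊤ : ℕ∞) F) (a k : ℝ) :
    k ^ n * ∫ u, p u * iteratedDeriv n F (a + k * u) =
      (-1) ^ n * ∫ u, iteratedDeriv n p u * F (a + k * u) := by
  induction n generalizing p with
  | zero => simp
  | succ n ih =>
    have h1 := ibp1 p (iteratedDeriv n F) hp hpc (cd_iter hF n) a k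
    have h2 := ih (deriv p) (contDiff_infty_iff_deriv.1 hp).2 hpc.deriv
    have e1 : (fun u => p u * iteratedDeriv (n + 1) F (a + k * u)) =
        fun u => p u * deriv (iteratedDeriv n F) (a + k * u) := by
      rw [iteratedDeriv_succ]
    rw [show (∫ u, p u * iteratedDeriv (n + 1) F (a + k * u)) =
        ∫ u, p u * deriv (iteratedDeriv n F) (a + k * u) from by rw [e1]]
    rw [pow_succ, mul_assoc, h1, iteratedDeriv_succ', mul_neg, h2]
    ring

theorem scal (n : ℕ) {f : ℝ → ℝ} (hf : ContDiff ℝ (⊤ : ℕ∞) f) (a j : ℝ) :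
    iteratedDeriv n (fun u => f (a * u - j)) = fun u => a ^ n * iteratedDeriv n f (a * u - j) := by
  have h1 : ContDiff ℝ n (fun u => f (u - j)) := by
    have : ContDiff ℝ (⊤ : ℕ∞) (fun u => f (u - j)) := hf.comp (contDiff_id.sub contDiff_const)
    exact this.of_le (by exact_mod_cast le_top)
  have h2 := iteratedDeriv_comp_const_mul h1 a
  have h3 := iteratedDeriv_comp_sub_const n f j
  rw [h2]
  funext u
  rw [h3]

theorem cd_scal {f : ℝ → ℝ} (hf : ContDiff ℝ (⊤ : ℕ∞) f) (a j : ℝ) :
    ContDiff ℝ (⊤ : ℕ∞) (fun u => f (a * u - j)) :=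
  hf.comp ((contDiff_const.mul contDiff_id).sub contDiff_const)

/-- Leibniz rule for the product of two wavelets -/
theorem leib (n : ℕ) {f : ℝ → ℝ} (hf : ContDiff ℝ (⊤ : ℕ∞) f) (a i b j : ℝ) (u : ℝ) :
    iteratedDeriv n (fun u => f (a * u - i) * f (b * u - j)) u =
      ∑ l ∈ Finset.range (n + 1), (n.choose l : ℝ) * (a ^ l * iteratedDeriv l f (a * u - i)) *
        (b ^ (n - l) * iteratedDeriv (n - l) f (b * u - j)) := by
  have h1 : ContDiffAt ℝ n (fun u => f (a * u - i)) u :=
    ((cd_scal hf a i).of_le (by exact_mod_cast le_top)).contDiffAt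
  have h2 : ContDiffAt ℝ n (fun u => f (b * u - j)) u :=
    ((cd_scal hf b j).of_le (by exact_mod_cast le_top)).contDiffAt
  rw [iteratedDeriv_fun_mul h1 h2]
  refine Finset.sum_congr rfl fun l _ => ?_
  rw [scal l hf a i, scal (n - l) hf b j]

end Crest.Agent.R087.ShalAx115
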