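import Crest.Agent.R087.ShalA_115
import Crest.Agent.R087.GateA_273

/-!
Row 87, operator part, leaf OP-PAIR-LOW-SHALLOW (helper115), part B: oscillatory integrals.

* `ibpc`   : iterated integration by parts for a chain `Ψ 0, Ψ 1, …` of derivatives;
* `zbd`    : bound of the derivatives of `ζ`;
* `pder_*` : the `n`-th derivative of `u ↦ ζ(a u - i) ζ(b u - j)`, `1 ≤ a ≤ b`;
* `cmp`    : comparison of the phases `κ` and `κ - d`.
-/

set_option autoImplicit false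

noncomputable section

open MeasureTheory Crest.Agent.R087.Sh0x283 Crest.Agent.R087.GateDefx273
open Crest.Agent.R087.OPdefx799 Crest.Agent.R087.ShalAx115 Crest.Agent.R087.GateAx273

namespace Crest.Agent.R087.ShalBx115

/-- integration by parts, chain form -/
theorem ibpc (n : ℕ) (p : ℝ → ℝ) (Ψ : ℕ → ℝ → ℝ) (hp : ContDiff ℝ (⊤ : ℕ∞) p)
    (hpc : HasCompactSupport p)
    (hd : ∀ i < n, ∀ v, HasDerivAt (Ψ i) (Ψ (i + 1) v) v) (hc : ∀ i ≤ n, Continuous (Ψ i))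
    (a k : ℝ) :
    k ^ n * ∫ u, p u * Ψ n (a + k * u) =
      (-1) ^ n * ∫ u, iteratedDeriv n p u * Ψ 0 (a + k * u) := by
  induction n generalizing p with
  | zero => simp
  | succ n ih =>
    have hpd : Differentiable ℝ p := hp.differentiable (by simp)
    have hp1 : Continuous (deriv p) := (contDiff_infty_iff_deriv.1 hp).2.continuous
    have hlin : Continuous (fun u : ℝ => a + k * u) := by fun_prop
    have hv : ∀ u, HasDerivAt (fun u => Ψ n (a + k * u)) (k * Ψ (n + 1) (a + k * u)) u := by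
      intro u
      have h1 : HasDerivAt (fun u => a + k * u) k u := by
        simpa using ((hasDerivAt_id u).const_mul k).const_add a
      have h2 := (hd n (Nat.lt_succ_self n) (a + k * u)).comp u h1
      simpa [mul_comm, Function.comp_def] using h2
    have cn : Continuous (Ψ n) := hc n (Nat.le_succ n)
    have cn1 : Continuous (Ψ (n + 1)) := hc (n + 1) le_rfl
    have hi1 : Integrable (p * fun u => k * Ψ (n + 1) (a + k * u)) :=
      (hp.continuous.mul (continuous_const.mul (cn1.comp hlin))).integrable_of_hasCompactSupport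
        hpc.mul_right
    have hi2 : Integrable ((deriv p) * fun u => Ψ n (a + k * u)) :=
      (hp1.mul (cn.comp hlin)).integrable_of_hasCompactSupport hpc.deriv.mul_right
    have hi3 : Integrable (p * fun u => Ψ n (a + k * u)) :=
      (hp.continuous.mul (cn.comp hlin)).integrable_of_hasCompactSupport hpc.mul_right
    have h := integral_mul_deriv_eq_deriv_mul_of_integrable (u := p)
      (v := fun u => Ψ n (a + k * u)) (u' := deriv p) (v' := fun u => k * Ψ (n + 1) (a + k * u))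
      (fun x _ => (hpd x).hasDerivAt) (fun x _ => hv x) hi1 hi2 hi3
    have h1 : k * ∫ u, p u * Ψ (n + 1) (a + k * u) = - ∫ u, deriv p u * Ψ n (a + k * u) := by
      rw [← h, ← integral_const_mul]
      refine integral_congr_ae (Filter.Eventually.of_forall fun u => ?_)
      simp only
      ring
    have h2 := ih (deriv p) (contDiff_infty_iff_deriv.1 hp).2 hpc.deriv
      (fun i hi => hd i (Nat.lt_succ_of_lt hi)) (fun i hi => hc i (Nat.le_succ_of_le hi))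
    rw [pow_succ, mul_assoc, h1, iteratedDeriv_succ', mul_neg, h2]
    ring

/-! ### the wavelet -/

theorem iter_zero {ζ : ℝ → ℝ} (hζ : ZetC ζ) (i : ℕ) (t : ℝ) (h : iteratedDeriv i ζ t ≠ 0) :
    1 / 8 ≤ t ∧ t ≤ 7 / 8 := by
  by_contra hc
  have hcc : t ∈ (Set.Icc (1 / 8 : ℝ) (7 / 8))ᶜ := by
    intro hm; exact hc ⟨hm.1, hm.2⟩
  have hop : IsOpen (Set.Icc (1 / 8 : ℝ) (7 / 8))ᶜ := isClosed_Icc.isOpen_compl
  have he : Set.EqOn ζ (fun _ => (0 : ℝ)) (Set.Icc (1 / 8 : ℝ) (7 / 8))ᶜ := by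
    intro x hx
    by_contra h0
    exact hx ⟨(hζ.2.1 x h0).1, (hζ.2.1 x h0).2⟩
  have h1 := he.iteratedDeriv_of_isOpen hop i hcc
  rw [h1] at h
  apply h
  rw [iteratedDeriv_const]
  split_ifs <;> rfl

theorem zbd {ζ : ℝ → ℝ} (hζ : ZetC ζ) (n : ℕ) :
    ∃ M : ℝ, 1 ≤ M ∧ ∀ i ≤ n, ∀ t, |iteratedDeriv i ζ t| ≤ M := by
  have h1 : ∀ i, ∃ C : ℝ, ∀ t, |iteratedDeriv i ζ t| ≤ C := fun i =>
    (cont_iter hζ.1 i).bounded_above_of_compact_support (cs_iter (zet_cs hζ) i)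
  choose C hC using h1
  refine ⟨1 + ∑ i ∈ Finset.range (n + 1), |C i|, ?_, ?_⟩
  · have : (0 : ℝ) ≤ ∑ i ∈ Finset.range (n + 1), |C i| := Finset.sum_nonneg fun i _ => abs_nonneg _
    linarith
  · intro i hi t
    have h2 : |C i| ≤ ∑ i ∈ Finset.range (n + 1), |C i| :=
      Finset.single_le_sum (f := fun i => |C i|) (fun i _ => abs_nonneg _)
        (Finset.mem_range.2 (Nat.lt_succ_of_le hi))
    have := hC i t
    have := le_abs_self (C i)
    linarith

/-- product of two wavelets -/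
def pp (ζ : ℝ → ℝ) (a i b j : ℝ) (u : ℝ) : ℝ := ζ (a * u - i) * ζ (b * u - j)

theorem cd_pp {ζ : ℝ → ℝ} (hζ : ZetC ζ) (a i b j : ℝ) : ContDiff ℝ (⊤ : ℕ∞) (pp ζ a i b j) :=
  (cd_scal hζ.1 a i).mul (cd_scal hζ.1 b j)

theorem cs_scal {ζ : ℝ → ℝ} (hζ : ZetC ζ) {b : ℝ} (hb : 0 < b) (j : ℝ) :
    HasCompactSupport (fun u => ζ (b * u - j)) := by
  refine HasCompactSupport.intro (isCompact_Icc (a := j / b) (b := (j + 1) / b)) ?_
  intro u hu
  by_contra h0
  have h1 := hζ.2.1 _ h0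
  apply hu
  constructor
  · rw [div_le_iff₀ hb]; nlinarith [h1.1]
  · rw [le_div_iff₀ hb]; nlinarith [h1.2]

theorem cs_pp {ζ : ℝ → ℝ} (hζ : ZetC ζ) (a i : ℝ) {b : ℝ} (hb : 0 < b) (j : ℝ) :
    HasCompactSupport (pp ζ a i b j) := (cs_scal hζ hb j).mul_left

theorem pder_eq {ζ : ℝ → ℝ} (hζ : ZetC ζ) (n : ℕ) (a i b j u : ℝ) :
    iteratedDeriv n (pp ζ a i b j) u =
      ∑ l ∈ Finset.range (n + 1), (n.choose l : ℝ) * (a ^ l * iteratedDeriv l ζ (a * u - i)) *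
        (b ^ (n - l) * iteratedDeriv (n - l) ζ (b * u - j)) := leib n hζ.1 a i b j u

theorem pder_ne {ζ : ℝ → ℝ} (hζ : ZetC ζ) (n : ℕ) (a i b j u : ℝ)
    (h : iteratedDeriv n (pp ζ a i b j) u ≠ 0) :
    (1 / 8 ≤ a * u - i ∧ a * u - i ≤ 7 / 8) ∧ (1 / 8 ≤ b * u - j ∧ b * u - j ≤ 7 / 8) := by
  rw [pder_eq hζ] at h
  obtain ⟨l, _, hl⟩ := Finset.exists_ne_zero_of_sum_ne_zero h
  have h1 : iteratedDeriv l ζ (a * u - i) ≠ 0 := by
    intro h0; apply hl; rw [h0]; ring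
  have h2 : iteratedDeriv (n - l) ζ (b * u - j) ≠ 0 := by
    intro h0; apply hl; rw [h0]; ring
  exact ⟨iter_zero hζ _ _ h1, iter_zero hζ _ _ h2⟩

theorem pder_bd {ζ : ℝ → ℝ} (hζ : ZetC ζ) {n : ℕ} {M : ℝ} (hM : 1 ≤ M)
    (hM' : ∀ i ≤ n, ∀ t, |iteratedDeriv i ζ t| ≤ M) {a b : ℝ} (ha : 0 ≤ a) (hab : a ≤ b)
    (i j u : ℝ) : |iteratedDeriv n (pp ζ a i b j) u| ≤ 2 ^ n * M ^ 2 * b ^ n := by
  rw [pder_eq hζ]
  have hb : 0 ≤ b := ha.trans hab
  calc |∑ l ∈ Finset.range (n + 1), (n.choose l : ℝ) * (a ^ l * iteratedDeriv l ζ (a * u - i)) *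
        (b ^ (n - l) * iteratedDeriv (n - l) ζ (b * u - j))|
      ≤ ∑ l ∈ Finset.range (n + 1), |(n.choose l : ℝ) * (a ^ l * iteratedDeriv l ζ (a * u - i)) *
        (b ^ (n - l) * iteratedDeriv (n - l) ζ (b * u - j))| := Finset.abs_sum_le_sum_abs _ _
    _ ≤ ∑ l ∈ Finset.range (n + 1), (n.choose l : ℝ) * (M ^ 2 * b ^ n) := by
        refine Finset.sum_le_sum fun l hl => ?_
        have hln : l ≤ n := Nat.le_of_lt_succ (Finset.mem_range.1 hl)
        rw [abs_mul, abs_mul, abs_mul, abs_mul, abs_of_nonneg (by positivity : (0 : ℝ) ≤ n.choose l),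
          abs_of_nonneg (by positivity : (0 : ℝ) ≤ a ^ l),
          abs_of_nonneg (by positivity : (0 : ℝ) ≤ b ^ (n - l))]
        have h1 := hM' l hln (a * u - i)
        have h2 := hM' (n - l) (Nat.sub_le _ _) (b * u - j)
        have h3 : a ^ l ≤ b ^ l := pow_le_pow_left₀ ha hab l
        calc (n.choose l : ℝ) * (a ^ l * |iteratedDeriv l ζ (a * u - i)|) *
              (b ^ (n - l) * |iteratedDeriv (n - l) ζ (b * u - j)|)
            ≤ (n.choose l : ℝ) * (b ^ l * M) * (b ^ (n - l) * M) := by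
              have hM0 : 0 ≤ M := by linarith
              gcongr
          _ = (n.choose l : ℝ) * (M ^ 2 * (b ^ l * b ^ (n - l))) := by ring
          _ = (n.choose l : ℝ) * (M ^ 2 * b ^ n) := by
              rw [← pow_add, Nat.add_sub_cancel' hln]
    _ = 2 ^ n * M ^ 2 * b ^ n := by
        rw [← Finset.sum_mul]
        have : (∑ l ∈ Finset.range (n + 1), (n.choose l : ℝ)) = 2 ^ n := by
          exact_mod_cast Nat.sum_range_choose n
        rw [this]; ring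

/-- bounded functions supported in the short cell -/
theorem int_cell_le {f : ℝ → ℝ} {b j A : ℝ} (hb : 0 < b) (_hA : 0 ≤ A)
    (hne : ∀ u, f u ≠ 0 → 1 / 8 ≤ b * u - j ∧ b * u - j ≤ 7 / 8) (hf : ∀ u, |f u| ≤ A) :
    |∫ u, f u| ≤ A * b⁻¹ := by
  have h1 : ∫ u, f u = ∫ u in Set.Icc (j / b) ((j + 1) / b), f u := by
    rw [setIntegral_eq_integral_of_forall_compl_eq_zero]
    intro u hu
    by_contra h0
    have h1 := hne u h0
    apply hu
    constructor
    · rw [div_le_iff₀ hb]; nlinarith [h1.1]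
    · rw [le_div_iff₀ hb]; nlinarith [h1.2]
  rw [h1]
  have h2 := norm_setIntegral_le_of_norm_le_const (μ := volume) (s := Set.Icc (j / b) ((j + 1) / b))
    (f := f) (C := A) (by rw [Real.volume_Icc]; exact ENNReal.ofReal_lt_top)
    (fun u _ => by rw [Real.norm_eq_abs]; exact hf u)
  rw [Real.norm_eq_abs] at h2
  refine h2.trans ?_
  have h3 : volume.real (Set.Icc (j / b) ((j + 1) / b)) = b⁻¹ := by
    rw [Real.volume_real_Icc_of_le]
    · field_simp; ring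
    · gcongr; linarith
  rw [h3]

theorem pow_cmp (n : ℕ) {t : ℝ} (ht : |t| ≤ 1) : |(1 + t) ^ n - 1| ≤ (2 ^ n - 1) * |t| := by
  induction n with
  | zero => simp
  | succ n ih =>
    have h1 : (1 + t) ^ (n + 1) - 1 = (1 + t) * ((1 + t) ^ n - 1) + t := by ring
    rw [h1]
    have h2 : |1 + t| ≤ 2 := by
      rw [abs_le] at ht ⊢
      constructor <;> linarith [ht.1, ht.2]
    calc |(1 + t) * ((1 + t) ^ n - 1) + t| ≤ |1 + t| * |(1 + t) ^ n - 1| + |t| := by
          rw [← abs_mul]; exact abs_add_le _ _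
      _ ≤ 2 * ((2 ^ n - 1) * |t|) + |t| := by
          have : 0 ≤ |(1 + t) ^ n - 1| := abs_nonneg _
          gcongr
      _ = (2 ^ (n + 1) - 1) * |t| := by ring

/-- comparison of the phases `κ` and `κ - d` -/
theorem cmp {ζ : ℝ → ℝ} (hζ : ZetC ζ) {n : ℕ} {M : ℝ} (hM : 1 ≤ M)
    (hM' : ∀ i ≤ n, ∀ t, |iteratedDeriv i ζ t| ≤ M) (Ψ : ℕ → ℝ → ℝ)
    (hd : ∀ i < n, ∀ v, HasDerivAt (Ψ i) (Ψ (i + 1) v) v) (hc : ∀ i ≤ n, Continuous (Ψ i))
    (h0 : ∀ v, |Ψ 0 v| ≤ 1) (hL : ∀ v v', |Ψ 0 v - Ψ 0 v'| ≤ |v - v'|)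
    {a b : ℝ} (ha : 0 < a) (hab : a ≤ b) (i j c κ d x y : ℝ) (hκ : 2 * b ≤ |κ|) (hd' : |d| ≤ a)
    (hx : ∀ u, 1 / 8 ≤ a * u - i → a * u - i ≤ 7 / 8 → |u - x| ≤ a⁻¹) :
    |κ ^ n * (∫ u, pp ζ a i b j u * Ψ n (c + κ * (u - y) - d * (u - x))) -
      (-1) ^ n * ∫ u, iteratedDeriv n (pp ζ a i b j) u * Ψ 0 (c + κ * (u - y))| ≤
      (8 ^ n * M ^ 2) * b ^ n * b⁻¹ * (|d| * a⁻¹) := by
  have hb : 0 < b := lt_of_lt_of_le ha hab
  have hk0 : κ ≠ 0 := by
    intro h; rw [h, abs_zero] at hκ; linarith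
  have hkp : 0 < |κ| := abs_pos.2 hk0
  set t : ℝ := -(d / κ) with ht
  have htb : |t| ≤ 1 / 2 := by
    rw [ht, abs_neg, abs_div, div_le_iff₀ hkp]; linarith
  have htd : |t| ≤ |d| * a⁻¹ := by
    rw [ht, abs_neg, abs_div, div_eq_mul_inv]
    have : |κ|⁻¹ ≤ a⁻¹ := by
      apply inv_anti₀ ha; linarith
    gcongr
  have hkd : κ - d = κ * (1 + t) := by
    rw [ht]; field_simp; ring
  -- integration by parts for the phase κ - d
  have e1 := ibpc n (pp ζ a i b j) Ψ (cd_pp hζ a i b j) (cs_pp hζ a i hb j) hd hc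
    (c - κ * y + d * x) (κ - d)
  have e2 : (fun u => pp ζ a i b j u * Ψ n (c + κ * (u - y) - d * (u - x))) =
      fun u => pp ζ a i b j u * Ψ n (c - κ * y + d * x + (κ - d) * u) := by
    funext u; congr 2; ring
  have e3 : (fun u => iteratedDeriv n (pp ζ a i b j) u * Ψ 0 (c - κ * y + d * x + (κ - d) * u)) =
      fun u => iteratedDeriv n (pp ζ a i b j) u * Ψ 0 (c + κ * (u - y) - d * (u - x)) := by
    funext u; congr 2; ring
  rw [e2]
  rw [e3] at e1
  set K : ℝ := ∫ u, pp ζ a i b j u * Ψ n (c - κ * y + d * x + (κ - d) * u) with hK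
  set I1 : ℝ := ∫ u, iteratedDeriv n (pp ζ a i b j) u * Ψ 0 (c + κ * (u - y) - d * (u - x)) with hI1
  set I0 : ℝ := ∫ u, iteratedDeriv n (pp ζ a i b j) u * Ψ 0 (c + κ * (u - y)) with hI0
  have hA : 0 ≤ 2 ^ n * M ^ 2 * b ^ n := by positivity
  have hne : ∀ u, iteratedDeriv n (pp ζ a i b j) u ≠ 0 → 1 / 8 ≤ b * u - j ∧ b * u - j ≤ 7 / 8 :=
    fun u h => (pder_ne hζ n a i b j u h).2
  have hpb := pder_bd hζ hM hM' ha.le hab i j
  have cP : Continuous (iteratedDeriv n (pp ζ a i b j)) := cont_iter (cd_pp hζ a i b j) n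
  have sP : HasCompactSupport (iteratedDeriv n (pp ζ a i b j)) := cs_iter (cs_pp hζ a i hb j) n
  have c0 : Continuous (Ψ 0) := hc 0 (Nat.zero_le n)
  have b1 : |I1| ≤ 2 ^ n * M ^ 2 * b ^ n * b⁻¹ := by
    refine int_cell_le (j := j) hb hA (fun u hu => hne u (left_ne_zero_of_mul hu)) fun u => ?_
    rw [abs_mul]
    calc |iteratedDeriv n (pp ζ a i b j) u| * |Ψ 0 (c + κ * (u - y) - d * (u - x))|
        ≤ (2 ^ n * M ^ 2 * b ^ n) * 1 := by
          have := h0 (c + κ * (u - y) - d * (u - x))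
          have := hpb u
          gcongr
      _ = _ := mul_one _
  have b2 : |I1 - I0| ≤ 2 ^ n * M ^ 2 * b ^ n * (|d| * a⁻¹) * b⁻¹ := by
    rw [hI1, hI0, ← integral_sub]
    · have e4 : (fun u => iteratedDeriv n (pp ζ a i b j) u * Ψ 0 (c + κ * (u - y) - d * (u - x)) -
          iteratedDeriv n (pp ζ a i b j) u * Ψ 0 (c + κ * (u - y))) =
          fun u => iteratedDeriv n (pp ζ a i b j) u *
            (Ψ 0 (c + κ * (u - y) - d * (u - x)) - Ψ 0 (c + κ * (u - y))) := by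
        funext u; ring
      rw [e4]
      refine int_cell_le (j := j) hb (by positivity) (fun u hu => hne u (left_ne_zero_of_mul hu))
        fun u => ?_
      rw [abs_mul]
      by_cases hu : iteratedDeriv n (pp ζ a i b j) u = 0
      · rw [hu, abs_zero, zero_mul]; positivity
      · have h3 := (pder_ne hζ n a i b j u hu).1
        have h4 := hx u h3.1 h3.2
        have h5 := hL (c + κ * (u - y) - d * (u - x)) (c + κ * (u - y))
        have h6 : |c + κ * (u - y) - d * (u - x) - (c + κ * (u - y))| = |d| * |u - x| := by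
          rw [← abs_mul, ← abs_neg]; congr 1; ring
        rw [h6] at h5
        have h7 := hpb u
        calc |iteratedDeriv n (pp ζ a i b j) u| *
              |Ψ 0 (c + κ * (u - y) - d * (u - x)) - Ψ 0 (c + κ * (u - y))|
            ≤ (2 ^ n * M ^ 2 * b ^ n) * (|d| * |u - x|) := by gcongr
          _ ≤ (2 ^ n * M ^ 2 * b ^ n) * (|d| * a⁻¹) := by gcongr
    · exact (cP.mul (c0.comp (by fun_prop))).integrable_of_hasCompactSupport sP.mul_right
    · exact (cP.mul (c0.comp (by fun_prop))).integrable_of_hasCompactSupport sP.mul_right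
  -- `κ^n K - (-1)^n I0 = (-1)^n (I1 - I0) - (κ^n ((1+t)^n - 1)) K`
  have e5 : κ ^ n * K - (-1) ^ n * I0 =
      (-1) ^ n * (I1 - I0) - ((1 + t) ^ n - 1) * (κ ^ n * K) := by
    have : (κ * (1 + t)) ^ n * K = (-1) ^ n * I1 := by rw [← hkd]; exact e1
    rw [mul_pow] at this
    linear_combination this
  have hκK : |κ ^ n * K| ≤ 2 ^ n * |I1| := by
    have h3 : (κ * (1 + t)) ^ n * K = (-1) ^ n * I1 := by rw [← hkd]; exact e1
    rw [mul_pow] at h3
    have h4 : |(1 + t) ^ n| * |κ ^ n * K| = |I1| := by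
      rw [← abs_mul]
      have : (1 + t) ^ n * (κ ^ n * K) = (-1) ^ n * I1 := by rw [← h3]; ring
      rw [this, abs_mul, abs_pow, abs_neg, abs_one, one_pow, one_mul]
    have h5 : (1 / 2 : ℝ) ^ n ≤ |(1 + t) ^ n| := by
      rw [abs_pow]
      apply pow_le_pow_left₀ (by norm_num)
      have := neg_abs_le t
      have h6 : (1 : ℝ) / 2 ≤ 1 + t := by linarith
      exact h6.trans (le_abs_self _)
    have h7 : (1 / 2 : ℝ) ^ n * |κ ^ n * K| ≤ |I1| := by
      rw [← h4]; gcongr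
    calc |κ ^ n * K| = 2 ^ n * ((1 / 2 : ℝ) ^ n * |κ ^ n * K|) := by
          rw [← mul_assoc, ← mul_pow]; norm_num
      _ ≤ 2 ^ n * |I1| := by gcongr
  rw [e5]
  have h8 := pow_cmp n (htb.trans (by norm_num) : |t| ≤ 1)
  have h2n : (1 : ℝ) ≤ 2 ^ n := one_le_pow₀ (by norm_num)
  calc |(-1) ^ n * (I1 - I0) - ((1 + t) ^ n - 1) * (κ ^ n * K)|
      ≤ |I1 - I0| + |(1 + t) ^ n - 1| * |κ ^ n * K| := by
        refine (abs_sub _ _).trans ?_
        rw [abs_mul, abs_mul, abs_pow, abs_neg, abs_one, one_pow, one_mul]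
    _ ≤ 2 ^ n * M ^ 2 * b ^ n * (|d| * a⁻¹) * b⁻¹ +
        ((2 ^ n - 1) * (|d| * a⁻¹)) * (2 ^ n * (2 ^ n * M ^ 2 * b ^ n * b⁻¹)) := by
        have h9 : (2 ^ n - 1) * |t| ≤ (2 ^ n - 1) * (|d| * a⁻¹) := by
          apply mul_le_mul_of_nonneg_left htd; linarith
        have h10 : |κ ^ n * K| ≤ 2 ^ n * (2 ^ n * M ^ 2 * b ^ n * b⁻¹) :=
          hκK.trans (by gcongr)
        have h11 : 0 ≤ (2 ^ n - 1) * (|d| * a⁻¹) := by
          apply mul_nonneg (by linarith); positivity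
        gcongr
        exact h8.trans h9
    _ ≤ _ := by
        have h12 : 0 ≤ M ^ 2 * b ^ n * b⁻¹ * (|d| * a⁻¹) := by positivity
        have h13 : (2 : ℝ) ^ n + (2 ^ n - 1) * (2 ^ n * 2 ^ n) ≤ 8 ^ n := by
          have h8' : (8 : ℝ) ^ n = 2 ^ n * 2 ^ n * 2 ^ n := by rw [← mul_pow, ← mul_pow]; norm_num
          rw [h8']; nlinarith [h2n, mul_nonneg (by linarith : (0:ℝ) ≤ 2 ^ n) (by linarith : (0:ℝ) ≤ 2 ^ n - 1)]
        calc 2 ^ n * M ^ 2 * b ^ n * (|d| * a⁻¹) * b⁻¹ +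
              (2 ^ n - 1) * (|d| * a⁻¹) * (2 ^ n * (2 ^ n * M ^ 2 * b ^ n * b⁻¹))
            = ((2 : ℝ) ^ n + (2 ^ n - 1) * (2 ^ n * 2 ^ n)) * (M ^ 2 * b ^ n * b⁻¹ * (|d| * a⁻¹)) := by
              ring
          _ ≤ 8 ^ n * (M ^ 2 * b ^ n * b⁻¹ * (|d| * a⁻¹)) := by gcongr
          _ = _ := by ring

end Crest.Agent.R087.ShalBx115
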