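import Crest.Agent.R087.Asm3_283
import Crest.Agent.R087.ABS_52
import Crest.Agent.R087.ALG_390
import Crest.Agent.R087.Apx_738
import Crest.Agent.R087.SBK_545
import Crest.Agent.R087.Comm_824
import Crest.Agent.R087.DCE_90
import Crest.Agent.R087.LPup_565
import Crest.Agent.R087.LemL_118
import Crest.Agent.R087.TB_820
import Crest.Agent.R087.S11_168
import Crest.Agent.R087.S12_575
import Crest.Agent.R087.S13_738

/-!
Row 87 (S0115), the outer shell assembled: the statement follows from the single band estimate.
-/

namespace Crest.Agent.R087.Shellx283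

open Crest.Agent.R087 Sh0x283 Sh1x283

theorem lemL : LemL := LemLx118.lemL DCEx90.sqt1 LPupx565.lpup

theorem comm : COMM := Commx824.comm lemL

theorem asm : ASM :=
  Asm3x283.asm ABSx52.abs9 ALGx390.alg Apxx738.apx SBKx545.sbk comm TBx820.tb

/-- S0115 from the single band estimate. -/
theorem shell_final (h : ∀ φ ψ, PhiC φ → PsiC ψ → SB φ ψ) : TGT :=
  shell asm S11x168.s11 S12x575.s12 S13x738.s13 h

end Crest.Agent.R087.Shellx283
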