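import Crest.Agent.R087.StopAvg_630
import Crest.Agent.R087.TreeIf_153

/-!
# Row 87 (S0115), operator part: the stopping scale given by averages of `Θ` (helper630)

`sig Θ lam s0 S x` : first scale `s` with `S ≤ s` or `stp Θ lam s0 s x`.
-/

set_option autoImplicit false

noncomputable section

open MeasureTheory ENNReal

namespace Crest.Agent.R087.Sigx630

open Crest.Agent.R087.Massx546 Crest.Agent.R087.StopAvgx630 Crest.Agent.R087.TreeIfx153
open Crest.Agent.R087.T1x90 (Tree)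

open scoped Classical in
/-- the stopping scale -/
def sig (Θ : ℝ → ℝ≥0∞) (lam : ℝ≥0∞) (s0 S : ℕ) (x : ℝ) : ℕ :=
  Nat.find (⟨S, Or.inl le_rfl⟩ : ∃ s, S ≤ s ∨ stp Θ lam s0 s x)

variable {Θ : ℝ → ℝ≥0∞} {lam : ℝ≥0∞} {s0 S : ℕ}

theorem lt_sig {s : ℕ} {x : ℝ} : s < sig Θ lam s0 S x ↔ s < S ∧ ¬ stp Θ lam s0 s x := by
  classical
  constructor
  · intro h
    have := Nat.find_min (⟨S, Or.inl le_rfl⟩ : ∃ s, S ≤ s ∨ stp Θ lam s0 s x) h
    push Not at this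
    exact this
  · rintro ⟨h1, h2⟩
    by_contra hcon
    rw [not_lt] at hcon
    rcases Nat.find_spec (⟨S, Or.inl le_rfl⟩ : ∃ s, S ≤ s ∨ stp Θ lam s0 s x) with h | h
    · have h3 : S ≤ sig Θ lam s0 S x := h
      omega
    · exact h2 (stp_mono hcon h)

theorem sig_le (x : ℝ) : sig Θ lam s0 S x ≤ S := by
  by_contra hcon
  rw [not_le, lt_sig] at hcon
  omega

theorem sig_cell {s : ℕ} {x y : ℝ} (h : cel s x = cel s y) :
    s < sig Θ lam s0 S x ↔ s < sig Θ lam s0 S y := by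
  rw [lt_sig, lt_sig, stp_congr h]

theorem measurable_sig : Measurable (sig Θ lam s0 S) := by
  apply measurable_of_Ioi
  intro s
  exact meas_of_congr s fun _ _ h => sig_cell h

theorem stopS : StopS S (sig Θ lam s0 S) where
  meas := measurable_sig
  le := sig_le
  cell := fun _ _ _ h => sig_cell h

theorem sig_lt_sub : {x | sig Θ lam s0 S x < S} ⊆ {x | stp Θ lam s0 S x} := by
  intro x hx
  have hx : sig Θ lam s0 S x < S := hx
  by_contra hcon
  have h1 : ¬ stp Θ lam s0 (sig Θ lam s0 S x) x := fun h => hcon (stp_mono hx.le h)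
  have := lt_sig.2 ⟨hx, h1⟩
  omega

theorem vol_stp (hlam : lam ≠ 0) (hlam' : lam ≠ ⊤) {A : ℝ≥0∞} (hΘ : ∫⁻ x, Θ x ≤ A) (s : ℕ) :
    volume {x | stp Θ lam s0 s x} ≤ A / lam := by
  rw [ENNReal.le_div_iff_mul_le (Or.inl hlam) (Or.inl hlam'), mul_comm]
  exact (weak s0 s).trans ((setLIntegral_le_lintegral _ _).trans hΘ)

theorem vol_sig (hlam : lam ≠ 0) (hlam' : lam ≠ ⊤) {A : ℝ≥0∞} (hΘ : ∫⁻ x, Θ x ≤ A) :
    volume {x | sig Θ lam s0 S x < S} ≤ A / lam :=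
  (measure_mono sig_lt_sub).trans (vol_stp hlam hlam' hΘ S)

/-- removed points -/
theorem vol_remv {m0 : ℤ} {h : ℝ × ℝ → ℝ} {act : ℕ → Set (ℝ × ℝ)} {Z : Set (ℝ × ℝ)} {H D : ℝ}
    (T : Tree S s0 m0 h act Z H D) (hlam : lam ≠ 0) (hlam' : lam ≠ ⊤) {A : ℝ≥0∞}
    (hΘ : ∫⁻ x, Θ x ≤ A) :
    volume (remv act Z (sig Θ lam s0 S)) ≤ ENNReal.ofReal D * (A / lam) := by
  have h1 : remv act Z (sig Θ lam s0 S) ⊆
      {z | z ∈ Z ∧ ∃ s, z ∈ act s ∧ stp Θ lam s0 s z.1} := by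
    rintro z ⟨hz, s, hs, hle⟩
    refine ⟨hz, s, hs, ?_⟩
    have hsS : s < S := by
      by_contra hcon
      exact Set.disjoint_left.1 (T.hi s (not_lt.1 hcon)) hs hz
    by_contra hcon
    have := lt_sig.2 ⟨hsS, hcon⟩
    omega
  refine (measure_mono h1).trans ((rem volume (fun z : ℝ × ℝ => z.1) Z act s0 S (ENNReal.ofReal D)
    (fun s hs => T.hi s hs.le) ?_).trans ?_)
  · intro z hz s hs0 hex
    refine (T.dens z hz s hs0 hex).trans (le_of_eq ?_)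
    rw [ENNReal.ofReal_mul T.D0]
  · gcongr
    exact vol_stp hlam hlam' hΘ S

/-- below the stopping scale the averages are not hit -/
theorem not_hit {s q : ℕ} {x : ℝ} (h : s < sig Θ lam s0 S x) (h0 : s0 ≤ q) (hq : q ≤ s) :
    ¬ hit Θ lam q x := fun hh => (lt_sig.1 h).2 ⟨q, h0, hq, hh⟩

end Crest.Agent.R087.Sigx630
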