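import Crest.Agent.R087.GateDef_273

/-!
Row 87, operator part (helper681): expansion of `‖T^* H‖²` as an ordered double sum over scales.

`kk φ ζ U s z w` : the gated kernel of the single scale `2^-s` (dual form);
`TS φ ζ U S H w = ∑_{s<S} ∫ z, kk s z w * H s z` : the adjoint with scale dependent weights `H s`;
`pr φ ζ U s z s' z' = ∫ w, kk s z w * kk s' z' w` : the pairing.

* `pr_zero` : the pairing vanishes unless `J_{s'}(x') ⊆ J_s(x)` (for `s ≤ s'`);
* `TS_sq_le` : `∫ (TS H)² ≤ 2 ∑_{s'<S} ∑_{s≤s'} ∫ z', H s' z' * ∫ z, H s z * pr s z s' z'`.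
-/

set_option autoImplicit false

noncomputable section

open MeasureTheory Crest.Agent.R087.Sh0x283 Crest.Agent.R087.Sh1x283 Crest.Agent.R087.GateDefx273

namespace Crest.Agent.R087.Sqx681

/-- gated kernel of one scale. -/
def kk (φ ζ : ℝ → ℝ) (U : ℝ × ℝ → ℝ) (s : ℕ) (z w : ℝ × ℝ) : ℝ :=
  (2 : ℝ) ^ s * gt (Int.fract ((2 : ℝ) ^ s * z.1)) * ζ ((2 : ℝ) ^ s * w.1 - ⌊(2 : ℝ) ^ s * z.1⌋) *
    φ (z.2 + (w.1 - z.1) * U z - w.2)

/-- adjoint with weights. -/
def TS (φ ζ : ℝ → ℝ) (U : ℝ × ℝ → ℝ) (S : ℕ) (H : ℕ → ℝ × ℝ → ℝ) (w : ℝ × ℝ) : ℝ :=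
  ∑ s ∈ Finset.range S, ∫ z, kk φ ζ U s z w * H s z

/-- the pairing of two kernels. -/
def pr (φ ζ : ℝ → ℝ) (U : ℝ × ℝ → ℝ) (s : ℕ) (z : ℝ × ℝ) (s' : ℕ) (z' : ℝ × ℝ) : ℝ :=
  ∫ w, kk φ ζ U s z w * kk φ ζ U s' z' w

/-- bounded measurable functions with bounded support are integrable. -/
theorem int_of_bdd {X : Type*} [NormedAddCommGroup X] [ProperSpace X] [MeasurableSpace X]
    [BorelSpace X] (μ : Measure X) [IsFiniteMeasureOnCompacts μ] (f : X → ℝ)
    (hf : AEStronglyMeasurable f μ) (M : ℝ) (hM : ∀ z, |f z| ≤ M) (R : ℝ) (hR : ∀ z, R < ‖z‖ → f z = 0) :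
    Integrable f μ := by
  have h1 : IntegrableOn f (Metric.closedBall 0 R) μ := by
    refine Measure.integrableOn_of_bounded (M := M) ?_ hf (Filter.Eventually.of_forall hM)
    exact (isCompact_closedBall 0 R).measure_lt_top.ne
  refine (integrableOn_iff_integrable_of_support_subset ?_).1 h1
  intro z hz
  simp only [Metric.mem_closedBall, dist_zero_right]
  by_contra hcon
  exact hz (hR z (not_le.1 hcon))

theorem measurable_gt : Measurable gt := by
  unfold gt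
  refine Measurable.ite (measurableSet_lt measurable_id measurable_const) measurable_const ?_
  refine Measurable.ite (measurableSet_lt measurable_id measurable_const) measurable_const ?_
  refine Measurable.ite (measurableSet_lt measurable_id measurable_const) measurable_const ?_
  exact Measurable.ite (measurableSet_lt measurable_id measurable_const) measurable_const
    measurable_const

theorem abs_gt_le (t : ℝ) : |gt t| ≤ 1 := by
  unfold gt
  split_ifs <;> norm_num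

theorem measurable_kk {φ ζ : ℝ → ℝ} (hφ : Measurable φ) (hζ : Measurable ζ) {U : ℝ × ℝ → ℝ}
    (hU : Measurable U) (s : ℕ) :
    Measurable (fun p : (ℝ × ℝ) × (ℝ × ℝ) => kk φ ζ U s p.1 p.2) := by
  unfold kk
  have h1 : Measurable (fun p : (ℝ × ℝ) × (ℝ × ℝ) => (2 : ℝ) ^ s * p.1.1) :=
    (measurable_fst.fst).const_mul _
  refine Measurable.mul (Measurable.mul (Measurable.mul measurable_const ?_) ?_) ?_
  · exact measurable_gt.comp (measurable_fract.comp h1)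
  · refine hζ.comp ?_
    refine Measurable.sub ((measurable_snd.fst).const_mul _) ?_
    exact (Measurable.of_discrete (f := fun n : ℤ => (n : ℝ))).comp (Int.measurable_floor.comp h1)
  · refine hφ.comp ?_
    refine Measurable.sub (Measurable.add measurable_fst.snd ?_) measurable_snd.snd
    exact (measurable_snd.fst.sub measurable_fst.fst).mul (hU.comp measurable_fst)

/-- bound and support of the kernel. -/
theorem kk_bound {φ ζ : ℝ → ℝ} {a b : ℝ} (hφ : ∀ r, |φ r| ≤ a) (hζ : ∀ r, |ζ r| ≤ b) (U : ℝ × ℝ → ℝ)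
    (s : ℕ) (z w : ℝ × ℝ) : |kk φ ζ U s z w| ≤ 2 ^ s * b * a := by
  unfold kk
  have ha : 0 ≤ a := (abs_nonneg _).trans (hφ 0)
  have hb : 0 ≤ b := (abs_nonneg _).trans (hζ 0)
  rw [abs_mul, abs_mul, abs_mul, abs_of_nonneg (by positivity : (0 : ℝ) ≤ 2 ^ s)]
  have h1 := abs_gt_le (Int.fract ((2 : ℝ) ^ s * z.1))
  have h2 := hζ ((2 : ℝ) ^ s * w.1 - ⌊(2 : ℝ) ^ s * z.1⌋)
  have h3 := hφ (z.2 + (w.1 - z.1) * U z - w.2)
  calc (2 : ℝ) ^ s * |gt (Int.fract ((2 : ℝ) ^ s * z.1))| *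
        |ζ ((2 : ℝ) ^ s * w.1 - ⌊(2 : ℝ) ^ s * z.1⌋)| * |φ (z.2 + (w.1 - z.1) * U z - w.2)|
      ≤ 2 ^ s * 1 * b * a := by gcongr
    _ = 2 ^ s * b * a := by ring

theorem kk_supp {φ ζ : ℝ → ℝ} (hφ : ∀ r, 1 < |r| → φ r = 0) (hζ : ∀ t, ζ t ≠ 0 → 1 / 8 ≤ t ∧ t ≤ 7 / 8)
    {U : ℝ × ℝ → ℝ} {W : ℝ} (hW : ∀ z, |U z| ≤ W) (s : ℕ) (z w : ℝ × ℝ)
    (h : kk φ ζ U s z w ≠ 0) :
    ⌊(2 : ℝ) ^ s * w.1⌋ = ⌊(2 : ℝ) ^ s * z.1⌋ ∧ |w.1 - z.1| ≤ 1 ∧ |w.2 - z.2| ≤ 1 + W := by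
  unfold kk at h
  have h1 : ζ ((2 : ℝ) ^ s * w.1 - ⌊(2 : ℝ) ^ s * z.1⌋) ≠ 0 := fun h0 => h (by rw [h0]; ring)
  have h2 : φ (z.2 + (w.1 - z.1) * U z - w.2) ≠ 0 := fun h0 => h (by rw [h0]; ring)
  have h3 := hζ _ h1
  have h4 : |z.2 + (w.1 - z.1) * U z - w.2| ≤ 1 := by
    by_contra hc
    exact h2 (hφ _ (not_le.1 hc))
  have hfl : ⌊(2 : ℝ) ^ s * w.1⌋ = ⌊(2 : ℝ) ^ s * z.1⌋ := by
    rw [Int.floor_eq_iff]
    constructor <;> linarith [h3.1, h3.2]
  have hp : (1 : ℝ) ≤ 2 ^ s := one_le_pow₀ (by norm_num)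
  have hx : |w.1 - z.1| ≤ 1 := by
    have a1 := Int.floor_le ((2 : ℝ) ^ s * z.1)
    have a2 := Int.lt_floor_add_one ((2 : ℝ) ^ s * z.1)
    have a3 : |(2 : ℝ) ^ s * (w.1 - z.1)| ≤ 1 := by
      rw [abs_le]; constructor <;> linarith [h3.1, h3.2]
    rw [abs_mul, abs_of_nonneg (by positivity : (0 : ℝ) ≤ 2 ^ s)] at a3
    calc |w.1 - z.1| = 1 * |w.1 - z.1| := (one_mul _).symm
      _ ≤ 2 ^ s * |w.1 - z.1| := by gcongr
      _ ≤ 1 := a3
  refine ⟨hfl, hx, ?_⟩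
  have h5 : |(w.1 - z.1) * U z| ≤ 1 * W := by
    rw [abs_mul]
    have := hW z
    have := abs_nonneg (U z)
    gcongr
  have h6 : w.2 - z.2 = (w.1 - z.1) * U z - (z.2 + (w.1 - z.1) * U z - w.2) := by ring
  rw [h6]
  calc |(w.1 - z.1) * U z - (z.2 + (w.1 - z.1) * U z - w.2)|
      ≤ |(w.1 - z.1) * U z| + |z.2 + (w.1 - z.1) * U z - w.2| := abs_sub _ _
    _ ≤ 1 + W := by linarith

/-- floors at a coarser scale are determined by the floors at a finer scale. -/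
theorem floor_coarse {s s' : ℕ} (hs : s ≤ s') (x : ℝ) :
    ⌊(2 : ℝ) ^ s * x⌋ = ⌊(2 : ℝ) ^ s' * x⌋ / (2 ^ (s' - s) : ℕ) := by
  rw [← Int.floor_div_natCast]
  congr 1
  have h : (2 : ℝ) ^ s' = 2 ^ s * 2 ^ (s' - s) := by rw [← pow_add]; congr 1; omega
  rw [h]
  push_cast
  field_simp

theorem floor_coarse_eq {s s' : ℕ} (hs : s ≤ s') {x x' : ℝ}
    (h : ⌊(2 : ℝ) ^ s' * x⌋ = ⌊(2 : ℝ) ^ s' * x'⌋) : ⌊(2 : ℝ) ^ s * x⌋ = ⌊(2 : ℝ) ^ s * x'⌋ := by
  rw [floor_coarse hs, floor_coarse hs, h]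

/-- the pairing vanishes unless the finer interval is inside the coarser one. -/
theorem pr_zero {φ ζ : ℝ → ℝ} (hφ : ∀ r, 1 < |r| → φ r = 0)
    (hζ : ∀ t, ζ t ≠ 0 → 1 / 8 ≤ t ∧ t ≤ 7 / 8) {U : ℝ × ℝ → ℝ} {W : ℝ} (hW : ∀ z, |U z| ≤ W)
    {s s' : ℕ} (hs : s ≤ s') (z z' : ℝ × ℝ) (h : ⌊(2 : ℝ) ^ s * z.1⌋ ≠ ⌊(2 : ℝ) ^ s * z'.1⌋) :
    pr φ ζ U s z s' z' = 0 := by
  unfold pr
  have : ∀ w, kk φ ζ U s z w * kk φ ζ U s' z' w = 0 := by
    intro w
    by_contra hc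
    have h1 := (kk_supp hφ hζ hW s z w (left_ne_zero_of_mul hc)).1
    have h2 := (kk_supp hφ hζ hW s' z' w (right_ne_zero_of_mul hc)).1
    exact h (h1.symm.trans (floor_coarse_eq hs h2))
  simp [this]

/-- hypotheses on the profiles and the field. -/
structure Hyp (φ ζ : ℝ → ℝ) (U : ℝ × ℝ → ℝ) (a b W : ℝ) : Prop where
  mφ : Measurable φ
  mζ : Measurable ζ
  mU : Measurable U
  bφ : ∀ r, |φ r| ≤ a
  bζ : ∀ r, |ζ r| ≤ b
  bU : ∀ z, |U z| ≤ W
  sφ : ∀ r, 1 < |r| → φ r = 0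
  sζ : ∀ t, ζ t ≠ 0 → 1 / 8 ≤ t ∧ t ≤ 7 / 8

section main

variable {φ ζ : ℝ → ℝ} {U : ℝ × ℝ → ℝ} {a b W : ℝ}

theorem norm_w_le (hy : Hyp φ ζ U a b W) {s : ℕ} {z w : ℝ × ℝ} (h : kk φ ζ U s z w ≠ 0) :
    ‖w‖ ≤ ‖z‖ + (1 + W) := by
  have h1 := kk_supp hy.sφ hy.sζ hy.bU s z w h
  have hW : 0 ≤ W := (abs_nonneg _).trans (hy.bU 0)
  have e : w = z + (w - z) := by abel
  rw [e]
  refine (norm_add_le _ _).trans ?_
  gcongr
  rw [Prod.norm_def]
  refine max_le ?_ ?_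
  · exact h1.2.1.trans (by linarith)
  · exact h1.2.2

theorem integrable_kk (hy : Hyp φ ζ U a b W) {H : ℝ × ℝ → ℝ} (hH : Nice H) (s : ℕ) (w : ℝ × ℝ) :
    Integrable (fun z => kk φ ζ U s z w * H z) := by
  obtain ⟨hm, ⟨M, hM⟩, ⟨R, hR⟩⟩ := hH
  refine int_of_bdd volume _ ?_ (2 ^ s * b * a * M) ?_ R ?_
  · refine (Measurable.mul ?_ hm).aestronglyMeasurable
    exact (measurable_kk hy.mφ hy.mζ hy.mU s).comp (measurable_id.prodMk measurable_const)
  · intro z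
    rw [abs_mul]
    have h1 := kk_bound hy.bφ hy.bζ U s z w
    have h2 := hM z
    have : 0 ≤ 2 ^ s * b * a := (abs_nonneg _).trans h1
    gcongr
  · intro z hz
    rw [hR z hz, mul_zero]

/-- one scale piece of the adjoint. -/
def T1 (φ ζ : ℝ → ℝ) (U : ℝ × ℝ → ℝ) (s : ℕ) (H : ℝ × ℝ → ℝ) (w : ℝ × ℝ) : ℝ :=
  ∫ z, kk φ ζ U s z w * H z

theorem nice_T1 (hy : Hyp φ ζ U a b W) {H : ℝ × ℝ → ℝ} (hH : Nice H) (s : ℕ) :
    Nice (T1 φ ζ U s H) := by
  have hH' := hH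
  obtain ⟨hm, ⟨M, hM⟩, ⟨R, hR⟩⟩ := hH
  have ha : 0 ≤ a := (abs_nonneg _).trans (hy.bφ 0)
  have hb : 0 ≤ b := (abs_nonneg _).trans (hy.bζ 0)
  have hM0 : 0 ≤ M := (abs_nonneg _).trans (hM 0)
  refine ⟨?_, ⟨∫ z, |2 ^ s * b * a * H z|, ?_⟩, ⟨R + (1 + W), ?_⟩⟩
  · have h1 : Measurable (fun p : (ℝ × ℝ) × (ℝ × ℝ) => kk φ ζ U s p.1 p.2 * H p.1) :=
      (measurable_kk hy.mφ hy.mζ hy.mU s).mul (hm.comp measurable_fst)
    have h2 : StronglyMeasurable (fun w : ℝ × ℝ => ∫ z, (fun q : (ℝ × ℝ) × (ℝ × ℝ) =>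
        kk φ ζ U s q.2 q.1 * H q.2) (w, z)) := by
      apply StronglyMeasurable.integral_prod_right
      exact (h1.comp measurable_swap).stronglyMeasurable
    exact h2.measurable
  · intro w
    unfold T1
    refine (abs_integral_le_integral_abs).trans ?_
    refine integral_mono_of_nonneg (Filter.Eventually.of_forall fun z => abs_nonneg _) ?_
      (Filter.Eventually.of_forall fun z => ?_)
    · refine (int_of_bdd volume _ (hm.const_mul (2 ^ s * b * a)).aestronglyMeasurable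
        (2 ^ s * b * a * M) ?_ R ?_).abs
      · intro z
        rw [abs_mul, abs_of_nonneg (by positivity : 0 ≤ 2 ^ s * b * a)]
        have := hM z
        gcongr
      · intro z hz
        rw [hR z hz, mul_zero]
    · simp only
      rw [abs_mul, abs_mul]
      have h1 := kk_bound hy.bφ hy.bζ U s z w
      rw [abs_of_nonneg (by positivity : 0 ≤ 2 ^ s * b * a)]
      gcongr
  · intro w hw
    unfold T1
    have : ∀ z, kk φ ζ U s z w * H z = 0 := by
      intro z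
      by_contra hc
      have h1 := norm_w_le hy (left_ne_zero_of_mul hc)
      have h2 : ¬ R < ‖z‖ := fun h3 => (right_ne_zero_of_mul hc) (hR z h3)
      linarith [not_lt.1 h2]
    simp [this]

theorem nice_integrable_mul {f g : ℝ × ℝ → ℝ} (hf : Nice f) (hg : Nice g) :
    Integrable (fun z => f z * g z) := by
  obtain ⟨hm, ⟨M, hM⟩, ⟨R, hR⟩⟩ := hf
  obtain ⟨hm', ⟨M', hM'⟩, _⟩ := hg
  refine int_of_bdd volume _ (hm.mul hm').aestronglyMeasurable (M * M') ?_ R ?_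
  · intro z
    rw [abs_mul]
    have h1 := hM z
    have h2 := hM' z
    have : 0 ≤ M := (abs_nonneg _).trans h1
    gcongr
  · intro z hz
    rw [hR z hz, zero_mul]

/-- Fubini for two scales. -/
theorem T1_mul (hy : Hyp φ ζ U a b W) {H H' : ℝ × ℝ → ℝ} (hH : Nice H) (hH' : Nice H') (s s' : ℕ) :
    ∫ w, T1 φ ζ U s H w * T1 φ ζ U s' H' w =
      ∫ z', H' z' * ∫ z, H z * pr φ ζ U s z s' z' := by
  have ha : 0 ≤ a := (abs_nonneg _).trans (hy.bφ 0)
  have hb : 0 ≤ b := (abs_nonneg _).trans (hy.bζ 0)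
  obtain ⟨hm, ⟨M, hM⟩, ⟨R, hR⟩⟩ := id hH
  obtain ⟨hm', ⟨M', hM'⟩, ⟨R', hR'⟩⟩ := id hH'
  have hM0 : 0 ≤ M := (abs_nonneg _).trans (hM 0)
  have hM0' : 0 ≤ M' := (abs_nonneg _).trans (hM' 0)
  have hW : 0 ≤ W := (abs_nonneg _).trans (hy.bU 0)
  have hk := measurable_kk hy.mφ hy.mζ hy.mU s
  have hk' := measurable_kk hy.mφ hy.mζ hy.mU s'
  -- first Fubini: `w` and `z'`
  have e1 : ∀ w, T1 φ ζ U s H w * T1 φ ζ U s' H' w =
      ∫ z', T1 φ ζ U s H w * (kk φ ζ U s' z' w * H' z') := by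
    intro w
    rw [integral_const_mul]; rfl
  simp_rw [e1]
  have hT := nice_T1 hy hH s
  obtain ⟨hTm, ⟨N, hN⟩, ⟨Q, hQ⟩⟩ := id hT
  have hN0 : 0 ≤ N := (abs_nonneg _).trans (hN 0)
  have i1 : Integrable (fun p : (ℝ × ℝ) × (ℝ × ℝ) =>
      T1 φ ζ U s H p.1 * (kk φ ζ U s' p.2 p.1 * H' p.2)) (volume.prod volume) := by
    refine int_of_bdd (volume.prod volume) _ ?_ (N * (2 ^ s' * b * a * M')) ?_ (max Q R') ?_
    · refine Measurable.aestronglyMeasurable ?_
      refine (hTm.comp measurable_fst).mul ?_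
      exact (hk'.comp measurable_swap).mul (hm'.comp measurable_snd)
    · intro p
      rw [abs_mul, abs_mul]
      have h1 := kk_bound hy.bφ hy.bζ U s' p.2 p.1
      have h2 := hN p.1
      have h3 := hM' p.2
      gcongr
    · intro p hp
      rw [Prod.norm_def] at hp
      by_cases h1 : Q < ‖p.1‖
      · rw [hQ _ h1, zero_mul]
      · have h2 : R' < ‖p.2‖ := by
          rcases lt_max_iff.1 hp with h | h
          · exact absurd (lt_of_le_of_lt (le_max_left _ _) h) h1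
          · exact lt_of_le_of_lt (le_max_right _ _) h
        rw [hR' _ h2]; ring
  rw [integral_integral_swap i1]
  congr 1
  ext z'
  -- second Fubini: `w` and `z`
  have e2 : ∀ w, T1 φ ζ U s H w * (kk φ ζ U s' z' w * H' z') =
      ∫ z, kk φ ζ U s z w * H z * (kk φ ζ U s' z' w * H' z') := by
    intro w
    rw [integral_mul_const]; rfl
  simp_rw [e2]
  have i2 : Integrable (fun p : (ℝ × ℝ) × (ℝ × ℝ) =>
      kk φ ζ U s p.2 p.1 * H p.2 * (kk φ ζ U s' z' p.1 * H' z')) (volume.prod volume) := by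
    refine int_of_bdd (volume.prod volume) _ ?_ (2 ^ s * b * a * M * (2 ^ s' * b * a * M')) ?_
      (max (‖z'‖ + (1 + W)) R) ?_
    · refine Measurable.aestronglyMeasurable ?_
      refine ((hk.comp measurable_swap).mul (hm.comp measurable_snd)).mul ?_
      exact (hk'.comp (measurable_const.prodMk measurable_fst)).mul_const _
    · intro p
      rw [abs_mul, abs_mul, abs_mul]
      have h1 := kk_bound hy.bφ hy.bζ U s' z' p.1
      have h2 := hM p.2
      have h3 := hM' z'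
      have h4 := kk_bound hy.bφ hy.bζ U s p.2 p.1
      gcongr
    · intro p hp
      rw [Prod.norm_def] at hp
      by_cases h1 : ‖z'‖ + (1 + W) < ‖p.1‖
      · have : kk φ ζ U s' z' p.1 = 0 := by
          by_contra hc
          exact absurd (norm_w_le hy hc) (not_le.2 h1)
        rw [this]; ring
      · have h2 : R < ‖p.2‖ := by
          rcases lt_max_iff.1 hp with h | h
          · exact absurd (lt_of_le_of_lt (le_max_left _ _) h) h1
          · exact lt_of_le_of_lt (le_max_right _ _) h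
        rw [hR _ h2]; ring
  rw [integral_integral_swap i2]
  rw [← integral_const_mul]
  congr 1
  ext z
  unfold pr
  rw [← integral_const_mul, ← integral_const_mul]
  congr 1
  ext w
  ring

/-- THE EXPANSION: the squared norm is at most twice the ordered double sum. -/
theorem TS_sq_le (hy : Hyp φ ζ U a b W) {H : ℕ → ℝ × ℝ → ℝ} (hH : ∀ s, Nice (H s)) (S : ℕ) :
    ∫ w, (TS φ ζ U S H w) ^ 2 ≤
      2 * ∑ s' ∈ Finset.range S, ∑ s ∈ Finset.range (s' + 1),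
        ∫ z', H s' z' * ∫ z, H s z * pr φ ζ U s z s' z' := by
  have key : ∀ S : ℕ, (∫ w, (TS φ ζ U S H w) ^ 2) +
      ∑ s ∈ Finset.range S, ∫ w, (T1 φ ζ U s (H s) w) ^ 2 =
      2 * ∑ s' ∈ Finset.range S, ∑ s ∈ Finset.range (s' + 1),
        ∫ w, T1 φ ζ U s (H s) w * T1 φ ζ U s' (H s') w := by
    intro S
    have hN : ∀ S : ℕ, Nice (TS φ ζ U S H) := by
      intro S
      induction S with
      | zero =>
        refine ⟨?_, ⟨0, ?_⟩, ⟨0, ?_⟩⟩
        · unfold TS; simp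
        · intro z; simp [TS]
        · intro z _; simp [TS]
      | succ n ih =>
        have h1 := nice_T1 hy (hH n) n
        obtain ⟨am, ⟨M, hM⟩, ⟨R, hR⟩⟩ := ih
        obtain ⟨am', ⟨M', hM'⟩, ⟨R', hR'⟩⟩ := h1
        have e : TS φ ζ U (n + 1) H = fun w => TS φ ζ U n H w + T1 φ ζ U n (H n) w := by
          ext w
          unfold TS T1
          rw [Finset.sum_range_succ]
        rw [e]
        refine ⟨am.add am', ⟨M + M', fun z => (abs_add_le _ _).trans (add_le_add (hM z) (hM' z))⟩,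
          ⟨max R R', fun z hz => ?_⟩⟩
        simp only
        rw [hR z (lt_of_le_of_lt (le_max_left _ _) hz), hR' z (lt_of_le_of_lt (le_max_right _ _) hz)]
        ring
    induction S with
    | zero => simp [TS]
    | succ n ih =>
      rw [Finset.sum_range_succ, Finset.sum_range_succ, mul_add, ← ih]
      have e : ∀ w, TS φ ζ U (n + 1) H w = TS φ ζ U n H w + T1 φ ζ U n (H n) w := by
        intro w
        unfold TS T1
        rw [Finset.sum_range_succ]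
      have hn := nice_T1 hy (hH n) n
      have i1 : Integrable (fun w => (TS φ ζ U n H w) ^ 2) := by
        simpa [sq] using nice_integrable_mul (hN n) (hN n)
      have i2 : Integrable (fun w => (T1 φ ζ U n (H n) w) ^ 2) := by
        simpa [sq] using nice_integrable_mul hn hn
      have i3 : Integrable (fun w => TS φ ζ U n H w * T1 φ ζ U n (H n) w) :=
        nice_integrable_mul (hN n) hn
      have e1 : ∫ w, (TS φ ζ U (n + 1) H w) ^ 2 = (∫ w, (TS φ ζ U n H w) ^ 2) +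
          2 * (∫ w, TS φ ζ U n H w * T1 φ ζ U n (H n) w) + ∫ w, (T1 φ ζ U n (H n) w) ^ 2 := by
        have h0 : ∫ w, (TS φ ζ U (n + 1) H w) ^ 2 = ∫ w, ((TS φ ζ U n H w) ^ 2 +
            2 * (TS φ ζ U n H w * T1 φ ζ U n (H n) w) + (T1 φ ζ U n (H n) w) ^ 2) := by
          congr 1
          ext w
          rw [e]; ring
        have i12 : Integrable (fun w => (TS φ ζ U n H w) ^ 2 +
            2 * (TS φ ζ U n H w * T1 φ ζ U n (H n) w)) := i1.add (i3.const_mul 2)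
        rw [h0, integral_add i12 i2, integral_add i1 (i3.const_mul 2), integral_const_mul]
      have e2 : ∫ w, TS φ ζ U n H w * T1 φ ζ U n (H n) w =
          ∑ s ∈ Finset.range n, ∫ w, T1 φ ζ U s (H s) w * T1 φ ζ U n (H n) w := by
        rw [← integral_finsetSum _ (fun s _ => nice_integrable_mul (nice_T1 hy (hH s) s) hn)]
        congr 1
        ext w
        unfold TS
        rw [Finset.sum_mul]
        rfl
      have e3 : ∑ s ∈ Finset.range (n + 1), ∫ w, T1 φ ζ U s (H s) w * T1 φ ζ U n (H n) w =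
          (∫ w, TS φ ζ U n H w * T1 φ ζ U n (H n) w) + ∫ w, (T1 φ ζ U n (H n) w) ^ 2 := by
        rw [Finset.sum_range_succ, e2]
        congr 1
        congr 1
        ext w
        ring
      rw [e1, e3]
      ring
  have h := key S
  have hnn : 0 ≤ ∑ s ∈ Finset.range S, ∫ w, (T1 φ ζ U s (H s) w) ^ 2 :=
    Finset.sum_nonneg (fun s _ => integral_nonneg (fun w => sq_nonneg _))
  calc ∫ w, (TS φ ζ U S H w) ^ 2 ≤ 2 * ∑ s' ∈ Finset.range S, ∑ s ∈ Finset.range (s' + 1),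
        ∫ w, T1 φ ζ U s (H s) w * T1 φ ζ U s' (H s') w := by linarith
    _ = _ := by
      congr 1
      refine Finset.sum_congr rfl (fun s' _ => Finset.sum_congr rfl (fun s _ => ?_))
      exact T1_mul hy (hH s) (hH s') s s'

end main

end Crest.Agent.R087.Sqx681
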