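import Crest.Agent.R087.OP0_270
import Crest.Agent.R087.Sq_681

/-!
Row 87, operator part, leaf `L_SQ` (helper681): `‖T_c h‖²` as an ordered double sum, half of the diagonal.
-/

set_option autoImplicit false

noncomputable section

open MeasureTheory Crest.Agent.R087.Sh0x283 Crest.Agent.R087.Sh1x283 Crest.Agent.R087.GateDefx273
open Crest.Agent.R087.Sqx681 (kk T1 Hyp int_of_bdd measurable_kk kk_bound kk_supp norm_w_le
  integrable_kk nice_T1 nice_integrable_mul)

namespace Crest.Agent.R087.Sq2x681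

open Crest.Agent.R087.OP0x270

variable {φ ζ : ℝ → ℝ} {U : ℝ × ℝ → ℝ} {a b W : ℝ}

theorem kk_eq_tau (s : ℕ) (z w : ℝ × ℝ) : kk φ ζ U s z w = tau φ ζ U s z w := rfl

theorem int_pair (hy : Hyp φ ζ U a b W) {H : ℝ × ℝ → ℝ} (hH : Nice H) (s s' : ℕ) (z' : ℝ × ℝ) :
    Integrable (fun p : (ℝ × ℝ) × (ℝ × ℝ) => kk φ ζ U s p.2 p.1 * H p.2 * kk φ ζ U s' z' p.1)
      (volume.prod volume) := by
  have ha : 0 ≤ a := (abs_nonneg _).trans (hy.bφ 0)
  have hb : 0 ≤ b := (abs_nonneg _).trans (hy.bζ 0)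
  obtain ⟨hm, ⟨M, hM⟩, ⟨R, hR⟩⟩ := hH
  have hM0 : 0 ≤ M := (abs_nonneg _).trans (hM 0)
  have hk := measurable_kk hy.mφ hy.mζ hy.mU s
  have hk' := measurable_kk hy.mφ hy.mζ hy.mU s'
  refine int_of_bdd (volume.prod volume) _ ?_ (2 ^ s * b * a * M * (2 ^ s' * b * a)) ?_
    (max (‖z'‖ + (1 + W)) R) ?_
  · refine Measurable.aestronglyMeasurable ?_
    refine ((hk.comp measurable_swap).mul (hm.comp measurable_snd)).mul ?_
    exact hk'.comp (measurable_const.prodMk measurable_fst)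
  · intro p
    rw [abs_mul, abs_mul]
    have h1 := kk_bound hy.bφ hy.bζ U s' z' p.1
    have h2 := hM p.2
    have h4 := kk_bound hy.bφ hy.bζ U s p.2 p.1
    gcongr
  · intro p hp
    rw [Prod.norm_def] at hp
    by_cases h1 : ‖z'‖ + (1 + W) < ‖p.1‖
    · have : kk φ ζ U s' z' p.1 = 0 := by
        by_contra hc
        exact absurd (norm_w_le hy hc) (not_le.2 h1)
      rw [this]; ring
    · have h2 : R < ‖p.2‖ := by
        rcases lt_max_iff.1 hp with h | h
        · exact absurd (lt_of_le_of_lt (le_max_left _ _) h) h1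
        · exact lt_of_le_of_lt (le_max_right _ _) h
      rw [hR _ h2]; ring

theorem inner_eq (s s' : ℕ) (H : ℝ × ℝ → ℝ) (z z' : ℝ × ℝ) :
    ∫ w, kk φ ζ U s z w * H z * kk φ ζ U s' z' w = H z * pr φ ζ U s s' z z' := by
  unfold pr
  rw [← integral_const_mul]
  congr 1
  ext w
  rw [kk_eq_tau, kk_eq_tau]
  ring

/-- integrability of the inner integrand. -/
theorem inner_int (hy : Hyp φ ζ U a b W) {H : ℝ × ℝ → ℝ} (hH : Nice H) (s s' : ℕ) (z' : ℝ × ℝ) :
    Integrable (fun z => H z * pr φ ζ U s s' z z') := by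
  have h := (int_pair hy hH s s' z').integral_prod_right
  simpa only [inner_eq] using h

/-- inner Fubini. -/
theorem inner_fub (hy : Hyp φ ζ U a b W) {H : ℝ × ℝ → ℝ} (hH : Nice H) (s s' : ℕ) (z' : ℝ × ℝ) :
    ∫ w, T1 φ ζ U s H w * kk φ ζ U s' z' w = ∫ z, H z * pr φ ζ U s s' z z' := by
  have e2 : ∀ w, T1 φ ζ U s H w * kk φ ζ U s' z' w =
      ∫ z, kk φ ζ U s z w * H z * kk φ ζ U s' z' w := by
    intro w
    rw [integral_mul_const]; rfl
  simp_rw [e2]
  rw [integral_integral_swap (int_pair hy hH s s' z')]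
  simp_rw [inner_eq]

theorem outer_prod (hy : Hyp φ ζ U a b W) {H H' : ℝ × ℝ → ℝ} (hH : Nice H) (hH' : Nice H')
    (s s' : ℕ) :
    Integrable (fun p : (ℝ × ℝ) × (ℝ × ℝ) => T1 φ ζ U s H p.1 * (kk φ ζ U s' p.2 p.1 * H' p.2))
      (volume.prod volume) := by
  have ha : 0 ≤ a := (abs_nonneg _).trans (hy.bφ 0)
  have hb : 0 ≤ b := (abs_nonneg _).trans (hy.bζ 0)
  obtain ⟨hm', ⟨M', hM'⟩, ⟨R', hR'⟩⟩ := id hH'
  have hM0' : 0 ≤ M' := (abs_nonneg _).trans (hM' 0)
  have hk' := measurable_kk hy.mφ hy.mζ hy.mU s'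
  obtain ⟨hTm, ⟨N, hN⟩, ⟨Q, hQ⟩⟩ := nice_T1 hy hH s
  have hN0 : 0 ≤ N := (abs_nonneg _).trans (hN 0)
  refine int_of_bdd (volume.prod volume) _ ?_ (N * (2 ^ s' * b * a * M')) ?_ (max Q R') ?_
  · refine Measurable.aestronglyMeasurable ?_
    refine (hTm.comp measurable_fst).mul ?_
    exact (hk'.comp measurable_swap).mul (hm'.comp measurable_snd)
  · intro p
    rw [abs_mul, abs_mul]
    have h1 := kk_bound hy.bφ hy.bζ U s' p.2 p.1
    have h2 := hN p.1
    have h3 := hM' p.2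
    gcongr
  · intro p hp
    rw [Prod.norm_def] at hp
    by_cases h1 : Q < ‖p.1‖
    · rw [hQ _ h1, zero_mul]
    · have h2 : R' < ‖p.2‖ := by
        rcases lt_max_iff.1 hp with h | h
        · exact absurd (lt_of_le_of_lt (le_max_left _ _) h) h1
        · exact lt_of_le_of_lt (le_max_right _ _) h
      rw [hR' _ h2]; ring

theorem outer_eq (hy : Hyp φ ζ U a b W) {H : ℝ × ℝ → ℝ} (hH : Nice H) (H' : ℝ × ℝ → ℝ)
    (s s' : ℕ) (z' : ℝ × ℝ) :
    ∫ w, T1 φ ζ U s H w * (kk φ ζ U s' z' w * H' z') =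
      H' z' * ∫ z, H z * pr φ ζ U s s' z z' := by
  rw [← inner_fub hy hH, ← integral_const_mul]
  congr 1
  ext w
  ring

theorem outer_int (hy : Hyp φ ζ U a b W) {H H' : ℝ × ℝ → ℝ} (hH : Nice H) (hH' : Nice H')
    (s s' : ℕ) : Integrable (fun z' => H' z' * ∫ z, H z * pr φ ζ U s s' z z') := by
  have h := (outer_prod hy hH hH' s s').integral_prod_right
  simpa only [outer_eq hy hH] using h

theorem outer_fub (hy : Hyp φ ζ U a b W) {H H' : ℝ × ℝ → ℝ} (hH : Nice H) (hH' : Nice H')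
    (s s' : ℕ) : ∫ w, T1 φ ζ U s H w * T1 φ ζ U s' H' w =
      ∫ z', H' z' * ∫ z, H z * pr φ ζ U s s' z z' := by
  have e1 : ∀ w, T1 φ ζ U s H w * T1 φ ζ U s' H' w =
      ∫ z', T1 φ ζ U s H w * (kk φ ζ U s' z' w * H' z') := by
    intro w
    rw [integral_const_mul]; rfl
  simp_rw [e1]
  rw [integral_integral_swap (outer_prod hy hH hH' s s')]
  simp_rw [outer_eq hy hH]

theorem sum_cc {n : ℕ} (f : ℕ → ℕ → ℝ) (hf : ∀ s s', f s s' = f s' s) :
    ∑ s ∈ Finset.range n, ∑ s' ∈ Finset.range n, f s s' =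
      2 * ∑ s' ∈ Finset.range n, ∑ s ∈ Finset.range n, cc s s' * f s s' := by
  have h1 : ∀ s s', cc s s' + cc s' s = 1 := by
    intro s s'
    unfold cc
    rcases lt_trichotomy s s' with h | h | h
    · have h2 : ¬ s' < s := by omega
      have h3 : ¬ s' = s := by omega
      simp [h, h2, h3]
    · simp [h]; norm_num
    · have h2 : ¬ s < s' := by omega
      have h3 : ¬ s = s' := by omega
      simp [h, h2, h3]
  have h2 : ∑ s ∈ Finset.range n, ∑ s' ∈ Finset.range n, f s s' =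
      ∑ s ∈ Finset.range n, ∑ s' ∈ Finset.range n, (cc s s' * f s s' + cc s' s * f s' s) := by
    refine Finset.sum_congr rfl fun s _ => Finset.sum_congr rfl fun s' _ => ?_
    rw [hf s' s, ← add_mul, h1, one_mul]
  rw [h2]
  simp only [Finset.sum_add_distrib]
  rw [Finset.sum_comm (f := fun s s' => cc s s' * f s s')]
  ring

theorem sum_Ico_eq {S l h : ℕ} (hS : h ≤ S) (f : ℕ → ℝ) :
    ∑ s ∈ Finset.Ico l h, f s = ∑ s ∈ Finset.range S, if l ≤ s ∧ s < h then f s else 0 := by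
  rw [← Finset.sum_filter]
  congr 1
  ext s
  simp only [Finset.mem_Ico, Finset.mem_filter, Finset.mem_range]
  constructor
  · rintro ⟨h1, h2⟩; exact ⟨by omega, h1, h2⟩
  · rintro ⟨_, h1, h2⟩; exact ⟨h1, h2⟩

/-- the weights of a chain -/
def HH (lo hi : ℝ × ℝ → ℕ) (h : ℝ × ℝ → ℝ) (s : ℕ) (z : ℝ × ℝ) : ℝ :=
  if lo z ≤ s ∧ s < hi z then h z else 0

theorem nice_HH {lo hi : ℝ × ℝ → ℕ} (hlo : Measurable lo) (hhi : Measurable hi) {h : ℝ × ℝ → ℝ}
    (hh : Nice h) (s : ℕ) : Nice (HH lo hi h s) := by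
  obtain ⟨hm, ⟨M, hM⟩, ⟨R, hR⟩⟩ := hh
  refine ⟨?_, ⟨M, ?_⟩, ⟨R, ?_⟩⟩
  · unfold HH
    refine Measurable.ite ?_ hm measurable_const
    exact (measurableSet_le hlo measurable_const).inter (measurableSet_lt measurable_const hhi)
  · intro z
    unfold HH
    split_ifs
    · exact hM z
    · rw [abs_zero]; exact (abs_nonneg _).trans (hM 0)
  · intro z hz
    unfold HH
    rw [hR z hz]
    simp

theorem main (hy : Hyp φ ζ U a b W) {lo hi : ℝ × ℝ → ℕ} {h : ℝ × ℝ → ℝ} {S : ℕ} (hh : Nice h)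
    (hc : Chain S lo hi) :
    ∫ w, (Tc φ ζ U lo hi h w) ^ 2 =
      2 * ∫ z', h z' * Pair φ ζ U Set.univ lo hi h (lo z') (hi z') z' := by
  obtain ⟨hlo, hhi, hS⟩ := hc
  have hN := fun s => nice_HH hlo hhi hh s
  have e1 : ∀ w, Tc φ ζ U lo hi h w = ∑ s ∈ Finset.range S, T1 φ ζ U s (HH lo hi h s) w := by
    intro w
    unfold Tc T1
    rw [← integral_finsetSum _ (fun s _ => integrable_kk hy (hN s) s w)]
    congr 1
    ext z
    rw [sum_Ico_eq (hS z), Finset.sum_mul]
    refine Finset.sum_congr rfl fun s _ => ?_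
    unfold HH
    split_ifs <;> simp [kk_eq_tau]
  have e2 : ∫ w, (Tc φ ζ U lo hi h w) ^ 2 = ∑ s ∈ Finset.range S, ∑ s' ∈ Finset.range S,
      ∫ w, T1 φ ζ U s (HH lo hi h s) w * T1 φ ζ U s' (HH lo hi h s') w := by
    have e3 : ∀ w, (Tc φ ζ U lo hi h w) ^ 2 = ∑ s ∈ Finset.range S, ∑ s' ∈ Finset.range S,
        T1 φ ζ U s (HH lo hi h s) w * T1 φ ζ U s' (HH lo hi h s') w := by
      intro w
      rw [e1, sq, Finset.sum_mul_sum]
    simp_rw [e3]
    rw [integral_finsetSum]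
    · refine Finset.sum_congr rfl fun s _ => ?_
      rw [integral_finsetSum]
      intro s' _
      exact nice_integrable_mul (nice_T1 hy (hN s) s) (nice_T1 hy (hN s') s')
    · intro s _
      refine integrable_finsetSum _ fun s' _ => ?_
      exact nice_integrable_mul (nice_T1 hy (hN s) s) (nice_T1 hy (hN s') s')
  rw [e2, sum_cc]
  · congr 1
    have e4 : ∀ z', h z' * Pair φ ζ U Set.univ lo hi h (lo z') (hi z') z' =
        ∑ s' ∈ Finset.range S, ∑ s ∈ Finset.range S, cc s s' *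
          (HH lo hi h s' z' * ∫ z, HH lo hi h s z * pr φ ζ U s s' z z') := by
      intro z'
      unfold Pair
      rw [sum_Ico_eq (hS z'), Finset.mul_sum]
      refine Finset.sum_congr rfl fun s' _ => ?_
      have e5 : ∫ z, Set.univ.indicator h z *
          ∑ s ∈ Finset.Ico (lo z) (hi z), cc s s' * pr φ ζ U s s' z z' =
          ∑ s ∈ Finset.range S, cc s s' * ∫ z, HH lo hi h s z * pr φ ζ U s s' z z' := by
        have e6 : ∀ z, Set.univ.indicator h z *
            ∑ s ∈ Finset.Ico (lo z) (hi z), cc s s' * pr φ ζ U s s' z z' =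
            ∑ s ∈ Finset.range S, cc s s' * (HH lo hi h s z * pr φ ζ U s s' z z') := by
          intro z
          rw [sum_Ico_eq (hS z), Finset.mul_sum]
          refine Finset.sum_congr rfl fun s _ => ?_
          unfold HH
          simp only [Set.indicator_univ]
          split_ifs
          · ring
          · simp
        simp_rw [e6]
        rw [integral_finsetSum _ (fun s _ => (inner_int hy (hN s) s s' z').const_mul _)]
        refine Finset.sum_congr rfl fun s _ => ?_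
        rw [integral_const_mul]
      rw [e5]
      unfold HH
      split_ifs with hcond
      · rw [Finset.mul_sum]
        refine Finset.sum_congr rfl fun s _ => ?_
        ring
      · simp
    simp_rw [e4]
    rw [integral_finsetSum]
    · refine Finset.sum_congr rfl fun s' _ => ?_
      rw [integral_finsetSum]
      · refine Finset.sum_congr rfl fun s _ => ?_
        rw [integral_const_mul, outer_fub hy (hN s) (hN s')]
      · intro s _
        exact (outer_int hy (hN s) (hN s') s s').const_mul _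
    · intro s' _
      refine integrable_finsetSum _ fun s _ => ?_
      exact (outer_int hy (hN s) (hN s') s s').const_mul _
  · intro s s'
    congr 1
    ext w
    ring

theorem bdd_of_supp {f : ℝ → ℝ} (hf : Continuous f) (h0 : ∀ r, 1 < |r| → f r = 0) :
    ∃ a, ∀ r, |f r| ≤ a := by
  obtain ⟨C, hC⟩ := (isCompact_Icc (a := (-1 : ℝ)) (b := 1)).exists_bound_of_continuousOn
    hf.continuousOn
  refine ⟨max C 0, fun r => ?_⟩
  by_cases hr : 1 < |r|
  · rw [h0 r hr, abs_zero]; exact le_max_right _ _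
  · have : r ∈ Set.Icc (-1 : ℝ) 1 := by
      rw [Set.mem_Icc]; exact abs_le.1 (not_lt.1 hr)
    exact (hC r this).trans (le_max_left _ _)

/-- the leaf -/
theorem l_sq : L_SQ := by
  intro ζ hζ φ hφc hφ0 U h S lo hi hU hW hh hc
  obtain ⟨W, hW⟩ := hW
  obtain ⟨hζc, hζ0, _⟩ := hζ
  obtain ⟨a, ha⟩ := bdd_of_supp hφc hφ0
  obtain ⟨b, hb⟩ := bdd_of_supp hζc.continuous (fun r hr => by
    by_contra hne
    have := hζ0 r hne
    have h2 : |r| ≤ 1 := abs_le.2 ⟨by linarith [this.1], by linarith [this.2]⟩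
    linarith)
  exact main (a := a) (b := b) (W := W)
    ⟨hφc.measurable, hζc.continuous.measurable, hU, ha, hb, hW, hφ0, hζ0⟩ hh hc

end Crest.Agent.R087.Sq2x681
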