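import Crest.Agent.R087.SqI_90

/-!
Row 87, shell leaf S2 (SQT1): base lemmas on dyadic averages (helper90).
-/

set_option autoImplicit false

noncomputable section

open MeasureTheory Crest.Agent.R087.Sh0x283 Crest.Agent.R087.Sh1x283 Crest.Agent.R087.SqIx90

namespace Crest.Agent.R087.SqBx90

/-- dyadic interval. -/
abbrev II (n m : ℤ) : Set ℝ := Set.Ico ((m : ℝ) * (2 : ℝ) ^ n) (((m : ℝ) + 1) * (2 : ℝ) ^ n)

theorem zp (n : ℤ) : (0 : ℝ) < (2 : ℝ) ^ n := by positivity

theorem mem_II {n m : ℤ} {y : ℝ} : y ∈ II n m ↔ fl n y = m := by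
  unfold fl II
  rw [Int.floor_eq_iff, Set.mem_Ico, le_div_iff₀ (zp n), div_lt_iff₀ (zp n)]

theorem mem_II_fl (n : ℤ) (y : ℝ) : y ∈ II n (fl n y) := mem_II.2 rfl

theorem measurableSet_II (n m : ℤ) : MeasurableSet (II n m) := measurableSet_Ico

theorem disj_II (n : ℤ) : Pairwise (Function.onFun Disjoint (II n)) := by
  intro i j hij
  rw [Function.onFun, Set.disjoint_left]
  intro y hi hj
  exact hij ((mem_II.1 hi).symm.trans (mem_II.1 hj))

theorem iUnion_II (n : ℤ) : (⋃ m, II n m) = Set.univ := by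
  ext y
  simp only [Set.mem_iUnion, Set.mem_univ, iff_true]
  exact ⟨fl n y, mem_II_fl n y⟩

theorem volume_II (n m : ℤ) : volume (II n m) = ENNReal.ofReal ((2 : ℝ) ^ n) := by
  rw [Real.volume_Ico]; congr 1; ring

theorem volume_real_II (n m : ℤ) : volume.real (II n m) = (2 : ℝ) ^ n := by
  rw [Measure.real, volume_II, ENNReal.toReal_ofReal (zp n).le]

theorem measurable_fl (n : ℤ) : Measurable (fl n) := by
  unfold fl
  exact Int.measurable_floor.comp (measurable_id.div_const _)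

/-- `f` constant on dyadic intervals of length `2^n`. -/
def Cst (n : ℤ) (f : ℝ → ℝ) : Prop := ∀ y y', fl n y = fl n y' → f y = f y'

theorem Cst.exists {n : ℤ} {f : ℝ → ℝ} (h : Cst n f) : ∃ u : ℤ → ℝ, ∀ y, f y = u (fl n y) := by
  refine ⟨fun m => f ((m : ℝ) * (2 : ℝ) ^ n), fun y => h _ _ ?_⟩
  have : (fl n y : ℝ) * (2 : ℝ) ^ n ∈ II n (fl n y) := by
    constructor
    · exact le_rfl
    · have := zp n; nlinarith
  exact (mem_II.1 this).symm

theorem Cst.measurable {n : ℤ} {f : ℝ → ℝ} (h : Cst n f) : Measurable f := by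
  obtain ⟨u, hu⟩ := h.exists
  have : f = u ∘ fl n := funext hu
  rw [this]
  exact (measurable_of_countable u).comp (measurable_fl n)

theorem Cst.const {n : ℤ} (c : ℝ) : Cst n (fun _ => c) := fun _ _ _ => rfl

theorem Cst.sub {n : ℤ} {f g : ℝ → ℝ} (hf : Cst n f) (hg : Cst n g) : Cst n (fun y => f y - g y) :=
  fun y y' h => by simp only [hf y y' h, hg y y' h]

theorem Cst.add {n : ℤ} {f g : ℝ → ℝ} (hf : Cst n f) (hg : Cst n g) : Cst n (fun y => f y + g y) :=
  fun y y' h => by simp only [hf y y' h, hg y y' h]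

theorem Cst.mul {n : ℤ} {f g : ℝ → ℝ} (hf : Cst n f) (hg : Cst n g) : Cst n (fun y => f y * g y) :=
  fun y y' h => by simp only [hf y y' h, hg y y' h]

theorem Cst.div {n : ℤ} {f g : ℝ → ℝ} (hf : Cst n f) (hg : Cst n g) : Cst n (fun y => f y / g y) :=
  fun y y' h => by simp only [hf y y' h, hg y y' h]

theorem Cst.pow {n : ℤ} {f : ℝ → ℝ} (hf : Cst n f) (p : ℕ) : Cst n (fun y => f y ^ p) :=
  fun y y' h => by simp only [hf y y' h]

theorem Cst.comp {n : ℤ} {f : ℝ → ℝ} (hf : Cst n f) (φ : ℝ → ℝ) : Cst n (fun y => φ (f y)) :=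
  fun y y' h => by simp only [hf y y' h]

theorem cst_EE (n : ℤ) (f : ℝ → ℝ) : Cst n (EE n f) := fun y y' h => by simp only [EE, h]

/-- nested dyadic intervals -/
theorem fl_mono {m n : ℤ} (h : m ≤ n) {y y' : ℝ} (hy : fl m y = fl m y') : fl n y = fl n y' := by
  obtain ⟨d, rfl⟩ := Int.le.dest h
  have key : ∀ y : ℝ, fl (m + d) y = fl m y / ((2 ^ d : ℕ) : ℤ) := by
    intro y
    unfold fl
    rw [← Int.floor_div_natCast]
    congr 1
    rw [zpow_add₀ (two_ne_zero), zpow_natCast, div_div]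
    push_cast
    rfl
  rw [key, key, hy]

theorem Cst.mono {m n : ℤ} (h : m ≤ n) {f : ℝ → ℝ} (hf : Cst n f) : Cst m f :=
  fun y y' hy => hf y y' (fl_mono h hy)

/-! ### Nice functions -/

theorem n1_integrable {g : ℝ → ℝ} (hg : Nice1 g) : Integrable g := by
  obtain ⟨hm, ⟨M, hM⟩, R, hR⟩ := hg
  have h1 : IntegrableOn g (Set.Icc (-R) R) := by
    refine Measure.integrableOn_of_bounded (M := M) (by simp) hm.aestronglyMeasurable ?_
    exact Filter.Eventually.of_forall fun y => by simpa using hM y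
  refine (integrableOn_iff_integrable_of_support_subset ?_).1 h1
  intro y hy
  by_contra hc
  refine hy (hR y ?_)
  rw [Set.mem_Icc, ← abs_le, not_le] at hc
  exact hc

theorem n1_add {f g : ℝ → ℝ} (hf : Nice1 f) (hg : Nice1 g) : Nice1 (fun y => f y + g y) := by
  obtain ⟨hm, ⟨M, hM⟩, R, hR⟩ := hf
  obtain ⟨hm', ⟨M', hM'⟩, R', hR'⟩ := hg
  refine ⟨hm.add hm', ⟨M + M', fun y => (abs_add_le _ _).trans (add_le_add (hM y) (hM' y))⟩, max R R', ?_⟩
  intro y hy
  simp only [hR y (lt_of_le_of_lt (le_max_left _ _) hy), hR' y (lt_of_le_of_lt (le_max_right _ _) hy),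
    add_zero]

theorem n1_sub {f g : ℝ → ℝ} (hf : Nice1 f) (hg : Nice1 g) : Nice1 (fun y => f y - g y) := by
  obtain ⟨hm, ⟨M, hM⟩, R, hR⟩ := hf
  obtain ⟨hm', ⟨M', hM'⟩, R', hR'⟩ := hg
  refine ⟨hm.sub hm', ⟨M + M', fun y => (abs_sub _ _).trans (add_le_add (hM y) (hM' y))⟩, max R R', ?_⟩
  intro y hy
  simp only [hR y (lt_of_le_of_lt (le_max_left _ _) hy), hR' y (lt_of_le_of_lt (le_max_right _ _) hy),
    sub_zero]

/-- product of a nice function with a bounded measurable one -/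
theorem n1_mul_bdd {f h : ℝ → ℝ} (hf : Nice1 f) (hm' : Measurable h) (hb : ∃ M : ℝ, ∀ y, |h y| ≤ M) :
    Nice1 (fun y => f y * h y) := by
  obtain ⟨hm, ⟨M, hM⟩, R, hR⟩ := hf
  obtain ⟨M', hM'⟩ := hb
  refine ⟨hm.mul hm', ⟨M * M', fun y => ?_⟩, R, fun y hy => by simp only [hR y hy, zero_mul]⟩
  rw [abs_mul]
  exact mul_le_mul (hM y) (hM' y) (abs_nonneg _) ((abs_nonneg _).trans (hM y))

theorem n1_bdd_mul {f h : ℝ → ℝ} (hm' : Measurable h) (hb : ∃ M : ℝ, ∀ y, |h y| ≤ M) (hf : Nice1 f) :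
    Nice1 (fun y => h y * f y) := by
  have := n1_mul_bdd hf hm' hb
  simpa only [mul_comm] using this

theorem n1_mul {f h : ℝ → ℝ} (hf : Nice1 f) (hh : Nice1 h) : Nice1 (fun y => f y * h y) :=
  n1_mul_bdd hf hh.1 hh.2.1

theorem n1_sq {f : ℝ → ℝ} (hf : Nice1 f) : Nice1 (fun y => f y ^ 2) := by
  simpa only [pow_two] using n1_mul hf hf

theorem n1_zero : Nice1 (fun _ => 0) := ⟨measurable_const, ⟨0, by simp⟩, 0, by simp⟩

theorem n1_const_mul {f : ℝ → ℝ} (hf : Nice1 f) (c : ℝ) : Nice1 (fun y => c * f y) :=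
  n1_bdd_mul measurable_const ⟨|c|, fun _ => le_rfl⟩ hf

theorem n1_sum {ι : Type*} (s : Finset ι) {f : ι → ℝ → ℝ} (hf : ∀ i ∈ s, Nice1 (f i)) :
    Nice1 (fun y => ∑ i ∈ s, f i y) := by
  classical
  induction s using Finset.induction_on with
  | empty => simpa using n1_zero
  | insert a s ha ih =>
    simp only [Finset.sum_insert ha]
    exact n1_add (hf a (Finset.mem_insert_self _ _))
      (ih fun i hi => hf i (Finset.mem_insert_of_mem hi))

theorem EE_bound {f : ℝ → ℝ} {M : ℝ} (hM : ∀ y, |f y| ≤ M) (n : ℤ) (y : ℝ) : |EE n f y| ≤ M := by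
  unfold EE
  rw [abs_mul, abs_of_pos (inv_pos.2 (zp n))]
  have h1 : ‖∫ r in II n (fl n y), f r‖ ≤ M * volume.real (II n (fl n y)) := by
    refine norm_setIntegral_le_of_norm_le_const (by rw [volume_II]; exact ENNReal.ofReal_lt_top) ?_
    intro x _
    exact hM x
  rw [volume_real_II, Real.norm_eq_abs] at h1
  rw [inv_mul_le_iff₀ (zp n)]
  linarith [h1]

theorem nice_EE {f : ℝ → ℝ} (hf : Nice1 f) (n : ℤ) : Nice1 (EE n f) := by
  obtain ⟨hm, ⟨M, hM⟩, R, hR⟩ := hf
  refine ⟨(cst_EE n f).measurable, ⟨M, EE_bound hM n⟩, R + (2 : ℝ) ^ n, fun y hy => ?_⟩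
  unfold EE
  have h0 : ∫ r in II n (fl n y), f r = 0 := by
    refine setIntegral_eq_zero_of_forall_eq_zero ?_
    intro r hr
    refine hR r ?_
    have hy' := mem_II_fl n y
    have h2 : |y - r| < (2 : ℝ) ^ n := by
      rw [abs_lt]
      constructor <;> nlinarith [hr.1, hr.2, hy'.1, hy'.2]
    have h3 : |y| ≤ |y - r| + |r| := by simpa using abs_add_le (y - r) r
    linarith
  rw [h0, mul_zero]

theorem setIntegral_cst_mul {n : ℤ} {lam : ℝ → ℝ} (hlam : Cst n lam) (f : ℝ → ℝ) (y₀ : ℝ) :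
    ∫ y in II n (fl n y₀), lam y * f y = lam y₀ * ∫ y in II n (fl n y₀), f y := by
  rw [← integral_const_mul]
  refine setIntegral_congr_fun (measurableSet_II _ _) ?_
  intro y hy
  simp only [hlam y y₀ (mem_II.1 hy)]

theorem exists_fl (n m : ℤ) : ∃ y, fl n y = m := by
  refine ⟨(m : ℝ) * (2 : ℝ) ^ n, ?_⟩
  have : (m : ℝ) * (2 : ℝ) ^ n ∈ II n m := by
    constructor
    · exact le_rfl
    · have := zp n; nlinarith
  exact mem_II.1 this

/-- `EE n` is the conditional expectation: `∫ λ f = ∫ λ E_n f` for `λ` constant on level-`n` intervals. -/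
theorem integral_mul_EE {n : ℤ} {lam f : ℝ → ℝ} (hlam : Cst n lam)
    (h1 : Integrable (fun y => lam y * f y)) (h2 : Integrable (fun y => lam y * EE n f y)) :
    ∫ y, lam y * f y = ∫ y, lam y * EE n f y := by
  have e1 := hasSum_integral_iUnion (measurableSet_II n) (disj_II n)
    (f := fun y => lam y * f y) (μ := volume) h1.integrableOn
  have e2 := hasSum_integral_iUnion (measurableSet_II n) (disj_II n)
    (f := fun y => lam y * EE n f y) (μ := volume) h2.integrableOn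
  rw [iUnion_II, setIntegral_univ] at e1 e2
  refine e1.unique ?_
  convert e2 using 2 with m
  obtain ⟨y₀, rfl⟩ := exists_fl n m
  rw [setIntegral_cst_mul hlam, setIntegral_cst_mul hlam]
  congr 1
  have : ∫ y in II n (fl n y₀), EE n f y = ∫ y in II n (fl n y₀), EE n f y₀ := by
    refine setIntegral_congr_fun (measurableSet_II _ _) ?_
    intro y hy
    exact cst_EE n f y y₀ (mem_II.1 hy)
  rw [this, setIntegral_const, volume_real_II, smul_eq_mul]
  unfold EE
  rw [← mul_assoc, mul_inv_cancel₀ (zp n).ne', one_mul]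

theorem integral_mul_EE' {n : ℤ} {lam f : ℝ → ℝ} (hlam : Cst n lam) (hl : ∃ M : ℝ, ∀ y, |lam y| ≤ M)
    (hf : Nice1 f) : ∫ y, lam y * f y = ∫ y, lam y * EE n f y :=
  integral_mul_EE hlam (n1_integrable (n1_bdd_mul hlam.measurable hl hf))
    (n1_integrable (n1_bdd_mul hlam.measurable hl (nice_EE hf n)))

theorem EE_of_cst {n : ℤ} {f : ℝ → ℝ} (hf : Cst n f) : EE n f = f := by
  funext y
  unfold EE
  have : ∫ r in II n (fl n y), f r = ∫ r in II n (fl n y), f y := by
    refine setIntegral_congr_fun (measurableSet_II _ _) ?_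
    intro r hr
    exact hf r y (mem_II.1 hr)
  rw [this, setIntegral_const, volume_real_II, smul_eq_mul, ← mul_assoc,
    inv_mul_cancel₀ (zp n).ne', one_mul]

theorem EE_EE_of_le {m n : ℤ} (h : m ≤ n) {f : ℝ → ℝ} (hf : Nice1 f) : EE n (EE m f) = EE n f := by
  classical
  funext y
  unfold EE
  congr 1
  change ∫ r in II n (fl n y), EE m f r = ∫ r in II n (fl n y), f r
  have hl : Cst m (Set.indicator (II n (fl n y)) (fun _ => (1 : ℝ))) := by
    intro z z' hz
    have : z ∈ II n (fl n y) ↔ z' ∈ II n (fl n y) := by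
      rw [mem_II, mem_II, fl_mono h hz]
    by_cases hh : z ∈ II n (fl n y)
    · rw [Set.indicator_of_mem hh, Set.indicator_of_mem (this.1 hh)]
    · rw [Set.indicator_of_notMem hh, Set.indicator_of_notMem (fun h' => hh (this.2 h'))]
  have hb : ∃ M : ℝ, ∀ z, |Set.indicator (II n (fl n y)) (fun _ => (1 : ℝ)) z| ≤ M := by
    refine ⟨1, fun z => ?_⟩
    by_cases hh : z ∈ II n (fl n y)
    · rw [Set.indicator_of_mem hh]; simp
    · rw [Set.indicator_of_notMem hh]; simp
  have key := integral_mul_EE' hl hb hf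
  rw [← integral_indicator (measurableSet_II _ _), ← integral_indicator (measurableSet_II _ _)]
  have aux : ∀ g : ℝ → ℝ, Set.indicator (II n (fl n y)) g =
      fun z => Set.indicator (II n (fl n y)) (fun _ => (1 : ℝ)) z * g z := by
    intro g
    funext z
    by_cases hh : z ∈ II n (fl n y)
    · rw [Set.indicator_of_mem hh, Set.indicator_of_mem hh, one_mul]
    · rw [Set.indicator_of_notMem hh, Set.indicator_of_notMem hh, zero_mul]
  rw [aux (EE m f), aux f, key]

theorem EE_EE_of_ge {m n : ℤ} (h : n ≤ m) (f : ℝ → ℝ) : EE n (EE m f) = EE m f :=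
  EE_of_cst ((cst_EE m f).mono h)

theorem EE_sub {n : ℤ} {f g : ℝ → ℝ} (hf : Nice1 f) (hg : Nice1 g) :
    EE n (fun y => f y - g y) = fun y => EE n f y - EE n g y := by
  funext y
  unfold EE
  rw [integral_sub (n1_integrable hf).integrableOn (n1_integrable hg).integrableOn]
  ring

theorem EE_add {n : ℤ} {f g : ℝ → ℝ} (hf : Nice1 f) (hg : Nice1 g) :
    EE n (fun y => f y + g y) = fun y => EE n f y + EE n g y := by
  funext y
  unfold EE
  rw [integral_add (n1_integrable hf).integrableOn (n1_integrable hg).integrableOn]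
  ring

theorem EE_nonneg {n : ℤ} {f : ℝ → ℝ} (hf : ∀ y, 0 ≤ f y) (y : ℝ) : 0 ≤ EE n f y :=
  mul_nonneg (inv_nonneg.2 (zp n).le) (integral_nonneg fun r => hf r)

/-- contraction and orthogonality: `‖f‖² = ‖E_n f‖² + ‖f - E_n f‖²`. -/
theorem pythag {f : ℝ → ℝ} (hf : Nice1 f) (n : ℤ) :
    ∫ y, f y ^ 2 = (∫ y, EE n f y ^ 2) + ∫ y, (f y - EE n f y) ^ 2 := by
  have hE := nice_EE hf n
  have key := integral_mul_EE' (cst_EE n f) hE.2.1 hf
  have e1 : ∫ y, (f y - EE n f y) ^ 2 =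
      (∫ y, f y ^ 2) - 2 * (∫ y, EE n f y * f y) + ∫ y, EE n f y * EE n f y := by
    rw [← integral_const_mul, ← integral_sub, ← integral_add]
    · congr 1; funext y; ring
    · exact (n1_integrable (n1_sq hf)).sub ((n1_integrable (n1_mul hE hf)).const_mul 2)
    · exact n1_integrable (n1_mul hE hE)
    · exact n1_integrable (n1_sq hf)
    · exact (n1_integrable (n1_mul hE hf)).const_mul 2
  have e2 : ∫ y, EE n f y ^ 2 = ∫ y, EE n f y * EE n f y := by
    congr 1; funext y; ring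
  rw [e1, e2, key]; ring

theorem EE_contr {f : ℝ → ℝ} (hf : Nice1 f) (n : ℤ) : ∫ y, EE n f y ^ 2 ≤ ∫ y, f y ^ 2 := by
  rw [pythag hf n]
  have : 0 ≤ ∫ y, (f y - EE n f y) ^ 2 := integral_nonneg fun y => sq_nonneg _
  linarith

end Crest.Agent.R087.SqBx90
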