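import Crest.Agent.R087.Sh1_283

/-!
Row 87, shell leaf S2 (SQT1): interface between S2b (helper90) and S2a (dyadic Carleson embedding).
-/

set_option autoImplicit false

noncomputable section

open MeasureTheory Crest.Agent.R087.Sh0x283 Crest.Agent.R087.Sh1x283

namespace Crest.Agent.R087.SqIx90

/-- index of the dyadic interval of length `2^n` containing `y`. -/
def fl (n : ℤ) (y : ℝ) : ℤ := ⌊y / (2 : ℝ) ^ n⌋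

/-- dyadic average at scale `2^n`. -/
def EE (n : ℤ) (f : ℝ → ℝ) (y : ℝ) : ℝ :=
  ((2 : ℝ) ^ n)⁻¹ * ∫ r in Set.Ico ((fl n y : ℝ) * (2 : ℝ) ^ n) (((fl n y : ℝ) + 1) * (2 : ℝ) ^ n), f r

/-- S2a: dyadic Carleson embedding (Bellman), in the form used by S2b. -/
def DCE : Prop := ∀ (A : ℝ) (F : Finset ℤ) (b : ℤ → ℝ → ℝ), 0 ≤ A →
  (∀ k ∈ F, Measurable (b k)) →
  (∀ k ∈ F, ∀ y, |b k y| ≤ 4 * A) →
  (∀ n m : ℤ, ∑ k ∈ F.filter (· ≤ n),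
      ∫ y in Set.Ico ((m : ℝ) * (2 : ℝ) ^ n) (((m : ℝ) + 1) * (2 : ℝ) ^ n), (b k y) ^ 2 ≤ A ^ 2 * (2 : ℝ) ^ n) →
  ∀ g : ℝ → ℝ, Nice1 g →
    ∑ k ∈ F, ∫ y, (b k y * EE k g y) ^ 2 ≤ 4 * A ^ 2 * ∫ y, (g y) ^ 2

end Crest.Agent.R087.SqIx90
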