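import Crest.Agent.R087.Mass_546

/-!
# Row 87 (S0115), operator part: stopping by averages (helper630)

`Θ : ℝ → ℝ≥0∞`; the dyadic cell of scale `s` containing `x` is a hit if the average of `Θ` over it is
`> lam`; `stp` : the cell of scale `s` of `x` is contained in a hit cell of scale `≥ s0`.

* `weak`  : `lam |{stp}| ≤ ∫_{stp} Θ`;
* `rem`   : the removed mass is `≤ D |{stp}|`;
* `avg_sq`: averages over non hit cells are `≤ √lam`;
* `sob`, `avg_sup` : the same for a family `F v`, uniformly in `v` (1-D Sobolev in `v`).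
-/

set_option autoImplicit false

noncomputable section

open MeasureTheory ENNReal

namespace Crest.Agent.R087.StopAvgx630

open Crest.Agent.R087.Massx546

/-- the cell of scale `s` of `x` -/
def cell (s : ℕ) (x : ℝ) : Set ℝ := {y | cel s y = cel s x}

theorem mem_cell {s : ℕ} {x y : ℝ} : y ∈ cell s x ↔ cel s y = cel s x := Iff.rfl

theorem self_mem (s : ℕ) (x : ℝ) : x ∈ cell s x := rfl

theorem cell_congr {s : ℕ} {x y : ℝ} (h : cel s x = cel s y) : cell s x = cell s y := by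
  ext u; rw [mem_cell, mem_cell, h]

theorem measurableSet_cell (s : ℕ) (x : ℝ) : MeasurableSet (cell s x) := measurableSet_cel s _

theorem vol_cell (s : ℕ) (x : ℝ) : volume (cell s x) = ENNReal.ofReal ((1 / 2 : ℝ) ^ s) :=
  volume_cel s _

/-- the average of `Θ` over the cell of scale `s` of `x` is `> lam` -/
def hit (Θ : ℝ → ℝ≥0∞) (lam : ℝ≥0∞) (s : ℕ) (x : ℝ) : Prop :=
  lam * ENNReal.ofReal ((1 / 2 : ℝ) ^ s) < ∫⁻ y in cell s x, Θ y

/-- the cell of scale `s` of `x` is contained in a hit cell of scale `≥ s0` -/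
def stp (Θ : ℝ → ℝ≥0∞) (lam : ℝ≥0∞) (s0 s : ℕ) (x : ℝ) : Prop :=
  ∃ r, s0 ≤ r ∧ r ≤ s ∧ hit Θ lam r x

/-- `r` is the first hit scale at `x` -/
def fst (Θ : ℝ → ℝ≥0∞) (lam : ℝ≥0∞) (s0 r : ℕ) (x : ℝ) : Prop :=
  s0 ≤ r ∧ hit Θ lam r x ∧ ∀ q, s0 ≤ q → q < r → ¬ hit Θ lam q x

section

variable {Θ : ℝ → ℝ≥0∞} {lam : ℝ≥0∞}

theorem hit_congr {s : ℕ} {x y : ℝ} (h : cel s x = cel s y) : hit Θ lam s x ↔ hit Θ lam s y := by
  rw [hit, hit, cell_congr h]

theorem stp_congr {s0 s : ℕ} {x y : ℝ} (h : cel s x = cel s y) :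
    stp Θ lam s0 s x ↔ stp Θ lam s0 s y := by
  unfold stp
  constructor
  · rintro ⟨r, h1, h2, h3⟩
    exact ⟨r, h1, h2, (hit_congr (cel_mono h2 h)).1 h3⟩
  · rintro ⟨r, h1, h2, h3⟩
    exact ⟨r, h1, h2, (hit_congr (cel_mono h2 h)).2 h3⟩

theorem fst_congr {s0 r : ℕ} {x y : ℝ} (h : cel r x = cel r y) :
    fst Θ lam s0 r x ↔ fst Θ lam s0 r y := by
  unfold fst
  constructor
  · rintro ⟨h1, h2, h3⟩
    exact ⟨h1, (hit_congr h).1 h2, fun q hq hqr h4 => h3 q hq hqr ((hit_congr (cel_mono hqr.le h)).2 h4)⟩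
  · rintro ⟨h1, h2, h3⟩
    exact ⟨h1, (hit_congr h).2 h2, fun q hq hqr h4 => h3 q hq hqr ((hit_congr (cel_mono hqr.le h)).1 h4)⟩

theorem stp_mono {s0 s s' : ℕ} (h : s ≤ s') {x : ℝ} (hx : stp Θ lam s0 s x) : stp Θ lam s0 s' x := by
  obtain ⟨r, h1, h2, h3⟩ := hx
  exact ⟨r, h1, h2.trans h, h3⟩

theorem exists_fst {s0 s : ℕ} {x : ℝ} (h : stp Θ lam s0 s x) : ∃ r, r ≤ s ∧ fst Θ lam s0 r x := by
  classical
  obtain ⟨r, h1, h2, h3⟩ := h
  have hex : ∃ r, s0 ≤ r ∧ hit Θ lam r x := ⟨r, h1, h3⟩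
  refine ⟨Nat.find hex, (Nat.find_min' hex ⟨h1, h3⟩).trans h2, (Nat.find_spec hex).1,
    (Nat.find_spec hex).2, ?_⟩
  intro q hq hqr hh
  exact Nat.find_min hex hqr ⟨hq, hh⟩

theorem fst_unique {s0 r r' : ℕ} {x : ℝ} (h : fst Θ lam s0 r x) (h' : fst Θ lam s0 r' x) : r = r' := by
  rcases lt_trichotomy r r' with h1 | h1 | h1
  · exact absurd h.2.1 (h'.2.2 r h.1 h1)
  · exact h1
  · exact absurd h'.2.1 (h.2.2 r' h'.1 h1)

theorem fst.stp {s0 r s : ℕ} {x : ℝ} (h : fst Θ lam s0 r x) (hr : r ≤ s) :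
    StopAvgx630.stp Θ lam s0 s x := ⟨r, h.1, hr, h.2.1⟩

/-- a set of reals which is a union of cells of scale `s` is measurable -/
theorem meas_of_congr {P : ℝ → Prop} (s : ℕ) (h : ∀ x y, cel s x = cel s y → (P x ↔ P y)) :
    MeasurableSet {x | P x} := by
  classical
  have : {x | P x} = ⋃ (j : ℤ) (_ : ∃ x, P x ∧ cel s x = j), {x : ℝ | cel s x = j} := by
    ext x
    simp only [Set.mem_ofPred_eq, Set.mem_iUnion, exists_prop]
    constructor
    · intro hx; exact ⟨cel s x, ⟨x, hx, rfl⟩, rfl⟩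
    · rintro ⟨j, ⟨y, hy, rfl⟩, hx⟩
      exact (h x y hx).2 hy
  rw [this]
  exact MeasurableSet.iUnion fun j => MeasurableSet.iUnion fun _ => measurableSet_cel s j

theorem meas_stp (s0 s : ℕ) : MeasurableSet {x | stp Θ lam s0 s x} :=
  meas_of_congr s fun _ _ h => stp_congr h

theorem meas_fst (s0 r : ℕ) : MeasurableSet {x | fst Θ lam s0 r x} :=
  meas_of_congr r fun _ _ h => fst_congr h

/-- the stopped set is the disjoint union of the first hit sets -/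
theorem stp_eq (s0 s : ℕ) : {x | stp Θ lam s0 s x} = ⋃ r ∈ Finset.Icc s0 s, {x | fst Θ lam s0 r x} := by
  ext x
  simp only [Set.mem_ofPred_eq, Set.mem_iUnion, Finset.mem_Icc, exists_prop]
  constructor
  · intro h
    obtain ⟨r, h1, h2⟩ := exists_fst h
    exact ⟨r, ⟨h2.1, h1⟩, h2⟩
  · rintro ⟨r, ⟨-, h1⟩, h2⟩
    exact h2.stp h1

theorem fst_disj (s0 : ℕ) (T : Set ℕ) :
    T.PairwiseDisjoint fun r => {x | fst Θ lam s0 r x} := by
  intro r _ r' _ hne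
  rw [Function.onFun, Set.disjoint_left]
  intro x hx hx'
  exact hne (fst_unique hx hx')

/-- the part of the first hit set of scale `r` in the cell `j` -/
def fc (Θ : ℝ → ℝ≥0∞) (lam : ℝ≥0∞) (s0 r : ℕ) (j : ℤ) : Set ℝ :=
  {x | fst Θ lam s0 r x ∧ cel r x = j}

theorem fc_eq (s0 r : ℕ) : {x | fst Θ lam s0 r x} = ⋃ j, fc Θ lam s0 r j := by
  ext x
  simp only [fc, Set.mem_ofPred_eq, Set.mem_iUnion]
  exact ⟨fun h => ⟨_, h, rfl⟩, fun ⟨_, h, _⟩ => h⟩

theorem meas_fc (s0 r : ℕ) (j : ℤ) : MeasurableSet (fc Θ lam s0 r j) :=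
  (meas_fst s0 r).inter (measurableSet_cel r j)

theorem fc_disj (s0 r : ℕ) : Pairwise (Function.onFun Disjoint (fc Θ lam s0 r)) := by
  intro j j' hne
  rw [Function.onFun, Set.disjoint_left]
  intro x hx hx'
  exact hne (hx.2.symm.trans hx'.2)

/-- a nonempty piece is a whole cell -/
theorem fc_cell {s0 r : ℕ} {j : ℤ} {x : ℝ} (hx : x ∈ fc Θ lam s0 r j) :
    fc Θ lam s0 r j = cell r x := by
  ext y
  constructor
  · intro hy; exact hy.2.trans hx.2.symm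
  · intro hy
    exact ⟨(fst_congr hy).2 hx.1, hy.trans hx.2⟩

theorem fc_weak (s0 r : ℕ) (j : ℤ) :
    lam * volume (fc Θ lam s0 r j) ≤ ∫⁻ x in fc Θ lam s0 r j, Θ x := by
  rcases Set.eq_empty_or_nonempty (fc Θ lam s0 r j) with h | ⟨x, hx⟩
  · rw [h]; simp
  · rw [fc_cell hx, vol_cell]
    exact hx.1.2.1.le

theorem fst_weak (s0 r : ℕ) :
    lam * volume {x | fst Θ lam s0 r x} ≤ ∫⁻ x in {x | fst Θ lam s0 r x}, Θ x := by
  rw [fc_eq, measure_iUnion (fc_disj s0 r) (meas_fc s0 r), lintegral_iUnion (meas_fc s0 r) (fc_disj s0 r),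
    ← ENNReal.tsum_mul_left]
  exact ENNReal.tsum_le_tsum fun j => fc_weak s0 r j

/-- **weak type (1,1), constant 1** -/
theorem weak (s0 s : ℕ) :
    lam * volume {x | stp Θ lam s0 s x} ≤ ∫⁻ x in {x | stp Θ lam s0 s x}, Θ x := by
  have hd : (↑(Finset.Icc s0 s) : Set ℕ).PairwiseDisjoint fun r => {x | fst Θ lam s0 r x} :=
    fst_disj s0 _
  rw [stp_eq, measure_biUnion_finset hd (fun r _ => meas_fst s0 r),
    lintegral_biUnion_finset hd (fun r _ => meas_fst s0 r), Finset.mul_sum]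
  exact Finset.sum_le_sum fun r _ => fst_weak s0 r

/-- **removed mass**: `Z` has density `≤ D` on the hit cells which meet an active point -/
theorem rem {X : Type*} [MeasurableSpace X] (μ : Measure X) (p : X → ℝ)
    (Z : Set X) (act : ℕ → Set X) (s0 S : ℕ) (D : ℝ≥0∞)
    (hS : ∀ s, S < s → Disjoint (act s) Z)
    (dens : ∀ z ∈ Z, ∀ s, s0 ≤ s → (∃ s', s ≤ s' ∧ z ∈ act s') →
      μ (Z ∩ {w | cel s (p w) = cel s (p z)}) ≤ D * ENNReal.ofReal ((1 / 2 : ℝ) ^ s)) :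
    μ {z | z ∈ Z ∧ ∃ s, z ∈ act s ∧ stp Θ lam s0 s (p z)} ≤ D * volume {x | stp Θ lam s0 S x} := by
  set R : Set X := {z | z ∈ Z ∧ ∃ s, z ∈ act s ∧ stp Θ lam s0 s (p z)} with hR
  have hcov : R ⊆ ⋃ r ∈ Finset.Icc s0 S, ⋃ j : ℤ, R ∩ p ⁻¹' (fc Θ lam s0 r j) ∩
      {z | ∃ s', r ≤ s' ∧ z ∈ act s'} := by
    rintro z ⟨hz, s, hs, hst⟩
    obtain ⟨r, h1, h2⟩ := exists_fst hst
    have hsS : s ≤ S := by
      by_contra hcon
      exact Set.disjoint_left.1 (hS s (by omega)) hs hz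
    simp only [Set.mem_iUnion, Finset.mem_Icc, exists_prop]
    exact ⟨r, ⟨h2.1, h1.trans hsS⟩, cel r (p z), ⟨⟨⟨hz, s, hs, hst⟩, ⟨h2, rfl⟩⟩, s, h1, hs⟩⟩
  have hpiece : ∀ r, s0 ≤ r → ∀ j : ℤ, μ (R ∩ p ⁻¹' (fc Θ lam s0 r j) ∩
      {z | ∃ s', r ≤ s' ∧ z ∈ act s'}) ≤ D * volume (fc Θ lam s0 r j) := by
    intro r hr j
    rcases Set.eq_empty_or_nonempty (R ∩ p ⁻¹' (fc Θ lam s0 r j) ∩
      {z | ∃ s', r ≤ s' ∧ z ∈ act s'}) with h | ⟨z, ⟨hz1, hz2⟩, hz3⟩
    · rw [h]; simp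
    · rw [fc_cell hz2, vol_cell]
      refine le_trans (measure_mono ?_) (dens z hz1.1 r hr hz3)
      rintro w ⟨⟨hw1, hw2⟩, -⟩
      exact ⟨hw1.1, hw2⟩
  have hd : (↑(Finset.Icc s0 S) : Set ℕ).PairwiseDisjoint fun r => {x | fst Θ lam s0 r x} :=
    fst_disj s0 _
  calc μ R ≤ μ (⋃ r ∈ Finset.Icc s0 S, ⋃ j : ℤ, R ∩ p ⁻¹' (fc Θ lam s0 r j) ∩
      {z | ∃ s', r ≤ s' ∧ z ∈ act s'}) := measure_mono hcov
    _ ≤ ∑ r ∈ Finset.Icc s0 S, μ (⋃ j : ℤ, R ∩ p ⁻¹' (fc Θ lam s0 r j) ∩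
      {z | ∃ s', r ≤ s' ∧ z ∈ act s'}) := measure_biUnion_finset_le _ _
    _ ≤ ∑ r ∈ Finset.Icc s0 S, D * volume {x | fst Θ lam s0 r x} := by
      refine Finset.sum_le_sum fun r hr => ?_
      refine (measure_iUnion_le _).trans ?_
      rw [fc_eq, measure_iUnion (fc_disj s0 r) (meas_fc s0 r), ← ENNReal.tsum_mul_left]
      exact ENNReal.tsum_le_tsum fun j => hpiece r (Finset.mem_Icc.1 hr).1 j
    _ = D * volume {x | stp Θ lam s0 S x} := by
      rw [stp_eq, measure_biUnion_finset hd (fun r _ => meas_fst s0 r), Finset.mul_sum]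

/-- averages over cells which are not hit, ENNReal form -/
theorem lint_le_of_not_hit {s : ℕ} {x : ℝ} (h : ¬ hit Θ lam s x) :
    ∫⁻ y in cell s x, Θ y ≤ lam * ENNReal.ofReal ((1 / 2 : ℝ) ^ s) := not_lt.1 h

/-- averages over cells which are not stopped -/
theorem lint_le_of_not_stp {s0 s r : ℕ} {x : ℝ} (h : ¬ stp Θ lam s0 s x) (h0 : s0 ≤ r) (hr : r ≤ s) :
    ∫⁻ y in cell r x, Θ y ≤ lam * ENNReal.ofReal ((1 / 2 : ℝ) ^ r) :=
  lint_le_of_not_hit fun hh => h ⟨r, h0, hr, hh⟩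

end

/-- Cauchy-Schwarz on a cell -/
theorem cs_cell (s : ℕ) (x : ℝ) (f : ℝ → ℝ≥0∞) (hf : AEMeasurable f (volume.restrict (cell s x))) :
    (∫⁻ y in cell s x, f y) ^ 2 ≤ ENNReal.ofReal ((1 / 2 : ℝ) ^ s) * ∫⁻ y in cell s x, f y ^ 2 := by
  have h := ENNReal.lintegral_mul_le_Lp_mul_Lq (volume.restrict (cell s x))
    (Real.HolderConjugate.two_two) hf (aemeasurable_const (b := (1 : ℝ≥0∞)))
  simp only [Pi.mul_apply, mul_one, ENNReal.one_rpow, lintegral_one, Measure.restrict_apply_univ,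
    vol_cell] at h
  have h2 : (∫⁻ y in cell s x, f y) ^ 2 ≤
      ((∫⁻ y in cell s x, f y ^ (2 : ℝ)) ^ (1 / (2 : ℝ)) *
        ENNReal.ofReal ((1 / 2 : ℝ) ^ s) ^ (1 / (2 : ℝ))) ^ 2 := by gcongr
  refine h2.trans (le_of_eq ?_)
  rw [mul_pow, ← ENNReal.rpow_natCast, ← ENNReal.rpow_mul, ← ENNReal.rpow_natCast, ← ENNReal.rpow_mul,
    mul_comm]
  norm_num

/-- Jensen on a cell, in the form used below -/
theorem avg_sq_le (s : ℕ) (x : ℝ) (f : ℝ → ℝ) (hf : Measurable f) :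
    ENNReal.ofReal ((2 ^ s * ∫ y in cell s x, f y) ^ 2) ≤
      ENNReal.ofReal ((2 : ℝ) ^ s) * ∫⁻ y in cell s x, ENNReal.ofReal (f y ^ 2) := by
  have h1 : ENNReal.ofReal |∫ y in cell s x, f y| ≤ ∫⁻ y in cell s x, ENNReal.ofReal |f y| := by
    have := enorm_integral_le_lintegral_enorm (μ := volume.restrict (cell s x)) f
    simpa only [Real.enorm_eq_ofReal_abs] using this
  have h2 : ENNReal.ofReal |∫ y in cell s x, f y| ^ 2 ≤
      ENNReal.ofReal ((1 / 2 : ℝ) ^ s) * ∫⁻ y in cell s x, ENNReal.ofReal (f y ^ 2) := by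
    refine (pow_le_pow_left' h1 2).trans ?_
    refine (cs_cell s x _ (hf.abs.ennreal_ofReal.aemeasurable)).trans (le_of_eq ?_)
    congr 1
    refine lintegral_congr fun y => ?_
    rw [← ENNReal.ofReal_pow (abs_nonneg _), sq_abs]
  have h3 : ENNReal.ofReal ((2 ^ s * ∫ y in cell s x, f y) ^ 2) =
      ENNReal.ofReal ((2 : ℝ) ^ s) ^ 2 * ENNReal.ofReal |∫ y in cell s x, f y| ^ 2 := by
    rw [← ENNReal.ofReal_pow (by positivity), ← ENNReal.ofReal_pow (abs_nonneg _),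
      ← ENNReal.ofReal_mul (by positivity), sq_abs, mul_pow]
  rw [h3]
  have h4 : ENNReal.ofReal ((2 : ℝ) ^ s) * ENNReal.ofReal ((1 / 2 : ℝ) ^ s) = 1 := by
    rw [← ENNReal.ofReal_mul (by positivity), ← mul_pow]; norm_num
  calc ENNReal.ofReal ((2 : ℝ) ^ s) ^ 2 * ENNReal.ofReal |∫ y in cell s x, f y| ^ 2
      ≤ ENNReal.ofReal ((2 : ℝ) ^ s) ^ 2 * (ENNReal.ofReal ((1 / 2 : ℝ) ^ s) *
        ∫⁻ y in cell s x, ENNReal.ofReal (f y ^ 2)) := by gcongr
    _ = ENNReal.ofReal ((2 : ℝ) ^ s) * (ENNReal.ofReal ((2 : ℝ) ^ s) *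
        ENNReal.ofReal ((1 / 2 : ℝ) ^ s)) * ∫⁻ y in cell s x, ENNReal.ofReal (f y ^ 2) := by ring
    _ = _ := by rw [h4, mul_one]

/-- averages over cells which are not hit -/
theorem avg_le {Θ : ℝ → ℝ≥0∞} {T : ℝ} (hT : 0 ≤ T) {s : ℕ} {x : ℝ}
    (h : ¬ hit Θ (ENNReal.ofReal (T ^ 2)) s x) (f : ℝ → ℝ) (hf : Measurable f)
    (hΘ : ∀ y, ENNReal.ofReal (f y ^ 2) ≤ Θ y) : |2 ^ s * ∫ y in cell s x, f y| ≤ T := by
  have h1 := avg_sq_le s x f hf
  have h2 : ∫⁻ y in cell s x, ENNReal.ofReal (f y ^ 2) ≤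
      ENNReal.ofReal (T ^ 2) * ENNReal.ofReal ((1 / 2 : ℝ) ^ s) :=
    (lintegral_mono hΘ).trans (lint_le_of_not_hit h)
  have h3 : ENNReal.ofReal ((2 ^ s * ∫ y in cell s x, f y) ^ 2) ≤ ENNReal.ofReal (T ^ 2) := by
    refine h1.trans ((mul_le_mul_right h2 _).trans (le_of_eq ?_))
    rw [mul_left_comm, ← ENNReal.ofReal_mul (by positivity), ← mul_pow]; norm_num
  rw [ENNReal.ofReal_le_ofReal_iff (by positivity)] at h3
  exact abs_le_of_sq_le_sq h3 hT

/-- one dimensional Sobolev inequality -/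
theorem sob (G G' : ℝ → ℝ) (hd : ∀ v, HasDerivAt G (G' v) v) (hc : Continuous G')
    (hs : HasCompactSupport G) (v : ℝ) : G v ^ 2 ≤ ∫ u, (G u ^ 2 + G' u ^ 2) := by
  have hG : Continuous G := continuous_iff_continuousAt.2 fun v => (hd v).continuousAt
  have hderiv : deriv G = G' := funext fun v => (hd v).deriv
  have hC1 : ContDiff ℝ 1 G := by
    rw [contDiff_one_iff_deriv]
    exact ⟨fun v => (hd v).differentiableAt, by rw [hderiv]; exact hc⟩
  have hs' : HasCompactSupport G' := by rw [← hderiv]; exact hs.deriv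
  have hC2 : ContDiff ℝ 1 (fun u => G u ^ 2) := hC1.pow 2
  have hs2 : HasCompactSupport (fun u => G u ^ 2) := by
    have := hs.comp_left (g := fun t : ℝ => t ^ 2) (by norm_num)
    exact this
  have h1 := hs2.integral_Iic_deriv_eq hC2 v
  have h2 : deriv (fun u => G u ^ 2) = fun u => 2 * G u * G' u := by
    funext u
    have h : HasDerivAt (fun u => G u ^ 2) (2 * G u * G' u) u := by
      have := (hd u).fun_pow 2
      simpa using this
    exact h.deriv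
  rw [h2] at h1
  have i1 : Integrable fun u => G u ^ 2 := hC2.continuous.integrable_of_hasCompactSupport hs2
  have hs3 : HasCompactSupport (fun u => G' u ^ 2) := by
    have := hs'.comp_left (g := fun t : ℝ => t ^ 2) (by norm_num)
    exact this
  have i2 : Integrable fun u => G' u ^ 2 := (hc.pow 2).integrable_of_hasCompactSupport hs3
  have i3 : Integrable fun u => 2 * G u * G' u := by
    refine ((continuous_const.mul hG).mul hc).integrable_of_hasCompactSupport ?_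
    exact (hs.mul_left (f := fun _ => (2 : ℝ))).mul_right
  have i4 : Integrable fun u => G u ^ 2 + G' u ^ 2 := i1.add i2
  calc G v ^ 2 = ∫ u in Set.Iic v, 2 * G u * G' u := h1.symm
    _ ≤ ∫ u in Set.Iic v, (G u ^ 2 + G' u ^ 2) := by
      refine setIntegral_mono i3.integrableOn i4.integrableOn fun u => ?_
      show 2 * G u * G' u ≤ G u ^ 2 + G' u ^ 2
      nlinarith [sq_nonneg (G u - G' u)]
    _ ≤ ∫ u, (G u ^ 2 + G' u ^ 2) :=
      setIntegral_le_integral i4 (Filter.Eventually.of_forall fun u => by positivity)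

/-- averages of a family over cells which are not hit, uniformly in the parameter -/
theorem avg_sup {Θ : ℝ → ℝ≥0∞} {T : ℝ} (hT : 0 ≤ T) {s : ℕ} {x : ℝ}
    (h : ¬ hit Θ (ENNReal.ofReal (T ^ 2)) s x) (F F' : ℝ → ℝ → ℝ)
    (hF : Measurable (Function.uncurry F)) (hF' : Measurable (Function.uncurry F'))
    (hd : ∀ v, HasDerivAt (fun v => 2 ^ s * ∫ y in cell s x, F v y)
      (2 ^ s * ∫ y in cell s x, F' v y) v)
    (hc : Continuous fun v => 2 ^ s * ∫ y in cell s x, F' v y)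
    (hs : HasCompactSupport fun v => 2 ^ s * ∫ y in cell s x, F v y)
    (hΘ : ∀ y, ∫⁻ v, (ENNReal.ofReal (F v y ^ 2) + ENNReal.ofReal (F' v y ^ 2)) ≤ Θ y) (v : ℝ) :
    |2 ^ s * ∫ y in cell s x, F v y| ≤ T := by
  have h0 := sob _ _ hd hc hs v
  set G : ℝ → ℝ := fun v => 2 ^ s * ∫ y in cell s x, F v y with hG
  set G' : ℝ → ℝ := fun v => 2 ^ s * ∫ y in cell s x, F' v y with hG'
  have hGc : Continuous G := continuous_iff_continuousAt.2 fun v => (hd v).continuousAt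
  have h1 : ENNReal.ofReal (∫ u, (G u ^ 2 + G' u ^ 2)) ≤
      ∫⁻ u, (ENNReal.ofReal (G u ^ 2) + ENNReal.ofReal (G' u ^ 2)) := by
    have hcc : Continuous fun u => G u ^ 2 + G' u ^ 2 := (hGc.pow 2).add (hc.pow 2)
    rw [integral_eq_lintegral_of_nonneg_ae (f := fun u => G u ^ 2 + G' u ^ 2)
      (Filter.Eventually.of_forall fun u => add_nonneg (sq_nonneg _) (sq_nonneg _))
      hcc.aestronglyMeasurable]
    refine ENNReal.ofReal_toReal_le.trans (le_of_eq ?_)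
    refine lintegral_congr fun u => ?_
    rw [ENNReal.ofReal_add (by positivity) (by positivity)]
  have h2 : ∫⁻ u, (ENNReal.ofReal (G u ^ 2) + ENNReal.ofReal (G' u ^ 2)) ≤
      ∫⁻ u, ENNReal.ofReal ((2 : ℝ) ^ s) * ∫⁻ y in cell s x,
        (ENNReal.ofReal (F u y ^ 2) + ENNReal.ofReal (F' u y ^ 2)) := by
    refine lintegral_mono fun u => ?_
    have m1 : Measurable fun y => F u y := hF.comp measurable_prodMk_left
    have m2 : Measurable fun y => F' u y := hF'.comp measurable_prodMk_left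
    show _ ≤ ENNReal.ofReal ((2 : ℝ) ^ s) * ∫⁻ y in cell s x,
        (ENNReal.ofReal (F u y ^ 2) + ENNReal.ofReal (F' u y ^ 2))
    rw [lintegral_add_left (m1.pow_const 2).ennreal_ofReal, mul_add]
    exact add_le_add (avg_sq_le s x _ m1) (avg_sq_le s x _ m2)
  have m3 : Measurable fun q : ℝ × ℝ => ENNReal.ofReal (F q.1 q.2 ^ 2) + ENNReal.ofReal (F' q.1 q.2 ^ 2) :=
    (hF.pow_const 2).ennreal_ofReal.add (hF'.pow_const 2).ennreal_ofReal
  have h3 : ∫⁻ u, ENNReal.ofReal ((2 : ℝ) ^ s) * ∫⁻ y in cell s x,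
        (ENNReal.ofReal (F u y ^ 2) + ENNReal.ofReal (F' u y ^ 2)) ≤ ENNReal.ofReal (T ^ 2) := by
    rw [lintegral_const_mul' _ _ ENNReal.ofReal_ne_top, lintegral_lintegral_swap m3.aemeasurable]
    refine (mul_le_mul_right ((lintegral_mono hΘ).trans (lint_le_of_not_hit h)) _).trans (le_of_eq ?_)
    rw [mul_left_comm, ← ENNReal.ofReal_mul (by positivity), ← mul_pow]; norm_num
  have h4 : ENNReal.ofReal (∫ u, (G u ^ 2 + G' u ^ 2)) ≤ ENNReal.ofReal (T ^ 2) :=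
    h1.trans (h2.trans h3)
  rw [ENNReal.ofReal_le_ofReal_iff (by positivity)] at h4
  exact abs_le_of_sq_le_sq (h0.trans h4) hT

end Crest.Agent.R087.StopAvgx630
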