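import Crest.Agent.R087.TreeIf_153
import Crest.Agent.R087.Dya_738
import Crest.Agent.R087.Mass_546

/-!
Row 87 (S0115), OPERATOR PART (helper153): general stopping scale by averages of one nonnegative
function, and the measure of the removed points.
-/

set_option autoImplicit false

noncomputable section

open MeasureTheory Crest.Agent.R087.Sh0x283 Crest.Agent.R087.Sh1x283 Crest.Agent.R087.GateDefx273
open Crest.Agent.R087.T1x90 Crest.Agent.R087.TreeIfx153 Crest.Agent.R087.Dyax738

namespace Crest.Agent.R087.StopGx153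

open Classical in
/-- stopping scale: the least `s < S` with `av s Θ x > L`, else `S` -/
def sg (Θ : ℝ → ℝ) (L : ℝ) (S : ℕ) (x : ℝ) : ℕ :=
  if h : ∃ s, s < S ∧ L < av s Θ x then Nat.find h else S

theorem lt_sg {Θ : ℝ → ℝ} {L : ℝ} {S s : ℕ} {x : ℝ} :
    s < sg Θ L S x ↔ s < S ∧ ∀ r ≤ s, av r Θ x ≤ L := by
  classical
  unfold sg
  split_ifs with h
  · rw [Nat.lt_find_iff]
    constructor
    · intro H
      have hsS : s < S := by
        by_contra hc
        obtain ⟨t, ht, ht'⟩ := h
        exact H t (by omega) ⟨ht, ht'⟩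
      exact ⟨hsS, fun r hr => not_lt.1 fun hc => H r hr ⟨by omega, hc⟩⟩
    · rintro ⟨h1, h2⟩ r hr ⟨h3, h4⟩
      exact absurd (h2 r hr) (not_le.2 h4)
  · constructor
    · intro hs
      exact ⟨hs, fun r hr => not_lt.1 fun hc => h ⟨r, by omega, hc⟩⟩
    · exact fun hs => hs.1

theorem sg_le (Θ : ℝ → ℝ) (L : ℝ) (S : ℕ) (x : ℝ) : sg Θ L S x ≤ S := by
  by_contra hc
  have h1 := (lt_sg (s := S)).1 (not_le.1 hc)
  exact lt_irrefl _ h1.1

theorem sg_cell (Θ : ℝ → ℝ) (L : ℝ) (S : ℕ) (s : ℕ) (x y : ℝ) (h : cel s x = cel s y) :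
    s < sg Θ L S x ↔ s < sg Θ L S y := by
  rw [lt_sg, lt_sg]
  refine and_congr Iff.rfl (forall₂_congr fun r hr => ?_)
  rw [av_ad r Θ x y (dx_mono hr h)]

theorem measurableSet_lt_sg (Θ : ℝ → ℝ) (L : ℝ) (S s : ℕ) :
    MeasurableSet {x | s < sg Θ L S x} := by
  have : {x | s < sg Θ L S x} = {x | s < S} ∩ ⋂ r ∈ Finset.range (s + 1), {x | av r Θ x ≤ L} := by
    ext x
    simp only [Set.mem_ofPred_eq, Set.mem_inter_iff, Set.mem_iInter, Finset.mem_range, lt_sg]
    refine and_congr Iff.rfl (forall_congr' fun r => ?_)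
    rw [Nat.lt_succ_iff]
  rw [this]
  refine (MeasurableSet.const _).inter (Finset.measurableSet_biInter _ fun r _ => ?_)
  exact measurableSet_le (av_ad r Θ).measurable measurable_const

theorem measurable_sg (Θ : ℝ → ℝ) (L : ℝ) (S : ℕ) : Measurable (sg Θ L S) := by
  refine measurable_of_Ioi fun n => ?_
  exact measurableSet_lt_sg Θ L S n

theorem sg_stop (Θ : ℝ → ℝ) (L : ℝ) (S : ℕ) : StopS S (sg Θ L S) :=
  ⟨measurable_sg Θ L S, sg_le Θ L S, sg_cell Θ L S⟩

/-- if the stopping scale is `s < S` the average at `s` is large -/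
theorem sg_eq {Θ : ℝ → ℝ} {L : ℝ} {S : ℕ} {x : ℝ} (h : sg Θ L S x < S) :
    L < av (sg Θ L S x) Θ x := by
  by_contra hc
  have h1 : sg Θ L S x < sg Θ L S x := by
    rw [lt_sg]
    refine ⟨h, fun r hr => ?_⟩
    rcases hr.lt_or_eq with h2 | h2
    · exact (lt_sg.1 h2).2 r le_rfl
    · rw [h2]; exact not_lt.1 hc
  exact lt_irrefl _ h1

/-- Chebyshev for the stopping scale -/
theorem sg_vol {Θ : ℝ → ℝ} (hΘ : Nice1 Θ) (h0 : ∀ x, 0 ≤ Θ x) {L : ℝ} (hL : 0 < L) (S : ℕ) :
    volume {x | sg Θ L S x < S} ≤ ENNReal.ofReal ((∫ x, Θ x) / L) := by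
  classical
  have hm := measurable_sg Θ L S
  set σ := sg Θ L S with hσ
  -- the pieces
  have hpiece : ∀ s < S, volume {x | σ x = s} ≤
      ENNReal.ofReal ((∫ x in {x | σ x = s}, Θ x) / L) := by
    intro s hs
    set A : Set ℝ := {x | σ x = s} with hA
    have mA : MeasurableSet A := hm (measurableSet_singleton s)
    set χ : ℝ → ℝ := A.indicator fun _ => 1 with hχ
    have hAd : Ad s χ := by
      intro x y hxy
      have e : σ x = s ↔ σ y = s := by
        have h1 : s < σ x ↔ s < σ y := sg_cell Θ L S s x y hxy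
        have h2 : s ≤ σ x ↔ s ≤ σ y := by
          rcases Nat.eq_zero_or_pos s with h0 | h0
          · subst h0; simp
          · have : s - 1 < σ x ↔ s - 1 < σ y :=
              sg_cell Θ L S (s - 1) x y (dx_mono (by omega) hxy)
            omega
        omega
      simp only [hχ, Set.indicator_apply, hA, Set.mem_ofPred_eq, e]
    have hb : ∀ x, |χ x| ≤ 1 := by
      intro x; simp only [hχ, Set.indicator_apply]; split_ifs <;> norm_num
    have i1 := nice_int (nice_mul_bdd hΘ hAd.measurable hb)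
    have i2 := nice_int (nice_mul_bdd (nice_av hΘ s) hAd.measurable hb)
    have e1 := int_mul_av hAd i1 i2
    have e2 : ∫ x in A, Θ x = ∫ x, χ x * Θ x := by
      rw [← integral_indicator mA]
      refine integral_congr_ae (Filter.Eventually.of_forall fun x => ?_)
      simp only [hχ, Set.indicator_apply]
      split_ifs <;> simp
    -- A has finite measure: on it `L < av s Θ`
    have hle : ∀ x ∈ A, L < av s Θ x := by
      intro x hx
      have hx' : σ x = s := hx
      have := sg_eq (Θ := Θ) (L := L) (S := S) (x := x) (by rw [← hσ, hx']; exact hs)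
      rwa [← hσ, hx'] at this
    obtain ⟨-, -, ⟨R, hR⟩⟩ := nice_av hΘ s
    have hfin : volume A < ⊤ := by
      refine (measure_mono (t := Set.Icc (-R) R) ?_).trans_lt (by simp)
      intro x hx
      by_contra hc
      rw [Set.mem_Icc, ← abs_le, not_le] at hc
      have := hle x hx
      rw [hR x hc] at this
      linarith
    have e3 : L * volume.real A ≤ ∫ x, χ x * av s Θ x := by
      have : L * volume.real A = ∫ x, χ x * L := by
        have : (fun x => χ x * L) = A.indicator fun _ => L := by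
          funext x; simp only [hχ, Set.indicator_apply]; split_ifs <;> simp
        rw [this, integral_indicator mA, setIntegral_const, smul_eq_mul, mul_comm]
      rw [this]
      refine integral_mono ?_ i2 fun x => ?_
      · have : (fun x => χ x * L) = A.indicator fun _ => L := by
          funext x; simp only [hχ, Set.indicator_apply]; split_ifs <;> simp
        rw [this]
        exact (integrable_indicator_iff mA).2 (integrableOn_const hfin.ne)
      · simp only [hχ, Set.indicator_apply]
        split_ifs with hx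
        · simpa using (hle x hx).le
        · simp
    rw [e1, ← e2] at e3
    have e4 : volume.real A ≤ (∫ x in A, Θ x) / L := by
      rw [le_div_iff₀ hL, mul_comm]; exact e3
    rw [← ENNReal.ofReal_toReal hfin.ne]
    exact ENNReal.ofReal_le_ofReal e4
  have hunion : {x | σ x < S} = ⋃ s ∈ Finset.range S, {x | σ x = s} := by
    ext x
    simp only [Set.mem_ofPred_eq, Set.mem_iUnion, Finset.mem_range, exists_prop]
    constructor
    · intro h; exact ⟨σ x, h, rfl⟩
    · rintro ⟨s, hs, h⟩; omega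
  have hdisj : (↑(Finset.range S) : Set ℕ).PairwiseDisjoint fun s => {x : ℝ | σ x = s} := by
    intro s _ t _ hst
    rw [Function.onFun, Set.disjoint_left]
    intro x hx hx'
    exact hst ((hx : σ x = s).symm.trans hx')
  have hint : ∑ s ∈ Finset.range S, ∫ x in {x | σ x = s}, Θ x ≤ ∫ x, Θ x := by
    have := integral_biUnion_finset (μ := volume) (f := Θ) (Finset.range S)
      (s := fun s => {x : ℝ | σ x = s}) (fun s _ => hm (measurableSet_singleton s)) hdisj
      (fun s _ => (nice_int hΘ).integrableOn)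
    rw [← this]
    exact setIntegral_le_integral (nice_int hΘ) (Filter.Eventually.of_forall h0)
  calc volume {x | σ x < S} = volume (⋃ s ∈ Finset.range S, {x | σ x = s}) := by rw [hunion]
    _ ≤ ∑ s ∈ Finset.range S, volume {x | σ x = s} := measure_biUnion_finset_le _ _
    _ ≤ ∑ s ∈ Finset.range S, ENNReal.ofReal ((∫ x in {x | σ x = s}, Θ x) / L) :=
        Finset.sum_le_sum fun s hs => hpiece s (Finset.mem_range.1 hs)
    _ = ENNReal.ofReal (∑ s ∈ Finset.range S, (∫ x in {x | σ x = s}, Θ x) / L) := by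
        rw [ENNReal.ofReal_sum_of_nonneg]
        intro s _
        exact div_nonneg (setIntegral_nonneg (hm (measurableSet_singleton s)) fun x _ => h0 x) hL.le
    _ ≤ ENNReal.ofReal ((∫ x, Θ x) / L) := by
        refine ENNReal.ofReal_le_ofReal ?_
        rw [← Finset.sum_div]
        gcongr

/-- measure of the removed points -/
theorem rem_vol {S s0 : ℕ} {m0 : ℤ} {h : ℝ × ℝ → ℝ} {act : ℕ → Set (ℝ × ℝ)} {Z : Set (ℝ × ℝ)}
    {H D : ℝ} (hT : Tree S s0 m0 h act Z H D) {σ : ℝ → ℕ} (hσ : StopS S σ) :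
    volume (remv act Z σ) ≤ 2 * ENNReal.ofReal D * volume {x | σ x < S} := by
  classical
  set Z' := remv act Z σ with hZ'
  have mZ' : MeasurableSet Z' := by
    have : Z' = Z ∩ ⋃ s, (act s ∩ {z : ℝ × ℝ | σ z.1 ≤ s}) := by
      ext z
      simp only [hZ', remv, Set.mem_ofPred_eq, Set.mem_inter_iff, Set.mem_iUnion]
    rw [this]
    refine hT.mZ.inter (MeasurableSet.iUnion fun s => (hT.mact s).inter ?_)
    exact measurableSet_le (hσ.meas.comp measurable_fst) measurable_const
  have hex : ∀ z ∈ Z', ∃ s, z ∈ act s ∧ σ z.1 ≤ s := fun z hz => hz.2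
  let κ : ℝ × ℝ → ℕ := fun z => if hz : z ∈ Z' then Nat.find (hex z hz) else 0
  have hκ : ∀ z ∈ Z', z ∈ act (κ z) ∧ σ z.1 ≤ κ z := by
    intro z hz
    have : κ z = Nat.find (hex z hz) := by simp only [κ, dif_pos hz]
    rw [this]
    exact Nat.find_spec (hex z hz)
  have hκS : ∀ z ∈ Z', κ z < S := by
    intro z hz
    by_contra hc
    exact Set.disjoint_left.1 (hT.hi (κ z) (not_lt.1 hc)) (hκ z hz).1 hz.1
  have hκ0 : ∀ z ∈ Z', s0 ≤ κ z := by
    intro z hz
    by_contra hc
    exact Set.disjoint_left.1 (hT.lo (κ z) (not_le.1 hc)) (hκ z hz).1 hz.1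
  have key := Massx546.mass (X := ℝ × ℝ) Prod.fst κ Z' volume measurable_fst mZ' S hκS
    (ENNReal.ofReal D) (fun r _ z'' hz'' hr => by
      rcases Nat.lt_or_ge r s0 with h1 | h1
      · have : {z | z ∈ Z' ∧ κ z ≤ r ∧ Massx546.cel r z.1 = Massx546.cel r z''.1} = ∅ := by
          ext z
          simp only [Set.mem_ofPred_eq, Set.mem_empty_iff_false, iff_false]
          rintro ⟨hz, h2, -⟩
          have := hκ0 z hz
          omega
        rw [this, measure_empty]
        exact zero_le
      · rw [← ENNReal.ofReal_mul hT.D0]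
        refine (measure_mono ?_).trans (hT.dens z'' hz''.1 r h1 ⟨κ z'', hr, (hκ z'' hz'').1⟩)
        rintro z ⟨hz, -, h3⟩
        exact ⟨hz.1, h3⟩) (fun _ => 1) (fun _ => 1) (fun _ _ _ _ => le_rfl)
  rw [setLIntegral_const, one_mul, setLIntegral_const, one_mul] at key
  refine key.trans ?_
  gcongr
  rintro x ⟨z, hz, hx⟩
  have h1 := hσ.cell (κ z) x z.1 hx
  have h2 := (hκ z hz).2
  have h3 := hκS z hz
  show σ x < S
  omega

end Crest.Agent.R087.StopGx153
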