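import Crest.Agent.R087.E2K_752

/-!
# Row 87, operator part: the L2 norm of the majorant `H = ∑ a_m 1_{fat K' m}` (definition-free core)

`sumh`   : from `E2K`, tops of density `≥ δ`, fat bodies of radius `K' ≥ K`.
`energy` : `∑ 4^{k_i} |E_i| ≤ ∫ h²` for disjoint `E_i ⊆ {2^{k_i} ≤ |h|}`.
`sumh_lev` : both together, coefficients `Λ 2^{k_i}`.
-/

set_option autoImplicit false

noncomputable section

open MeasureTheory

namespace Crest.Agent.R087.SumHx801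

open Crest.Agent.R087.Sh0x283 Crest.Agent.R087.E2x542 Crest.Agent.R087.E2Kx752

theorem fatV_mono {U : ℝ × ℝ → ℝ} {K K' : ℝ} (h : K ≤ K') (R : Tube) :
    fatV U K R ⊆ fatV U K' R := by
  intro z hz
  exact ⟨⟨hz.1.1, hz.1.2.trans h⟩, hz.2.trans h⟩

/-- the majorant, arbitrary coefficients -/
theorem sumh (hE : E2K) :
    ∃ c : ℝ, 0 < c ∧ ∃ C : ℝ, 0 ≤ C ∧ ∀ U : ℝ × ℝ → ℝ, Fld c U →
      ∀ K K' : ℝ, 1 ≤ K' → K ≤ K' → ∀ (n : ℕ) (R : Fin n → Tube) (E : Fin n → Set (ℝ × ℝ))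
        (a : Fin n → ℝ) (δ : ℝ), 0 < δ → (∀ i, MeasurableSet (E i)) →
        (∀ i, E i ⊆ fatV U K (R i)) → Pairwise (Function.onFun Disjoint E) →
        (∀ i, δ * (R i).len ≤ (volume (E i)).toReal) → (∀ i, 0 ≤ a i) →
        ∫ z, (∑ i, a i * (fat K' (R i)).indicator 1 z) ^ 2 ≤
          C * K' ^ 5 * ((1 + Real.log (1 / min δ 1)) / (min δ 1) ^ 2) *
            ∑ i, a i ^ 2 * (volume (E i)).toReal := by
  obtain ⟨c, hc, C, hC, h⟩ := hE
  refine ⟨c, hc, C, hC, ?_⟩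
  intro U hU K K' hK' hKK n R E a δ hδ hm hsub hdis hden ha
  set d : ℝ := min δ 1 with hd
  have hd0 : 0 < d := lt_min hδ one_pos
  have hd1 : d ≤ 1 := min_le_right _ _
  have hden' : ∀ i, d * (R i).len ≤ (volume (E i)).toReal := fun i =>
    (mul_le_mul_of_nonneg_right (min_le_left _ _) (R i).len_pos.le).trans (hden i)
  have h1 := h U hU K' hK' n R E a (fun _ => d) hm (fun i => (hsub i).trans (fatV_mono hKK (R i)))
    hdis (fun _ => hd0) (fun _ => hd1) hden' ha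
  refine h1.trans ?_
  have hlog : 0 ≤ Real.log (1 / d) := Real.log_nonneg (by rw [le_div_iff₀ hd0]; linarith)
  have hfac : 0 ≤ C * K' ^ 5 := by positivity
  rw [mul_assoc (C * K' ^ 5)]
  refine mul_le_mul_of_nonneg_left ?_ hfac
  rw [Finset.mul_sum]
  refine Finset.sum_le_sum (fun i _ => ?_)
  have h2 : (R i).len ≤ (volume (E i)).toReal / d := by
    rw [le_div_iff₀ hd0]
    have := hden' i
    linarith
  calc a i ^ 2 * (R i).len * ((1 + Real.log (1 / d)) / d)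
      ≤ a i ^ 2 * ((volume (E i)).toReal / d) * ((1 + Real.log (1 / d)) / d) := by
        gcongr
    _ = (1 + Real.log (1 / d)) / d ^ 2 * (a i ^ 2 * (volume (E i)).toReal) := by
        field_simp

/-- energy: disjoint sets on which `|h| ≥ b_i` -/
theorem energy {n : ℕ} (E : Fin n → Set (ℝ × ℝ)) (b : Fin n → ℝ) (h : ℝ × ℝ → ℝ)
    (hm : ∀ i, MeasurableSet (E i)) (hdis : Pairwise (Function.onFun Disjoint E))
    (hh : Integrable (fun z => (h z) ^ 2)) (hb : ∀ i, 0 ≤ b i)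
    (hE : ∀ i, ∀ z ∈ E i, b i ≤ |h z|) (hfin : ∀ i, volume (E i) ≠ ⊤) :
    ∑ i, b i ^ 2 * (volume (E i)).toReal ≤ ∫ z, (h z) ^ 2 := by
  have h1 : ∀ i, b i ^ 2 * (volume (E i)).toReal ≤ ∫ z in E i, (h z) ^ 2 := by
    intro i
    have h2 : ∫ z in E i, b i ^ 2 = b i ^ 2 * (volume (E i)).toReal := by
      rw [setIntegral_const, smul_eq_mul, mul_comm]
      rfl
    rw [← h2]
    refine setIntegral_mono_on ?_ hh.integrableOn (hm i) ?_
    · exact integrableOn_const (hfin i)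
    · intro z hz
      have h3 := hE i z hz
      have h4 : (h z) ^ 2 = |h z| ^ 2 := (sq_abs _).symm
      rw [h4]
      exact pow_le_pow_left₀ (hb i) h3 2
  refine (Finset.sum_le_sum (fun i _ => h1 i)).trans ?_
  have h5 : ∑ i, ∫ z in E i, (h z) ^ 2 = ∫ z in ⋃ i, E i, (h z) ^ 2 := by
    rw [integral_iUnion_fintype hm hdis (fun i => hh.integrableOn)]
  rw [h5]
  exact setIntegral_le_integral hh (Filter.Eventually.of_forall (fun z => sq_nonneg _))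

/-- levels: coefficients `Λ b_i`, with `E_i ⊆ {b_i ≤ |h|}` -/
theorem sumh_lev (hE : E2K) :
    ∃ c : ℝ, 0 < c ∧ ∃ C : ℝ, 0 ≤ C ∧ ∀ U : ℝ × ℝ → ℝ, Fld c U →
      ∀ K K' : ℝ, 1 ≤ K' → K ≤ K' → ∀ (n : ℕ) (R : Fin n → Tube) (E : Fin n → Set (ℝ × ℝ))
        (b : Fin n → ℝ) (δ Λ : ℝ) (h : ℝ × ℝ → ℝ), 0 < δ → 0 ≤ Λ → (∀ i, MeasurableSet (E i)) →
        (∀ i, E i ⊆ fatV U K (R i)) → Pairwise (Function.onFun Disjoint E) →
        (∀ i, δ * (R i).len ≤ (volume (E i)).toReal) → (∀ i, 0 ≤ b i) →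
        Integrable (fun z => (h z) ^ 2) → (∀ i, ∀ z ∈ E i, b i ≤ |h z|) →
        (∀ i, volume (E i) ≠ ⊤) →
        ∫ z, (∑ i, (Λ * b i) * (fat K' (R i)).indicator 1 z) ^ 2 ≤
          C * K' ^ 5 * ((1 + Real.log (1 / min δ 1)) * (Λ / min δ 1) ^ 2) * ∫ z, (h z) ^ 2 := by
  obtain ⟨c, hc, C, hC, hs⟩ := sumh hE
  refine ⟨c, hc, C, hC, ?_⟩
  intro U hU K K' hK' hKK n R E b δ Λ h hδ hΛ hm hsub hdis hden hb hh hEh hfin
  have hd0 : 0 < min δ 1 := lt_min hδ one_pos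
  have hd1 : min δ 1 ≤ 1 := min_le_right _ _
  have h1 := hs U hU K K' hK' hKK n R E (fun i => Λ * b i) δ hδ hm hsub hdis hden
    (fun i => mul_nonneg hΛ (hb i))
  have h2 := energy E b h hm hdis hh hb hEh hfin
  refine h1.trans ?_
  have hlog : 0 ≤ Real.log (1 / min δ 1) :=
    Real.log_nonneg (by rw [le_div_iff₀ hd0]; linarith)
  have h3 : ∑ i, (Λ * b i) ^ 2 * (volume (E i)).toReal =
      Λ ^ 2 * ∑ i, b i ^ 2 * (volume (E i)).toReal := by
    rw [Finset.mul_sum]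
    exact Finset.sum_congr rfl (fun i _ => by ring)
  rw [h3]
  calc C * K' ^ 5 * ((1 + Real.log (1 / min δ 1)) / (min δ 1) ^ 2) *
        (Λ ^ 2 * ∑ i, b i ^ 2 * (volume (E i)).toReal)
      ≤ C * K' ^ 5 * ((1 + Real.log (1 / min δ 1)) / (min δ 1) ^ 2) *
        (Λ ^ 2 * ∫ z, (h z) ^ 2) := by
        gcongr
    _ = C * K' ^ 5 * ((1 + Real.log (1 / min δ 1)) * (Λ / min δ 1) ^ 2) * ∫ z, (h z) ^ 2 := by
        field_simp

end Crest.Agent.R087.SumHx801
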