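import Crest.Agent.R087.OP1_270
import Crest.Agent.R087.Sq_282

/-!
Row 87 (S0115), operator part, leaf SUPP (helper339): support of one pairing with a LOW tree.
-/

set_option autoImplicit false

noncomputable section

open MeasureTheory Crest.Agent.R087.Sh0x283 Crest.Agent.R087.GateDefx273

namespace Crest.Agent.R087.Suppx339

open Crest.Agent.R087.E2x542 Crest.Agent.R087.OP0x270 Crest.Agent.R087.OP1x270

theorem ix_close {s : ℕ} {x u : ℝ} (h : jx s x = jx s u) : |x - u| ≤ (1 / 2 : ℝ) ^ s := by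
  unfold jx at h
  have h3 := Int.abs_sub_lt_one_of_floor_eq_floor h
  have h4 : (0 : ℝ) < 2 ^ s := by positivity
  have h5 : (2 : ℝ) ^ s * x - 2 ^ s * u = 2 ^ s * (x - u) := by ring
  rw [h5, abs_mul, abs_of_pos h4] at h3
  rw [one_div, inv_pow, ← one_div, le_div_iff₀ h4]
  linarith

/-- geometry: the line of an attached point against the line of the tree. -/
theorem supp_pr {φ ζ : ℝ → ℝ} (hφ : Continuous φ) (hs : ∀ r, 1 < |r| → φ r = 0) (hz : ZetC ζ)
    {U : ℝ × ℝ → ℝ} {b m : ℝ} {l s s' : ℕ} {z z' : ℝ × ℝ} (hn : near U 1 b m l z) (hl : l ≤ s)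
    (hne : pr φ ζ U s s' z z' ≠ 0) :
    |z'.2 - (b + m * z'.1)| ≤ |U z' - m| * (1 / 2 : ℝ) ^ s' + 4 := by
  have P : Sqx282.PZ φ ζ := ⟨hφ, hz.1.continuous, hs, hz.2.1⟩
  have h1 : ∃ w, tau φ ζ U s z w * tau φ ζ U s' z' w ≠ 0 := by
    by_contra h0
    push Not at h0
    apply hne
    unfold pr
    simp [h0]
  obtain ⟨w, hw⟩ := h1
  have hk : OPdefx799.kk φ ζ U s z w ≠ 0 := left_ne_zero_of_mul hw
  have hk' : OPdefx799.kk φ ζ U s' z' w ≠ 0 := right_ne_zero_of_mul hw
  have h2 : jx s w.1 = jx s z.1 := Sqx282.kk_cell P hk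
  have h3 : jx s' w.1 = jx s' z'.1 := Sqx282.kk_cell P hk'
  have h4 := Sqx282.kk_phi P hk
  have h5 := Sqx282.kk_phi P hk'
  have h6 := ix_close h2
  have h7 := ix_close h3
  obtain ⟨n1, n2⟩ := hn
  have h8 : |U z - m| * |w.1 - z.1| ≤ 1 := by
    calc |U z - m| * |w.1 - z.1| ≤ |U z - m| * (1 / 2 : ℝ) ^ l := by
          gcongr
          refine h6.trans ?_
          exact pow_le_pow_of_le_one (by norm_num) (by norm_num) hl
      _ ≤ 1 := n2
  have h9 : |U z' - m| * |w.1 - z'.1| ≤ |U z' - m| * (1 / 2 : ℝ) ^ s' := by gcongr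
  rw [← abs_mul] at h8 h9
  rw [abs_le] at *
  constructor <;> nlinarith

theorem supp {ζ : ℝ → ℝ} (hz : ZetC ζ) : SUPP ζ := by
  intro φ hφ hs U g S lo hi B R hL z' s' _ hfar
  unfold Pair
  rw [Nat.Ico_succ_singleton, Finset.sum_singleton, ← integral_zero (ℝ × ℝ) ℝ (μ := volume)]
  congr 1
  ext z
  by_cases hzB : z ∈ B
  · have h0 : ∑ s ∈ Finset.Ico (lo z) (hi z), cc s s' * pr φ ζ U s s' z z' = 0 := by
      refine Finset.sum_eq_zero fun s hs' => ?_
      rw [Finset.mem_Ico] at hs'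
      by_cases hne : pr φ ζ U s s' z z' = 0
      · rw [hne, mul_zero]
      · exfalso
        obtain ⟨-, -, hnear⟩ := hL.pos z hzB (lt_of_le_of_lt hs'.1 hs'.2)
        have := supp_pr hφ hs hz hnear hs'.1 hne
        unfold Tube.line at hfar
        linarith
    rw [h0, mul_zero]
  · rw [Set.indicator_of_notMem hzB, zero_mul]

theorem l_supp : L_SUPP := fun _ hz => supp hz

end Crest.Agent.R087.Suppx339
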