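import Crest.Agent.R087.T1def_90
import Crest.Agent.R087.SqB_90

/-!
Row 87, operator part, leaf T1: cells, gate, orthogonality, pathwise Doob inequality (helper90).
-/

set_option autoImplicit false

noncomputable section

open MeasureTheory Crest.Agent.R087.Sh0x283 Crest.Agent.R087.Sh1x283 Crest.Agent.R087.GateDefx273
  Crest.Agent.R087.SqIx90 Crest.Agent.R087.SqBx90

namespace Crest.Agent.R087.T1x90

theorem cel_eq_fl (s : ℕ) (x : ℝ) : cel s x = fl (-(s : ℤ)) x := by
  unfold cel fl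
  congr 1
  rw [zpow_neg, zpow_natCast, div_inv_eq_mul, mul_comm]

theorem cel_mono {s s' : ℕ} (h : s ≤ s') {x y : ℝ} (hxy : cel s' x = cel s' y) :
    cel s x = cel s y := by
  rw [cel_eq_fl, cel_eq_fl] at hxy ⊢
  exact fl_mono (by omega) hxy

theorem cst_iff {s : ℕ} {f : ℝ → ℝ} : Cst (-(s : ℤ)) f ↔ ∀ x y, cel s x = cel s y → f x = f y := by
  unfold Cst
  simp only [cel_eq_fl]

theorem Cst.mono' {s s' : ℕ} (h : s ≤ s') {f : ℝ → ℝ} (hf : Cst (-(s : ℤ)) f) : Cst (-(s' : ℤ)) f :=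
  Cst.mono (by omega) hf

/-- gate as a function of the quarter index -/
def gq (k : ℤ) : ℝ := if k = 0 then 1 else if k = 3 then 1 else -1

theorem cel_succ_div (s : ℕ) (x : ℝ) : cel s x = cel (s + 1) x / 2 := by
  unfold cel
  have h : (2 : ℝ) ^ s * x = (2 : ℝ) ^ (s + 1) * x / ((2 : ℕ) : ℝ) := by
    rw [pow_succ]; push_cast; ring
  rw [h, Int.floor_div_natCast]
  rfl

theorem ga_eq (s : ℕ) (x : ℝ) : ga s x = gq (cel (s + 2) x - 4 * cel s x) := by
  unfold ga
  set t := Int.fract ((2 : ℝ) ^ s * x) with ht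
  have h0 : 0 ≤ t := Int.fract_nonneg _
  have h1 : t < 1 := Int.fract_lt_one _
  have h2 : cel (s + 2) x - 4 * cel s x = ⌊4 * t⌋ := by
    have h3 : (2 : ℝ) ^ (s + 2) * x = 4 * t + ((4 * cel s x : ℤ) : ℝ) := by
      rw [ht, Int.fract]
      push_cast
      unfold cel
      rw [pow_add]
      ring
    have h4 : cel (s + 2) x = ⌊4 * t⌋ + 4 * cel s x := by
      conv_lhs => unfold cel
      rw [h3, Int.floor_add_intCast]
    omega
  rw [h2]
  unfold gt gq
  rw [if_neg (not_lt.2 h0)]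
  by_cases a : t < 1 / 4
  · have : ⌊4 * t⌋ = 0 := by rw [Int.floor_eq_iff]; constructor <;> push_cast <;> linarith
    rw [if_pos a, this, if_pos rfl]
  rw [if_neg a]
  push Not at a
  by_cases b : t < 3 / 4
  · rw [if_pos b]
    have h5 : 1 ≤ ⌊4 * t⌋ := by rw [Int.le_floor]; push_cast; linarith
    have h6 : ⌊4 * t⌋ < 3 := by rw [Int.floor_lt]; push_cast; linarith
    rw [if_neg (by omega), if_neg (by omega)]
  · rw [if_neg b, if_pos h1]
    push Not at b
    have : ⌊4 * t⌋ = 3 := by rw [Int.floor_eq_iff]; constructor <;> push_cast <;> linarith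
    rw [this, if_neg (by norm_num), if_pos rfl]

theorem ga_sq (s : ℕ) (x : ℝ) : ga s x * ga s x = 1 := by
  rw [ga_eq]; unfold gq; split_ifs <;> norm_num

theorem abs_ga (s : ℕ) (x : ℝ) : |ga s x| = 1 := by
  rw [ga_eq]; unfold gq; split_ifs <;> norm_num

theorem cst_ga (s : ℕ) : Cst (-((s + 2 : ℕ) : ℤ)) (ga s) := by
  rw [cst_iff]
  intro x y h
  rw [ga_eq, ga_eq, h, cel_mono (by omega : s ≤ s + 2) h]

theorem measurable_ga (s : ℕ) : Measurable (ga s) := (cst_ga s).measurable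

/-- the gate has mean zero on every cell of the next generation -/
theorem integral_ga (s : ℕ) (k : ℤ) : ∫ x in II (-((s + 1 : ℕ) : ℤ)) k, ga s x = 0 := by
  set n : ℤ := -((s + 2 : ℕ) : ℤ) with hn
  have hzn : -((s + 1 : ℕ) : ℤ) = n + 1 := by rw [hn]; push_cast; ring
  have hp : (2 : ℝ) ^ (n + 1) = 2 * (2 : ℝ) ^ n := by
    rw [zpow_add₀ (by norm_num : (2 : ℝ) ≠ 0), zpow_one]; ring
  have hpos := zp n
  have hU : II (n + 1) k = II n (2 * k) ∪ II n (2 * k + 1) := by
    unfold II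
    have e1 : (((2 * k : ℤ) : ℝ) + 1) * (2 : ℝ) ^ n = ((2 * k + 1 : ℤ) : ℝ) * (2 : ℝ) ^ n := by
      push_cast; ring
    have e2 : ((k : ℤ) : ℝ) * (2 : ℝ) ^ (n + 1) = ((2 * k : ℤ) : ℝ) * (2 : ℝ) ^ n := by
      rw [hp]; push_cast; ring
    have e3 : (((k : ℤ) : ℝ) + 1) * (2 : ℝ) ^ (n + 1) =
        (((2 * k + 1 : ℤ) : ℝ) + 1) * (2 : ℝ) ^ n := by
      rw [hp]; push_cast; ring
    rw [e1, e2, e3, Set.Ico_union_Ico_eq_Ico]
    · push_cast; nlinarith
    · push_cast; nlinarith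
  have hval : ∀ j : ℤ, ∀ x ∈ II n j, ga s x = gq (j - 4 * (j / 2 / 2)) := by
    intro j x hx
    have h1 : cel (s + 2) x = j := by rw [cel_eq_fl]; exact mem_II.1 hx
    rw [ga_eq, cel_succ_div s, cel_succ_div (s + 1), h1]
  have hint : ∀ j : ℤ, ∫ x in II n j, ga s x = gq (j - 4 * (j / 2 / 2)) * (2 : ℝ) ^ n := by
    intro j
    rw [setIntegral_congr_fun (measurableSet_II n j) (hval j), setIntegral_const, volume_real_II,
      smul_eq_mul, mul_comm]
  have hI : ∀ j : ℤ, IntegrableOn (ga s) (II n j) := by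
    intro j
    refine Measure.integrableOn_of_bounded (M := 1) (by rw [volume_II]; exact ENNReal.ofReal_ne_top)
      (measurable_ga s).aestronglyMeasurable ?_
    exact Filter.Eventually.of_forall fun x => by rw [Real.norm_eq_abs, abs_ga]
  rw [hzn, hU, setIntegral_union (disj_II n (by omega)) (measurableSet_II _ _) (hI _) (hI _), hint,
    hint, ← add_mul]
  have : gq (2 * k - 4 * (2 * k / 2 / 2)) + gq (2 * k + 1 - 4 * ((2 * k + 1) / 2 / 2)) = 0 := by
    have e1 : 2 * k / 2 = k := by omega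
    have e2 : (2 * k + 1) / 2 = k := by omega
    rw [e1, e2]
    rcases Int.even_or_odd' k with ⟨c, hc | hc⟩
    · have e3 : k / 2 = c := by omega
      have e4 : 2 * k - 4 * c = 0 := by omega
      have e5 : 2 * k + 1 - 4 * c = 1 := by omega
      rw [e3, e4, e5]; unfold gq; norm_num
    · have e3 : k / 2 = c := by omega
      have e4 : 2 * k - 4 * c = 2 := by omega
      have e5 : 2 * k + 1 - 4 * c = 3 := by omega
      rw [e3, e4, e5]; unfold gq; norm_num
  rw [this, zero_mul]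

/-- orthogonality of the gate to functions constant on the cells of the next generation -/
theorem orth {s : ℕ} {a lam : ℝ → ℝ} (ha : Nice1 a) (hac : Cst (-(s : ℤ)) a)
    (hl : Cst (-((s + 1 : ℕ) : ℤ)) lam) (hb : ∃ M : ℝ, ∀ y, |lam y| ≤ M) :
    ∫ x, lam x * (ga s x * a x) = 0 := by
  have hn : Nice1 (fun x => ga s x * a x) :=
    n1_bdd_mul (measurable_ga s) ⟨1, fun y => (abs_ga s y).le⟩ ha
  rw [integral_mul_EE' hl hb hn]
  have h0 : ∀ y, EE (-((s + 1 : ℕ) : ℤ)) (fun x => ga s x * a x) y = 0 := by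
    intro y
    unfold EE
    have h1 : ∫ r in II (-((s + 1 : ℕ) : ℤ)) (fl (-((s + 1 : ℕ) : ℤ)) y), ga s r * a r =
        ∫ r in II (-((s + 1 : ℕ) : ℤ)) (fl (-((s + 1 : ℕ) : ℤ)) y), a r * ga s r := by
      congr 1; funext r; ring
    rw [h1, setIntegral_cst_mul (Cst.mono' (Nat.le_succ s) hac), integral_ga, mul_zero, mul_zero]
  simp only [h0, mul_zero, integral_zero]

/-! ### pathwise Doob inequality for the gate martingale -/

section doob

variable (a : ℕ → ℝ → ℝ) (s0 : ℕ)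

/-- partial sums, `j` terms starting from the scale `s0` -/
def PF : ℕ → ℝ → ℝ
  | 0, _ => 0
  | j + 1, x => PF j x + ga (s0 + j) x * a (s0 + j) x

/-- maximum of the absolute values of the partial sums -/
def MX : ℕ → ℝ → ℝ
  | 0, _ => 0
  | j + 1, x => max (MX j x) |PF a s0 (j + 1) x|

variable {a} {s0}

theorem PF_eq (j : ℕ) (x : ℝ) :
    PF a s0 j x = ∑ i ∈ Finset.Ico s0 (s0 + j), ga i x * a i x := by
  induction j with
  | zero => simp [PF]
  | succ j ih => rw [PF, ih, ← add_assoc, Finset.sum_Ico_succ_top (by omega)]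

theorem MX_nonneg (j : ℕ) (x : ℝ) : 0 ≤ MX a s0 j x := by
  induction j with
  | zero => simp [MX]
  | succ j ih => exact le_max_of_le_left ih

theorem MX_mono {i j : ℕ} (h : i ≤ j) (x : ℝ) : MX a s0 i x ≤ MX a s0 j x := by
  induction j with
  | zero => rw [Nat.le_zero.1 h]
  | succ j ih =>
    rcases Nat.lt_or_ge i (j + 1) with h' | h'
    · exact (ih (by omega)).trans (le_max_left _ _)
    · rw [le_antisymm h h']

theorem PF_le_MX (j : ℕ) (x : ℝ) : |PF a s0 j x| ≤ MX a s0 j x := by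
  cases j with
  | zero => simp [PF, MX]
  | succ j => exact le_max_right _ _

theorem PF_le_MX' {i j : ℕ} (h : i ≤ j) (x : ℝ) : |PF a s0 i x| ≤ MX a s0 j x :=
  (PF_le_MX i x).trans (MX_mono h x)

variable (ha : ∀ i : ℕ, Nice1 (a i)) (hc : ∀ i : ℕ, Cst (-(i : ℤ)) (a i))

include hc in
theorem cst_PF (j : ℕ) : Cst (-((s0 + j + 1 : ℕ) : ℤ)) (PF a s0 j) := by
  induction j with
  | zero => exact fun _ _ _ => rfl
  | succ j ih =>
    have h1 : Cst (-((s0 + (j + 1) + 1 : ℕ) : ℤ)) (PF a s0 j) := Cst.mono' (by omega) ih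
    have h2 : Cst (-((s0 + (j + 1) + 1 : ℕ) : ℤ)) (ga (s0 + j)) := Cst.mono' (by omega) (cst_ga _)
    have h3 : Cst (-((s0 + (j + 1) + 1 : ℕ) : ℤ)) (a (s0 + j)) := Cst.mono' (by omega) (hc _)
    exact h1.add (h2.mul h3)

include hc in
theorem cst_MX (j : ℕ) : Cst (-((s0 + j + 1 : ℕ) : ℤ)) (MX a s0 j) := by
  induction j with
  | zero => exact fun _ _ _ => rfl
  | succ j ih =>
    have h1 : Cst (-((s0 + (j + 1) + 1 : ℕ) : ℤ)) (MX a s0 j) := Cst.mono' (by omega) ih
    have h2 := cst_PF (a := a) (s0 := s0) hc (j + 1)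
    intro y y' h
    simp only [MX]
    rw [h1 y y' h, h2 y y' h]

include ha in
theorem nice_d (i : ℕ) : Nice1 (fun x => ga i x * a i x) :=
  n1_bdd_mul (measurable_ga i) ⟨1, fun y => (abs_ga i y).le⟩ (ha i)

include ha in
theorem nice_PF (j : ℕ) : Nice1 (PF a s0 j) := by
  induction j with
  | zero => exact n1_zero
  | succ j ih => exact n1_add ih (nice_d ha (s0 + j))

theorem nice_abs {f : ℝ → ℝ} (hf : Nice1 f) : Nice1 (fun x => |f x|) := by
  obtain ⟨hm, ⟨M, hM⟩, R, hR⟩ := hf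
  exact ⟨hm.abs, ⟨M, fun y => by rw [abs_abs]; exact hM y⟩, R,
    fun y hy => by simp only [hR y hy, abs_zero]⟩

theorem nice_max {f g : ℝ → ℝ} (hf : Nice1 f) (hg : Nice1 g) : Nice1 (fun x => max (f x) (g x)) := by
  obtain ⟨hm, ⟨M, hM⟩, R, hR⟩ := hf
  obtain ⟨hm', ⟨M', hM'⟩, R', hR'⟩ := hg
  refine ⟨hm.max hm', ⟨max M M', fun y => abs_max_le_max_abs_abs.trans (max_le_max (hM y) (hM' y))⟩,
    max R R', fun y hy => ?_⟩
  simp only [hR y ((le_max_left _ _).trans_lt hy), hR' y ((le_max_right _ _).trans_lt hy), max_self]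

include ha in
theorem nice_MX (j : ℕ) : Nice1 (MX a s0 j) := by
  induction j with
  | zero => exact n1_zero
  | succ j ih => exact nice_max ih (nice_abs (nice_PF ha (j + 1)))

/-- sign with values `±1` -/
def sg (t : ℝ) : ℝ := if 0 ≤ t then 1 else -1

theorem sg_mul (t : ℝ) : sg t * t = |t| := by
  unfold sg
  split_ifs with h
  · rw [one_mul, abs_of_nonneg h]
  · rw [abs_of_neg (not_le.1 h)]; ring

theorem abs_sg (t : ℝ) : |sg t| = 1 := by unfold sg; split_ifs <;> norm_num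

theorem sg_sub (t d : ℝ) : sg t * d ≤ |t + d| - |t| := by
  have h1 : sg t * (t + d) ≤ |t + d| := by
    have := abs_sg t
    calc sg t * (t + d) ≤ |sg t * (t + d)| := le_abs_self _
      _ = |t + d| := by rw [abs_mul, this, one_mul]
  have h2 := sg_mul t
  nlinarith

include ha hc in
theorem doob_step (j : ℕ) :
    0 ≤ ∫ x, MX a s0 j x * (|PF a s0 (j + 1) x| - |PF a s0 j x|) := by
  have hl : Cst (-((s0 + j + 1 : ℕ) : ℤ)) (fun x => MX a s0 j x * sg (PF a s0 j x)) :=
    (cst_MX hc j).mul ((cst_PF hc j).comp sg)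
  have hb : ∃ M : ℝ, ∀ y, |MX a s0 j y * sg (PF a s0 j y)| ≤ M := by
    obtain ⟨M, hM⟩ := (nice_MX (s0 := s0) ha j).2.1
    exact ⟨M, fun y => by rw [abs_mul, abs_sg, mul_one]; exact hM y⟩
  have h0 := orth (s := s0 + j) (ha (s0 + j)) (hc (s0 + j)) hl hb
  rw [← h0]
  refine integral_mono ?_ ?_ ?_
  · exact n1_integrable (n1_bdd_mul hl.measurable hb (nice_d ha (s0 + j)))
  · exact n1_integrable (n1_mul (nice_MX ha j)
      (n1_sub (nice_abs (nice_PF ha (j + 1))) (nice_abs (nice_PF ha j))))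
  · intro x
    simp only
    rw [mul_assoc]
    exact mul_le_mul_of_nonneg_left (sg_sub _ _) (MX_nonneg j x)

include ha in
theorem nice_q (j : ℕ) : Nice1 (fun x => (MX a s0 j x) ^ 2 / 2 - MX a s0 j x * |PF a s0 j x|) := by
  have := n1_sub (n1_const_mul (n1_sq (nice_MX (s0 := s0) ha j)) (1 / 2))
    (n1_mul (nice_MX (s0 := s0) ha j) (nice_abs (nice_PF (s0 := s0) ha j)))
  convert this using 2
  ring

include ha hc in
theorem doob_aux (j : ℕ) :
    ∫ x, ((MX a s0 j x) ^ 2 / 2 - MX a s0 j x * |PF a s0 j x|) ≤ 0 := by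
  have hn1 := fun j => nice_q (s0 := s0) ha j
  induction j with
  | zero => simp [MX, PF]
  | succ j ih =>
    have h1 := doob_step (s0 := s0) ha hc j
    have h2 : ∫ x, ((MX a s0 (j + 1) x) ^ 2 / 2 - MX a s0 (j + 1) x * |PF a s0 (j + 1) x|) ≤
        ∫ x, (((MX a s0 j x) ^ 2 / 2 - MX a s0 j x * |PF a s0 j x|) -
          MX a s0 j x * (|PF a s0 (j + 1) x| - |PF a s0 j x|)) := by
      refine integral_mono (n1_integrable (hn1 (j + 1))) ?_ ?_
      · exact n1_integrable (n1_sub (hn1 j) (n1_mul (nice_MX ha j)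
          (n1_sub (nice_abs (nice_PF ha (j + 1))) (nice_abs (nice_PF ha j)))))
      · intro x
        simp only
        have h3 : MX a s0 (j + 1) x = max (MX a s0 j x) |PF a s0 (j + 1) x| := rfl
        rw [h3]
        rcases le_total (|PF a s0 (j + 1) x|) (MX a s0 j x) with h | h
        · rw [max_eq_left h]; nlinarith
        · rw [max_eq_right h]; nlinarith [sq_nonneg (MX a s0 j x - |PF a s0 (j + 1) x|)]
    rw [integral_sub (n1_integrable (hn1 j)) (n1_integrable (n1_mul (nice_MX ha j)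
      (n1_sub (nice_abs (nice_PF ha (j + 1))) (nice_abs (nice_PF ha j)))))] at h2
    linarith

include ha hc in
theorem doob (j : ℕ) : ∫ x, (MX a s0 j x) ^ 2 ≤ 4 * ∫ x, (PF a s0 j x) ^ 2 := by
  have h1 := doob_aux (s0 := s0) ha hc j
  have nM := nice_MX (s0 := s0) ha j
  have nP := nice_PF (s0 := s0) ha j
  have h2 : ∫ x, (MX a s0 j x) ^ 2 / 4 ≤ ∫ x, (((MX a s0 j x) ^ 2 / 2 - MX a s0 j x * |PF a s0 j x|) +
      (PF a s0 j x) ^ 2) := by
    refine integral_mono ?_ ?_ ?_
    · exact (n1_integrable (n1_sq nM)).div_const 4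
    · refine Integrable.add (Integrable.sub ?_ ?_) (n1_integrable (n1_sq nP))
      · exact (n1_integrable (n1_sq nM)).div_const 2
      · exact n1_integrable (n1_mul nM (nice_abs nP))
    · intro x
      simp only
      have := sq_abs (PF a s0 j x)
      nlinarith [sq_nonneg (MX a s0 j x / 2 - |PF a s0 j x|)]
  rw [integral_add (n1_integrable (nice_q (s0 := s0) ha j)) (n1_integrable (n1_sq nP)),
    integral_div] at h2
  linarith

include ha hc in
theorem sq_PF (j : ℕ) :
    ∫ x, (PF a s0 j x) ^ 2 = ∑ i ∈ Finset.Ico s0 (s0 + j), ∫ x, (a i x) ^ 2 := by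
  induction j with
  | zero => simp [PF]
  | succ j ih =>
    rw [← add_assoc, Finset.sum_Ico_succ_top (by omega), ← ih]
    have nP := nice_PF (s0 := s0) ha j
    have h0 := orth (s := s0 + j) (ha (s0 + j)) (hc (s0 + j)) (cst_PF (s0 := s0) hc j) nP.2.1
    have e : ∀ x, (PF a s0 (j + 1) x) ^ 2 = (PF a s0 j x) ^ 2 +
        2 * (PF a s0 j x * (ga (s0 + j) x * a (s0 + j) x)) + (a (s0 + j) x) ^ 2 := by
      intro x
      have hg := ga_sq (s0 + j) x
      have h3 : PF a s0 (j + 1) x = PF a s0 j x + ga (s0 + j) x * a (s0 + j) x := rfl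
      rw [h3]
      linear_combination (a (s0 + j) x) ^ 2 * hg
    simp only [e]
    rw [integral_add, integral_add, integral_const_mul, h0]
    · ring
    · exact n1_integrable (n1_sq nP)
    · exact (n1_integrable (n1_mul nP (nice_d ha (s0 + j)))).const_mul 2
    · exact (n1_integrable (n1_sq nP)).add
        ((n1_integrable (n1_mul nP (nice_d ha (s0 + j)))).const_mul 2)
    · exact n1_integrable (n1_sq (ha (s0 + j)))

end doob

end Crest.Agent.R087.T1x90
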