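import Crest.Agent.R087.Carp_929
import Crest.Agent.R087.OP1_270

/-!
Row 87, operator part, leaf T2c of `OP1_270` (helper929), literal form.
-/

set_option autoImplicit false

noncomputable section

open MeasureTheory
open scoped ENNReal

namespace Crest.Agent.R087.T2clx929

open Crest.Agent.R087.Sh0x283 Crest.Agent.R087.E2x542 Crest.Agent.R087.E2Kx752
open Crest.Agent.R087.GateDefx273 Crest.Agent.R087.OP0x270 Crest.Agent.R087.OP1x270
open Crest.Agent.R087.Carpx929
open Crest.Agent.R087.T1x90 (cel)

/-- the interval of a tube is a cell -/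
theorem I_eq (R : Tube) : R.I = {x | cel R.k x = R.j} := (cel_set R.k R.j).symm

theorem measurable_jx (s : ℕ) : Measurable (jx s) :=
  Int.measurable_floor.comp (measurable_const.mul measurable_id)

/-- active points of `B` at the scale `s` -/
def AB (B : Set (ℝ × ℝ)) (lo hi : ℝ × ℝ → ℕ) (s : ℕ) : Set (ℝ × ℝ) :=
  {z | z ∈ B ∧ lo z ≤ s ∧ s < hi z}

theorem measurableSet_AB {B : Set (ℝ × ℝ)} {lo hi : ℝ × ℝ → ℕ} (hB : MeasurableSet B)
    (hlo : Measurable lo) (hhi : Measurable hi) (s : ℕ) : MeasurableSet (AB B lo hi s) :=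
  hB.inter ((measurableSet_le hlo measurable_const).inter (measurableSet_lt measurable_const hhi))

/-- density of `ps` -/
def bp (B : Set (ℝ × ℝ)) (lo hi : ℝ × ℝ → ℕ) (g : ℝ × ℝ → ℝ) (wt : ℕ → ℝ × ℝ → ℝ) (s : ℕ) :
    ℝ × ℝ → ℝ≥0∞ := (AB B lo hi s).indicator fun z => ENNReal.ofReal (|g z| * wt s z)

theorem ps_set (B : Set (ℝ × ℝ)) (lo hi : ℝ × ℝ → ℕ) (s : ℕ) (j : ℤ) :
    {z : ℝ × ℝ | z ∈ B ∧ lo z ≤ s ∧ s < hi z ∧ jx s z.1 = j} =
      {z : ℝ × ℝ | cel s z.1 = j} ∩ AB B lo hi s := by
  ext z
  constructor
  · rintro ⟨h1, h2, h3, h4⟩; exact ⟨h4, h1, h2, h3⟩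
  · rintro ⟨h4, h1, h2, h3⟩; exact ⟨h1, h2, h3, h4⟩

/-- **T2c**, literal -/
theorem t2c : T2c := by
  refine ⟨2, by norm_num, ?_⟩
  intro g S lo hi B R G D W wt hT hwm hw0 hw
  have hG : 0 ≤ G := (abs_nonneg _).trans (hT.bg 0)
  have hD := hT.hD
  have hABm : ∀ s, MeasurableSet (AB B lo hi s) := measurableSet_AB hT.mB hT.ch.1 hT.ch.2.1
  have hW0 : ∀ z ∈ B, lo z < hi z → 0 ≤ W := fun z hz h =>
    (Finset.sum_nonneg fun s _ => hw0 s z).trans (hw z hz h)
  have hone : ∀ s, ∀ z ∈ AB B lo hi s, wt s z ≤ W := by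
    rintro s z ⟨h1, h2, h3⟩
    exact (Finset.single_le_sum (f := fun s => wt s z) (fun i _ => hw0 i z)
      (Finset.mem_Ico.2 ⟨h2, h3⟩)).trans (hw z h1 (lt_of_le_of_lt h2 h3))
  -- integrability on the active sets
  have hint : ∀ s, IntegrableOn (fun z => |g z| * wt s z) (AB B lo hi s) := by
    intro s
    have hfin : volume (AB B lo hi s) ≠ ⊤ :=
      ne_top_of_le_ne_top hT.fB (measure_mono fun z hz => hz.1)
    refine Integrable.mono' (g := fun _ => G * W) (integrableOn_const hfin)
      ((continuous_abs.measurable.comp hT.mg).mul (hwm s)).aestronglyMeasurable ?_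
    rw [ae_restrict_iff' (hABm s)]
    refine Filter.Eventually.of_forall fun z hz => ?_
    rw [Real.norm_of_nonneg (mul_nonneg (abs_nonneg _) (hw0 s z))]
    exact mul_le_mul (hT.bg z) (hone s z hz) (hw0 s z) hG
  -- `ps` as a cell coefficient
  have hps : ∀ s (x : ℝ), ENNReal.ofReal (ps B lo hi g wt s (jx s x)) =
      eb (bp B lo hi g wt s) s (cel s x) := by
    intro s x
    rw [ps, eb, ps_set, ENNReal.ofReal_mul (by positivity), ENNReal.ofReal_pow (by norm_num),
      ofReal_integral_eq_lintegral_ofReal ((hint s).mono_set Set.inter_subset_right)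
        (Filter.Eventually.of_forall fun z => mul_nonneg (abs_nonneg _) (hw0 s z)), bp,
      setLIntegral_indicator (hABm s), Set.inter_comm]
    have : ENNReal.ofReal 2 = 2 := by simp
    rw [this]
    rfl
  have hps0 : ∀ s j, 0 ≤ ps B lo hi g wt s j := fun s j =>
    mul_nonneg (by positivity) (integral_nonneg fun z => mul_nonneg (abs_nonneg _) (hw0 s z))
  -- below the top
  have hlow : ∀ s, s < R.k → ∀ j, ps B lo hi g wt s j = 0 := by
    intro s hs j
    have : {z : ℝ × ℝ | z ∈ B ∧ lo z ≤ s ∧ s < hi z ∧ jx s z.1 = j} = ∅ := by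
      ext z
      simp only [Set.mem_ofPred_eq, Set.mem_empty_iff_false, iff_false]
      rintro ⟨h1, h2, h3, _⟩
      have := (hT.pos z h1 (by omega)).2
      omega
    rw [ps, this]
    simp
  have hsum : ∀ x : ℝ, ENNReal.ofReal (∑ s ∈ Finset.range S, ps B lo hi g wt s (jx s x)) =
      ES (bp B lo hi g wt) R.k S x := by
    intro x
    rw [ENNReal.ofReal_sum_of_nonneg fun s _ => hps0 s _, ES]
    rcases Nat.lt_or_ge S R.k with h | h
    · rw [Finset.Ico_eq_empty (by omega), Finset.sum_empty]
      refine Finset.sum_eq_zero fun s hs => ?_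
      rw [Finset.mem_range] at hs
      rw [hlow s (by omega), ENNReal.ofReal_zero]
    · rw [Finset.range_eq_Ico, ← Finset.sum_Ico_consecutive _ (Nat.zero_le R.k) h]
      rw [Finset.sum_eq_zero fun s hs => by rw [hlow s (Finset.mem_Ico.1 hs).2, ENNReal.ofReal_zero],
        zero_add]
      exact Finset.sum_congr rfl fun s _ => hps s x
  have hbm : ∀ s, Measurable (bp B lo hi g wt s) := fun s =>
    ((continuous_abs.measurable.comp hT.mg).mul (hwm s)).ennreal_ofReal.indicator (hABm s)
  -- packing
  have hpack : ∀ s m, R.k ≤ s → s < S →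
      ∑ i ∈ Finset.Ico s S, ∫⁻ z in {z : ℝ × ℝ | cel s z.1 = m}, bp B lo hi g wt i z ≤
        ENNReal.ofReal (|G * D * W|) * ENNReal.ofReal ((1 / 2) ^ s) := by
    intro s m hs0 hsS
    rw [← lintegral_finsetSum _ fun i _ => hbm i]
    by_cases hex : ∃ z ∈ B, lo z < hi z ∧ s < hi z ∧ jx s z.1 = m
    · obtain ⟨z0, hz0, ha0, hs1, hc0⟩ := hex
      have hW : 0 ≤ W := hW0 z0 hz0 ha0
      have h3 := hT.m3 s hs0 m ⟨z0, hz0, ha0, hs1, hc0⟩
      have hfin : volume {z | z ∈ B ∧ lo z < hi z ∧ jx s z.1 = m} ≠ ⊤ :=
        ne_top_of_le_ne_top hT.fB (measure_mono fun z hz => hz.1)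
      have hms : MeasurableSet {z | z ∈ B ∧ lo z < hi z ∧ jx s z.1 = m} :=
        hT.mB.inter ((measurableSet_lt hT.ch.1 hT.ch.2.1).inter
          ((measurable_jx s).comp measurable_fst (measurableSet_singleton m)))
      calc ∫⁻ z in {z : ℝ × ℝ | cel s z.1 = m}, ∑ i ∈ Finset.Ico s S, bp B lo hi g wt i z
          ≤ ∫⁻ z, {z | z ∈ B ∧ lo z < hi z ∧ jx s z.1 = m}.indicator
              (fun _ => ENNReal.ofReal (G * W)) z := by
            rw [← lintegral_indicator (measurableSet_cel2 s m)]
            refine lintegral_mono fun z => ?_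
            by_cases hz : cel s z.1 = m
            · rw [Set.indicator_of_mem (by exact hz)]
              by_cases hz2 : z ∈ B ∧ lo z < hi z
              · rw [Set.indicator_of_mem (show z ∈ {z | z ∈ B ∧ lo z < hi z ∧ jx s z.1 = m} from
                  ⟨hz2.1, hz2.2, hz⟩)]
                have h5 : ∀ i ∈ Finset.Ico s S, bp B lo hi g wt i z =
                    ENNReal.ofReal (if i ∈ Finset.Ico (lo z) (hi z) then |g z| * wt i z else 0) := by
                  intro i _
                  by_cases hi' : i ∈ Finset.Ico (lo z) (hi z)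
                  · rw [if_pos hi']
                    rw [Finset.mem_Ico] at hi'
                    exact Set.indicator_of_mem (show z ∈ AB B lo hi i from
                      ⟨hz2.1, hi'.1, hi'.2⟩) _
                  · rw [if_neg hi', ENNReal.ofReal_zero]
                    refine Set.indicator_of_notMem (fun hc => hi' ?_) _
                    exact Finset.mem_Ico.2 ⟨hc.2.1, hc.2.2⟩
                rw [Finset.sum_congr rfl h5, ← ENNReal.ofReal_sum_of_nonneg]
                · refine ENNReal.ofReal_le_ofReal ?_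
                  calc ∑ i ∈ Finset.Ico s S,
                        (if i ∈ Finset.Ico (lo z) (hi z) then |g z| * wt i z else 0)
                      = ∑ i ∈ (Finset.Ico s S).filter (fun i => i ∈ Finset.Ico (lo z) (hi z)),
                          |g z| * wt i z := (Finset.sum_filter _ _).symm
                    _ ≤ ∑ i ∈ Finset.Ico (lo z) (hi z), |g z| * wt i z := by
                        refine Finset.sum_le_sum_of_subset_of_nonneg (fun i hi' => ?_) ?_
                        · exact (Finset.mem_filter.1 hi').2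
                        · exact fun i _ _ => mul_nonneg (abs_nonneg _) (hw0 i z)
                    _ = |g z| * ∑ i ∈ Finset.Ico (lo z) (hi z), wt i z := by rw [Finset.mul_sum]
                    _ ≤ G * W := mul_le_mul (hT.bg z) (hw z hz2.1 hz2.2)
                        (Finset.sum_nonneg fun i _ => hw0 i z) hG
                · intro i _
                  split_ifs
                  · exact mul_nonneg (abs_nonneg _) (hw0 i z)
                  · exact le_rfl
              · have h5 : ∑ i ∈ Finset.Ico s S, bp B lo hi g wt i z = 0 := by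
                  refine Finset.sum_eq_zero fun i _ => ?_
                  refine Set.indicator_of_notMem (fun hc => hz2 ?_) _
                  exact ⟨hc.1, lt_of_le_of_lt hc.2.1 hc.2.2⟩
                rw [h5]
                exact bot_le
            · rw [Set.indicator_of_notMem (by exact hz)]
              exact bot_le
        _ = ENNReal.ofReal (G * W) * volume {z | z ∈ B ∧ lo z < hi z ∧ jx s z.1 = m} := by
            rw [lintegral_indicator hms, setLIntegral_const]
        _ ≤ ENNReal.ofReal (G * W) * ENNReal.ofReal (D * (1 / 2) ^ s) := by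
            have h6 : volume {z | z ∈ B ∧ lo z < hi z ∧ jx s z.1 = m} ≤
                ENNReal.ofReal (D * (1 / 2) ^ s) := by
              rw [← ENNReal.ofReal_toReal hfin]
              exact ENNReal.ofReal_le_ofReal h3
            gcongr
        _ = ENNReal.ofReal (|G * D * W|) * ENNReal.ofReal ((1 / 2) ^ s) := by
            rw [abs_of_nonneg (by positivity), ← ENNReal.ofReal_mul (by positivity),
              ← ENNReal.ofReal_mul (by positivity)]
            congr 1; ring
    · have : ∫⁻ z in {z : ℝ × ℝ | cel s z.1 = m}, ∑ i ∈ Finset.Ico s S, bp B lo hi g wt i z = 0 := by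
        rw [setLIntegral_congr_fun (measurableSet_cel2 s m) (g := fun _ => 0)]
        · simp
        · intro z hz
          refine Finset.sum_eq_zero fun i hi' => ?_
          rw [Finset.mem_Ico] at hi'
          refine Set.indicator_of_notMem (fun hc => hex ?_) _
          exact ⟨z, hc.1, lt_of_le_of_lt hc.2.1 hc.2.2, lt_of_le_of_lt hi'.1 hc.2.2, hz⟩
      rw [this]
      exact bot_le
  have hmain := carl hbm R.k S R.j (ENNReal.ofReal (|G * D * W|)) hpack
  rw [integral_eq_lintegral_of_nonneg_ae (Filter.Eventually.of_forall fun x => sq_nonneg _)]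
  · refine ENNReal.toReal_le_of_le_ofReal ?_ ?_
    · have := R.len_pos
      positivity
    · have e1 : ∀ x : ℝ, ENNReal.ofReal
          ((∑ s ∈ Finset.range S, ps B lo hi g wt s (jx s x)) ^ 2) =
          (ES (bp B lo hi g wt) R.k S x) ^ 2 := by
        intro x
        rw [ENNReal.ofReal_pow (Finset.sum_nonneg fun s _ => hps0 s _), hsum]
      simp_rw [e1]
      rw [I_eq]
      refine hmain.trans (le_of_eq ?_)
      have h2 : (2 : ℝ≥0∞) = ENNReal.ofReal 2 := by simp
      rw [h2, ← ENNReal.ofReal_pow (abs_nonneg _), ← ENNReal.ofReal_mul (by norm_num),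
        ← ENNReal.ofReal_mul (by positivity), sq_abs]
      rfl
  · refine Measurable.aestronglyMeasurable (Measurable.pow_const ?_ 2)
    refine Finset.measurable_sum _ fun s _ => ?_
    exact (measurable_of_countable (ps B lo hi g wt s)).comp (measurable_jx s)

end Crest.Agent.R087.T2clx929
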