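import Crest.Agent.R087.Sig_630
import Crest.Agent.R087.PCarl_546

/-!
# Row 87 (S0115), operator part, leaf T3P: stopping of the positive sums (helper630)
-/

set_option autoImplicit false

noncomputable section

open MeasureTheory ENNReal

namespace Crest.Agent.R087.T3Px630

open Crest.Agent.R087.Massx546 Crest.Agent.R087.StopAvgx630 Crest.Agent.R087.TreeIfx153
open Crest.Agent.R087.Sigx630 Crest.Agent.R087.PCarlx546
open Crest.Agent.R087.T1x90 (Tree)

section

variable {S s0 : ℕ} {m0 : ℤ} {h : ℝ × ℝ → ℝ} {act : ℕ → Set (ℝ × ℝ)} {Z : Set (ℝ × ℝ)} {H D : ℝ}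
  {w : ℕ → ℝ × ℝ → ℝ}

/-- active points -/
def Z' (act : ℕ → Set (ℝ × ℝ)) (Z : Set (ℝ × ℝ)) : Set (ℝ × ℝ) := Z ∩ ⋃ s, act s

open scoped Classical in
/-- last active scale -/
def kap (act : ℕ → Set (ℝ × ℝ)) (S : ℕ) (z : ℝ × ℝ) : ℕ := Nat.findGreatest (fun s => z ∈ act s) (S - 1)

open scoped Classical in
/-- the weights, as `ENNReal` valued functions -/
def wE (w : ℕ → ℝ × ℝ → ℝ) (h : ℝ × ℝ → ℝ) (act : ℕ → Set (ℝ × ℝ)) (s : ℕ) (z : ℝ × ℝ) : ℝ≥0∞ :=
  if z ∈ act s then ENNReal.ofReal (|h z| * w s z) else 0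

theorem lt_S (T : Tree S s0 m0 h act Z H D) {s : ℕ} {z : ℝ × ℝ} (hz : z ∈ Z) (hs : z ∈ act s) :
    s < S := by
  by_contra hcon
  exact Set.disjoint_left.1 (T.hi s (not_lt.1 hcon)) hs hz

theorem s0_le (T : Tree S s0 m0 h act Z H D) {s : ℕ} {z : ℝ × ℝ} (hz : z ∈ Z) (hs : z ∈ act s) :
    s0 ≤ s := by
  by_contra hcon
  exact Set.disjoint_left.1 (T.lo s (not_le.1 hcon)) hs hz

theorem kap_spec (T : Tree S s0 m0 h act Z H D) {z : ℝ × ℝ} (hz : z ∈ Z' act Z) :
    z ∈ act (kap act S z) := by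
  classical
  obtain ⟨hz1, hz2⟩ := hz
  rw [Set.mem_iUnion] at hz2
  obtain ⟨s, hs⟩ := hz2
  have hsS := lt_S T hz1 hs
  exact Nat.findGreatest_spec (P := fun s => z ∈ act s) (n := S - 1) (m := s) (by omega) hs

theorem le_kap (T : Tree S s0 m0 h act Z H D) {s : ℕ} {z : ℝ × ℝ} (hz : z ∈ Z) (hs : z ∈ act s) :
    s ≤ kap act S z := by
  classical
  have hsS := lt_S T hz hs
  exact Nat.le_findGreatest (by omega) hs

theorem kap_lt (T : Tree S s0 m0 h act Z H D) {z : ℝ × ℝ} (hz : z ∈ Z' act Z) : kap act S z < S :=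
  lt_S T hz.1 (kap_spec T hz)

theorem meas_Z' (T : Tree S s0 m0 h act Z H D) : MeasurableSet (Z' act Z) :=
  T.mZ.inter (MeasurableSet.iUnion T.mact)

theorem meas_wE (T : Tree S s0 m0 h act Z H D) (hw : ∀ s, Measurable (w s)) (s : ℕ) :
    Measurable (wE w h act s) := by
  classical
  exact Measurable.ite (T.mact s) ((T.nice.1.abs.mul (hw s)).ennreal_ofReal) measurable_const

/-- `L²` bound of the positive sums -/
theorem carlE (T : Tree S s0 m0 h act Z H D) (hH : 0 ≤ H) (hw : ∀ s, Measurable (w s))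
    (hw0 : ∀ s z, 0 ≤ w s z)
    (hw1 : ∀ z ∈ Z, ∀ A : Finset ℕ, (∀ s ∈ A, z ∈ act s) → ∑ s ∈ A, w s z ≤ 1) :
    ∫⁻ x, pcs (fun z : ℝ × ℝ => z.1) volume (Z' act Z) (wE w h act) S x ^ 2 ≤
      ENNReal.ofReal (8 * (H * D) ^ 2 * (1 / 2) ^ s0) := by
  classical
  have h1 := (carl (fun z : ℝ × ℝ => z.1) volume (Z' act Z) (wE w h act) measurable_fst (meas_Z' T)
    (meas_wE T hw) (kap act S) S (fun z hz => kap_lt T hz) ?_ (ENNReal.ofReal H) ?_
    (ENNReal.ofReal D) ?_).2
  · refine h1.trans ?_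
    have h2 : volume (cover (fun z : ℝ × ℝ => z.1) (kap act S) (Z' act Z)) ≤
        ENNReal.ofReal ((1 / 2) ^ s0) := by
      rw [← volume_cel s0 m0]
      refine measure_mono ?_
      rintro x ⟨z, hz, hx⟩
      show cel s0 x = m0
      rw [cel_mono (s0_le T hz.1 (kap_spec T hz)) hx]
      exact T.top z hz.1
    calc 8 * ENNReal.ofReal H ^ 2 * ENNReal.ofReal D ^ 2 *
        volume (cover (fun z : ℝ × ℝ => z.1) (kap act S) (Z' act Z))
        ≤ 8 * ENNReal.ofReal H ^ 2 * ENNReal.ofReal D ^ 2 * ENNReal.ofReal ((1 / 2) ^ s0) := by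
          gcongr
      _ = ENNReal.ofReal (8 * (H * D) ^ 2 * (1 / 2) ^ s0) := by
          have hD := T.D0
          rw [← ENNReal.ofReal_pow hH, ← ENNReal.ofReal_pow hD, ← ENNReal.ofReal_ofNat 8,
            ← ENNReal.ofReal_mul (by norm_num), ← ENNReal.ofReal_mul (by positivity),
            ← ENNReal.ofReal_mul (by positivity)]
          congr 1; ring
  · intro z hz s hs
    rw [wE, if_neg]
    intro hcon
    have := le_kap T hz.1 hcon
    omega
  · intro z hz
    have h3 : ∑ s ∈ Finset.range S, wE w h act s z =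
        ENNReal.ofReal (|h z|) * ∑ s ∈ (Finset.range S).filter (fun s => z ∈ act s), ENNReal.ofReal (w s z) := by
      rw [Finset.sum_filter, Finset.mul_sum]
      refine Finset.sum_congr rfl fun s _ => ?_
      rw [wE]
      split_ifs
      · rw [ENNReal.ofReal_mul (abs_nonneg _)]
      · rw [mul_zero]
    rw [h3, ← ENNReal.ofReal_sum_of_nonneg fun s _ => hw0 s z]
    have h4 : ∑ s ∈ (Finset.range S).filter (fun s => z ∈ act s), w s z ≤ 1 :=
      hw1 z hz.1 _ fun s hs => (Finset.mem_filter.1 hs).2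
    calc ENNReal.ofReal (|h z|) * ENNReal.ofReal _ ≤ ENNReal.ofReal H * ENNReal.ofReal 1 := by
          gcongr
          exact T.bd z
      _ = ENNReal.ofReal H := by rw [ENNReal.ofReal_one, mul_one]
  · intro r hr z'' hz'' hrk
    rcases Nat.lt_or_ge r s0 with h5 | h5
    · have : {z | z ∈ Z' act Z ∧ kap act S z ≤ r ∧ cel r z.1 = cel r z''.1} = ∅ := by
        rw [Set.eq_empty_iff_forall_notMem]
        rintro z ⟨hz, hk, -⟩
        have := s0_le T hz.1 (kap_spec T hz)
        omega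
      rw [this]; simp
    · have h6 := T.dens z'' hz''.1 r h5 ⟨kap act S z'', hrk, kap_spec T hz''⟩
      rw [ENNReal.ofReal_mul T.D0] at h6
      refine le_trans (measure_mono ?_) h6
      rintro z ⟨hz, -, hc⟩
      exact ⟨hz.1, hc⟩

/-- the real sums are bounded by the `ENNReal` sums -/
theorem pL_le (T : Tree S s0 m0 h act Z H D) (hw : ∀ s, Measurable (w s))
    (hw0 : ∀ s z, 0 ≤ w s z) (s : ℕ) (x : ℝ) :
    ENNReal.ofReal (pL w h act s x) ≤
      pc (fun z : ℝ × ℝ => z.1) volume (Z' act Z) (wE w h act) s x := by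
  classical
  unfold pL pc
  rw [ENNReal.ofReal_mul (by positivity)]
  refine mul_le_mul_right ?_ _
  have hm : Measurable fun z => |h z| * w s z := T.nice.1.abs.mul (hw s)
  have hA : MeasurableSet ({z : ℝ × ℝ | T1x90.cel s z.1 = T1x90.cel s x} ∩ act s) :=
    ((measurable_cel s).comp measurable_fst (MeasurableSet.singleton (cel s x))).inter (T.mact s)
  rw [integral_eq_lintegral_of_nonneg_ae (Filter.Eventually.of_forall fun z =>
    mul_nonneg (abs_nonneg _) (hw0 s z)) hm.aestronglyMeasurable]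
  refine ENNReal.ofReal_toReal_le.trans ?_
  rw [← lintegral_indicator hA, ← lintegral_indicator (meas_Z' T)]
  refine lintegral_mono fun z => ?_
  by_cases hz : z ∈ {z : ℝ × ℝ | T1x90.cel s z.1 = T1x90.cel s x} ∩ act s
  · rw [Set.indicator_of_mem hz]
    by_cases hzZ : z ∈ Z
    · have hz' : z ∈ Z' act Z := ⟨hzZ, Set.mem_iUnion.2 ⟨s, hz.2⟩⟩
      rw [Set.indicator_of_mem hz']
      have : cel s z.1 = cel s x := hz.1
      simp only [this, if_true, wE, if_pos hz.2, le_refl]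
    · rw [T.off z hzZ]; simp
  · rw [Set.indicator_of_notMem hz]; exact bot_le

theorem pL_nonneg (hw0 : ∀ s z, 0 ≤ w s z) (act : ℕ → Set (ℝ × ℝ)) (s : ℕ) (x : ℝ) :
    0 ≤ pL w h act s x := by
  unfold pL
  refine mul_nonneg (by positivity) (integral_nonneg fun z => mul_nonneg (abs_nonneg _) (hw0 s z))

/-- kept sums: one scale -/
theorem pL_kact {σ : ℝ → ℕ} (hσ : StopS S σ) (s : ℕ) (x : ℝ) :
    pL w h (kact act σ) s x = if s < σ x then pL w h act s x else 0 := by
  split_ifs with hs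
  · have : {z : ℝ × ℝ | T1x90.cel s z.1 = T1x90.cel s x} ∩ kact act σ s =
        {z : ℝ × ℝ | T1x90.cel s z.1 = T1x90.cel s x} ∩ act s := by
      ext z
      constructor
      · rintro ⟨h1, h2⟩; exact ⟨h1, h2.1⟩
      · rintro ⟨h1, h2⟩; exact ⟨h1, h2, (hσ.cell s _ _ h1).2 hs⟩
    unfold pL; rw [this]
  · have : {z : ℝ × ℝ | T1x90.cel s z.1 = T1x90.cel s x} ∩ kact act σ s = ∅ := by
      rw [Set.eq_empty_iff_forall_notMem]
      rintro z ⟨h1, h2⟩
      exact hs ((hσ.cell s _ _ h1).1 h2.2)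
    unfold pL; rw [this]; simp

theorem t3p : T3P := by
  refine ⟨8, by norm_num, ?_⟩
  intro S s0 m0 h act Z H D w hS T hH hw hw0 hw1 Tr hHD hTr
  set P : ℝ → ℝ≥0∞ := pcs (fun z : ℝ × ℝ => z.1) volume (Z' act Z) (wE w h act) S with hP
  set Θ : ℝ → ℝ≥0∞ := fun x => P x ^ 2 with hΘ
  set lam : ℝ≥0∞ := ENNReal.ofReal (Tr ^ 2) with hlamdef
  have hlam : lam ≠ 0 := by rw [hlamdef, Ne, ENNReal.ofReal_eq_zero, not_le]; positivity
  have hlam' : lam ≠ ⊤ := ENNReal.ofReal_ne_top
  have hE : ∫⁻ x, Θ x ≤ ENNReal.ofReal (8 * (H * D) ^ 2 * (1 / 2) ^ s0) := carlE T hH hw hw0 hw1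
  have hdiv : ENNReal.ofReal (8 * (H * D) ^ 2 * (1 / 2) ^ s0) / lam =
      ENNReal.ofReal (8 * (H * D / Tr) ^ 2 * (1 / 2) ^ s0) := by
    rw [hlamdef, ← ENNReal.ofReal_div_of_pos (by positivity)]
    congr 1; rw [div_pow]; ring
  refine ⟨sig Θ lam s0 S, stopS, ?_, ?_, ?_⟩
  · rw [← hdiv]; exact vol_sig hlam hlam' hE
  · refine (vol_remv T hlam hlam' hE).trans (le_of_eq ?_)
    rw [hdiv, ← ENNReal.ofReal_mul T.D0]
    congr 1; ring
  · intro x
    set c := sig Θ lam s0 S x with hc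
    have hcS : c ≤ S := sig_le x
    have h1 : ∑ s ∈ Finset.range S, pL w h (kact act (sig Θ lam s0 S)) s x =
        ∑ s ∈ Finset.range c, pL w h act s x := by
      rw [Finset.sum_congr rfl fun s _ => pL_kact (stopS (Θ := Θ) (lam := lam) (s0 := s0) (S := S)) s x]
      rw [← Finset.sum_filter]
      congr 1
      ext s
      simp only [Finset.mem_filter, Finset.mem_range]
      omega
    rw [h1]
    rcases Nat.lt_or_ge s0 c with h2 | h2
    · obtain ⟨q, hq⟩ : ∃ q, c = q + 1 := ⟨c - 1, by omega⟩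
      have hqc : q < sig Θ lam s0 S x := by omega
      have hnh : ¬ hit Θ lam q x := not_hit hqc (by omega) le_rfl
      have h3 := lint_le_of_not_hit hnh
      have h4 : ∀ y ∈ cell q x, ENNReal.ofReal (∑ s ∈ Finset.range c, pL w h act s x) ^ 2 ≤ Θ y := by
        intro y hy
        have h5 : ENNReal.ofReal (∑ s ∈ Finset.range c, pL w h act s x) ≤
            pcs (fun z : ℝ × ℝ => z.1) volume (Z' act Z) (wE w h act) c x := by
          rw [ENNReal.ofReal_sum_of_nonneg fun s _ => pL_nonneg hw0 act s x]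
          exact Finset.sum_le_sum fun s _ => pL_le T hw hw0 s x
        have h6 : pcs (fun z : ℝ × ℝ => z.1) volume (Z' act Z) (wE w h act) c x ≤ P y := by
          rw [hq, ← pcs_congr (fun z : ℝ × ℝ => z.1) volume (Z' act Z) (wE w h act) (mem_cell.1 hy)]
          exact pcs_mono _ _ _ _ (by omega) y
        show _ ≤ P y ^ 2
        exact pow_le_pow_left' (h5.trans h6) 2
      have h7 : ENNReal.ofReal (∑ s ∈ Finset.range c, pL w h act s x) ^ 2 *
          ENNReal.ofReal ((1 / 2) ^ q) ≤ lam * ENNReal.ofReal ((1 / 2 : ℝ) ^ q) := by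
        refine le_trans ?_ h3
        rw [← vol_cell q x, ← setLIntegral_const]
        exact setLIntegral_mono' (measurableSet_cell q x) h4
      have hpq : ENNReal.ofReal ((1 / 2 : ℝ) ^ q) ≠ 0 := by
        rw [Ne, ENNReal.ofReal_eq_zero, not_le]; positivity
      have h8 : ENNReal.ofReal (∑ s ∈ Finset.range c, pL w h act s x) ^ 2 ≤ lam :=
        (ENNReal.mul_le_mul_iff_left hpq ENNReal.ofReal_ne_top).1 h7
      have h0 : 0 ≤ ∑ s ∈ Finset.range c, pL w h act s x :=
        Finset.sum_nonneg fun s _ => pL_nonneg hw0 act s x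
      rw [← ENNReal.ofReal_pow h0, ENNReal.ofReal_le_ofReal_iff (by positivity)] at h8
      have h9 := abs_le_of_sq_le_sq h8 hTr.le
      have h10 := le_of_abs_le h9
      linarith
    · have h3 : ∑ s ∈ Finset.range c, pL w h act s x = 0 := by
        refine Finset.sum_eq_zero fun s hs => ?_
        have hs0 : s < s0 := by have := Finset.mem_range.1 hs; omega
        unfold pL
        have : ∫ z in {z : ℝ × ℝ | T1x90.cel s z.1 = T1x90.cel s x} ∩ act s, |h z| * w s z = 0 := by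
          refine setIntegral_eq_zero_of_forall_eq_zero fun z hz => ?_
          have hzZ : z ∉ Z := fun hcon => Set.disjoint_left.1 (T.lo s hs0) hz.2 hcon
          rw [T.off z hzZ]; simp
        rw [this, mul_zero]
      rw [h3]; positivity

end

end Crest.Agent.R087.T3Px630
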