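import Crest.Agent.R087.TreeA_153
import Crest.Agent.R087.StopG_153
import Crest.Agent.R087.StopAvg_630

/-!
Row 87 (S0115), OPERATOR PART (helper153), leaf T3, part a: the stopping scale of an `ℝ≥0∞` valued
function, kept identities for any stopping scale, the function `Θ` of a LOW tree and its integral.
-/

set_option autoImplicit false

noncomputable section

open MeasureTheory Crest.Agent.R087.Sh0x283 Crest.Agent.R087.Sh1x283 Crest.Agent.R087.GateDefx273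
open Crest.Agent.R087.T1x90 Crest.Agent.R087.TreeIfx153 Crest.Agent.R087.Dyax738
open Crest.Agent.R087.DyaZx738 Crest.Agent.R087.TreeAx153
open scoped ENNReal

namespace Crest.Agent.R087.T3x153

/-! ### stopping scale -/

open Classical in
/-- the least `s < S` at which `Θ` is hit, else `S` -/
def sgE (Θ : ℝ → ℝ≥0∞) (lam : ℝ≥0∞) (S : ℕ) (x : ℝ) : ℕ :=
  if h : ∃ s, s < S ∧ StopAvgx630.hit Θ lam s x then Nat.find h else S

theorem lt_sgE {Θ : ℝ → ℝ≥0∞} {lam : ℝ≥0∞} {S s : ℕ} {x : ℝ} :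
    s < sgE Θ lam S x ↔ s < S ∧ ∀ r ≤ s, ¬ StopAvgx630.hit Θ lam r x := by
  classical
  unfold sgE
  split_ifs with h
  · rw [Nat.lt_find_iff]
    constructor
    · intro H
      have hsS : s < S := by
        by_contra hc
        obtain ⟨t, ht, ht'⟩ := h
        exact H t (by omega) ⟨ht, ht'⟩
      exact ⟨hsS, fun r hr hc => H r hr ⟨by omega, hc⟩⟩
    · rintro ⟨h1, h2⟩ r hr ⟨h3, h4⟩
      exact h2 r hr h4
  · constructor
    · intro hs
      exact ⟨hs, fun r hr hc => h ⟨r, by omega, hc⟩⟩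
    · exact fun hs => hs.1

theorem sgE_le (Θ : ℝ → ℝ≥0∞) (lam : ℝ≥0∞) (S : ℕ) (x : ℝ) : sgE Θ lam S x ≤ S := by
  by_contra hc
  have h1 := (lt_sgE (s := S)).1 (not_le.1 hc)
  exact lt_irrefl _ h1.1

theorem sgE_cell (Θ : ℝ → ℝ≥0∞) (lam : ℝ≥0∞) (S : ℕ) (s : ℕ) (x y : ℝ) (h : cel s x = cel s y) :
    s < sgE Θ lam S x ↔ s < sgE Θ lam S y := by
  rw [lt_sgE, lt_sgE]
  refine and_congr Iff.rfl (forall₂_congr fun r hr => ?_)
  rw [StopAvgx630.hit_congr (Massx546.cel_mono hr h)]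

theorem sgE_stop (Θ : ℝ → ℝ≥0∞) (lam : ℝ≥0∞) (S : ℕ) : StopS S (sgE Θ lam S) := by
  refine ⟨measurable_of_Ioi fun n => ?_, sgE_le Θ lam S, sgE_cell Θ lam S⟩
  exact StopAvgx630.meas_of_congr n fun x y hxy => sgE_cell Θ lam S n x y hxy

theorem sgE_vol (Θ : ℝ → ℝ≥0∞) (lam : ℝ≥0∞) (S : ℕ) :
    lam * volume {x | sgE Θ lam S x < S} ≤ ∫⁻ x, Θ x := by
  have hsub : {x | sgE Θ lam S x < S} ⊆ {x | StopAvgx630.stp Θ lam 0 (S - 1) x} := by
    classical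
    intro x hx
    have hx' : sgE Θ lam S x < S := hx
    unfold sgE at hx'
    split_ifs at hx' with h
    · obtain ⟨s, hs, hh⟩ := h
      exact ⟨s, Nat.zero_le _, by omega, hh⟩
    · exact absurd hx' (lt_irrefl _)
  calc lam * volume {x | sgE Θ lam S x < S} ≤
      lam * volume {x | StopAvgx630.stp Θ lam 0 (S - 1) x} := by gcongr
    _ ≤ ∫⁻ x in {x | StopAvgx630.stp Θ lam 0 (S - 1) x}, Θ x := StopAvgx630.weak 0 (S - 1)
    _ ≤ ∫⁻ x, Θ x := setLIntegral_le_lintegral _ _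

/-- if a constant is below `Θ` on a cell inside an unstopped cell, it is `≤ 4^d lam`; here `d = 0` -/
theorem const_le {Θ : ℝ → ℝ≥0∞} {lam : ℝ≥0∞} {s : ℕ} {x : ℝ} (h : ¬ StopAvgx630.hit Θ lam s x)
    {c : ℝ≥0∞} (hc : ∀ y, cel s y = cel s x → c ≤ Θ y) : c ≤ lam := by
  have h1 := StopAvgx630.lint_le_of_not_hit h
  have h2 : c * ENNReal.ofReal ((1 / 2 : ℝ) ^ s) ≤ ∫⁻ y in StopAvgx630.cell s x, Θ y := by
    rw [← StopAvgx630.vol_cell s x, ← setLIntegral_const]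
    exact setLIntegral_mono' (StopAvgx630.measurableSet_cell s x) fun y hy => hc y hy
  have h3 := h2.trans h1
  have h4 : ENNReal.ofReal ((1 / 2 : ℝ) ^ s) ≠ 0 := by
    rw [Ne, ENNReal.ofReal_eq_zero, not_le]; positivity
  exact (ENNReal.mul_le_mul_iff_left h4 ENNReal.ofReal_ne_top).1 h3

theorem const_le4 {Θ : ℝ → ℝ≥0∞} {lam : ℝ≥0∞} {s : ℕ} {x : ℝ} (h : ¬ StopAvgx630.hit Θ lam s x)
    {c : ℝ≥0∞} (hc : ∀ y, cel (s + 2) y = cel (s + 2) x → c ≤ Θ y) : c ≤ 4 * lam := by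
  have h1 := StopAvgx630.lint_le_of_not_hit h
  have hsub : StopAvgx630.cell (s + 2) x ⊆ StopAvgx630.cell s x := fun y hy =>
    Massx546.cel_mono (by omega) hy
  have h2 : c * ENNReal.ofReal ((1 / 2 : ℝ) ^ (s + 2)) ≤ ∫⁻ y in StopAvgx630.cell s x, Θ y := by
    rw [← StopAvgx630.vol_cell (s + 2) x, ← setLIntegral_const]
    refine (setLIntegral_mono' (StopAvgx630.measurableSet_cell (s + 2) x) fun y hy => hc y hy).trans ?_
    exact lintegral_mono_set hsub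
  have h3 := h2.trans h1
  have h4 : ENNReal.ofReal ((1 / 2 : ℝ) ^ (s + 2)) ≠ 0 := by
    rw [Ne, ENNReal.ofReal_eq_zero, not_le]; positivity
  have h5 : lam * ENNReal.ofReal ((1 / 2 : ℝ) ^ s) =
      4 * lam * ENNReal.ofReal ((1 / 2 : ℝ) ^ (s + 2)) := by
    have : (1 / 2 : ℝ) ^ s = 4 * (1 / 2 : ℝ) ^ (s + 2) := by rw [pow_add]; ring
    rw [this, ENNReal.ofReal_mul (by norm_num), mul_comm (4 : ℝ≥0∞) lam, mul_assoc]
    congr 2
    norm_num
  rw [h5] at h3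
  exact (ENNReal.mul_le_mul_iff_left h4 ENNReal.ofReal_ne_top).1 h3

/-! ### kept identities -/

section kept

variable {Ψ : ℝ → ℝ} {b m : ℝ} {h : ℝ × ℝ → ℝ} {act : ℕ → Set (ℝ × ℝ)} {S : ℕ} {σ : ℝ → ℕ}
  {ζ : ℝ → ℝ} {K : ℝ}

theorem kset (hσ : StopS S σ) (s : ℕ) (x : ℝ) :
    {z : ℝ × ℝ | cel s z.1 = cel s x} ∩ kact act σ s =
      if s < σ x then {z : ℝ × ℝ | cel s z.1 = cel s x} ∩ act s else ∅ := by
  ext z
  simp only [kact, Set.mem_inter_iff, Set.mem_ofPred_eq]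
  split_ifs with hs
  · simp only [Set.mem_inter_iff, Set.mem_ofPred_eq]
    constructor
    · rintro ⟨h1, h2, -⟩; exact ⟨h1, h2⟩
    · rintro ⟨h1, h2⟩; exact ⟨h1, h2, (hσ.cell s z.1 x h1).2 hs⟩
  · simp only [Set.mem_empty_iff_false, iff_false]
    rintro ⟨h1, -, h3⟩
    exact hs ((hσ.cell s z.1 x h1).1 h3)

theorem kept_aL (hσ : StopS S σ) (s : ℕ) (v x : ℝ) :
    aL Ψ b m h (kact act σ) s v x = if s < σ x then aL Ψ b m h act s v x else 0 := by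
  unfold aL al
  rw [kset hσ]
  split_ifs <;> simp

theorem kept_pL (w : ℕ → ℝ × ℝ → ℝ) (hσ : StopS S σ) (s : ℕ) (x : ℝ) :
    pL w h (kact act σ) s x = if s < σ x then pL w h act s x else 0 := by
  unfold pL
  rw [kset hσ]
  split_ifs <;> simp

/-- sums over the kept range -/
theorem sum_kept (n k : ℕ) (f : ℕ → ℝ) :
    ∑ r ∈ Finset.range n, (if r < k then f r else 0) = ∑ r ∈ Finset.range (min n k), f r := by
  rw [← Finset.sum_filter]
  congr 1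
  ext r
  simp only [Finset.mem_filter, Finset.mem_range, lt_min_iff]

theorem kept_FL (hσ : StopS S σ) (s : ℕ) (v x : ℝ) :
    FL ζ Ψ b m h (kact act σ) s v x =
      ∑ r ∈ Finset.range (min s (σ x)), zr ζ r x * aL Ψ b m h act r v x := by
  unfold FL
  rw [← sum_kept]
  refine Finset.sum_congr rfl fun r _ => ?_
  rw [kept_aL hσ]
  split_ifs
  · rfl
  · rw [mul_zero]

/-- kept coefficients as an adapted family -/
def ak (Ψ : ℝ → ℝ) (b m : ℝ) (h : ℝ × ℝ → ℝ) (act : ℕ → Set (ℝ × ℝ)) (σ : ℝ → ℕ) (v : ℝ) (r : ℕ)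
    (x : ℝ) : ℝ := if r < σ x then aL Ψ b m h act r v x else 0

theorem ak_ad (hσ : StopS S σ) (v : ℝ) (r : ℕ) : Ad r (ak Ψ b m h act σ v r) := by
  intro x y hxy
  unfold ak
  rw [aL_ad Ψ b m h act r v x y hxy]
  have : r < σ x ↔ r < σ y := hσ.cell r x y hxy
  simp only [this]

theorem bL_eq_av (act' : ℕ → Set (ℝ × ℝ)) (s : ℕ) (v x : ℝ) :
    bL ζ Ψ b m h act' s v x = av s (fun u => zr ζ s u * ∑ r ∈ Finset.range (s + 1),
      zr ζ r u * aL Ψ b m h act' r v u) x := by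
  unfold bL av
  have : {u : ℝ | cel s u = cel s x} = Jc s (dx s x) := by
    ext u; rw [mem_Jc]; rfl
  rw [this]
  rfl

theorem kept_bL (hζ : ZB ζ K) (hσ : StopS S σ) (s : ℕ) (v x : ℝ) :
    bL ζ Ψ b m h (kact act σ) s v x = bz ζ (ak Ψ b m h act σ v) s x := by
  rw [bL_eq_av, ← bz_pairing hζ (ak_ad hσ v)]
  congr 1
  funext u
  congr 1
  refine Finset.sum_congr rfl fun r _ => ?_
  rw [kept_aL hσ]
  rfl

/-- unstopped scales: the kept `β` is the full `β` -/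
theorem bz_lt {s : ℕ} {v x : ℝ} (hs : s < σ x) :
    bz ζ (ak Ψ b m h act σ v) s x = bz ζ (fun r => aL Ψ b m h act r v) s x := by
  unfold bz
  refine Finset.sum_congr rfl fun r hr => ?_
  have hr' : r ≤ s := Nat.lt_succ_iff.1 (Finset.mem_range.1 hr)
  unfold ak
  rw [if_pos (lt_of_le_of_lt hr' hs)]

/-- stopped scales: the kept `β` decays -/
theorem bz_ge (hζ : ZB ζ K) {A v : ℝ} (hA : ∀ r x, |aL Ψ b m h act r v x| ≤ A) {s : ℕ} {x : ℝ}
    (hs : σ x ≤ s) : |bz ζ (ak Ψ b m h act σ v) s x| ≤ K ^ 2 * A * ((2 : ℝ) ^ (σ x) / 2 ^ s) := by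
  have hA0 : 0 ≤ A := (abs_nonneg _).trans (hA 0 0)
  unfold bz
  have e : ∑ r ∈ Finset.range (s + 1), ak Ψ b m h act σ v r x * av s (fun u => zr ζ r u * zr ζ s u) x
      = ∑ r ∈ Finset.range (min (s + 1) (σ x)),
        aL Ψ b m h act r v x * av s (fun u => zr ζ r u * zr ζ s u) x := by
    rw [← sum_kept]
    refine Finset.sum_congr rfl fun r _ => ?_
    unfold ak
    split_ifs
    · rfl
    · rw [zero_mul]
  rw [e, min_eq_right (by omega)]
  have h1 : ∀ r ∈ Finset.range (σ x), |aL Ψ b m h act r v x * av s (fun u => zr ζ r u * zr ζ s u) x| ≤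
      K ^ 2 * A / 2 ^ s * (2 : ℝ) ^ r := by
    intro r hr
    have hr' : r ≤ s := (Finset.mem_range.1 hr).le.trans hs
    rw [abs_mul]
    calc |aL Ψ b m h act r v x| * |av s (fun u => zr ζ r u * zr ζ s u) x| ≤
        A * (K ^ 2 * ((2 : ℝ) ^ r / 2 ^ s)) := by
          gcongr
          · exact hA r x
          · exact av_zz hζ hr' x
      _ = _ := by ring
  refine (Finset.abs_sum_le_sum_abs _ _).trans ((Finset.sum_le_sum h1).trans ?_)
  rw [← Finset.mul_sum]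
  have h2 : ∑ r ∈ Finset.range (σ x), (2 : ℝ) ^ r ≤ 2 ^ (σ x) := by
    rw [geom_sum_eq (by norm_num)]
    have : (0 : ℝ) < 2 ^ (σ x) := by positivity
    linarith
  calc K ^ 2 * A / 2 ^ s * ∑ r ∈ Finset.range (σ x), (2 : ℝ) ^ r ≤ K ^ 2 * A / 2 ^ s * 2 ^ (σ x) := by
        gcongr
    _ = _ := by ring

end kept

/-! ### the function `Θ` -/

/-- `ζ`-part -/
def Th1 (ζ : ℝ → ℝ) (K : ℝ) (Ψ : ℝ → ℝ) (b m : ℝ) (h : ℝ × ℝ → ℝ) (act : ℕ → Set (ℝ × ℝ)) (S : ℕ)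
    (x : ℝ) : ℝ≥0∞ :=
  ∫⁻ v in Set.Icc (-4 : ℝ) 4, ENNReal.ofReal (GZ ζ K (fun r => aL Ψ b m h act r v) S x)

/-- gate part -/
def Th2 (ζ : ℝ → ℝ) (Ψ : ℝ → ℝ) (b m : ℝ) (h : ℝ × ℝ → ℝ) (act : ℕ → Set (ℝ × ℝ)) (S : ℕ)
    (x : ℝ) : ℝ≥0∞ :=
  ∫⁻ v in Set.Icc (-4 : ℝ) 4,
    ENNReal.ofReal ((Mx (GS (bz ζ fun r => aL Ψ b m h act r v) S) (S + 1) x) ^ 2)

/-- error part -/
def Th3 (w : ℕ → ℝ × ℝ → ℝ) (h : ℝ × ℝ → ℝ) (act : ℕ → Set (ℝ × ℝ)) (S : ℕ) (x : ℝ) : ℝ≥0∞ :=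
  ENNReal.ofReal ((∑ s ∈ Finset.range S, pL w h act s x) ^ 2)

section theta

variable {Ψ : ℝ → ℝ} {b m : ℝ} {h : ℝ × ℝ → ℝ} {act : ℕ → Set (ℝ × ℝ)} {S s0 : ℕ} {m0 : ℤ}
  {Z : Set (ℝ × ℝ)} {H D : ℝ} {ζ : ℝ → ℝ} {K : ℝ}

theorem swap_bound {g : ℝ → ℝ → ℝ} (hg : Measurable (Function.uncurry g)) (h0 : ∀ v x, 0 ≤ g v x)
    (hn : ∀ v, Nice1 (g v)) {c : ℝ} (hc : 0 ≤ c) (hb : ∀ v, ∫ x, g v x ≤ c) :
    ∫⁻ x, ∫⁻ v in Set.Icc (-4 : ℝ) 4, ENNReal.ofReal (g v x) ≤ ENNReal.ofReal (8 * c) := by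
  rw [lintegral_lintegral_swap]
  · calc ∫⁻ v in Set.Icc (-4 : ℝ) 4, ∫⁻ x, ENNReal.ofReal (g v x) ≤
        ∫⁻ _v in Set.Icc (-4 : ℝ) 4, ENNReal.ofReal c := by
          refine lintegral_mono fun v => ?_
          rw [← ofReal_integral_eq_lintegral_ofReal (nice_int (hn v))
            (Filter.Eventually.of_forall (h0 v))]
          exact ENNReal.ofReal_le_ofReal (hb v)
      _ = ENNReal.ofReal (8 * c) := by
          rw [setLIntegral_const, Real.volume_Icc, ← ENNReal.ofReal_mul hc]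
          congr 1
          ring
  · refine Measurable.aemeasurable ?_
    have : (Function.uncurry fun x v => ENNReal.ofReal (g v x)) =
        fun p : ℝ × ℝ => ENNReal.ofReal (Function.uncurry g p.swap) := rfl
    rw [this]
    exact (hg.comp measurable_swap).ennreal_ofReal

theorem th1_int (hζ : ZB ζ K) (T : Tree S s0 m0 h act Z H D) (hc : Continuous Ψ)
    (hb : ∀ v, |Ψ v| ≤ 1) (hS : s0 ≤ S) :
    ∫⁻ x, Th1 ζ K Ψ b m h act S x ≤
      ENNReal.ofReal (8 * (28 * K ^ 2 * (72 * (H * D) ^ 2 * (1 / 2) ^ s0))) := by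
  unfold Th1
  refine swap_bound (g := fun v x => GZ ζ K (fun r => aL Ψ b m h act r v) S x) ?_ ?_ ?_ ?_ ?_
  · exact jm_GZ (a := fun r v x => aL Ψ b m h act r v x)
      (fun r => jm_aL T.nice.1 hc.measurable (T.mact r)) hζ S
  · exact fun v x => GZ_nonneg _ _ _ _ _
  · exact fun v => nice_GZ hζ (fun r => nice_aL T.nice hc hb r v) S
  · positivity
  · intro v
    refine (z_max hζ (fun r => aL_ad Ψ b m h act r v) (fun r => nice_aL T.nice hc hb r v) S).trans ?_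
    exact mul_le_mul_of_nonneg_left (energy_v T hc hb hS v) (by positivity)

theorem th2_int (hζ : ZB ζ K) (T : Tree S s0 m0 h act Z H D) (hc : Continuous Ψ)
    (hb : ∀ v, |Ψ v| ≤ 1) (hS : s0 ≤ S) :
    ∫⁻ x, Th2 ζ Ψ b m h act S x ≤
      ENNReal.ofReal (8 * (16 * K ^ 4 * (72 * (H * D) ^ 2 * (1 / 2) ^ s0))) := by
  unfold Th2
  refine swap_bound (g := fun v x => (Mx (GS (bz ζ fun r => aL Ψ b m h act r v) S) (S + 1) x) ^ 2)
    ?_ ?_ ?_ ?_ ?_
  · have := (jm_Mx (jm_GS (a := fun r v x => aL Ψ b m h act r v x)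
      (fun r => jm_aL (b := b) (m := m) T.nice.1 hc.measurable (T.mact r)) (ζ := ζ) S)
      (S + 1)).pow_const 2
    exact this
  · exact fun v x => sq_nonneg _
  · intro v
    exact nice_sq (nice_Mx (nice_gs (fun r => nice_bz hζ (fun r => nice_aL T.nice hc hb r v) r) S) _)
  · positivity
  · intro v
    refine (beta_max hζ (fun r => aL_ad Ψ b m h act r v) (fun r => nice_aL T.nice hc hb r v) S).trans ?_
    exact mul_le_mul_of_nonneg_left (energy_v T hc hb hS v) (by positivity)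

end theta

end Crest.Agent.R087.T3x153
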