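import Crest.Agent.R087.DyaZ_738
import Crest.Agent.R087.TreeIf_153
import Crest.Agent.R087.T1_90

/-!
Row 87, operator part, energy half of T3 (helper90): families `a i r v x` of adapted coefficients
depending on a vertical parameter `v` (differentiable, compactly supported in `v`).

`Fv`, `Gv` : full `ζ`-sum and full gate sum of the `β`'s, `Th i x = ∫_v (Fv² + Gv²)`.
* `int_Th` : `∫ Th ≤ C E`
* `av_F`, `av_G` : `(av_c Fv)² ≤ av_c (Th i + Th (i+1))` and the same for `Gv` (Sobolev in `v`).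
-/

set_option autoImplicit false

noncomputable section

open MeasureTheory Crest.Agent.R087.Sh0x283 Crest.Agent.R087.Sh1x283 Crest.Agent.R087.GateDefx273
open Crest.Agent.R087.Dyax738 Crest.Agent.R087.DyaZx738

namespace Crest.Agent.R087.T3famx90

/-- 1-D Sobolev inequality -/
theorem sob {f f' : ℝ → ℝ} (hd : ∀ v, HasDerivAt f (f' v) v) (hc : Continuous f')
    (h0 : ∀ v, 3 < |v| → f v = 0) (h0' : ∀ v, 3 < |v| → f' v = 0) (v : ℝ) :
    f v ^ 2 ≤ ∫ t, (f t ^ 2 + f' t ^ 2) := by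
  have hcf : Continuous f := continuous_iff_continuousAt.2 fun v => (hd v).continuousAt
  have hsupp : HasCompactSupport (fun t => f t ^ 2 + f' t ^ 2) := by
    refine HasCompactSupport.intro (isCompact_Icc (a := (-3 : ℝ)) (b := 3)) fun t ht => ?_
    have : 3 < |t| := by
      by_contra hcon
      push Not at hcon
      exact ht (abs_le.1 hcon)
    simp [h0 t this, h0' t this]
  have hint : Integrable (fun t => f t ^ 2 + f' t ^ 2) :=
    ((hcf.pow 2).add (hc.pow 2)).integrable_of_hasCompactSupport hsupp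
  have hnn : ∀ t, 0 ≤ f t ^ 2 + f' t ^ 2 := fun t => by positivity
  rcases lt_or_ge 3 |v| with hv | hv
  · rw [h0 v hv]
    simpa using integral_nonneg hnn
  · rw [abs_le] at hv
    have h1 : ∫ t in (-4 : ℝ)..v, 2 * f t * f' t = f v ^ 2 - f (-4) ^ 2 := by
      refine intervalIntegral.integral_eq_sub_of_hasDerivAt (f := fun t => f t ^ 2) ?_ ?_
      · intro t _
        have := (hd t).fun_pow 2
        simpa using this
      · exact ((continuous_const.mul hcf).mul hc).intervalIntegrable _ _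
    have h4 : f (-4) = 0 := h0 _ (by norm_num)
    rw [h4] at h1
    have h2 : ∫ t in (-4 : ℝ)..v, 2 * f t * f' t ≤ ∫ t in (-4 : ℝ)..v, (f t ^ 2 + f' t ^ 2) := by
      refine intervalIntegral.integral_mono_on (by linarith) ?_ ?_ ?_
      · exact ((continuous_const.mul hcf).mul hc).intervalIntegrable _ _
      · exact ((hcf.pow 2).add (hc.pow 2)).intervalIntegrable _ _
      · intro t _
        nlinarith [sq_nonneg (f t - f' t)]
    have h3 : ∫ t in (-4 : ℝ)..v, (f t ^ 2 + f' t ^ 2) ≤ ∫ t, (f t ^ 2 + f' t ^ 2) := by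
      rw [intervalIntegral.integral_of_le (by linarith)]
      exact setIntegral_le_integral hint (Filter.Eventually.of_forall hnn)
    nlinarith

/-- Jensen for averages -/
theorem av_sq_le {g : ℝ → ℝ} (hg : Measurable g) {M : ℝ} (hM : ∀ x, |g x| ≤ M) (c : ℕ) (x : ℝ) :
    (av c g x) ^ 2 ≤ av c (fun u => g u ^ 2) x := by
  have hp := pw c
  have i1 : IntegrableOn g (Jc c (dx c x)) := intOn_bdd hg hM c _
  have hM2 : ∀ u, |g u ^ 2| ≤ M ^ 2 := fun u => by
    rw [abs_pow]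
    exact pow_le_pow_left₀ (abs_nonneg _) (hM u) 2
  have i2 : IntegrableOn (fun u => g u ^ 2) (Jc c (dx c x)) := intOn_bdd (hg.pow_const 2) hM2 c _
  have i3 : IntegrableOn (fun _ : ℝ => (av c g x) ^ 2) (Jc c (dx c x)) :=
    integrableOn_const (volume_Jc_ne c _)
  have h0 : 0 ≤ ∫ u in Jc c (dx c x), (g u - av c g x) ^ 2 :=
    integral_nonneg fun u => sq_nonneg _
  have e : ∫ u in Jc c (dx c x), (g u - av c g x) ^ 2 =
      (∫ u in Jc c (dx c x), g u ^ 2) - 2 * av c g x * (∫ u in Jc c (dx c x), g u) +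
        (av c g x) ^ 2 * (1 / 2 ^ c) := by
    have e1 : ∀ u, (g u - av c g x) ^ 2 = g u ^ 2 - 2 * av c g x * g u + (av c g x) ^ 2 := by
      intro u; ring
    simp only [e1]
    have i4 : IntegrableOn (fun u => 2 * av c g x * g u) (Jc c (dx c x)) := i1.const_mul _
    have i5 : IntegrableOn (fun u => g u ^ 2 - 2 * av c g x * g u) (Jc c (dx c x)) := i2.sub i4
    rw [integral_add i5 i3, integral_sub i2 i4, integral_const_mul, setIntegral_const, real_Jc,
      smul_eq_mul]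
    ring
  have h1 : ∫ u in Jc c (dx c x), g u = (1 / 2 ^ c) * av c g x := by
    unfold av; field_simp
  rw [e, h1] at h0
  have h2 : (1 / 2 ^ c : ℝ) * (av c g x) ^ 2 ≤ ∫ u in Jc c (dx c x), g u ^ 2 := by linarith
  unfold av at h2 ⊢
  rw [one_div, inv_mul_le_iff₀ hp] at h2
  exact h2

/-- families of coefficients -/
structure Fam (P S s0 : ℕ) (m0 : ℤ) (a : ℕ → ℕ → ℝ → ℝ → ℝ) (M E : ℝ) : Prop where
  ad : ∀ i r v, Ad r (a i r v)
  meas : ∀ i ≤ P + 1, ∀ r, Measurable (fun p : ℝ × ℝ => a i r p.1 p.2)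
  bd : ∀ i ≤ P + 1, ∀ r v x, |a i r v x| ≤ M
  supv : ∀ i ≤ P + 1, ∀ r v x, 3 < |v| → a i r v x = 0
  supx : ∀ i ≤ P + 1, ∀ r v x, dx s0 x ≠ m0 → a i r v x = 0
  cont : ∀ i ≤ P + 1, ∀ r x, Continuous (fun v => a i r v x)
  der : ∀ i ≤ P, ∀ r v x, HasDerivAt (fun v => a i r v x) (a (i + 1) r v x) v
  en : ∀ i ≤ P + 1, ∀ v, ∑ r ∈ Finset.range S, ∫ x, (a i r v x) ^ 2 ≤ E

variable {P S s0 : ℕ} {m0 : ℤ} {a : ℕ → ℕ → ℝ → ℝ → ℝ} {M E : ℝ} {ζ : ℝ → ℝ} {K : ℝ}

/-- full `ζ`-sum -/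
def Fv (ζ : ℝ → ℝ) (a : ℕ → ℕ → ℝ → ℝ → ℝ) (S i : ℕ) (v x : ℝ) : ℝ := FZ ζ (fun r => a i r v) S x

/-- full gate sum of the `β`'s -/
def Gv (ζ : ℝ → ℝ) (a : ℕ → ℕ → ℝ → ℝ → ℝ) (S i : ℕ) (v x : ℝ) : ℝ :=
  GS (bz ζ (fun r => a i r v)) S x

/-- the stopping function -/
def Th (ζ : ℝ → ℝ) (a : ℕ → ℕ → ℝ → ℝ → ℝ) (S i : ℕ) (x : ℝ) : ℝ :=
  ∫ v, ((Fv ζ a S i v x) ^ 2 + (Gv ζ a S i v x) ^ 2)

section

variable (hζ : ZB ζ K) (hF : Fam P S s0 m0 a M E)

include hF in
theorem M_nonneg : 0 ≤ M := (abs_nonneg _).trans (hF.bd 0 (by omega) 0 0 0)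

include hF in
theorem nice_a {i : ℕ} (hi : i ≤ P + 1) (r : ℕ) (v : ℝ) : Nice1 (a i r v) := by
  refine ⟨(hF.ad i r v).measurable, ⟨M, hF.bd i hi r v⟩, ⟨|(m0 : ℝ) / 2 ^ s0| + 1, fun x hx => ?_⟩⟩
  refine hF.supx i hi r v x fun hcon => ?_
  have h1 : dx s0 x = dx s0 ((m0 : ℝ) / 2 ^ s0) := by rw [dx_left, hcon]
  have h2 := (cell_dist h1).trans (pw_le_one s0)
  have h3 := abs_sub_abs_le_abs_sub x ((m0 : ℝ) / 2 ^ s0)
  linarith

include hζ in
theorem K_nonneg : 0 ≤ K := hζ.nonneg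

include hF in
theorem Fv_supv {i : ℕ} (hi : i ≤ P + 1) {v : ℝ} (x : ℝ) (hv : 3 < |v|) : Fv ζ a S i v x = 0 := by
  unfold Fv FZ
  exact Finset.sum_eq_zero fun r _ => by simp only [hF.supv i hi r v x hv, mul_zero]

include hF in
theorem Gv_supv {i : ℕ} (hi : i ≤ P + 1) {v : ℝ} (x : ℝ) (hv : 3 < |v|) : Gv ζ a S i v x = 0 := by
  unfold Gv GS bz
  refine Finset.sum_eq_zero fun r _ => ?_
  rw [Finset.sum_eq_zero fun q _ => by simp only [hF.supv i hi q v x hv, zero_mul], mul_zero]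

include hF in
theorem Fv_supx {i : ℕ} (hi : i ≤ P + 1) (v : ℝ) {x : ℝ} (hx : dx s0 x ≠ m0) : Fv ζ a S i v x = 0 := by
  unfold Fv FZ
  exact Finset.sum_eq_zero fun r _ => by simp only [hF.supx i hi r v x hx, mul_zero]

include hF in
theorem Gv_supx {i : ℕ} (hi : i ≤ P + 1) (v : ℝ) {x : ℝ} (hx : dx s0 x ≠ m0) : Gv ζ a S i v x = 0 := by
  unfold Gv GS bz
  refine Finset.sum_eq_zero fun r _ => ?_
  rw [Finset.sum_eq_zero fun q _ => by simp only [hF.supx i hi q v x hx, zero_mul], mul_zero]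

include hζ hF in
theorem Fv_meas {i : ℕ} (hi : i ≤ P + 1) : Measurable (fun p : ℝ × ℝ => Fv ζ a S i p.1 p.2) := by
  unfold Fv FZ
  refine Finset.measurable_sum _ fun r _ => ?_
  exact ((zr_meas hζ r).comp measurable_snd).mul (hF.meas i hi r)

include hF in
theorem Gv_meas {i : ℕ} (hi : i ≤ P + 1) : Measurable (fun p : ℝ × ℝ => Gv ζ a S i p.1 p.2) := by
  unfold Gv GS bz
  refine Finset.measurable_sum _ fun r _ => ?_
  refine ((gr_ad r).measurable.comp measurable_snd).mul ?_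
  refine Finset.measurable_sum _ fun q _ => ?_
  exact (hF.meas i hi q).mul ((av_ad r _).measurable.comp measurable_snd)

include hζ hF in
theorem Fv_bd {i : ℕ} (hi : i ≤ P + 1) (v x : ℝ) : |Fv ζ a S i v x| ≤ S * (K * M) := by
  unfold Fv FZ
  refine (Finset.abs_sum_le_sum_abs _ _).trans ?_
  calc ∑ r ∈ Finset.range S, |zr ζ r x * a i r v x| ≤ ∑ r ∈ Finset.range S, K * M := by
        refine Finset.sum_le_sum fun r _ => ?_
        rw [abs_mul]
        exact mul_le_mul (zr_bd hζ r x) (hF.bd i hi r v x) (abs_nonneg _) hζ.nonneg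
    _ = S * (K * M) := by rw [Finset.sum_const, Finset.card_range, nsmul_eq_mul]

include hζ hF in
theorem Gv_bd {i : ℕ} (hi : i ≤ P + 1) (v x : ℝ) : |Gv ζ a S i v x| ≤ S * (S * (M * K ^ 2)) := by
  have hM := M_nonneg hF
  have hK := hζ.nonneg
  unfold Gv GS bz
  refine (Finset.abs_sum_le_sum_abs _ _).trans ?_
  calc ∑ r ∈ Finset.range S, |gr r x * ∑ q ∈ Finset.range (r + 1),
        a i q v x * av r (fun u => zr ζ q u * zr ζ r u) x| ≤
        ∑ r ∈ Finset.range S, (S : ℝ) * (M * K ^ 2) := by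
        refine Finset.sum_le_sum fun r hr => ?_
        rw [abs_mul, gr_abs, one_mul]
        refine (Finset.abs_sum_le_sum_abs _ _).trans ?_
        calc ∑ q ∈ Finset.range (r + 1), |a i q v x * av r (fun u => zr ζ q u * zr ζ r u) x| ≤
            ∑ q ∈ Finset.range (r + 1), M * K ^ 2 := by
              refine Finset.sum_le_sum fun q hq => ?_
              have hq' : q ≤ r := Nat.lt_succ_iff.1 (Finset.mem_range.1 hq)
              rw [abs_mul]
              refine mul_le_mul (hF.bd i hi q v x) ?_ (abs_nonneg _) hM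
              refine (av_zz hζ hq' x).trans ?_
              have h1 : (2 : ℝ) ^ q / 2 ^ r ≤ 1 := by
                rw [div_le_one (pw r)]
                exact pow_le_pow_right₀ (by norm_num) hq'
              have h2 : 0 ≤ K ^ 2 := by positivity
              nlinarith
          _ = ((r + 1 : ℕ) : ℝ) * (M * K ^ 2) := by
              rw [Finset.sum_const, Finset.card_range, nsmul_eq_mul]
          _ ≤ (S : ℝ) * (M * K ^ 2) := by
              have : r + 1 ≤ S := Finset.mem_range.1 hr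
              gcongr
    _ = S * (S * (M * K ^ 2)) := by rw [Finset.sum_const, Finset.card_range, nsmul_eq_mul]

/-- integrable functions on the plane: measurable, bounded, bounded support -/
theorem int_box {f : ℝ × ℝ → ℝ} (hm : Measurable f) {C : ℝ} (hC : ∀ p, |f p| ≤ C)
    (hv : ∀ p : ℝ × ℝ, 3 < |p.1| → f p = 0) (hx : ∀ p : ℝ × ℝ, dx s0 p.2 ≠ m0 → f p = 0) :
    Integrable f (volume.prod volume) := by
  have h1 : IntegrableOn f (Set.Icc (-3) 3 ×ˢ Jc s0 m0) (volume.prod volume) := by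
    refine Measure.integrableOn_of_bounded (M := C) ?_ hm.aestronglyMeasurable ?_
    · rw [Measure.prod_prod]
      refine ENNReal.mul_ne_top ?_ (volume_Jc_ne s0 m0)
      simp
    · exact Filter.Eventually.of_forall fun p => by simpa using hC p
  refine (integrableOn_iff_integrable_of_support_subset ?_).1 h1
  intro p hp
  refine ⟨?_, ?_⟩
  · by_contra hcon
    refine hp (hv p ?_)
    rw [Set.mem_Icc, ← abs_le, not_le] at hcon
    exact hcon
  · by_contra hcon
    exact hp (hx p fun h => hcon (mem_Jc.2 h))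

include hζ hF in
theorem int_FG {i : ℕ} (hi : i ≤ P + 1) :
    Integrable (fun p : ℝ × ℝ => (Fv ζ a S i p.1 p.2) ^ 2 + (Gv ζ a S i p.1 p.2) ^ 2)
      (volume.prod volume) := by
  refine int_box (s0 := s0) (m0 := m0)
    (C := (S * (K * M)) ^ 2 + (S * (S * (M * K ^ 2))) ^ 2) ?_ ?_ ?_ ?_
  · exact ((Fv_meas hζ hF hi).pow_const 2).add ((Gv_meas hF hi).pow_const 2)
  · intro p
    have h1 : |Fv ζ a S i p.1 p.2| ^ 2 ≤ (S * (K * M)) ^ 2 :=
      pow_le_pow_left₀ (abs_nonneg _) (Fv_bd hζ hF hi _ _) 2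
    have h2 : |Gv ζ a S i p.1 p.2| ^ 2 ≤ (S * (S * (M * K ^ 2))) ^ 2 :=
      pow_le_pow_left₀ (abs_nonneg _) (Gv_bd hζ hF hi _ _) 2
    rw [sq_abs] at h1 h2
    rw [abs_of_nonneg (by positivity)]
    linarith
  · intro p hp; rw [Fv_supv hF hi _ hp, Gv_supv hF hi _ hp]; norm_num
  · intro p hp; rw [Fv_supx hF hi _ hp, Gv_supx hF hi _ hp]; norm_num

theorem Th_nonneg (i : ℕ) (x : ℝ) : 0 ≤ Th ζ a S i x := integral_nonneg fun v => by positivity

include hζ hF in
theorem Th_meas {i : ℕ} (hi : i ≤ P + 1) : Measurable (Th ζ a S i) := by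
  have h1 : Measurable (fun p : ℝ × ℝ => (Fv ζ a S i p.2 p.1) ^ 2 + (Gv ζ a S i p.2 p.1) ^ 2) :=
    (((Fv_meas hζ hF hi).pow_const 2).add ((Gv_meas hF hi).pow_const 2)).comp measurable_swap
  exact h1.stronglyMeasurable.integral_prod_right'.measurable

include hF in
theorem Th_supx {i : ℕ} (hi : i ≤ P + 1) {x : ℝ} (hx : dx s0 x ≠ m0) : Th ζ a S i x = 0 := by
  unfold Th
  have : ∀ v, (Fv ζ a S i v x) ^ 2 + (Gv ζ a S i v x) ^ 2 = 0 := fun v => by
    rw [Fv_supx hF hi v hx, Gv_supx hF hi v hx]; norm_num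
  simp only [this, integral_zero]

include hζ hF in
theorem Th_int {i : ℕ} (hi : i ≤ P + 1) : Integrable (Th ζ a S i) :=
  (int_FG hζ hF hi).integral_prod_right

include hζ hF in
/-- energy of the stopping function -/
theorem int_Th {i : ℕ} (hi : i ≤ P + 1) :
    ∫ x, Th ζ a S i x ≤ 6 * ((3 * K ^ 2 + 4 * K ^ 4) * E) := by
  have hsw : ∫ x, Th ζ a S i x = ∫ v, ∫ x, ((Fv ζ a S i v x) ^ 2 + (Gv ζ a S i v x) ^ 2) := by
    unfold Th
    exact (integral_integral_swap (f := fun v x => (Fv ζ a S i v x) ^ 2 + (Gv ζ a S i v x) ^ 2)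
      (int_FG hζ hF hi)).symm
  rw [hsw]
  have hpt : ∀ v, ∫ x, ((Fv ζ a S i v x) ^ 2 + (Gv ζ a S i v x) ^ 2) ≤
      (Set.Icc (-3 : ℝ) 3).indicator (fun _ => (3 * K ^ 2 + 4 * K ^ 4) * E) v := by
    intro v
    by_cases hv : v ∈ Set.Icc (-3 : ℝ) 3
    · rw [Set.indicator_of_mem hv]
      have hA := fun r => hF.ad i r v
      have hN := fun r => nice_a hF hi r v
      have n1 : Nice1 (Fv ζ a S i v) := nice_fz hζ hN S
      have n2 : Nice1 (Gv ζ a S i v) := nice_gs (fun r => nice_bz hζ hN r) S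
      rw [integral_add (nice_int (nice_sq n1)) (nice_int (nice_sq n2))]
      have h1 : ∫ x, (Fv ζ a S i v x) ^ 2 ≤ 3 * K ^ 2 * ∑ r ∈ Finset.range S, ∫ x, a i r v x ^ 2 :=
        z_sq hζ hA hN S
      have h2 : ∫ x, (Gv ζ a S i v x) ^ 2 ≤ 4 * K ^ 4 * ∑ r ∈ Finset.range S, ∫ x, a i r v x ^ 2 := by
        have e1 : ∫ x, (Gv ζ a S i v x) ^ 2 = _ :=
          gate_sq (a := bz ζ (fun r => a i r v)) (fun r => bz_ad hA r) (fun r => nice_bz hζ hN r) S
        rw [e1]
        exact bz_sum hζ hN S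
      have h3 := hF.en i hi v
      have h4 : 0 ≤ 3 * K ^ 2 + 4 * K ^ 4 := by positivity
      nlinarith
    · rw [Set.indicator_of_notMem hv]
      have h3 : 3 < |v| := by
        rw [Set.mem_Icc, ← abs_le, not_le] at hv
        exact hv
      have : ∀ x, (Fv ζ a S i v x) ^ 2 + (Gv ζ a S i v x) ^ 2 = 0 := fun x => by
        rw [Fv_supv hF hi x h3, Gv_supv hF hi x h3]; norm_num
      simp only [this, integral_zero, le_refl]
  have hI : Integrable ((Set.Icc (-3 : ℝ) 3).indicator (fun _ => (3 * K ^ 2 + 4 * K ^ 4) * E)) :=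
    (integrableOn_const (by simp)).integrable_indicator measurableSet_Icc
  calc ∫ v, ∫ x, ((Fv ζ a S i v x) ^ 2 + (Gv ζ a S i v x) ^ 2) ≤
      ∫ v, (Set.Icc (-3 : ℝ) 3).indicator (fun _ => (3 * K ^ 2 + 4 * K ^ 4) * E) v :=
        integral_mono (int_FG hζ hF hi).integral_prod_left hI hpt
    _ = 6 * ((3 * K ^ 2 + 4 * K ^ 4) * E) := by
        rw [integral_indicator measurableSet_Icc, setIntegral_const, Real.volume_real_Icc,
          smul_eq_mul]
        norm_num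

end

end Crest.Agent.R087.T3famx90
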