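import Crest.Agent.R087.OPdef_799
import Crest.Agent.R087.Sq_681

/-!
Row 87 (S0115), OPERATOR PART, leaf PAIR-TOP, part 1 (helper52): absolute value estimate of the
operator `TS` for a family of active sets `act s` with at most `p` active scales at every point.

`nn U K s' z z'` : the line of the field through `z` is `K`-near `(z', J_{s'}(z'))`.
`PB`             : the bound of one pairing (leaf PAIR1).
`top1`           : `∫ (TS H)² ≤ C p ∑_j 2^{-qj} ∫ h(z) ∑_{s act} 2^s ∫_{Z'(j,s,z)} h`.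
-/

set_option autoImplicit false

noncomputable section

open MeasureTheory Crest.Agent.R087.Sh0x283 Crest.Agent.R087.GateDefx273 Crest.Agent.R087.OPdefx799
open scoped ENNReal

namespace Crest.Agent.R087.Top1x52

/-- the line of the field through `z` is `K`-near `(z', J_{s'}(z'))` -/
def nn (U : ℝ × ℝ → ℝ) (K : ℝ) (s' : ℕ) (z z' : ℝ × ℝ) : Prop :=
  |z'.2 - ln U z z'.1| ≤ K ∧ |U z' - U z| * (1 / 2 : ℝ) ^ s' ≤ K

/-- bound of one pairing -/
def PB (φ ζ : ℝ → ℝ) (U : ℝ × ℝ → ℝ) (C : ℝ) (q : ℕ) : Prop :=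
  ∀ (s s' : ℕ) (z z' : ℝ × ℝ), s ≤ s' → Sqx681.pr φ ζ U s z s' z' ≠ 0 →
    ix s z'.1 = ix s z.1 ∧
    |z'.2 - ln U z z'.1| ≤ 2 + |U z' - U z| * (1 / 2 : ℝ) ^ s' ∧
    |Sqx681.pr φ ζ U s z s' z'| ≤ C * 2 ^ s * ((1 + |U z' - U z| * (1 / 2 : ℝ) ^ s')⁻¹) ^ q

/-- near relation of a pair of scales -/
def nr2 (U : ℝ × ℝ → ℝ) (j s s' : ℕ) (z z' : ℝ × ℝ) : Prop :=
  ix s z'.1 = ix s z.1 ∧ nn U (2 ^ j) s' z z'

theorem pair_le {φ ζ : ℝ → ℝ} {U : ℝ × ℝ → ℝ} {C : ℝ} {q : ℕ} (hC : 0 ≤ C) (hp : PB φ ζ U C q)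
    {s s' : ℕ} (hs : s ≤ s') (z z' : ℝ × ℝ) (h0 : Sqx681.pr φ ζ U s z s' z' ≠ 0) :
    ∃ j : ℕ, nr2 U j s s' z z' ∧
      |Sqx681.pr φ ζ U s z s' z'| ≤ C * 4 ^ q * 2 ^ s * (1 / 2 : ℝ) ^ (q * j) := by
  obtain ⟨h1, h2, h3⟩ := hp s s' z z' hs h0
  set b : ℝ := |U z' - U z| * (1 / 2 : ℝ) ^ s' with hb
  have hb0 : 0 ≤ b := by positivity
  obtain ⟨n, hn1, hn2⟩ := exists_nat_pow_near (show (1 : ℝ) ≤ 2 + b by linarith)
    (show (1 : ℝ) < 2 by norm_num)
  refine ⟨n + 1, ⟨h1, h2.trans hn2.le, ?_⟩, h3.trans ?_⟩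
  · rw [← hb]; linarith
  · have h4 : (1 + b)⁻¹ ≤ 4 * (1 / 2 : ℝ) ^ (n + 1) := by
      rw [inv_le_iff_one_le_mul₀ (by positivity)]
      have h5 : (1 / 2 : ℝ) ^ (n + 1) * 2 ^ (n + 1) = 1 := by rw [← mul_pow]; norm_num
      have h6 : (2 : ℝ) ^ (n + 1) ≤ 4 * (1 + b) := by rw [pow_succ]; linarith
      have h7 : (0 : ℝ) < (1 / 2 : ℝ) ^ (n + 1) := by positivity
      nlinarith
    have h8 : ((1 + b)⁻¹) ^ q ≤ 4 ^ q * (1 / 2 : ℝ) ^ (q * (n + 1)) := by
      calc ((1 + b)⁻¹) ^ q ≤ (4 * (1 / 2 : ℝ) ^ (n + 1)) ^ q :=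
            pow_le_pow_left₀ (by positivity) h4 q
        _ = 4 ^ q * (1 / 2 : ℝ) ^ (q * (n + 1)) := by
            rw [mul_pow, ← pow_mul, mul_comm (n + 1) q]
    calc C * 2 ^ s * ((1 + b)⁻¹) ^ q ≤ C * 2 ^ s * (4 ^ q * (1 / 2 : ℝ) ^ (q * (n + 1))) := by
          gcongr
      _ = C * 4 ^ q * 2 ^ s * (1 / 2 : ℝ) ^ (q * (n + 1)) := by ring

/-- weight of the dilation `2^j` -/
def wt (q j : ℕ) : ℝ≥0∞ := ENNReal.ofReal ((1 / 2 : ℝ) ^ (q * j))

theorem measurable_ln {U : ℝ × ℝ → ℝ} (hU : Measurable U) :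
    Measurable (fun p : (ℝ × ℝ) × (ℝ × ℝ) => ln U p.1 p.2.1) := by
  unfold ln
  refine Measurable.add measurable_fst.snd ?_
  exact ((measurable_snd.fst).sub (measurable_fst.fst)).mul (hU.comp measurable_fst)

theorem measurable_ix (s : ℕ) : Measurable (ix s) := by
  unfold ix
  exact Int.measurable_floor.comp (by fun_prop)

theorem measurableSet_nr2 {U : ℝ × ℝ → ℝ} (hU : Measurable U) (j s s' : ℕ) :
    MeasurableSet {p : (ℝ × ℝ) × (ℝ × ℝ) | nr2 U j s s' p.1 p.2} := by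
  have h1 : MeasurableSet {p : (ℝ × ℝ) × (ℝ × ℝ) | ix s p.2.1 = ix s p.1.1} :=
    measurableSet_eq_fun ((measurable_ix s).comp measurable_snd.fst)
      ((measurable_ix s).comp measurable_fst.fst)
  have h2 : MeasurableSet {p : (ℝ × ℝ) × (ℝ × ℝ) | |p.2.2 - ln U p.1 p.2.1| ≤ (2 : ℝ) ^ j} := by
    refine measurableSet_le ?_ measurable_const
    exact (continuous_abs.measurable).comp ((measurable_snd.snd).sub (measurable_ln hU))
  have h3 : MeasurableSet {p : (ℝ × ℝ) × (ℝ × ℝ) |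
      |U p.2 - U p.1| * (1 / 2 : ℝ) ^ s' ≤ (2 : ℝ) ^ j} := by
    refine measurableSet_le ?_ measurable_const
    refine Measurable.mul_const ?_ _
    exact (continuous_abs.measurable).comp ((hU.comp measurable_snd).sub (hU.comp measurable_fst))
  exact h1.inter (h2.inter h3)

/-- short points seen from `(z, s)` with the dilation `2^j` -/
def Zp (U : ℝ × ℝ → ℝ) (S : ℕ) (act : ℕ → Set (ℝ × ℝ)) (j s : ℕ) (z : ℝ × ℝ) : Set (ℝ × ℝ) :=
  {z' | ∃ s', s ≤ s' ∧ s' < S ∧ z' ∈ act s' ∧ nr2 U j s s' z z'}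

theorem ofReal_sum_le {ι : Type*} (s : Finset ι) (f : ι → ℝ) :
    ENNReal.ofReal (∑ i ∈ s, f i) ≤ ∑ i ∈ s, ENNReal.ofReal (f i) := by
  classical
  induction s using Finset.induction_on with
  | empty => simp
  | insert a s ha ih =>
    rw [Finset.sum_insert ha, Finset.sum_insert ha]
    exact ENNReal.ofReal_add_le.trans (by gcongr)

theorem top1 {φ ζ : ℝ → ℝ} {U : ℝ × ℝ → ℝ} {a b W : ℝ} (hy : Sqx681.Hyp φ ζ U a b W) {C : ℝ}
    {q : ℕ} (hC : 0 ≤ C) (hp : PB φ ζ U C q) {h : ℝ × ℝ → ℝ} (hn : Nice h) (h0 : ∀ z, 0 ≤ h z)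
    (S : ℕ) {act : ℕ → Set (ℝ × ℝ)} (hact : ∀ s, MeasurableSet (act s)) (p : ℕ)
    (hcard : ∀ z, ∀ A : Finset ℕ, (∀ s ∈ A, s < S ∧ z ∈ act s) → A.card ≤ p) :
    ENNReal.ofReal (∫ w, (TS φ ζ U S (fun s => (act s).indicator h) w) ^ 2) ≤
      ENNReal.ofReal (2 * C * 4 ^ q) * p * ∑' j : ℕ, wt q j *
        ∫⁻ z, ∑ s ∈ Finset.range S, (act s).indicator (fun z => ENNReal.ofReal (h z)) z *
          ENNReal.ofReal (2 ^ s) * ∫⁻ z' in Zp U S act j s z, ENNReal.ofReal (h z') := by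
  classical
  have hU := hy.mU
  set H : ℕ → ℝ × ℝ → ℝ := fun s => (act s).indicator h with hHdef
  have hHn : ∀ s, Nice (H s) := by
    intro s
    obtain ⟨hm, ⟨M, hM⟩, ⟨R, hR⟩⟩ := hn
    refine ⟨hm.indicator (hact s), ⟨M, fun z => ?_⟩, ⟨R, fun z hz => ?_⟩⟩
    · simp only [hHdef, Set.indicator_apply]
      split_ifs
      · exact hM z
      · rw [abs_zero]; exact (abs_nonneg _).trans (hM z)
    · simp only [hHdef, Set.indicator_apply, hR z hz, ite_self]
  have hH0 : ∀ s z, 0 ≤ H s z := by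
    intro s z
    exact Set.indicator_nonneg (fun z _ => h0 z) z
  -- ENNReal versions
  set E : ℕ → ℝ × ℝ → ℝ≥0∞ := fun s => (act s).indicator (fun z => ENNReal.ofReal (h z)) with hE
  have hEm : ∀ s, Measurable (E s) := fun s => (hn.1.ennreal_ofReal).indicator (hact s)
  have hEH : ∀ s z, ENNReal.ofReal (H s z) = E s z := by
    intro s z
    simp only [hHdef, hE, Set.indicator_apply]
    split_ifs <;> simp
  -- near sets
  let G : ℕ → ℕ → ℕ → (ℝ × ℝ) × (ℝ × ℝ) → ℝ≥0∞ := fun j s s' =>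
    {p : (ℝ × ℝ) × (ℝ × ℝ) | nr2 U j s s' p.1 p.2}.indicator (fun _ => 1)
  have hGm : ∀ j s s', Measurable (G j s s') := fun j s s' =>
    measurable_const.indicator (measurableSet_nr2 hU j s s')
  set c0 : ℝ := C * 4 ^ q with hc0
  have hc00 : 0 ≤ c0 := by positivity
  have hpt : ∀ s s', s ≤ s' → ∀ z z', ENNReal.ofReal |Sqx681.pr φ ζ U s z s' z'| ≤
      ENNReal.ofReal c0 * ∑' j : ℕ, wt q j * (ENNReal.ofReal (2 ^ s) * G j s s' (z, z')) := by
    intro s s' hs z z'
    by_cases hz : Sqx681.pr φ ζ U s z s' z' = 0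
    · rw [hz]; simp
    · obtain ⟨j, hj1, hj2⟩ := pair_le hC hp hs z z' hz
      have h1 : wt q j * (ENNReal.ofReal (2 ^ s) * G j s s' (z, z')) ≤
          ∑' j : ℕ, wt q j * (ENNReal.ofReal (2 ^ s) * G j s s' (z, z')) :=
        ENNReal.le_tsum j
      refine le_trans ?_ (mul_le_mul_right h1 _)
      have h2 : G j s s' (z, z') = 1 := by
        simp only [G]
        rw [Set.indicator_of_mem]
        exact hj1
      rw [h2, mul_one, wt, ← ENNReal.ofReal_mul (by positivity), ← ENNReal.ofReal_mul hc00]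
      apply ENNReal.ofReal_le_ofReal
      calc |Sqx681.pr φ ζ U s z s' z'| ≤ C * 4 ^ q * 2 ^ s * (1 / 2 : ℝ) ^ (q * j) := hj2
        _ = c0 * ((1 / 2 : ℝ) ^ (q * j) * 2 ^ s) := by rw [hc0]; ring
  -- one pair of scales
  have hone : ∀ s s', s ≤ s' →
      ENNReal.ofReal (∫ z', H s' z' * ∫ z, H s z * Sqx681.pr φ ζ U s z s' z') ≤
        ENNReal.ofReal c0 * ∑' j : ℕ, wt q j * ∫⁻ z, E s z * ENNReal.ofReal (2 ^ s) *
          ∫⁻ z', E s' z' * G j s s' (z, z') := by
    intro s s' hs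
    have a1 : ENNReal.ofReal (∫ z', H s' z' * ∫ z, H s z * Sqx681.pr φ ζ U s z s' z') ≤
        ∫⁻ z', E s' z' * ∫⁻ z, E s z * ENNReal.ofReal |Sqx681.pr φ ζ U s z s' z'| := by
      refine (ENNReal.ofReal_le_ofReal (le_abs_self _)).trans ?_
      rw [← Real.enorm_eq_ofReal_abs]
      refine (enorm_integral_le_lintegral_enorm _).trans ?_
      refine lintegral_mono fun z' => ?_
      simp only
      rw [enorm_mul]
      refine mul_le_mul' ?_ ?_
      · rw [Real.enorm_eq_ofReal (hH0 s' z'), hEH]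
      · refine (enorm_integral_le_lintegral_enorm _).trans ?_
        refine lintegral_mono fun z => ?_
        simp only
        rw [enorm_mul, Real.enorm_eq_ofReal (hH0 s z), hEH, Real.enorm_eq_ofReal_abs]
    refine a1.trans ?_
    have a2 : ∫⁻ z', E s' z' * ∫⁻ z, E s z * ENNReal.ofReal |Sqx681.pr φ ζ U s z s' z'| ≤
        ∫⁻ z', ∫⁻ z, ENNReal.ofReal c0 * ∑' j : ℕ, wt q j *
          (E s z * ENNReal.ofReal (2 ^ s) * (E s' z' * G j s s' (z, z'))) := by
      refine lintegral_mono fun z' => ?_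
      simp only
      have hmz : Measurable fun z : ℝ × ℝ => ∑' j : ℕ, wt q j *
          (ENNReal.ofReal (2 ^ s) * G j s s' (z, z')) :=
        Measurable.tsum fun j => ((((hGm j s s').comp
          (measurable_id.prodMk measurable_const)).const_mul _).const_mul _)
      calc E s' z' * ∫⁻ z, E s z * ENNReal.ofReal |Sqx681.pr φ ζ U s z s' z'|
          ≤ E s' z' * ∫⁻ z, E s z * (ENNReal.ofReal c0 * ∑' j : ℕ, wt q j *
              (ENNReal.ofReal (2 ^ s) * G j s s' (z, z'))) := by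
            gcongr with z
            exact hpt s s' hs z z'
        _ = ∫⁻ z, E s' z' * (E s z * (ENNReal.ofReal c0 * ∑' j : ℕ, wt q j *
              (ENNReal.ofReal (2 ^ s) * G j s s' (z, z')))) := by
            exact (lintegral_const_mul (μ := volume) (E s' z')
              (f := fun z => E s z * (ENNReal.ofReal c0 * ∑' j : ℕ, wt q j *
                (ENNReal.ofReal (2 ^ s) * G j s s' (z, z'))))
              ((hEm s).mul (hmz.const_mul _))).symm
        _ = _ := by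
            refine lintegral_congr fun z => ?_
            have e : E s' z' * (E s z * (ENNReal.ofReal c0 * ∑' j : ℕ, wt q j *
                (ENNReal.ofReal (2 ^ s) * G j s s' (z, z')))) =
                ENNReal.ofReal c0 * ((E s' z' * E s z) * ∑' j : ℕ, wt q j *
                (ENNReal.ofReal (2 ^ s) * G j s s' (z, z'))) := by ring
            rw [e, ← ENNReal.tsum_mul_left]
            congr 2
            ext j
            ring
    refine a2.trans ?_
    have hmj : ∀ j, Measurable fun p : (ℝ × ℝ) × (ℝ × ℝ) =>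
        wt q j * (E s p.1 * ENNReal.ofReal (2 ^ s) * (E s' p.2 * G j s s' p)) := fun j =>
      ((((hEm s).comp measurable_fst).mul_const _).mul
        (((hEm s').comp measurable_snd).mul (hGm j s s'))).const_mul _
    have hm : Measurable fun p : (ℝ × ℝ) × (ℝ × ℝ) => ENNReal.ofReal c0 * ∑' j : ℕ,
        wt q j * (E s p.1 * ENNReal.ofReal (2 ^ s) * (E s' p.2 * G j s s' p)) :=
      (Measurable.tsum hmj).const_mul _
    have a3 : ∫⁻ z', ∫⁻ z, ENNReal.ofReal c0 * ∑' j : ℕ, wt q j *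
          (E s z * ENNReal.ofReal (2 ^ s) * (E s' z' * G j s s' (z, z'))) =
        ∫⁻ z, ∫⁻ z', ENNReal.ofReal c0 * ∑' j : ℕ, wt q j *
          (E s z * ENNReal.ofReal (2 ^ s) * (E s' z' * G j s s' (z, z'))) := by
      refine lintegral_lintegral_swap ?_
      exact (hm.comp measurable_swap).aemeasurable
    rw [a3]
    have a4 : ∀ z : ℝ × ℝ, ∫⁻ z', ENNReal.ofReal c0 * ∑' j : ℕ, wt q j *
          (E s z * ENNReal.ofReal (2 ^ s) * (E s' z' * G j s s' (z, z'))) =
        ENNReal.ofReal c0 * ∑' j : ℕ, wt q j * (E s z * ENNReal.ofReal (2 ^ s) *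
          ∫⁻ z', E s' z' * G j s s' (z, z')) := by
      intro z
      have b0 : ∀ j, Measurable fun z' : ℝ × ℝ => E s' z' * G j s s' (z, z') := fun j =>
        (hEm s').mul ((hGm j s s').comp (measurable_const.prodMk measurable_id))
      have b1 : ∀ j, Measurable fun z' : ℝ × ℝ => E s z * ENNReal.ofReal (2 ^ s) *
          (E s' z' * G j s s' (z, z')) := fun j => (b0 j).const_mul _
      rw [lintegral_const_mul _ (Measurable.tsum fun j => (b1 j).const_mul _),
        lintegral_tsum fun j => ((b1 j).const_mul _).aemeasurable]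
      congr 2
      ext j
      rw [lintegral_const_mul _ (b1 j), lintegral_const_mul _ (b0 j)]
    simp_rw [a4]
    have b2 : ∀ j, Measurable fun z : ℝ × ℝ => E s z * ENNReal.ofReal (2 ^ s) *
          ∫⁻ z', E s' z' * G j s s' (z, z') := by
      intro j
      refine ((hEm s).mul_const _).mul ?_
      exact Measurable.lintegral_prod_right' (f := fun p : (ℝ × ℝ) × (ℝ × ℝ) =>
        E s' p.2 * G j s s' p) (((hEm s').comp measurable_snd).mul (hGm j s s'))
    rw [lintegral_const_mul _ (Measurable.tsum fun j => (b2 j).const_mul _),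
      lintegral_tsum fun j => ((b2 j).const_mul _).aemeasurable]
    refine le_of_eq ?_
    congr 2
    ext j
    rw [lintegral_const_mul _ (b2 j)]
  -- sum over the scales
  have hsq := Sqx681.TS_sq_le hy hHn S
  have hTS : (∫ w, (TS φ ζ U S H w) ^ 2) = ∫ w, (Sqx681.TS φ ζ U S H w) ^ 2 := rfl
  rw [hTS]
  refine (ENNReal.ofReal_le_ofReal hsq).trans ?_
  have s1 : ENNReal.ofReal (2 * ∑ s' ∈ Finset.range S, ∑ s ∈ Finset.range (s' + 1),
        ∫ z', H s' z' * ∫ z, H s z * Sqx681.pr φ ζ U s z s' z') ≤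
      2 * ∑ s' ∈ Finset.range S, ∑ s ∈ Finset.range (s' + 1),
        ENNReal.ofReal (∫ z', H s' z' * ∫ z, H s z * Sqx681.pr φ ζ U s z s' z') := by
    rw [ENNReal.ofReal_mul (by norm_num), ENNReal.ofReal_ofNat]
    gcongr
    refine (ofReal_sum_le _ _).trans ?_
    exact Finset.sum_le_sum fun s' _ => ofReal_sum_le _ _
  refine s1.trans ?_
  set F : ℕ → ℕ → ℕ → ℝ≥0∞ := fun j s s' => ∫⁻ z, E s z * ENNReal.ofReal (2 ^ s) *
      ∫⁻ z', E s' z' * G j s s' (z, z') with hF
  have s2 : ∑ s' ∈ Finset.range S, ∑ s ∈ Finset.range (s' + 1),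
        ENNReal.ofReal (∫ z', H s' z' * ∫ z, H s z * Sqx681.pr φ ζ U s z s' z') ≤
      ENNReal.ofReal c0 * ∑' j : ℕ, wt q j *
        ∑ s' ∈ Finset.range S, ∑ s ∈ Finset.range (s' + 1), F j s s' := by
    calc ∑ s' ∈ Finset.range S, ∑ s ∈ Finset.range (s' + 1),
        ENNReal.ofReal (∫ z', H s' z' * ∫ z, H s z * Sqx681.pr φ ζ U s z s' z')
        ≤ ∑ s' ∈ Finset.range S, ∑ s ∈ Finset.range (s' + 1),
          ENNReal.ofReal c0 * ∑' j : ℕ, wt q j * F j s s' := by
          refine Finset.sum_le_sum fun s' _ => Finset.sum_le_sum fun s hs => ?_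
          exact hone s s' (Nat.lt_succ_iff.1 (Finset.mem_range.1 hs))
      _ = ENNReal.ofReal c0 * ∑' j : ℕ, wt q j *
        ∑ s' ∈ Finset.range S, ∑ s ∈ Finset.range (s' + 1), F j s s' := by
          simp_rw [← Finset.mul_sum]
          congr 1
          have e1 : ∀ s' : ℕ, ∑ s ∈ Finset.range (s' + 1), ∑' j : ℕ, wt q j * F j s s' =
              ∑' j : ℕ, ∑ s ∈ Finset.range (s' + 1), wt q j * F j s s' := fun s' =>
            (Summable.tsum_finsetSum fun _ _ => ENNReal.summable).symm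
          simp_rw [e1]
          rw [← Summable.tsum_finsetSum fun _ _ => ENNReal.summable]
          congr 1
          ext j
          simp_rw [← Finset.mul_sum]
  have s3 : ∀ j, ∑ s' ∈ Finset.range S, ∑ s ∈ Finset.range (s' + 1), F j s s' ≤
      p * ∫⁻ z, ∑ s ∈ Finset.range S, E s z * ENNReal.ofReal (2 ^ s) *
        ∫⁻ z' in Zp U S act j s z, ENNReal.ofReal (h z') := by
    intro j
    have e1 : ∑ s' ∈ Finset.range S, ∑ s ∈ Finset.range (s' + 1), F j s s' =
        ∑ s ∈ Finset.range S, ∑ s' ∈ Finset.Ico s S, F j s s' := by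
      refine Finset.sum_comm' ?_
      intro x y
      simp only [Finset.mem_range, Finset.mem_Ico]
      omega
    have b0 : ∀ s s' z, Measurable fun z' : ℝ × ℝ => E s' z' * G j s s' (z, z') := fun s s' z =>
        (hEm s').mul ((hGm j s s').comp (measurable_const.prodMk measurable_id))
    have b2 : ∀ s s', Measurable fun z : ℝ × ℝ => E s z * ENNReal.ofReal (2 ^ s) *
          ∫⁻ z', E s' z' * G j s s' (z, z') := by
      intro s s'
      refine ((hEm s).mul_const _).mul ?_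
      exact Measurable.lintegral_prod_right' (f := fun p : (ℝ × ℝ) × (ℝ × ℝ) =>
        E s' p.2 * G j s s' p) (((hEm s').comp measurable_snd).mul (hGm j s s'))
    have e2 : ∑ s ∈ Finset.range S, ∑ s' ∈ Finset.Ico s S, F j s s' =
        ∫⁻ z, ∑ s ∈ Finset.range S, E s z * ENNReal.ofReal (2 ^ s) *
          ∫⁻ z', ∑ s' ∈ Finset.Ico s S, E s' z' * G j s s' (z, z') := by
      have : ∀ z : ℝ × ℝ, ∑ s ∈ Finset.range S, E s z * ENNReal.ofReal (2 ^ s) *
          ∫⁻ z', ∑ s' ∈ Finset.Ico s S, E s' z' * G j s s' (z, z') =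
          ∑ s ∈ Finset.range S, ∑ s' ∈ Finset.Ico s S, E s z * ENNReal.ofReal (2 ^ s) *
          ∫⁻ z', E s' z' * G j s s' (z, z') := by
        intro z
        refine Finset.sum_congr rfl fun s _ => ?_
        rw [lintegral_finsetSum _ fun s' _ => b0 s s' z, Finset.mul_sum]
      simp_rw [this]
      rw [lintegral_finsetSum _ fun s _ => Finset.measurable_fun_sum _ fun s' _ => b2 s s']
      refine Finset.sum_congr rfl fun s _ => ?_
      rw [lintegral_finsetSum _ fun s' _ => b2 s s']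
    rw [e1, e2]
    have hmZ : ∀ s z, MeasurableSet (Zp U S act j s z) := by
      intro s z
      have : Zp U S act j s z = ⋃ s' ∈ Finset.Ico s S, act s' ∩
          (fun z' => (z, z')) ⁻¹' {p : (ℝ × ℝ) × (ℝ × ℝ) | nr2 U j s s' p.1 p.2} := by
        ext z'
        simp only [Zp, Set.mem_ofPred_eq, Set.mem_iUnion, Finset.mem_Ico, Set.mem_inter_iff,
          Set.mem_preimage, exists_prop]
        constructor
        · rintro ⟨s', h1, h2, h3, h4⟩; exact ⟨s', ⟨h1, h2⟩, h3, h4⟩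
        · rintro ⟨s', ⟨h1, h2⟩, h3, h4⟩; exact ⟨s', h1, h2, h3, h4⟩
      rw [this]
      refine Finset.measurableSet_biUnion _ fun s' _ => (hact s').inter ?_
      exact (measurable_const.prodMk measurable_id) (measurableSet_nr2 hU j s s')
    have e3 : ∀ z s, ∫⁻ z', ∑ s' ∈ Finset.Ico s S, E s' z' * G j s s' (z, z') ≤
        p * ∫⁻ z' in Zp U S act j s z, ENNReal.ofReal (h z') := by
      intro z s
      rw [← lintegral_indicator (hmZ s z), ← lintegral_const_mul _
        ((hn.1.ennreal_ofReal).indicator (hmZ s z))]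
      refine lintegral_mono fun z' => ?_
      simp only
      set A : Finset ℕ := (Finset.Ico s S).filter fun s' => z' ∈ act s' ∧ nr2 U j s s' z z' with hA
      have c1 : ∑ s' ∈ Finset.Ico s S, E s' z' * G j s s' (z, z') =
          ∑ s' ∈ A, ENNReal.ofReal (h z') := by
        rw [hA, Finset.sum_filter]
        refine Finset.sum_congr rfl fun s' _ => ?_
        simp only [hE, G, Set.indicator_apply, Set.mem_ofPred_eq]
        by_cases h1 : z' ∈ act s' <;> by_cases h2 : nr2 U j s s' z z' <;> simp [h1, h2]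
      rw [c1]
      by_cases hA0 : A.Nonempty
      · obtain ⟨s', hs'⟩ := hA0
        have h3 := Finset.mem_filter.1 hs'
        have h4 : z' ∈ Zp U S act j s z :=
          ⟨s', (Finset.mem_Ico.1 h3.1).1, (Finset.mem_Ico.1 h3.1).2, h3.2.1, h3.2.2⟩
        rw [Set.indicator_of_mem h4, Finset.sum_const, nsmul_eq_mul]
        gcongr
        refine hcard z' A fun r hr => ?_
        have h5 := Finset.mem_filter.1 hr
        exact ⟨(Finset.mem_Ico.1 h5.1).2, h5.2.1⟩
      · rw [Finset.not_nonempty_iff_eq_empty.1 hA0]; simp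
    calc ∫⁻ z, ∑ s ∈ Finset.range S, E s z * ENNReal.ofReal (2 ^ s) *
          ∫⁻ z', ∑ s' ∈ Finset.Ico s S, E s' z' * G j s s' (z, z')
        ≤ ∫⁻ z, p * ∑ s ∈ Finset.range S, E s z * ENNReal.ofReal (2 ^ s) *
          ∫⁻ z' in Zp U S act j s z, ENNReal.ofReal (h z') := by
          refine lintegral_mono fun z => ?_
          simp only
          rw [Finset.mul_sum]
          refine Finset.sum_le_sum fun s _ => ?_
          calc E s z * ENNReal.ofReal (2 ^ s) *
              ∫⁻ z', ∑ s' ∈ Finset.Ico s S, E s' z' * G j s s' (z, z')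
              ≤ E s z * ENNReal.ofReal (2 ^ s) *
                (p * ∫⁻ z' in Zp U S act j s z, ENNReal.ofReal (h z')) := by
                gcongr
                exact e3 z s
            _ = _ := by ring
      _ = _ := by
          rw [lintegral_const_mul' _ _ (ENNReal.natCast_ne_top p)]
  calc 2 * ∑ s' ∈ Finset.range S, ∑ s ∈ Finset.range (s' + 1),
        ENNReal.ofReal (∫ z', H s' z' * ∫ z, H s z * Sqx681.pr φ ζ U s z s' z')
      ≤ 2 * (ENNReal.ofReal c0 * ∑' j : ℕ, wt q j *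
        (p * ∫⁻ z, ∑ s ∈ Finset.range S, E s z * ENNReal.ofReal (2 ^ s) *
          ∫⁻ z' in Zp U S act j s z, ENNReal.ofReal (h z'))) := by
        gcongr 2 * ?_
        refine s2.trans ?_
        gcongr with j
        exact s3 j
    _ = _ := by
        have e4 : ∀ j : ℕ, wt q j * (p * ∫⁻ z, ∑ s ∈ Finset.range S,
            E s z * ENNReal.ofReal (2 ^ s) *
            ∫⁻ z' in Zp U S act j s z, ENNReal.ofReal (h z')) =
            p * (wt q j * ∫⁻ z, ∑ s ∈ Finset.range S, E s z * ENNReal.ofReal (2 ^ s) *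
            ∫⁻ z' in Zp U S act j s z, ENNReal.ofReal (h z')) := fun j => by ring
        simp_rw [e4]
        rw [ENNReal.tsum_mul_left, hc0, mul_assoc 2 C, ENNReal.ofReal_mul (by norm_num : (0:ℝ) ≤ 2),
          ENNReal.ofReal_ofNat]
        ring

end Crest.Agent.R087.Top1x52
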