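import Crest.Agent.R087.TopOne_929

/-!
Row 87, operator part, leaf TOPN (helper929): the own tube of a point, and the long side
`F(w) = ∫ |h z| 2^{lo z} 1_{fat 1 (own tube of z)}(w) dz ≤ ∑_m (kept bound) 1_{fat (32 2^i) (R m)}(w)`.
-/

set_option autoImplicit false

noncomputable section

open MeasureTheory
open scoped ENNReal

namespace Crest.Agent.R087.TopFx929

open Crest.Agent.R087.Sh0x283 Crest.Agent.R087.E2x542 Crest.Agent.R087.E2Kx752
open Crest.Agent.R087.GateDefx273 Crest.Agent.R087.OP0x270 Crest.Agent.R087.TopOnex929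
open Crest.Agent.R087.T1x90 (cel)

/-- the own integer tube of the point `z` at the scale `s` -/
def R0 (U : ℝ × ℝ → ℝ) (s : ℕ) (z : ℝ × ℝ) : Tube where
  k := s
  j := jx s z.1
  b := (round (z.2 - (round (U z) : ℤ) * z.1) : ℤ)
  m := (round (U z) : ℤ)

theorem R0_k (U : ℝ × ℝ → ℝ) (s : ℕ) (z : ℝ × ℝ) : (R0 U s z).k = s := rfl

theorem R0_intT (U : ℝ × ℝ → ℝ) (s : ℕ) (z : ℝ × ℝ) : IntT (R0 U s z) := ⟨⟨_, rfl⟩, ⟨_, rfl⟩⟩

theorem R0_m (U : ℝ × ℝ → ℝ) (s : ℕ) (z : ℝ × ℝ) : |U z - (R0 U s z).m| ≤ 1 / 2 :=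
  abs_sub_round (U z)

theorem R0_b (U : ℝ × ℝ → ℝ) (s : ℕ) (z : ℝ × ℝ) : |z.2 - (R0 U s z).line z.1| ≤ 1 / 2 := by
  have h := abs_sub_round (z.2 - (round (U z) : ℤ) * z.1)
  have e : z.2 - (R0 U s z).line z.1 = z.2 - (round (U z) : ℤ) * z.1 -
      (round (z.2 - (round (U z) : ℤ) * z.1) : ℤ) := by
    simp only [Tube.line, R0]; ring
  rw [e]
  exact h

/-- membership in the interval of a tube is equality of cell indices -/
theorem mem_I_iff (R : Tube) (x : ℝ) : x ∈ R.I ↔ jx R.k x = R.j := by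
  constructor
  · exact cel_of_mem
  · intro h
    have h2 : (0 : ℝ) < 2 ^ R.k := by positivity
    have hl : R.len * 2 ^ R.k = 1 := by
      rw [Tube.len, ← mul_pow]; norm_num
    have hlp := R.len_pos
    rw [jx, Int.floor_eq_iff] at h
    obtain ⟨h3, h4⟩ := h
    constructor
    · calc (R.j : ℝ) * R.len ≤ 2 ^ R.k * x * R.len := by gcongr
        _ = x := by rw [mul_comm _ x, mul_assoc, mul_comm _ R.len, hl, mul_one]
    · calc x = 2 ^ R.k * x * R.len := by rw [mul_comm _ x, mul_assoc, mul_comm _ R.len, hl, mul_one]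
        _ < ((R.j : ℝ) + 1) * R.len := by gcongr

/-- two points of one cell are close -/
theorem abs_sub_le_of_jx {s : ℕ} {x y : ℝ} (h : jx s x = jx s y) : |x - y| ≤ (1 / 2) ^ s := by
  have h1 := Int.floor_le ((2 : ℝ) ^ s * x)
  have h2 := Int.lt_floor_add_one ((2 : ℝ) ^ s * x)
  have h3 := Int.floor_le ((2 : ℝ) ^ s * y)
  have h4 := Int.lt_floor_add_one ((2 : ℝ) ^ s * y)
  have h5 : (⌊(2 : ℝ) ^ s * x⌋ : ℝ) = (⌊(2 : ℝ) ^ s * y⌋ : ℝ) := by
    have : ⌊(2 : ℝ) ^ s * x⌋ = ⌊(2 : ℝ) ^ s * y⌋ := h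
    rw [this]
  have h6 : |(2 : ℝ) ^ s * (x - y)| ≤ 1 := by
    rw [abs_le]
    constructor <;> nlinarith
  rw [abs_mul, abs_of_pos (by positivity : (0 : ℝ) < 2 ^ s)] at h6
  have h7 : (0 : ℝ) < (1 / 2) ^ s := by positivity
  have h8 : (1 / 2 : ℝ) ^ s * 2 ^ s = 1 := by rw [← mul_pow]; norm_num
  calc |x - y| = (1 / 2) ^ s * (2 ^ s * |x - y|) := by rw [← mul_assoc, h8, one_mul]
    _ ≤ (1 / 2) ^ s * 1 := by gcongr
    _ = (1 / 2) ^ s := mul_one _

/-- finer cells determine coarser cells -/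
theorem jx_mono {r s : ℕ} (h : r ≤ s) {x y : ℝ} (hxy : jx s x = jx s y) : jx r x = jx r y :=
  Massx546.cel_mono h hxy

/-- the own tube of `z` lies in the fat top -/
theorem fat_sub {U : ℝ × ℝ → ℝ} {R : Tube} {K : ℝ} (hK : 1 ≤ K) {s : ℕ} {z w : ℝ × ℝ}
    (hz : z.1 ∈ R.I) (hs : R.k ≤ s) (hn : near U (5 * K) R.b R.m s z)
    (hw : w ∈ fat 1 (R0 U s z)) : w ∈ fat (32 * K) R := by
  obtain ⟨h1, h2⟩ := hw
  have h3 : jx s w.1 = jx s z.1 := (mem_I_iff _ _).1 h1
  refine ⟨?_, ?_⟩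
  · rw [mem_I_iff] at hz ⊢
    rw [jx_mono hs h3, hz]
  · have h4 := abs_sub_le_of_jx h3
    have h5 := R0_m U s z
    have h6 := R0_b U s z
    obtain ⟨h7, h8⟩ := hn
    have h9 : (0 : ℝ) < (1 / 2) ^ s := by positivity
    have h10 : (1 / 2 : ℝ) ^ s ≤ 1 := pow_le_one₀ (by norm_num) (by norm_num)
    -- slopes
    have h11 : |(R0 U s z).m - R.m| * |w.1 - z.1| ≤ 1 / 2 + 5 * K := by
      have h12 : |(R0 U s z).m - R.m| ≤ |U z - (R0 U s z).m| + |U z - R.m| := by
        have : (R0 U s z).m - R.m = -(U z - (R0 U s z).m) + (U z - R.m) := by ring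
        rw [this]
        exact (abs_add_le _ _).trans (by rw [abs_neg])
      calc |(R0 U s z).m - R.m| * |w.1 - z.1|
          ≤ (|U z - (R0 U s z).m| + |U z - R.m|) * (1 / 2) ^ s := by gcongr
        _ = |U z - (R0 U s z).m| * (1 / 2) ^ s + |U z - R.m| * (1 / 2) ^ s := by ring
        _ ≤ 1 / 2 * 1 + 5 * K := by gcongr
        _ = 1 / 2 + 5 * K := by ring
    have e : w.2 - R.line w.1 = (w.2 - (R0 U s z).line w.1) +
        (-(z.2 - (R0 U s z).line z.1)) + (z.2 - (R.b + R.m * z.1)) +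
        ((R0 U s z).m - R.m) * (w.1 - z.1) := by
      simp only [Tube.line]
      ring
    rw [e]
    have h13 : |(w.2 - (R0 U s z).line w.1) +
        (-(z.2 - (R0 U s z).line z.1)) + (z.2 - (R.b + R.m * z.1)) +
        ((R0 U s z).m - R.m) * (w.1 - z.1)| ≤ |w.2 - (R0 U s z).line w.1| +
        |z.2 - (R0 U s z).line z.1| + |z.2 - (R.b + R.m * z.1)| +
        |(R0 U s z).m - R.m| * |w.1 - z.1| := by
      rw [← abs_mul]
      refine (abs_add_le _ _).trans ?_
      gcongr
      refine (abs_add_le _ _).trans ?_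
      gcongr
      refine (abs_add_le _ _).trans ?_
      rw [abs_neg]
    linarith

/-- joint measurability of the cell index -/
theorem measurable_jx2 {α : Type*} [MeasurableSpace α] {f : α → ℕ} {g : α → ℝ} (hf : Measurable f)
    (hg : Measurable g) : Measurable fun a => jx (f a) (g a) := by
  have h1 : Measurable fun a => (2 : ℝ) ^ (f a) * g a := by
    have h2 : Measurable fun a => (2 : ℝ) ^ (f a) :=
      (measurable_of_countable (fun n : ℕ => (2 : ℝ) ^ n)).comp hf
    exact h2.mul hg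
  exact Int.measurable_floor.comp h1

/-- the own tubes depend measurably on the point -/
theorem measurableSet_own {U : ℝ × ℝ → ℝ} (hU : Measurable U) {lo : ℝ × ℝ → ℕ}
    (hlo : Measurable lo) :
    MeasurableSet {p : (ℝ × ℝ) × (ℝ × ℝ) | p.2 ∈ fat 1 (R0 U (lo p.1) p.1)} := by
  have hr : Measurable (fun x : ℝ => ((round x : ℤ) : ℝ)) := by
    have : (fun x : ℝ => ((round x : ℤ) : ℝ)) = fun x => ((⌊x + 1 / 2⌋ : ℤ) : ℝ) := by
      funext x
      rw [round_eq]
    rw [this]
    have h1 : Measurable (fun n : ℤ => (n : ℝ)) := measurable_of_countable _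
    exact h1.comp (Int.measurable_floor.comp (measurable_id.add_const _))
  have e : {p : (ℝ × ℝ) × (ℝ × ℝ) | p.2 ∈ fat 1 (R0 U (lo p.1) p.1)} =
      {p : (ℝ × ℝ) × (ℝ × ℝ) | jx (lo p.1) p.2.1 = jx (lo p.1) p.1.1} ∩
      {p : (ℝ × ℝ) × (ℝ × ℝ) | |p.2.2 - (((round (p.1.2 - (round (U p.1) : ℤ) * p.1.1) : ℤ) : ℝ) +
        ((round (U p.1) : ℤ) : ℝ) * p.2.1)| ≤ 1} := by
    ext p
    constructor
    · rintro ⟨h1, h2⟩
      exact ⟨(mem_I_iff _ _).1 h1, h2⟩
    · rintro ⟨h1, h2⟩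
      exact ⟨(mem_I_iff _ _).2 h1, h2⟩
  rw [e]
  have hlo1 : Measurable fun p : (ℝ × ℝ) × (ℝ × ℝ) => lo p.1 := hlo.comp measurable_fst
  have hU1 : Measurable fun p : (ℝ × ℝ) × (ℝ × ℝ) => ((round (U p.1) : ℤ) : ℝ) :=
    hr.comp (hU.comp measurable_fst)
  have h11 : Measurable fun p : (ℝ × ℝ) × (ℝ × ℝ) => p.1.1 := measurable_fst.comp measurable_fst
  have h12 : Measurable fun p : (ℝ × ℝ) × (ℝ × ℝ) => p.1.2 := measurable_snd.comp measurable_fst
  have h21 : Measurable fun p : (ℝ × ℝ) × (ℝ × ℝ) => p.2.1 := measurable_fst.comp measurable_snd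
  have h22 : Measurable fun p : (ℝ × ℝ) × (ℝ × ℝ) => p.2.2 := measurable_snd.comp measurable_snd
  refine MeasurableSet.inter ?_ ?_
  · exact measurableSet_eq_fun (measurable_jx2 hlo1 h21) (measurable_jx2 hlo1 h11)
  · refine measurableSet_le ?_ measurable_const
    refine continuous_abs.measurable.comp (h22.sub ?_)
    exact (hr.comp (h12.sub (hU1.mul h11))).add (hU1.mul h21)

/-- kept points -/
def kept (h : ℝ × ℝ → ℝ) (lo hi' : ℝ × ℝ → ℕ) : Set (ℝ × ℝ) := {z | h z ≠ 0 ∧ lo z < hi' z}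

theorem measurableSet_kept {h : ℝ × ℝ → ℝ} (hh : Measurable h) {lo hi' : ℝ × ℝ → ℕ}
    (hlo : Measurable lo) (hhi : Measurable hi') : MeasurableSet (kept h lo hi') :=
  (hh (measurableSet_singleton 0)).compl.inter (measurableSet_lt hlo hhi)

/-- the long side -/
def FF (U h : ℝ × ℝ → ℝ) (lo hi' : ℝ × ℝ → ℕ) (w : ℝ × ℝ) : ℝ≥0∞ :=
  ∫⁻ z in kept h lo hi', ENNReal.ofReal |h z| * ENNReal.ofReal (2 ^ lo z) *
    (fat 1 (R0 U (lo z) z)).indicator (fun _ => 1) w

/-- **the long side is dominated by the fat tops** -/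
theorem FF_le {U h : ℝ × ℝ → ℝ} {A n S : ℕ} {lo hi hi' : ℝ × ℝ → ℕ} (hh : Nice h)
    (hc : Chain S lo hi) (hhi' : Measurable hi') (hle : ∀ z, hi' z ≤ hi z) {N : ℕ}
    {R : Fin N → Tube} {kk : Fin N → ℤ} {ii : Fin N → ℕ} {E B : Fin N → Set (ℝ × ℝ)}
    (hI : IsTops U h A n lo hi N R kk ii E B) {b : Fin N → ℝ≥0∞}
    (hb : ∀ m x, ∑ s ∈ Finset.range S, ENNReal.ofReal (2 ^ s) *
      ∫⁻ z in {z | z ∈ B m ∧ lo z = s ∧ s < hi' z ∧ jx s z.1 = jx s x}, ENNReal.ofReal |h z| ≤ b m)
    (w : ℝ × ℝ) :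
    FF U h lo hi' w ≤ ∑ m, (fat (32 * 2 ^ ii m) (R m)).indicator (fun _ => b m) w := by
  have hms : ∀ m s, MeasurableSet {z | z ∈ B m ∧ lo z = s ∧ s < hi' z ∧ jx s z.1 = jx s w.1} := by
    intro m s
    exact (hI.mB m).inter ((hc.1 (measurableSet_singleton s)).inter
      ((measurableSet_lt measurable_const hhi').inter
      ((measurable_jx s).comp measurable_fst (measurableSet_singleton _))))
  have hmh : Measurable fun z => ENNReal.ofReal |h z| :=
    (continuous_abs.measurable.comp hh.1).ennreal_ofReal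
  -- pointwise bound of the integrand
  have key : ∀ z, (kept h lo hi').indicator (fun z => ENNReal.ofReal |h z| *
      ENNReal.ofReal (2 ^ lo z) * (fat 1 (R0 U (lo z) z)).indicator (fun _ => 1) w) z ≤
      ∑ m, (fat (32 * 2 ^ ii m) (R m)).indicator (fun _ => 1) w *
        ∑ s ∈ Finset.range S, ENNReal.ofReal (2 ^ s) *
          {z | z ∈ B m ∧ lo z = s ∧ s < hi' z ∧ jx s z.1 = jx s w.1}.indicator
            (fun z => ENNReal.ofReal |h z|) z := by
    intro z
    by_cases hz : z ∈ kept h lo hi'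
    · rw [Set.indicator_of_mem hz]
      by_cases hw : w ∈ fat 1 (R0 U (lo z) z)
      · rw [Set.indicator_of_mem hw, mul_one]
        have hlt : lo z < hi z := lt_of_lt_of_le hz.2 (hle z)
        obtain ⟨m, hm⟩ := hI.unB z hz.1 hlt
        obtain ⟨h1, h2, h3⟩ := hI.top m z hm hlt
        have h4 : w ∈ fat (32 * 2 ^ ii m) (R m) :=
          fat_sub (one_le_pow₀ (by norm_num)) h1 h2 h3 hw
        have h5 : jx (lo z) w.1 = jx (lo z) z.1 := (mem_I_iff _ _).1 hw.1
        have h6 : z ∈ {z' | z' ∈ B m ∧ lo z' = lo z ∧ lo z < hi' z' ∧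
            jx (lo z) z'.1 = jx (lo z) w.1} := ⟨hm, rfl, hz.2, h5.symm⟩
        have hS : lo z ∈ Finset.range S := by
          rw [Finset.mem_range]
          exact lt_of_lt_of_le hlt (hc.2.2 z)
        calc ENNReal.ofReal |h z| * ENNReal.ofReal (2 ^ lo z)
            = (fat (32 * 2 ^ ii m) (R m)).indicator (fun _ => 1) w *
              (ENNReal.ofReal (2 ^ lo z) * {z' | z' ∈ B m ∧ lo z' = lo z ∧ lo z < hi' z' ∧
                jx (lo z) z'.1 = jx (lo z) w.1}.indicator (fun z => ENNReal.ofReal |h z|) z) := by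
              rw [Set.indicator_of_mem h4, Set.indicator_of_mem h6, one_mul, mul_comm]
          _ ≤ (fat (32 * 2 ^ ii m) (R m)).indicator (fun _ => 1) w *
              ∑ s ∈ Finset.range S, ENNReal.ofReal (2 ^ s) *
                {z | z ∈ B m ∧ lo z = s ∧ s < hi' z ∧ jx s z.1 = jx s w.1}.indicator
                  (fun z => ENNReal.ofReal |h z|) z := by
              gcongr
              exact Finset.single_le_sum (f := fun s => ENNReal.ofReal (2 ^ s) *
                {z | z ∈ B m ∧ lo z = s ∧ s < hi' z ∧ jx s z.1 = jx s w.1}.indicator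
                  (fun z => ENNReal.ofReal |h z|) z) (fun _ _ => bot_le) hS
          _ ≤ _ := Finset.single_le_sum (f := fun m =>
              (fat (32 * 2 ^ ii m) (R m)).indicator (fun _ => 1) w *
              ∑ s ∈ Finset.range S, ENNReal.ofReal (2 ^ s) *
                {z | z ∈ B m ∧ lo z = s ∧ s < hi' z ∧ jx s z.1 = jx s w.1}.indicator
                  (fun z => ENNReal.ofReal |h z|) z) (fun _ _ => bot_le) (Finset.mem_univ m)
      · rw [Set.indicator_of_notMem hw, mul_zero]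
        exact bot_le
    · rw [Set.indicator_of_notMem hz]
      exact bot_le
  have hm1 : ∀ m s, Measurable fun z => ENNReal.ofReal (2 ^ s) *
      {z | z ∈ B m ∧ lo z = s ∧ s < hi' z ∧ jx s z.1 = jx s w.1}.indicator
        (fun z => ENNReal.ofReal |h z|) z := fun m s =>
    measurable_const.mul (hmh.indicator (hms m s))
  calc FF U h lo hi' w
      = ∫⁻ z, (kept h lo hi').indicator (fun z => ENNReal.ofReal |h z| *
          ENNReal.ofReal (2 ^ lo z) * (fat 1 (R0 U (lo z) z)).indicator (fun _ => 1) w) z := by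
        rw [FF, lintegral_indicator (measurableSet_kept hh.1 hc.1 hhi')]
    _ ≤ ∫⁻ z, ∑ m, (fat (32 * 2 ^ ii m) (R m)).indicator (fun _ => 1) w *
        ∑ s ∈ Finset.range S, ENNReal.ofReal (2 ^ s) *
          {z | z ∈ B m ∧ lo z = s ∧ s < hi' z ∧ jx s z.1 = jx s w.1}.indicator
            (fun z => ENNReal.ofReal |h z|) z := lintegral_mono key
    _ = ∑ m, (fat (32 * 2 ^ ii m) (R m)).indicator (fun _ => 1) w *
        ∑ s ∈ Finset.range S, ENNReal.ofReal (2 ^ s) *
          ∫⁻ z in {z | z ∈ B m ∧ lo z = s ∧ s < hi' z ∧ jx s z.1 = jx s w.1},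
            ENNReal.ofReal |h z| := by
        have hm2 : ∀ m, Measurable fun z => ∑ s ∈ Finset.range S, ENNReal.ofReal (2 ^ s) *
            {z | z ∈ B m ∧ lo z = s ∧ s < hi' z ∧ jx s z.1 = jx s w.1}.indicator
              (fun z => ENNReal.ofReal |h z|) z := fun m =>
          Finset.measurable_fun_sum _ fun s _ => hm1 m s
        have hm3 : ∀ m, Measurable fun z => (fat (32 * 2 ^ ii m) (R m)).indicator
            (fun _ => (1 : ℝ≥0∞)) w * ∑ s ∈ Finset.range S, ENNReal.ofReal (2 ^ s) *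
            {z | z ∈ B m ∧ lo z = s ∧ s < hi' z ∧ jx s z.1 = jx s w.1}.indicator
              (fun z => ENNReal.ofReal |h z|) z := fun m => measurable_const.mul (hm2 m)
        rw [lintegral_finsetSum _ fun m _ => hm3 m]
        refine Finset.sum_congr rfl fun m _ => ?_
        rw [lintegral_const_mul _ (hm2 m), lintegral_finsetSum _ fun s _ => hm1 m s]
        congr 1
        refine Finset.sum_congr rfl fun s _ => ?_
        rw [lintegral_const_mul _ (hmh.indicator (hms m s)), lintegral_indicator (hms m s)]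
    _ ≤ ∑ m, (fat (32 * 2 ^ ii m) (R m)).indicator (fun _ => b m) w := by
        refine Finset.sum_le_sum fun m _ => ?_
        by_cases hw : w ∈ fat (32 * 2 ^ ii m) (R m)
        · rw [Set.indicator_of_mem hw, Set.indicator_of_mem hw, one_mul]
          exact hb m w.1
        · rw [Set.indicator_of_notMem hw, Set.indicator_of_notMem hw, zero_mul]

/-- Tonelli: the mass of the short side against the long side -/
theorem swap {U h : ℝ × ℝ → ℝ} {lo hi' : ℝ × ℝ → ℕ} (hU : Measurable U) (hh : Measurable h)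
    (hlo : Measurable lo) (hhi : Measurable hi') {W : ℝ × ℝ → ℝ≥0∞} (hW : Measurable W) :
    ∫⁻ z in kept h lo hi', ENNReal.ofReal |h z| * ENNReal.ofReal (2 ^ lo z) *
      ∫⁻ w in fat 1 (R0 U (lo z) z), W w = ∫⁻ w, W w * FF U h lo hi' w := by
  have hown := measurableSet_own hU hlo
  have h2 : Measurable fun z : ℝ × ℝ => ENNReal.ofReal |h z| * ENNReal.ofReal (2 ^ lo z) := by
    have h3 : Measurable fun z : ℝ × ℝ => ENNReal.ofReal ((2 : ℝ) ^ lo z) :=
      ((measurable_of_countable (fun n : ℕ => ENNReal.ofReal ((2 : ℝ) ^ n))).comp hlo)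
    exact (continuous_abs.measurable.comp hh).ennreal_ofReal.mul h3
  have hfat : ∀ z, MeasurableSet (fat 1 (R0 U (lo z) z)) := fun z =>
    (measurable_prodMk_left (x := z)) hown
  have hI1 : Measurable fun p : (ℝ × ℝ) × (ℝ × ℝ) =>
      (fat 1 (R0 U (lo p.1) p.1)).indicator (fun _ => (1 : ℝ≥0∞)) p.2 := by
    have e : (fun p : (ℝ × ℝ) × (ℝ × ℝ) =>
        (fat 1 (R0 U (lo p.1) p.1)).indicator (fun _ => (1 : ℝ≥0∞)) p.2) =
        {p : (ℝ × ℝ) × (ℝ × ℝ) | p.2 ∈ fat 1 (R0 U (lo p.1) p.1)}.indicator (fun _ => 1) := by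
      funext p
      by_cases hp : p.2 ∈ fat 1 (R0 U (lo p.1) p.1)
      · rw [Set.indicator_of_mem hp, Set.indicator_of_mem (by exact hp)]
      · rw [Set.indicator_of_notMem hp, Set.indicator_of_notMem (by exact hp)]
    rw [e]
    exact measurable_const.indicator hown
  calc ∫⁻ z in kept h lo hi', ENNReal.ofReal |h z| * ENNReal.ofReal (2 ^ lo z) *
        ∫⁻ w in fat 1 (R0 U (lo z) z), W w
      = ∫⁻ z in kept h lo hi', ∫⁻ w, ENNReal.ofReal |h z| * ENNReal.ofReal (2 ^ lo z) *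
          ((fat 1 (R0 U (lo z) z)).indicator (fun _ => 1) w * W w) := by
        refine lintegral_congr fun z => ?_
        rw [lintegral_const_mul]
        · congr 1
          rw [← lintegral_indicator (hfat z)]
          refine lintegral_congr fun w => ?_
          by_cases hw : w ∈ fat 1 (R0 U (lo z) z)
          · rw [Set.indicator_of_mem hw, Set.indicator_of_mem hw, one_mul]
          · rw [Set.indicator_of_notMem hw, Set.indicator_of_notMem hw, zero_mul]
        · exact (measurable_const.indicator (hfat z)).mul hW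
    _ = ∫⁻ w, ∫⁻ z in kept h lo hi', ENNReal.ofReal |h z| * ENNReal.ofReal (2 ^ lo z) *
          ((fat 1 (R0 U (lo z) z)).indicator (fun _ => 1) w * W w) := by
        rw [lintegral_lintegral_swap]
        exact ((h2.comp measurable_fst).mul (hI1.mul (hW.comp measurable_snd))).aemeasurable
    _ = ∫⁻ w, W w * FF U h lo hi' w := by
        refine lintegral_congr fun w => ?_
        rw [FF, ← lintegral_const_mul]
        · refine lintegral_congr fun z => ?_
          ring
        · have h5 : Measurable fun z : ℝ × ℝ => (z, w) := measurable_prodMk_right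
          have h6 : Measurable ((fun p : (ℝ × ℝ) × (ℝ × ℝ) =>
            (fat 1 (R0 U (lo p.1) p.1)).indicator (fun _ => (1 : ℝ≥0∞)) p.2) ∘
            fun z : ℝ × ℝ => (z, w)) := hI1.comp h5
          exact h2.mul h6

end Crest.Agent.R087.TopFx929
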