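import Crest.Agent.R087.Tops_565

/-!
# Row 87, operator part: restriction of the tops and of the density bound to sub-chains

* `near_mono`, `near_K`  : nearness in the scale and in the constant;
* `upp_anti`, `UppAt.restrict`, `UppAt.mono_fun`;
* `top_unique`, `energy`.
-/

set_option autoImplicit false

noncomputable section

open MeasureTheory

namespace Crest.Agent.R087.TopsRx565

open Crest.Agent.R087 Sh0x283 E2x542 E2Kx752 GateDefx273 OP0x270 Topsx565

theorem near_mono {U : ℝ × ℝ → ℝ} {K b m : ℝ} {s s' : ℕ} {z : ℝ × ℝ} (hs : s ≤ s')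
    (h : near U K b m s z) : near U K b m s' z := by
  refine ⟨h.1, le_trans ?_ h.2⟩
  have h1 : (1 / 2 : ℝ) ^ s' ≤ (1 / 2) ^ s := pow_le_pow_of_le_one (by norm_num) (by norm_num) hs
  gcongr

theorem near_K {U : ℝ × ℝ → ℝ} {K K' b m : ℝ} {s : ℕ} {z : ℝ × ℝ} (hK : K ≤ K')
    (h : near U K b m s z) : near U K' b m s z := ⟨h.1.trans hK, h.2.trans hK⟩

/-- the density bound at a fine scale implies the one at the coarser scales -/
theorem upp_anti {U h : ℝ × ℝ → ℝ} {A n : ℕ} {k : ℤ} {s s' : ℕ} {z : ℝ × ℝ} (hs : s ≤ s')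
    (hu : upp U h A n k s' z) : upp U h A n k s z :=
  fun i R hR hk hz hn => hu i R hR (hk.trans hs) hz (near_mono hs hn)

/-- the density bound on a sub-chain -/
theorem UppAt_restrict {U h : ℝ × ℝ → ℝ} {A n : ℕ} {lo hi lo' hi' : ℝ × ℝ → ℕ}
    (hu : UppAt U h A n lo hi)
    (hlt : ∀ z, h z ≠ 0 → lo' z < hi' z → lo z < hi z ∧ hi' z ≤ hi z) :
    UppAt U h A n lo' hi' := by
  intro z hz hlt' k hk
  obtain ⟨h1, h2⟩ := hlt z hz hlt'
  exact upp_anti (by omega) (hu z hz h1 k hk)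

/-- the density bound for a function with smaller colours -/
theorem UppAt_mono_fun {U h h' : ℝ × ℝ → ℝ} {A n : ℕ} {lo hi : ℝ × ℝ → ℕ}
    (hu : UppAt U h A n lo hi) (hh : ∀ z, h' z ≠ 0 → h' z = h z) : UppAt U h' A n lo hi := by
  have hcol : ∀ k, col h' k ⊆ col h k := by
    rintro k z ⟨h1, h2⟩
    have hz : h' z ≠ 0 := by
      intro h0
      rw [h0, abs_zero] at h1
      have : (0 : ℝ) < 2 ^ k := by positivity
      linarith
    rw [hh z hz] at h1 h2
    exact ⟨h1, h2⟩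
  intro z hz hlt k hk i R hR hRk hzR hn
  have h0 : h z ≠ 0 := by rw [← hh z hz]; exact hz
  refine le_trans ?_ (hu z h0 hlt k (hcol k hk) i R hR hRk hzR hn)
  apply ENNReal.toReal_mono
  · exact ne_top_of_le_ne_top (fat_ne_top (2 ^ i) R) (measure_mono (fun w hw => hw.2.1))
  · exact measure_mono (Set.inter_subset_inter_left _ (hcol k))

/-- the tops of the function `h` restricted to a measurable set (the chain is unchanged) -/
theorem IsTops_fun {U h h' : ℝ × ℝ → ℝ} {A n : ℕ} {lo hi : ℝ × ℝ → ℕ} {N : ℕ}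
    {R : Fin N → Tube} {k : Fin N → ℤ} {i : Fin N → ℕ} {E B : Fin N → Set (ℝ × ℝ)}
    (hT : IsTops U h A n lo hi N R k i E B) (hh' : Measurable h')
    (hh : ∀ z, h' z ≠ 0 → h' z = h z) {m : Fin N} {z : ℝ × ℝ} (hz : z ∈ B m ∩ {z | h' z ≠ 0}) :
    z ∈ col h' (k m) ∧ MeasurableSet (B m ∩ {z | h' z ≠ 0}) := by
  have h1 := hT.subB m hz.1
  have h2 := hh z hz.2
  refine ⟨?_, (hT.mB m).inter ((measurableSet_eq_fun hh' measurable_const).compl)⟩
  obtain ⟨h3, h4⟩ := h1
  rw [← h2] at h3 h4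
  exact ⟨h3, h4⟩

theorem top_unique {U h : ℝ × ℝ → ℝ} {A n : ℕ} {lo hi : ℝ × ℝ → ℕ} {N : ℕ}
    {R : Fin N → Tube} {k : Fin N → ℤ} {i : Fin N → ℕ} {E B : Fin N → Set (ℝ × ℝ)}
    (hT : IsTops U h A n lo hi N R k i E B) {z : ℝ × ℝ} {m m' : Fin N} (h1 : z ∈ B m)
    (h2 : z ∈ B m') : m = m' := by
  by_contra hne
  exact Set.disjoint_left.mp (hT.disB hne) h1 h2

/-- the sum over the tops of one dilation: `∑ 4^(k m) 2^(A i) 2^-n |I_m| ≤ ∫ h²` -/
theorem energy {U h : ℝ × ℝ → ℝ} (hh : Nice h) {A n : ℕ} {lo hi : ℝ × ℝ → ℕ} {N : ℕ}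
    {R : Fin N → Tube} {k : Fin N → ℤ} {i : Fin N → ℕ} {E B : Fin N → Set (ℝ × ℝ)}
    (hT : IsTops U h A n lo hi N R k i E B) (i0 : ℕ) :
    ∑ m with i m = i0, ((2 : ℝ) ^ (k m)) ^ 2 * ((1 / 2 : ℝ) ^ n * 2 ^ (A * i0) * (R m).len) ≤
      ∫ z, (h z) ^ 2 := by
  classical
  obtain ⟨h1, ⟨M, hM⟩, ⟨r, hr⟩⟩ := hh
  have hsupp : Function.support (fun z => (h z) ^ 2) ⊆ Metric.closedBall 0 r := by
    intro z hz
    rw [mem_closedBall_zero_iff]
    by_contra hcon
    push Not at hcon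
    apply hz
    show (h z) ^ 2 = 0
    rw [hr z hcon]; ring
  have hint : Integrable (fun z => (h z) ^ 2) := by
    have h2 : IntegrableOn (fun z => (h z) ^ 2) (Metric.closedBall 0 r) := by
      refine Measure.integrableOn_of_bounded (M := M ^ 2) (measure_closedBall_lt_top).ne
        (h1.pow_const 2).aestronglyMeasurable (Filter.Eventually.of_forall (fun z => ?_))
      rw [Real.norm_eq_abs, abs_pow]
      exact pow_le_pow_left₀ (abs_nonneg _) (hM z) 2
    rwa [integrableOn_iff_integrable_of_support_subset hsupp] at h2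
  have hcolfin : ∀ m, volume (E m) ≠ ⊤ := fun m =>
    ne_top_of_le_ne_top (volume_col_ne_top ⟨h1, ⟨M, hM⟩, ⟨r, hr⟩⟩ (k m))
      (measure_mono ((hT.subE m).trans Set.inter_subset_left))
  calc ∑ m with i m = i0, ((2 : ℝ) ^ (k m)) ^ 2 * ((1 / 2 : ℝ) ^ n * 2 ^ (A * i0) * (R m).len)
      ≤ ∑ m with i m = i0, ∫ z in E m, (h z) ^ 2 := by
        refine Finset.sum_le_sum (fun m hm => ?_)
        have hi0 : i m = i0 := (Finset.mem_filter.mp hm).2
        have h3 := hT.mass m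
        rw [hi0] at h3
        calc ((2 : ℝ) ^ (k m)) ^ 2 * ((1 / 2 : ℝ) ^ n * 2 ^ (A * i0) * (R m).len)
            ≤ ((2 : ℝ) ^ (k m)) ^ 2 * (volume (E m)).toReal := by gcongr
          _ = ∫ z in E m, ((2 : ℝ) ^ (k m)) ^ 2 := by
              rw [setIntegral_const, smul_eq_mul, mul_comm]; rfl
          _ ≤ ∫ z in E m, (h z) ^ 2 := by
              refine setIntegral_mono_on (integrableOn_const (hcolfin m)) hint.integrableOn
                (hT.mE m) (fun z hz => ?_)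
              have h4 := (hT.subE m hz).1.1
              rw [← sq_abs (h z)]
              gcongr
    _ = ∫ z in ⋃ m ∈ Finset.univ.filter (fun m => i m = i0), E m, (h z) ^ 2 := by
        rw [integral_biUnion_finset _ (fun m _ => hT.mE m) ?_ (fun m _ => hint.integrableOn)]
        intro m hm m' hm' hne
        have g1 := (Finset.mem_filter.mp (Finset.mem_coe.mp hm)).2
        have g2 := (Finset.mem_filter.mp (Finset.mem_coe.mp hm')).2
        exact hT.disE m m' hne (g1.trans g2.symm)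
    _ ≤ ∫ z, (h z) ^ 2 :=
        setIntegral_le_integral hint (Filter.Eventually.of_forall (fun z => sq_nonneg _))

end Crest.Agent.R087.TopsRx565
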