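import Crest.Agent.R087.TopS_929
import Crest.Agent.R087.TopP_339
import Crest.Agent.R087.TopsR_565

/-!
# Row 87, operator part, leaf TOPN, part MAIN (helper565): geometry, kernels, measurability
-/

set_option autoImplicit false

noncomputable section

open MeasureTheory

namespace Crest.Agent.R087.TopMx565

open Crest.Agent.R087 Sh0x283 E2x542 E2Kx752 GateDefx273 OP0x270 Topsx565 TopsRx565

/-- the integer tube next to the own line of the point `z`, at the scale `lo z` -/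
def R0 (U : ℝ × ℝ → ℝ) (lo : ℝ × ℝ → ℕ) (z : ℝ × ℝ) : Tube where
  k := lo z
  j := jx (lo z) z.1
  b := (round (z.2 - (round (U z) : ℝ) * z.1) : ℝ)
  m := (round (U z) : ℝ)

theorem R0_int (U : ℝ × ℝ → ℝ) (lo : ℝ × ℝ → ℕ) (z : ℝ × ℝ) : IntT (R0 U lo z) :=
  ⟨⟨_, rfl⟩, ⟨_, rfl⟩⟩

theorem mem_R0_I (U : ℝ × ℝ → ℝ) (lo : ℝ × ℝ → ℕ) (z : ℝ × ℝ) (t : ℝ) :
    t ∈ (R0 U lo z).I ↔ jx (lo z) t = jx (lo z) z.1 := mem_I_iff _ _

/-- on the cell the line of `R0` is `1`-near the own line -/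
theorem R0_line {U : ℝ × ℝ → ℝ} {lo : ℝ × ℝ → ℕ} {z : ℝ × ℝ} {t : ℝ}
    (ht : t ∈ (R0 U lo z).I) :
    |(z.2 + (t - z.1) * U z) - (R0 U lo z).line t| ≤ 1 := by
  have h1 : |t - z.1| ≤ 1 :=
    (abs_sub_le_len ht ((mem_R0_I U lo z z.1).mpr rfl)).trans (R0 U lo z).len_le_one
  have h2 : |U z - (round (U z) : ℝ)| ≤ 1 / 2 := abs_sub_round _
  have h3 := abs_sub_round (z.2 - (round (U z) : ℝ) * z.1)
  have e : (z.2 + (t - z.1) * U z) - (R0 U lo z).line t =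
      (z.2 - (round (U z) : ℝ) * z.1 - (round (z.2 - (round (U z) : ℝ) * z.1) : ℝ)) +
        (t - z.1) * (U z - (round (U z) : ℝ)) := by
    simp only [R0, Tube.line]; ring
  rw [e]
  calc _ ≤ |z.2 - (round (U z) : ℝ) * z.1 - (round (z.2 - (round (U z) : ℝ) * z.1) : ℝ)| +
        |(t - z.1) * (U z - (round (U z) : ℝ))| := abs_add_le _ _
    _ ≤ 1 / 2 + 1 * (1 / 2) := by
        rw [abs_mul]
        gcongr
    _ = 1 := by norm_num

/-- weight of a pair -/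
def XX (U : ℝ × ℝ → ℝ) (lo : ℝ × ℝ → ℕ) (z z' : ℝ × ℝ) : ℝ :=
  1 + |U z' - U z| * (1 / 2) ^ lo z' + |z'.2 - (z.2 + (z'.1 - z.1) * U z)|

/-- weight with respect to a tube -/
def YY (U : ℝ × ℝ → ℝ) (hi : ℝ × ℝ → ℕ) (R : Tube) (z' : ℝ × ℝ) : ℝ :=
  1 + |U z' - R.m| * (1 / 2) ^ (hi z' - 1) + |z'.2 - R.line z'.1|

theorem XX_one (U : ℝ × ℝ → ℝ) (lo : ℝ × ℝ → ℕ) (z z' : ℝ × ℝ) : 1 ≤ XX U lo z z' := by
  unfold XX
  have h1 : 0 ≤ |U z' - U z| * (1 / 2 : ℝ) ^ lo z' := by positivity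
  have h2 := abs_nonneg (z'.2 - (z.2 + (z'.1 - z.1) * U z))
  linarith

theorem YY_one (U : ℝ × ℝ → ℝ) (hi : ℝ × ℝ → ℕ) (R : Tube) (z' : ℝ × ℝ) : 1 ≤ YY U hi R z' := by
  unfold YY
  have h1 : 0 ≤ |U z' - R.m| * (1 / 2 : ℝ) ^ (hi z' - 1) := by positivity
  have h2 := abs_nonneg (z'.2 - R.line z'.1)
  linarith

theorem YY_le {U : ℝ × ℝ → ℝ} {lo hi : ℝ × ℝ → ℕ} {z z' : ℝ × ℝ} (h1 : hi z' = lo z' + 1)
    (h2 : jx (lo z) z'.1 = jx (lo z) z.1) :
    YY U hi (R0 U lo z) z' ≤ 5 / 2 * XX U lo z z' := by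
  have h3 := R0_line (U := U) ((mem_R0_I U lo z z'.1).mpr h2)
  have h4 : |U z' - (R0 U lo z).m| ≤ |U z' - U z| + 1 / 2 := by
    have e : U z' - (R0 U lo z).m = (U z' - U z) + (U z - (round (U z) : ℝ)) := by
      simp only [R0]; ring
    rw [e]
    exact (abs_add_le _ _).trans (by gcongr; exact abs_sub_round _)
  have h5 : |z'.2 - (R0 U lo z).line z'.1| ≤ |z'.2 - (z.2 + (z'.1 - z.1) * U z)| + 1 := by
    have e : z'.2 - (R0 U lo z).line z'.1 = (z'.2 - (z.2 + (z'.1 - z.1) * U z)) +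
        ((z.2 + (z'.1 - z.1) * U z) - (R0 U lo z).line z'.1) := by ring
    rw [e]
    exact (abs_add_le _ _).trans (by gcongr)
  have h6 : (1 / 2 : ℝ) ^ lo z' ≤ 1 := pow_le_one₀ (by norm_num) (by norm_num)
  have h7 : (0 : ℝ) < (1 / 2 : ℝ) ^ lo z' := by positivity
  have h8 := XX_one U lo z z'
  have h9 : |U z' - (R0 U lo z).m| * (1 / 2 : ℝ) ^ lo z' ≤
      |U z' - U z| * (1 / 2 : ℝ) ^ lo z' + 1 / 2 := by
    calc _ ≤ (|U z' - U z| + 1 / 2) * (1 / 2 : ℝ) ^ lo z' := by gcongr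
      _ = |U z' - U z| * (1 / 2 : ℝ) ^ lo z' + 1 / 2 * (1 / 2 : ℝ) ^ lo z' := by ring
      _ ≤ _ := by
          have : 1 / 2 * (1 / 2 : ℝ) ^ lo z' ≤ 1 / 2 := by linarith
          linarith
  have e1 : hi z' - 1 = lo z' := by omega
  have h10 : YY U hi (R0 U lo z) z' ≤ XX U lo z z' + 3 / 2 := by
    unfold YY XX
    rw [e1]
    linarith
  linarith

/-- the kernel of pairs -/
def KK (U : ℝ × ℝ → ℝ) (lo hi : ℝ × ℝ → ℕ) (z z' : ℝ × ℝ) : ENNReal :=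
  if lo z < hi z ∧ lo z' < hi z' ∧ lo z ≤ lo z' ∧ jx (lo z) z'.1 = jx (lo z) z.1 then
    ENNReal.ofReal (2 ^ lo z / XX U lo z z' ^ qq) else 0

theorem measurable_jx {X : Type*} [MeasurableSpace X] {f : X → ℕ} {g : X → ℝ} (hf : Measurable f)
    (hg : Measurable g) : Measurable (fun x => jx (f x) (g x)) := by
  unfold jx
  have h1 : Measurable (fun x => (2 : ℝ) ^ f x) :=
    (measurable_from_top (f := fun n : ℕ => (2 : ℝ) ^ n)).comp hf
  exact (h1.mul hg).floor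

theorem measurable_XX {U : ℝ × ℝ → ℝ} {lo : ℝ × ℝ → ℕ} (hU : Measurable U) (hlo : Measurable lo) :
    Measurable (fun p : (ℝ × ℝ) × (ℝ × ℝ) => XX U lo p.1 p.2) := by
  unfold XX
  have h1 : Measurable (fun p : (ℝ × ℝ) × (ℝ × ℝ) => (1 / 2 : ℝ) ^ lo p.2) :=
    (measurable_from_top (f := fun n : ℕ => (1 / 2 : ℝ) ^ n)).comp (hlo.comp measurable_snd)
  have h2 : Measurable (fun p : (ℝ × ℝ) × (ℝ × ℝ) => U p.2) := hU.comp measurable_snd
  have h3 : Measurable (fun p : (ℝ × ℝ) × (ℝ × ℝ) => U p.1) := hU.comp measurable_fst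
  have h4 : Measurable (fun p : (ℝ × ℝ) × (ℝ × ℝ) => |U p.2 - U p.1|) :=
    (h2.sub h3).abs
  have h5 : Measurable (fun p : (ℝ × ℝ) × (ℝ × ℝ) =>
      |p.2.2 - (p.1.2 + (p.2.1 - p.1.1) * U p.1)|) := by
    have : Measurable (fun p : (ℝ × ℝ) × (ℝ × ℝ) =>
      p.2.2 - (p.1.2 + (p.2.1 - p.1.1) * U p.1)) := by fun_prop
    exact this.abs
  exact (measurable_const.add (h4.mul h1)).add h5

theorem measurable_KK {U : ℝ × ℝ → ℝ} {lo hi : ℝ × ℝ → ℕ} (hU : Measurable U)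
    (hlo : Measurable lo) (hhi : Measurable hi) :
    Measurable (fun p : (ℝ × ℝ) × (ℝ × ℝ) => KK U lo hi p.1 p.2) := by
  unfold KK
  have a1 : Measurable (fun p : (ℝ × ℝ) × (ℝ × ℝ) => lo p.1) := hlo.comp measurable_fst
  have a2 : Measurable (fun p : (ℝ × ℝ) × (ℝ × ℝ) => lo p.2) := hlo.comp measurable_snd
  have a3 : Measurable (fun p : (ℝ × ℝ) × (ℝ × ℝ) => hi p.1) := hhi.comp measurable_fst
  have a4 : Measurable (fun p : (ℝ × ℝ) × (ℝ × ℝ) => hi p.2) := hhi.comp measurable_snd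
  have b1 : MeasurableSet {p : (ℝ × ℝ) × (ℝ × ℝ) | lo p.1 < hi p.1} := measurableSet_lt a1 a3
  have b2 : MeasurableSet {p : (ℝ × ℝ) × (ℝ × ℝ) | lo p.2 < hi p.2} := measurableSet_lt a2 a4
  have b3 : MeasurableSet {p : (ℝ × ℝ) × (ℝ × ℝ) | lo p.1 ≤ lo p.2} := measurableSet_le a1 a2
  have b4 : MeasurableSet {p : (ℝ × ℝ) × (ℝ × ℝ) | jx (lo p.1) p.2.1 = jx (lo p.1) p.1.1} :=
    measurableSet_eq_fun (measurable_jx a1 (measurable_fst.comp measurable_snd))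
      (measurable_jx a1 (measurable_fst.comp measurable_fst))
  refine Measurable.ite (b1.inter (b2.inter (b3.inter b4))) ?_ measurable_const
  have c1 : Measurable (fun p : (ℝ × ℝ) × (ℝ × ℝ) => (2 : ℝ) ^ lo p.1) :=
    (measurable_from_top (f := fun n : ℕ => (2 : ℝ) ^ n)).comp a1
  exact (c1.div ((measurable_XX hU hlo).pow_const qq)).ennreal_ofReal

/-- the kernel of the tubes -/
def FK (U : ℝ × ℝ → ℝ) (lo hi : ℝ × ℝ → ℕ) (z w : ℝ × ℝ) : ENNReal :=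
  if lo z < hi z ∧ jx (lo z) w.1 = jx (lo z) z.1 ∧ |w.2 - (R0 U lo z).line w.1| ≤ 1 then
    ENNReal.ofReal (2 ^ lo z) else 0

theorem measurable_R0_line {U : ℝ × ℝ → ℝ} (lo : ℝ × ℝ → ℕ) (hU : Measurable U) :
    Measurable (fun p : (ℝ × ℝ) × (ℝ × ℝ) => (R0 U lo p.1).line p.2.1) := by
  have h1 : Measurable (fun x : ℝ => (round x : ℝ)) := by
    have : (fun x : ℝ => (round x : ℝ)) = fun x : ℝ => ((⌊x + 1 / 2⌋ : ℤ) : ℝ) := by
      funext x; rw [round_eq]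
    rw [this]
    have h2 : Measurable (fun x : ℝ => ⌊x + 1 / 2⌋) := (measurable_id.add_const _).floor
    exact (measurable_from_top (f := fun n : ℤ => (n : ℝ))).comp h2
  have h2 : Measurable (fun p : (ℝ × ℝ) × (ℝ × ℝ) => (round (U p.1) : ℝ)) :=
    h1.comp (hU.comp measurable_fst)
  have h3 : Measurable (fun p : (ℝ × ℝ) × (ℝ × ℝ) =>
      (round (p.1.2 - (round (U p.1) : ℝ) * p.1.1) : ℝ)) := by
    refine h1.comp ?_
    exact (measurable_snd.comp measurable_fst).sub (h2.mul (measurable_fst.comp measurable_fst))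
  simp only [Tube.line, R0]
  exact h3.add (h2.mul (measurable_fst.comp measurable_snd))

theorem measurable_FK {U : ℝ × ℝ → ℝ} {lo hi : ℝ × ℝ → ℕ} (hU : Measurable U)
    (hlo : Measurable lo) (hhi : Measurable hi) :
    Measurable (fun p : (ℝ × ℝ) × (ℝ × ℝ) => FK U lo hi p.1 p.2) := by
  unfold FK
  have a1 : Measurable (fun p : (ℝ × ℝ) × (ℝ × ℝ) => lo p.1) := hlo.comp measurable_fst
  have a3 : Measurable (fun p : (ℝ × ℝ) × (ℝ × ℝ) => hi p.1) := hhi.comp measurable_fst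
  have b1 : MeasurableSet {p : (ℝ × ℝ) × (ℝ × ℝ) | lo p.1 < hi p.1} := measurableSet_lt a1 a3
  have b4 : MeasurableSet {p : (ℝ × ℝ) × (ℝ × ℝ) | jx (lo p.1) p.2.1 = jx (lo p.1) p.1.1} :=
    measurableSet_eq_fun (measurable_jx a1 (measurable_fst.comp measurable_snd))
      (measurable_jx a1 (measurable_fst.comp measurable_fst))
  have b5 : MeasurableSet {p : (ℝ × ℝ) × (ℝ × ℝ) | |p.2.2 - (R0 U lo p.1).line p.2.1| ≤ 1} :=
    measurableSet_le ((measurable_snd.comp measurable_snd).sub (measurable_R0_line lo hU)).abs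
      measurable_const
  refine Measurable.ite (b1.inter (b4.inter b5)) ?_ measurable_const
  have c1 : Measurable (fun p : (ℝ × ℝ) × (ℝ × ℝ) => (2 : ℝ) ^ lo p.1) :=
    (measurable_from_top (f := fun n : ℕ => (2 : ℝ) ^ n)).comp a1
  exact c1.ennreal_ofReal

theorem measurableSet_fat (K : ℝ) (R : Tube) : MeasurableSet (fat K R) := by
  have h1 : MeasurableSet {z : ℝ × ℝ | z.1 ∈ R.I} := measurable_fst R.measurableSet_I
  have h2 : MeasurableSet {z : ℝ × ℝ | |z.2 - R.line z.1| ≤ K} := by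
    apply measurableSet_le _ measurable_const
    have := R.measurable_line
    fun_prop
  exact h1.inter h2

end Crest.Agent.R087.TopMx565
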