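import Crest.Agent.R087.TopMa_565

/-!
# Row 87, operator part, leaf TOPN, part MAIN (helper565): the estimates
-/

set_option autoImplicit false

noncomputable section

open MeasureTheory

namespace Crest.Agent.R087.TopMx565

open Crest.Agent.R087 Sh0x283 E2x542 E2Kx752 GateDefx273 OP0x270 Topsx565 TopsRx565

/-- the double integral -/
def QQ (U h : ℝ × ℝ → ℝ) (lo hi : ℝ × ℝ → ℕ) : ENNReal :=
  ∫⁻ z', ENNReal.ofReal |h z'| * ∫⁻ z, ENNReal.ofReal |h z| * KK U lo hi z z'

theorem pair_le {ζ ω : ℝ → ℝ} {U h : ℝ × ℝ → ℝ} {lo hi : ℝ × ℝ → ℕ} {C : ℝ} (hC : 0 ≤ C)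
    (hP : ∀ s s' : ℕ, s ≤ s' → ∀ z z' : ℝ × ℝ,
      |pr (ph ω) ζ U s s' z z'| ≤ C * 2 ^ s /
        (1 + |U z' - U z| * (1 / 2) ^ s' + |z'.2 - (z.2 + (z'.1 - z.1) * U z)|) ^ qq ∧
      (jx s z'.1 ≠ jx s z.1 → pr (ph ω) ζ U s s' z z' = 0))
    (hone : ∀ z, hi z ≤ lo z + 1) (z' : ℝ × ℝ) :
    ‖h z' * Pair (ph ω) ζ U Set.univ lo hi h (lo z') (hi z') z'‖ₑ ≤
      ENNReal.ofReal C *
        (ENNReal.ofReal |h z'| * ∫⁻ z, ENNReal.ofReal |h z| * KK U lo hi z z') := by
  by_cases hlt : lo z' < hi z'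
  · have e1 : hi z' = lo z' + 1 := by have := hone z'; omega
    have e2 : Finset.Ico (lo z') (hi z') = {lo z'} := by rw [e1]; simp
    unfold Pair
    rw [e2, Finset.sum_singleton, enorm_mul, Real.enorm_eq_ofReal_abs (h z')]
    rw [mul_left_comm]
    gcongr
    refine (enorm_integral_le_lintegral_enorm _).trans ?_
    rw [← lintegral_const_mul' _ _ ENNReal.ofReal_ne_top]
    refine lintegral_mono (fun z => ?_)
    rw [Set.indicator_univ, enorm_mul, Real.enorm_eq_ofReal_abs (h z), mul_left_comm]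
    gcongr
    by_cases hz : lo z < hi z
    · have e3 : hi z = lo z + 1 := by have := hone z; omega
      have e4 : Finset.Ico (lo z) (hi z) = {lo z} := by rw [e3]; simp
      rw [e4, Finset.sum_singleton]
      unfold cc
      by_cases hle : lo z ≤ lo z'
      · rw [if_pos hle, one_mul]
        obtain ⟨h1, h2⟩ := hP (lo z) (lo z') hle z z'
        unfold KK
        by_cases hj : jx (lo z) z'.1 = jx (lo z) z.1
        · rw [if_pos ⟨hz, hlt, hle, hj⟩, Real.enorm_eq_ofReal_abs, ← ENNReal.ofReal_mul hC]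
          apply ENNReal.ofReal_le_ofReal
          refine h1.trans (le_of_eq ?_)
          unfold XX
          rw [mul_div_assoc]
        · rw [h2 hj, enorm_zero]
          exact zero_le
      · rw [if_neg hle, zero_mul, enorm_zero]
        exact zero_le
    · have e4 : Finset.Ico (lo z) (hi z) = ∅ := Finset.Ico_eq_empty hz
      rw [e4, Finset.sum_empty, enorm_zero]
      exact zero_le
  · have e2 : Finset.Ico (lo z') (hi z') = ∅ := Finset.Ico_eq_empty hlt
    unfold Pair
    rw [e2, Finset.sum_empty, mul_zero, enorm_zero]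
    exact zero_le

/-- Tonelli -/
theorem QQ_swap {U h : ℝ × ℝ → ℝ} {lo hi : ℝ × ℝ → ℕ} (hU : Measurable U) (hh : Measurable h)
    (hlo : Measurable lo) (hhi : Measurable hi) :
    QQ U h lo hi =
      ∫⁻ z, ENNReal.ofReal |h z| * ∫⁻ z', ENNReal.ofReal |h z'| * KK U lo hi z z' := by
  have m0 : Measurable (fun z : ℝ × ℝ => ENNReal.ofReal |h z|) := hh.abs.ennreal_ofReal
  have mK := measurable_KK hU hlo hhi
  have e1 : QQ U h lo hi = ∫⁻ z', ∫⁻ z,
      ENNReal.ofReal |h z'| * (ENNReal.ofReal |h z| * KK U lo hi z z') := by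
    unfold QQ
    refine lintegral_congr (fun z' => ?_)
    rw [lintegral_const_mul' _ _ ENNReal.ofReal_ne_top]
  rw [e1, lintegral_lintegral_swap]
  · refine lintegral_congr (fun z => ?_)
    rw [← lintegral_const_mul' _ _ ENNReal.ofReal_ne_top]
    refine lintegral_congr (fun z' => ?_)
    rw [mul_left_comm]
  · apply Measurable.aemeasurable
    have h1 : Measurable (fun p : (ℝ × ℝ) × (ℝ × ℝ) => KK U lo hi p.2 p.1) :=
      mK.comp measurable_swap
    exact (m0.comp measurable_fst).mul ((m0.comp measurable_snd).mul h1)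

/-- integrability of a bounded multiple of a nice function -/
theorem nice_integrable {h : ℝ × ℝ → ℝ} (hh : Nice h) : Integrable h := by
  obtain ⟨h1, ⟨M, hM⟩, ⟨r, hr⟩⟩ := hh
  have hsupp : Function.support h ⊆ Metric.closedBall 0 r := by
    intro z hz
    rw [mem_closedBall_zero_iff]
    by_contra hcon
    push Not at hcon
    exact hz (hr z hcon)
  have h2 : IntegrableOn h (Metric.closedBall 0 r) := by
    refine Measure.integrableOn_of_bounded (M := M) (measure_closedBall_lt_top).ne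
      h1.aestronglyMeasurable (Filter.Eventually.of_forall (fun z => ?_))
    rw [Real.norm_eq_abs]
    exact hM z
  rwa [integrableOn_iff_integrable_of_support_subset hsupp] at h2

theorem nice_sq {h : ℝ × ℝ → ℝ} (hh : Nice h) : Nice (fun z => (h z) ^ 2) := by
  obtain ⟨h1, ⟨M, hM⟩, ⟨r, hr⟩⟩ := hh
  refine ⟨h1.pow_const 2, ⟨M ^ 2, fun z => ?_⟩, ⟨r, fun z hz => ?_⟩⟩
  · rw [abs_pow]
    exact pow_le_pow_left₀ (abs_nonneg _) (hM z) 2
  · simp only [hr z hz]
    norm_num

/-- the inner integral -/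
theorem inner_le {U h W : ℝ × ℝ → ℝ} {lo hi : ℝ × ℝ → ℕ} (hU : Measurable U) (hh : Nice h)
    (hlo : Measurable lo) (hhi : Measurable hi) (hone : ∀ z, hi z ≤ lo z + 1)
    (hW0 : ∀ w, 0 ≤ W w)
    (hW : ∀ R : Tube, IntT R → IntegrableOn W (fat 1 R) ∧
        ∫ z in {z | z.1 ∈ R.I ∧ lo z < hi z ∧ R.k < hi z},
          |h z| / (1 + |U z - R.m| * (1 / 2 : ℝ) ^ (hi z - 1) + |z.2 - R.line z.1|) ^ qq ≤
          ∫ w in fat 1 R, W w) (z : ℝ × ℝ) :
    ∫⁻ z', ENNReal.ofReal |h z'| * KK U lo hi z z' ≤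
      ENNReal.ofReal ((5 / 2) ^ qq) * ∫⁻ w, FK U lo hi z w * ENNReal.ofReal (W w) := by
  by_cases hz : lo z < hi z
  swap
  · have e : ∀ z', ENNReal.ofReal |h z'| * KK U lo hi z z' = 0 := by
      intro z'
      unfold KK
      rw [if_neg (fun hc => hz hc.1), mul_zero]
    simp only [e, lintegral_zero]
    exact zero_le
  set R := R0 U lo z with hR
  obtain ⟨hWi, hWle⟩ := hW R (R0_int U lo z)
  set T : Set (ℝ × ℝ) := {z | z.1 ∈ R.I ∧ lo z < hi z ∧ R.k < hi z} with hT
  have hTm : MeasurableSet T := by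
    have a1 : MeasurableSet {z : ℝ × ℝ | z.1 ∈ R.I} := measurable_fst R.measurableSet_I
    have a2 : MeasurableSet {z : ℝ × ℝ | lo z < hi z} := measurableSet_lt hlo hhi
    have a3 : MeasurableSet {z : ℝ × ℝ | R.k < hi z} := measurableSet_lt measurable_const hhi
    exact a1.inter (a2.inter a3)
  -- integrability of the weighted function
  have hYm : Measurable (fun z' => YY U hi R z') := by
    unfold YY
    have h1 : Measurable (fun z' : ℝ × ℝ => (1 / 2 : ℝ) ^ (hi z' - 1)) :=
      (measurable_from_top (f := fun n : ℕ => (1 / 2 : ℝ) ^ (n - 1))).comp hhi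
    have h2 : Measurable (fun z' : ℝ × ℝ => |U z' - R.m|) := (hU.sub_const _).abs
    have h3 : Measurable (fun z' : ℝ × ℝ => |z'.2 - R.line z'.1|) :=
      (measurable_snd.sub (R.measurable_line.comp measurable_fst)).abs
    exact (measurable_const.add (h2.mul h1)).add h3
  have hint : Integrable (fun z' => |h z'| / YY U hi R z' ^ qq) := by
    refine Integrable.mono' (nice_integrable hh).norm
      (hh.1.abs.div (hYm.pow_const qq)).aestronglyMeasurable
      (Filter.Eventually.of_forall (fun z' => ?_))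
    have h1 := YY_one U hi R z'
    have h2 : 1 ≤ YY U hi R z' ^ qq := one_le_pow₀ h1
    rw [Real.norm_eq_abs, abs_div, abs_abs, abs_of_pos (lt_of_lt_of_le one_pos h2),
      Real.norm_eq_abs]
    exact div_le_self (abs_nonneg _) h2
  have hpt : ∀ z', ENNReal.ofReal |h z'| * KK U lo hi z z' ≤
      ENNReal.ofReal (2 ^ lo z) * (ENNReal.ofReal ((5 / 2) ^ qq) *
        T.indicator (fun z' => ENNReal.ofReal (|h z'| / YY U hi R z' ^ qq)) z') := by
    intro z'
    unfold KK
    split_ifs with hc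
    · obtain ⟨-, c2, c3, c4⟩ := hc
      have hz'T : z' ∈ T := by
        refine ⟨(mem_R0_I U lo z z'.1).mpr c4, c2, ?_⟩
        show lo z < hi z'
        omega
      rw [Set.indicator_of_mem hz'T, ← ENNReal.ofReal_mul (by positivity),
        ← ENNReal.ofReal_mul (by positivity), ← ENNReal.ofReal_mul (by positivity)]
      apply ENNReal.ofReal_le_ofReal
      have e1 : hi z' = lo z' + 1 := by have := hone z'; omega
      have h1 := YY_le (U := U) e1 c4
      have h2 := YY_one U hi R z'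
      have h3 := XX_one U lo z z'
      have h4 : YY U hi R z' ^ qq ≤ (5 / 2) ^ qq * XX U lo z z' ^ qq := by
        rw [← mul_pow]
        exact pow_le_pow_left₀ (by linarith) h1 qq
      have h5 : 0 < YY U hi R z' ^ qq := by positivity
      have h6 : 0 < XX U lo z z' ^ qq := by positivity
      have h7 : 1 / XX U lo z z' ^ qq ≤ (5 / 2) ^ qq / YY U hi R z' ^ qq := by
        rw [div_le_div_iff₀ h6 h5, one_mul]
        exact h4
      calc |h z'| * (2 ^ lo z / XX U lo z z' ^ qq)
          = |h z'| * 2 ^ lo z * (1 / XX U lo z z' ^ qq) := by ring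
        _ ≤ |h z'| * 2 ^ lo z * ((5 / 2) ^ qq / YY U hi R z' ^ qq) := by gcongr
        _ = _ := by ring
    · rw [mul_zero]; exact zero_le
  calc ∫⁻ z', ENNReal.ofReal |h z'| * KK U lo hi z z'
      ≤ ∫⁻ z', ENNReal.ofReal (2 ^ lo z) * (ENNReal.ofReal ((5 / 2) ^ qq) *
        T.indicator (fun z' => ENNReal.ofReal (|h z'| / YY U hi R z' ^ qq)) z') :=
        lintegral_mono hpt
    _ = ENNReal.ofReal (2 ^ lo z) * (ENNReal.ofReal ((5 / 2) ^ qq) *
          ∫⁻ z' in T, ENNReal.ofReal (|h z'| / YY U hi R z' ^ qq)) := by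
        rw [lintegral_const_mul' _ _ ENNReal.ofReal_ne_top,
          lintegral_const_mul' _ _ ENNReal.ofReal_ne_top, lintegral_indicator hTm]
    _ = ENNReal.ofReal (2 ^ lo z) * (ENNReal.ofReal ((5 / 2) ^ qq) *
          ENNReal.ofReal (∫ z' in T, |h z'| / YY U hi R z' ^ qq)) := by
        rw [ofReal_integral_eq_lintegral_ofReal hint.integrableOn
          (Filter.Eventually.of_forall (fun z' => ?_))]
        have h2 : 0 ≤ YY U hi R z' := le_trans zero_le_one (YY_one U hi R z')
        exact div_nonneg (abs_nonneg _) (pow_nonneg h2 _)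
    _ ≤ ENNReal.ofReal (2 ^ lo z) * (ENNReal.ofReal ((5 / 2) ^ qq) *
          ENNReal.ofReal (∫ w in fat 1 R, W w)) := by
        gcongr
        exact hWle
    _ = ENNReal.ofReal (2 ^ lo z) * (ENNReal.ofReal ((5 / 2) ^ qq) *
          ∫⁻ w in fat 1 R, ENNReal.ofReal (W w)) := by
        rw [ofReal_integral_eq_lintegral_ofReal hWi
          (Filter.Eventually.of_forall (fun w => hW0 w))]
    _ = ENNReal.ofReal ((5 / 2) ^ qq) * ∫⁻ w, FK U lo hi z w * ENNReal.ofReal (W w) := by
        rw [mul_left_comm]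
        congr 1
        rw [← lintegral_indicator (measurableSet_fat 1 R),
          ← lintegral_const_mul' _ _ ENNReal.ofReal_ne_top]
        refine lintegral_congr (fun w => ?_)
        unfold FK
        by_cases hw : w ∈ fat 1 R
        · rw [Set.indicator_of_mem hw, if_pos]
          exact ⟨hz, (mem_R0_I U lo z w.1).mp hw.1, hw.2⟩
        · rw [Set.indicator_of_notMem hw, mul_zero, if_neg, zero_mul]
          rintro ⟨-, h2, h3⟩
          exact hw ⟨(mem_R0_I U lo z w.1).mpr h2, h3⟩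

/-- the sum of the own tubes of the points is at most the sum of the fat tops -/
theorem F_le {U h : ℝ × ℝ → ℝ} {n S : ℕ} {lo hi : ℝ × ℝ → ℕ} (hh : Nice h)
    (hC : Chain S lo hi) {N : ℕ} {R : Fin N → Tube} {kk : Fin N → ℤ} {ii : Fin N → ℕ}
    {E B : Fin N → Set (ℝ × ℝ)} (hI : IsTops U h AA n lo hi N R kk ii E B) {c : Fin N → ENNReal}
    (hc : ∀ (m : Fin N) (x : ℝ), ∑ s ∈ Finset.range S, ENNReal.ofReal (2 ^ s) *
            ∫⁻ z in {z | z ∈ B m ∧ lo z = s ∧ s < hi z ∧ jx s z.1 = jx s x},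
              ENNReal.ofReal |h z| ≤ c m) (w : ℝ × ℝ) :
    ∫⁻ z, ENNReal.ofReal |h z| * FK U lo hi z w ≤
      ∑ m, c m * (fat (32 * 2 ^ ii m) (R m)).indicator 1 w := by
  obtain ⟨hlo, hhi, hS⟩ := hC
  have m0 : Measurable (fun z : ℝ × ℝ => ENNReal.ofReal |h z|) := hh.1.abs.ennreal_ofReal
  set Z : Fin N → ℕ → Set (ℝ × ℝ) := fun m s =>
    {z | z ∈ B m ∧ lo z = s ∧ s < hi z ∧ jx s z.1 = jx s w.1} with hZ
  have hZm : ∀ m s, MeasurableSet (Z m s) := by
    intro m s
    have a2 : MeasurableSet {z : ℝ × ℝ | lo z = s} := measurableSet_eq_fun hlo measurable_const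
    have a3 : MeasurableSet {z : ℝ × ℝ | s < hi z} := measurableSet_lt measurable_const hhi
    have a4 : MeasurableSet {z : ℝ × ℝ | jx s z.1 = jx s w.1} :=
      measurableSet_eq_fun (measurable_jx measurable_const measurable_fst) measurable_const
    exact (hI.mB m).inter (a2.inter (a3.inter a4))
  have hpt : ∀ z, ENNReal.ofReal |h z| * FK U lo hi z w ≤
      ∑ m, (∑ s ∈ Finset.range S, ENNReal.ofReal (2 ^ s) *
        (Z m s).indicator (fun z => ENNReal.ofReal |h z|) z) *
          (fat (32 * 2 ^ ii m) (R m)).indicator 1 w := by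
    intro z
    by_cases h0 : h z = 0
    · rw [h0, abs_zero, ENNReal.ofReal_zero, zero_mul]
      exact zero_le
    unfold FK
    split_ifs with hcond
    swap
    · rw [mul_zero]; exact zero_le
    obtain ⟨h1, h2, h3⟩ := hcond
    obtain ⟨m, hm⟩ := hI.unB z h0 h1
    obtain ⟨t1, t2, t3, t4⟩ := hI.top m z hm h1
    -- the point `w` lies in the fat top
    have hw : w ∈ fat (32 * 2 ^ ii m) (R m) := by
      have hwR0 : w.1 ∈ (R0 U lo z).I := (mem_R0_I U lo z w.1).mpr h2
      have hzR0 : z.1 ∈ (R0 U lo z).I := (mem_R0_I U lo z z.1).mpr rfl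
      have hwI : w.1 ∈ (R m).I := I_subset (R0 := R0 U lo z) (R1 := R m) t2 hzR0 t1 hwR0
      refine ⟨hwI, ?_⟩
      have g1 := R0_line (U := U) hwR0
      have g2 : |w.1 - z.1| ≤ (1 / 2) ^ lo z := abs_sub_le_len hwR0 hzR0
      have g3 : (1 : ℝ) ≤ 2 ^ ii m := one_le_pow₀ (by norm_num)
      have g4 : |(w.1 - z.1) * (U z - (R m).m)| ≤ 5 * 2 ^ ii m := by
        rw [abs_mul, mul_comm]
        calc |U z - (R m).m| * |w.1 - z.1| ≤ |U z - (R m).m| * (1 / 2) ^ lo z := by gcongr
          _ ≤ 5 * 2 ^ ii m := t4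
      have e : w.2 - (R m).line w.1 = (w.2 - (R0 U lo z).line w.1) +
          (-((z.2 + (w.1 - z.1) * U z) - (R0 U lo z).line w.1) +
          ((z.2 - ((R m).b + (R m).m * z.1)) + (w.1 - z.1) * (U z - (R m).m))) := by
        simp only [Tube.line]; ring
      rw [e]
      refine (abs_add_le _ _).trans ?_
      have g5 := abs_add_le (-((z.2 + (w.1 - z.1) * U z) - (R0 U lo z).line w.1))
          ((z.2 - ((R m).b + (R m).m * z.1)) + (w.1 - z.1) * (U z - (R m).m))
      have g6 := abs_add_le (z.2 - ((R m).b + (R m).m * z.1)) ((w.1 - z.1) * (U z - (R m).m))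
      have g7 : |-((z.2 + (w.1 - z.1) * U z) - (R0 U lo z).line w.1)| ≤ 1 := by
        rw [abs_neg]; exact g1
      linarith
    have hzZ : z ∈ Z m (lo z) := ⟨hm, rfl, h1, h2.symm⟩
    calc ENNReal.ofReal |h z| * ENNReal.ofReal (2 ^ lo z)
        = (ENNReal.ofReal (2 ^ lo z) *
        (Z m (lo z)).indicator (fun z => ENNReal.ofReal |h z|) z) *
          (fat (32 * 2 ^ ii m) (R m)).indicator 1 w := by
          rw [Set.indicator_of_mem hzZ, Set.indicator_of_mem hw, Pi.one_apply, mul_one, mul_comm]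
      _ ≤ (∑ s ∈ Finset.range S, ENNReal.ofReal (2 ^ s) *
        (Z m s).indicator (fun z => ENNReal.ofReal |h z|) z) *
          (fat (32 * 2 ^ ii m) (R m)).indicator 1 w := by
          gcongr
          refine Finset.single_le_sum (f := fun s => ENNReal.ofReal (2 ^ s) *
            (Z m s).indicator (fun z => ENNReal.ofReal |h z|) z) (fun _ _ => zero_le)
            (Finset.mem_range.mpr (lt_of_lt_of_le h1 (hS z)))
      _ ≤ _ := by
          refine Finset.single_le_sum (f := fun m => (∑ s ∈ Finset.range S, ENNReal.ofReal (2 ^ s) *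
            (Z m s).indicator (fun z => ENNReal.ofReal |h z|) z) *
              (fat (32 * 2 ^ ii m) (R m)).indicator 1 w) (fun _ _ => zero_le)
            (Finset.mem_univ m)
  have hmes : ∀ m s, Measurable (fun z => ENNReal.ofReal (2 ^ s) *
        (Z m s).indicator (fun z => ENNReal.ofReal |h z|) z) :=
    fun m s => (m0.indicator (hZm m s)).const_mul _
  have hmes2 : ∀ m, Measurable (fun z => ∑ s ∈ Finset.range S, ENNReal.ofReal (2 ^ s) *
        (Z m s).indicator (fun z => ENNReal.ofReal |h z|) z) :=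
    fun m => Finset.measurable_sum _ (fun s _ => hmes m s)
  refine (lintegral_mono hpt).trans ?_
  rw [lintegral_finsetSum _ (fun m _ => (hmes2 m).mul_const _)]
  refine Finset.sum_le_sum (fun m _ => ?_)
  rw [lintegral_mul_const _ (hmes2 m)]
  gcongr
  rw [lintegral_finsetSum _ (fun s _ => hmes m s)]
  refine le_trans (le_of_eq ?_) (hc m w.1)
  refine Finset.sum_congr rfl (fun s _ => ?_)
  rw [lintegral_const_mul' _ _ ENNReal.ofReal_ne_top, lintegral_indicator (hZm m s)]

end Crest.Agent.R087.TopMx565
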