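import Crest.Agent.R087.TopMb_565

/-!
# Row 87, operator part, leaf TOPN, part MAIN (helper565): the literal leaf `L_TOPN`
-/

set_option autoImplicit false

noncomputable section

open MeasureTheory

namespace Crest.Agent.R087.TopMx565

open Crest.Agent.R087 Sh0x283 E2x542 E2Kx752 GateDefx273 OP0x270 Topsx565 TopsRx565

theorem cont_it {f : ℝ → ℝ} (h : ContDiff ℝ (⊤ : ℕ∞) f) (k : ℕ) :
    Continuous (iteratedDeriv k f) := h.continuous_iteratedDeriv k (by exact_mod_cast le_top)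

theorem fat_fin (K : ℝ) (R : Tube) : volume (fat K R) ≠ ⊤ := by
  rcases le_total K 1 with hK | hK
  · refine ne_top_of_le_ne_top (fat_ne_top 1 R) (measure_mono (fun z hz => ⟨hz.1, hz.2.trans hK⟩))
  · exact fat_ne_top K R

/-- the square of a weighted sum of fat tubes is integrable -/
theorem G_sq_int {N : ℕ} (c : Fin N → ℝ) (K : Fin N → ℝ) (R : Fin N → Tube) :
    Integrable (fun w => (∑ m, c m * (fat (K m) (R m)).indicator (1 : ℝ × ℝ → ℝ) w) ^ 2) := by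
  have e : (fun w => (∑ m, c m * (fat (K m) (R m)).indicator (1 : ℝ × ℝ → ℝ) w) ^ 2) =
      fun w => ∑ m, ∑ m', (c m * c m') *
        (fat (K m) (R m) ∩ fat (K m') (R m')).indicator (1 : ℝ × ℝ → ℝ) w := by
    funext w
    rw [sq, Finset.sum_mul_sum]
    refine Finset.sum_congr rfl (fun m _ => Finset.sum_congr rfl (fun m' _ => ?_))
    rw [Set.inter_indicator_one, Pi.mul_apply]
    ring
  rw [e]
  refine integrable_finsetSum _ (fun m _ => integrable_finsetSum _ (fun m' _ => ?_))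
  refine Integrable.const_mul ?_ _
  refine (integrable_indicator_iff ((measurableSet_fat _ _).inter (measurableSet_fat _ _))).mpr ?_
  refine integrableOn_const (ne_top_of_le_ne_top (fat_fin (K m) (R m))
    (measure_mono Set.inter_subset_left)) 

theorem pow_a (n : ℕ) : (2 : ℝ) ^ ((17 * (n : ℝ)) / 32) * (1 / 2 : ℝ) ^ n ≤
    (2 : ℝ) ^ (-(n : ℝ) / 4) := by
  have e : (1 / 2 : ℝ) ^ n = (2 : ℝ) ^ (-(n : ℝ)) := by
    rw [Real.rpow_neg (by norm_num), Real.rpow_natCast, one_div, inv_pow]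
  rw [e, ← Real.rpow_add (by norm_num)]
  apply Real.rpow_le_rpow_of_exponent_le (by norm_num)
  have : (0 : ℝ) ≤ n := Nat.cast_nonneg n
  linarith

theorem pow_b (n : ℕ) : ((2 : ℝ) ^ ((17 * (n : ℝ)) / 32))⁻¹ * (2 : ℝ) ^ ((n : ℝ) / 16) ≤
    (2 : ℝ) ^ (-(n : ℝ) / 4) := by
  rw [← Real.rpow_neg (by norm_num), ← Real.rpow_add (by norm_num)]
  apply Real.rpow_le_rpow_of_exponent_le (by norm_num)
  have : (0 : ℝ) ≤ n := Nat.cast_nonneg n
  linarith

/-- the kept part -/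
theorem kept {C1 C2 Co Ch Λ : ℝ} (hC1 : 0 ≤ C1) (hC2 : 0 ≤ C2) (hCo : 0 ≤ Co) (hCh : 0 ≤ Ch)
    (hΛ : 0 ≤ Λ)
    {U h W : ℝ × ℝ → ℝ} {n S : ℕ} {lo hi : ℝ × ℝ → ℕ} (hU : Measurable U) (hh : Nice h)
    (hC : Chain S lo hi) (hone : ∀ z, hi z ≤ lo z + 1)
    {N : ℕ} {R : Fin N → Tube} {kk : Fin N → ℤ} {ii : Fin N → ℕ}
    {E B : Fin N → Set (ℝ × ℝ)} (hI : IsTops U h AA n lo hi N R kk ii E B)
    (hst : ∀ (m : Fin N) (x : ℝ), ∑ s ∈ Finset.range S, ENNReal.ofReal (2 ^ s) *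
            ∫⁻ z in {z | z ∈ B m ∧ lo z = s ∧ s < hi z ∧ jx s z.1 = jx s x},
              ENNReal.ofReal |h z| ≤
            ENNReal.ofReal (C2 * Λ * (2 ^ kk m * 2 ^ (AA * ii m) * (1 / 2) ^ n)))
    (hWm : Measurable W) (hW0 : ∀ w, 0 ≤ W w) (hWi : Integrable (fun w => (W w) ^ 2))
    (hWb : ∫ w, (W w) ^ 2 ≤ Co * (1 / 2 : ℝ) ^ n * ∫ z, (h z) ^ 2)
    (hW : ∀ R : Tube, IntT R → IntegrableOn W (fat 1 R) ∧
        ∫ z in {z | z.1 ∈ R.I ∧ lo z < hi z ∧ R.k < hi z},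
          |h z| / (1 + |U z - R.m| * (1 / 2 : ℝ) ^ (hi z - 1) + |z.2 - R.line z.1|) ^ qq ≤
          ∫ w in fat 1 R, W w)
    (hG : ∫ w, (∑ m, (2 : ℝ) ^ kk m * 2 ^ (AA * ii m) * (1 / 2 : ℝ) ^ n *
        (fat (32 * 2 ^ ii m) (R m)).indicator 1 w) ^ 2 ≤
        Ch * (2 : ℝ) ^ ((n : ℝ) / 16) * ∫ z, (h z) ^ 2) :
    ENNReal.ofReal C1 * QQ U h lo hi ≤
      ENNReal.ofReal (C1 * (5 / 2) ^ qq * (C2 * Λ) * ((Co + Ch) * ((2 : ℝ) ^ (-(n : ℝ) / 4) *
        ∫ z, (h z) ^ 2))) := by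
  obtain ⟨hlo, hhi, hS⟩ := hC
  have m0 : Measurable (fun z : ℝ × ℝ => ENNReal.ofReal |h z|) := hh.1.abs.ennreal_ofReal
  have mW : Measurable (fun w : ℝ × ℝ => ENNReal.ofReal (W w)) := hWm.ennreal_ofReal
  have mF := measurable_FK hU hlo hhi
  set H : ℝ := ∫ z, (h z) ^ 2 with hH
  have hH0 : 0 ≤ H := integral_nonneg (fun z => sq_nonneg _)
  set P : ℝ := (2 : ℝ) ^ (-(n : ℝ) / 4) with hP
  have hP0 : 0 < P := Real.rpow_pos_of_pos (by norm_num) _
  set c : Fin N → ℝ := fun m => (2 : ℝ) ^ kk m * 2 ^ (AA * ii m) * (1 / 2 : ℝ) ^ n with hc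
  have hc0 : ∀ m, 0 ≤ c m := fun m => by simp only [hc]; positivity
  set G : ℝ × ℝ → ℝ := fun w => ∑ m, c m *
    (fat (32 * 2 ^ ii m) (R m)).indicator (1 : ℝ × ℝ → ℝ) w with hGdef
  have hG0 : ∀ w, 0 ≤ G w := fun w => Finset.sum_nonneg (fun m _ =>
    mul_nonneg (hc0 m) (Set.indicator_nonneg (fun _ _ => zero_le_one) _))
  have hGi : Integrable (fun w => (G w) ^ 2) := G_sq_int c _ R
  -- the function F
  have hF : ∀ w, ∫⁻ z, ENNReal.ofReal |h z| * FK U lo hi z w ≤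
      ENNReal.ofReal (C2 * Λ * G w) := by
    intro w
    refine (F_le hh ⟨hlo, hhi, hS⟩ hI hst w).trans (le_of_eq ?_)
    rw [hGdef]
    simp only []
    rw [Finset.mul_sum, ENNReal.ofReal_sum_of_nonneg]
    · refine Finset.sum_congr rfl (fun m _ => ?_)
      by_cases hw : w ∈ fat (32 * 2 ^ ii m) (R m)
      · rw [Set.indicator_of_mem hw, Set.indicator_of_mem hw, Pi.one_apply, Pi.one_apply, mul_one,
          mul_one]
      · rw [Set.indicator_of_notMem hw, Set.indicator_of_notMem hw, mul_zero, mul_zero, mul_zero,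
          ENNReal.ofReal_zero]
    · intro m _
      exact mul_nonneg (mul_nonneg hC2 hΛ)
        (mul_nonneg (hc0 m) (Set.indicator_nonneg (fun _ _ => zero_le_one) _))
  set l : ℝ := (2 : ℝ) ^ ((17 * (n : ℝ)) / 32) with hl
  have hl0 : 0 < l := Real.rpow_pos_of_pos (by norm_num) _
  -- AM-GM
  have hAM : ∫⁻ w, ENNReal.ofReal (W w) * ENNReal.ofReal (C2 * Λ * G w) ≤
      ENNReal.ofReal (C2 * Λ * ((Co + Ch) * (P * H))) := by
    have h1 : ∀ w, ENNReal.ofReal (W w) * ENNReal.ofReal (C2 * Λ * G w) ≤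
        ENNReal.ofReal (C2 * Λ * (l * (W w) ^ 2 + l⁻¹ * (G w) ^ 2)) := by
      intro w
      rw [← ENNReal.ofReal_mul (hW0 w)]
      apply ENNReal.ofReal_le_ofReal
      have h2 : W w * G w ≤ l * (W w) ^ 2 + l⁻¹ * (G w) ^ 2 := by
        have h3 : 0 ≤ (W w - l⁻¹ * G w) ^ 2 := sq_nonneg _
        have h4 : 0 ≤ l * (W w - l⁻¹ * G w) ^ 2 := by positivity
        have h5 : l * (W w - l⁻¹ * G w) ^ 2 = l * (W w) ^ 2 + l⁻¹ * (G w) ^ 2 - 2 * (W w * G w) := by
          field_simp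
          ring
        have h6 : 0 ≤ W w * G w := mul_nonneg (hW0 w) (hG0 w)
        linarith
      calc W w * (C2 * Λ * G w) = C2 * Λ * (W w * G w) := by ring
        _ ≤ _ := by gcongr
    refine (lintegral_mono h1).trans ?_
    have hi1 : Integrable (fun w => C2 * Λ * (l * (W w) ^ 2 + l⁻¹ * (G w) ^ 2)) :=
      ((hWi.const_mul l).add (hGi.const_mul l⁻¹)).const_mul _
    rw [← ofReal_integral_eq_lintegral_ofReal hi1 (Filter.Eventually.of_forall (fun w => by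
      show (0 : ℝ) ≤ C2 * Λ * (l * (W w) ^ 2 + l⁻¹ * (G w) ^ 2)
      positivity))]
    apply ENNReal.ofReal_le_ofReal
    rw [integral_const_mul, integral_add (hWi.const_mul l) (hGi.const_mul l⁻¹),
      integral_const_mul, integral_const_mul]
    have h7 : l * ∫ w, (W w) ^ 2 ≤ Co * (P * H) := by
      calc l * ∫ w, (W w) ^ 2 ≤ l * (Co * (1 / 2 : ℝ) ^ n * H) := by gcongr
        _ = Co * ((l * (1 / 2 : ℝ) ^ n) * H) := by ring
        _ ≤ Co * (P * H) := by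
            gcongr
            exact pow_a n
    have h8 : l⁻¹ * ∫ w, (G w) ^ 2 ≤ Ch * (P * H) := by
      calc l⁻¹ * ∫ w, (G w) ^ 2 ≤ l⁻¹ * (Ch * (2 : ℝ) ^ ((n : ℝ) / 16) * H) := by
            gcongr
        _ = Ch * ((l⁻¹ * (2 : ℝ) ^ ((n : ℝ) / 16)) * H) := by ring
        _ ≤ Ch * (P * H) := by
            gcongr
            exact pow_b n
    have h9 : (l * ∫ w, (W w) ^ 2) + l⁻¹ * ∫ w, (G w) ^ 2 ≤ (Co + Ch) * (P * H) := by
      rw [add_mul]; exact add_le_add h7 h8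
    gcongr
  calc ENNReal.ofReal C1 * QQ U h lo hi
      = ENNReal.ofReal C1 * ∫⁻ z, ENNReal.ofReal |h z| *
          ∫⁻ z', ENNReal.ofReal |h z'| * KK U lo hi z z' := by
        rw [QQ_swap hU hh.1 hlo hhi]
    _ ≤ ENNReal.ofReal C1 * ∫⁻ z, ENNReal.ofReal |h z| * (ENNReal.ofReal ((5 / 2) ^ qq) *
          ∫⁻ w, FK U lo hi z w * ENNReal.ofReal (W w)) := by
        gcongr with z
        exact inner_le hU hh hlo hhi hone hW0 hW z
    _ = ENNReal.ofReal C1 * (ENNReal.ofReal ((5 / 2) ^ qq) *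
          ∫⁻ z, ∫⁻ w, ENNReal.ofReal |h z| * (FK U lo hi z w * ENNReal.ofReal (W w))) := by
        congr 1
        rw [← lintegral_const_mul' _ _ ENNReal.ofReal_ne_top]
        refine lintegral_congr (fun z => ?_)
        rw [lintegral_const_mul' _ _ ENNReal.ofReal_ne_top]
        ring
    _ = ENNReal.ofReal C1 * (ENNReal.ofReal ((5 / 2) ^ qq) *
          ∫⁻ w, ENNReal.ofReal (W w) * ∫⁻ z, ENNReal.ofReal |h z| * FK U lo hi z w) := by
        rw [lintegral_lintegral_swap]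
        · congr 2
          refine lintegral_congr (fun w => ?_)
          rw [← lintegral_const_mul' _ _ ENNReal.ofReal_ne_top]
          refine lintegral_congr (fun z => ?_)
          ring
        · apply Measurable.aemeasurable
          exact (m0.comp measurable_fst).mul (mF.mul (mW.comp measurable_snd))
    _ ≤ ENNReal.ofReal C1 * (ENNReal.ofReal ((5 / 2) ^ qq) *
          ∫⁻ w, ENNReal.ofReal (W w) * ENNReal.ofReal (C2 * Λ * G w)) := by
        gcongr with w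
        exact hF w
    _ ≤ ENNReal.ofReal C1 * (ENNReal.ofReal ((5 / 2) ^ qq) *
          ENNReal.ofReal (C2 * Λ * ((Co + Ch) * (P * H)))) := by gcongr
    _ = _ := by
        rw [← ENNReal.ofReal_mul (by positivity), ← ENNReal.ofReal_mul hC1]
        congr 1
        ring

/-- **the literal leaf** -/
theorem l_topn : L_TOPN := by
  intro ζ hζ hSQ hM3 hOM hHN hRS
  obtain ⟨C1, hC1, hP⟩ := TopPx339.pairb hζ
  obtain ⟨C2, hC2, hST⟩ := TopSx929.topstop hM3 hRS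
  obtain ⟨Co, hCo, hO⟩ := hOM
  obtain ⟨c, hc, Ch, hCh, hH⟩ := hHN
  refine ⟨c, hc, max C2 (2 * (C1 * (5 / 2) ^ qq * C2 * (Co + Ch))), le_max_of_le_left hC2, ?_⟩
  intro ω hω U h n S lo hi Λ hFld hh hchain hupp hΛ N R kk ii E B hI hone
  obtain ⟨hUm, ⟨Wb, hWb⟩, -⟩ := id hFld
  have hΛ0 : (0 : ℝ) < Λ := lt_of_lt_of_le one_pos hΛ
  obtain ⟨hi', hm', hle', hrem, hkeep⟩ := hST U h n S lo hi Λ hUm hh hchain hupp hΛ N R kk ii E B hI hone
  have hH0 : (0 : ℝ) ≤ ∫ z, (h z) ^ 2 := integral_nonneg (fun z => sq_nonneg _)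
  refine ⟨hi', hm', hle', ?_, ?_⟩
  · -- the kept part
    have hone' : ∀ z, hi' z ≤ lo z + 1 := fun z => (hle' z).trans (hone z)
    have hchain' : Chain S lo hi' := ⟨hchain.1, hm', fun z => (hle' z).trans (hchain.2.2 z)⟩
    have hI' : IsTops U h AA n lo hi' N R kk ii E B :=
      hI.sub (fun z hz => ⟨le_rfl, lt_of_lt_of_le hz (hle' z)⟩)
    have hupp' : UppAt U h AA n lo hi' :=
      UppAt_restrict hupp (fun z _ hz => ⟨lt_of_lt_of_le hz (hle' z), hle' z⟩)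
    obtain ⟨W, hWm, hW0, hWi, hWle, hWR⟩ := hO n U h S lo hi' hUm hh hchain' hupp' N R kk ii E B hI'
    have hG := hH n U h lo hi' hFld hh N R kk ii E B hI'
    have hk := kept hC1 hC2 hCo hCh hΛ0.le hUm hh hchain' hone' hI' hkeep hWm hW0 hWi hWle hWR hG
    have hcont : Continuous (ph ω) := by
      unfold ph
      exact cont_it hω.1 _
    have hsupp : ∀ r, 1 < |r| → ph ω r = 0 := by
      intro r hr
      unfold ph
      have hev : ω =ᶠ[nhds r] 0 := by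
        have hopen : IsOpen {r : ℝ | 1 < |r|} := isOpen_lt continuous_const continuous_abs
        filter_upwards [hopen.mem_nhds hr] with x hx
        exact hω.2.1 x hx
      have := (hev.iteratedDeriv (2 * qq + 2)).eq_of_nhds
      rw [this]
      simp
    have hsq := hSQ (ph ω) hcont hsupp U h S lo hi' hUm ⟨Wb, hWb⟩ hh hchain'
    have hpos : 0 ≤ C1 * (5 / 2) ^ qq * (C2 * Λ) * ((Co + Ch) * ((2 : ℝ) ^ (-(n : ℝ) / 4) *
        ∫ z, (h z) ^ 2)) := by
      have : (0 : ℝ) ≤ (2 : ℝ) ^ (-(n : ℝ) / 4) := Real.rpow_nonneg (by norm_num) _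
      positivity
    have hint : ∫ z', h z' * Pair (ph ω) ζ U Set.univ lo hi' h (lo z') (hi' z') z' ≤
        C1 * (5 / 2) ^ qq * (C2 * Λ) * ((Co + Ch) * ((2 : ℝ) ^ (-(n : ℝ) / 4) *
        ∫ z, (h z) ^ 2)) := by
      rw [← ENNReal.ofReal_le_ofReal_iff hpos]
      refine le_trans ?_ hk
      calc ENNReal.ofReal (∫ z', h z' * Pair (ph ω) ζ U Set.univ lo hi' h (lo z') (hi' z') z')
          ≤ ‖∫ z', h z' * Pair (ph ω) ζ U Set.univ lo hi' h (lo z') (hi' z') z'‖ₑ := by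
            rw [Real.enorm_eq_ofReal_abs]
            exact ENNReal.ofReal_le_ofReal (le_abs_self _)
        _ ≤ ∫⁻ z', ‖h z' * Pair (ph ω) ζ U Set.univ lo hi' h (lo z') (hi' z') z'‖ₑ :=
            enorm_integral_le_lintegral_enorm _
        _ ≤ ∫⁻ z', ENNReal.ofReal C1 * (ENNReal.ofReal |h z'| *
              ∫⁻ z, ENNReal.ofReal |h z| * KK U lo hi' z z') :=
            lintegral_mono (fun z' => pair_le hC1 (hP ω hω U hUm ⟨Wb, hWb⟩) hone' z')
        _ = ENNReal.ofReal C1 * QQ U h lo hi' := by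
            rw [lintegral_const_mul' _ _ ENNReal.ofReal_ne_top]; rfl
    have h2 : (0 : ℝ) ≤ (2 : ℝ) ^ (-(n : ℝ) / 4) := Real.rpow_nonneg (by norm_num) _
    calc _ ≤ 2 * ∫ z', h z' * Pair (ph ω) ζ U Set.univ lo hi' h (lo z') (hi' z') z' := hsq
      _ ≤ 2 * (C1 * (5 / 2) ^ qq * (C2 * Λ) * ((Co + Ch) * ((2 : ℝ) ^ (-(n : ℝ) / 4) *
            ∫ z, (h z) ^ 2))) := by gcongr
      _ = (2 * (C1 * (5 / 2) ^ qq * C2 * (Co + Ch))) * Λ * (2 : ℝ) ^ (-(n : ℝ) / 4) *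
            ∫ z, (h z) ^ 2 := by ring
      _ ≤ _ := by
          gcongr
          exact le_max_right _ _
  · -- the removed part
    refine hrem.trans ?_
    gcongr
    exact le_max_left _ _

end Crest.Agent.R087.TopMx565

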