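import Crest.Agent.R087.TreeIf_153
import Crest.Agent.R087.DyaZ_738
import Crest.Agent.R087.T1_90

/-!
Row 87 (S0115), OPERATOR PART (helper153): basic facts on the coefficients `aL` of a LOW tree
(adapted, nice, jointly measurable in the vertical parameter, fundamental theorem in `v`).
-/

set_option autoImplicit false

noncomputable section

open MeasureTheory Crest.Agent.R087.Sh0x283 Crest.Agent.R087.Sh1x283 Crest.Agent.R087.GateDefx273
open Crest.Agent.R087.T1x90 Crest.Agent.R087.TreeIfx153 Crest.Agent.R087.Dyax738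
open Crest.Agent.R087.DyaZx738

namespace Crest.Agent.R087.TreeAx153

variable {Ψ : ℝ → ℝ} {b m : ℝ} {h : ℝ × ℝ → ℝ} {act : ℕ → Set (ℝ × ℝ)} {S s0 : ℕ} {m0 : ℤ}
  {Z : Set (ℝ × ℝ)} {H D : ℝ} {U : ℝ × ℝ → ℝ}

/-- population function with the vertical weight -/
def hv (Ψ : ℝ → ℝ) (b m : ℝ) (h : ℝ × ℝ → ℝ) (v : ℝ) (z : ℝ × ℝ) : ℝ := h z * Ψ (v - rv b m z)

theorem aL_eq (Ψ : ℝ → ℝ) (b m : ℝ) (h : ℝ × ℝ → ℝ) (act : ℕ → Set (ℝ × ℝ)) (s : ℕ) (v x : ℝ) :
    aL Ψ b m h act s v x = aa (hv Ψ b m h v) act s x := rfl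

theorem aL_ad (Ψ : ℝ → ℝ) (b m : ℝ) (h : ℝ × ℝ → ℝ) (act : ℕ → Set (ℝ × ℝ)) (s : ℕ) (v : ℝ) :
    Ad s (aL Ψ b m h act s v) := by
  intro x y hxy
  have : cel s x = cel s y := hxy
  unfold aL
  rw [this]

theorem measurable_rv (b m : ℝ) : Measurable (rv b m) := by unfold rv; fun_prop

theorem nice_hv (hh : Nice h) (hc : Continuous Ψ) (hb : ∀ v, |Ψ v| ≤ 1) (v : ℝ) :
    Nice (hv Ψ b m h v) := by
  obtain ⟨hm, ⟨M, hM⟩, R, hR⟩ := hh
  refine ⟨hm.mul (hc.measurable.comp (measurable_const.sub (measurable_rv b m))),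
    ⟨M, fun z => ?_⟩, R, fun z hz => ?_⟩
  · unfold hv
    rw [abs_mul]
    calc |h z| * |Ψ (v - rv b m z)| ≤ M * 1 :=
        mul_le_mul (hM z) (hb _) (abs_nonneg _) ((abs_nonneg _).trans (hM z))
      _ = M := mul_one M
  · unfold hv; rw [hR z hz, zero_mul]

theorem tree_hv (T : Tree S s0 m0 h act Z H D) (hc : Continuous Ψ) (hb : ∀ v, |Ψ v| ≤ 1) (v : ℝ) :
    Tree S s0 m0 (hv Ψ b m h v) act Z H D where
  nice := nice_hv T.nice hc hb v
  bd := fun z => by
    unfold hv
    rw [abs_mul]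
    calc |h z| * |Ψ (v - rv b m z)| ≤ |h z| * 1 := by gcongr; exact hb _
      _ ≤ H := by rw [mul_one]; exact T.bd z
  D0 := T.D0
  mZ := T.mZ
  off := fun z hz => by unfold hv; rw [T.off z hz, zero_mul]
  top := T.top
  mact := T.mact
  lo := T.lo
  hi := T.hi
  conv := T.conv
  dens := T.dens

theorem nice_aL (hh : Nice h) (hc : Continuous Ψ) (hb : ∀ v, |Ψ v| ≤ 1) (s : ℕ) (v : ℝ) :
    Nice1 (aL Ψ b m h act s v) := nice_aa (nice_hv hh hc hb v) s

theorem abs_aL_le (T : Tree S s0 m0 h act Z H D) (hH : 0 ≤ H) (hc : Continuous Ψ)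
    (hb : ∀ v, |Ψ v| ≤ 1) (s : ℕ) (v x : ℝ) : |aL Ψ b m h act s v x| ≤ H * D :=
  abs_aa_le (tree_hv T hc hb v) hH s x

theorem aL_lo (T : Tree S s0 m0 h act Z H D) {s : ℕ}
    (hs : s < s0) (v x : ℝ) : aL Ψ b m h act s v x = 0 := by
  unfold aL al
  rw [setIntegral_eq_zero_of_forall_eq_zero, mul_zero]
  rintro z ⟨-, hz⟩
  have hzZ : z ∉ Z := fun hc => Set.disjoint_left.1 (T.lo s hs) hz hc
  simp only [T.off z hzZ]
  ring

/-- energy for every `v` -/
theorem energy_v (T : Tree S s0 m0 h act Z H D) (hc : Continuous Ψ) (hb : ∀ v, |Ψ v| ≤ 1)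
    (hS : s0 ≤ S) (v : ℝ) :
    ∑ s ∈ Finset.range S, ∫ x, (aL Ψ b m h act s v x) ^ 2 ≤ 72 * (H * D) ^ 2 * (1 / 2) ^ s0 := by
  have hH : 0 ≤ H := (abs_nonneg _).trans (T.bd 0)
  have h1 := energy (tree_hv (Ψ := Ψ) (b := b) (m := m) T hc hb v) hH hS
  rw [← Finset.sum_range_add_sum_Ico _ hS]
  have h2 : ∑ s ∈ Finset.range s0, ∫ x, (aL Ψ b m h act s v x) ^ 2 = 0 := by
    refine Finset.sum_eq_zero fun s hs => ?_
    have : ∀ x, (aL Ψ b m h act s v x) ^ 2 = 0 := fun x => by
      rw [aL_lo T (Finset.mem_range.1 hs)]; ring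
    simp only [this, integral_zero]
  rw [h2, zero_add]
  exact h1

/-! ### joint measurability in `(v, x)` -/

theorem jm_aL (hm : Measurable h) (hΨ : Measurable Ψ) {s : ℕ} (hact : MeasurableSet (act s)) :
    Measurable (Function.uncurry fun v x => aL Ψ b m h act s v x) := by
  classical
  let G : (ℝ × ℝ) × (ℝ × ℝ) → ℝ := fun q =>
    if cel s q.2.1 = cel s q.1.2 ∧ q.2 ∈ act s then ga s q.2.1 * (h q.2 * Ψ (q.1.1 - rv b m q.2))
    else 0
  have hG : Measurable G := by
    refine Measurable.ite ?_ ?_ measurable_const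
    · refine MeasurableSet.inter ?_ (measurable_snd hact)
      exact measurableSet_eq_fun ((measurable_cel s).comp (measurable_fst.comp measurable_snd))
        ((measurable_cel s).comp (measurable_snd.comp measurable_fst))
    · refine Measurable.mul ((measurable_ga s).comp (measurable_fst.comp measurable_snd)) ?_
      refine Measurable.mul (hm.comp measurable_snd) (hΨ.comp ?_)
      exact (measurable_fst.comp measurable_fst).sub ((measurable_rv b m).comp measurable_snd)
  have e : (Function.uncurry fun v x => aL Ψ b m h act s v x) =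
      fun p : ℝ × ℝ => (2 : ℝ) ^ s * ∫ z, G (p, z) := by
    funext p
    simp only [Function.uncurry, aL, al]
    congr 1
    have hms : MeasurableSet ({z : ℝ × ℝ | cel s z.1 = cel s p.2} ∩ act s) :=
      (measurableSet_strip s _).inter hact
    rw [← integral_indicator hms]
    refine integral_congr_ae (Filter.Eventually.of_forall fun z => ?_)
    simp only [G, Set.indicator_apply, Set.mem_inter_iff]
    rfl
  rw [e]
  exact (hG.stronglyMeasurable.integral_prod_right').measurable.const_mul _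

theorem jm_av {g : ℝ → ℝ → ℝ} (hg : Measurable (Function.uncurry g)) (s : ℕ) :
    Measurable (Function.uncurry fun v x => av s (g v) x) := by
  classical
  let G : (ℝ × ℝ) × ℝ → ℝ := fun q => if dx s q.2 = dx s q.1.2 then g q.1.1 q.2 else 0
  have hG : Measurable G := by
    refine Measurable.ite ?_ ?_ measurable_const
    · exact measurableSet_eq_fun ((measurable_dx s).comp measurable_snd)
        ((measurable_dx s).comp (measurable_snd.comp measurable_fst))
    · exact hg.comp ((measurable_fst.comp measurable_fst).prodMk measurable_snd)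
  have e : (Function.uncurry fun v x => av s (g v) x) =
      fun p : ℝ × ℝ => (2 : ℝ) ^ s * ∫ u, G (p, u) := by
    funext p
    simp only [Function.uncurry, av]
    congr 1
    rw [← integral_indicator (measurableSet_Jc s _)]
    refine integral_congr_ae (Filter.Eventually.of_forall fun u => ?_)
    simp only [G, Set.indicator_apply, mem_Jc]
  rw [e]
  exact (hG.stronglyMeasurable.integral_prod_right').measurable.const_mul _

theorem jm_Mx {g : ℝ → ℝ → ℝ} (hg : Measurable (Function.uncurry g)) (n : ℕ) :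
    Measurable (Function.uncurry fun v x => Mx (g v) n x) := by
  induction n with
  | zero => exact (jm_av hg 0).norm
  | succ n ih => exact ih.max (jm_av hg (n + 1)).norm

theorem jm_snd {f : ℝ → ℝ} (hf : Measurable f) :
    Measurable (Function.uncurry fun (_ : ℝ) x => f x) := hf.comp measurable_snd

section series

variable {a : ℕ → ℝ → ℝ → ℝ} (ha : ∀ r, Measurable (Function.uncurry (a r))) {ζ : ℝ → ℝ} {K : ℝ}

include ha in
theorem jm_FZ (hζ : ZB ζ K) (n : ℕ) :
    Measurable (Function.uncurry fun v x => FZ ζ (fun r => a r v) n x) := by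
  unfold FZ
  have : (Function.uncurry fun v x => ∑ r ∈ Finset.range n, zr ζ r x * a r v x) =
      fun p : ℝ × ℝ => ∑ r ∈ Finset.range n, zr ζ r p.2 * a r p.1 p.2 := rfl
  rw [this]
  exact Finset.measurable_fun_sum _ fun r _ => (jm_snd (zr_meas hζ r)).mul (ha r)

include ha in
theorem jm_bz (s : ℕ) :
    Measurable (Function.uncurry fun v x => bz ζ (fun r => a r v) s x) := by
  unfold bz
  have : (Function.uncurry fun v x => ∑ r ∈ Finset.range (s + 1),
      a r v x * av s (fun u => zr ζ r u * zr ζ s u) x) =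
      fun p : ℝ × ℝ => ∑ r ∈ Finset.range (s + 1),
        a r p.1 p.2 * av s (fun u => zr ζ r u * zr ζ s u) p.2 := rfl
  rw [this]
  exact Finset.measurable_fun_sum _ fun r _ => (ha r).mul (jm_snd (av_ad s _).measurable)

include ha in
theorem jm_GS (n : ℕ) :
    Measurable (Function.uncurry fun v x => GS (bz ζ fun r => a r v) n x) := by
  unfold GS
  have : (Function.uncurry fun v x => ∑ s ∈ Finset.range n, gr s x * bz ζ (fun r => a r v) s x) =
      fun p : ℝ × ℝ => ∑ s ∈ Finset.range n, gr s p.2 * bz ζ (fun r => a r p.1) s p.2 := rfl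
  rw [this]
  exact Finset.measurable_fun_sum _ fun s _ => (jm_snd (gr_ad s).measurable).mul (jm_bz ha s)

include ha in
theorem jm_GZ (hζ : ZB ζ K) (n : ℕ) :
    Measurable (Function.uncurry fun v x => GZ ζ K (fun r => a r v) n x) := by
  unfold GZ
  have : (Function.uncurry fun v x => 2 * (Mx (FZ ζ (fun r => a r v) n) n x) ^ 2 +
      4 * K ^ 2 * ∑ r ∈ Finset.range n, a r v x ^ 2) =
      fun p : ℝ × ℝ => 2 * ((Function.uncurry fun v x => Mx (FZ ζ (fun r => a r v) n) n x) p) ^ 2 +
        4 * K ^ 2 * ∑ r ∈ Finset.range n, (Function.uncurry (a r) p) ^ 2 := rfl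
  rw [this]
  exact (((jm_Mx (jm_FZ ha hζ n) n).pow_const 2).const_mul 2).add
    ((Finset.measurable_fun_sum _ fun r _ => (ha r).pow_const 2).const_mul _)

end series

/-! ### fundamental theorem in `v` -/

/-- outside `[-3,3]` the coefficients vanish -/
theorem aL_far (T : LTree S s0 m0 h act Z H D U b m) (hs : ∀ v, 2 < |v| → Ψ v = 0) (s : ℕ)
    {v : ℝ} (hv : 3 < |v|) (x : ℝ) : aL Ψ b m h act s v x = 0 := by
  unfold aL al
  rw [setIntegral_eq_zero_of_forall_eq_zero, mul_zero]
  rintro z ⟨-, hz⟩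
  by_cases hzZ : z ∈ Z
  · have h1 := T.rv1 z hzZ s hz
    have h2 : 2 < |v - rv b m z| := by
      have := abs_sub_abs_le_abs_sub v (rv b m z)
      linarith
    simp only [hs _ h2]; ring
  · simp only [T.off z hzZ]; ring

theorem aL_ftc (T : LTree S s0 m0 h act Z H D U b m) {Ψ Ψ' : ℝ → ℝ}
    (hd : ∀ v, HasDerivAt Ψ (Ψ' v) v) (hc : Continuous Ψ') (hs : ∀ v, 2 < |v| → Ψ v = 0)
    (hb : ∀ v, |Ψ' v| ≤ 1) (s : ℕ) {v : ℝ} (hv : -4 ≤ v) (x : ℝ) :
    aL Ψ b m h act s v x = ∫ t in (-4)..v, aL Ψ' b m h act s t x := by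
  set A : Set (ℝ × ℝ) := {z : ℝ × ℝ | cel s z.1 = cel s x} ∩ act s with hA
  have hAm : MeasurableSet A := (measurableSet_strip s (cel s x)).inter (T.mact s)
  have hZ : ∀ z ∈ A, ga s z.1 * (h z * Ψ (v - rv b m z)) =
      ∫ t in (-4)..v, ga s z.1 * (h z * Ψ' (t - rv b m z)) := by
    intro z hz
    rw [intervalIntegral.integral_const_mul, intervalIntegral.integral_const_mul]
    by_cases hzZ : z ∈ Z
    · have h1 := T.rv1 z hzZ s hz.2
      have h2 : ∫ t in (-4)..v, Ψ' (t - rv b m z) = Ψ (v - rv b m z) - Ψ (-4 - rv b m z) := by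
        refine intervalIntegral.integral_eq_sub_of_hasDerivAt (f := fun t => Ψ (t - rv b m z))
          (fun t _ => ?_) (Continuous.intervalIntegrable (by fun_prop) _ _)
        exact (hd (t - rv b m z)).comp_sub_const t (rv b m z)
      have h3 : Ψ (-4 - rv b m z) = 0 := by
        refine hs _ ?_
        have := abs_le.1 h1
        rw [lt_abs]; right; linarith
      rw [h2, h3, sub_zero]
    · rw [T.off z hzZ]; ring
  have e1 : aL Ψ b m h act s v x =
      (2 : ℝ) ^ s * ∫ z in A, ∫ t in (-4)..v, ga s z.1 * (h z * Ψ' (t - rv b m z)) := by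
    unfold aL al
    rw [← hA, setIntegral_congr_fun hAm hZ]
  have e2 : ∀ t, aL Ψ' b m h act s t x =
      (2 : ℝ) ^ s * ∫ z in A, ga s z.1 * (h z * Ψ' (t - rv b m z)) := fun t => rfl
  rw [e1]
  simp only [e2]
  rw [intervalIntegral.integral_const_mul]
  congr 1
  simp only [intervalIntegral.integral_of_le hv]
  rw [integral_integral_swap]
  -- integrability
  have i1 : Integrable (fun z : ℝ × ℝ => |h z|) (volume.restrict A) :=
    (nice_integrable T.nice).abs.restrict
  have i2 : Integrable (fun _ : ℝ => (1 : ℝ)) (volume.restrict (Set.Ioc (-4) v)) :=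
    integrable_const _
  have i3 := i1.mul_prod i2
  refine i3.mono' ?_ (Filter.Eventually.of_forall fun q => ?_)
  · refine Measurable.aestronglyMeasurable ?_
    refine Measurable.mul ((measurable_ga s).comp (measurable_fst.comp measurable_fst)) ?_
    refine Measurable.mul (T.nice.1.comp measurable_fst) (hc.measurable.comp ?_)
    exact measurable_snd.sub ((measurable_rv b m).comp measurable_fst)
  · simp only [Function.uncurry, Real.norm_eq_abs, mul_one]
    rw [abs_mul, abs_ga, one_mul, abs_mul]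
    calc |h q.1| * |Ψ' (q.2 - rv b m q.1)| ≤ |h q.1| * 1 := by gcongr; exact hb _
      _ = |h q.1| := mul_one _

/-- sup bound from an `L²` bound of the derivative -/
theorem sup_of_int {f f' : ℝ → ℝ} (hm : Measurable f') {M : ℝ} (hM : ∀ t, |f' t| ≤ M)
    (hf : ∀ v ∈ Set.Icc (-4 : ℝ) 4, f v = ∫ t in (-4)..v, f' t) {T : ℝ} (hT : 0 < T)
    (hI : ∫⁻ t in Set.Icc (-4 : ℝ) 4, ENNReal.ofReal ((f' t) ^ 2) ≤ ENNReal.ofReal (T ^ 2)) :
    ∀ v ∈ Set.Icc (-4 : ℝ) 4, |f v| ≤ 3 * T := by
  intro v hv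
  have iq : IntegrableOn (fun t => (f' t) ^ 2) (Set.Icc (-4 : ℝ) 4) := by
    refine Measure.integrableOn_of_bounded (M := M ^ 2) (by simp)
      (hm.pow_const 2).aestronglyMeasurable (Filter.Eventually.of_forall fun t => ?_)
    rw [Real.norm_eq_abs, abs_pow]
    exact pow_le_pow_left₀ (abs_nonneg _) (hM t) 2
  have ia : IntegrableOn (fun t => |f' t|) (Set.Icc (-4 : ℝ) 4) :=
    Measure.integrableOn_of_bounded (M := M) (by simp) hm.abs.aestronglyMeasurable
      (Filter.Eventually.of_forall fun t => by simpa using hM t)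
  have h2 : ∫ t in Set.Icc (-4 : ℝ) 4, (f' t) ^ 2 ≤ T ^ 2 := by
    rw [← ofReal_integral_eq_lintegral_ofReal iq (Filter.Eventually.of_forall fun t => sq_nonneg _)]
      at hI
    exact (ENNReal.ofReal_le_ofReal_iff (by positivity)).1 hI
  have h3 : ∫ t in Set.Icc (-4 : ℝ) 4, |f' t| ≤ 3 * T := by
    calc ∫ t in Set.Icc (-4 : ℝ) 4, |f' t| ≤
        ∫ t in Set.Icc (-4 : ℝ) 4, ((f' t) ^ 2 / T + T / 4) := by
          refine setIntegral_mono ia ((iq.div_const T).add (integrableOn_const (by simp))) fun t => ?_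
          have h4 : |f' t| * T ≤ (f' t) ^ 2 + T ^ 2 / 4 := by
            rw [← sq_abs (f' t)]; nlinarith [sq_nonneg (|f' t| - T / 2)]
          have h5 : |f' t| = |f' t| * T / T := by field_simp
          rw [h5]
          have h6 : (f' t) ^ 2 / T + T / 4 = ((f' t) ^ 2 + T ^ 2 / 4) / T := by field_simp
          show |f' t| * T / T ≤ (f' t) ^ 2 / T + T / 4
          rw [h6]
          gcongr
      _ = (∫ t in Set.Icc (-4 : ℝ) 4, (f' t) ^ 2) / T + 2 * T := by
          rw [integral_add (iq.div_const T) (integrableOn_const (by simp)), integral_div,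
            setIntegral_const]
          simp only [Measure.real, Real.volume_Icc]
          rw [ENNReal.toReal_ofReal (by norm_num)]
          rw [smul_eq_mul]
          ring
      _ ≤ T ^ 2 / T + 2 * T := by gcongr
      _ = 3 * T := by field_simp; ring
  rw [hf v hv, intervalIntegral.integral_of_le hv.1]
  calc |∫ t in Set.Ioc (-4) v, f' t| ≤ ∫ t in Set.Ioc (-4) v, |f' t| := abs_integral_le_integral_abs
    _ ≤ ∫ t in Set.Icc (-4 : ℝ) 4, |f' t| := by
        refine setIntegral_mono_set ia (Filter.Eventually.of_forall fun t => abs_nonneg _) ?_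
        exact (Set.Ioc_subset_Icc_self.trans (Set.Icc_subset_Icc_right hv.2)).eventuallyLE
    _ ≤ 3 * T := h3

end Crest.Agent.R087.TreeAx153
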