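import Crest.Agent.R087.Greedy_565
import Crest.Agent.R087.E2leaf_542

/-!
# Row 87: Vitali for own averages, colours

* `vit`    : abstract weak (1,1) for own averages;
* `colour` : strong consequence: if `{X > λ}` is contained in the set where some own average of
  `g 1[g ≥ c λ]` exceeds `λ/2`, then `∫ X² ≤ 4 K / c ∫ g²`;
* `Bt`, `vitB` : the concrete own sets along lines over dyadic intervals.
-/

set_option autoImplicit false

open MeasureTheory
open scoped ENNReal

namespace Crest.Agent.R087.Vitx565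

open Crest.Agent.R087 Greedyx565 Sh0x283 E2x542

/-- abstract weak (1,1) inequality for own averages. -/
theorem vit {X : Type*} [MeasurableSpace X] (μ : Measure X) (f : X → ℝ≥0∞) 
    (hfin : ∫⁻ w, f w ∂μ ≠ ∞) (S : ℕ) (B R : ℕ → X → Set X) (len : ℕ → ℝ≥0∞)
    (hlen0 : ∀ s, len s ≠ 0) (K l : ℝ≥0∞) (hl : l ≠ 0) (hl' : l ≠ ∞)
    (hB : ∀ s z, MeasurableSet (B s z)) (hR : ∀ s z, μ (R s z) ≤ K * len s)
    (hmeet : ∀ s s' z z', s ≤ s' → (B s z ∩ B s' z').Nonempty → z' ∈ R s z) :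
    μ {z | ∃ s < S, l * len s < ∫⁻ w in B s z, f w ∂μ} ≤ K / l * ∫⁻ w, f w ∂μ := by
  classical
  let ι : Type _ := {p : ℕ × X // p.1 < S ∧ l * len p.1 < ∫⁻ w in B p.1 p.2, f w ∂μ}
  let ν : Measure X := μ.withDensity f
  rcases Nat.eq_zero_or_pos S with hS | hS
  · subst hS
    have : {z | ∃ s < 0, l * len s < ∫⁻ w in B s z, f w ∂μ} = (∅ : Set X) := by
      ext z; simp
    rw [this]; simp
  let c : ℝ≥0∞ := (Finset.range S).inf' ⟨0, Finset.mem_range.mpr hS⟩ (fun s => l * len s)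
  have hc : c ≠ 0 := by
    obtain ⟨s, -, h2⟩ := Finset.exists_mem_eq_inf' (s := Finset.range S)
      ⟨0, Finset.mem_range.mpr hS⟩ (fun s => l * len s)
    show (Finset.range S).inf' _ _ ≠ 0
    rw [h2]
    exact mul_ne_zero hl (hlen0 s)
  have hνE : ∀ i : ι, ν (B i.1.1 i.1.2) = ∫⁻ w in B i.1.1 i.1.2, f w ∂μ := fun i =>
    withDensity_apply _ (hB _ _)
  obtain ⟨T, hT1, hT2⟩ := greedy ν (fun i : ι => B i.1.1 i.1.2) (fun i : ι => i.1.1) S
    (fun i => i.2.1) (fun i => hB _ _) hc (fun i => by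
      rw [hνE i]
      exact le_trans (Finset.inf'_le _ (Finset.mem_range.mpr i.2.1)) i.2.2.le)
    (Y := Set.univ) (fun i => Set.subset_univ _) (by
      rw [withDensity_apply _ MeasurableSet.univ, Measure.restrict_univ]
      exact hfin)
  have hsub : {z | ∃ s < S, l * len s < ∫⁻ w in B s z, f w ∂μ} ⊆
      ⋃ t ∈ T, R t.1.1 t.1.2 := by
    rintro z ⟨s, hs, hz⟩
    obtain ⟨t, ht, h1, h2⟩ := hT2 ⟨(s, z), hs, hz⟩
    simp only [Set.mem_iUnion]
    exact ⟨t, ht, hmeet _ _ _ _ h1 h2⟩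
  have hll : l * l⁻¹ = 1 := ENNReal.mul_inv_cancel hl hl'
  calc μ {z | ∃ s < S, l * len s < ∫⁻ w in B s z, f w ∂μ}
      ≤ μ (⋃ t ∈ T, R t.1.1 t.1.2) := measure_mono hsub
    _ ≤ ∑ t ∈ T, μ (R t.1.1 t.1.2) := measure_biUnion_finset_le _ _
    _ ≤ ∑ t ∈ T, K / l * ∫⁻ w in B t.1.1 t.1.2, f w ∂μ := by
        refine Finset.sum_le_sum (fun t _ => (hR _ _).trans ?_)
        calc K * len t.1.1 = K / l * (l * len t.1.1) := by
              rw [ENNReal.div_eq_inv_mul, mul_comm l⁻¹ K, mul_assoc, ← mul_assoc l⁻¹ l,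
                mul_comm l⁻¹ l, hll, one_mul]
          _ ≤ K / l * ∫⁻ w in B t.1.1 t.1.2, f w ∂μ := by gcongr; exact t.2.2.le
    _ = K / l * ∑ t ∈ T, ∫⁻ w in B t.1.1 t.1.2, f w ∂μ := by rw [Finset.mul_sum]
    _ = K / l * ∫⁻ w in ⋃ t ∈ T, B t.1.1 t.1.2, f w ∂μ := by
        rw [lintegral_biUnion_finset hT1 (fun t _ => hB _ _)]
    _ ≤ K / l * ∫⁻ w, f w ∂μ := by
        gcongr
        exact Measure.restrict_le_self

/-- strong consequence for colours. -/
theorem colour {X : Type*} [MeasurableSpace X] (μ : Measure X) [SFinite μ] (g N : X → ℝ)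
    (hg : Measurable g) (hg0 : ∀ z, 0 ≤ g z) (hN : Measurable N) (hN0 : ∀ z, 0 ≤ N z) (K c : ℝ)
    (hc : 0 < c)
    (hw : ∀ l : ℝ, 0 < l → μ {z | l < N z} ≤
      ENNReal.ofReal (K / l) * ∫⁻ w in {w | c * l ≤ g w}, ENNReal.ofReal (g w) ∂μ) :
    ∫⁻ z, ENNReal.ofReal (N z ^ 2) ∂μ ≤
      ENNReal.ofReal (2 * K / c) * ∫⁻ z, ENNReal.ofReal (g z ^ 2) ∂μ := by
  have h1 : ∫⁻ z, ENNReal.ofReal (N z ^ 2) ∂μ =
      ENNReal.ofReal 2 * ∫⁻ t in Set.Ioi (0 : ℝ), μ {a | t < N a} * ENNReal.ofReal (t ^ ((2 : ℝ) - 1)) := by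
    rw [← lintegral_rpow_eq_lintegral_meas_lt_mul μ (Filter.Eventually.of_forall hN0)
      hN.aemeasurable (by norm_num : (0 : ℝ) < 2)]
    refine lintegral_congr (fun z => ?_)
    norm_num
  have hgm : Measurable (fun p : X × ℝ =>
      Set.indicator {p : X × ℝ | c * p.2 ≤ g p.1} (fun p => ENNReal.ofReal (g p.1)) p) := by
    refine Measurable.indicator ?_ ?_
    · exact (hg.comp measurable_fst).ennreal_ofReal
    · exact measurableSet_le (measurable_const.mul measurable_snd) (hg.comp measurable_fst)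
  have hset : ∀ t : ℝ, MeasurableSet {w | c * t ≤ g w} := fun t =>
    measurableSet_le measurable_const hg
  rw [h1]
  calc ENNReal.ofReal 2 * ∫⁻ t in Set.Ioi (0 : ℝ), μ {a | t < N a} * ENNReal.ofReal (t ^ ((2 : ℝ) - 1))
      ≤ ENNReal.ofReal 2 * ∫⁻ t in Set.Ioi (0 : ℝ), ENNReal.ofReal K *
          ∫⁻ w, Set.indicator {p : X × ℝ | c * p.2 ≤ g p.1} (fun p => ENNReal.ofReal (g p.1)) (w, t) ∂μ := by
        gcongr ENNReal.ofReal 2 * ?_
        refine setLIntegral_mono' measurableSet_Ioi (fun t ht => ?_)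
        have ht' : 0 < t := ht
        have h2 : ENNReal.ofReal (t ^ ((2 : ℝ) - 1)) = ENNReal.ofReal t := by norm_num
        rw [h2]
        calc μ {a | t < N a} * ENNReal.ofReal t
            ≤ (ENNReal.ofReal (K / t) * ∫⁻ w in {w | c * t ≤ g w}, ENNReal.ofReal (g w) ∂μ) *
                ENNReal.ofReal t := by gcongr; exact hw t ht'
          _ = (ENNReal.ofReal (K / t) * ENNReal.ofReal t) *
                ∫⁻ w in {w | c * t ≤ g w}, ENNReal.ofReal (g w) ∂μ := by ring
          _ = ENNReal.ofReal K * ∫⁻ w in {w | c * t ≤ g w}, ENNReal.ofReal (g w) ∂μ := by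
              rw [← ENNReal.ofReal_mul' ht'.le, div_mul_cancel₀ _ ht'.ne']
          _ = ENNReal.ofReal K * ∫⁻ w, Set.indicator {p : X × ℝ | c * p.2 ≤ g p.1}
                (fun p => ENNReal.ofReal (g p.1)) (w, t) ∂μ := by
              rw [← lintegral_indicator (hset t)]
              rfl
    _ = ENNReal.ofReal 2 * (ENNReal.ofReal K * ∫⁻ t in Set.Ioi (0 : ℝ),
          ∫⁻ w, Set.indicator {p : X × ℝ | c * p.2 ≤ g p.1} (fun p => ENNReal.ofReal (g p.1)) (w, t) ∂μ) := by
        rw [lintegral_const_mul _ (Measurable.lintegral_prod_left' (f := fun p : X × ℝ =>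
          Set.indicator {p : X × ℝ | c * p.2 ≤ g p.1} (fun p => ENNReal.ofReal (g p.1)) p) hgm)]
    _ = ENNReal.ofReal 2 * (ENNReal.ofReal K * ∫⁻ w, (∫⁻ t in Set.Ioi (0 : ℝ),
          Set.indicator {p : X × ℝ | c * p.2 ≤ g p.1} (fun p => ENNReal.ofReal (g p.1)) (w, t)) ∂μ) := by
        rw [lintegral_lintegral_swap]
        exact (hgm.comp measurable_swap).aemeasurable
    _ = ENNReal.ofReal 2 * (ENNReal.ofReal K * ∫⁻ w, ENNReal.ofReal (g w ^ 2 / c) ∂μ) := by
        congr 2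
        refine lintegral_congr (fun w => ?_)
        have h3 : ∀ t : ℝ, Set.indicator {p : X × ℝ | c * p.2 ≤ g p.1}
            (fun p => ENNReal.ofReal (g p.1)) (w, t) =
            Set.indicator (Set.Iic (g w / c)) (fun _ => ENNReal.ofReal (g w)) t := by
          intro t
          by_cases h4 : c * t ≤ g w
          · rw [Set.indicator_of_mem (by exact h4), Set.indicator_of_mem]
            show t ≤ g w / c
            rw [le_div_iff₀ hc, mul_comm]; exact h4
          · rw [Set.indicator_of_notMem (by exact h4), Set.indicator_of_notMem]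
            intro h5
            apply h4
            have h6 : t ≤ g w / c := h5
            rw [le_div_iff₀ hc, mul_comm] at h6; exact h6
        simp_rw [h3]
        rw [lintegral_indicator measurableSet_Iic, setLIntegral_const,
          Measure.restrict_apply measurableSet_Iic, Set.Iic_inter_Ioi, Real.volume_Ioc,
          ← ENNReal.ofReal_mul (hg0 w)]
        congr 1
        ring
    _ = ENNReal.ofReal (2 * K / c) * ∫⁻ z, ENNReal.ofReal (g z ^ 2) ∂μ := by
        have h5 : ∀ w, ENNReal.ofReal (g w ^ 2 / c) = ENNReal.ofReal (1 / c) * ENNReal.ofReal (g w ^ 2) := by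
          intro w
          rw [← ENNReal.ofReal_mul (by positivity)]
          congr 1
          ring
        simp_rw [h5]
        rw [lintegral_const_mul _ (by fun_prop), ← mul_assoc, ← mul_assoc,
          ← ENNReal.ofReal_mul (by norm_num), ← ENNReal.ofReal_mul' (by positivity)]
        congr 2
        ring

end Crest.Agent.R087.Vitx565
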