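import Mathlib

/-!
Row 87: abstract greedy (Vitali) selection at finitely many dyadic scales, and the abstract weak
(1,1) estimate for "own-average" maximal functions.
-/

set_option autoImplicit false

noncomputable section

open MeasureTheory
open scoped ENNReal

namespace Crest.Agent.R087.Vitx90

/-- greedy selection, longest first (`k` = scale, length `2^-k`), of finitely many disjoint sets. -/
theorem select {α ι : Type*} [MeasurableSpace α] (μ : Measure α) (E : ι → Set α) (k : ι → ℕ)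
    (t : Set ι) (f : α → ℝ≥0∞) (hf : ∫⁻ x, f x ∂μ ≠ ∞) (ε : ℝ≥0∞)
    (hε : ε ≠ 0) (hE : ∀ a ∈ t, MeasurableSet (E a)) (hbig : ∀ a ∈ t, ε ≤ ∫⁻ x in E a, f x ∂μ) :
    ∃ u : Finset ι, (∀ a ∈ u, a ∈ t) ∧ (∀ a ∈ u, ∀ b ∈ u, a ≠ b → Disjoint (E a) (E b)) ∧
      ∀ a ∈ t, ∃ b ∈ u, (E a ∩ E b).Nonempty ∧ k b ≤ k a := by
  classical
  have hne : ∀ a ∈ t, (E a).Nonempty := by
    intro a ha
    by_contra h
    rw [Set.not_nonempty_iff_eq_empty] at h
    have := hbig a ha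
    rw [h] at this
    simp at this
    exact hε this
  obtain ⟨u, hut, hud, hu⟩ := Vitali.exists_disjoint_subfamily_covering_enlargement E t
    (fun a => (1 / 2 : ℝ) ^ (k a)) (3 / 2) (by norm_num) (fun a _ => by positivity) 1
    (fun a _ => pow_le_one₀ (by norm_num) (by norm_num)) hne
  have hfin : u.Finite := by
    by_contra hinf
    have hinf' : u.Infinite := hinf
    obtain ⟨n, hn⟩ := ENNReal.exists_nat_mul_gt hε hf
    obtain ⟨s, hs, hcard⟩ := hinf'.exists_subset_card_eq n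
    have hsd : Set.PairwiseDisjoint (s : Set ι) E := hud.subset hs
    have h1 : ∫⁻ x in ⋃ i ∈ s, E i, f x ∂μ = ∑ i ∈ s, ∫⁻ x in E i, f x ∂μ :=
      lintegral_biUnion_finset hsd (fun i hi => hE i (hut (hs hi))) f
    have h2 : (s.card : ℝ≥0∞) * ε ≤ ∑ i ∈ s, ∫⁻ x in E i, f x ∂μ := by
      rw [← nsmul_eq_mul]
      exact Finset.card_nsmul_le_sum s _ ε (fun i hi => hbig i (hut (hs hi)))
    have h3 : ∫⁻ x in ⋃ i ∈ s, E i, f x ∂μ ≤ ∫⁻ x, f x ∂μ := setLIntegral_le_lintegral _ _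
    rw [hcard] at h2
    exact absurd (lt_of_lt_of_le hn (h2.trans (h1 ▸ h3))) (lt_irrefl _)
  refine ⟨hfin.toFinset, fun a ha => hut (hfin.mem_toFinset.1 ha), ?_, ?_⟩
  · intro a ha b hb hab
    exact hud (hfin.mem_toFinset.1 ha) (hfin.mem_toFinset.1 hb) hab
  · intro a ha
    obtain ⟨b, hb, h1, h2⟩ := hu a ha
    refine ⟨b, hfin.mem_toFinset.2 hb, h1, ?_⟩
    by_contra hlt
    push Not at hlt
    have h3 : (1 / 2 : ℝ) ^ (k b) ≤ (1 / 2 : ℝ) ^ (k a + 1) :=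
      pow_le_pow_of_le_one (by norm_num) (by norm_num) hlt
    have h4 : 0 < (1 / 2 : ℝ) ^ (k a) := by positivity
    rw [pow_succ] at h3
    nlinarith

/-- abstract weak (1,1) estimate: if every `a ∈ t` satisfies `lam 2^{-k a} ≤ ∫_{E a} f`, and
`core a ⊆ body b` whenever `E a` meets `E b` and `b` is at least as long as `a`, then
`lam |⋃ core a| ≤ C ∫ f`, where `|body b| ≤ C 2^{-k b}`. -/
theorem weak {α ι : Type*} [MeasurableSpace α] (μ : Measure α) (E core body : ι → Set α)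
    (k : ι → ℕ) (S : ℕ) (t : Set ι) (hk : ∀ a ∈ t, k a ≤ S) (f : α → ℝ≥0∞)
    (hf : ∫⁻ x, f x ∂μ ≠ ∞) (lam C : ℝ≥0∞) (hlam : lam ≠ 0)
    (hE : ∀ a ∈ t, MeasurableSet (E a))
    (hbig : ∀ a ∈ t, lam * (1 / 2 : ℝ≥0∞) ^ (k a) ≤ ∫⁻ x in E a, f x ∂μ)
    (hinc : ∀ a ∈ t, ∀ b ∈ t, (E a ∩ E b).Nonempty → k b ≤ k a → core a ⊆ body b)
    (hvol : ∀ b ∈ t, μ (body b) ≤ C * (1 / 2 : ℝ≥0∞) ^ (k b)) :
    lam * μ (⋃ a ∈ t, core a) ≤ C * ∫⁻ x, f x ∂μ := by
  classical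
  have hε : lam * (1 / 2 : ℝ≥0∞) ^ S ≠ 0 := by
    refine mul_ne_zero hlam (pow_ne_zero _ ?_)
    simp
  obtain ⟨u, hut, hud, hu⟩ := select μ E k t f hf (lam * (1 / 2 : ℝ≥0∞) ^ S) hε hE (by
    intro a ha
    refine le_trans ?_ (hbig a ha)
    have h2 : (1 / 2 : ℝ≥0∞) ≤ 1 := by
      rw [one_div]; exact ENNReal.inv_le_one.2 (by norm_num)
    exact mul_le_mul_right (pow_le_pow_right_of_le_one' h2 (hk a ha)) lam)
  have hsub : (⋃ a ∈ t, core a) ⊆ ⋃ b ∈ u, body b := by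
    intro x hx
    simp only [Set.mem_iUnion, exists_prop] at hx ⊢
    obtain ⟨a, ha, hx⟩ := hx
    obtain ⟨b, hb, h1, h2⟩ := hu a ha
    exact ⟨b, hb, hinc a ha b (hut b hb) h1 h2 hx⟩
  have hsd : Set.PairwiseDisjoint (u : Set ι) E := fun a ha b hb hab => hud a ha b hb hab
  calc lam * μ (⋃ a ∈ t, core a) ≤ lam * ∑ b ∈ u, μ (body b) := by
        gcongr
        exact (measure_mono hsub).trans (measure_biUnion_finset_le u body)
    _ ≤ lam * ∑ b ∈ u, C * (1 / 2 : ℝ≥0∞) ^ (k b) := by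
        gcongr with b hb
        exact hvol b (hut b hb)
    _ = C * ∑ b ∈ u, lam * (1 / 2 : ℝ≥0∞) ^ (k b) := by
        rw [Finset.mul_sum, Finset.mul_sum]
        refine Finset.sum_congr rfl (fun b _ => ?_)
        ring
    _ ≤ C * ∑ b ∈ u, ∫⁻ x in E b, f x ∂μ := by
        gcongr with b hb
        exact hbig b (hut b hb)
    _ = C * ∫⁻ x in ⋃ b ∈ u, E b, f x ∂μ := by
        rw [lintegral_biUnion_finset hsd (fun i hi => hE i (hut i hi)) f]
    _ ≤ C * ∫⁻ x, f x ∂μ := by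
        gcongr
        exact Measure.restrict_le_self

end Crest.Agent.R087.Vitx90
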